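import Vale.Agent.P154.Final3
import Vale.Agent.P154.CertD2m1

/-! Generated certificates. -/

namespace Vale.Agent.P154

theorem nonrec_2 {lam : ℝ} (h0 : 0 ≤ lam) (h1 : ((2 : ℕ) : ℝ) * lam ^ 2 ≤ 1) :
    Nonreconstruction 3 lam (regular 2) := by
  have hL : lam ≤ 70711/100000 := lam_le h1 (by norm_num) (by norm_num)
  have D1 := dom_one lam (regular 2) (Psi (d2m1Cfg.P.aV / d2m1Cfg.P.Q)
    (d2m1Cfg.P.bV / d2m1Cfg.P.Q) (d2m1Cfg.P.cV / d2m1Cfg.P.Q))
  have D2 := dom_step (i := 1) (j := 1) h0 hL (by norm_num) (isOff_regular 2) d2m1_ok d2m1_T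
    (by decide) (by decide) d2m1Cert (by decide) (by decide) (by decide) (by decide) d2m1_check
    (by norm_num) (by norm_num) (by decide) (by decide) D1 D1
  refine nonrec_regular2 (by norm_num) h0 h1 (197/100000) (3/100000) (3/50000) (7071/10000)
    (70711/100000) ?_ (by norm_num) (by norm_num) (by norm_num) (by norm_num) (by norm_num)
    (by norm_num) ?_ ?_ ?_ ?_ ?_ ?_ D2
  · refine ⟨?_, ?_, ?_, ?_, ?_, ?_⟩ <;> norm_num [d2m1Cfg, d2m1Cfg]
  all_goals norm_num [d2m1Cfg, d2m1Cfg]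

end Vale.Agent.P154
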