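import Vale.Agent.P154.Final3
import Vale.Agent.P154.CertD3m1
import Vale.Agent.P154.CertD3m2

/-! Generated certificates. -/

namespace Vale.Agent.P154

theorem nonrec_3 {lam : ℝ} (h0 : 0 ≤ lam) (h1 : ((3 : ℕ) : ℝ) * lam ^ 2 ≤ 1) :
    Nonreconstruction 3 lam (regular 3) := by
  have hL : lam ≤ 7217/12500 := lam_le h1 (by norm_num) (by norm_num)
  have D1 := dom_one lam (regular 3) (Psi (d3m1Cfg.P.aV / d3m1Cfg.P.Q)
    (d3m1Cfg.P.bV / d3m1Cfg.P.Q) (d3m1Cfg.P.cV / d3m1Cfg.P.Q))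
  have D2 := dom_step (i := 1) (j := 1) h0 hL (by norm_num) (isOff_regular 3) d3m1_ok d3m1_T
    (by decide) (by decide) d3m1Cert (by decide) (by decide) (by decide) (by decide) d3m1_check
    (by norm_num) (by norm_num) (by decide) (by decide) D1 D1
  have D3 := dom_step (i := 2) (j := 1) h0 hL (by norm_num) (isOff_regular 3) d3m2_ok d3m2_T
    (by decide) (by decide) d3m2Cert (by decide) (by decide) (by decide) (by decide) d3m2_check
    (by norm_num) (by norm_num) (by decide) (by decide) D2 D1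
  refine nonrec_regular2 (by norm_num) h0 h1 (179/100000) (1/100000) (0) (11547/20000)
    (7217/12500) ?_ (by norm_num) (by norm_num) (by norm_num) (by norm_num) (by norm_num)
    (by norm_num) ?_ ?_ ?_ ?_ ?_ ?_ D3
  · refine ⟨?_, ?_, ?_, ?_, ?_, ?_⟩ <;> norm_num [d3m2Cfg, d3m1Cfg]
  all_goals norm_num [d3m2Cfg, d3m1Cfg]

end Vale.Agent.P154
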