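import Vale.Agent.P154.Final3
import Vale.Agent.P154.CertD4m1
import Vale.Agent.P154.CertD4m2
import Vale.Agent.P154.CertD4m3

/-! Generated certificates. -/

namespace Vale.Agent.P154

theorem nonrec_4 {lam : ℝ} (h0 : 0 ≤ lam) (h1 : ((4 : ℕ) : ℝ) * lam ^ 2 ≤ 1) :
    Nonreconstruction 3 lam (regular 4) := by
  have hL : lam ≤ 1/2 := lam_le h1 (by norm_num) (by norm_num)
  have D1 := dom_one lam (regular 4) (Psi (d4m1Cfg.P.aV / d4m1Cfg.P.Q)
    (d4m1Cfg.P.bV / d4m1Cfg.P.Q) (d4m1Cfg.P.cV / d4m1Cfg.P.Q))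
  have D2 := dom_step (i := 1) (j := 1) h0 hL (by norm_num) (isOff_regular 4) d4m1_ok d4m1_T
    (by decide) (by decide) d4m1Cert (by decide) (by decide) (by decide) (by decide) d4m1_check
    (by norm_num) (by norm_num) (by decide) (by decide) D1 D1
  have D3 := dom_step (i := 2) (j := 1) h0 hL (by norm_num) (isOff_regular 4) d4m2_ok d4m2_T
    (by decide) (by decide) d4m2Cert (by decide) (by decide) (by decide) (by decide) d4m2_check
    (by norm_num) (by norm_num) (by decide) (by decide) D2 D1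
  have D4 := dom_step (i := 3) (j := 1) h0 hL (by norm_num) (isOff_regular 4) d4m3_ok d4m3_T
    (by decide) (by decide) d4m3Cert (by decide) (by decide) (by decide) (by decide) d4m3_check
    (by norm_num) (by norm_num) (by decide) (by decide) D3 D1
  refine nonrec_regular2 (by norm_num) h0 h1 (73/50000) (3/100000) (0) (1/2)
    (1/2) ?_ (by norm_num) (by norm_num) (by norm_num) (by norm_num) (by norm_num)
    (by norm_num) ?_ ?_ ?_ ?_ ?_ ?_ D4
  · refine ⟨?_, ?_, ?_, ?_, ?_, ?_⟩ <;> norm_num [d4m3Cfg, d4m1Cfg]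
  all_goals norm_num [d4m3Cfg, d4m1Cfg]

end Vale.Agent.P154
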