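import Vale.Agent.P154.Final3
import Vale.Agent.P154.CertD5m1
import Vale.Agent.P154.CertD5m2
import Vale.Agent.P154.CertD5m3
import Vale.Agent.P154.CertD5m4

/-! Generated certificates. -/

namespace Vale.Agent.P154

theorem nonrec_5 {lam : ℝ} (h0 : 0 ≤ lam) (h1 : ((5 : ℕ) : ℝ) * lam ^ 2 ≤ 1) :
    Nonreconstruction 3 lam (regular 5) := by
  have hL : lam ≤ 22361/50000 := lam_le h1 (by norm_num) (by norm_num)
  have D1 := dom_one lam (regular 5) (Psi (d5m1Cfg.P.aV / d5m1Cfg.P.Q)
    (d5m1Cfg.P.bV / d5m1Cfg.P.Q) (d5m1Cfg.P.cV / d5m1Cfg.P.Q))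
  have D2 := dom_step (i := 1) (j := 1) h0 hL (by norm_num) (isOff_regular 5) d5m1_ok d5m1_T
    (by decide) (by decide) d5m1Cert (by decide) (by decide) (by decide) (by decide) d5m1_check
    (by norm_num) (by norm_num) (by decide) (by decide) D1 D1
  have D3 := dom_step (i := 2) (j := 1) h0 hL (by norm_num) (isOff_regular 5) d5m2_ok d5m2_T
    (by decide) (by decide) d5m2Cert (by decide) (by decide) (by decide) (by decide) d5m2_check
    (by norm_num) (by norm_num) (by decide) (by decide) D2 D1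
  have D4 := dom_step (i := 3) (j := 1) h0 hL (by norm_num) (isOff_regular 5) d5m3_ok d5m3_T
    (by decide) (by decide) d5m3Cert (by decide) (by decide) (by decide) (by decide) d5m3_check
    (by norm_num) (by norm_num) (by decide) (by decide) D3 D1
  have D5 := dom_step (i := 4) (j := 1) h0 hL (by norm_num) (isOff_regular 5) d5m4_ok d5m4_T
    (by decide) (by decide) d5m4Cert (by decide) (by decide) (by decide) (by decide) d5m4_check
    (by norm_num) (by norm_num) (by decide) (by decide) D4 D1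
  refine nonrec_regular2 (by norm_num) h0 h1 (121/100000) (1/100000) (0) (44721/100000)
    (22361/50000) ?_ (by norm_num) (by norm_num) (by norm_num) (by norm_num) (by norm_num)
    (by norm_num) ?_ ?_ ?_ ?_ ?_ ?_ D5
  · refine ⟨?_, ?_, ?_, ?_, ?_, ?_⟩ <;> norm_num [d5m4Cfg, d5m1Cfg]
  all_goals norm_num [d5m4Cfg, d5m1Cfg]

end Vale.Agent.P154
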