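import Vale.Agent.P154.Final3
import Vale.Agent.P154.CertD6m1
import Vale.Agent.P154.CertD6m2
import Vale.Agent.P154.CertD6m3
import Vale.Agent.P154.CertD6m4
import Vale.Agent.P154.CertD6m5

/-! Generated certificates. -/

namespace Vale.Agent.P154

theorem nonrec_6 {lam : ℝ} (h0 : 0 ≤ lam) (h1 : ((6 : ℕ) : ℝ) * lam ^ 2 ≤ 1) :
    Nonreconstruction 3 lam (regular 6) := by
  have hL : lam ≤ 1633/4000 := lam_le h1 (by norm_num) (by norm_num)
  have D1 := dom_one lam (regular 6) (Psi (d6m1Cfg.P.aV / d6m1Cfg.P.Q)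
    (d6m1Cfg.P.bV / d6m1Cfg.P.Q) (d6m1Cfg.P.cV / d6m1Cfg.P.Q))
  have D2 := dom_step (i := 1) (j := 1) h0 hL (by norm_num) (isOff_regular 6) d6m1_ok d6m1_T
    (by decide) (by decide) d6m1Cert (by decide) (by decide) (by decide) (by decide) d6m1_check
    (by norm_num) (by norm_num) (by decide) (by decide) D1 D1
  have D3 := dom_step (i := 2) (j := 1) h0 hL (by norm_num) (isOff_regular 6) d6m2_ok d6m2_T
    (by decide) (by decide) d6m2Cert (by decide) (by decide) (by decide) (by decide) d6m2_check
    (by norm_num) (by norm_num) (by decide) (by decide) D2 D1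
  have D4 := dom_step (i := 3) (j := 1) h0 hL (by norm_num) (isOff_regular 6) d6m3_ok d6m3_T
    (by decide) (by decide) d6m3Cert (by decide) (by decide) (by decide) (by decide) d6m3_check
    (by norm_num) (by norm_num) (by decide) (by decide) D3 D1
  have D5 := dom_step (i := 4) (j := 1) h0 hL (by norm_num) (isOff_regular 6) d6m4_ok d6m4_T
    (by decide) (by decide) d6m4Cert (by decide) (by decide) (by decide) (by decide) d6m4_check
    (by norm_num) (by norm_num) (by decide) (by decide) D4 D1
  have D6 := dom_step (i := 5) (j := 1) h0 hL (by norm_num) (isOff_regular 6) d6m5_ok d6m5_T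
    (by decide) (by decide) d6m5Cert (by decide) (by decide) (by decide) (by decide) d6m5_check
    (by norm_num) (by norm_num) (by decide) (by decide) D5 D1
  refine nonrec_regular2 (by norm_num) h0 h1 (1/1000) (1/50000) (0) (5103/12500)
    (1633/4000) ?_ (by norm_num) (by norm_num) (by norm_num) (by norm_num) (by norm_num)
    (by norm_num) ?_ ?_ ?_ ?_ ?_ ?_ D6
  · refine ⟨?_, ?_, ?_, ?_, ?_, ?_⟩ <;> norm_num [d6m5Cfg, d6m1Cfg]
  all_goals norm_num [d6m5Cfg, d6m1Cfg]

end Vale.Agent.P154
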