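import Vale.Agent.P154.Final3
import Vale.Agent.P154.CertUniv

/-!
# Nonreconstruction for every Galton-Watson tree, `q = 3`, `0 ≤ λ ≤ 0.3536`, `m λ² ≤ 1`
-/

namespace Vale.Agent.P154

/-- Domination of any number of children, `0 ≤ λ ≤ 0.3536`. -/
theorem dom_univ {off : ℕ → ℝ} (hoff : IsOff off) {lam : ℝ} (h0 : 0 ≤ lam)
    (hL : lam ≤ 221 / 625) (k : ℕ) :
    Dom lam off k (Psi (uvSCfg.P.aK / uvSCfg.P.Q) (uvSCfg.P.bK / uvSCfg.P.Q)
      (uvSCfg.P.cK / uvSCfg.P.Q)) (Psi (uvSCfg.P.aV / uvSCfg.P.Q) (uvSCfg.P.bV / uvSCfg.P.Q)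
      (uvSCfg.P.cV / uvSCfg.P.Q)) := by
  induction k with
  | zero =>
    apply dom_zero
    norm_num [Psi, tot, Nh, Ch]
  | succ k ih =>
    exact dom_step (i := k) (j := 1) h0 hL (by norm_num) hoff uvS_ok uvS_T
      (by decide) (by decide) uvSCert (by decide) (by decide) (by decide) (by decide) uvS_check
      (by norm_num) (by norm_num) (by decide) (by decide) ih (dom_one lam off _)

/-- Every Galton-Watson tree with mean offspring number `m`, `m λ² ≤ 1`. -/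
theorem nonrec_GW {off : ℕ → ℝ} (hoff : IsOff off) {m : ℝ}
    (hm : HasSum (fun k : ℕ => off k * k) m) {lam : ℝ} (h0 : 0 ≤ lam) (hL : lam ≤ 221 / 625)
    (h1 : m * lam ^ 2 ≤ 1) : Nonreconstruction 3 lam off := by
  refine nonrec_univ (L := 221 / 625) (δ := 1 / 100000) hoff hm h0 hL (by norm_num) h1 ?_ ?_
    (by norm_num) ?_ (dom_univ hoff h0 hL)
  · refine ⟨?_, ?_, ?_, ?_, ?_, ?_⟩ <;> norm_num [uvSCfg]
  · norm_num [uvSCfg]
  · norm_num [uvSCfg, abs_le, abs_of_nonneg, abs_of_nonpos, max_def]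

end Vale.Agent.P154
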