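import Vale.Agent.P154.Dichotomy
import Vale.Agent.P154.Univ
import Vale.Agent.P154.D2
import Vale.Agent.P154.D3
import Vale.Agent.P154.D4
import Vale.Agent.P154.D5
import Vale.Agent.P154.D6
import Vale.Agent.P154.D7

/-! Regular trees of every degree, and Poisson trees of mean at least `8`. -/

namespace Vale.Agent.P154

theorem mean_regular (d : ℕ) : HasSum (fun k : ℕ => regular d k * k) d := by
  have := hasSum_single (f := fun k : ℕ => regular d k * (k : ℝ)) d (fun k hk => by
    simp [regular, hk])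
  simpa [regular] using this

theorem mean_poisson {d : ℝ} (hd : 0 ≤ d) : HasSum (fun k : ℕ => poisson d k * k) d := by
  have hs := (isOff_poisson hd).sum
  rw [← hasSum_nat_add_iff' 1]
  refine KS.hs_congr (hs.mul_left d) (fun k => ?_) (by simp)
  simp only [poisson, Nat.factorial_succ]
  push_cast
  have : ((k : ℝ) + 1) ≠ 0 := by positivity
  have h' : (k.factorial : ℝ) ≠ 0 := by positivity
  field_simp
  ring

theorem lam_le' {d lam : ℝ} (hd : 8 ≤ d) (h1 : d * lam ^ 2 ≤ 1) : lam ≤ 221 / 625 := by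
  by_contra h
  rw [not_le] at h
  have h2 : (221 / 625 : ℝ) ^ 2 ≤ lam ^ 2 := by gcongr
  have h3 : 8 * (221 / 625 : ℝ) ^ 2 ≤ d * lam ^ 2 := by gcongr
  norm_num at h3
  linarith

theorem nonrec_all {d : ℕ} (hd : 2 ≤ d) {lam : ℝ} (h0 : 0 ≤ lam) (h1 : (d : ℝ) * lam ^ 2 ≤ 1) :
    Nonreconstruction 3 lam (regular d) := by
  rcases Nat.lt_or_ge d 8 with h | h
  · interval_cases d
    · exact nonrec_2 h0 h1
    · exact nonrec_3 h0 h1
    · exact nonrec_4 h0 h1
    · exact nonrec_5 h0 h1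
    · exact nonrec_6 h0 h1
    · exact nonrec_7 h0 h1
  · have h' : (8 : ℝ) ≤ d := by exact_mod_cast h
    exact nonrec_GW (isOff_regular d) (mean_regular d) h0 (lam_le' h' h1) h1

theorem nonrec_poisson8 {d : ℝ} (hd : 8 ≤ d) {lam : ℝ} (h0 : 0 ≤ lam) (h1 : d * lam ^ 2 ≤ 1) :
    Nonreconstruction 3 lam (poisson d) :=
  nonrec_GW (isOff_poisson (by linarith)) (mean_poisson (by linarith)) h0 (lam_le' hd h1) h1

end Vale.Agent.P154
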