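import Vale.Agent.P154.Defs

/-!
Definitions for the reduction of nonreconstruction (q = 3) to pointwise inequalities.
-/

namespace Vale.Agent.P154

open scoped BigOperators ENNReal

abbrev V := Fin 3 → ℝ

/-- total mass -/
def tot (x : V) : ℝ := x 0 + x 1 + x 2
/-- Hadamard product -/
def had (x y : V) : V := fun i => x i * y i
/-- the channel acting on a likelihood vector -/
noncomputable def mvec (lam : ℝ) (x : V) : V := fun i => lam * x i + (1 - lam) / 3 * tot x
def perm (g : Equiv.Perm (Fin 3)) (x : V) : V := fun i => x (g i)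
/-- `tot x ^ 2 * N` -/
def Nh (x : V) : ℝ := x 0 ^ 2 + x 1 ^ 2 + x 2 ^ 2 - x 0 * x 1 - x 1 * x 2 - x 2 * x 0

/-- offspring law -/
structure IsOff (off : ℕ → ℝ) : Prop where
  nonneg : ∀ k, 0 ≤ off k
  sum : HasSum off 1

/-- likelihood vector of an observation -/
noncomputable def L (lam : ℝ) (off : ℕ → ℝ) (n : ℕ) (o : Obs 3 n) : V := fun i => law 3 lam off n i o

/-- likelihood vector of the observations below `k` children -/
noncomputable def PL (lam : ℝ) (off : ℕ → ℝ) (n k : ℕ) (f : Fin k → Obs 3 n) : V :=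
  fun i => ∏ c, mvec lam (L lam off n (f c)) i

/-- products of `k` messages -/
def InK (lam : ℝ) (k : ℕ) (x : V) : Prop :=
  ∃ z : Fin k → V, (∀ c i, 0 ≤ z c i) ∧ x = fun i => ∏ c, mvec lam (z c) i

noncomputable def F (lam : ℝ) (off : ℕ → ℝ) (n : ℕ) (Φ : V → ℝ) : ℝ≥0∞ :=
  ∑' o : Obs 3 n, ENNReal.ofReal (Φ (L lam off n o))

noncomputable def G (lam : ℝ) (off : ℕ → ℝ) (n k : ℕ) (Φ : V → ℝ) : ℝ≥0∞ :=
  ∑' f : Fin k → Obs 3 n, ENNReal.ofReal (Φ (PL lam off n k f))

/-- `Φ` of `k` children is controlled by `k` times `Ψ` of one child. -/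
def Dom (lam : ℝ) (off : ℕ → ℝ) (k : ℕ) (Φ Ψ : V → ℝ) : Prop :=
  ∀ n, G lam off n k Φ ≤ k * G lam off n 1 Ψ

end Vale.Agent.P154
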