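import Vale.Agent.P154.Kron3
import Vale.Agent.P154.RedDefs

/-!
The S3-averages, the functions `Psi`, and the tables.
-/

namespace Vale.Agent.P154

/-- `tot x ^ 3 * C` -/
noncomputable def Ch (x : V) : ℝ :=
  (1 / 2) * ((2 * x 0 - x 1 - x 2) * (2 * x 1 - x 2 - x 0) * (2 * x 2 - x 0 - x 1))

/-- the potential -/
noncomputable def Psi (a b c : ℝ) (x : V) : ℝ :=
  Nh x / tot x + a * Nh x ^ 2 / tot x ^ 3 + b * (Nh x * Ch x) / tot x ^ 4 + c * Ch x ^ 2 / tot x ^ 5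

/-! ### the sum over the permutations -/

def sum6 (f : V → ℝ) (y : V) : ℝ :=
  f ![y 0, y 1, y 2] + f ![y 1, y 2, y 0] + f ![y 2, y 0, y 1] +
    f ![y 0, y 2, y 1] + f ![y 1, y 0, y 2] + f ![y 2, y 1, y 0]

theorem univ_perm3 : (Finset.univ : Finset (Equiv.Perm (Fin 3))) =
    {1, finRotate 3, (finRotate 3)⁻¹, Equiv.swap 1 2, Equiv.swap 0 1, Equiv.swap 0 2} := by
  decide

theorem sum_perm_eq (f : V → ℝ) (y : V) :
    ∑ g : Equiv.Perm (Fin 3), f (perm g y) = sum6 f y := by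
  rw [univ_perm3]
  rw [Finset.sum_insert (by decide), Finset.sum_insert (by decide), Finset.sum_insert (by decide),
    Finset.sum_insert (by decide), Finset.sum_insert (by decide), Finset.sum_singleton]
  have e1 : perm 1 y = ![y 0, y 1, y 2] := by
    funext i; fin_cases i <;> rfl
  have e2 : perm (finRotate 3) y = ![y 1, y 2, y 0] := by
    funext i; fin_cases i <;> rfl
  have e3 : perm (finRotate 3)⁻¹ y = ![y 2, y 0, y 1] := by
    funext i; fin_cases i <;> rfl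
  have e4 : perm (Equiv.swap 1 2) y = ![y 0, y 2, y 1] := by
    funext i; fin_cases i <;> rfl
  have e5 : perm (Equiv.swap 0 1) y = ![y 1, y 0, y 2] := by
    funext i; fin_cases i <;> rfl
  have e6 : perm (Equiv.swap 0 2) y = ![y 2, y 1, y 0] := by
    funext i; fin_cases i <;> rfl
  rw [e1, e2, e3, e4, e5, e6, sum6]
  ring

/-! ### the tables -/

/-- `N_y` -/
noncomputable def Ny (w : V) : ℝ := 9 * Nh w
/-- `C_y` -/
noncomputable def Cy (w : V) : ℝ := 27 * Ch w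
/-- `z` -/
noncomputable def zz (w : V) : ℝ := 3 * tot w - 1

theorem term_eq (i j m : ℕ) (w : V) (A B C : ℝ) (hA : A = 9 * w 0) (hB : B = 9 * w 1)
    (hC : C = 9 * w 2) :
    (A * A + B * B + C * C - (A * B + B * C + C * A)) ^ i *
      ((A + A - (B + C)) * (B + B - (C + A)) * (C + C - (A + B))) ^ j * (A + B + C - 3) ^ m =
    (9 ^ i * 54 ^ j * 3 ^ m) * (Ny w ^ i * Cy w ^ j * zz w ^ m) := by
  have e1 : A * A + B * B + C * C - (A * B + B * C + C * A) = 9 * Ny w := by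
    rw [hA, hB, hC, Ny, Nh]; ring
  have e2 : (A + A - (B + C)) * (B + B - (C + A)) * (C + C - (A + B)) = 54 * Cy w := by
    rw [hA, hB, hC, Cy, Ch]; ring
  have e3 : A + B + C - 3 = 3 * zz w := by
    rw [hA, hB, hC, zz, tot]; ring
  rw [e1, e2, e3, mul_pow, mul_pow, mul_pow]
  ring

theorem ev_idPE (i j m : ℕ) (T : List (List Int)) (h : (idPE i j m T).checkZero 4 10 128 = true)
    (x y : V) (hx : tot x = 1) (hy : tot y = 1) :
    mdot T (monL (Nh x) (Ch x)) (monL (Nh y) (Ch y)) =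
      (1 / 3) * sum6 (fun v => Ny (had x v) ^ i * Cy (had x v) ^ j * zz (had x v) ^ m) y := by
  obtain ⟨ρ, hρ⟩ : ∃ ρ : ℕ → ℝ, ρ = (fun n => if n = 0 then (x 0 - x 1) / 2 else
    if n = 1 then (x 1 - x 2) / 2 else if n = 2 then (y 0 - y 1) / 2 else (y 1 - y 2) / 2) :=
    ⟨_, rfl⟩
  have r0 : ρ 0 = (x 0 - x 1) / 2 := by rw [hρ]; simp
  have r1 : ρ 1 = (x 1 - x 2) / 2 := by rw [hρ]; simp
  have r2 : ρ 2 = (y 0 - y 1) / 2 := by rw [hρ]; simp
  have r3 : ρ 3 = (y 1 - y 2) / 2 := by rw [hρ]; simp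
  have h0 := PE.zero_of_check h (R := ℝ) ρ
  simp only [tot] at hx hy
  have hN : (nPE (PE.v 0) (PE.v 1)).ev ρ = Nh x := by
    simp only [nPE, PE.ev, Nh, r0, r1]
    push_cast; ring
  have hC : (cPE (PE.v 0) (PE.v 1)).ev ρ = Ch x := by
    simp only [cPE, PE.ev, Ch, r0, r1]
    push_cast; ring
  have hN' : (nPE (PE.v 2) (PE.v 3)).ev ρ = Nh y := by
    simp only [nPE, PE.ev, Nh, r2, r3]
    push_cast; ring
  have hC' : (cPE (PE.v 2) (PE.v 3)).ev ρ = Ch y := by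
    simp only [cPE, PE.ev, Ch, r2, r3]
    push_cast; ring
  have a0 : (x0PE (PE.v 0) (PE.v 1)).ev ρ = 3 * x 0 := by
    simp only [x0PE, PE.ev, r0, r1]
    push_cast; linarith
  have a1 : (x1PE (PE.v 0) (PE.v 1)).ev ρ = 3 * x 1 := by
    simp only [x1PE, PE.ev, r0, r1]
    push_cast; linarith
  have a2 : (x2PE (PE.v 0) (PE.v 1)).ev ρ = 3 * x 2 := by
    simp only [x2PE, PE.ev, r0, r1]
    push_cast; linarith
  have b0 : (x0PE (PE.v 2) (PE.v 3)).ev ρ = 3 * y 0 := by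
    simp only [x0PE, PE.ev, r2, r3]
    push_cast; linarith
  have b1 : (x1PE (PE.v 2) (PE.v 3)).ev ρ = 3 * y 1 := by
    simp only [x1PE, PE.ev, r2, r3]
    push_cast; linarith
  have b2 : (x2PE (PE.v 2) (PE.v 3)).ev ρ = 3 * y 2 := by
    simp only [x2PE, PE.ev, r2, r3]
    push_cast; linarith
  simp only [idPE, sumPE, termPE, PE.ev, PE.ev_pow, ev_mdotPE, ev_monPE] at h0
  rw [hN, hC, hN', hC', a0, a1, a2, b0, b1, b2] at h0
  push_cast at h0
  have t1 := term_eq i j m (had x ![y 0, y 1, y 2]) (3 * x 0 * (3 * y 0)) (3 * x 1 * (3 * y 1))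
    (3 * x 2 * (3 * y 2)) (by simp [had]; ring) (by simp [had]; ring) (by simp [had]; ring)
  have t2 := term_eq i j m (had x ![y 1, y 2, y 0]) (3 * x 0 * (3 * y 1)) (3 * x 1 * (3 * y 2))
    (3 * x 2 * (3 * y 0)) (by simp [had]; ring) (by simp [had]; ring) (by simp [had]; ring)
  have t3 := term_eq i j m (had x ![y 2, y 0, y 1]) (3 * x 0 * (3 * y 2)) (3 * x 1 * (3 * y 0))
    (3 * x 2 * (3 * y 1)) (by simp [had]; ring) (by simp [had]; ring) (by simp [had]; ring)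
  have t4 := term_eq i j m (had x ![y 0, y 2, y 1]) (3 * x 0 * (3 * y 0)) (3 * x 1 * (3 * y 2))
    (3 * x 2 * (3 * y 1)) (by simp [had]; ring) (by simp [had]; ring) (by simp [had]; ring)
  have t5 := term_eq i j m (had x ![y 1, y 0, y 2]) (3 * x 0 * (3 * y 1)) (3 * x 1 * (3 * y 0))
    (3 * x 2 * (3 * y 2)) (by simp [had]; ring) (by simp [had]; ring) (by simp [had]; ring)
  have t6 := term_eq i j m (had x ![y 2, y 1, y 0]) (3 * x 0 * (3 * y 2)) (3 * x 1 * (3 * y 1))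
    (3 * x 2 * (3 * y 0)) (by simp [had]; ring) (by simp [had]; ring) (by simp [had]; ring)
  rw [t1, t2, t3, t4, t5, t6] at h0
  have hpos : (9 ^ i * 54 ^ j * 3 ^ m : ℝ) ≠ 0 := by positivity
  apply mul_left_cancel₀ hpos
  rw [sum6]
  linarith

end Vale.Agent.P154
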