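import Vale.Agent.P154.LeafSound

/-!
Certificate trees.
-/

namespace Vale.Agent.P154

/-! ### univariate checks -/

/-- `w^n * pv l (z / w)` -/
def hpv : List Int → Nat → PE → PE → PE
  | [], _, _, _ => PE.c 0
  | a :: as, n, z, w => PE.add (PE.mul (PE.c a) (PE.pow w n)) (PE.mul z (hpv as (n - 1) z w))

def intPE (l : List Int) (k : Nat) (W Zd lo hi : Int) : PE :=
  let z := PE.add (PE.mul (PE.c lo) (PE.v 0)) (PE.mul (PE.c hi) (PE.v 1))
  let w := PE.mul (PE.c Zd) (PE.add (PE.v 0) (PE.v 1))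
  PE.sub (PE.mul (hpv l 4 z w) (PE.pow (PE.add w z) k)) (PE.mul (PE.c W) (PE.pow w (4 + k)))

def piOK (l : List Int) (k : Nat) (W Zd : Int) (K : Nat) : List Int → Bool
  | a :: b :: rest => decide (a < b) && PE.check 2 10 K (intPE l k W Zd a b) &&
      piOK l k W Zd K (b :: rest)
  | _ => true

theorem ev_hpv (ρ : ℕ → ℝ) (l : List Int) (n : ℕ) (z w : PE) (hl : l.length ≤ n + 1)
    (hw : w.ev ρ ≠ 0) :
    (hpv l n z w).ev ρ = w.ev ρ ^ n * pv l (z.ev ρ / w.ev ρ) := by
  induction l generalizing n with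
  | nil => simp [hpv, PE.ev, pv]
  | cons a as ih =>
    simp only [hpv, PE.ev, PE.ev_pow, pv]
    cases as with
    | nil => simp [hpv, PE.ev, pv]; ring
    | cons b bs =>
      simp only [List.length_cons] at hl
      obtain ⟨n', rfl⟩ : ∃ n', n = n' + 1 := ⟨n - 1, by omega⟩
      rw [Nat.add_sub_cancel, ih n' (by simp only [List.length_cons]; omega)]
      field_simp
      ring

theorem intPE_sound {l : List Int} {k : ℕ} {W Zd lo hi : Int} {K : ℕ} (hl : l.length ≤ 5)
    (hZ : 0 < Zd) (hlt : lo < hi) (h : PE.check 2 10 K (intPE l k W Zd lo hi) = true) {z : ℝ}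
    (h1 : (lo : ℝ) ≤ Zd * z) (h2 : Zd * z ≤ hi) : (W : ℝ) ≤ pv l z * (1 + z) ^ k := by
  have hZ' : (0 : ℝ) < Zd := by exact_mod_cast hZ
  have hlt' : (lo : ℝ) < hi := by exact_mod_cast hlt
  obtain ⟨ρ, hρ⟩ : ∃ ρ : ℕ → ℝ, ρ = (fun n => if n = 0 then (hi : ℝ) - Zd * z else
    Zd * z - lo) := ⟨_, rfl⟩
  have hρ0 : ∀ i, 0 ≤ ρ i := by
    intro i; rw [hρ]; simp only; split <;> linarith
  have r0 : ρ 0 = (hi : ℝ) - Zd * z := by rw [hρ]; simp
  have r1 : ρ 1 = Zd * z - lo := by rw [hρ]; simp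
  have h0 := PE.nonneg_of_check h ρ hρ0
  set D : ℝ := (hi : ℝ) - lo with hD
  have hDpos : 0 < D := by rw [hD]; linarith
  have hw : (PE.mul (PE.c Zd) (PE.add (PE.v 0) (PE.v 1))).ev ρ = Zd * D := by
    simp only [PE.ev, r0, r1, hD]; ring
  have hz : (PE.add (PE.mul (PE.c lo) (PE.v 0)) (PE.mul (PE.c hi) (PE.v 1))).ev ρ =
      Zd * z * D := by
    simp only [PE.ev, r0, r1, hD]; ring
  have hwne : (PE.mul (PE.c Zd) (PE.add (PE.v 0) (PE.v 1))).ev ρ ≠ 0 := by
    rw [hw]; positivity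
  have e1 := ev_hpv ρ l 4 (PE.add (PE.mul (PE.c lo) (PE.v 0)) (PE.mul (PE.c hi) (PE.v 1)))
    (PE.mul (PE.c Zd) (PE.add (PE.v 0) (PE.v 1))) hl hwne
  have e2 : (PE.add (PE.mul (PE.c Zd) (PE.add (PE.v 0) (PE.v 1)))
      (PE.add (PE.mul (PE.c lo) (PE.v 0)) (PE.mul (PE.c hi) (PE.v 1)))).ev ρ =
      Zd * D * (1 + z) := by
    rw [PE.ev, hw, hz]; ring
  have e3 : (PE.add (PE.mul (PE.c lo) (PE.v 0)) (PE.mul (PE.c hi) (PE.v 1))).ev ρ /
      (PE.mul (PE.c Zd) (PE.add (PE.v 0) (PE.v 1))).ev ρ = z := by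
    rw [hw, hz]; field_simp
  have e4 : (intPE l k W Zd lo hi).ev ρ =
      (Zd * D) ^ (4 + k) * (pv l z * (1 + z) ^ k - W) := by
    have : (intPE l k W Zd lo hi).ev ρ =
      (hpv l 4 (PE.add (PE.mul (PE.c lo) (PE.v 0)) (PE.mul (PE.c hi) (PE.v 1)))
        (PE.mul (PE.c Zd) (PE.add (PE.v 0) (PE.v 1)))).ev ρ *
      ((PE.add (PE.mul (PE.c Zd) (PE.add (PE.v 0) (PE.v 1)))
      (PE.add (PE.mul (PE.c lo) (PE.v 0)) (PE.mul (PE.c hi) (PE.v 1)))).ev ρ) ^ k -
      (W : ℝ) * ((PE.mul (PE.c Zd) (PE.add (PE.v 0) (PE.v 1))).ev ρ) ^ (4 + k) := by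
      simp only [intPE, PE.ev, PE.ev_pow]
    rw [this, e1, e2, e3, hw]
    rw [mul_pow (Zd * D) (1 + z) k, pow_add]
    ring
  rw [e4] at h0
  have h5 : 0 ≤ pv l z * (1 + z) ^ k - W := by
    by_contra hneg
    rw [not_le] at hneg
    have : (Zd * D : ℝ) ^ (4 + k) * (pv l z * (1 + z) ^ k - W) < 0 :=
      mul_neg_of_pos_of_neg (by positivity) hneg
    linarith
  linarith

theorem piOK_sound {l : List Int} {k : ℕ} {W Zd : Int} {K : ℕ} (hl : l.length ≤ 5)
    (hZ : 0 < Zd) (bps : List Int) (h : piOK l k W Zd K bps = true) {z : ℝ} {lo hi : Int}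
    (hlen : 2 ≤ bps.length) (hlo : bps.head? = some lo) (hhi : bps.getLast? = some hi)
    (h1 : (lo : ℝ) ≤ Zd * z) (h2 : Zd * z ≤ hi) : (W : ℝ) ≤ pv l z * (1 + z) ^ k := by
  induction bps generalizing lo with
  | nil => simp at hlen
  | cons a as ih =>
    cases as with
    | nil => simp at hlen
    | cons b bs =>
      rw [piOK, Bool.and_eq_true, Bool.and_eq_true, decide_eq_true_iff] at h
      obtain ⟨⟨hab, hc⟩, hr⟩ := h
      have ha : a = lo := by simpa using hlo
      subst ha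
      rcases le_total (Zd * z) (b : ℝ) with h3 | h3
      · exact intPE_sound hl hZ hab hc h1 h3
      · cases bs with
        | nil =>
          have hb : b = hi := by simpa using hhi
          subst hb
          have : Zd * z = b := le_antisymm h2 h3
          exact intPE_sound hl hZ hab hc h1 this.le
        | cons c cs =>
          exact ih hr (by simp) (by simp) (by simpa using hhi) h3

/-! ### range of z -/

/-- upper bilinear form (times 4) -/
def zhiZ (a b : Pt) : Int := 4 * (2 * a.p * b.p + a.p * b.r + a.r * b.p + 2 * a.r * b.r)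
def zloZ (a b : Pt) : Int := -(4 * (a.p * b.p + 2 * a.p * b.r + 2 * a.r * b.p + a.r * b.r))

def zOK1 (Zd zl zh : Int) (a b : Pt) : Bool :=
  decide (Zd * zhiZ a b ≤ zh * (a.S * b.S)) && decide (zl * (a.S * b.S) ≤ Zd * zloZ a b)

def zOK (Zd zl zh : Int) (U V : Tri) : Bool :=
  zOK1 Zd zl zh U.a V.a && zOK1 Zd zl zh U.a V.b && zOK1 Zd zl zh U.a V.c &&
  (zOK1 Zd zl zh U.b V.a && zOK1 Zd zl zh U.b V.b && zOK1 Zd zl zh U.b V.c) &&
  (zOK1 Zd zl zh U.c V.a && zOK1 Zd zl zh U.c V.b && zOK1 Zd zl zh U.c V.c)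

/-- `x` lies in the cone over the triangle -/
def InTri (T : Tri) (S p r : ℝ) : Prop :=
  ∃ α β γ : ℝ, 0 ≤ α ∧ 0 ≤ β ∧ 0 ≤ γ ∧ S = α * T.a.S + β * T.b.S + γ * T.c.S ∧
    p = α * T.a.p + β * T.b.p + γ * T.c.p ∧ r = α * T.a.r + β * T.b.r + γ * T.c.r

theorem zOK1_sound {Zd zl zh : Int} {a b : Pt} (h : zOK1 Zd zl zh a b = true) :
    (Zd : ℝ) * (4 * (2 * a.p * b.p + a.p * b.r + a.r * b.p + 2 * a.r * b.r)) ≤ zh * (a.S * b.S) ∧
    (zl : ℝ) * (a.S * b.S) ≤ Zd * (-(4 * (a.p * b.p + 2 * a.p * b.r + 2 * a.r * b.p + a.r * b.r))) := by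
  rw [zOK1, Bool.and_eq_true, decide_eq_true_iff, decide_eq_true_iff, zhiZ, zloZ] at h
  exact ⟨by exact_mod_cast h.1, by exact_mod_cast h.2⟩

theorem zOK_sound {Zd zl zh : Int} {U V : Tri} (h : zOK Zd zl zh U V = true) {S p r S' p' r' : ℝ}
    (hU : InTri U S p r) (hV : InTri V S' p' r') :
    (Zd : ℝ) * (4 * (2 * p * p' + p * r' + r * p' + 2 * r * r')) ≤ zh * (S * S') ∧
    (zl : ℝ) * (S * S') ≤ Zd * (-(4 * (p * p' + 2 * p * r' + 2 * r * p' + r * r'))) := by
  simp only [zOK, Bool.and_eq_true] at h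
  obtain ⟨⟨⟨⟨haa, hab⟩, hac⟩, ⟨⟨hba, hbb⟩, hbc⟩⟩, ⟨⟨hca, hcb⟩, hcc⟩⟩ := h
  obtain ⟨α, β, γ, hα, hβ, hγ, rfl, rfl, rfl⟩ := hU
  obtain ⟨α', β', γ', hα', hβ', hγ', rfl, rfl, rfl⟩ := hV
  have k1 := zOK1_sound haa
  have k2 := zOK1_sound hab
  have k3 := zOK1_sound hac
  have k4 := zOK1_sound hba
  have k5 := zOK1_sound hbb
  have k6 := zOK1_sound hbc
  have k7 := zOK1_sound hca
  have k8 := zOK1_sound hcb
  have k9 := zOK1_sound hcc
  constructor
  · have s1 := mul_le_mul_of_nonneg_left k1.1 (mul_nonneg hα hα')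
    have s2 := mul_le_mul_of_nonneg_left k2.1 (mul_nonneg hα hβ')
    have s3 := mul_le_mul_of_nonneg_left k3.1 (mul_nonneg hα hγ')
    have s4 := mul_le_mul_of_nonneg_left k4.1 (mul_nonneg hβ hα')
    have s5 := mul_le_mul_of_nonneg_left k5.1 (mul_nonneg hβ hβ')
    have s6 := mul_le_mul_of_nonneg_left k6.1 (mul_nonneg hβ hγ')
    have s7 := mul_le_mul_of_nonneg_left k7.1 (mul_nonneg hγ hα')
    have s8 := mul_le_mul_of_nonneg_left k8.1 (mul_nonneg hγ hβ')
    have s9 := mul_le_mul_of_nonneg_left k9.1 (mul_nonneg hγ hγ')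
    linear_combination s1 + s2 + s3 + s4 + s5 + s6 + s7 + s8 + s9
  · have s1 := mul_le_mul_of_nonneg_left k1.2 (mul_nonneg hα hα')
    have s2 := mul_le_mul_of_nonneg_left k2.2 (mul_nonneg hα hβ')
    have s3 := mul_le_mul_of_nonneg_left k3.2 (mul_nonneg hα hγ')
    have s4 := mul_le_mul_of_nonneg_left k4.2 (mul_nonneg hβ hα')
    have s5 := mul_le_mul_of_nonneg_left k5.2 (mul_nonneg hβ hβ')
    have s6 := mul_le_mul_of_nonneg_left k6.2 (mul_nonneg hβ hγ')
    have s7 := mul_le_mul_of_nonneg_left k7.2 (mul_nonneg hγ hα')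
    have s8 := mul_le_mul_of_nonneg_left k8.2 (mul_nonneg hγ hβ')
    have s9 := mul_le_mul_of_nonneg_left k9.2 (mul_nonneg hγ hγ')
    linear_combination s1 + s2 + s3 + s4 + s5 + s6 + s7 + s8 + s9

/-! ### homogeneous monomials -/

noncomputable def nR (p r : ℝ) : ℝ := 4 * (p * p + p * r + r * r)
noncomputable def cR (p r : ℝ) : ℝ := 4 * ((p + p + r) * (p - r) * (p + (r + r)))

noncomputable def hm (S p r : ℝ) : List ℝ :=
  mons.map (fun e => nR p r ^ e.1 * cR p r ^ e.2 * S ^ (10 - 2 * e.1 - 3 * e.2))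

theorem hm_smul (a S p r : ℝ) : hm (a * S) (a * p) (a * r) = (hm S p r).map (fun t => a ^ 10 * t) := by
  have h1 : nR (a * p) (a * r) = a ^ 2 * nR p r := by rw [nR, nR]; ring
  have h2 : cR (a * p) (a * r) = a ^ 3 * cR p r := by rw [cR, cR]; ring
  simp only [hm, mons, List.map_cons, List.map_nil, h1, h2]
  norm_num
  refine ⟨?_, ?_, ?_, ?_, ?_, ?_, ?_, ?_, ?_, ?_, ?_, ?_, ?_, ?_⟩ <;> ring

theorem dot_map_smul (c : ℝ) (l : List Int) (f : List ℝ) :
    dot l (f.map (fun t => c * t)) = c * dot l f := by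
  induction l generalizing f with
  | nil => simp [dot]
  | cons a as ih =>
    cases f with
    | nil => simp [dot]
    | cons b bs => simp only [List.map_cons, dot, ih]; ring

theorem mdot_map_smul (c d : ℝ) (M : List (List Int)) (f g : List ℝ) :
    mdot M (f.map (fun t => c * t)) (g.map (fun t => d * t)) = c * d * mdot M f g := by
  induction M generalizing g with
  | nil => simp [mdot]
  | cons a as ih =>
    cases g with
    | nil => simp [mdot]
    | cons b bs => simp only [List.map_cons, mdot, ih, dot_map_smul]; ring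

theorem ev_triMon (ρ : ℕ → ℝ) (T : Tri) :
    (triMon T).map (PE.ev ρ) = hm (T.a.S + ρ 0 * T.b.S + ρ 1 * T.c.S)
      (T.a.p + ρ 0 * T.b.p + ρ 1 * T.c.p) (T.a.r + ρ 0 * T.b.r + ρ 1 * T.c.r) := by
  have h1 : ∀ a b c : Int, (linPE 0 a b c).ev ρ = a + ρ 0 * b + ρ 1 * c := by
    intro a b c
    simp only [linPE, PE.ev]; ring
  simp only [triMon, hm, List.map_map]
  apply List.map_congr_left
  intro e _
  simp only [Function.comp, PE.ev, PE.ev_pow, nPE, cPE, nR, cR, h1]
  push_cast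
  ring

theorem continuous_dot (l : List Int) (f : List (ℝ → ℝ)) (hf : ∀ g ∈ f, Continuous g) :
    Continuous (fun t => dot l (f.map (fun g => g t))) := by
  induction l generalizing f with
  | nil => simp only [dot]; exact continuous_const
  | cons a as ih =>
    cases f with
    | nil => simp only [List.map_nil, dot]; exact continuous_const
    | cons b bs =>
      simp only [List.map_cons, dot]
      exact (continuous_const.mul (hf b (by simp))).add (ih bs (fun g hg => hf g (by simp [hg])))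

theorem continuous_mdot_left (M : List (List Int)) (f : List (ℝ → ℝ)) (g : List ℝ)
    (hf : ∀ g ∈ f, Continuous g) :
    Continuous (fun t => mdot M (f.map (fun g => g t)) g) := by
  induction M generalizing g with
  | nil => simp only [mdot]; exact continuous_const
  | cons a as ih =>
    cases g with
    | nil => simp only [mdot]; exact continuous_const
    | cons b bs =>
      simp only [mdot]
      exact (continuous_const.mul (continuous_dot a f hf)).add (ih bs)

theorem continuous_mdot_right (M : List (List Int)) (f : List ℝ) (g : List (ℝ → ℝ))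
    (hg : ∀ h ∈ g, Continuous h) :
    Continuous (fun t => mdot M f (g.map (fun g => g t))) := by
  induction M generalizing g with
  | nil => simp only [mdot]; exact continuous_const
  | cons a as ih =>
    cases g with
    | nil => simp only [List.map_nil, mdot]; exact continuous_const
    | cons b bs =>
      simp only [List.map_cons, mdot]
      exact ((hg b (by simp)).mul continuous_const).add (ih bs (fun g hg' => hg g (by simp [hg'])))

/-- the entries of `hm` along a line are continuous -/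
theorem hm_line (S0 p0 r0 S1 p1 r1 : ℝ) :
    ∃ f : List (ℝ → ℝ), (∀ g ∈ f, Continuous g) ∧
      ∀ t, hm (S0 + t * S1) (p0 + t * p1) (r0 + t * r1) = f.map (fun g => g t) := by
  refine ⟨mons.map (fun e => fun t => nR (p0 + t * p1) (r0 + t * r1) ^ e.1 *
    cR (p0 + t * p1) (r0 + t * r1) ^ e.2 * (S0 + t * S1) ^ (10 - 2 * e.1 - 3 * e.2)), ?_, ?_⟩
  · intro g hg
    obtain ⟨e, _, rfl⟩ := List.mem_map.1 hg
    unfold nR cR
    fun_prop
  · intro t
    rw [hm, List.map_map]
    rfl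

theorem nonneg_of_pos {f : ℝ → ℝ} (hf : Continuous f) (h : ∀ t, 0 < t → 0 ≤ f t) : 0 ≤ f 0 := by
  have h1 : Filter.Tendsto f (nhdsWithin 0 (Set.Ioi 0)) (nhds (f 0)) :=
    (hf.tendsto 0).mono_left nhdsWithin_le_nhds
  exact ge_of_tendsto h1 (Filter.eventually_of_mem self_mem_nhdsWithin fun t ht => h t ht)

/-- a positive two-level check gives nonnegativity on the cones -/
theorem leaf_nonneg {K : ℕ} {M : List (List Int)} {U V : Tri}
    (H : twoLevel 10 K M (triMon U) (triMon V) = true) {S p r S' p' r' : ℝ}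
    (hU : InTri U S p r) (hV : InTri V S' p' r') : 0 ≤ mdot M (hm S p r) (hm S' p' r') := by
  -- first for positive leading coefficients
  have key : ∀ α β γ α' β' γ' : ℝ, 0 < α → 0 ≤ β → 0 ≤ γ → 0 < α' → 0 ≤ β' → 0 ≤ γ' →
      0 ≤ mdot M (hm (α * U.a.S + β * U.b.S + γ * U.c.S) (α * U.a.p + β * U.b.p + γ * U.c.p)
        (α * U.a.r + β * U.b.r + γ * U.c.r)) (hm (α' * V.a.S + β' * V.b.S + γ' * V.c.S)
        (α' * V.a.p + β' * V.b.p + γ' * V.c.p) (α' * V.a.r + β' * V.b.r + γ' * V.c.r)) := by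
    intro α β γ α' β' γ' hα hβ hγ hα' hβ' hγ'
    have h1 := twoLevel_sound H (fun n => if n = 0 then β / α else γ / α)
      (fun n => if n = 0 then β' / α' else γ' / α')
      (fun i => by split <;> positivity) (fun i => by split <;> positivity)
    rw [ev_triMon, ev_triMon] at h1
    simp only [if_true, one_ne_zero, if_false] at h1
    have e1 : ∀ (α β γ a b c : ℝ), 0 < α → α * a + β * b + γ * c = α * (a + β / α * b + γ / α * c) := by
      intro α β γ a b c h
      field_simp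
    rw [e1 α β γ U.a.S U.b.S U.c.S hα, e1 α β γ U.a.p U.b.p U.c.p hα,
      e1 α β γ U.a.r U.b.r U.c.r hα, e1 α' β' γ' V.a.S V.b.S V.c.S hα',
      e1 α' β' γ' V.a.p V.b.p V.c.p hα', e1 α' β' γ' V.a.r V.b.r V.c.r hα', hm_smul, hm_smul,
      mdot_map_smul]
    exact mul_nonneg (by positivity) h1
  obtain ⟨α, β, γ, hα, hβ, hγ, rfl, rfl, rfl⟩ := hU
  obtain ⟨α', β', γ', hα', hβ', hγ', rfl, rfl, rfl⟩ := hV
  -- perturb the first coefficients
  have step1 : ∀ α' : ℝ, 0 < α' → 0 ≤ mdot M (hm (α * U.a.S + β * U.b.S + γ * U.c.S)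
      (α * U.a.p + β * U.b.p + γ * U.c.p) (α * U.a.r + β * U.b.r + γ * U.c.r))
      (hm (α' * V.a.S + β' * V.b.S + γ' * V.c.S) (α' * V.a.p + β' * V.b.p + γ' * V.c.p)
        (α' * V.a.r + β' * V.b.r + γ' * V.c.r)) := by
    intro α' hα'
    obtain ⟨f, hf, hft⟩ := hm_line (α * U.a.S + β * U.b.S + γ * U.c.S)
      (α * U.a.p + β * U.b.p + γ * U.c.p) (α * U.a.r + β * U.b.r + γ * U.c.r) U.a.S U.a.p U.a.r
    have hc := continuous_mdot_left M f (hm (α' * V.a.S + β' * V.b.S + γ' * V.c.S)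
      (α' * V.a.p + β' * V.b.p + γ' * V.c.p) (α' * V.a.r + β' * V.b.r + γ' * V.c.r)) hf
    have h2 := nonneg_of_pos hc (fun t ht => by
      rw [← hft t]
      have := key (α + t) β γ α' β' γ' (by linarith) hβ hγ hα' hβ' hγ'
      have e : ∀ a b c : ℝ, (α + t) * a + β * b + γ * c = α * a + β * b + γ * c + t * a := by
        intro a b c; ring
      rw [e, e, e] at this
      exact this)
    rw [← hft 0] at h2
    simpa using h2
  obtain ⟨f, hf, hft⟩ := hm_line (α' * V.a.S + β' * V.b.S + γ' * V.c.S)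
    (α' * V.a.p + β' * V.b.p + γ' * V.c.p) (α' * V.a.r + β' * V.b.r + γ' * V.c.r)
    V.a.S V.a.p V.a.r
  have hc := continuous_mdot_right M (hm (α * U.a.S + β * U.b.S + γ * U.c.S)
      (α * U.a.p + β * U.b.p + γ * U.c.p) (α * U.a.r + β * U.b.r + γ * U.c.r)) f hf
  have h2 := nonneg_of_pos hc (fun t ht => by
    rw [← hft t]
    have := step1 (α' + t) (by linarith)
    have e : ∀ a b c : ℝ, (α' + t) * a + β' * b + γ' * c = α' * a + β' * b + γ' * c + t * a := by
      intro a b c; ring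
    rw [e, e, e] at this
    exact this)
  rw [← hft 0] at h2
  simpa using h2

end Vale.Agent.P154
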