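import Vale.Agent.P154.DEGen

/-!
Density evolution: the initial law, and the bound for `x_n`.
-/

namespace Vale.Agent.P154.DE

open scoped BigOperators ENNReal
open Finset

theorem sw_replicate (f : ℕ → ℕ → ℕ → ℝ) : ∀ (k : ℕ) (l : L3),
    sw (List.replicate k 0) l f = 0
  | 0, l => by simp [sw]
  | k + 1, .nil => by simp [List.replicate_succ, sw]
  | k + 1, .cons x y z l => by
    rw [List.replicate_succ, sw, sw_replicate f k l]; simp

theorem dm_zero {lam : ℝ} {off : ℕ → ℝ} {n D : ℕ} (hn : 0 < n) (hD : 0 < D) {g : L3}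
    (hg : GridList n g) (k : ℕ) :
    Dm (F lam off 0) D (6 * n) (D :: List.replicate k 0) g := by
  intro Φ hΦ
  have hn' : (0 : ℝ) < n := by exact_mod_cast hn
  have hD' : (0 : ℝ) < D := by exact_mod_cast hD
  have h0 := hg.get n 0 (by omega)
  have hl := hg.len
  rw [Nat.sub_self, show pos 0 0 = 0 from rfl] at h0
  cases g with
  | nil =>
    have := pos_lt (n := n) (c := 0) (b := 0) (Nat.zero_le _) le_rfl
    simp only [len] at hl
    omega
  | cons x y z l =>
    simp only [atom, Prod.mk.injEq] at h0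
    obtain ⟨hx, hy, hz⟩ := h0
    have hx' : x = 6 * n := by omega
    have hy' : y = 0 := by omega
    have hz' : z = 0 := by omega
    subst hx' hy' hz'
    rw [sw, sw_replicate, add_zero]
    have e0 : F lam off 0 Φ = ENNReal.ofReal (Φ ![1, 0, 0]) + ENNReal.ofReal (Φ ![0, 1, 0]) +
        ENNReal.ofReal (Φ ![0, 0, 1]) := by
      have : F lam off 0 Φ = ∑' o : Fin 3, ENNReal.ofReal (Φ fun i => if i = o then 1 else 0) := by
        rfl
      rw [this, tsum_fintype, Fin.sum_univ_three]
      have a0 : (fun i : Fin 3 => if i = 0 then (1 : ℝ) else 0) = ![1, 0, 0] := by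
        funext i; fin_cases i <;> simp
      have a1 : (fun i : Fin 3 => if i = 1 then (1 : ℝ) else 0) = ![0, 1, 0] := by
        funext i; fin_cases i <;> simp
      have a2 : (fun i : Fin 3 => if i = 2 then (1 : ℝ) else 0) = ![0, 0, 1] := by
        funext i; fin_cases i <;> simp
      rw [a0, a1, a2]
    have p0 : Pos ![1, 0, 0] := by intro i; fin_cases i <;> simp
    have p1 : Pos ![0, 1, 0] := by intro i; fin_cases i <;> simp
    have p2 : Pos ![0, 0, 1] := by intro i; fin_cases i <;> simp
    rw [e0, ← ENNReal.ofReal_add (hΦ.nn _ p0) (hΦ.nn _ p1),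
      ← ENNReal.ofReal_add (add_nonneg (hΦ.nn _ p0) (hΦ.nn _ p1)) (hΦ.nn _ p2)]
    refine ENNReal.ofReal_le_ofReal (le_of_eq ?_)
    rw [sy, sum_perm_eq, sum6]
    have v0 : vv (6 * n) 0 0 0 = 6 * n := by simp [vv]
    have v1 : vv (6 * n) 0 0 1 = 0 := by simp [vv]
    have v2 : vv (6 * n) 0 0 2 = 0 := by simp [vv]
    rw [v0, v1, v2]
    have s0 : (![6 * (n : ℝ), 0, 0] : V) = fun i => 6 * (n : ℝ) * ![1, 0, 0] i := by
      funext i; fin_cases i <;> simp
    have s1 : (![0, 6 * (n : ℝ), 0] : V) = fun i => 6 * (n : ℝ) * ![0, 1, 0] i := by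
      funext i; fin_cases i <;> simp
    have s2 : (![0, 0, 6 * (n : ℝ)] : V) = fun i => 6 * (n : ℝ) * ![0, 0, 1] i := by
      funext i; fin_cases i <;> simp
    rw [s0, s1, s2, hΦ.smul _ _ (by positivity) p0, hΦ.smul _ _ (by positivity) p1,
      hΦ.smul _ _ (by positivity) p2]
    push_cast
    field_simp
    ring

theorem sub_HN : Sub (H eN) where
  nn x hx := by rw [H_eN]; exact Xs.div_nonneg' hx
  add x y hx hy := by
    rw [H_eN, H_eN, H_eN]
    set z : V := fun i => x i + y i with hz
    have hzp : Pos z := fun i => add_nonneg (hx i) (hy i)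
    rcases (tot_nonneg hzp).eq_or_lt with ht | ht
    · rw [← ht, div_zero]
      exact add_nonneg (Xs.div_nonneg' hx) (Xs.div_nonneg' hy)
    · have h1 := Xs.tangent hx (fun i => z i / tot z)
      have h2 := Xs.tangent hy (fun i => z i / tot z)
      have e : Nh z / tot z = (2 * Xs.Bn x (fun i => z i / tot z) -
          tot x * Nh (fun i => z i / tot z)) + (2 * Xs.Bn y (fun i => z i / tot z) -
          tot y * Nh (fun i => z i / tot z)) := by
        have hxy : tot x + tot y = tot z := by simp only [tot, hz]; ring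
        have hN : Nh (fun i => z i / tot z) = Nh z / tot z ^ 2 := by
          simp only [Nh]
          field_simp
        have hB : Xs.Bn x (fun i => z i / tot z) + Xs.Bn y (fun i => z i / tot z) =
            Nh z / tot z := by
          have : Xs.Bn x (fun i => z i / tot z) + Xs.Bn y (fun i => z i / tot z) =
              Xs.Bn z z / tot z := by
            have e0 : ∀ i, z i = x i + y i := fun i => rfl
            simp only [Xs.Bn]
            rw [e0 0, e0 1, e0 2]
            field_simp
            ring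
          rw [this]
          congr 1
          simp only [Xs.Bn, Nh]
          ring
        have : (2 * Xs.Bn x (fun i => z i / tot z) - tot x * Nh (fun i => z i / tot z)) +
            (2 * Xs.Bn y (fun i => z i / tot z) - tot y * Nh (fun i => z i / tot z)) =
            2 * (Xs.Bn x (fun i => z i / tot z) + Xs.Bn y (fun i => z i / tot z)) -
              (tot x + tot y) * Nh (fun i => z i / tot z) := by ring
        rw [this, hB, hN, hxy]
        field_simp
        ring
      rw [e]
      exact add_le_add h1 h2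
  smul a x ha hx := by
    rw [H_eN, H_eN]
    have e1 : Nh (fun i => a * x i) = a ^ 2 * Nh x := by simp only [Nh]; ring
    have e2 : tot (fun i => a * x i) = a * tot x := by simp only [tot]; ring
    rw [e1, e2]
    rcases ha.eq_or_lt with rfl | ha'
    · simp
    · rcases (tot_nonneg hx).eq_or_lt with ht | ht
      · rw [← ht]; simp
      · field_simp

/-- `∑ w (x² + y² + z² - x y - y z - z x)` -/
def xsum : List ℕ → L3 → ℕ
  | [], _ => 0
  | _ :: _, .nil => 0
  | w :: ws, .cons x y z l =>
    w * (x * x + y * y + z * z - (x * y + y * z + z * x)) + xsum ws l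

theorem sw_xsum {τ : ℕ} (hτ : 0 < τ) : ∀ (w : List ℕ) (l : L3), AllTot τ l →
    sw w l (fun x y z => sy (H eN) (vv x y z)) = (xsum w l : ℝ) / τ
  | [], l, _ => by simp [sw, xsum]
  | w :: ws, .nil, _ => by simp [sw, xsum]
  | w :: ws, .cons x y z l, h => by
    rw [sw, xsum, sw_xsum hτ ws l h.2]
    have hτ' : (0 : ℝ) < τ := by exact_mod_cast hτ
    have e : sy (H eN) (vv x y z) =
        ((x * x + y * y + z * z - (x * y + y * z + z * x) : ℕ) : ℝ) / τ := by
      have hle : x * y + y * z + z * x ≤ x * x + y * y + z * z := by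
        nlinarith [sq_nonneg ((x : ℤ) - y), sq_nonneg ((y : ℤ) - z), sq_nonneg ((z : ℤ) - x),
          Nat.le.intro (rfl : x + 0 = x), two_mul_le_add_sq x y, two_mul_le_add_sq y z,
          two_mul_le_add_sq z x]
      have ht : ((x : ℝ) + y + z) = τ := by exact_mod_cast h.1
      rw [sy, sum_perm_eq, sum6]
      have v0 : vv x y z 0 = x := rfl
      have v1 : vv x y z 1 = y := rfl
      have v2 : vv x y z 2 = z := rfl
      rw [v0, v1, v2, Nat.cast_sub hle]
      simp only [H_eN, Nh, tot]
      simp only [Matrix.cons_val_zero, Matrix.cons_val_one, Matrix.cons_val]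
      have t1 : (x : ℝ) + y + z = τ := ht
      have t2 : (y : ℝ) + z + x = τ := by linarith
      have t3 : (z : ℝ) + x + y = τ := by linarith
      have t4 : (x : ℝ) + z + y = τ := by linarith
      have t5 : (y : ℝ) + x + z = τ := by linarith
      have t6 : (z : ℝ) + y + x = τ := by linarith
      rw [t1, t2, t3, t4, t5, t6]
      push_cast
      field_simp
      ring
    rw [e]
    push_cast
    ring

/-- the bound for `x_n` from a dominating law -/
theorem xs_le_of_dm {lam : ℝ} (h0 : -(1 / 2) ≤ lam) (h1 : lam ≤ 1) {off : ℕ → ℝ}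
    (hoff : IsOff off) {m D τ : ℕ} (hD : 0 < D) (hτ : 0 < τ) {w : List ℕ} {g : L3}
    (hg : AllTot τ g) (h : Dm (F lam off m) D τ w g) {a b : ℕ} (hb : 0 < b)
    (hc : b * xsum w g ≤ a * (D * τ ^ 2)) : xs lam off m ≤ (a : ℝ) / b := by
  have hD' : (0 : ℝ) < D := by exact_mod_cast hD
  have hτ' : (0 : ℝ) < τ := by exact_mod_cast hτ
  have hb' : (0 : ℝ) < b := by exact_mod_cast hb
  have h2 := h _ sub_HN
  rw [Xs.F_eq h0 h1 hoff, sw_xsum hτ w g hg] at h2
  have hnn : (0 : ℝ) ≤ 3 / (D * τ) * (xsum w g / τ) := by positivity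
  rw [ENNReal.ofReal_le_ofReal_iff hnn] at h2
  have hc' : (b : ℝ) * xsum w g ≤ a * (D * τ ^ 2) := by exact_mod_cast hc
  rw [le_div_iff₀ hb']
  have h3 : xs lam off m ≤ (xsum w g : ℝ) / (D * τ ^ 2) := by
    have : 3 / ((D : ℝ) * τ) * (xsum w g / τ) = 3 * ((xsum w g : ℝ) / (D * τ ^ 2)) := by
      field_simp
    rw [this] at h2
    linarith
  have h4 : (xsum w g : ℝ) / (D * τ ^ 2) * b ≤ a := by
    rw [div_mul_eq_mul_div, div_le_iff₀ (by positivity)]
    linarith
  exact (mul_le_mul_of_nonneg_right h3 hb'.le).trans h4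

/-! ### boolean checks -/

def allTotB (τ : ℕ) : L3 → Bool
  | .nil => true
  | .cons x y z l => Nat.beq (x + y + z) τ && allTotB τ l

theorem allTotB_sound {τ : ℕ} : ∀ {l : L3}, allTotB τ l = true → AllTot τ l
  | .nil, _ => trivial
  | .cons x y z l, h => by
    rw [allTotB, Bool.and_eq_true] at h
    exact ⟨Nat.eq_of_beq_eq_true h.1, allTotB_sound h.2⟩

theorem gridList_of {n : ℕ} {g : L3} (h1 : len g = (n + 1) * (n + 2) / 2)
    (h2 : allTotB (6 * n) g = true)
    (h3 : ∀ a < n + 1, ∀ b < n + 1, a + b ≤ n → atom g (pos (n - a) b) =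
      (6 * a + 3 * b + 2 * (n - a - b), 3 * b + 2 * (n - a - b), 2 * (n - a - b))) :
    GridList n g :=
  ⟨h1, allTotB_sound h2, fun a b h => h3 a (by omega) b (by omega) h⟩

theorem gridList16 : GridList 16 (grid 16) :=
  gridList_of (by decide +kernel) (by decide +kernel) (by decide +kernel)

end Vale.Agent.P154.DE
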