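import Vale.Agent.P154.DETab
import Vale.Agent.P154.DEW
import Vale.Agent.P154.DEs4

/-! Generated: 13 generations. -/

namespace Vale.Agent.P154.DE

theorem seg9 : leqN (iter (tens 16 68 (msgs 16)) (tens 16 68 (grid 16)) (2 ^ 68) 153
    (2 * 192 ^ 2 * 2 ^ 24) (2 * 96 ^ 2 * 2 ^ 24) (2 ^ 24) 13 W9) W10 = true := by
  decide +kernel

end Vale.Agent.P154.DE
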