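import Vale.Agent.P154.VR4a_10
import Vale.Agent.P154.VR4a_31

/-! Generated certificates. -/

namespace Vale.Agent.P154

def R4a : RMi := ⟨2018000000000, [0, 8902003400000, -220466500000, 5475742100000, -3395587700000, 1660511300000], [R4a_10, R4a_20, R4a_30], [0, 8579829700000, -534265500000, 5963896300000, -3949024200000, 1467590500000], [R4a_11, R4a_21, R4a_31], 1, 100, 1, 50, -6931830000, -69318300, -3460870000, -69217400, 2018000⟩

theorem R4a_certR : R4a.Cert vR4 :=
  ⟨by decide +kernel, ⟨R4a_10_pw, R4a_20_pw, R4a_30_pw, trivial⟩,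
    ⟨R4a_11_pw, R4a_21_pw, R4a_31_pw, trivial⟩,
    ⟨152, .leaf, by decide +kernel⟩, ⟨152, .leaf, by decide +kernel⟩⟩

end Vale.Agent.P154
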