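import Vale.Agent.P154.VR4b_10
import Vale.Agent.P154.VR4b_30
import Vale.Agent.P154.VR4b_21
import Vale.Agent.P154.VR4b_31

/-! Generated certificates. -/

namespace Vale.Agent.P154

def R4b : RMi := ⟨2018000000000, [0, 8009240200000, -393610900000, 5632742500000, -4712130900000, 1584432700000], [R4b_10, R4b_20, R4b_30], [0, 7857890200000, -679864200000, 5686724000000, -5272731300000, 2606751500000], [R4b_11, R4b_21, R4b_31], 1, 50, 3, 100, -8536140000, -170722800, -5690760000, -170722800, 2018000⟩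

theorem R4b_certR : R4b.Cert vR4 :=
  ⟨by decide +kernel, ⟨R4b_10_pw, R4b_20_pw, R4b_30_pw, trivial⟩,
    ⟨R4b_11_pw, R4b_21_pw, R4b_31_pw, trivial⟩,
    ⟨152, .leaf, by decide +kernel⟩, ⟨152, .leaf, by decide +kernel⟩⟩

end Vale.Agent.P154
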