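import Vale.Agent.P154.VR4c_10
import Vale.Agent.P154.VR4c_30
import Vale.Agent.P154.VR4c_11
import Vale.Agent.P154.VR4c_31

/-! Generated certificates. -/

namespace Vale.Agent.P154

def R4c : RMi := ⟨4036000000000, [0, 15179799600000, -1254792400000, 11588970400000, -9778824400000, 3663880800000], [R4c_10, R4c_20, R4c_30], [0, 15049033200000, -1551842000000, 11519147600000, -10305118800000, 5554746800000], [R4c_11, R4c_21, R4c_31], 3, 100, 7, 200, -17253900000, -517617000, -14791940000, -517717900, 4036000⟩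

theorem R4c_certR : R4c.Cert vR4 :=
  ⟨by decide +kernel, ⟨R4c_10_pw, R4c_20_pw, R4c_30_pw, trivial⟩,
    ⟨R4c_11_pw, R4c_21_pw, R4c_31_pw, trivial⟩,
    ⟨152, .leaf, by decide +kernel⟩, ⟨152, .leaf, by decide +kernel⟩⟩

end Vale.Agent.P154
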