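import Vale.Agent.P154.VR4lo_z

/-! Generated certificates. -/

namespace Vale.Agent.P154

def R4lo : LoBr := ⟨R4lo_z, R4lo_a1, R4lo_a0, R4lo_b1, R4lo_b0, [0, 0, -2378213000000000, 6626103000000000, -4400249000000000, 2315655000000000], 1000000, 249001, 1, 100, -503, 1000, -1, 2, 2512420090000⟩

theorem R4lo_certR : R4lo.Cert vR4 true :=
  ⟨by decide +kernel, R4lo_z_pw, R4lo_a1_pw, R4lo_a0_pw, R4lo_b1_pw, R4lo_b0_pw,
    R4lo_z_w, R4lo_a1_w, R4lo_a0_w, R4lo_b1_w, R4lo_b0_w,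
    ⟨176, (.st 1 (.st 0 (.leaf) (.leaf)) (.leaf)), by decide +kernel⟩, ⟨160, .leaf, by decide +kernel⟩⟩

end Vale.Agent.P154
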