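import Vale.Agent.P154.DEBase
import Vale.Agent.P154.DEs0
import Vale.Agent.P154.DEs1
import Vale.Agent.P154.DEs2
import Vale.Agent.P154.DEs3
import Vale.Agent.P154.DEs4
import Vale.Agent.P154.DEs5
import Vale.Agent.P154.DEs6
import Vale.Agent.P154.DEs7
import Vale.Agent.P154.DEs8
import Vale.Agent.P154.DEs9
import Vale.Agent.P154.VR4lo
import Vale.Agent.P154.VR4a
import Vale.Agent.P154.VR4b
import Vale.Agent.P154.VR4c

/-!
The 4-ary tree at `lam = -1/2` (proper 3-colourings): nonreconstruction.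
-/

namespace Vale.Agent.P154

open scoped BigOperators ENNReal
open Filter Topology

namespace DE

theorem step16 {m : ℕ} {w w' : List ℕ} (hs : w.sum = 2 ^ 24)
    (h : Dm (F (-(1 / 2)) (regular 4) m) (2 ^ 24) (6 * 16) w (grid 16))
    (hc : leqN (iter (tens 16 68 (msgs 16)) (tens 16 68 (grid 16)) (2 ^ 68) 153
      (2 * 192 ^ 2 * 2 ^ 24) (2 * 96 ^ 2 * 2 ^ 24) (2 ^ 24) 13 w) w' = true) :
    w'.sum = 2 ^ 24 ∧ Dm (F (-(1 / 2)) (regular 4) (m + 13)) (2 ^ 24) (6 * 16) w' (grid 16) := by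
  have e := leqN_sound hc
  rw [← e]
  exact dm_iter (n := 16) (B := 68) (K := 153) (by norm_num) (by norm_num) gridList16
    (by norm_num) (by norm_num) (d1 := 2 * 192 ^ 2 * 2 ^ 24) (d2 := 2 * 96 ^ 2 * 2 ^ 24)
    (by norm_num) (by norm_num) 13 m w hs h

theorem dm130 : Dm (F (-(1 / 2)) (regular 4) 130) (2 ^ 24) (6 * 16) W10 (grid 16) := by
  have h0 : Dm (F (-(1 / 2)) (regular 4) 0) (2 ^ 24) (6 * 16) W0 (grid 16) := by
    have e : W0 = 2 ^ 24 :: List.replicate 152 0 := leqN_sound (by decide +kernel)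
    rw [e]
    exact dm_zero (by norm_num) (by norm_num) gridList16 152
  obtain ⟨s1, h1⟩ := step16 (by decide +kernel) h0 seg0
  obtain ⟨s2, h2⟩ := step16 s1 h1 seg1
  obtain ⟨s3, h3⟩ := step16 s2 h2 seg2
  obtain ⟨s4, h4⟩ := step16 s3 h3 seg3
  obtain ⟨s5, h5⟩ := step16 s4 h4 seg4
  obtain ⟨s6, h6⟩ := step16 s5 h5 seg5
  obtain ⟨s7, h7⟩ := step16 s6 h6 seg6
  obtain ⟨s8, h8⟩ := step16 s7 h7 seg7
  obtain ⟨s9, h9⟩ := step16 s8 h8 seg8
  exact (step16 s9 h9 seg9).2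

theorem xs130 : xs (-(1 / 2)) (regular 4) 130 ≤ 128 / 1000 := by
  have := xs_le_of_dm (lam := -(1 / 2)) le_rfl (by norm_num) (isOff_regular 4) (by norm_num)
    (by norm_num) gridList16.tot dm130 (a := 128) (b := 1000) (by norm_num) (by decide +kernel)
  exact_mod_cast this

end DE

open DE

theorem reg4_half : Nonreconstruction 3 (-(1 / 2)) (regular 4) := by
  have hv : vR4.ok = true := by decide +kernel
  have hl : vR4.mem (-(1 / 2)) := by
    constructor <;> norm_num [vR4]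
  have hdl : ((4 : ℕ) : ℝ) * (-(1 / 2)) ^ 2 ≤ 1 := by norm_num
  have F : Facts (-(1 / 2)) (regular 4) := facts le_rfl (by norm_num) (isOff_regular 4)
  have b1 := Brk.stepR (k := .lo R4lo) hv R4lo_certR (cn := 0) (cd := 1) one_pos (e := 4)
    (by decide +kernel) (Or.inr rfl) hl hdl
  have b2 := Brk.stepR (k := .rmi R4a) hv R4a_certR (cn := (Brk.lo R4lo).en)
    (cd := (Brk.lo R4lo).ed) (by decide +kernel) (e := 4) (by decide +kernel) (Or.inr rfl) hl hdl
  have b3 := Brk.stepR (k := .rmi R4b) hv R4b_certR (cn := (Brk.rmi R4a).en)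
    (cd := (Brk.rmi R4a).ed) (by decide +kernel) (e := 4) (by decide +kernel) (Or.inr rfl) hl hdl
  have b4 := Brk.stepR (k := .rmi R4c) hv R4c_certR (cn := (Brk.rmi R4b).en)
    (cd := (Brk.rmi R4b).ed) (by decide +kernel) (e := 4) (by decide +kernel) (Or.inr rfl) hl hdl
  have b5 : Bk (-(1 / 2)) (regular 4) (((Brk.rmi R4c).en : ℝ) / (Brk.rmi R4c).ed) (1 / 4) := by
    rintro ⟨n0, hn⟩
    exfalso
    have h1 := (hn (max n0 130) (le_max_left _ _)).1
    have h2 := F.xs_anti (le_max_right n0 130)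
    have h3 := xs130
    have e : ((Brk.rmi R4c).en : ℝ) / (Brk.rmi R4c).ed = 35 / 1000 := by
      have e1 : (Brk.rmi R4c).en * 1000 = 35 * (Brk.rmi R4c).ed := by decide +kernel
      have e2 : (0 : ℤ) < (Brk.rmi R4c).ed := by decide +kernel
      have e2' : (0 : ℝ) < (Brk.rmi R4c).ed := by exact_mod_cast e2
      rw [div_eq_div_iff e2'.ne' (by norm_num)]
      exact_mod_cast e1
    rw [e] at h1
    have h4 : (-(1 / 2) : ℝ) ^ 2 = 1 / 4 := by norm_num
    rw [h4] at h1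
    linarith
  refine nonrec_of_Bks F (by norm_num) (l := [((Brk.lo R4lo).en : ℝ) / (Brk.lo R4lo).ed,
    ((Brk.rmi R4a).en : ℝ) / (Brk.rmi R4a).ed, ((Brk.rmi R4b).en : ℝ) / (Brk.rmi R4b).ed,
    ((Brk.rmi R4c).en : ℝ) / (Brk.rmi R4c).ed, 1 / 4]) ⟨?_, b2, b3, b4, b5, ?_⟩
  · simpa using b1
  · show (-(1 / 2) : ℝ) ^ 2 ≤ 1 / 4
    norm_num

/-- the 4-ary tree, all `lam` in `[-1/2, 0]` -/
theorem reg4_nonpos {lam : ℝ} (h0 : -(1 / 2) ≤ lam) (h1 : lam ≤ 0) :
    Nonreconstruction 3 lam (regular 4) :=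
  nonrec_mono (lam' := -(1 / 2)) (t := -2 * lam) le_rfl (by norm_num) (by linarith)
    (by linarith) (by ring) (isOff_regular 4) reg4_half

end Vale.Agent.P154
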