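import Vale.Agent.P154.DESound

/-!
Density evolution for the trees: products, messages at `lam = -1/2`, generations of the 4-ary tree.
-/

namespace Vale.Agent.P154.DE

open scoped BigOperators ENNReal
open Finset

/-- domination of a functional by a weighted list of atoms of mass `τ`, the weights having
total `D` -/
def Dm (A : (V → ℝ) → ℝ≥0∞) (D τ : ℕ) (w : List ℕ) (l : L3) : Prop :=
  ∀ Φ, Sub Φ → A Φ ≤ ENNReal.ofReal (3 / (D * τ) * sw w l fun x y z => sy Φ (vv x y z))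

theorem sw_sum {ι : Type*} (s : Finset ι) (f : ι → ℕ → ℕ → ℕ → ℝ) : ∀ (ws : List ℕ) (l : L3),
    sw ws l (fun x y z => ∑ i ∈ s, f i x y z) = ∑ i ∈ s, sw ws l (f i)
  | [], l => by simp [sw]
  | w :: ws, .nil => by simp [sw]
  | w :: ws, .cons x y z l => by
    simp only [sw]
    rw [sw_sum s f ws l, Finset.sum_add_distrib, Finset.mul_sum]

theorem sub_sw {f : ℕ → ℕ → ℕ → V → ℝ} (h : ∀ x y z, Sub (f x y z)) : ∀ (ws : List ℕ) (l : L3),
    Sub fun X => sw ws l (fun x y z => f x y z X)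
  | [], l => sub_zerof
  | w :: ws, .nil => sub_zerof
  | w :: ws, .cons x y z l =>
    sub_addf (sub_cmul (h x y z) (Nat.cast_nonneg w)) (sub_sw h ws l)

theorem sub_syh {Φ : V → ℝ} (h : Sub Φ) {Y : V} (hY : Pos Y) :
    Sub fun X => sy (fun y => Φ (had X y)) Y :=
  sub_cmul (sub_sum Finset.univ fun g => sub_had h (pos_perm hY g)) (by norm_num)

theorem sy_E6 (Φ : V → ℝ) (X Y : V) :
    sy (fun X => sy (fun y => Φ (had X y)) Y) X = (1 / 6) * E6 (sy Φ) X Y := by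
  have e1 : E6 (sy Φ) X Y = ∑ g : Equiv.Perm (Fin 3), (1 / 6) *
      ∑ k : Equiv.Perm (Fin 3), Φ (had (perm g X) (perm k Y)) := by
    rw [E6]
    simp only [sy]
    rw [← Finset.mul_sum, ← Finset.mul_sum, Finset.sum_comm]
    congr 1
    refine Finset.sum_congr rfl fun g _ => ?_
    exact Equiv.sum_comp (Equiv.mulRight g) (fun k => Φ (had (perm g X) (perm k Y)))
  rw [e1]
  rfl

theorem prod_dm {α : Type*} {ξ : α → V} (hξ : ∀ a, Pos (ξ a)) {D τ : ℕ} {w : List ℕ} {l : L3}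
    (h : Dm (fun Φ => ∑' a, ENNReal.ofReal (Φ (ξ a))) D τ w l) {Φ : V → ℝ} (hΦ : Sub Φ) :
    ∑' a, ∑' b, ENNReal.ofReal (Φ (had (ξ a) (ξ b))) ≤
      ENNReal.ofReal ((3 / ((D : ℝ) * τ)) ^ 2 * ((1 / 6) * sw w l fun x y z =>
        sw w l fun u v t => E6 (sy Φ) (vv x y z) (vv u v t))) := by
  have hc : (0 : ℝ) ≤ 3 / ((D : ℝ) * τ) := by positivity
  have hΘ : Sub fun X => 3 / ((D : ℝ) * τ) *
      sw w l fun u v t => sy (fun y => Φ (had X y)) (vv u v t) :=
    sub_cmul (sub_sw (fun u v t => sub_syh hΦ (vv_pos u v t)) w l) hc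
  calc ∑' a, ∑' b, ENNReal.ofReal (Φ (had (ξ a) (ξ b)))
      ≤ ∑' a, ENNReal.ofReal (3 / ((D : ℝ) * τ) *
          sw w l fun u v t => sy (fun y => Φ (had (ξ a) y)) (vv u v t)) :=
        ENNReal.tsum_le_tsum fun a => h _ (sub_had' hΦ (hξ a))
    _ ≤ _ := h _ hΘ
    _ = _ := by
        congr 1
        rw [sq, mul_assoc]
        congr 1
        have e : ∀ x y z, sy (fun X => 3 / ((D : ℝ) * τ) *
            sw w l fun u v t => sy (fun y => Φ (had X y)) (vv u v t)) (vv x y z) =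
            3 / ((D : ℝ) * τ) * ((1 / 6) * sw w l fun u v t =>
              E6 (sy Φ) (vv x y z) (vv u v t)) := by
          intro x y z
          rw [← sw_mul]
          simp only [← sy_E6]
          rw [sy]
          simp only [sy]
          rw [← Finset.mul_sum, ← sw_sum, ← mul_assoc, mul_comm (1 / 6 : ℝ), mul_assoc, ← sw_mul]
        rw [sw_congr e, sw_mul, sw_mul]

/-- one stage, for the laws -/
theorem dm_stage {α : Type*} {ξ : α → V} (hξ : ∀ a, Pos (ξ a)) {n B D τ : ℕ} (hn : 0 < n)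
    (hD : 0 < D) (hτ : 0 < τ) {g : L3} (hg : GridList n g)
    (hX : 2 * (τ * τ) * D ^ 2 < 2 ^ B) {l : L3} (hl : AllTot τ l)
    {w : List ℕ} (hw : w.sum = D) {K : ℕ} (hK : K = (n + 1) * (n + 2) / 2)
    (h : Dm (fun Φ => ∑' a, ENNReal.ofReal (Φ (ξ a))) D τ w l) :
    (stage (tens n B l) (2 ^ B) K (2 * τ ^ 2 * D) D w).sum = D ∧
    Dm (fun Φ => ∑' a, ∑' b, ENNReal.ofReal (Φ (had (ξ a) (ξ b)))) D (6 * n)
      (stage (tens n B l) (2 ^ B) K (2 * τ ^ 2 * D) D w) g := by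
  obtain ⟨h1, h2⟩ := stage_sound hn hD hτ hg hX hl hw hK
  refine ⟨h1, fun Φ hΦ => (prod_dm hξ h hΦ).trans (ENNReal.ofReal_le_ofReal ?_)⟩
  have h3 := h2 (sy Φ) (sub_sy hΦ) (sy_perm Φ)
  have hn' : (0 : ℝ) < n := by exact_mod_cast hn
  have hD' : (0 : ℝ) < D := by exact_mod_cast hD
  have hτ' : (0 : ℝ) < τ := by exact_mod_cast hτ
  have h4 : (3 / ((D : ℝ) * τ)) ^ 2 * ((1 / 6) * sw w l fun x y z =>
      sw w l fun u v t => E6 (sy Φ) (vv x y z) (vv u v t)) ≤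
      (3 / ((D : ℝ) * τ)) ^ 2 * ((1 / 6) * (2 * τ ^ 2 * D / (6 * n) *
        sw (stage (tens n B l) (2 ^ B) K (2 * τ ^ 2 * D) D w) g
          (fun x y z => sy Φ (vv x y z)))) :=
    mul_le_mul_of_nonneg_left (mul_le_mul_of_nonneg_left h3 (by norm_num)) (by positivity)
  refine h4.trans (le_of_eq ?_)
  push_cast
  field_simp
  ring

theorem allTot_neg {m : ℕ} : ∀ {l : L3}, AllTot m l → AllTot (2 * m) (neg m l)
  | .nil, _ => trivial
  | .cons x y z l, h => ⟨by have := h.1; omega, allTot_neg h.2⟩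

theorem sw_neg {m : ℕ} {f f' : ℕ → ℕ → ℕ → ℝ}
    (hf : ∀ x y z, x + y + z = m → f x y z = (1 / 2) * f' (m - x) (m - y) (m - z)) :
    ∀ (w : List ℕ) (l : L3), AllTot m l → sw w l f = (1 / 2) * sw w (neg m l) f'
  | [], l, _ => by simp [sw]
  | w :: ws, .nil, _ => by simp [sw, neg]
  | w :: ws, .cons x y z l, h => by
    rw [neg, sw, sw, sw_neg hf ws l h.2, hf x y z h.1]; ring

/-- the messages at `lam = -1/2` -/
theorem dm_msg {off : ℕ → ℝ} {m D n : ℕ} (hn : 0 < n) {w : List ℕ} {g : L3}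
    (hg : AllTot (6 * n) g) (h : Dm (F (-(1 / 2)) off m) D (6 * n) w g) :
    Dm (fun Φ => ∑' f : Fin 1 → Obs 3 m, ENNReal.ofReal (Φ (PL (-(1 / 2)) off m 1 f)))
      D (2 * (6 * n)) w (neg (6 * n) g) := by
  intro Φ hΦ
  have hn' : (0 : ℝ) < n := by exact_mod_cast hn
  have hΦ' := sub_mvec hΦ (lam := -(1 / 2)) le_rfl (by norm_num)
  have h1 := h _ hΦ'
  have e : G (-(1 / 2)) off m 1 Φ = F (-(1 / 2)) off m fun x => Φ (mvec (-(1 / 2)) x) :=
    G_one _ _ _ _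
  refine (le_of_eq e).trans (h1.trans (le_of_eq ?_))
  congr 1
  have hf : ∀ x y z, x + y + z = 6 * n →
      sy (fun x => Φ (mvec (-(1 / 2)) x)) (vv x y z) =
        (1 / 2) * sy Φ (vv (6 * n - x) (6 * n - y) (6 * n - z)) := by
    intro x y z hs
    have hm : mvec (-(1 / 2)) (vv x y z) =
        fun i => (1 / 2) * vv (6 * n - x) (6 * n - y) (6 * n - z) i := by
      have e1 : ((6 * n - x : ℕ) : ℝ) = y + z := by
        rw [← hs, show x + y + z - x = y + z by omega]; push_cast; ring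
      have e2 : ((6 * n - y : ℕ) : ℝ) = x + z := by
        rw [← hs, show x + y + z - y = x + z by omega]; push_cast; ring
      have e3 : ((6 * n - z : ℕ) : ℝ) = x + y := by
        rw [← hs, show x + y + z - z = x + y by omega]; push_cast; ring
      funext i
      fin_cases i <;> simp [mvec, tot, vv, e1, e2, e3] <;> ring
    have hg' : ∀ g : Equiv.Perm (Fin 3), Φ (mvec (-(1 / 2)) (perm g (vv x y z))) =
        (1 / 2) * Φ (perm g (vv (6 * n - x) (6 * n - y) (6 * n - z))) := by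
      intro g
      rw [mvec_perm, hm]
      exact hΦ.smul (1 / 2) _ (by norm_num) (pos_perm (vv_pos _ _ _) g)
    rw [sy, sy, Finset.sum_congr rfl fun g _ => hg' g, ← Finset.mul_sum]
    ring
  rw [sw_neg (f' := fun a b c => sy Φ (vv a b c)) hf w g hg]
  push_cast
  ring

theorem F_regular (lam : ℝ) (h0 : -(1 / 2) ≤ lam) (h1 : lam ≤ 1) (d n : ℕ) {Φ : V → ℝ}
    (h : Sub Φ) : F lam (regular d) (n + 1) Φ = G lam (regular d) n d Φ := by
  rw [F_succ lam (isOff_regular d) h0 h1 n h, tsum_eq_single d]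
  · simp [regular]
  · intro k hk
    simp [regular, hk]

/-- one generation of the 4-ary tree -/
theorem dm_gen {m D n B K : ℕ} (hn : 0 < n) (hD : 0 < D) {g : L3} (hg : GridList n g)
    (hX : 2 * (2 * (6 * n) * (2 * (6 * n))) * D ^ 2 < 2 ^ B)
    (hK : K = (n + 1) * (n + 2) / 2) {w : List ℕ} (hw : w.sum = D)
    (h : Dm (F (-(1 / 2)) (regular 4) m) D (6 * n) w g) {w1 w2 : List ℕ}
    (h1 : w1 = stage (tens n B (neg (6 * n) g)) (2 ^ B) K (2 * (2 * (6 * n)) ^ 2 * D) D w)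
    (h2 : w2 = stage (tens n B g) (2 ^ B) K (2 * (6 * n) ^ 2 * D) D w1) :
    w2.sum = D ∧ Dm (F (-(1 / 2)) (regular 4) (m + 1)) D (6 * n) w2 g := by
  have l0 : -(1 / 2) ≤ (-(1 / 2) : ℝ) := le_rfl
  have l1 : (-(1 / 2) : ℝ) ≤ 1 := by norm_num
  have hP : ∀ k f, Pos (PL (-(1 / 2)) (regular 4) m k f) :=
    fun k f => PL_nonneg l0 l1 (isOff_regular 4).nonneg m k f
  have hX' : 2 * (6 * n * (6 * n)) * D ^ 2 < 2 ^ B := by
    refine lt_of_le_of_lt (Nat.mul_le_mul_right _ ?_) hX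
    have : 0 ≤ 6 * n * (6 * n) := Nat.zero_le _
    nlinarith
  obtain ⟨s1, d1⟩ := dm_stage (hP 1) hn hD (by omega) hg hX (allTot_neg hg.tot) hw hK
    (dm_msg hn hg.tot h)
  rw [← h1] at s1 d1
  have d1' : Dm (fun Φ => ∑' f : Fin 2 → Obs 3 m,
      ENNReal.ofReal (Φ (PL (-(1 / 2)) (regular 4) m 2 f))) D (6 * n) w1 g := by
    intro Φ hΦ
    refine le_trans (le_of_eq ?_) (d1 Φ hΦ)
    exact G_add (-(1 / 2)) (regular 4) m 1 1 Φ
  obtain ⟨s2, d2⟩ := dm_stage (hP 2) hn hD (by omega) hg hX' hg.tot s1 hK d1'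
  rw [← h2] at s2 d2
  refine ⟨s2, fun Φ hΦ => le_trans (le_of_eq ?_) (d2 Φ hΦ)⟩
  rw [F_regular _ l0 l1 4 m hΦ]
  exact G_add (-(1 / 2)) (regular 4) m 2 2 Φ

theorem leqN_sound : ∀ {l m : List ℕ}, leqN l m = true → l = m
  | [], [], _ => rfl
  | [], b :: m, h => by
    have : leqN [] (b :: m) = false := rfl
    rw [this] at h; exact absurd h (by simp)
  | a :: l, [], h => by
    have : leqN (a :: l) [] = false := rfl
    rw [this] at h; exact absurd h (by simp)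
  | a :: l, b :: m, h => by
    have e : leqN (a :: l) (b :: m) =
        Bool.rec (motive := fun _ => Bool) false (leqN l m) (Nat.beq a b) := rfl
    rw [e] at h
    cases hb : Nat.beq a b with
    | false => rw [hb] at h; exact absurd h (by simp)
    | true =>
      rw [hb] at h
      rw [Nat.eq_of_beq_eq_true hb, leqN_sound h]

/-- several generations -/
theorem dm_iter {D n B K : ℕ} (hn : 0 < n) (hD : 0 < D) {g : L3} (hg : GridList n g)
    (hX : 2 * (2 * (6 * n) * (2 * (6 * n))) * D ^ 2 < 2 ^ B)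
    (hK : K = (n + 1) * (n + 2) / 2) {d1 d2 : ℕ} (hd1 : d1 = 2 * (2 * (6 * n)) ^ 2 * D)
    (hd2 : d2 = 2 * (6 * n) ^ 2 * D) : ∀ (k m : ℕ) (w : List ℕ), w.sum = D →
    Dm (F (-(1 / 2)) (regular 4) m) D (6 * n) w g →
    (iter (tens n B (neg (6 * n) g)) (tens n B g) (2 ^ B) K d1 d2 D k w).sum = D ∧
    Dm (F (-(1 / 2)) (regular 4) (m + k)) D (6 * n)
      (iter (tens n B (neg (6 * n) g)) (tens n B g) (2 ^ B) K d1 d2 D k w) g
  | 0, m, w, hw, h => ⟨hw, h⟩
  | k + 1, m, w, hw, h => by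
    obtain ⟨a, b⟩ := dm_gen hn hD hg hX hK hw h (by rw [← hd1]) (by rw [← hd2])
    have := dm_iter hn hD hg hX hK hd1 hd2 k (m + 1) _ a b
    rw [show m + (k + 1) = m + 1 + k by omega]
    exact this

end Vale.Agent.P154.DE
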