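import Vale.Agent.P154.Shared

/-!
# The Kesten-Stigum direction: `μ λ² > 1` implies reconstruction

`μ` is the mean of the offspring law (which has a finite second moment), `q ≥ 2` is arbitrary.
-/

namespace Vale.Agent.P154

open scoped BigOperators ENNReal
open Filter Topology

namespace KS

theorem hs_congr {β : Type*} {f g : β → ℝ} {a b : ℝ} (h : HasSum f a) (hfg : ∀ x, g x = f x)
    (hab : b = a) : HasSum g b := by
  have : g = f := funext hfg
  rw [this, hab]; exact h

/-! ### Moments of a sum over independent children -/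

theorem hasSum_pi {α : Type*} (p z : α → ℝ) {m s : ℝ}
    (h1 : HasSum p 1) (h2 : HasSum (fun a => p a * z a) m)
    (h3 : HasSum (fun a => p a * z a ^ 2) s) : ∀ k : ℕ,
    HasSum (fun f : Fin k → α => ∏ c, p (f c)) 1 ∧
    HasSum (fun f : Fin k → α => (∏ c, p (f c)) * ∑ c, z (f c)) (k * m) ∧
    HasSum (fun f : Fin k → α => (∏ c, p (f c)) * (∑ c, z (f c)) ^ 2)
      (k * s + k * (k - 1) * m ^ 2) := by
  intro k
  induction k with
  | zero =>
    refine ⟨?_, ?_, ?_⟩
    · convert hasSum_unique (fun f : Fin 0 → α => ∏ c, p (f c)) using 1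
      simp
    · convert hasSum_unique (fun f : Fin 0 → α => (∏ c, p (f c)) * ∑ c, z (f c)) using 1
      simp
    · convert hasSum_unique (fun f : Fin 0 → α => (∏ c, p (f c)) * (∑ c, z (f c)) ^ 2) using 1
      simp
  | succ k ih =>
    obtain ⟨i1, i2, i3⟩ := ih
    have hm : ∀ {f : α → ℝ} {g : (Fin k → α) → ℝ} {a b : ℝ}, HasSum f a → HasSum g b →
        HasSum (fun x : α × (Fin k → α) => f x.1 * g x.2) (a * b) := fun hf hg =>
      hf.mul hg (summable_mul_of_summable_norm hf.summable.norm hg.summable.norm)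
    refine ⟨?_, ?_, ?_⟩
    · rw [← (Fin.consEquiv (fun _ : Fin (k + 1) => α)).hasSum_iff]
      convert hm h1 i1 using 1
      · funext x
        simp [Fin.prod_univ_succ, Fin.consEquiv]
      · ring
    · rw [← (Fin.consEquiv (fun _ : Fin (k + 1) => α)).hasSum_iff]
      convert (hm h2 i1).add (hm h1 i2) using 1
      · funext x
        simp [Fin.prod_univ_succ, Fin.sum_univ_succ, Fin.consEquiv]
        ring
      · push_cast; ring
    · rw [← (Fin.consEquiv (fun _ : Fin (k + 1) => α)).hasSum_iff]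
      convert ((hm h3 i1).add ((hm h2 i2).mul_left 2)).add (hm h1 i3) using 1
      · funext x
        simp [Fin.prod_univ_succ, Fin.sum_univ_succ, Fin.consEquiv]
        ring
      · push_cast; ring

/-! ### The census statistic -/

/-- sum of `φ` over the spins of the last generation -/
def Zst {q : ℕ} (φ : Fin q → ℝ) : (n : ℕ) → Obs q n → ℝ
  | 0, o => φ o.spin
  | n + 1, o => ∑ c : Fin o.1, Zst φ n (o.2 c)

/-- second moments of the census statistic -/
noncomputable def sm {q : ℕ} (lam μ μ₂ : ℝ) (φ : Fin q → ℝ) : ℕ → Fin q → ℝ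
  | 0, i => φ i ^ 2
  | n + 1, i => μ * ∑ j, channel q lam i j * sm lam μ μ₂ φ n j +
      μ₂ * (lam * ((μ * lam) ^ n * φ i)) ^ 2

theorem moments {q : ℕ} {lam : ℝ} (h0 : 0 ≤ 1 + (q - 1) * lam) (h1 : lam ≤ 1)
    {off : ℕ → ℝ} (hoff : IsOff off) {μ μ₂ : ℝ} (hμ : HasSum (fun k : ℕ => off k * k) μ)
    (hμ₂ : HasSum (fun k : ℕ => off k * (k * (k - 1))) μ₂) (φ : Fin q → ℝ)
    (hφ : ∑ j, φ j = 0) : ∀ (n : ℕ) (i : Fin q),
    HasSum (fun o : Obs q n => law q lam off n i o) 1 ∧
    HasSum (fun o : Obs q n => law q lam off n i o * Zst φ n o) ((μ * lam) ^ n * φ i) ∧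
    HasSum (fun o : Obs q n => law q lam off n i o * Zst φ n o ^ 2) (sm lam μ μ₂ φ n i) := by
  intro n
  induction n with
  | zero =>
    intro i
    have key : ∀ h : Fin q → ℝ, HasSum (fun o : Obs q 0 => law q lam off 0 i o * h o.spin)
        (h i) := by
      intro h
      have e : ∀ o : Obs q 0, o ≠ (show Obs q 0 from i) →
          law q lam off 0 i o * h o.spin = 0 := by
        intro o ho
        have : ¬ i = Obs.spin o := fun h => ho h.symm
        rw [law, if_neg this, zero_mul]
      have e2 := hasSum_single (show Obs q 0 from i) e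
      have e3 : law q lam off 0 i (show Obs q 0 from i) * h (Obs.spin (show Obs q 0 from i)) =
          h i := by
        have : i = Obs.spin (show Obs q 0 from i) := rfl
        rw [law, if_pos this, one_mul, ← this]
      rwa [e3] at e2
    refine ⟨?_, ?_, ?_⟩
    · have := key (fun _ => 1)
      simpa using this
    · have := key φ
      simpa [Zst] using this
    · exact key (fun j => φ j ^ 2)
  | succ n ih =>
    intro i
    have hch := channel_nonneg h0 h1 i
    -- the law of the observation below one child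
    set p : Obs q n → ℝ := fun o => ∑ j, channel q lam i j * law q lam off n j o with hp
    have hp0 : ∀ o, 0 ≤ p o := fun o =>
      Finset.sum_nonneg fun j _ => mul_nonneg (hch j) (law_nonneg h0 h1 hoff.nonneg n j o)
    have hp1 : HasSum p 1 := by
      have := hasSum_sum (s := Finset.univ) fun j _ => ((ih j).1).mul_left (channel q lam i j)
      simp only [mul_one, channel_sum] at this
      exact this
    have hp2 : HasSum (fun o => p o * Zst φ n o) (lam * ((μ * lam) ^ n * φ i)) := by
      have := hasSum_sum (s := Finset.univ) fun j _ => ((ih j).2.1).mul_left (channel q lam i j)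
      refine hs_congr this (fun o => ?_) ?_
      · simp only [hp, Finset.sum_mul]
        exact Finset.sum_congr rfl fun j _ => by ring
      · rw [channel_sum_mul lam i (fun j => (μ * lam) ^ n * φ j), ← Finset.mul_sum, hφ]
        ring
    have hp3 : HasSum (fun o => p o * Zst φ n o ^ 2)
        (∑ j, channel q lam i j * sm lam μ μ₂ φ n j) := by
      have := hasSum_sum (s := Finset.univ) fun j _ => ((ih j).2.2).mul_left (channel q lam i j)
      refine hs_congr this (fun o => ?_) rfl
      simp only [hp, Finset.sum_mul]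
      exact Finset.sum_congr rfl fun j _ => by ring
    have hk := hasSum_pi p (Zst φ n) hp1 hp2 hp3
    have hlaw : ∀ (k : ℕ) (f : Fin k → Obs q n), law q lam off (n + 1) i ⟨k, f⟩ =
        off k * ∏ c, p (f c) := fun k f => rfl
    have hZ : ∀ (k : ℕ) (f : Fin k → Obs q n), Zst φ (n + 1) ⟨k, f⟩ =
        ∑ c, Zst φ n (f c) := fun k f => rfl
    have hlnn := law_nonneg h0 h1 hoff.nonneg (n + 1) i
    -- sums over `k`
    have g1 : HasSum (fun k : ℕ => off k * 1) 1 := by simpa using hoff.sum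
    have g2 : HasSum (fun k : ℕ => off k * (k * (lam * ((μ * lam) ^ n * φ i))))
        (μ * (lam * ((μ * lam) ^ n * φ i))) := by
      exact hs_congr (hμ.mul_right (lam * ((μ * lam) ^ n * φ i))) (fun k => by ring) rfl
    have g3 : HasSum (fun k : ℕ => off k * (k * (∑ j, channel q lam i j * sm lam μ μ₂ φ n j) +
        k * (k - 1) * (lam * ((μ * lam) ^ n * φ i)) ^ 2)) (sm lam μ μ₂ φ (n + 1) i) := by
      exact hs_congr ((hμ.mul_right (∑ j, channel q lam i j * sm lam μ μ₂ φ n j)).add
        (hμ₂.mul_right ((lam * ((μ * lam) ^ n * φ i)) ^ 2))) (fun k => by ring) rfl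
    have s1 : ∀ k : ℕ, HasSum (fun f : Fin k → Obs q n => law q lam off (n + 1) i ⟨k, f⟩)
        (off k * 1) := fun k => (hk k).1.mul_left (off k)
    have s2 : ∀ k : ℕ, HasSum (fun f : Fin k → Obs q n =>
        law q lam off (n + 1) i ⟨k, f⟩ * Zst φ (n + 1) ⟨k, f⟩)
        (off k * (k * (lam * ((μ * lam) ^ n * φ i)))) := by
      intro k
      exact hs_congr ((hk k).2.1.mul_left (off k)) (fun f => by rw [hlaw, hZ]; ring) rfl
    have s3 : ∀ k : ℕ, HasSum (fun f : Fin k → Obs q n =>
        law q lam off (n + 1) i ⟨k, f⟩ * Zst φ (n + 1) ⟨k, f⟩ ^ 2)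
        (off k * (k * (∑ j, channel q lam i j * sm lam μ μ₂ φ n j) +
        k * (k - 1) * (lam * ((μ * lam) ^ n * φ i)) ^ 2)) := by
      intro k
      exact hs_congr ((hk k).2.2.mul_left (off k)) (fun f => by rw [hlaw, hZ]; ring) rfl
    have t1 : Summable (fun o : Obs q (n + 1) => law q lam off (n + 1) i o) := by
      refine (summable_sigma_of_nonneg
        (f := fun o : (Σ k : ℕ, (Fin k → Obs q n)) => law q lam off (n + 1) i o) hlnn).2
        ⟨fun k => (s1 k).summable, ?_⟩
      exact g1.summable.congr fun k => ((s1 k).tsum_eq).symm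
    have t3 : Summable (fun o : Obs q (n + 1) =>
        law q lam off (n + 1) i o * Zst φ (n + 1) o ^ 2) := by
      refine (summable_sigma_of_nonneg
        (f := fun o : (Σ k : ℕ, (Fin k → Obs q n)) =>
          law q lam off (n + 1) i o * Zst φ (n + 1) o ^ 2)
        (fun o => mul_nonneg (hlnn o) (sq_nonneg _))).2 ⟨fun k => (s3 k).summable, ?_⟩
      exact g3.summable.congr fun k => ((s3 k).tsum_eq).symm
    have t2 : Summable (fun o : Obs q (n + 1) =>
        law q lam off (n + 1) i o * Zst φ (n + 1) o) := by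
      refine Summable.of_norm_bounded (t1.add t3) fun o => ?_
      rw [Real.norm_eq_abs, abs_mul, abs_of_nonneg (hlnn o)]
      have : |Zst φ (n + 1) o| ≤ 1 + Zst φ (n + 1) o ^ 2 := by
        rw [← sq_abs]
        nlinarith [sq_nonneg (|Zst φ (n + 1) o| - 1), abs_nonneg (Zst φ (n + 1) o)]
      nlinarith [mul_le_mul_of_nonneg_left this (hlnn o)]
    refine ⟨?_, ?_, ?_⟩
    · exact HasSum.sigma_of_hasSum (f := fun o : (Σ k : ℕ, (Fin k → Obs q n)) =>
        law q lam off (n + 1) i o) g1 s1 t1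
    · have e := HasSum.sigma_of_hasSum (f := fun o : (Σ k : ℕ, (Fin k → Obs q n)) =>
        law q lam off (n + 1) i o * Zst φ (n + 1) o) g2 s2 t2
      have e' : (μ * lam) ^ (n + 1) * φ i = μ * (lam * ((μ * lam) ^ n * φ i)) := by ring
      rw [e']
      exact e
    · exact HasSum.sigma_of_hasSum (f := fun o : (Σ k : ℕ, (Fin k → Obs q n)) =>
        law q lam off (n + 1) i o * Zst φ (n + 1) o ^ 2) g3 s3 t3

/-- growth of the second moment -/
theorem sm_bound {q : ℕ} {lam μ μ₂ : ℝ} (hμ : 0 < μ) (hμ₂ : 0 ≤ μ₂) (hKS : 1 < μ * lam ^ 2)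
    (φ : Fin q → ℝ) : ∃ B : ℝ, 0 ≤ B ∧ ∀ n, ∑ i, sm lam μ μ₂ φ n i ≤ B * ((μ * lam) ^ n) ^ 2 := by
  set N : ℝ := ∑ i, φ i ^ 2 with hN
  have hN0 : 0 ≤ N := Finset.sum_nonneg fun i _ => sq_nonneg _
  have hD : 0 < μ * (μ * lam ^ 2 - 1) := mul_pos hμ (by linarith)
  refine ⟨N + μ₂ * lam ^ 2 * N / (μ * (μ * lam ^ 2 - 1)), by positivity, ?_⟩
  intro n
  induction n with
  | zero =>
    simp only [sm, pow_zero, one_pow, mul_one]
    have : 0 ≤ μ₂ * lam ^ 2 * N / (μ * (μ * lam ^ 2 - 1)) := by positivity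
    linarith
  | succ n ih =>
    set X : ℝ := ((μ * lam) ^ n) ^ 2 with hX
    have hX0 : 0 ≤ X := sq_nonneg _
    set B : ℝ := N + μ₂ * lam ^ 2 * N / (μ * (μ * lam ^ 2 - 1)) with hB
    have e1 : ∑ i, sm lam μ μ₂ φ (n + 1) i =
        μ * ∑ i, sm lam μ μ₂ φ n i + μ₂ * lam ^ 2 * X * N := by
      have e2 : ∑ i, ∑ j, channel q lam i j * sm lam μ μ₂ φ n j = ∑ j, sm lam μ μ₂ φ n j := by
        rw [Finset.sum_comm]
        refine Finset.sum_congr rfl fun j _ => ?_
        rw [← Finset.sum_mul]
        have : ∑ i, channel q lam i j = 1 := by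
          rw [← channel_sum lam j]
          exact Finset.sum_congr rfl fun i _ => by simp [channel, eq_comm]
        rw [this, one_mul]
      have e6 : ∑ i, μ₂ * (lam * ((μ * lam) ^ n * φ i)) ^ 2 = μ₂ * lam ^ 2 * X * N := by
        rw [hN, Finset.mul_sum]
        exact Finset.sum_congr rfl fun i _ => by rw [hX]; ring
      simp only [sm]
      rw [Finset.sum_add_distrib, ← Finset.mul_sum, e2, e6]
    have e3 : ((μ * lam) ^ (n + 1)) ^ 2 = μ ^ 2 * lam ^ 2 * X := by rw [hX]; ring
    rw [e1, e3]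
    have e4 : B * (μ * (μ * lam ^ 2 - 1)) = N * (μ * (μ * lam ^ 2 - 1)) + μ₂ * lam ^ 2 * N := by
      rw [hB, add_mul, div_mul_cancel₀ _ hD.ne']
    have e5 : μ * B + μ₂ * lam ^ 2 * N ≤ B * (μ ^ 2 * lam ^ 2) := by
      have : 0 ≤ N * (μ * (μ * lam ^ 2 - 1)) := mul_nonneg hN0 hD.le
      nlinarith
    calc μ * ∑ i, sm lam μ μ₂ φ n i + μ₂ * lam ^ 2 * X * N
        ≤ μ * (B * X) + μ₂ * lam ^ 2 * X * N := by
          have := mul_le_mul_of_nonneg_left ih hμ.le
          linarith
      _ = (μ * B + μ₂ * lam ^ 2 * N) * X := by ring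
      _ ≤ B * (μ ^ 2 * lam ^ 2) * X := mul_le_mul_of_nonneg_right e5 hX0
      _ = B * (μ ^ 2 * lam ^ 2 * X) := by ring

/-! ### The advantage as a sum of total variation distances -/

/-- `∑_i |law_i - average|`. -/
noncomputable def dev {q : ℕ} (lam : ℝ) (off : ℕ → ℝ) (n : ℕ) (o : Obs q n) : ℝ :=
  ∑ i, |law q lam off n i o - (∑ j, law q lam off n j o) / q|

theorem adv_term {q : ℕ} (hq : 0 < q) {lam : ℝ} (h0 : 0 ≤ 1 + (q - 1) * lam) (h1 : lam ≤ 1)
    {off : ℕ → ℝ} (hoff : ∀ k, 0 ≤ off k) (n : ℕ) (o : Obs q n) :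
    (1 / q * ∑ j : Fin q, law q lam off n j o) *
      (1 / 2 * ∑ i : Fin q, |posterior q lam off n o i - 1 / q|) =
      1 / (2 * q) * dev lam off n o := by
  have hl := fun i => law_nonneg h0 h1 hoff n i o
  have hq' : (0 : ℝ) < q := by exact_mod_cast hq
  set t : ℝ := ∑ j, law q lam off n j o with ht
  have ht0 : 0 ≤ t := Finset.sum_nonneg fun j _ => hl j
  rcases ht0.eq_or_lt with h | h
  · have hz : ∀ i, law q lam off n i o = 0 := by
      intro i
      have := (Finset.sum_eq_zero_iff_of_nonneg (fun j _ => hl j)).1 (ht.symm.trans h.symm)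
      exact this i (Finset.mem_univ i)
    rw [dev, ← ht, ← h]
    simp [hz]
  · have : dev lam off n o = t * ∑ i : Fin q, |posterior q lam off n o i - 1 / q| := by
      rw [dev, Finset.mul_sum]
      refine Finset.sum_congr rfl fun i _ => ?_
      rw [posterior, ← ht]
      nth_rw 2 [← abs_of_pos h]
      rw [← abs_mul]
      congr 1
      field_simp
    rw [this]
    field_simp

theorem advantage_eq {q : ℕ} (hq : 0 < q) {lam : ℝ} (h0 : 0 ≤ 1 + (q - 1) * lam) (h1 : lam ≤ 1)
    {off : ℕ → ℝ} (hoff : ∀ k, 0 ≤ off k) (n : ℕ) :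
    advantage q lam off n = ENNReal.ofReal (1 / (2 * q)) *
      ∑' o : Obs q n, ENNReal.ofReal (dev lam off n o) := by
  rw [advantage, ← ENNReal.tsum_mul_left]
  refine tsum_congr fun o => ?_
  rw [adv_term hq h0 h1 hoff, ENNReal.ofReal_mul (by positivity)]

/-! ### Lower bound for the advantage -/

theorem advantage_lower {q : ℕ} (hq : 2 ≤ q) {lam : ℝ} (h0 : 0 ≤ 1 + (q - 1) * lam)
    (h1 : lam ≤ 1) {off : ℕ → ℝ} (hoff : IsOff off) {μ μ₂ : ℝ}
    (hμ : HasSum (fun k : ℕ => off k * k) μ)
    (hμ₂ : HasSum (fun k : ℕ => off k * (k * (k - 1))) μ₂) (hKS : 1 < μ * lam ^ 2) :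
    ∃ c : ℝ, 0 < c ∧ ∀ n, ENNReal.ofReal c ≤ advantage q lam off n := by
  have hq' : (0 : ℝ) < q := by
    have : 0 < q := by omega
    exact_mod_cast this
  have hμ0 : 0 < μ := by
    by_contra h
    nlinarith [sq_nonneg lam, mul_nonneg (neg_nonneg.2 (not_lt.1 h)) (sq_nonneg lam)]
  have hlam : lam ≠ 0 := by
    rintro rfl; norm_num at hKS
  have hμ₂0 : 0 ≤ μ₂ := by
    refine hμ₂.nonneg fun k => mul_nonneg (hoff.nonneg k) ?_
    rcases Nat.eq_zero_or_pos k with rfl | hk
    · simp
    · have : (1 : ℝ) ≤ k := by exact_mod_cast hk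
      exact mul_nonneg (by linarith) (by linarith)
  -- the function `φ`
  set z : Fin q := ⟨0, by omega⟩ with hz
  set φ : Fin q → ℝ := fun j => (if j = z then 1 else 0) - 1 / q with hφd
  have hφs : ∑ j, φ j = 0 := by
    simp only [hφd, Finset.sum_sub_distrib]
    simp
    field_simp
    ring
  have hq1 : 1 / (q : ℝ) ≤ 1 / 2 := by
    apply one_div_le_one_div_of_le (by norm_num)
    exact_mod_cast hq
  have hq1' : 0 < 1 / (q : ℝ) := by positivity
  have hφ1 : ∀ j, |φ j| ≤ 1 := by
    intro j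
    simp only [hφd]
    rw [abs_le]
    split_ifs <;> constructor <;> linarith
  set N : ℝ := ∑ i, φ i ^ 2 with hN
  have hN0 : 0 < N := by
    refine Finset.sum_pos' (fun i _ => sq_nonneg _) ⟨z, Finset.mem_univ z, ?_⟩
    have : φ z = 1 - 1 / q := by simp [hφd]
    rw [this]
    have : 0 < 1 - 1 / (q : ℝ) := by linarith
    positivity
  obtain ⟨B, hB0, hB⟩ := sm_bound hμ0 hμ₂0 hKS φ
  have hmom := moments h0 h1 hoff hμ hμ₂ φ hφs
  have hBpos : 0 < B := by
    have := hB 0
    simp only [sm, pow_zero, one_pow, mul_one] at this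
    exact lt_of_lt_of_le hN0 this
  refine ⟨N ^ 2 / (4 * q * B), by positivity, fun n => ?_⟩
  have hl := fun o i => law_nonneg h0 h1 hoff.nonneg n i o
  -- deviations are summable
  have hdev0 : ∀ o : Obs q n, 0 ≤ dev lam off n o := fun o =>
    Finset.sum_nonneg fun i _ => abs_nonneg _
  have htot0 : ∀ o : Obs q n, 0 ≤ ∑ j, law q lam off n j o := fun o =>
    Finset.sum_nonneg fun j _ => hl o j
  have hdev2 : ∀ o : Obs q n, dev lam off n o ≤ 2 * ∑ j, law q lam off n j o := by
    intro o
    have : ∀ i ∈ (Finset.univ : Finset (Fin q)),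
        |law q lam off n i o - (∑ j, law q lam off n j o) / q| ≤
          law q lam off n i o + (∑ j, law q lam off n j o) / q := by
      intro i _
      refine (abs_sub _ _).trans (le_of_eq ?_)
      rw [abs_of_nonneg (hl o i), abs_of_nonneg (div_nonneg (htot0 o) hq'.le)]
    refine (Finset.sum_le_sum this).trans (le_of_eq ?_)
    rw [Finset.sum_add_distrib, Finset.sum_const, Finset.card_univ, Fintype.card_fin,
      nsmul_eq_mul]
    field_simp
    ring
  have htot : HasSum (fun o : Obs q n => ∑ j, law q lam off n j o) (∑ _j : Fin q, 1) :=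
    hasSum_sum fun j _ => (hmom n j).1
  have hdevs : Summable (fun o : Obs q n => dev lam off n o) :=
    Summable.of_nonneg_of_le hdev0 hdev2 (htot.summable.mul_left 2)
  set a : ℝ := ∑' o : Obs q n, dev lam off n o with ha
  have hadv : advantage q lam off n = ENNReal.ofReal (1 / (2 * q) * a) := by
    rw [advantage_eq (by omega) h0 h1 hoff.nonneg, ← ENNReal.ofReal_tsum_of_nonneg hdev0 hdevs,
      ← ENNReal.ofReal_mul (by positivity)]
  rw [hadv]
  refine ENNReal.ofReal_le_ofReal ?_
  set M : ℝ := (μ * lam) ^ n with hM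
  have hMne : M ≠ 0 := pow_ne_zero _ (mul_ne_zero hμ0.ne' hlam)
  have hMpos : 0 < |M| := abs_pos.2 hMne
  -- correlation with the root
  have hD : HasSum (fun o : Obs q n => Zst φ n o * ∑ i, φ i * law q lam off n i o) (M * N) := by
    have := hasSum_sum (s := Finset.univ) fun i _ => ((hmom n i).2.1).mul_left (φ i)
    refine hs_congr this (fun o => ?_) ?_
    · rw [Finset.mul_sum]
      exact Finset.sum_congr rfl fun i _ => by ring
    · rw [hN, Finset.mul_sum]
      exact Finset.sum_congr rfl fun i _ => by rw [hM]; ring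
  have hS : HasSum (fun o : Obs q n => (∑ i, law q lam off n i o) * Zst φ n o ^ 2)
      (∑ i, sm lam μ μ₂ φ n i) := by
    have := hasSum_sum (s := Finset.univ) fun i _ => (hmom n i).2.2
    refine hs_congr this (fun o => ?_) rfl
    rw [Finset.sum_mul]
  set η : ℝ := N / (2 * B * |M|) with hη
  have hη0 : 0 < η := by positivity
  -- pointwise bound
  have hpt : ∀ o : Obs q n, |Zst φ n o * ∑ i, φ i * law q lam off n i o| ≤
      η * ((∑ i, law q lam off n i o) * Zst φ n o ^ 2) + 1 / (2 * η) * dev lam off n o := by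
    intro o
    set t : ℝ := ∑ j, law q lam off n j o with ht
    set Δ : ℝ := dev lam off n o with hΔ
    set Z : ℝ := Zst φ n o
    have e1 : |∑ i, φ i * law q lam off n i o| ≤ Δ := by
      have e2 : ∑ i, φ i * law q lam off n i o = ∑ i, φ i * (law q lam off n i o - t / q) := by
        simp only [mul_sub, Finset.sum_sub_distrib]
        rw [← Finset.sum_mul, hφs]
        ring
      rw [e2, hΔ, dev]
      refine (Finset.abs_sum_le_sum_abs _ _).trans (Finset.sum_le_sum fun i _ => ?_)
      rw [abs_mul]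
      exact mul_le_of_le_one_left (abs_nonneg _) (hφ1 i)
    rw [abs_mul]
    have e3 : |Z| * |∑ i, φ i * law q lam off n i o| ≤ |Z| * Δ :=
      mul_le_mul_of_nonneg_left e1 (abs_nonneg _)
    refine e3.trans ?_
    have hΔ2 : Δ ≤ 2 * t := hdev2 o
    have hΔ0 : 0 ≤ Δ := hdev0 o
    have ht0 : 0 ≤ t := htot0 o
    have e4 : η * (t * Z ^ 2) + 1 / (2 * η) * Δ - |Z| * Δ =
        1 / (2 * η) * (2 * η ^ 2 * t * |Z| ^ 2 + Δ - 2 * η * |Z| * Δ) := by
      rw [sq_abs]; field_simp
    have e5 : 0 ≤ 2 * η ^ 2 * t * |Z| ^ 2 + Δ - 2 * η * |Z| * Δ := by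
      set y : ℝ := η * |Z| with hy
      have hy0 : 0 ≤ y := mul_nonneg hη0.le (abs_nonneg _)
      have e6 : 2 * η ^ 2 * t * |Z| ^ 2 + Δ - 2 * η * |Z| * Δ = 2 * t * y ^ 2 + Δ * (1 - 2 * y) := by
        rw [hy]; ring
      rw [e6]
      rcases le_total (2 * y) 1 with h | h
      · have := mul_nonneg hΔ0 (sub_nonneg.2 h)
        positivity
      · have := mul_le_mul_of_nonneg_right hΔ2 (sub_nonneg.2 h)
        nlinarith [mul_nonneg ht0 (sq_nonneg (y - 1))]
    have e7 : 0 ≤ 1 / (2 * η) * (2 * η ^ 2 * t * |Z| ^ 2 + Δ - 2 * η * |Z| * Δ) :=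
      mul_nonneg (by positivity) e5
    linarith
  have hmain : |M * N| ≤ η * ∑ i, sm lam μ μ₂ φ n i + 1 / (2 * η) * a := by
    have hsum := (hS.mul_left η).add (hdevs.hasSum.mul_left (1 / (2 * η)))
    have habs : Summable (fun o : Obs q n => ‖Zst φ n o * ∑ i, φ i * law q lam off n i o‖) :=
      hD.summable.norm
    have h2 := norm_tsum_le_tsum_norm habs
    rw [hD.tsum_eq, Real.norm_eq_abs] at h2
    refine h2.trans ?_
    exact hasSum_le hpt habs.hasSum hsum
  have hMN : |M * N| = |M| * N := by rw [abs_mul, abs_of_pos hN0]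
  have hB' := hB n
  rw [hMN] at hmain
  have h5 : η * ∑ i, sm lam μ μ₂ φ n i ≤ |M| * N / 2 := by
    calc η * ∑ i, sm lam μ μ₂ φ n i ≤ η * (B * M ^ 2) := mul_le_mul_of_nonneg_left hB' hη0.le
      _ = |M| * N / 2 := by
        rw [hη, ← sq_abs M]; field_simp
  have h6 : |M| * N / 2 ≤ 1 / (2 * η) * a := by linarith
  have h7 : N ^ 2 / (4 * q * B) = (1 / (2 * q)) * ((|M| * N / 2) * (2 * η)) := by
    rw [hη]; field_simp; ring
  rw [h7]
  refine mul_le_mul_of_nonneg_left ?_ (by positivity)
  calc |M| * N / 2 * (2 * η) ≤ 1 / (2 * η) * a * (2 * η) :=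
        mul_le_mul_of_nonneg_right h6 (by positivity)
    _ = a := by field_simp

/-! ### Data processing: the advantage is nonincreasing -/

/-- `P'` is obtained from `P` by a Markov kernel. -/
def Garble {q : ℕ} {α α' : Type*} (P : Fin q → α → ℝ≥0∞) (P' : Fin q → α' → ℝ≥0∞)
    (K : α → α' → ℝ≥0∞) : Prop :=
  (∀ o, ∑' o', K o o' = 1) ∧ ∀ i o', P' i o' = ∑' o, P i o * K o o'

/-- the kernel which resamples one more generation -/
noncomputable def ker (q : ℕ) (lam : ℝ) (off : ℕ → ℝ) : (n : ℕ) → Obs q n → Obs q (n + 1) → ℝ≥0∞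
  | 0, o, o' => ENNReal.ofReal (law q lam off 1 o.spin o')
  | n + 1, o, o' => by
      classical
      exact if h : o'.1 = o.1 then
        ∏ c : Fin o.1, ker q lam off n (o.2 c) (o'.2 (Fin.cast h.symm c)) else 0

theorem ker_same {q : ℕ} (lam : ℝ) (off : ℕ → ℝ) (n k : ℕ) (f : Fin k → Obs q n)
    (f' : Fin k → Obs q (n + 1)) :
    ker q lam off (n + 1) ⟨k, f⟩ ⟨k, f'⟩ = ∏ c, ker q lam off n (f c) (f' c) := by
  simp [ker]

theorem ker_diff {q : ℕ} (lam : ℝ) (off : ℕ → ℝ) (n k k' : ℕ) (f : Fin k → Obs q n)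
    (f' : Fin k' → Obs q (n + 1)) (h : k' ≠ k) :
    ker q lam off (n + 1) ⟨k, f⟩ ⟨k', f'⟩ = 0 := by
  simp [ker, h]

theorem garble {q : ℕ} {lam : ℝ} (h0 : 0 ≤ 1 + (q - 1) * lam) (h1 : lam ≤ 1) {off : ℕ → ℝ}
    (hoff : IsOff off) : ∀ n : ℕ,
    Garble (fun i (o : Obs q n) => ENNReal.ofReal (law q lam off n i o))
      (fun i (o : Obs q (n + 1)) => ENNReal.ofReal (law q lam off (n + 1) i o))
      (ker q lam off n) := by
  intro n
  induction n with
  | zero =>
    refine ⟨fun o => ?_, fun i o' => ?_⟩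
    · exact tsum_law h0 h1 hoff.nonneg hoff.sum 1 o.spin
    · simp only
      rw [tsum_eq_single (show Obs q 0 from i)]
      · have : i = Obs.spin (show Obs q 0 from i) := rfl
        rw [law, if_pos this, ENNReal.ofReal_one, one_mul]
        rfl
      · intro o ho
        have : ¬ i = Obs.spin o := fun h => ho h.symm
        rw [law, if_neg this, ENNReal.ofReal_zero, zero_mul]
  | succ n ih =>
    obtain ⟨ih1, ih2⟩ := ih
    refine ⟨fun o => ?_, fun i o' => ?_⟩
    · obtain ⟨k, f⟩ := o
      have e1 : ∑' o' : Obs q (n + 2), ker q lam off (n + 1) ⟨k, f⟩ o' =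
          ∑' k' : ℕ, ∑' f' : Fin k' → Obs q (n + 1), ker q lam off (n + 1) ⟨k, f⟩ ⟨k', f'⟩ :=
        ENNReal.tsum_sigma' (fun o' : (Σ k' : ℕ, (Fin k' → Obs q (n + 1))) =>
          ker q lam off (n + 1) ⟨k, f⟩ o')
      rw [e1, tsum_eq_single k]
      · simp only [ker_same]
        rw [tsum_pi_prod k (fun c o' => ker q lam off n (f c) o')]
        simp only [ih1, Finset.prod_const_one]
      · intro k' hk'
        simp only [ker_diff lam off n k k' f _ hk', tsum_zero]
    · obtain ⟨k, f'⟩ := o'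
      have e1 : ∑' o : Obs q (n + 1), ENNReal.ofReal (law q lam off (n + 1) i o) *
          ker q lam off (n + 1) o ⟨k, f'⟩ =
          ∑' k' : ℕ, ∑' f : Fin k' → Obs q n, ENNReal.ofReal (law q lam off (n + 1) i ⟨k', f⟩) *
          ker q lam off (n + 1) ⟨k', f⟩ ⟨k, f'⟩ :=
        ENNReal.tsum_sigma' (fun o : (Σ k' : ℕ, (Fin k' → Obs q n)) =>
          ENNReal.ofReal (law q lam off (n + 1) i o) * ker q lam off (n + 1) o ⟨k, f'⟩)
      simp only
      rw [e1, tsum_eq_single k]
      · -- the law as a product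
        have hl : ∀ (m : ℕ) (f : Fin k → Obs q m),
            ENNReal.ofReal (law q lam off (m + 1) i ⟨k, f⟩) = ENNReal.ofReal (off k) *
              ∏ c, ∑ j, ENNReal.ofReal (channel q lam i j) *
                ENNReal.ofReal (law q lam off m j (f c)) := by
          intro m f
          change ENNReal.ofReal (off k * ∏ c : Fin k,
            ∑ j, channel q lam i j * law q lam off m j (f c)) = _
          rw [ENNReal.ofReal_mul (hoff.nonneg k), ENNReal.ofReal_prod_of_nonneg]
          · congr 1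
            refine Finset.prod_congr rfl fun c _ => ?_
            rw [ENNReal.ofReal_sum_of_nonneg fun j _ =>
              mul_nonneg (channel_nonneg h0 h1 i j) (law_nonneg h0 h1 hoff.nonneg m j _)]
            exact Finset.sum_congr rfl fun j _ => ENNReal.ofReal_mul (channel_nonneg h0 h1 i j)
          · intro c _
            exact Finset.sum_nonneg fun j _ =>
              mul_nonneg (channel_nonneg h0 h1 i j) (law_nonneg h0 h1 hoff.nonneg m j _)
        rw [hl (n + 1) f']
        have e2 : ∀ f : Fin k → Obs q n, ENNReal.ofReal (law q lam off (n + 1) i ⟨k, f⟩) *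
            ker q lam off (n + 1) ⟨k, f⟩ ⟨k, f'⟩ = ENNReal.ofReal (off k) *
            ∏ c, ((∑ j, ENNReal.ofReal (channel q lam i j) *
              ENNReal.ofReal (law q lam off n j (f c))) * ker q lam off n (f c) (f' c)) := by
          intro f
          rw [hl n f, ker_same, mul_assoc, ← Finset.prod_mul_distrib]
        rw [tsum_congr e2, ENNReal.tsum_mul_left,
          tsum_pi_prod k (fun c o => (∑ j, ENNReal.ofReal (channel q lam i j) *
              ENNReal.ofReal (law q lam off n j o)) * ker q lam off n o (f' c))]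
        congr 1
        refine Finset.prod_congr rfl fun c _ => ?_
        have e3 : ∀ o : Obs q n, (∑ j, ENNReal.ofReal (channel q lam i j) *
              ENNReal.ofReal (law q lam off n j o)) * ker q lam off n o (f' c) =
            ∑ j, ENNReal.ofReal (channel q lam i j) *
              (ENNReal.ofReal (law q lam off n j o) * ker q lam off n o (f' c)) := by
          intro o
          rw [Finset.sum_mul]
          exact Finset.sum_congr rfl fun j _ => by ring
        rw [tsum_congr e3, Summable.tsum_finsetSum fun _ _ => ENNReal.summable]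
        refine Finset.sum_congr rfl fun j _ => ?_
        rw [ENNReal.tsum_mul_left, ← ih2 j (f' c)]
      · intro k' hk'
        simp only [ker_diff lam off n k' k _ f' hk'.symm, mul_zero, tsum_zero]

theorem ofReal_abs_sub (a b : ℝ) (ha : 0 ≤ a) (hb : 0 ≤ b) :
    ENNReal.ofReal |a - b| = (ENNReal.ofReal a - ENNReal.ofReal b) +
      (ENNReal.ofReal b - ENNReal.ofReal a) := by
  rcases le_total a b with h | h
  · rw [abs_of_nonpos (by linarith), tsub_eq_zero_of_le (ENNReal.ofReal_le_ofReal h), zero_add,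
      ← ENNReal.ofReal_sub _ ha, neg_sub]
  · rw [abs_of_nonneg (by linarith), tsub_eq_zero_of_le (ENNReal.ofReal_le_ofReal h), add_zero,
      ← ENNReal.ofReal_sub _ hb]

/-- data processing for one-sided differences -/
theorem garble_sub {α α' : Type*} (A B : α → ℝ≥0∞) (A' B' : α' → ℝ≥0∞) (K : α → α' → ℝ≥0∞)
    (hK : ∀ o, ∑' o', K o o' = 1) (hA : ∀ o', A' o' = ∑' o, A o * K o o')
    (hB : ∀ o', B' o' = ∑' o, B o * K o o') :
    ∑' o', (A' o' - B' o') ≤ ∑' o, (A o - B o) := by
  calc ∑' o', (A' o' - B' o') ≤ ∑' o', ∑' o, (A o - B o) * K o o' := by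
        refine ENNReal.tsum_le_tsum fun o' => ?_
        rw [tsub_le_iff_right, hA, hB, ← ENNReal.tsum_add]
        refine ENNReal.tsum_le_tsum fun o => ?_
        rw [← add_mul]
        gcongr
        exact le_tsub_add
    _ = ∑' o, (A o - B o) := by
        rw [ENNReal.tsum_comm]
        refine tsum_congr fun o => ?_
        rw [ENNReal.tsum_mul_left, hK, mul_one]

theorem advantage_antitone {q : ℕ} (hq : 0 < q) {lam : ℝ} (h0 : 0 ≤ 1 + (q - 1) * lam)
    (h1 : lam ≤ 1) {off : ℕ → ℝ} (hoff : IsOff off) : Antitone (advantage q lam off) := by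
  refine antitone_nat_of_succ_le fun n => ?_
  have hq' : (0 : ℝ) < q := by exact_mod_cast hq
  rw [advantage_eq hq h0 h1 hoff.nonneg, advantage_eq hq h0 h1 hoff.nonneg]
  gcongr
  have hl := fun m o i => law_nonneg h0 h1 hoff.nonneg (q := q) m i o
  have hdev : ∀ (m : ℕ) (o : Obs q m), ENNReal.ofReal (dev lam off m o) =
      ∑ i, ((ENNReal.ofReal (law q lam off m i o) -
        ENNReal.ofReal ((∑ j, law q lam off m j o) / q)) +
        (ENNReal.ofReal ((∑ j, law q lam off m j o) / q) -
          ENNReal.ofReal (law q lam off m i o))) := by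
    intro m o
    rw [dev, ENNReal.ofReal_sum_of_nonneg fun i _ => abs_nonneg _]
    refine Finset.sum_congr rfl fun i _ => ?_
    exact ofReal_abs_sub _ _ (hl m o i) (div_nonneg (Finset.sum_nonneg fun j _ => hl m o j) hq'.le)
  obtain ⟨g1, g2⟩ := garble h0 h1 hoff n
  have havg : ∀ (m : ℕ) (o : Obs q m), ENNReal.ofReal ((∑ j, law q lam off m j o) / q) =
      ∑ j, ENNReal.ofReal (1 / q) * ENNReal.ofReal (law q lam off m j o) := by
    intro m o
    have : (∑ j, law q lam off m j o) / q = ∑ j, (1 / q) * law q lam off m j o := by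
      rw [← Finset.mul_sum]; ring
    rw [this, ENNReal.ofReal_sum_of_nonneg fun j _ => mul_nonneg (by positivity) (hl m o j)]
    exact Finset.sum_congr rfl fun j _ => ENNReal.ofReal_mul (by positivity)
  have g3 : ∀ o' : Obs q (n + 1), ENNReal.ofReal ((∑ j, law q lam off (n + 1) j o') / q) =
      ∑' o : Obs q n, ENNReal.ofReal ((∑ j, law q lam off n j o) / q) * ker q lam off n o o' := by
    intro o'
    rw [havg]
    have e3 : ∀ o : Obs q n, ENNReal.ofReal ((∑ j, law q lam off n j o) / q) *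
        ker q lam off n o o' = ∑ j, ENNReal.ofReal (1 / q) *
          (ENNReal.ofReal (law q lam off n j o) * ker q lam off n o o') := by
      intro o
      rw [havg, Finset.sum_mul]
      exact Finset.sum_congr rfl fun j _ => by ring
    rw [tsum_congr e3, Summable.tsum_finsetSum fun _ _ => ENNReal.summable]
    refine Finset.sum_congr rfl fun j _ => ?_
    rw [ENNReal.tsum_mul_left, ← g2 j o']
  rw [tsum_congr (hdev (n + 1)), tsum_congr (hdev n),
    Summable.tsum_finsetSum fun _ _ => ENNReal.summable,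
    Summable.tsum_finsetSum fun _ _ => ENNReal.summable]
  refine Finset.sum_le_sum fun i _ => ?_
  rw [ENNReal.tsum_add, ENNReal.tsum_add]
  exact add_le_add (garble_sub _ _ _ _ _ g1 (g2 i) g3) (garble_sub _ _ _ _ _ g1 g3 (g2 i))

end KS

open KS in
/-- The Kesten-Stigum bound: on a Galton-Watson tree whose offspring law has mean `μ` and a finite
second moment, `μ λ² > 1` implies reconstruction. -/
theorem reconstruction_of_lt {q : ℕ} (hq : 2 ≤ q) {lam : ℝ} (h0 : 0 ≤ 1 + (q - 1) * lam)
    (h1 : lam ≤ 1) {off : ℕ → ℝ} (hoff : IsOff off) {μ μ₂ : ℝ}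
    (hμ : HasSum (fun k : ℕ => off k * k) μ)
    (hμ₂ : HasSum (fun k : ℕ => off k * (k * (k - 1))) μ₂) (hKS : 1 < μ * lam ^ 2) :
    Reconstruction q lam off := by
  obtain ⟨c, hc, hlow⟩ := advantage_lower hq h0 h1 hoff hμ hμ₂ hKS
  refine ⟨⨅ n, advantage q lam off n, ?_,
    tendsto_atTop_iInf (advantage_antitone (by omega) h0 h1 hoff)⟩
  exact lt_of_lt_of_le (ENNReal.ofReal_pos.2 hc) (le_iInf hlow)

theorem isOff_regular (d : ℕ) : IsOff (regular d) := by
  refine ⟨fun k => ?_, ?_⟩
  · rw [regular]; split_ifs <;> norm_num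
  · have : regular d = fun k => if k = d then (1 : ℝ) else 0 := rfl
    rw [this]
    exact hasSum_ite_eq d 1

theorem isOff_poisson {d : ℝ} (hd : 0 ≤ d) : IsOff (poisson d) := by
  refine ⟨fun k => ?_, ?_⟩
  · rw [poisson]; positivity
  · have h := (NormedSpace.expSeries_div_hasSum_exp (𝔸 := ℝ) d).mul_left (Real.exp (-d))
    rw [← Real.exp_eq_exp_ℝ, ← Real.exp_add, neg_add_cancel, Real.exp_zero] at h
    refine KS.hs_congr h (fun k => ?_) rfl
    rw [poisson]; ring

/-- `d`-ary tree: reconstruction above the Kesten-Stigum bound. -/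
theorem reconstruction_regular {q d : ℕ} (hq : 2 ≤ q) {lam : ℝ} (h0 : 0 ≤ 1 + (q - 1) * lam)
    (h1 : lam ≤ 1) (hKS : 1 < d * lam ^ 2) : Reconstruction q lam (regular d) := by
  have e : ∀ g : ℕ → ℝ, HasSum (fun k : ℕ => regular d k * g k) (g d) := by
    intro g
    have := hasSum_single (f := fun k : ℕ => regular d k * g k) d (fun k hk => by
      simp [regular, hk])
    simpa [regular] using this
  exact reconstruction_of_lt hq h0 h1 (isOff_regular d) (e fun k => (k : ℝ))
    (e fun k => (k : ℝ) * (k - 1)) hKS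

/-- Poisson tree: reconstruction above the Kesten-Stigum bound. -/
theorem reconstruction_poisson {q : ℕ} {d : ℝ} (hq : 2 ≤ q) {lam : ℝ} (hd : 0 ≤ d)
    (h0 : 0 ≤ 1 + (q - 1) * lam) (h1 : lam ≤ 1) (hKS : 1 < d * lam ^ 2) :
    Reconstruction q lam (poisson d) := by
  have hs := (isOff_poisson hd).sum
  have h2 : HasSum (fun k : ℕ => poisson d k * k) d := by
    rw [← hasSum_nat_add_iff' 1]
    refine KS.hs_congr (hs.mul_left d) (fun k => ?_) (by simp)
    simp only [poisson, Nat.factorial_succ]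
    push_cast
    have : ((k : ℝ) + 1) ≠ 0 := by positivity
    have h' : (k.factorial : ℝ) ≠ 0 := by positivity
    field_simp
    ring
  have h3 : HasSum (fun k : ℕ => poisson d k * (k * (k - 1))) (d ^ 2) := by
    rw [← hasSum_nat_add_iff' 2]
    refine KS.hs_congr (hs.mul_left (d ^ 2)) (fun k => ?_) (by
      simp [Finset.sum_range_succ])
    simp only [poisson, Nat.factorial_succ]
    push_cast
    have : ((k : ℝ) + 1) ≠ 0 := by positivity
    have h'' : ((k : ℝ) + 1 + 1) ≠ 0 := by positivity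
    have h' : (k.factorial : ℝ) ≠ 0 := by positivity
    field_simp
    ring
  exact reconstruction_of_lt hq h0 h1 (isOff_poisson hd) h2 h3 hKS

end Vale.Agent.P154
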