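import Vale.Agent.P154.Reduction

/-!
Reduction of nonreconstruction (q = 3) to pointwise inequalities: the recursion.
-/

namespace Vale.Agent.P154

open scoped BigOperators ENNReal
open Filter Topology

theorem tendsto_zero_aux {f g : ℕ → ℝ≥0∞} (hg : Tendsto g atTop (𝓝 0))
    (h : ∀ ε : ℝ, 0 < ε → ∃ K : ℝ, ∀ n, f n ≤ ENNReal.ofReal K * g n + ENNReal.ofReal ε) :
    Tendsto f atTop (𝓝 0) := by
  rw [ENNReal.tendsto_nhds_zero]
  intro δ hδ
  rcases eq_or_ne δ ⊤ with rfl | htop
  · exact Eventually.of_forall fun _ => le_top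
  have hpos : 0 < δ.toReal := ENNReal.toReal_pos hδ.ne' htop
  obtain ⟨K, hK⟩ := h (δ.toReal / 2) (by positivity)
  have h1 : Tendsto (fun n => ENNReal.ofReal K * g n) atTop (𝓝 (ENNReal.ofReal K * 0)) :=
    ENNReal.Tendsto.const_mul hg (Or.inr ENNReal.ofReal_ne_top)
  rw [mul_zero] at h1
  have h2 := (ENNReal.tendsto_nhds_zero.1 h1) (ENNReal.ofReal (δ.toReal / 2))
    (ENNReal.ofReal_pos.2 (by positivity))
  filter_upwards [h2] with n hn
  calc f n ≤ ENNReal.ofReal K * g n + ENNReal.ofReal (δ.toReal / 2) := hK n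
    _ ≤ ENNReal.ofReal (δ.toReal / 2) + ENNReal.ofReal (δ.toReal / 2) := add_le_add hn le_rfl
    _ = δ := by
      rw [← ENNReal.ofReal_add (by positivity) (by positivity), add_halves,
        ENNReal.ofReal_toReal htop]

theorem Nh_nonneg (x : V) : 0 ≤ Nh x := by
  rw [Nh]
  nlinarith [sq_nonneg (x 0 - x 1), sq_nonneg (x 1 - x 2), sq_nonneg (x 2 - x 0)]

theorem Nh_le_sq {x : V} (hx : ∀ i, 0 ≤ x i) : Nh x ≤ tot x ^ 2 := by
  have h0 := hx 0
  have h1 := hx 1
  have h2 := hx 2
  rw [Nh, tot]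
  nlinarith [mul_nonneg h0 h1, mul_nonneg h1 h2, mul_nonneg h2 h0]

theorem eq_zero_of_tot {x : V} (hx : ∀ i, 0 ≤ x i) (h : tot x = 0) : x = fun _ => 0 := by
  have h0 := hx 0
  have h1 := hx 1
  have h2 := hx 2
  rw [tot] at h
  funext i
  fin_cases i
  · change x 0 = 0; linarith
  · change x 1 = 0; linarith
  · change x 2 = 0; linarith

theorem G_one (lam : ℝ) (off : ℕ → ℝ) (n : ℕ) (Ψ : V → ℝ) :
    G lam off n 1 Ψ = ∑' o : Obs 3 n, ENNReal.ofReal (Ψ (mvec lam (L lam off n o))) := by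
  rw [G, ← (Equiv.funUnique (Fin 1) (Obs 3 n)).symm.tsum_eq]
  refine tsum_congr fun o => ?_
  congr 2
  funext i
  simp [PL]

/-- main reduction -/
theorem gw_general {lam : ℝ} (h0 : -(1/2) ≤ lam) (h1 : lam ≤ 1) {off : ℕ → ℝ} (hoff : IsOff off)
    {Φ : V → ℝ} {h : ℕ → V → ℝ} {δ C : ℝ} (hδ : 0 < δ)
    (hdom : ∀ k, off k ≠ 0 → Dom lam off k Φ (h k))
    (hhom : ∀ (t : ℝ) (x : V), 0 ≤ t → (∀ i, 0 ≤ x i) → Φ (fun i => t * x i) = t * Φ x)
    (hlow : ∀ x : V, (∀ i, 0 ≤ x i) → Nh x ≤ tot x * Φ x)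
    (hup : ∀ x : V, (∀ i, 0 ≤ x i) → tot x * Φ x ≤ C * Nh x)
    (hleaf : ∀ y : V, (∀ i, 0 ≤ y i) →
      (∑' k : ℕ, ENNReal.ofReal (off k * k * h k (mvec lam y)))
        + ENNReal.ofReal (δ * Nh y ^ 2 / tot y ^ 3) ≤ ENNReal.ofReal (Φ y)) :
    Nonreconstruction 3 lam off := by
  -- a positive constant
  set C' : ℝ := max C 1 with hC'
  have hC'1 : 1 ≤ C' := le_max_right _ _
  have hC'0 : 0 < C' := by linarith
  have hup' : ∀ x : V, (∀ i, 0 ≤ x i) → tot x * Φ x ≤ C' * Nh x := fun x hx =>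
    (hup x hx).trans (mul_le_mul_of_nonneg_right (le_max_left _ _) (Nh_nonneg x))
  have hΦ0 : Φ (fun _ => 0) = 0 := by
    have := hhom 0 (fun _ => 0) le_rfl (fun _ => le_rfl)
    simpa using this
  have hLnn : ∀ n o i, 0 ≤ L lam off n o i := fun n o i => L_nonneg h0 h1 hoff.nonneg n o i
  set S : ℕ → ℝ≥0∞ := fun n => ∑' o : Obs 3 n,
    ENNReal.ofReal (δ * Nh (L lam off n o) ^ 2 / tot (L lam off n o) ^ 3) with hS
  -- the recursion
  have hrec : ∀ n, F lam off (n + 1) Φ + S n ≤ F lam off n Φ := by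
    intro n
    have e1 : F lam off (n + 1) Φ = ∑' k : ℕ, ENNReal.ofReal (off k) * G lam off n k Φ := by
      have : F lam off (n + 1) Φ = ∑' k : ℕ, ∑' f : Fin k → Obs 3 n,
          ENNReal.ofReal (Φ (L lam off (n + 1) ⟨k, f⟩)) :=
        ENNReal.tsum_sigma' (fun o : (Σ k : ℕ, (Fin k → Obs 3 n)) =>
          ENNReal.ofReal (Φ (L lam off (n + 1) o)))
      rw [this]
      refine tsum_congr fun k => ?_
      rw [G, ← ENNReal.tsum_mul_left]
      refine tsum_congr fun f => ?_
      rw [L_succ, hhom _ _ (hoff.nonneg k) (PL_nonneg h0 h1 hoff.nonneg n k f),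
        ENNReal.ofReal_mul (hoff.nonneg k)]
    have e2 : ∀ k : ℕ, ENNReal.ofReal (off k) * G lam off n k Φ ≤
        ∑' o : Obs 3 n, ENNReal.ofReal (off k * k * h k (mvec lam (L lam off n o))) := by
      intro k
      rcases eq_or_ne (off k) 0 with hk | hk
      · rw [hk, ENNReal.ofReal_zero, zero_mul]; exact zero_le
      · have h2 := hdom k hk n
        rw [G_one] at h2
        calc ENNReal.ofReal (off k) * G lam off n k Φ
            ≤ ENNReal.ofReal (off k) * (k * ∑' o : Obs 3 n,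
                ENNReal.ofReal (h k (mvec lam (L lam off n o)))) := by gcongr
          _ = ∑' o : Obs 3 n, ENNReal.ofReal (off k * k * h k (mvec lam (L lam off n o))) := by
            rw [← mul_assoc, ← ENNReal.tsum_mul_left]
            refine tsum_congr fun o => ?_
            rw [ENNReal.ofReal_mul (mul_nonneg (hoff.nonneg k) (Nat.cast_nonneg k)),
              ENNReal.ofReal_mul (hoff.nonneg k), ENNReal.ofReal_natCast]
    calc F lam off (n + 1) Φ + S n
        ≤ (∑' k : ℕ, ∑' o : Obs 3 n,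
            ENNReal.ofReal (off k * k * h k (mvec lam (L lam off n o)))) + S n := by
          rw [e1]
          exact add_le_add (ENNReal.tsum_le_tsum e2) le_rfl
      _ = ∑' o : Obs 3 n, ((∑' k : ℕ,
            ENNReal.ofReal (off k * k * h k (mvec lam (L lam off n o)))) +
            ENNReal.ofReal (δ * Nh (L lam off n o) ^ 2 / tot (L lam off n o) ^ 3)) := by
          rw [ENNReal.tsum_comm, ENNReal.tsum_add]
      _ ≤ F lam off n Φ := ENNReal.tsum_le_tsum fun o => hleaf _ (hLnn n o)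
  -- `F` is finite
  have hFfin : F lam off 0 Φ ≠ ⊤ := by
    have hle : F lam off 0 Φ ≤ ENNReal.ofReal (3 * C') * ∑' o : Obs 3 0,
        ENNReal.ofReal (tot (L lam off 0 o) / 3) := by
      rw [← ENNReal.tsum_mul_left]
      refine ENNReal.tsum_le_tsum fun o => ?_
      rw [← ENNReal.ofReal_mul (by positivity)]
      refine ENNReal.ofReal_le_ofReal ?_
      have hx := hLnn 0 o
      rcases (tot_nonneg hx).eq_or_lt with ht | ht
      · rw [eq_zero_of_tot hx ht.symm, hΦ0, tot]; norm_num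
      · have h2 := hup' _ hx
        have h3 := Nh_le_sq hx
        have h4 : tot (L lam off 0 o) * Φ (L lam off 0 o) ≤
            tot (L lam off 0 o) * (C' * tot (L lam off 0 o)) := by
          calc _ ≤ C' * Nh (L lam off 0 o) := h2
            _ ≤ C' * tot (L lam off 0 o) ^ 2 := mul_le_mul_of_nonneg_left h3 hC'0.le
            _ = _ := by ring
        have h5 := le_of_mul_le_mul_left h4 ht
        linarith
    rw [tsum_tot_L h0 h1 hoff, mul_one] at hle
    exact ne_top_of_le_ne_top ENNReal.ofReal_ne_top hle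
  -- `S` tends to zero
  have hSsum : ∀ n, ∑ m ∈ Finset.range n, S m + F lam off n Φ ≤ F lam off 0 Φ := by
    intro n
    induction n with
    | zero => simp
    | succ n ih =>
      rw [Finset.sum_range_succ, add_assoc, add_comm (S n)]
      exact (add_le_add le_rfl (hrec n)).trans ih
  have hS0 : Tendsto S atTop (𝓝 0) := by
    have h2 : ∑' n, S n ≤ F lam off 0 Φ :=
      ENNReal.tsum_le_of_sum_range_le fun n => le_self_add.trans (hSsum n)
    exact ENNReal.tendsto_atTop_zero_of_tsum_ne_top (ne_top_of_le_ne_top hFfin h2)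
  -- `F` tends to zero
  have hF0 : Tendsto (fun n => F lam off n Φ) atTop (𝓝 0) := by
    refine tendsto_zero_aux hS0 fun ε hε => ?_
    -- `Φ ≤ C' Nh / tot ≤ (C'/(2 η δ)) (δ Nh² / tot³) + (C' η / 2) tot`, `ε = 3 C' η / 2`
    set η : ℝ := 2 * ε / (3 * C') with hη
    have hη0 : 0 < η := by positivity
    refine ⟨C' / (2 * η * δ), fun n => ?_⟩
    have h2 : ENNReal.ofReal (C' / (2 * η * δ)) * S n + ENNReal.ofReal ε =
        ∑' o : Obs 3 n, (ENNReal.ofReal (C' / (2 * η * δ)) *
          ENNReal.ofReal (δ * Nh (L lam off n o) ^ 2 / tot (L lam off n o) ^ 3) +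
          ENNReal.ofReal ε * ENNReal.ofReal (tot (L lam off n o) / 3)) := by
      rw [ENNReal.tsum_add, ENNReal.tsum_mul_left, ENNReal.tsum_mul_left,
        tsum_tot_L h0 h1 hoff, mul_one]
    rw [h2]
    refine ENNReal.tsum_le_tsum fun o => ?_
    have hx := hLnn n o
    set x := L lam off n o
    have hN := Nh_nonneg x
    have ht := tot_nonneg hx
    rw [← ENNReal.ofReal_mul (by positivity), ← ENNReal.ofReal_mul hε.le,
      ← ENNReal.ofReal_add (by positivity) (by positivity)]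
    refine ENNReal.ofReal_le_ofReal ?_
    rcases ht.eq_or_lt with ht0 | ht0
    · rw [eq_zero_of_tot hx ht0.symm, hΦ0, tot, Nh]; norm_num
    · have h3 := hup' _ hx
      have h4 : Φ x ≤ C' * Nh x / tot x := by
        rw [le_div_iff₀ ht0]; linarith
      have h5 : C' * Nh x / tot x ≤
          C' / (2 * η * δ) * (δ * Nh x ^ 2 / tot x ^ 3) + ε * (tot x / 3) := by
        have e3 : ε = 3 * C' * η / 2 := by rw [hη]; field_simp
        have e4 : C' / (2 * η * δ) * (δ * Nh x ^ 2 / tot x ^ 3) + ε * (tot x / 3) -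
            C' * Nh x / tot x = C' / (2 * η * tot x ^ 3) * (Nh x - η * tot x ^ 2) ^ 2 := by
          rw [e3]; field_simp; ring
        have e5 : 0 ≤ C' / (2 * η * tot x ^ 3) * (Nh x - η * tot x ^ 2) ^ 2 := by positivity
        linarith
      exact h4.trans h5
  -- the advantage tends to zero
  refine tendsto_zero_aux hF0 fun ε hε => ?_
  set η : ℝ := 4 * ε / 3 with hη
  have hη0 : 0 < η := by positivity
  refine ⟨1 / (18 * η), fun n => ?_⟩
  have h2 : ENNReal.ofReal (1 / (18 * η)) * F lam off n Φ + ENNReal.ofReal ε =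
      ∑' o : Obs 3 n, (ENNReal.ofReal (1 / (18 * η)) * ENNReal.ofReal (Φ (L lam off n o)) +
        ENNReal.ofReal ε * ENNReal.ofReal (tot (L lam off n o) / 3)) := by
    rw [ENNReal.tsum_add, ENNReal.tsum_mul_left, ENNReal.tsum_mul_left,
      tsum_tot_L h0 h1 hoff, mul_one]
    rfl
  rw [h2, advantage]
  refine ENNReal.tsum_le_tsum fun o => ?_
  have hx := hLnn n o
  have hxdef : ∀ i, law 3 lam off n i o = L lam off n o i := fun i => rfl
  simp only [posterior, hxdef]
  set x := L lam off n o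
  have hN := Nh_nonneg x
  have ht := tot_nonneg hx
  have hlo := hlow x hx
  have hΦx : 0 ≤ Φ x := by
    rcases ht.eq_or_lt with ht0 | ht0
    · rw [eq_zero_of_tot hx ht0.symm, hΦ0]
    · by_contra hneg
      have := mul_neg_of_pos_of_neg ht0 (not_le.1 hneg)
      linarith
  rw [← ENNReal.ofReal_mul (by positivity), ← ENNReal.ofReal_mul hε.le,
    ← ENNReal.ofReal_add (by positivity) (by positivity)]
  refine ENNReal.ofReal_le_ofReal ?_
  rw [← tot_eq]
  rcases ht.eq_or_lt with ht0 | ht0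
  · rw [← ht0]
    simp only [mul_zero, zero_mul, zero_div, add_zero]
    positivity
  · have h3 : Nh x / tot x ≤ Φ x := by
      rw [div_le_iff₀ ht0]; linarith
    have key : ∀ a : ℝ, |a / tot x - 1 / 3| ≤
        (η + (a - tot x / 3) ^ 2 / (η * tot x ^ 2)) / 2 := by
      intro a
      have e1 : a / tot x - 1 / 3 = (a - tot x / 3) / tot x := by field_simp
      have e2 : (a - tot x / 3) ^ 2 / (η * tot x ^ 2) = |(a - tot x / 3) / tot x| ^ 2 / η := by
        rw [sq_abs]; field_simp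
      rw [e1, e2]
      set b := |(a - tot x / 3) / tot x|
      have e3 : (η + b ^ 2 / η) / 2 - b = (b - η) ^ 2 / (2 * η) := by field_simp; ring
      have e4 : 0 ≤ (b - η) ^ 2 / (2 * η) := by positivity
      linarith
    have h4 : 1 / ((3 : ℕ) : ℝ) * tot x * (1 / 2 * ∑ i : Fin 3, |x i / tot x - 1 / ((3 : ℕ) : ℝ)|) ≤
        1 / 3 * tot x * (1 / 2 * ∑ i : Fin 3,
          (η + (x i - tot x / 3) ^ 2 / (η * tot x ^ 2)) / 2) := by
      push_cast
      have : ∀ i ∈ (Finset.univ : Finset (Fin 3)), |x i / tot x - 1 / 3| ≤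
        (η + (x i - tot x / 3) ^ 2 / (η * tot x ^ 2)) / 2 := fun i _ => key (x i)
      have h5 := Finset.sum_le_sum this
      have h6 : 0 ≤ 1 / 3 * tot x := by positivity
      nlinarith [mul_le_mul_of_nonneg_left h5 h6]
    refine h4.trans ?_
    have h7 : 1 / 3 * tot x * (1 / 2 * ∑ i : Fin 3,
          (η + (x i - tot x / 3) ^ 2 / (η * tot x ^ 2)) / 2) =
        1 / (18 * η) * (Nh x / tot x) + ε * (tot x / 3) := by
      have e3 : ε = 3 * η / 4 := by rw [hη]; ring
      rw [e3, Fin.sum_univ_three, Nh]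
      have e4 : x 2 = tot x - x 0 - x 1 := by rw [tot]; ring
      rw [e4]
      field_simp
      ring
    rw [h7]
    have h8 : 1 / (18 * η) * (Nh x / tot x) ≤ 1 / (18 * η) * Φ x :=
      mul_le_mul_of_nonneg_left h3 (by positivity)
    linarith

end Vale.Agent.P154
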