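import Vale.Agent.P154.V2Defs
import Vale.Agent.P154.Reduction2
import Vale.Agent.P154.KS

/-!
The sequence `x_n = E N(X_n)`: monotone, in `[0,1]`, `x_n² ≤ E N²`, and `x_n → 0` implies
nonreconstruction.
-/

namespace Vale.Agent.P154

open scoped BigOperators ENNReal
open Filter Topology

theorem H_eN (x : V) : H eN x = Nh x / tot x := by
  simp [H, eN]

theorem H_eNN (x : V) : H eNN x = Nh x ^ 2 / tot x ^ 3 := by
  simp [H, eNN]

namespace Xs

theorem hasSum_of_ofReal {α : Type*} {f : α → ℝ} {a : ℝ} (hf : ∀ o, 0 ≤ f o) (ha : 0 ≤ a)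
    (h : ∑' o, ENNReal.ofReal (f o) = ENNReal.ofReal a) : HasSum f a := by
  have h1 : ∑' o, ENNReal.ofReal (f o) ≠ ⊤ := by rw [h]; exact ENNReal.ofReal_ne_top
  have h2 := ENNReal.hasSum_toReal h1
  rw [← ENNReal.tsum_toReal_eq (fun o => ENNReal.ofReal_ne_top), h,
    ENNReal.toReal_ofReal ha] at h2
  have h3 : (fun o => (ENNReal.ofReal (f o)).toReal) = f := by
    funext o
    exact ENNReal.toReal_ofReal (hf o)
  rwa [h3] at h2

theorem hasSum_tot {lam : ℝ} (h0 : -(1 / 2) ≤ lam) (h1 : lam ≤ 1) {off : ℕ → ℝ}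
    (hoff : IsOff off) (n : ℕ) : HasSum (fun o : Obs 3 n => tot (L lam off n o)) 3 := by
  have h := tsum_tot_L h0 h1 hoff n
  have h2 : HasSum (fun o : Obs 3 n => tot (L lam off n o) / 3) 1 := by
    refine hasSum_of_ofReal (fun o => ?_) zero_le_one (by rw [h, ENNReal.ofReal_one])
    exact div_nonneg (tot_nonneg (L_nonneg h0 h1 hoff.nonneg n o)) (by norm_num)
  have h3 := h2.mul_left 3
  refine KS.hs_congr h3 (fun o => ?_) (by norm_num)
  ring

theorem div_nonneg' {x : V} (hx : ∀ i, 0 ≤ x i) : 0 ≤ Nh x / tot x :=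
  div_nonneg (Nh_nonneg x) (tot_nonneg hx)

theorem div_le_tot {x : V} (hx : ∀ i, 0 ≤ x i) : Nh x / tot x ≤ tot x := by
  rcases (tot_nonneg hx).eq_or_lt with ht | ht
  · rw [← ht, div_zero]
  · rw [div_le_iff₀ ht, ← sq]
    exact Nh_le_sq hx

theorem summable_N {lam : ℝ} (h0 : -(1 / 2) ≤ lam) (h1 : lam ≤ 1) {off : ℕ → ℝ}
    (hoff : IsOff off) (n : ℕ) :
    Summable (fun o : Obs 3 n => Nh (L lam off n o) / tot (L lam off n o)) :=
  Summable.of_nonneg_of_le (fun o => div_nonneg' (L_nonneg h0 h1 hoff.nonneg n o))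
    (fun o => div_le_tot (L_nonneg h0 h1 hoff.nonneg n o)) (hasSum_tot h0 h1 hoff n).summable

theorem xs_eq (lam : ℝ) (off : ℕ → ℝ) (n : ℕ) :
    xs lam off n = (1 / 3) * ∑' o : Obs 3 n, Nh (L lam off n o) / tot (L lam off n o) := by
  rw [xs, EX]
  simp only [H_eN]

theorem F_eq {lam : ℝ} (h0 : -(1 / 2) ≤ lam) (h1 : lam ≤ 1) {off : ℕ → ℝ}
    (hoff : IsOff off) (n : ℕ) :
    F lam off n (H eN) = ENNReal.ofReal (3 * xs lam off n) := by
  rw [F, xs_eq, ← mul_assoc, show (3 : ℝ) * (1 / 3) = 1 by norm_num, one_mul,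
    ENNReal.ofReal_tsum_of_nonneg (fun o => div_nonneg' (L_nonneg h0 h1 hoff.nonneg n o))
      (summable_N h0 h1 hoff n)]
  simp only [H_eN]

/-- the bilinear form of `Nh` -/
noncomputable def Bn (x y : V) : ℝ :=
  x 0 * (y 0 - (y 1 + y 2) / 2) + x 1 * (y 1 - (y 2 + y 0) / 2) + x 2 * (y 2 - (y 0 + y 1) / 2)

/-- tangent inequality -/
theorem tangent {x : V} (hx : ∀ i, 0 ≤ x i) (m : V) :
    2 * Bn x m - tot x * Nh m ≤ Nh x / tot x := by
  rcases (tot_nonneg hx).eq_or_lt with ht | ht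
  · rw [eq_zero_of_tot hx ht.symm]
    simp [Bn, tot, Nh]
  · rw [le_div_iff₀ ht]
    have h := Nh_nonneg (fun i => x i - tot x * m i)
    have e : Nh (fun i => x i - tot x * m i) =
        Nh x - 2 * tot x * Bn x m + tot x ^ 2 * Nh m := by
      simp only [Nh, Bn]; ring
    rw [e] at h
    nlinarith

/-- data processing for `Nh / tot` -/
theorem F_succ_le {lam : ℝ} (h0 : -(1 / 2) ≤ lam) (h1 : lam ≤ 1) {off : ℕ → ℝ}
    (hoff : IsOff off) (n : ℕ) : F lam off (n + 1) (H eN) ≤ F lam off n (H eN) := by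
  obtain ⟨g1, g2⟩ := KS.garble (chan3 h0) h1 hoff n
  have hL := fun m o => L_nonneg h0 h1 hoff.nonneg m o
  have key : ∀ o' : Obs 3 (n + 1), ENNReal.ofReal (H eN (L lam off (n + 1) o')) ≤
      ∑' o : Obs 3 n, ENNReal.ofReal (H eN (L lam off n o)) * KS.ker 3 lam off n o o' := by
    intro o'
    set k : Obs 3 n → ℝ := fun o => (KS.ker 3 lam off n o o').toReal with hk
    have hk0 : ∀ o, 0 ≤ k o := fun o => ENNReal.toReal_nonneg
    have hK : ∀ o, KS.ker 3 lam off n o o' = ENNReal.ofReal (k o) := by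
      intro o
      have : KS.ker 3 lam off n o o' ≤ 1 := by
        rw [← g1 o]
        exact ENNReal.le_tsum o'
      rw [hk, ENNReal.ofReal_toReal (this.trans_lt ENNReal.one_lt_top).ne]
    -- coordinates
    have hs : ∀ i, HasSum (fun o => L lam off n o i * k o) (L lam off (n + 1) o' i) := by
      intro i
      refine hasSum_of_ofReal (fun o => mul_nonneg (hL n o i) (hk0 o)) (hL (n + 1) o' i) ?_
      have := g2 i o'
      simp only at this
      have e : ENNReal.ofReal (L lam off (n + 1) o' i) = _ := this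
      rw [e]
      refine tsum_congr fun o => ?_
      rw [hK, ENNReal.ofReal_mul (hL n o i)]
      rfl
    have hst : HasSum (fun o => tot (L lam off n o) * k o) (tot (L lam off (n + 1) o')) := by
      refine KS.hs_congr (((hs 0).add (hs 1)).add (hs 2)) (fun o => ?_) rfl
      rw [tot]; ring
    have hsN : Summable fun o => Nh (L lam off n o) / tot (L lam off n o) * k o :=
      Summable.of_nonneg_of_le (fun o => mul_nonneg (div_nonneg' (hL n o)) (hk0 o))
        (fun o => mul_le_mul_of_nonneg_right (div_le_tot (hL n o)) (hk0 o)) hst.summable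
    set x' := L lam off (n + 1) o' with hx'
    have hx'0 : ∀ i, 0 ≤ x' i := hL (n + 1) o'
    set m : V := fun i => x' i / tot x' with hm
    have hl : HasSum (fun o => (2 * Bn (L lam off n o) m - tot (L lam off n o) * Nh m) * k o)
        (2 * Bn x' m - tot x' * Nh m) := by
      have e1 := ((((hs 0).mul_right (m 0 - (m 1 + m 2) / 2)).add
        ((hs 1).mul_right (m 1 - (m 2 + m 0) / 2))).add
        ((hs 2).mul_right (m 2 - (m 0 + m 1) / 2))).mul_left 2
      have e2 := e1.sub (hst.mul_right (Nh m))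
      refine KS.hs_congr e2 (fun o => ?_) rfl
      rw [Bn]; ring
    have hle : Nh x' / tot x' ≤ ∑' o, Nh (L lam off n o) / tot (L lam off n o) * k o := by
      have e : Nh x' / tot x' = 2 * Bn x' m - tot x' * Nh m := by
        rcases (tot_nonneg hx'0).eq_or_lt with ht | ht
        · rw [eq_zero_of_tot hx'0 ht.symm]
          simp [Bn, tot, Nh]
        · have e1 : Bn x' m = Nh x' / tot x' := by
            simp only [Bn, Nh, hm]
            field_simp
            ring
          have e2 : Nh m = Nh x' / tot x' ^ 2 := by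
            simp only [Nh, hm]
            field_simp
          rw [e1, e2]
          field_simp
          ring
      rw [e]
      exact hasSum_le (fun o => mul_le_mul_of_nonneg_right (tangent (hL n o) m) (hk0 o)) hl
        hsN.hasSum
    have h3 : ∑' o : Obs 3 n, ENNReal.ofReal (H eN (L lam off n o)) * KS.ker 3 lam off n o o' =
        ENNReal.ofReal (∑' o, Nh (L lam off n o) / tot (L lam off n o) * k o) := by
      rw [ENNReal.ofReal_tsum_of_nonneg
        (fun o => mul_nonneg (div_nonneg' (hL n o)) (hk0 o)) hsN]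
      refine tsum_congr fun o => ?_
      rw [hK, H_eN, ← ENNReal.ofReal_mul (div_nonneg' (hL n o))]
    rw [h3, H_eN]
    exact ENNReal.ofReal_le_ofReal hle
  calc F lam off (n + 1) (H eN)
      ≤ ∑' o' : Obs 3 (n + 1), ∑' o : Obs 3 n,
        ENNReal.ofReal (H eN (L lam off n o)) * KS.ker 3 lam off n o o' :=
        ENNReal.tsum_le_tsum key
    _ = F lam off n (H eN) := by
        rw [ENNReal.tsum_comm]
        refine tsum_congr fun o => ?_
        rw [ENNReal.tsum_mul_left, g1, mul_one]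

end Xs

open Xs

theorem xs_nonneg {lam : ℝ} (h0 : -(1 / 2) ≤ lam) (h1 : lam ≤ 1) {off : ℕ → ℝ}
    (hoff : IsOff off) (n : ℕ) : 0 ≤ xs lam off n := by
  rw [xs_eq]
  exact mul_nonneg (by norm_num)
    (tsum_nonneg fun o => div_nonneg' (L_nonneg h0 h1 hoff.nonneg n o))

theorem xs_le_one {lam : ℝ} (h0 : -(1 / 2) ≤ lam) (h1 : lam ≤ 1) {off : ℕ → ℝ}
    (hoff : IsOff off) (n : ℕ) : xs lam off n ≤ 1 := by
  rw [xs_eq]
  have h := hasSum_le (fun o => div_le_tot (L_nonneg h0 h1 hoff.nonneg n o))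
    (summable_N h0 h1 hoff n).hasSum (hasSum_tot h0 h1 hoff n)
  linarith

theorem xs_antitone {lam : ℝ} (h0 : -(1 / 2) ≤ lam) (h1 : lam ≤ 1) {off : ℕ → ℝ}
    (hoff : IsOff off) : Antitone (xs lam off) := by
  refine antitone_nat_of_succ_le fun n => ?_
  have h := F_succ_le h0 h1 hoff n
  rw [F_eq h0 h1 hoff, F_eq h0 h1 hoff, ENNReal.ofReal_le_ofReal_iff
    (mul_nonneg (by norm_num) (xs_nonneg h0 h1 hoff n))] at h
  linarith

theorem xs_sq_le {lam : ℝ} (h0 : -(1 / 2) ≤ lam) (h1 : lam ≤ 1) {off : ℕ → ℝ}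
    (hoff : IsOff off) (n : ℕ) : xs lam off n ^ 2 ≤ EX lam off n (H eNN) := by
  set c := xs lam off n with hc
  have hL := fun o => L_nonneg h0 h1 hoff.nonneg n o
  have hNN : Summable fun o : Obs 3 n => H eNN (L lam off n o) := by
    refine Summable.of_nonneg_of_le (fun o => ?_) (fun o => ?_)
      (hasSum_tot h0 h1 hoff n).summable
    · rw [H_eNN]
      have := tot_nonneg (hL o)
      positivity
    · rw [H_eNN]
      rcases (tot_nonneg (hL o)).eq_or_lt with ht | ht
      · rw [← ht]; simp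
      · rw [div_le_iff₀ (by positivity)]
        have h2 := Nh_le_sq (hL o)
        have h3 := Nh_nonneg (L lam off n o)
        calc Nh (L lam off n o) ^ 2 ≤ (tot (L lam off n o) ^ 2) ^ 2 :=
              pow_le_pow_left₀ h3 h2 2
          _ = _ := by ring
  have hlin : HasSum (fun o : Obs 3 n => 2 * c * (Nh (L lam off n o) / tot (L lam off n o)) -
      c ^ 2 * tot (L lam off n o)) (2 * c * (3 * c) - c ^ 2 * 3) := by
    have e1 := (summable_N h0 h1 hoff n).hasSum
    have e2 : ∑' o : Obs 3 n, Nh (L lam off n o) / tot (L lam off n o) = 3 * c := by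
      rw [hc, xs_eq]; ring
    rw [e2] at e1
    exact (e1.mul_left (2 * c)).sub ((hasSum_tot h0 h1 hoff n).mul_left (c ^ 2))
  have h := hasSum_le (fun o => ?_) hlin hNN.hasSum
  · rw [EX]
    nlinarith
  · rw [H_eNN]
    rcases (tot_nonneg (hL o)).eq_or_lt with ht | ht
    · rw [← ht]; simp
    · have e : Nh (L lam off n o) ^ 2 / tot (L lam off n o) ^ 3 -
          (2 * c * (Nh (L lam off n o) / tot (L lam off n o)) - c ^ 2 * tot (L lam off n o)) =
          (Nh (L lam off n o) / tot (L lam off n o) ^ 2 - c) ^ 2 * tot (L lam off n o) := by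
        field_simp
        ring
      have : 0 ≤ (Nh (L lam off n o) / tot (L lam off n o) ^ 2 - c) ^ 2 *
        tot (L lam off n o) := by positivity
      linarith

theorem nonrec_of_xs {lam : ℝ} (h0 : -(1 / 2) ≤ lam) (h1 : lam ≤ 1) {off : ℕ → ℝ}
    (hoff : IsOff off) (hx : Tendsto (xs lam off) atTop (𝓝 0)) :
    Nonreconstruction 3 lam off := by
  have hF0 : Tendsto (fun n => F lam off n (H eN)) atTop (𝓝 0) := by
    have h2 : Tendsto (fun n => ENNReal.ofReal (3 * xs lam off n)) atTop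
        (𝓝 (ENNReal.ofReal (3 * 0))) :=
      ENNReal.tendsto_ofReal (hx.const_mul 3)
    rw [mul_zero, ENNReal.ofReal_zero] at h2
    exact h2.congr fun n => (F_eq h0 h1 hoff n).symm
  refine tendsto_zero_aux hF0 fun ε hε => ?_
  set η : ℝ := 4 * ε / 3 with hη
  have hη0 : 0 < η := by positivity
  refine ⟨1 / (18 * η), fun n => ?_⟩
  have h2 : ENNReal.ofReal (1 / (18 * η)) * F lam off n (H eN) + ENNReal.ofReal ε =
      ∑' o : Obs 3 n, (ENNReal.ofReal (1 / (18 * η)) * ENNReal.ofReal (H eN (L lam off n o)) +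
        ENNReal.ofReal ε * ENNReal.ofReal (tot (L lam off n o) / 3)) := by
    rw [ENNReal.tsum_add, ENNReal.tsum_mul_left, ENNReal.tsum_mul_left,
      tsum_tot_L h0 h1 hoff, mul_one]
    rfl
  rw [h2, advantage]
  refine ENNReal.tsum_le_tsum fun o => ?_
  have hx := L_nonneg h0 h1 hoff.nonneg n o
  have hxdef : ∀ i, law 3 lam off n i o = L lam off n o i := fun i => rfl
  simp only [posterior, hxdef]
  set x := L lam off n o
  have hN := Nh_nonneg x
  have ht := tot_nonneg hx
  have hΦx : 0 ≤ H eN x := by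
    rw [H_eN]
    exact div_nonneg hN ht
  rw [← ENNReal.ofReal_mul (by positivity), ← ENNReal.ofReal_mul hε.le,
    ← ENNReal.ofReal_add (by positivity) (by positivity)]
  refine ENNReal.ofReal_le_ofReal ?_
  rw [← tot_eq]
  rcases ht.eq_or_lt with ht0 | ht0
  · rw [← ht0]
    simp only [mul_zero, zero_mul, zero_div, add_zero]
    positivity
  · have key : ∀ a : ℝ, |a / tot x - 1 / 3| ≤
        (η + (a - tot x / 3) ^ 2 / (η * tot x ^ 2)) / 2 := by
      intro a
      have e1 : a / tot x - 1 / 3 = (a - tot x / 3) / tot x := by field_simp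
      have e2 : (a - tot x / 3) ^ 2 / (η * tot x ^ 2) = |(a - tot x / 3) / tot x| ^ 2 / η := by
        rw [sq_abs]; field_simp
      rw [e1, e2]
      set b := |(a - tot x / 3) / tot x|
      have e3 : (η + b ^ 2 / η) / 2 - b = (b - η) ^ 2 / (2 * η) := by field_simp; ring
      have e4 : 0 ≤ (b - η) ^ 2 / (2 * η) := by positivity
      linarith
    have h4 : 1 / ((3 : ℕ) : ℝ) * tot x * (1 / 2 * ∑ i : Fin 3, |x i / tot x - 1 / ((3 : ℕ) : ℝ)|) ≤
        1 / 3 * tot x * (1 / 2 * ∑ i : Fin 3,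
          (η + (x i - tot x / 3) ^ 2 / (η * tot x ^ 2)) / 2) := by
      push_cast
      have : ∀ i ∈ (Finset.univ : Finset (Fin 3)), |x i / tot x - 1 / 3| ≤
        (η + (x i - tot x / 3) ^ 2 / (η * tot x ^ 2)) / 2 := fun i _ => key (x i)
      have h5 := Finset.sum_le_sum this
      have h6 : 0 ≤ 1 / 3 * tot x := by positivity
      nlinarith [mul_le_mul_of_nonneg_left h5 h6]
    refine h4.trans ?_
    have h7 : 1 / 3 * tot x * (1 / 2 * ∑ i : Fin 3,
          (η + (x i - tot x / 3) ^ 2 / (η * tot x ^ 2)) / 2) =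
        1 / (18 * η) * (Nh x / tot x) + ε * (tot x / 3) := by
      have e3 : ε = 3 * η / 4 := by rw [hη]; ring
      rw [e3, Fin.sum_univ_three, Nh]
      have e4 : x 2 = tot x - x 0 - x 1 := by rw [tot]; ring
      rw [e4]
      field_simp
      ring
    rw [h7, H_eN]

end Vale.Agent.P154
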