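import Vale.Agent.P154.Shared
import Vale.Agent.P154.V2Xs

/-!
Comparison of laws by sublinear functions, and monotonicity of nonreconstruction in `lam`.
-/

namespace Vale.Agent.P154

open scoped BigOperators ENNReal
open Filter Topology

/-- nonnegative sublinear functions on the positive cone -/
structure Sub (Φ : V → ℝ) : Prop where
  nn : ∀ x, Pos x → 0 ≤ Φ x
  add : ∀ x y, Pos x → Pos y → Φ (fun i => x i + y i) ≤ Φ x + Φ y
  smul : ∀ (a : ℝ) x, 0 ≤ a → Pos x → Φ (fun i => a * x i) = a * Φ x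

theorem sub_zero {Φ : V → ℝ} (h : Sub Φ) : Φ (fun _ => 0) = 0 := by
  have := h.smul 0 (fun _ => 0) le_rfl (fun _ => le_rfl)
  simpa using this

theorem pos_perm {x : V} (hx : Pos x) (g : Equiv.Perm (Fin 3)) : Pos (perm g x) := fun i => hx (g i)

theorem pos_had {x y : V} (hx : Pos x) (hy : Pos y) : Pos (had x y) :=
  fun i => mul_nonneg (hx i) (hy i)

theorem pos_mvec {lam : ℝ} (h0 : -(1 / 2) ≤ lam) (h1 : lam ≤ 1) {x : V} (hx : Pos x) :
    Pos (mvec lam x) := fun i => mvec_nonneg h0 h1 hx i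

theorem sub_perm {Φ : V → ℝ} (h : Sub Φ) (g : Equiv.Perm (Fin 3)) :
    Sub fun x => Φ (perm g x) where
  nn x hx := h.nn _ (pos_perm hx g)
  add x y hx hy := h.add _ _ (pos_perm hx g) (pos_perm hy g)
  smul a x ha hx := h.smul a _ ha (pos_perm hx g)

theorem sub_mvec {Φ : V → ℝ} (h : Sub Φ) {lam : ℝ} (h0 : -(1 / 2) ≤ lam) (h1 : lam ≤ 1) :
    Sub fun x => Φ (mvec lam x) where
  nn x hx := h.nn _ (pos_mvec h0 h1 hx)
  add x y hx hy := by
    have e : mvec lam (fun i => x i + y i) = fun i => mvec lam x i + mvec lam y i := by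
      funext i; simp only [mvec, tot]; ring
    rw [e]
    exact h.add _ _ (pos_mvec h0 h1 hx) (pos_mvec h0 h1 hy)
  smul a x ha hx := by
    have e : mvec lam (fun i => a * x i) = fun i => a * mvec lam x i := by
      funext i; simp only [mvec, tot]; ring
    rw [e]
    exact h.smul a _ ha (pos_mvec h0 h1 hx)

theorem sub_had {Φ : V → ℝ} (h : Sub Φ) {y : V} (hy : Pos y) : Sub fun x => Φ (had x y) where
  nn x hx := h.nn _ (pos_had hx hy)
  add x z hx hz := by
    have e : had (fun i => x i + z i) y =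
        fun i => had x y i + had z y i := by
      funext i; simp only [had]; ring
    rw [e]
    exact h.add _ _ (pos_had hx hy) (pos_had hz hy)
  smul a x ha hx := by
    have e : had (fun i => a * x i) y =
        fun i => a * had x y i := by
      funext i; simp only [had]; ring
    rw [e]
    exact h.smul a _ ha (pos_had hx hy)

theorem had_comm (x y : V) : had x y = had y x := by
  funext i; simp only [had]; ring

theorem sub_had' {Φ : V → ℝ} (h : Sub Φ) {y : V} (hy : Pos y) : Sub fun x => Φ (had y x) := by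
  have := sub_had h hy
  simpa only [had_comm] using this

theorem sub_cmul {Φ : V → ℝ} (h : Sub Φ) {c : ℝ} (hc : 0 ≤ c) : Sub fun x => c * Φ x where
  nn x hx := mul_nonneg hc (h.nn _ hx)
  add x y hx hy := by
    have := mul_le_mul_of_nonneg_left (h.add x y hx hy) hc
    linarith
  smul a x ha hx := by
    have := h.smul a x ha hx
    rw [this]; ring

theorem sub_addf {Φ Ψ : V → ℝ} (h : Sub Φ) (k : Sub Ψ) : Sub fun x => Φ x + Ψ x where
  nn x hx := add_nonneg (h.nn _ hx) (k.nn _ hx)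
  add x y hx hy := by
    have := h.add x y hx hy
    have := k.add x y hx hy
    linarith
  smul a x ha hx := by
    have := h.smul a x ha hx
    have := k.smul a x ha hx
    rw [h.smul a x ha hx, k.smul a x ha hx]; ring

theorem sub_zerof : Sub fun _ : V => (0 : ℝ) := ⟨fun _ _ => le_rfl, by simp, by simp⟩

theorem sub_sum {ι : Type*} (s : Finset ι) {Φ : ι → V → ℝ} (h : ∀ i, Sub (Φ i)) :
    Sub fun x => ∑ i ∈ s, Φ i x where
  nn x hx := Finset.sum_nonneg fun i _ => (h i).nn _ hx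
  add x y hx hy := by
    rw [← Finset.sum_add_distrib]
    exact Finset.sum_le_sum fun i _ => (h i).add x y hx hy
  smul a x ha hx := by
    rw [Finset.mul_sum]
    exact Finset.sum_congr rfl fun i _ => (h i).smul a x ha hx

/-- symmetrisation -/
noncomputable def sy (Φ : V → ℝ) (x : V) : ℝ := (1 / 6) * ∑ g : Equiv.Perm (Fin 3), Φ (perm g x)

theorem sub_sy {Φ : V → ℝ} (h : Sub Φ) : Sub (sy Φ) :=
  sub_cmul (sub_sum Finset.univ (fun g => sub_perm h g)) (by norm_num)

theorem perm_perm (g k : Equiv.Perm (Fin 3)) (x : V) : perm g (perm k x) = perm (k * g) x := rfl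

theorem sy_perm (Φ : V → ℝ) (g : Equiv.Perm (Fin 3)) (x : V) : sy Φ (perm g x) = sy Φ x := by
  simp only [sy, perm_perm]
  congr 1
  exact Equiv.sum_comp (Equiv.mulLeft g) (fun k => Φ (perm k x))

theorem card_perm3 : Fintype.card (Equiv.Perm (Fin 3)) = 6 := by decide

/-- the law of the likelihood vector is symmetric -/
theorem tsum_sy {α : Type*} {ξ : α → V} (hξ : ∀ a, Pos (ξ a))
    (hsym : ∀ (g : Equiv.Perm (Fin 3)) (h : V → ℝ≥0∞), ∑' a, h (perm g (ξ a)) = ∑' a, h (ξ a))
    {Φ : V → ℝ} (h : Sub Φ) :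
    ∑' a, ENNReal.ofReal (sy Φ (ξ a)) = ∑' a, ENNReal.ofReal (Φ (ξ a)) := by
  have e1 : ∀ a, ENNReal.ofReal (sy Φ (ξ a)) =
      ENNReal.ofReal (1 / 6) * ∑ g : Equiv.Perm (Fin 3), ENNReal.ofReal (Φ (perm g (ξ a))) := by
    intro a
    rw [sy, ENNReal.ofReal_mul (by norm_num), ENNReal.ofReal_sum_of_nonneg]
    exact fun g _ => h.nn _ (pos_perm (hξ a) g)
  rw [tsum_congr e1, ENNReal.tsum_mul_left, Summable.tsum_finsetSum fun _ _ => ENNReal.summable]
  have e2 : ∀ g ∈ (Finset.univ : Finset (Equiv.Perm (Fin 3))),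
      ∑' a, ENNReal.ofReal (Φ (perm g (ξ a))) = ∑' a, ENNReal.ofReal (Φ (ξ a)) :=
    fun g _ => hsym g fun x => ENNReal.ofReal (Φ x)
  rw [Finset.sum_congr rfl e2, Finset.sum_const, Finset.card_univ, card_perm3, nsmul_eq_mul,
    ← mul_assoc]
  have : ENNReal.ofReal (1 / 6) * ((6 : ℕ) : ℝ≥0∞) = 1 := by
    rw [← ENNReal.ofReal_natCast, ← ENNReal.ofReal_mul (by norm_num)]
    norm_num
  rw [this, one_mul]

/-- degradation of a message -/
theorem mvec_degrade {lam lam' t : ℝ} (h0 : -(1 / 2) ≤ lam') (h1 : lam' ≤ 1) (ht0 : 0 ≤ t)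
    (ht1 : t ≤ 1) (hl : lam = t * lam') {Φ : V → ℝ} (h : Sub Φ) {x : V} (hx : Pos x) :
    Φ (mvec lam x) ≤ t * Φ (mvec lam' x) + (1 - t) * sy (fun y => Φ (mvec lam' y)) x := by
  set y := mvec lam' x with hy
  have hyp : Pos y := pos_mvec h0 h1 hx
  have hm := sub_mvec h h0 h1
  have s3 : ∀ g : Equiv.Perm (Fin 3), mvec lam' (perm g x) = perm g y := fun g => mvec_perm lam' g x
  have e : mvec lam x = fun i => t * y i + (1 - t) *
      ((1 / 6) * ∑ g : Equiv.Perm (Fin 3), y (g i)) := by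
    funext i
    have e6 : ∑ g : Equiv.Perm (Fin 3), y (g i) = 2 * tot y := by
      have key : ∀ i : Fin 3, ∑ g : Equiv.Perm (Fin 3), y (g i) = ∑ j : Fin 3, 2 * y j := by
        intro i
        have : ∀ j : Fin 3, (Finset.univ.filter fun g : Equiv.Perm (Fin 3) => g i = j).card = 2 := by
          revert i; decide
        rw [← Finset.sum_fiberwise (s := Finset.univ) (g := fun g : Equiv.Perm (Fin 3) => g i)]
        refine Finset.sum_congr rfl fun j _ => ?_
        rw [Finset.sum_congr rfl (g := fun _ => y j) (fun g hg => by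
          rw [(Finset.mem_filter.1 hg).2]), Finset.sum_const, this j, nsmul_eq_mul]
        norm_num
      rw [key i, ← Finset.mul_sum, tot_eq]
    have et : tot y = tot x := by
      rw [hy]; simp only [mvec, tot]; ring
    rw [e6, et]
    show mvec lam x i = t * mvec lam' x i + (1 - t) * ((1 / 6) * (2 * tot x))
    rw [mvec, mvec, hl]
    ring
  have hz : ∀ g : Equiv.Perm (Fin 3), Pos (perm g y) := fun g => pos_perm hyp g
  have hsum : ∀ s : Finset (Equiv.Perm (Fin 3)), Φ (fun i => ∑ g ∈ s, y (g i)) ≤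
      ∑ g ∈ s, Φ (perm g y) := by
    intro s
    induction s using Finset.induction_on with
    | empty => simp only [Finset.sum_empty]; exact (sub_zero h).le
    | insert a s ha ih =>
      simp only [Finset.sum_insert ha]
      refine (h.add (perm a y) (fun i => ∑ g ∈ s, y (g i)) (hz a)
        (fun i => Finset.sum_nonneg fun g _ => hyp (g i))).trans ?_
      linarith
  have hS : Pos fun i => ∑ g : Equiv.Perm (Fin 3), y (g i) :=
    fun i => Finset.sum_nonneg fun g _ => hyp (g i)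
  have hS6 : Pos fun i => (1 / 6) * ∑ g : Equiv.Perm (Fin 3), y (g i) :=
    fun i => mul_nonneg (by norm_num) (hS i)
  rw [e]
  refine (h.add (fun i => t * y i) (fun i => (1 - t) *
    ((1 / 6) * ∑ g : Equiv.Perm (Fin 3), y (g i))) (fun i => mul_nonneg ht0 (hyp i))
    (fun i => mul_nonneg (by linarith) (hS6 i))).trans ?_
  rw [h.smul t y ht0 hyp, h.smul (1 - t) _ (by linarith) hS6,
    h.smul (1 / 6) _ (by norm_num) hS]
  have : (1 / 6 : ℝ) * Φ (fun i => ∑ g : Equiv.Perm (Fin 3), y (g i)) ≤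
      sy (fun z => Φ (mvec lam' z)) x := by
    rw [sy]
    simp only [s3]
    exact mul_le_mul_of_nonneg_left (hsum Finset.univ) (by norm_num)
  have := mul_le_mul_of_nonneg_left this (by linarith : (0 : ℝ) ≤ 1 - t)
  linarith

/-! ### monotonicity -/

theorem G_zero (lam : ℝ) (off : ℕ → ℝ) (n : ℕ) (Φ : V → ℝ) :
    G lam off n 0 Φ = ENNReal.ofReal (Φ fun _ => 1) := by
  rw [G, tsum_eq_single (fun i => Fin.elim0 i)]
  · congr 2
  · intro f hf
    exact absurd (funext fun i => Fin.elim0 i) hf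

theorem G_add (lam : ℝ) (off : ℕ → ℝ) (n i j : ℕ) (Φ : V → ℝ) :
    G lam off n (i + j) Φ = ∑' f : Fin i → Obs 3 n, ∑' g : Fin j → Obs 3 n,
      ENNReal.ofReal (Φ (had (PL lam off n i f) (PL lam off n j g))) := by
  rw [G, tsum_append]
  simp only [PL_append]

theorem F_succ (lam : ℝ) {off : ℕ → ℝ} (hoff : IsOff off) (h0 : -(1 / 2) ≤ lam) (h1 : lam ≤ 1)
    (n : ℕ) {Φ : V → ℝ} (h : Sub Φ) :
    F lam off (n + 1) Φ = ∑' k, ENNReal.ofReal (off k) * G lam off n k Φ := by
  have e3 : F lam off (n + 1) Φ =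
      ∑' k : ℕ, ∑' f : Fin k → Obs 3 n, ENNReal.ofReal (Φ (L lam off (n + 1) ⟨k, f⟩)) :=
    ENNReal.tsum_sigma' (fun o : (Σ k : ℕ, (Fin k → Obs 3 n)) =>
      ENNReal.ofReal (Φ (L lam off (n + 1) o)))
  rw [e3]
  refine tsum_congr fun k => ?_
  rw [G, ← ENNReal.tsum_mul_left]
  refine tsum_congr fun f => ?_
  rw [L_succ, h.smul _ _ (hoff.nonneg k) (PL_nonneg h0 h1 hoff.nonneg n k f),
    ENNReal.ofReal_mul (hoff.nonneg k)]

section mono

variable {lam lam' t : ℝ} {off : ℕ → ℝ}

theorem G_one_mono (h0 : -(1 / 2) ≤ lam) (h1 : lam ≤ 1) (h0' : -(1 / 2) ≤ lam') (h1' : lam' ≤ 1)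
    (ht0 : 0 ≤ t) (ht1 : t ≤ 1) (hl : lam = t * lam') (hoff : IsOff off) {n : ℕ}
    (ih : ∀ Φ, Sub Φ → F lam off n Φ ≤ F lam' off n Φ) {Φ : V → ℝ} (h : Sub Φ) :
    G lam off n 1 Φ ≤ G lam' off n 1 Φ := by
  rw [G_one, G_one]
  have hm := sub_mvec h h0' h1'
  have hP : ∀ o, Pos (L lam off n o) := fun o => L_nonneg h0 h1 hoff.nonneg n o
  calc ∑' o : Obs 3 n, ENNReal.ofReal (Φ (mvec lam (L lam off n o)))
      ≤ ∑' o : Obs 3 n, (ENNReal.ofReal t * ENNReal.ofReal (Φ (mvec lam' (L lam off n o))) +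
          ENNReal.ofReal (1 - t) *
            ENNReal.ofReal (sy (fun y => Φ (mvec lam' y)) (L lam off n o))) := by
        refine ENNReal.tsum_le_tsum fun o => ?_
        rw [← ENNReal.ofReal_mul ht0, ← ENNReal.ofReal_mul (by linarith),
          ← ENNReal.ofReal_add (mul_nonneg ht0 (hm.nn _ (hP o)))
            (mul_nonneg (by linarith) ((sub_sy hm).nn _ (hP o)))]
        exact ENNReal.ofReal_le_ofReal (mvec_degrade h0' h1' ht0 ht1 hl h (hP o))
    _ = F lam off n (fun y => Φ (mvec lam' y)) := by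
        rw [ENNReal.tsum_add, ENNReal.tsum_mul_left, ENNReal.tsum_mul_left,
          tsum_sy hP (fun g k => tsum_L_perm lam off g n k) hm, ← add_mul,
          ← ENNReal.ofReal_add ht0 (by linarith)]
        norm_num
        rfl
    _ ≤ F lam' off n (fun y => Φ (mvec lam' y)) := ih _ hm

theorem G_mono (h0 : -(1 / 2) ≤ lam) (h1 : lam ≤ 1) (h0' : -(1 / 2) ≤ lam') (h1' : lam' ≤ 1)
    (ht0 : 0 ≤ t) (ht1 : t ≤ 1) (hl : lam = t * lam') (hoff : IsOff off) {n : ℕ}
    (ih : ∀ Φ, Sub Φ → F lam off n Φ ≤ F lam' off n Φ) : ∀ (k : ℕ) {Φ : V → ℝ}, Sub Φ →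
    G lam off n k Φ ≤ G lam' off n k Φ := by
  intro k
  induction k with
  | zero => intro Φ _; rw [G_zero, G_zero]
  | succ k ihk =>
    intro Φ h
    have hP : ∀ f, Pos (PL lam off n k f) := fun f => PL_nonneg h0 h1 hoff.nonneg n k f
    have hP' : ∀ f, Pos (PL lam' off n 1 f) := fun f => PL_nonneg h0' h1' hoff.nonneg n 1 f
    calc G lam off n (k + 1) Φ
        = ∑' f : Fin k → Obs 3 n, G lam off n 1 (fun y => Φ (had (PL lam off n k f) y)) :=
          G_add lam off n k 1 Φ
      _ ≤ ∑' f : Fin k → Obs 3 n, G lam' off n 1 (fun y => Φ (had (PL lam off n k f) y)) :=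
          ENNReal.tsum_le_tsum fun f =>
            G_one_mono h0 h1 h0' h1' ht0 ht1 hl hoff ih (sub_had' h (hP f))
      _ = ∑' g : Fin 1 → Obs 3 n, G lam off n k (fun x => Φ (had x (PL lam' off n 1 g))) := by
          simp only [G]
          exact ENNReal.tsum_comm
      _ ≤ ∑' g : Fin 1 → Obs 3 n, G lam' off n k (fun x => Φ (had x (PL lam' off n 1 g))) :=
          ENNReal.tsum_le_tsum fun g => ihk (sub_had h (hP' g))
      _ = G lam' off n (k + 1) Φ := by
          rw [G_add, ENNReal.tsum_comm]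
          rfl

theorem F_mono (h0 : -(1 / 2) ≤ lam) (h1 : lam ≤ 1) (h0' : -(1 / 2) ≤ lam') (h1' : lam' ≤ 1)
    (ht0 : 0 ≤ t) (ht1 : t ≤ 1) (hl : lam = t * lam') (hoff : IsOff off) : ∀ (n : ℕ) (Φ : V → ℝ),
    Sub Φ → F lam off n Φ ≤ F lam' off n Φ := by
  intro n
  induction n with
  | zero => intro Φ _; exact le_rfl
  | succ n ih =>
    intro Φ h
    rw [F_succ lam hoff h0 h1 n h, F_succ lam' hoff h0' h1' n h]
    exact ENNReal.tsum_le_tsum fun k =>
      mul_le_mul_right (G_mono h0 h1 h0' h1' ht0 ht1 hl hoff ih k h) _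

/-- the total variation functional -/
noncomputable def tvar (x : V) : ℝ := (1 / 6) * ∑ i : Fin 3, |x i - tot x / 3|

theorem tvar_sub : Sub tvar where
  nn x _ := by
    have : 0 ≤ ∑ i : Fin 3, |x i - tot x / 3| := Finset.sum_nonneg fun i _ => abs_nonneg _
    rw [tvar]; positivity
  add x y _ _ := by
    rw [tvar, tvar, tvar, ← mul_add, ← Finset.sum_add_distrib]
    refine mul_le_mul_of_nonneg_left (Finset.sum_le_sum fun i _ => ?_) (by norm_num)
    have e : x i + y i - tot (fun i => x i + y i) / 3 =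
        (x i - tot x / 3) + (y i - tot y / 3) := by
      simp only [tot]; ring
    rw [e]
    exact abs_add_le _ _
  smul a x ha _ := by
    rw [tvar, tvar]
    have : ∀ i ∈ (Finset.univ : Finset (Fin 3)), |a * x i - tot (fun i => a * x i) / 3| =
        a * |x i - tot x / 3| := by
      intro i _
      have e : a * x i - tot (fun i => a * x i) / 3 = a * (x i - tot x / 3) := by
        simp only [tot]; ring
      rw [e, abs_mul, abs_of_nonneg ha]
    rw [Finset.sum_congr rfl this, ← Finset.mul_sum]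
    ring

theorem advantage_eq (h0 : -(1 / 2) ≤ lam) (h1 : lam ≤ 1) (hoff : IsOff off) (n : ℕ) :
    advantage 3 lam off n = F lam off n tvar := by
  rw [advantage, F]
  refine tsum_congr fun o => ?_
  congr 1
  have hx : Pos (L lam off n o) := L_nonneg h0 h1 hoff.nonneg n o
  have hxdef : ∀ i, law 3 lam off n i o = L lam off n o i := fun i => rfl
  simp only [posterior, hxdef]
  set x := L lam off n o
  rw [← tot_eq, tvar]
  rcases (tot_nonneg hx).eq_or_lt with ht | ht
  · have hz := eq_zero_of_tot hx ht.symm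
    rw [hz]
    simp [tot]
  · have e : ∀ i : Fin 3, |x i - tot x / 3| = tot x * |x i / tot x - 1 / ((3 : ℕ) : ℝ)| := by
      intro i
      rw [← abs_of_pos ht, ← abs_mul, abs_of_pos ht]
      congr 1
      push_cast
      field_simp
    simp only [e]
    rw [← Finset.mul_sum]
    push_cast
    ring

/-- nonreconstruction is monotone in `lam`, for each sign -/
theorem nonrec_mono (h0 : -(1 / 2) ≤ lam') (h1 : lam' ≤ 1) (ht0 : 0 ≤ t) (ht1 : t ≤ 1)
    (hl : lam = t * lam') (hoff : IsOff off) (h : Nonreconstruction 3 lam' off) :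
    Nonreconstruction 3 lam off := by
  have k0 : -(1 / 2) ≤ lam := by rw [hl]; nlinarith
  have k1 : lam ≤ 1 := by rw [hl]; nlinarith
  rw [Nonreconstruction] at h ⊢
  refine tendsto_of_tendsto_of_tendsto_of_le_of_le tendsto_const_nhds h (fun _ => zero_le)
    fun n => ?_
  rw [advantage_eq k0 k1 hoff, advantage_eq h0 h1 hoff]
  exact F_mono k0 k1 h0 h1 ht0 ht1 hl hoff n _ tvar_sub

end mono

end Vale.Agent.P154
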