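import Mathlib

/-!
Integer density evolution on a triangular grid: the functions evaluated by the kernel.
Atoms are integer vectors; a law is the list of the weights of the grid points, the point number
`c (c + 1) / 2 + b` (`b ≤ c ≤ n`) being `(6n - 4c + b, 2c + b, 2c - 2b)`; point `0` is the vertex.
-/

namespace Vale.Agent.P154.DE

/-- lists of triples -/
inductive L3 where
  | nil : L3
  | cons (x y z : Nat) (l : L3) : L3

/-- `s` the sum, `c = n - a`, `(a, b)` the cell, `ra, rb` the remainders: the three weights -/
noncomputable def cell (B s c ra b rb : Nat) : Nat :=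
  Nat.shiftLeft (Bool.rec (motive := fun _ => Nat)
    (Nat.add (Nat.add (Nat.shiftLeft (Nat.sub (Nat.add ra rb) s) B) (Nat.sub s rb))
      (Nat.shiftLeft (Nat.sub s ra) (Nat.mul B (Nat.succ c))))
    (Nat.add (Nat.add (Nat.shiftLeft (Nat.sub s (Nat.add ra rb)) (Nat.mul B c)) ra)
      (Nat.shiftLeft rb (Nat.mul B (Nat.succ c))))
    (Nat.ble (Nat.add ra rb) s))
    (Nat.mul B (Nat.add (Nat.div (Nat.mul c (Nat.sub c 1)) 2) b))

noncomputable def split1 (n B s al be : Nat) : Nat :=
  cell B s (Nat.sub n (Nat.div al s)) (Nat.mod al s) (Nat.div be s) (Nat.mod be s)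

/-- splitting of `(x, y, z)`, `x ≥ y ≥ z`, onto the grid, packed in base `2 ^ B` -/
noncomputable def split (n B x y z : Nat) : Nat :=
  split1 n B (Nat.add (Nat.add x y) z) (Nat.mul n (Nat.sub x y)) (Nat.mul (Nat.mul 2 n) (Nat.sub y z))

noncomputable def sortk (n B x y z : Nat) : Nat :=
  Bool.rec (motive := fun _ => Nat)
    (Bool.rec (motive := fun _ => Nat)
      (Bool.rec (motive := fun _ => Nat) (split n B z y x) (split n B y z x) (Nat.ble z y))
      (split n B y x z) (Nat.ble z x))
    (Bool.rec (motive := fun _ => Nat)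
      (Bool.rec (motive := fun _ => Nat) (split n B z x y) (split n B x z y) (Nat.ble z x))
      (split n B x y z) (Nat.ble z y))
    (Nat.ble y x)

noncomputable def row9 (n B a0 a1 a2 b0 b1 b2 c0 c1 c2 : Nat) : Nat :=
  Nat.add (Nat.add (Nat.add (sortk n B a0 b1 c2) (sortk n B a1 b2 c0))
    (Nat.add (sortk n B a2 b0 c1) (sortk n B a0 b2 c1)))
    (Nat.add (sortk n B a1 b0 c2) (sortk n B a2 b1 c0))

/-- the six products of two atoms -/
noncomputable def row (n B x y z u v w : Nat) : Nat :=
  row9 n B (Nat.mul x u) (Nat.mul x v) (Nat.mul x w) (Nat.mul y u) (Nat.mul y v) (Nat.mul y w)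
    (Nat.mul z u) (Nat.mul z v) (Nat.mul z w)

noncomputable def rows2 (n B x y z : Nat) (l : L3) : List Nat :=
  L3.rec (motive := fun _ => List Nat) []
    (fun u v w _ ih => List.cons (Nat.mul 2 (row n B x y z u v w)) ih) l

/-- rows of the upper triangle -/
noncomputable def tens (n B : Nat) (l : L3) : List (List Nat) :=
  L3.rec (motive := fun _ => List (List Nat)) []
    (fun x y z l ih => List.cons (List.cons (row n B x y z x y z) (rows2 n B x y z l)) ih) l

noncomputable def dot (R : List Nat) : List Nat → Nat :=
  List.rec (motive := fun _ => List Nat → Nat) (fun _ => 0)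
    (fun r _ ih ws => List.rec (motive := fun _ => Nat) 0
      (fun w wt _ => Nat.add (Nat.mul w r) (ih wt)) ws) R

noncomputable def quad (T : List (List Nat)) : List Nat → Nat :=
  List.rec (motive := fun _ => List Nat → Nat) (fun _ => 0)
    (fun R _ ih ws => List.rec (motive := fun _ => Nat) 0
      (fun w wt _ => Nat.add (Nat.mul w (dot R (List.cons w wt))) (ih wt)) ws) T

noncomputable def digs (X den : Nat) (k : Nat) : Nat → List Nat :=
  Nat.rec (motive := fun _ => Nat → List Nat) (fun _ => [])
    (fun _ ih N => List.cons (Nat.div (Nat.mod N X) den) (ih (Nat.div N X))) k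

noncomputable def lsum (l : List Nat) : Nat :=
  List.rec (motive := fun _ => Nat) 0 (fun a _ ih => Nat.add a ih) l

/-- move the lost mass to the vertex -/
noncomputable def fix (D : Nat) (l : List Nat) : List Nat :=
  List.rec (motive := fun _ => List Nat) [] (fun _ l _ => List.cons (Nat.sub D (lsum l)) l) l

noncomputable def stage (T : List (List Nat)) (X K den D : Nat) (w : List Nat) : List Nat :=
  fix D (digs X den K (quad T w))

/-- `k` generations of the 4-ary tree -/
noncomputable def iter (T1 T2 : List (List Nat)) (X K d1 d2 D : Nat) (k : Nat) :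
    List Nat → List Nat :=
  Nat.rec (motive := fun _ => List Nat → List Nat) (fun w => w)
    (fun _ ih w => ih (stage T2 X K d2 D (stage T1 X K d1 D w))) k

noncomputable def leqN (l : List Nat) : List Nat → Bool :=
  List.rec (motive := fun _ => List Nat → Bool)
    (fun m => List.rec (motive := fun _ => Bool) true (fun _ _ _ => false) m)
    (fun a _ ih m => List.rec (motive := fun _ => Bool) false
      (fun b mt _ => Bool.rec (motive := fun _ => Bool) false (ih mt) (Nat.beq a b)) m) l

def rowsC (n c : Nat) : Nat → L3 → L3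
  | 0, l => l
  | b + 1, l => rowsC n c b (.cons (6 * n - 4 * c + b) (2 * c + b) (2 * c - 2 * b) l)

def gridC (n : Nat) : Nat → L3 → L3
  | 0, l => l
  | c + 1, l => gridC n c (rowsC n c (c + 1) l)

/-- the grid points -/
def grid (n : Nat) : L3 := gridC n (n + 1) .nil

def neg (m : Nat) : L3 → L3
  | .nil => .nil
  | .cons x y z l => .cons (m - x) (m - y) (m - z) (neg m l)

/-- the messages `lam = -1/2` of the grid points -/
def msgs (n : Nat) : L3 := neg (6 * n) (grid n)

end Vale.Agent.P154.DE
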