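import Mathlib

/-!
# P154: broadcasting on trees through the Potts channel

The tree is a Galton-Watson tree with offspring weights `off : ℕ → ℝ`
(`off k` is the probability of `k` children).  The `d`-ary tree is the case
`off = regular d`, the Poisson tree is `off = poisson d`.
-/

namespace Vale.Agent.P154

open scoped BigOperators ENNReal

/-- The `q`-state Potts channel with second eigenvalue `lam`:
probability that a parent of spin `i` has a child of spin `j`. -/
noncomputable def channel (q : ℕ) (lam : ℝ) (i j : Fin q) : ℝ :=
  lam * (if i = j then 1 else 0) + (1 - lam) / q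

/-- What is observed of the subtree of a vertex down to `n` generations below it: for `n = 0` the
spin of the vertex itself; for `n + 1` the number `k` of its children, and what is observed of the
subtree of each child down to `n` generations below the child. -/
def Obs (q : ℕ) : ℕ → Type
  | 0 => Fin q
  | n + 1 => Σ k : ℕ, (Fin k → Obs q n)

/-- The spin that an observation of depth `0` consists of. -/
def Obs.spin {q : ℕ} (o : Obs q 0) : Fin q := o

/-- `law q lam off n i o` is the probability of the observation `o`, given that the root has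
spin `i`. -/
noncomputable def law (q : ℕ) (lam : ℝ) (off : ℕ → ℝ) : (n : ℕ) → Fin q → Obs q n → ℝ
  | 0, i, o => if i = o.spin then 1 else 0
  | n + 1, i, o => off o.1 * ∏ c : Fin o.1, ∑ j : Fin q, channel q lam i j * law q lam off n j (o.2 c)

/-- Posterior probability of root spin `i` given the observation `o` (uniform prior). -/
noncomputable def posterior (q : ℕ) (lam : ℝ) (off : ℕ → ℝ) (n : ℕ) (o : Obs q n) (i : Fin q) : ℝ :=
  law q lam off n i o / ∑ j : Fin q, law q lam off n j o

/-- `a_n`: the expectation of `1/2 ∑_i |posterior i - 1/q|`; each observation `o` has probability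
`1/q ∑_j law j o`. -/
noncomputable def advantage (q : ℕ) (lam : ℝ) (off : ℕ → ℝ) (n : ℕ) : ℝ≥0∞ :=
  ∑' o : Obs q n, ENNReal.ofReal
    ((1 / q * ∑ j : Fin q, law q lam off n j o) *
      (1 / 2 * ∑ i : Fin q, |posterior q lam off n o i - 1 / q|))

/-- Nonreconstruction: `lim a_n = 0`. -/
def Nonreconstruction (q : ℕ) (lam : ℝ) (off : ℕ → ℝ) : Prop :=
  Filter.Tendsto (advantage q lam off) Filter.atTop (nhds 0)

/-- Reconstruction: `lim a_n > 0`. -/
def Reconstruction (q : ℕ) (lam : ℝ) (off : ℕ → ℝ) : Prop :=
  ∃ c : ℝ≥0∞, 0 < c ∧ Filter.Tendsto (advantage q lam off) Filter.atTop (nhds c)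

/-- Offspring weights of the `d`-ary tree. -/
noncomputable def regular (d : ℕ) (k : ℕ) : ℝ := if k = d then 1 else 0

/-- Offspring weights of the Poisson(`d`) Galton-Watson tree. -/
noncomputable def poisson (d : ℝ) (k : ℕ) : ℝ := Real.exp (-d) * d ^ k / (Nat.factorial k : ℝ)

end Vale.Agent.P154
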