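import Vale.Agent.P154.KS

/-! Reconstruction and nonreconstruction exclude each other. -/

namespace Vale.Agent.P154

open scoped ENNReal

theorem not_both {q : ℕ} {lam : ℝ} {off : ℕ → ℝ} (h : Nonreconstruction q lam off) :
    ¬ Reconstruction q lam off := by
  rintro ⟨c, hc, hr⟩
  have : c = 0 := tendsto_nhds_unique hr h
  exact absurd this hc.ne'

theorem dichotomy {q : ℕ} {lam : ℝ} {off : ℕ → ℝ} {P : Prop}
    (h1 : P → Reconstruction q lam off) (h2 : ¬ P → Nonreconstruction q lam off) :
    (Reconstruction q lam off ↔ P) ∧ (Nonreconstruction q lam off ↔ ¬ P) := by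
  refine ⟨⟨fun h => ?_, h1⟩, ⟨fun h hP => not_both h (h1 hP), h2⟩⟩
  by_contra hP
  exact not_both (h2 hP) h

end Vale.Agent.P154
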