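import Vale.Agent.P154.MergeFinal
import Vale.Agent.P154.Reduction2

/-!
From certificates to nonreconstruction.
-/

namespace Vale.Agent.P154

open scoped BigOperators ENNReal

/-! ### the range of products of messages -/

theorem cone_had {A B : ℝ} (hA : 1 ≤ A) (hB : 1 ≤ B) {x y : V} (hx : ∀ i, 0 ≤ x i)
    (hy : ∀ i, 0 ≤ y i) (cx : ∀ i, tot x ≤ (A + 2) * x i) (cy : ∀ i, tot y ≤ (B + 2) * y i) :
    ∀ i, tot (had x y) ≤ (A * B + 2) * had x y i := by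
  -- the basic inequality
  have key : ∀ a b c d e f : ℝ, 0 ≤ a → 0 ≤ b → 0 ≤ c → 0 ≤ d → 0 ≤ e → 0 ≤ f →
      a + b + c ≤ (A + 2) * a → a + b + c ≤ (A + 2) * b → a + b + c ≤ (A + 2) * c →
      d + e + f ≤ (B + 2) * d → d + e + f ≤ (B + 2) * e → d + e + f ≤ (B + 2) * f →
      a * d + b * e + c * f ≤ (A * B + 2) * (a * d) := by
    intro a b c d e f ha hb hc hd he hf h1 h2 h3 h4 h5 h6
    obtain ⟨s0, hs0⟩ : ∃ s, s = (A + 2) * a - (a + b + c) := ⟨_, rfl⟩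
    obtain ⟨s1, hs1⟩ : ∃ s, s = (A + 2) * b - (a + b + c) := ⟨_, rfl⟩
    obtain ⟨s2, hs2⟩ : ∃ s, s = (A + 2) * c - (a + b + c) := ⟨_, rfl⟩
    obtain ⟨t0, ht0⟩ : ∃ s, s = (B + 2) * d - (d + e + f) := ⟨_, rfl⟩
    obtain ⟨t1, ht1⟩ : ∃ s, s = (B + 2) * e - (d + e + f) := ⟨_, rfl⟩
    obtain ⟨t2, ht2⟩ : ∃ s, s = (B + 2) * f - (d + e + f) := ⟨_, rfl⟩
    have p0 : 0 ≤ s0 := by rw [hs0]; linarith
    have p1 : 0 ≤ s1 := by rw [hs1]; linarith
    have p2 : 0 ≤ s2 := by rw [hs2]; linarith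
    have q0 : 0 ≤ t0 := by rw [ht0]; linarith
    have q1 : 0 ≤ t1 := by rw [ht1]; linarith
    have q2 : 0 ≤ t2 := by rw [ht2]; linarith
    have T0 : 0 ≤ a + b + c := by linarith
    have U0 : 0 ≤ d + e + f := by linarith
    have id : (A + 2) * (B + 2) * ((A * B + 2) * (a * d) - (a * d + b * e + c * f)) =
        A * B * (s0 * t0) + (A * B + B + 1) * (s0 * (d + e + f)) +
        (A * B + A + 1) * ((a + b + c) * t0) + (s1 * t2 + s2 * t1) := by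
      rw [hs0, hs1, hs2, ht0, ht1, ht2]; ring
    have hAB : 0 ≤ A * B := by positivity
    have rhs : 0 ≤ A * B * (s0 * t0) + (A * B + B + 1) * (s0 * (d + e + f)) +
        (A * B + A + 1) * ((a + b + c) * t0) + (s1 * t2 + s2 * t1) := by positivity
    rw [← id] at rhs
    have hpos : 0 < (A + 2) * (B + 2) := by positivity
    have := nonneg_of_mul_nonneg_right rhs hpos
    linarith
  intro i
  have c0 := cx 0
  have c1 := cx 1
  have c2 := cx 2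
  have d0 := cy 0
  have d1 := cy 1
  have d2 := cy 2
  simp only [tot] at c0 c1 c2 d0 d1 d2
  simp only [tot, had]
  fin_cases i
  · exact key _ _ _ _ _ _ (hx 0) (hx 1) (hx 2) (hy 0) (hy 1) (hy 2) c0 c1 c2 d0 d1 d2
  · have := key (x 1) (x 0) (x 2) (y 1) (y 0) (y 2) (hx 1) (hx 0) (hx 2) (hy 1) (hy 0) (hy 2)
      (by linarith) (by linarith) (by linarith) (by linarith) (by linarith) (by linarith)
    show x 0 * y 0 + x 1 * y 1 + x 2 * y 2 ≤ (A * B + 2) * (x 1 * y 1)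
    linarith
  · have := key (x 2) (x 0) (x 1) (y 2) (y 0) (y 1) (hx 2) (hx 0) (hx 1) (hy 2) (hy 0) (hy 1)
      (by linarith) (by linarith) (by linarith) (by linarith) (by linarith) (by linarith)
    show x 0 * y 0 + x 1 * y 1 + x 2 * y 2 ≤ (A * B + 2) * (x 2 * y 2)
    linarith

theorem cone_mvec {lam : ℝ} (h0 : 0 ≤ lam) (h1 : lam < 1) {z : V} (hz : ∀ i, 0 ≤ z i) (i : Fin 3) :
    tot (mvec lam z) ≤ ((1 + 2 * lam) / (1 - lam) + 2) * mvec lam z i := by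
  have h2 : 0 < 1 - lam := by linarith
  have ht : tot (mvec lam z) = tot z := by simp only [tot, mvec]; ring
  have e : (1 + 2 * lam) / (1 - lam) + 2 = 3 / (1 - lam) := by field_simp; ring
  rw [ht, e, mvec]
  have : 3 / (1 - lam) * (lam * z i + (1 - lam) / 3 * tot z) = 3 / (1 - lam) * (lam * z i) + tot z := by
    field_simp
  rw [this]
  have := hz i
  have : 0 ≤ 3 / (1 - lam) * (lam * z i) := by positivity
  linarith

theorem inK_cone {lam : ℝ} (h0 : 0 ≤ lam) (h1 : lam < 1) (k : ℕ) {x : V} (hx : InK lam k x) :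
    (∀ i, 0 ≤ x i) ∧ ∀ i, tot x ≤ (((1 + 2 * lam) / (1 - lam)) ^ k + 2) * x i := by
  have h2 : 0 < 1 - lam := by linarith
  have hR : 1 ≤ (1 + 2 * lam) / (1 - lam) := by
    rw [le_div_iff₀ h2]; linarith
  induction k generalizing x with
  | zero =>
    obtain ⟨z, _, rfl⟩ := hx
    refine ⟨fun i => by simp, fun i => ?_⟩
    simp [tot]; norm_num
  | succ k ih =>
    obtain ⟨z, hz, rfl⟩ := hx
    have hx' : InK lam k (fun i => ∏ c : Fin k, mvec lam (z c.succ) i) :=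
      ⟨fun c => z c.succ, fun c i => hz _ _, rfl⟩
    obtain ⟨n1, n2⟩ := ih hx'
    have n3 : ∀ i, 0 ≤ mvec lam (z 0) i := fun i => mvec_nonneg (by linarith) h1.le (hz 0) i
    have e : (fun i => ∏ c : Fin (k + 1), mvec lam (z c) i) =
        had (fun i => ∏ c : Fin k, mvec lam (z c.succ) i) (mvec lam (z 0)) := by
      funext i
      rw [had, Fin.prod_univ_succ, mul_comm]
    rw [e]
    refine ⟨fun i => mul_nonneg (n1 i) (n3 i), ?_⟩
    rw [pow_succ]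
    exact cone_had (one_le_pow₀ hR) hR n1 n3 n2 (fun i => cone_mvec h0 h1 (hz 0) i)

/-- the range in rational terms -/
theorem inK_dom {lam L : ℝ} (h0 : 0 ≤ lam) (hL : lam ≤ L) (hL1 : L < 1) (k : ℕ) {ku du : Int}
    (hd : 0 < du) (hk : ku ≤ du)
    (hR : ((du : ℝ) - ku) * (((1 + 2 * L) / (1 - L)) ^ k + 2) ≤ 3 * du) {x : V}
    (hx : InK lam k x) : (∀ i, 0 ≤ x i) ∧ ∀ i, tot x * (du - ku) ≤ 3 * du * x i := by
  obtain ⟨n1, n2⟩ := inK_cone h0 (lt_of_le_of_lt hL hL1) k hx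
  refine ⟨n1, fun i => ?_⟩
  have h2 : 0 < 1 - lam := by linarith
  have h3 : 0 < 1 - L := by linarith
  have hR1 : (1 + 2 * lam) / (1 - lam) ≤ (1 + 2 * L) / (1 - L) := by
    rw [div_le_div_iff₀ h2 h3]; nlinarith
  have hR0 : 0 ≤ (1 + 2 * lam) / (1 - lam) := by positivity
  have hpow : ((1 + 2 * lam) / (1 - lam)) ^ k ≤ ((1 + 2 * L) / (1 - L)) ^ k :=
    pow_le_pow_left₀ hR0 hR1 k
  have hku : (0 : ℝ) ≤ (du : ℝ) - ku := by
    have : (ku : ℝ) ≤ du := by exact_mod_cast hk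
    linarith
  calc tot x * (du - ku) ≤ ((((1 + 2 * lam) / (1 - lam)) ^ k + 2) * x i) * (du - ku) :=
        mul_le_mul_of_nonneg_right (n2 i) hku
    _ = ((du : ℝ) - ku) * (((1 + 2 * lam) / (1 - lam)) ^ k + 2) * x i := by ring
    _ ≤ ((du : ℝ) - ku) * (((1 + 2 * L) / (1 - L)) ^ k + 2) * x i := by
        apply mul_le_mul_of_nonneg_right _ (n1 i)
        apply mul_le_mul_of_nonneg_left _ hku
        linarith
    _ ≤ 3 * du * x i := mul_le_mul_of_nonneg_right hR (n1 i)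

theorem Psi_nonneg {a b c : ℝ} (ha : 0 ≤ a) (hc : 0 ≤ c) (hb : b ^ 2 ≤ 4 * a * c) {x : V}
    (hx : ∀ i, 0 ≤ x i) : 0 ≤ Psi a b c x := by
  have ht : 0 ≤ tot x := tot_nonneg hx
  rcases eq_or_lt_of_le ht with h | h
  · simp [Psi, ← h]
  · have e : Psi a b c x = Nh x / tot x + (a * (Nh x * tot x) ^ 2 + b * ((Nh x * tot x) * Ch x) +
        c * Ch x ^ 2) / tot x ^ 5 := by
      rw [Psi]; field_simp; ring
    rw [e]
    have := psd_nonneg ha hc hb (Nh x * tot x) (Ch x)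
    have := Nh_nonneg x
    positivity

/-- one step of a chain -/
theorem dom_step {lam L : ℝ} (h0 : 0 ≤ lam) (hL : lam ≤ L) (hL1 : L < 1) {off : ℕ → ℝ}
    (hoff : IsOff off) {c : Cfg} (hP : c.P.OK)
    (hT : c.T = combT c.P.aK c.P.bK c.P.cK tabB tabC tabD) (hW : 0 < c.W) (hZ : 0 < c.Zd) (C : Cert)
    {kU dU kV dV : Int} (hkU : 0 < kU) (hkV : 0 < kV) (hdU : kU ≤ dU) (hdV : kV ≤ dV)
    (h : C.check c (baseTri kU dU) (baseTri kV dV) = true) {i j : ℕ}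
    (hRU : ((dU : ℝ) - kU) * (((1 + 2 * L) / (1 - L)) ^ i + 2) ≤ 3 * dU)
    (hRV : ((dV : ℝ) - kV) * (((1 + 2 * L) / (1 - L)) ^ j + 2) ≤ 3 * dV)
    (pU : 0 ≤ c.P.aU ∧ 0 ≤ c.P.cU ∧ c.P.bU ^ 2 ≤ 4 * c.P.aU * c.P.cU)
    (pV : 0 ≤ c.P.aV ∧ 0 ≤ c.P.cV ∧ c.P.bV ^ 2 ≤ 4 * c.P.aV * c.P.cV)
    {Ψ : V → ℝ}
    (Di : Dom lam off i (Psi (c.P.aU / c.P.Q) (c.P.bU / c.P.Q) (c.P.cU / c.P.Q)) Ψ)
    (Dj : Dom lam off j (Psi (c.P.aV / c.P.Q) (c.P.bV / c.P.Q) (c.P.cV / c.P.Q)) Ψ) :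
    Dom lam off (i + j) (Psi (c.P.aK / c.P.Q) (c.P.bK / c.P.Q) (c.P.cK / c.P.Q)) Ψ := by
  have hdU' : 0 < dU := by linarith
  have hdV' : 0 < dV := by linarith
  have hQ : (0 : ℝ) < c.P.Q := by exact_mod_cast hP.hQ
  have nn : ∀ a b d : ℤ, 0 ≤ a ∧ 0 ≤ d ∧ b ^ 2 ≤ 4 * a * d → ∀ x : V, (∀ i, 0 ≤ x i) →
      0 ≤ Psi (a / c.P.Q) (b / c.P.Q) (d / c.P.Q) x := by
    intro a b d ⟨k1, k2, k3⟩ x hx
    have k1' : (0 : ℝ) ≤ a := by exact_mod_cast k1
    have k2' : (0 : ℝ) ≤ d := by exact_mod_cast k2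
    have k3' : (b : ℝ) ^ 2 ≤ 4 * a * d := by exact_mod_cast k3
    refine Psi_nonneg (by positivity) (by positivity) ?_ hx
    rw [div_pow]
    have e : 4 * ((a : ℝ) / c.P.Q) * (d / c.P.Q) = (4 * a * d) / (c.P.Q) ^ 2 := by
      field_simp
    rw [e]
    gcongr
  have h0' : -(1 / 2) ≤ lam := by linarith
  have h1' : lam ≤ 1 := by linarith
  refine dom_merge h0' h1' hoff (fun x hx => nn _ _ _ pU x (inK_cone h0 (by linarith) i hx).1)
    (fun x hx => nn _ _ _ pV x (inK_cone h0 (by linarith) j hx).1)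
    (fun x hx => nn _ _ _ ⟨hP.ha, hP.hc, hP.hb⟩ x (inK_cone h0 (by linarith) (i + j) hx).1) ?_ Di Dj
  intro x y hx hy
  obtain ⟨x0, x1⟩ := inK_dom h0 hL hL1 i hdU' hdU hRU hx
  obtain ⟨y0, y1⟩ := inK_dom h0 hL hL1 j hdV' hdV hRV hy
  exact merge_ineq hP hT hW hZ C hkU hdU' hkV hdV' h x0 y0 x1 y1

/-! ### bounds for `Psi` -/

theorem Nh_le_tot_sq {x : V} (hx : ∀ i, 0 ≤ x i) : Nh x ≤ tot x ^ 2 := by
  have h0 := hx 0
  have h1 := hx 1
  have h2 := hx 2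
  simp only [Nh, tot]
  nlinarith [mul_nonneg h0 h1, mul_nonneg h1 h2, mul_nonneg h0 h2]

theorem Ch_sq_le (x : V) : Ch x ^ 2 ≤ Nh x ^ 3 := by
  have : Nh x ^ 3 - Ch x ^ 2 = 27 / 4 * ((x 0 - x 1) * (x 1 - x 2) * (x 2 - x 0)) ^ 2 := by
    rw [Nh, Ch]; ring
  nlinarith [sq_nonneg ((x 0 - x 1) * (x 1 - x 2) * (x 2 - x 0))]

theorem abs_Ch_le {x : V} (hx : ∀ i, 0 ≤ x i) : |Ch x| ≤ tot x * Nh x := by
  have h1 := Ch_sq_le x
  have h2 := Nh_le_tot_sq hx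
  have h3 := Nh_nonneg x
  have h4 : 0 ≤ tot x := tot_nonneg hx
  apply abs_le_of_sq_le_sq _ (mul_nonneg h4 h3)
  calc Ch x ^ 2 ≤ Nh x ^ 3 := h1
    _ = Nh x * Nh x ^ 2 := by ring
    _ ≤ tot x ^ 2 * Nh x ^ 2 := mul_le_mul_of_nonneg_right h2 (by positivity)
    _ = (tot x * Nh x) ^ 2 := by ring

theorem Psi_low {a b c : ℝ} (ha : 0 ≤ a) (hc : 0 ≤ c) (hb : b ^ 2 ≤ 4 * a * c) {x : V}
    (hx : ∀ i, 0 ≤ x i) : Nh x ≤ tot x * Psi a b c x := by
  have ht : 0 ≤ tot x := tot_nonneg hx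
  rcases eq_or_lt_of_le ht with h | h
  · have := eq_zero_of_tot_eq hx h.symm
    rw [this]; simp [Nh, tot]
  · have e : tot x * Psi a b c x = Nh x + (a * (Nh x * tot x) ^ 2 + b * ((Nh x * tot x) * Ch x) +
        c * Ch x ^ 2) / tot x ^ 4 := by
      rw [Psi]; field_simp; ring
    rw [e]
    have := psd_nonneg ha hc hb (Nh x * tot x) (Ch x)
    have : 0 ≤ (a * (Nh x * tot x) ^ 2 + b * ((Nh x * tot x) * Ch x) +
        c * Ch x ^ 2) / tot x ^ 4 := by positivity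
    linarith

theorem Psi_up {a b c : ℝ} {x : V} (hx : ∀ i, 0 ≤ x i) :
    tot x * Psi a b c x ≤ (1 + |a| + |b| + |c|) * Nh x := by
  have ht : 0 ≤ tot x := tot_nonneg hx
  rcases eq_or_lt_of_le ht with h | h
  · have := eq_zero_of_tot_eq hx h.symm
    rw [this]; simp [Nh, tot]
  · have hN := Nh_nonneg x
    have hN2 := Nh_le_tot_sq hx
    have hC := abs_Ch_le hx
    have e : tot x * Psi a b c x = Nh x + a * (Nh x * (Nh x / tot x ^ 2)) +
        b * (Nh x * (Ch x / tot x ^ 3)) + c * ((Ch x / tot x) * (Ch x / tot x ^ 3)) := by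
      rw [Psi]; field_simp
    have n1 : Nh x / tot x ^ 2 ≤ 1 := by rw [div_le_one (by positivity)]; exact hN2
    have n0 : 0 ≤ Nh x / tot x ^ 2 := by positivity
    have c1 : |Ch x / tot x ^ 3| ≤ 1 := by
      rw [abs_div, abs_of_pos (show (0 : ℝ) < tot x ^ 3 by positivity), div_le_one (by positivity)]
      calc |Ch x| ≤ tot x * Nh x := hC
        _ ≤ tot x * tot x ^ 2 := mul_le_mul_of_nonneg_left hN2 ht
        _ = tot x ^ 3 := by ring
    have c2 : |Ch x / tot x| ≤ Nh x := by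
      rw [abs_div, abs_of_pos h, div_le_iff₀ h]; linarith
    rw [e]
    have t1 : a * (Nh x * (Nh x / tot x ^ 2)) ≤ |a| * Nh x := by
      calc a * (Nh x * (Nh x / tot x ^ 2)) ≤ |a| * (Nh x * (Nh x / tot x ^ 2)) :=
            mul_le_mul_of_nonneg_right (le_abs_self a) (by positivity)
        _ ≤ |a| * (Nh x * 1) := by gcongr
        _ = |a| * Nh x := by ring
    have t2 : b * (Nh x * (Ch x / tot x ^ 3)) ≤ |b| * Nh x := by
      calc b * (Nh x * (Ch x / tot x ^ 3)) ≤ |b * (Nh x * (Ch x / tot x ^ 3))| := le_abs_self _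
        _ = |b| * (Nh x * |Ch x / tot x ^ 3|) := by rw [abs_mul, abs_mul, abs_of_nonneg hN]
        _ ≤ |b| * (Nh x * 1) := by gcongr
        _ = |b| * Nh x := by ring
    have t3 : c * ((Ch x / tot x) * (Ch x / tot x ^ 3)) ≤ |c| * Nh x := by
      calc c * ((Ch x / tot x) * (Ch x / tot x ^ 3)) ≤
            |c * ((Ch x / tot x) * (Ch x / tot x ^ 3))| := le_abs_self _
        _ = |c| * (|Ch x / tot x| * |Ch x / tot x ^ 3|) := by rw [abs_mul, abs_mul]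
        _ ≤ |c| * (Nh x * 1) := by gcongr
        _ = |c| * Nh x := by ring
    linarith

end Vale.Agent.P154
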