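import Vale.Agent.P154.Final
import Vale.Agent.P154.KS

/-!
The last step: the inequality at the level of one child, and nonreconstruction.
-/

namespace Vale.Agent.P154

open scoped BigOperators ENNReal

theorem quad_nonneg {A B E X Y : ℝ} (hA : 0 ≤ A) (hE : 0 ≤ E) (h : B ^ 2 ≤ 4 * A * E) :
    0 ≤ A * X ^ 2 + B * (X * Y) + E * Y ^ 2 := psd_nonneg hA hE h X Y

theorem mono1 {a b c s t N C : ℝ} (ha : 0 ≤ a) (hc : 0 ≤ c) (hb : 9 * b ^ 2 ≤ 32 * a * c)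
    (hs : 0 ≤ s) (hst : s ≤ t) :
    a * s ^ 2 * N ^ 2 + b * s ^ 3 * (N * C) + c * s ^ 4 * C ^ 2 ≤
      a * t ^ 2 * N ^ 2 + b * t ^ 3 * (N * C) + c * t ^ 4 * C ^ 2 := by
  have ht : 0 ≤ t := hs.trans hst
  have h1 : 0 ≤ a * (t ^ 2 - s ^ 2) := mul_nonneg ha (by nlinarith)
  have h2 : 0 ≤ c * (t ^ 4 - s ^ 4) := mul_nonneg hc (by
    have : s ^ 4 ≤ t ^ 4 := pow_le_pow_left₀ hs hst 4
    linarith)
  have h3 : (b * (t ^ 3 - s ^ 3)) ^ 2 ≤ 4 * (a * (t ^ 2 - s ^ 2)) * (c * (t ^ 4 - s ^ 4)) := by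
    have e1 : 8 * (t ^ 3 - s ^ 3) ^ 2 ≤ 9 * ((t ^ 2 - s ^ 2) * (t ^ 4 - s ^ 4)) := by
      have : 9 * ((t ^ 2 - s ^ 2) * (t ^ 4 - s ^ 4)) - 8 * (t ^ 3 - s ^ 3) ^ 2 =
        (t - s) ^ 2 * ((t - s) ^ 2 * (t ^ 2 + 4 * t * s + s ^ 2)) := by ring
      have h : 0 ≤ (t - s) ^ 2 * ((t - s) ^ 2 * (t ^ 2 + 4 * t * s + s ^ 2)) := by positivity
      linarith
    have e2 : 0 ≤ a * c := mul_nonneg ha hc
    have e3 : 0 ≤ (t ^ 3 - s ^ 3) ^ 2 := sq_nonneg _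
    have e4 := mul_le_mul_of_nonneg_left e1 e2
    have e5 := mul_le_mul_of_nonneg_right hb e3
    nlinarith
  have := quad_nonneg (X := N) (Y := C) h1 h2 h3
  linarith

theorem mono2 {a b c s t N C : ℝ} (ha : 0 ≤ a) (hc : 0 ≤ c) (hb : 25 * b ^ 2 ≤ 96 * a * c)
    (hs : 0 ≤ s) (hst : s ≤ t) (hN : 0 ≤ N) :
    s ^ 2 * N + a * s ^ 4 * N ^ 2 + b * s ^ 5 * (N * C) + c * s ^ 6 * C ^ 2 ≤
      t ^ 2 * N + a * t ^ 4 * N ^ 2 + b * t ^ 5 * (N * C) + c * t ^ 6 * C ^ 2 := by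
  have ht : 0 ≤ t := hs.trans hst
  have h0 : s ^ 2 ≤ t ^ 2 := pow_le_pow_left₀ hs hst 2
  have h1 : 0 ≤ a * (t ^ 4 - s ^ 4) := mul_nonneg ha (by
    have : s ^ 4 ≤ t ^ 4 := pow_le_pow_left₀ hs hst 4
    linarith)
  have h2 : 0 ≤ c * (t ^ 6 - s ^ 6) := mul_nonneg hc (by
    have : s ^ 6 ≤ t ^ 6 := pow_le_pow_left₀ hs hst 6
    linarith)
  have h3 : (b * (t ^ 5 - s ^ 5)) ^ 2 ≤ 4 * (a * (t ^ 4 - s ^ 4)) * (c * (t ^ 6 - s ^ 6)) := by
    have e1 : 24 * (t ^ 5 - s ^ 5) ^ 2 ≤ 25 * ((t ^ 4 - s ^ 4) * (t ^ 6 - s ^ 6)) := by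
      have : 25 * ((t ^ 4 - s ^ 4) * (t ^ 6 - s ^ 6)) - 24 * (t ^ 5 - s ^ 5) ^ 2 =
        (t - s) ^ 4 * (t ^ 6 + 4 * t ^ 5 * s + 10 * t ^ 4 * s ^ 2 + 20 * t ^ 3 * s ^ 3 +
          10 * t ^ 2 * s ^ 4 + 4 * t * s ^ 5 + s ^ 6) := by ring
      have h : 0 ≤ (t - s) ^ 4 * (t ^ 6 + 4 * t ^ 5 * s + 10 * t ^ 4 * s ^ 2 + 20 * t ^ 3 * s ^ 3 +
          10 * t ^ 2 * s ^ 4 + 4 * t * s ^ 5 + s ^ 6) := by positivity
      linarith
    have e2 : 0 ≤ a * c := mul_nonneg ha hc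
    have e3 : 0 ≤ (t ^ 5 - s ^ 5) ^ 2 := sq_nonneg _
    have e4 := mul_le_mul_of_nonneg_left e1 e2
    have e5 := mul_le_mul_of_nonneg_right hb e3
    nlinarith
  have := quad_nonneg (X := N) (Y := C) h1 h2 h3
  have h4 := mul_le_mul_of_nonneg_right h0 hN
  linarith

/-- the final comparison of quadratic forms -/
theorem fin_form {A B E δ N C : ℝ} (hN : 0 ≤ N) (hC : |C| ≤ N) (h : |B| + max 0 (-E) + δ ≤ A) :
    δ * N ^ 2 ≤ A * N ^ 2 + B * (N * C) + E * C ^ 2 := by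
  have hC2 : C ^ 2 ≤ N ^ 2 := sq_le_sq' (by linarith [neg_abs_le C]) (by linarith [le_abs_self C])
  have h1 : -(|B| * N ^ 2) ≤ B * (N * C) := by
    have : |B * (N * C)| ≤ |B| * N ^ 2 := by
      rw [abs_mul, abs_mul, abs_of_nonneg hN]
      calc |B| * (N * |C|) ≤ |B| * (N * N) := by gcongr
        _ = |B| * N ^ 2 := by ring
    linarith [neg_abs_le (B * (N * C))]
  have h2 : -(max 0 (-E) * N ^ 2) ≤ E * C ^ 2 := by
    have h3 : -E ≤ max 0 (-E) := le_max_right _ _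
    have h4 : 0 ≤ max 0 (-E) := le_max_left _ _
    have h5 : -(max 0 (-E)) * C ^ 2 ≤ E * C ^ 2 :=
      mul_le_mul_of_nonneg_right (by linarith) (sq_nonneg C)
    have h6 : max 0 (-E) * C ^ 2 ≤ max 0 (-E) * N ^ 2 := mul_le_mul_of_nonneg_left hC2 h4
    linarith
  have h7 := mul_le_mul_of_nonneg_right h (sq_nonneg N)
  linarith

theorem Psi_eq_pot (a b c : ℝ) {x : V} (h : 0 < tot x) :
    Psi a b c x = tot x * pot a b c (Nh x / tot x ^ 2) (Ch x / tot x ^ 3) := by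
  rw [Psi, pot]; field_simp

theorem Psi_mvec (a b c lam : ℝ) {x : V} (h : 0 < tot x) :
    Psi a b c (mvec lam x) =
      tot x * pot a b c (lam ^ 2 * (Nh x / tot x ^ 2)) (lam ^ 3 * (Ch x / tot x ^ 3)) := by
  have h1 : tot (mvec lam x) = tot x := by simp only [tot, mvec]; ring
  have h2 : Nh (mvec lam x) = lam ^ 2 * Nh x := by simp only [Nh, mvec]; ring
  have h3 : Ch (mvec lam x) = lam ^ 3 * Ch x := by simp only [Ch, mvec]; ring
  rw [Psi_eq_pot a b c (by rw [h1]; exact h), h1, h2, h3]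
  congr 2 <;> ring

theorem norm_bounds {x : V} (hx : ∀ i, 0 ≤ x i) (h : 0 < tot x) :
    0 ≤ Nh x / tot x ^ 2 ∧ |Ch x / tot x ^ 3| ≤ Nh x / tot x ^ 2 := by
  have hN := Nh_nonneg x
  refine ⟨by positivity, ?_⟩
  rw [abs_div, abs_of_pos (show (0 : ℝ) < tot x ^ 3 by positivity),
    div_le_div_iff₀ (by positivity) (by positivity)]
  calc |Ch x| * tot x ^ 2 ≤ tot x * Nh x * tot x ^ 2 :=
        mul_le_mul_of_nonneg_right (abs_Ch_le hx) (by positivity)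
    _ = Nh x * tot x ^ 3 := by ring

theorem slack_eq (δ : ℝ) {x : V} (h : 0 < tot x) :
    δ * Nh x ^ 2 / tot x ^ 3 = tot x * (δ * (Nh x / tot x ^ 2) ^ 2) := by
  field_simp

/-- Parameters of the top potential and of the potential of one child. -/
structure Good (a b c a1 b1 c1 : ℝ) : Prop where
  a0 : 0 ≤ a
  c0 : 0 ≤ c
  b0 : b ^ 2 ≤ 4 * a * c
  a10 : 0 ≤ a1
  c10 : 0 ≤ c1
  b10 : 25 * b1 ^ 2 ≤ 96 * a1 * c1

theorem Good.b1' {a b c a1 b1 c1 : ℝ} (h : Good a b c a1 b1 c1) : b1 ^ 2 ≤ 4 * a1 * c1 := by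
  have := h.b10
  have := mul_nonneg h.a10 h.c10
  nlinarith

theorem nonrec_regular {d : ℕ} (hd : 1 ≤ d) {lam : ℝ} (h0 : 0 ≤ lam) (h1 : (d : ℝ) * lam ^ 2 ≤ 1)
    {a b c a1 b1 c1 δ t : ℝ} (hg : Good a b c a1 b1 c1) (hδ : 0 < δ) (ht : 0 ≤ t)
    (htd : (d : ℝ) * t ^ 2 = 1)
    (hfin : |b - b1 * t ^ 3| + max 0 (-(c - c1 * t ^ 4)) + δ ≤ a - a1 * t ^ 2)
    (hdom : Dom lam (regular d) d (Psi a b c) (Psi a1 b1 c1)) :
    Nonreconstruction 3 lam (regular d) := by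
  have hd' : (1 : ℝ) ≤ d := by exact_mod_cast hd
  have hlt : lam ≤ t := by
    by_contra hlt
    rw [not_le] at hlt
    have : (d : ℝ) * t ^ 2 < d * lam ^ 2 := by
      have : t ^ 2 < lam ^ 2 := by nlinarith
      nlinarith
    linarith
  have ht1 : t ≤ 1 := by
    by_contra h
    rw [not_le] at h
    nlinarith
  refine gw_general (by linarith) (by linarith) (isOff_regular d) (Φ := Psi a b c)
    (h := fun _ => Psi a1 b1 c1) (δ := δ) (C := 1 + |a| + |b| + |c|) hδ ?_ ?_ ?_ ?_ ?_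
  · intro k hk
    have : k = d := by
      by_contra h
      exact hk (by simp [regular, h])
    subst this
    exact hdom
  · intro t x ht _
    exact Psi_smul a b c t ht x
  · intro x hx
    exact Psi_low hg.a0 hg.c0 hg.b0 hx
  · intro x hx
    exact Psi_up hx
  · intro y hy
    have hts : (∑' k : ℕ, ENNReal.ofReal (regular d k * k * Psi a1 b1 c1 (mvec lam y))) =
        ENNReal.ofReal (d * Psi a1 b1 c1 (mvec lam y)) := by
      rw [tsum_eq_single d]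
      · simp [regular]
      · intro k hk
        simp [regular, hk]
    have hm0 : ∀ i, 0 ≤ mvec lam y i := fun i => mvec_nonneg (by linarith) (by linarith) hy i
    have hΨ1 : 0 ≤ Psi a1 b1 c1 (mvec lam y) := Psi_nonneg hg.a10 hg.c10 hg.b1' hm0
    have hty : 0 ≤ tot y := tot_nonneg hy
    rw [hts, ← ENNReal.ofReal_add (by positivity) (by positivity)]
    apply ENNReal.ofReal_le_ofReal
    rcases eq_or_lt_of_le hty with h | h
    · have hy0 := eq_zero_of_tot_eq hy h.symm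
      have : mvec lam y = fun _ => 0 := by
        rw [hy0]; funext i; simp [mvec, tot]
      rw [this, Psi_zero, hy0, Psi_zero]
      simp [tot, Nh]
    · rw [Psi_mvec _ _ _ _ h, Psi_eq_pot _ _ _ h, slack_eq δ h]
      obtain ⟨hN, hC⟩ := norm_bounds hy h
      set N := Nh y / tot y ^ 2
      set C := Ch y / tot y ^ 3
      have k1 := mono2 (N := N) (C := C) hg.a10 hg.c10 hg.b10 h0 hlt hN
      have k2 := fin_form (A := a - a1 * t ^ 2) (B := b - b1 * t ^ 3) (E := c - c1 * t ^ 4)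
        (δ := δ) hN hC hfin
      have k3 := mul_le_mul_of_nonneg_left k1 (show (0 : ℝ) ≤ d by linarith)
      have e1 : (d : ℝ) * (t ^ 2 * N + a1 * t ^ 4 * N ^ 2 + b1 * t ^ 5 * (N * C) +
          c1 * t ^ 6 * C ^ 2) = N + a1 * t ^ 2 * N ^ 2 + b1 * t ^ 3 * (N * C) +
          c1 * t ^ 4 * C ^ 2 := by
        have : (d : ℝ) * (t ^ 2 * N + a1 * t ^ 4 * N ^ 2 + b1 * t ^ 5 * (N * C) +
          c1 * t ^ 6 * C ^ 2) = (d * t ^ 2) * (N + a1 * t ^ 2 * N ^ 2 + b1 * t ^ 3 * (N * C) +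
          c1 * t ^ 4 * C ^ 2) := by ring
        rw [this, htd, one_mul]
      rw [e1] at k3
      have k4 : (d : ℝ) * pot a1 b1 c1 (lam ^ 2 * N) (lam ^ 3 * C) + δ * N ^ 2 ≤
          pot a b c N C := by
        have e2 : (d : ℝ) * pot a1 b1 c1 (lam ^ 2 * N) (lam ^ 3 * C) =
            d * (lam ^ 2 * N + a1 * lam ^ 4 * N ^ 2 + b1 * lam ^ 5 * (N * C) +
            c1 * lam ^ 6 * C ^ 2) := by rw [pot]; ring
        rw [e2, pot]
        linarith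
      have k5 := mul_le_mul_of_nonneg_left k4 h.le
      linarith

theorem nonrec_univ {off : ℕ → ℝ} (hoff : IsOff off) {m : ℝ}
    (hm : HasSum (fun k : ℕ => off k * k) m) {lam L : ℝ} (h0 : 0 ≤ lam) (hL : lam ≤ L)
    (hL1 : L < 1) (h1 : m * lam ^ 2 ≤ 1)
    {a b c a1 b1 c1 δ : ℝ} (hg : Good a b c a1 b1 c1) (hg2 : 9 * b1 ^ 2 ≤ 32 * a1 * c1)
    (hδ : 0 < δ)
    (hfin : |b - b1 * L ^ 3| + max 0 (-(c - c1 * L ^ 4)) + δ ≤ a - a1 * L ^ 2)
    (hdom : ∀ k, Dom lam off k (Psi a b c) (Psi a1 b1 c1)) :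
    Nonreconstruction 3 lam off := by
  have hm0 : 0 ≤ m := hm.nonneg (fun k => mul_nonneg (hoff.nonneg k) (by positivity))
  have hL0 : 0 ≤ L := h0.trans hL
  refine gw_general (by linarith) (by linarith) hoff (Φ := Psi a b c)
    (h := fun _ => Psi a1 b1 c1) (δ := δ) (C := 1 + |a| + |b| + |c|) hδ (fun k _ => hdom k) ?_ ?_ ?_ ?_
  · intro t x ht _
    exact Psi_smul a b c t ht x
  · intro x hx
    exact Psi_low hg.a0 hg.c0 hg.b0 hx
  · intro x hx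
    exact Psi_up hx
  · intro y hy
    have hmv : ∀ i, 0 ≤ mvec lam y i := fun i => mvec_nonneg (by linarith) (by linarith) hy i
    have hΨ1 : 0 ≤ Psi a1 b1 c1 (mvec lam y) := Psi_nonneg hg.a10 hg.c10 hg.b1' hmv
    have hts : (∑' k : ℕ, ENNReal.ofReal (off k * k * Psi a1 b1 c1 (mvec lam y))) =
        ENNReal.ofReal (m * Psi a1 b1 c1 (mvec lam y)) := by
      have hs := hm.mul_right (Psi a1 b1 c1 (mvec lam y))
      rw [← hs.tsum_eq, ENNReal.ofReal_tsum_of_nonneg _ hs.summable]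
      intro k
      exact mul_nonneg (mul_nonneg (hoff.nonneg k) (by positivity)) hΨ1
    have hty : 0 ≤ tot y := tot_nonneg hy
    rw [hts, ← ENNReal.ofReal_add (by positivity) (by positivity)]
    apply ENNReal.ofReal_le_ofReal
    rcases eq_or_lt_of_le hty with h | h
    · have hy0 := eq_zero_of_tot_eq hy h.symm
      have : mvec lam y = fun _ => 0 := by
        rw [hy0]; funext i; simp [mvec, tot]
      rw [this, Psi_zero, hy0, Psi_zero]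
      simp [tot, Nh]
    · rw [Psi_mvec _ _ _ _ h, Psi_eq_pot _ _ _ h, slack_eq δ h]
      obtain ⟨hN, hC⟩ := norm_bounds hy h
      set N := Nh y / tot y ^ 2
      set C := Ch y / tot y ^ 3
      have k1 := mono1 (N := N) (C := C) hg.a10 hg.c10 hg2 h0 hL
      have k2 := fin_form (A := a - a1 * L ^ 2) (B := b - b1 * L ^ 3) (E := c - c1 * L ^ 4)
        (δ := δ) hN hC hfin
      -- m λ² ≤ 1
      have k3 : 0 ≤ N + (a1 * lam ^ 2 * N ^ 2 + b1 * lam ^ 3 * (N * C) + c1 * lam ^ 4 * C ^ 2) := by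
        have := psd_nonneg hg.a10 hg.c10 hg.b1' (lam * N) (lam ^ 2 * C)
        have e : a1 * (lam * N) ^ 2 + b1 * (lam * N * (lam ^ 2 * C)) + c1 * (lam ^ 2 * C) ^ 2 =
          a1 * lam ^ 2 * N ^ 2 + b1 * lam ^ 3 * (N * C) + c1 * lam ^ 4 * C ^ 2 := by ring
        linarith
      have k4 : m * pot a1 b1 c1 (lam ^ 2 * N) (lam ^ 3 * C) ≤
          N + (a1 * lam ^ 2 * N ^ 2 + b1 * lam ^ 3 * (N * C) + c1 * lam ^ 4 * C ^ 2) := by
        have e : m * pot a1 b1 c1 (lam ^ 2 * N) (lam ^ 3 * C) = (m * lam ^ 2) *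
            (N + (a1 * lam ^ 2 * N ^ 2 + b1 * lam ^ 3 * (N * C) + c1 * lam ^ 4 * C ^ 2)) := by
          rw [pot]; ring
        rw [e]
        calc _ ≤ 1 * (N + (a1 * lam ^ 2 * N ^ 2 + b1 * lam ^ 3 * (N * C) +
              c1 * lam ^ 4 * C ^ 2)) := mul_le_mul_of_nonneg_right h1 k3
          _ = _ := one_mul _
      have k5 : m * pot a1 b1 c1 (lam ^ 2 * N) (lam ^ 3 * C) + δ * N ^ 2 ≤ pot a b c N C := by
        rw [pot] at k4 ⊢
        rw [pot]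
        linarith
      have k6 := mul_le_mul_of_nonneg_left k5 h.le
      linarith

end Vale.Agent.P154
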