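import Vale.Agent.P154.Final2

/-!
Versions with rational side conditions.
-/

namespace Vale.Agent.P154

open scoped BigOperators ENNReal

theorem nonrec_regular2 {d : ℕ} (hd : 1 ≤ d) {lam : ℝ} (h0 : 0 ≤ lam) (h1 : (d : ℝ) * lam ^ 2 ≤ 1)
    {a b c a1 b1 c1 : ℝ} (δ ε η l u : ℝ) (hg : Good a b c a1 b1 c1) (hδ : 0 < δ) (hη : 0 ≤ η)
    (hl0 : 0 ≤ l) (hl : (d : ℝ) * l ^ 2 ≤ 1) (hu0 : 0 ≤ u) (hu : 1 ≤ (d : ℝ) * u ^ 2)
    (b1l : -ε ≤ b - b1 * (l / d)) (b2l : b - b1 * (l / d) ≤ ε)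
    (b1u : -ε ≤ b - b1 * (u / d)) (b2u : b - b1 * (u / d) ≤ ε)
    (hc : -η ≤ c - c1 / d ^ 2) (hfin : ε + η + δ ≤ a - a1 / d)
    (hdom : Dom lam (regular d) d (Psi a b c) (Psi a1 b1 c1)) :
    Nonreconstruction 3 lam (regular d) := by
  have hd' : (1 : ℝ) ≤ d := by exact_mod_cast hd
  have hdpos : (0 : ℝ) < d := by linarith
  obtain ⟨t, ht⟩ : ∃ t, t = Real.sqrt (1 / d) := ⟨_, rfl⟩
  have ht0 : 0 ≤ t := by rw [ht]; exact Real.sqrt_nonneg _
  have ht2 : t ^ 2 = 1 / d := by rw [ht]; exact Real.sq_sqrt (by positivity)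
  have htd : (d : ℝ) * t ^ 2 = 1 := by rw [ht2]; field_simp
  have hlt : l ≤ t := by
    by_contra h
    rw [not_le] at h
    have : t ^ 2 < l ^ 2 := by nlinarith
    nlinarith
  have htu : t ≤ u := by
    by_contra h
    rw [not_le] at h
    have : u ^ 2 < t ^ 2 := by nlinarith
    nlinarith
  have t3 : t ^ 3 = t / d := by
    have : t ^ 3 = t ^ 2 * t := by ring
    rw [this, ht2]; ring
  have t4 : t ^ 4 = 1 / d ^ 2 := by
    have : t ^ 4 = (t ^ 2) ^ 2 := by ring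
    rw [this, ht2]; ring
  refine nonrec_regular hd h0 h1 hg hδ ht0 htd ?_ hdom
  rw [t3, t4, ht2]
  have e1 : |b - b1 * (t / d)| ≤ ε := by
    rw [abs_le]
    rcases le_total 0 b1 with hb | hb
    · have k1 : b1 * (l / d) ≤ b1 * (t / d) :=
        mul_le_mul_of_nonneg_left (div_le_div_of_nonneg_right hlt hdpos.le) hb
      have k2 : b1 * (t / d) ≤ b1 * (u / d) :=
        mul_le_mul_of_nonneg_left (div_le_div_of_nonneg_right htu hdpos.le) hb
      constructor <;> linarith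
    · have k1 : b1 * (t / d) ≤ b1 * (l / d) :=
        mul_le_mul_of_nonpos_left (div_le_div_of_nonneg_right hlt hdpos.le) hb
      have k2 : b1 * (u / d) ≤ b1 * (t / d) :=
        mul_le_mul_of_nonpos_left (div_le_div_of_nonneg_right htu hdpos.le) hb
      constructor <;> linarith
  have e2 : max 0 (-(c - c1 * (1 / (d : ℝ) ^ 2))) ≤ η := by
    apply max_le hη
    have : c1 * (1 / (d : ℝ) ^ 2) = c1 / d ^ 2 := by ring
    rw [this]; linarith
  have e3 : a1 * (1 / (d : ℝ)) = a1 / d := by ring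
  rw [e3]
  linarith

/-- bound on `lam` from `d lam^2 ≤ 1` -/
theorem lam_le {d : ℕ} {lam L : ℝ} (h1 : (d : ℝ) * lam ^ 2 ≤ 1) (hL0 : 0 ≤ L)
    (hL : 1 ≤ (d : ℝ) * L ^ 2) : lam ≤ L := by
  by_contra h
  rw [not_le] at h
  have h2 : L ^ 2 < lam ^ 2 := by nlinarith
  have hd : (0 : ℝ) ≤ d := Nat.cast_nonneg d
  rcases eq_or_lt_of_le hd with h3 | h3
  · rw [← h3] at hL; linarith
  · have := mul_lt_mul_of_pos_left h2 h3
    linarith

end Vale.Agent.P154
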