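import Vale.Agent.P154.VnAh_1

/-! Generated certificates. -/

namespace Vale.Agent.P154

def nAh : HiBr := ⟨nAh_1, nAh_0, [0, 352893394, 672296905, -674296301, 0, 0], 4000000, 499849, 1, 50, 201600000, 4032000, 4000⟩

theorem nAh_certP : nAh.Cert vA false :=
  ⟨by decide +kernel, nAh_1_pw, nAh_0_pw, nAh_1_g, nAh_0_g, nAh_1_w, nAh_0_w,
    ⟨152, .leaf, by decide +kernel⟩⟩

end Vale.Agent.P154
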