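import Vale.Agent.P154.VnA2h_1

/-! Generated certificates. -/

namespace Vale.Agent.P154

def nA2h : HiBr := ⟨nA2h_1, nA2h_0, [0, 223965, 334125, -392445, 0, 0], 400, 81, 1, 50, 35600, 712, 2⟩

theorem nA2h_certP : nA2h.Cert vA2 false :=
  ⟨by decide +kernel, nA2h_1_pw, nA2h_0_pw, nA2h_1_g, nA2h_0_g, nA2h_1_w, nA2h_0_w,
    ⟨88, .leaf, by decide +kernel⟩⟩

end Vale.Agent.P154
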