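import Vale.Agent.P154.VnBh_1

/-! Generated certificates. -/

namespace Vale.Agent.P154

def nBh : HiBr := ⟨nBh_1, nBh_0, [0, 125640, 168480, -216720, 0, 0], 25, 9, 1, 50, 5200, 104, 1⟩

theorem nBh_certP : nBh.Cert vB false :=
  ⟨by decide +kernel, nBh_1_pw, nBh_0_pw, nBh_1_g, nBh_0_g, nBh_1_w, nBh_0_w,
    ⟨96, (.st 1 (.st 0 (.st 2 (.st 0 (.leaf) (.leaf)) (.leaf)) (.leaf)) (.leaf)), by decide +kernel⟩⟩

end Vale.Agent.P154
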