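import Vale.Agent.P154.VnBl
import Vale.Agent.P154.VnBh

/-! Generated certificates. -/

namespace Vale.Agent.P154

def brsB : List Brk := [.lo nBl, .hi nBh]

theorem pois_B {lam d : ℝ} (h1 : (3 : ℝ) ≤ 5 * lam) (h2 : 5 * lam ≤ 4)
    (hd : 0 ≤ d) (hdl : d * lam ^ 2 ≤ 1) : Nonreconstruction 3 lam (poisson d) :=
  poisson_of_list (v := vB) (l := brsB) (by decide +kernel) (by decide +kernel)
    ⟨nBl_certP, nBh_certP, trivial⟩ (by norm_num [vB]; exact h1)
    (by norm_num [vB]; exact h2) hd hdl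

end Vale.Agent.P154
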