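import Vale.Agent.P154.VnCh_1

/-! Generated certificates. -/

namespace Vale.Agent.P154

def nCh : HiBr := ⟨nCh_1, nCh_0, [0, 110720, 252800, -364160, 0, 0], 25, 16, 1, 50, 2600, 52, 1⟩

theorem nCh_certP : nCh.Cert vC false :=
  ⟨by decide +kernel, nCh_1_pw, nCh_0_pw, nCh_1_g, nCh_0_g, nCh_1_w, nCh_0_w,
    ⟨104, (.st 1 (.st 0 (.st 2 (.st 0 (.leaf) (.leaf)) (.leaf)) (.leaf)) (.leaf)), by decide +kernel⟩⟩

end Vale.Agent.P154
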