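import Vale.Agent.P154.VS0mi_10

/-! Generated certificates. -/

namespace Vale.Agent.P154

def S0mi : MiBr := ⟨S0mi_10, S0mi_00, S0mi_11, S0mi_01, [0, 4022883000, 9210404250, -13426258500, 12786048000, -5514437250], [0, 826371000, 23624221500, -14559113250, 7432798500, -9230836500], 400, 9, 1, 100, 3, 100, -23711500000, -237115000, -23701410000, -711042300, 100900⟩

theorem S0mi_certP : S0mi.Cert vS0 false :=
  ⟨by decide +kernel, S0mi_10_pw, S0mi_00_pw, S0mi_11_pw, S0mi_01_pw,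
    S0mi_10_w, S0mi_00_w, S0mi_11_w, S0mi_01_w,
    ⟨112, .leaf, by decide +kernel⟩, ⟨128, (.st 1 (.st 0 (.leaf) (.leaf)) (.leaf)), by decide +kernel⟩⟩

theorem S0mi_certR : S0mi.Cert vS0 true :=
  ⟨by decide +kernel, S0mi_10_pw, S0mi_00_pw, S0mi_11_pw, S0mi_01_pw,
    S0mi_10_w, S0mi_00_w, S0mi_11_w, S0mi_01_w,
    ⟨112, .leaf, by decide +kernel⟩, ⟨128, (.st 1 (.st 0 (.leaf) (.leaf)) (.leaf)), by decide +kernel⟩⟩

end Vale.Agent.P154
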