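import Vale.Agent.P154.VS1mi_10

/-! Generated certificates. -/

namespace Vale.Agent.P154

def S1mi : MiBr := ⟨S1mi_10, S1mi_00, S1mi_11, S1mi_01, [0, 40234375, 324218750, -553906250, 577343750, -297656250], [0, 314843750, 1684375000, -3249218750, 3246875000, -693359375], 1024, 25, 3, 500, 1, 16, -129600000, -777600, -129600000, -8100000, 16000⟩

theorem S1mi_certP : S1mi.Cert vS1 false :=
  ⟨by decide +kernel, S1mi_10_pw, S1mi_00_pw, S1mi_11_pw, S1mi_01_pw,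
    S1mi_10_w, S1mi_00_w, S1mi_11_w, S1mi_01_w,
    ⟨96, .leaf, by decide +kernel⟩, ⟨120, (.st 1 (.st 0 (.leaf) (.leaf)) (.leaf)), by decide +kernel⟩⟩

theorem S1mi_certR : S1mi.Cert vS1 true :=
  ⟨by decide +kernel, S1mi_10_pw, S1mi_00_pw, S1mi_11_pw, S1mi_01_pw,
    S1mi_10_w, S1mi_00_w, S1mi_11_w, S1mi_01_w,
    ⟨96, .leaf, by decide +kernel⟩, ⟨120, (.st 1 (.st 0 (.leaf) (.leaf)) (.leaf)), by decide +kernel⟩⟩

end Vale.Agent.P154
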