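import Vale.Agent.P154.VS2mi_10

/-! Generated certificates. -/

namespace Vale.Agent.P154

def S2mi : MiBr := ⟨S2mi_10, S2mi_00, S2mi_11, S2mi_01, [0, 7750000, 34062500, -66562500, 77625000, -42437500], [0, 76750000, 224562500, -487562500, 502000000, -105312500], 16, 1, 9, 1000, 9, 100, -7500000, -67500, -7500000, -675000, 1000⟩

theorem S2mi_certP : S2mi.Cert vS2 false :=
  ⟨by decide +kernel, S2mi_10_pw, S2mi_00_pw, S2mi_11_pw, S2mi_01_pw,
    S2mi_10_w, S2mi_00_w, S2mi_11_w, S2mi_01_w,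
    ⟨88, .leaf, by decide +kernel⟩, ⟨104, (.st 1 (.st 0 (.leaf) (.leaf)) (.leaf)), by decide +kernel⟩⟩

theorem S2mi_certR : S2mi.Cert vS2 true :=
  ⟨by decide +kernel, S2mi_10_pw, S2mi_00_pw, S2mi_11_pw, S2mi_01_pw,
    S2mi_10_w, S2mi_00_w, S2mi_11_w, S2mi_01_w,
    ⟨88, .leaf, by decide +kernel⟩, ⟨104, (.st 1 (.st 0 (.leaf) (.leaf)) (.leaf)), by decide +kernel⟩⟩

end Vale.Agent.P154
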