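import Vale.Agent.P154.VS2lo
import Vale.Agent.P154.VS2mi

/-! Generated certificates. -/

namespace Vale.Agent.P154

def brsS2 : List Brk := [.lo S2lo, .mi S2mi]

theorem pois_S2 {lam d : ℝ} (h1 : (-6 : ℝ) ≤ 20 * lam) (h2 : 20 * lam ≤ -5)
    (hd : 0 ≤ d) (hdl : d * lam ^ 2 ≤ 1) : Nonreconstruction 3 lam (poisson d) :=
  poisson_of_list (v := vS2) (l := brsS2) (by decide +kernel) (by decide +kernel)
    ⟨S2lo_certP, S2mi_certP, trivial⟩ (by norm_num [vS2]; exact h1)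
    (by norm_num [vS2]; exact h2) hd hdl

theorem reg_S2 {lam : ℝ} {d : ℕ} (h1 : (-6 : ℝ) ≤ 20 * lam) (h2 : 20 * lam ≤ -5)
    (hdl : (d : ℝ) * lam ^ 2 ≤ 1) : Nonreconstruction 3 lam (regular d) :=
  regular_of_list (v := vS2) (l := brsS2) (by decide +kernel) (e := 0) (by decide +kernel)
    ⟨S2lo_certR, S2mi_certR, trivial⟩ (by norm_num [vS2]; exact h1)
    (by norm_num [vS2]; exact h2) (Or.inl rfl) hdl

end Vale.Agent.P154
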