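import Vale.Agent.P154.VS3hi_1

/-! Generated certificates. -/

namespace Vale.Agent.P154

def S3hi : HiBr := ⟨S3hi_1, S3hi_0, [0, 4491000, 2052000, -7309800, 11431800, -3866400], 100, 9, 1, 20, 468000, 23400, 20⟩

theorem S3hi_certP : S3hi.Cert vS3 false :=
  ⟨by decide +kernel, S3hi_1_pw, S3hi_0_pw, S3hi_1_g, S3hi_0_g, S3hi_1_w, S3hi_0_w,
    ⟨104, (.st 1 (.st 0 (.leaf) (.leaf)) (.leaf)), by decide +kernel⟩⟩

theorem S3hi_certR : S3hi.Cert vS3 true :=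
  ⟨by decide +kernel, S3hi_1_pw, S3hi_0_pw, S3hi_1_g, S3hi_0_g, S3hi_1_w, S3hi_0_w,
    ⟨104, (.st 1 (.st 0 (.leaf) (.leaf)) (.leaf)), by decide +kernel⟩⟩

end Vale.Agent.P154
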