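import Vale.Agent.P154.VS3mi_10

/-! Generated certificates. -/

namespace Vale.Agent.P154

def S3mi : MiBr := ⟨S3mi_10, S3mi_00, S3mi_11, S3mi_01, [0, 531000, 2673000, -5193000, 7308000, -3901500], [0, 5148000, 8554500, -29970000, 43605000, -17919000], 100, 9, 1, 100, 1, 20, -365000, -3650, -180000, -9000, 50⟩

theorem S3mi_certP : S3mi.Cert vS3 false :=
  ⟨by decide +kernel, S3mi_10_pw, S3mi_00_pw, S3mi_11_pw, S3mi_01_pw,
    S3mi_10_w, S3mi_00_w, S3mi_11_w, S3mi_01_w,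
    ⟨88, .leaf, by decide +kernel⟩, ⟨112, (.st 1 (.st 0 (.st 2 (.leaf) (.leaf)) (.leaf)) (.st 0 (.st 2 (.leaf) (.leaf)) (.leaf))), by decide +kernel⟩⟩

theorem S3mi_certR : S3mi.Cert vS3 true :=
  ⟨by decide +kernel, S3mi_10_pw, S3mi_00_pw, S3mi_11_pw, S3mi_01_pw,
    S3mi_10_w, S3mi_00_w, S3mi_11_w, S3mi_01_w,
    ⟨88, .leaf, by decide +kernel⟩, ⟨112, (.st 1 (.st 0 (.st 2 (.leaf) (.leaf)) (.leaf)) (.st 0 (.leaf) (.leaf))), by decide +kernel⟩⟩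

end Vale.Agent.P154
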