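import Vale.Agent.P154.VS3lo
import Vale.Agent.P154.VS3mi
import Vale.Agent.P154.VS3hi

/-! Generated certificates. -/

namespace Vale.Agent.P154

def brsS3 : List Brk := [.lo S3lo, .mi S3mi, .hi S3hi]

theorem pois_S3 {lam d : ℝ} (h1 : (-10 : ℝ) ≤ 30 * lam) (h2 : 30 * lam ≤ -9)
    (hd : 0 ≤ d) (hdl : d * lam ^ 2 ≤ 1) : Nonreconstruction 3 lam (poisson d) :=
  poisson_of_list (v := vS3) (l := brsS3) (by decide +kernel) (by decide +kernel)
    ⟨S3lo_certP, S3mi_certP, S3hi_certP, trivial⟩ (by norm_num [vS3]; exact h1)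
    (by norm_num [vS3]; exact h2) hd hdl

theorem reg_S3 {lam : ℝ} {d : ℕ} (h1 : (-10 : ℝ) ≤ 30 * lam) (h2 : 30 * lam ≤ -9)
    (hdl : (d : ℝ) * lam ^ 2 ≤ 1) : Nonreconstruction 3 lam (regular d) :=
  regular_of_list (v := vS3) (l := brsS3) (by decide +kernel) (e := 0) (by decide +kernel)
    ⟨S3lo_certR, S3mi_certR, S3hi_certR, trivial⟩ (by norm_num [vS3]; exact h1)
    (by norm_num [vS3]; exact h2) (Or.inl rfl) hdl

end Vale.Agent.P154
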