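import Vale.Agent.P154.VS4pm_000
import Vale.Agent.P154.VS4pm_110
import Vale.Agent.P154.VS4pm_011
import Vale.Agent.P154.VS4pm_101
import Vale.Agent.P154.VS4pm_111

/-! Generated certificates. -/

namespace Vale.Agent.P154

def S4pm_q00 : Piece := ⟨S4pm_000, S4pm_010, [0, 76950000, 311400000, -977200000, 1327600000, -592650000], 9⟩

theorem S4pm_q00_cert : S4pm_q00.Cert vS4 :=
  ⟨S4pm_000_pw, S4pm_010_pw, S4pm_000_w, S4pm_010_w⟩

def S4pm_q10 : Piece := ⟨S4pm_100, S4pm_110, [0, -28450000, 137150000, -235200000, 712600000, -646150000], 18⟩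

theorem S4pm_q10_cert : S4pm_q10.Cert vS4 :=
  ⟨S4pm_100_pw, S4pm_110_pw, S4pm_100_w, S4pm_110_w⟩

def S4pm_q01 : Piece := ⟨S4pm_001, S4pm_011, [0, 1067150000, 2451350000, -6320800000, 8841400000, -3757050000], 9⟩

theorem S4pm_q01_cert : S4pm_q01.Cert vS4 :=
  ⟨S4pm_001_pw, S4pm_011_pw, S4pm_001_w, S4pm_011_w⟩

def S4pm_q11 : Piece := ⟨S4pm_101, S4pm_111, [0, -830950000, 2962000000, -2122700000, 0, -2489350000], 18⟩

theorem S4pm_q11_cert : S4pm_q11.Cert vS4 :=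
  ⟨S4pm_101_pw, S4pm_111_pw, S4pm_101_w, S4pm_111_w⟩

def S4pm : PMi := ⟨4500000000, 2, [0, 16141500000, 416475000, 1962900000, -1016550000, 1862775000], [S4pm_q00, S4pm_q10], [0, 21260700000, 4214025000, 7004250000, -5213700000, 5536575000], [S4pm_q01, S4pm_q11], 1, 100, 3, 20, -32602500, -326025, -32557500, -4883625, 4500⟩

theorem S4pm_certP : S4pm.Cert vS4 :=
  ⟨by decide +kernel, ⟨S4pm_q00_cert, S4pm_q10_cert, trivial⟩, ⟨S4pm_q01_cert, S4pm_q11_cert, trivial⟩,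
    ⟨144, (.st 1 (.st 0 (.st 2 (.leaf) (.leaf)) (.leaf)) (.st 0 (.st 2 (.leaf) (.leaf)) (.leaf))), by decide +kernel⟩, ⟨144, (.st 1 (.st 0 (.st 2 (.leaf) (.leaf)) (.leaf)) (.st 0 (.st 2 (.leaf) (.leaf)) (.leaf))), by decide +kernel⟩⟩

end Vale.Agent.P154
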