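import Vale.Agent.P154.VS4lo
import Vale.Agent.P154.VS4pm

/-! Generated certificates. -/

namespace Vale.Agent.P154

def brsS4 : List Brk := [.lo S4lo, .pmi S4pm]

theorem pois_S4 {lam d : ℝ} (h1 : (-57 : ℝ) ≤ 150 * lam) (h2 : 150 * lam ≤ -50)
    (hd : 0 ≤ d) (hdl : d * lam ^ 2 ≤ 1) : Nonreconstruction 3 lam (poisson d) :=
  poisson_of_list (v := vS4) (l := brsS4) (by decide +kernel) (by decide +kernel)
    ⟨S4lo_certP, S4pm_certP, trivial⟩ (by norm_num [vS4]; exact h1)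
    (by norm_num [vS4]; exact h2) hd hdl

end Vale.Agent.P154
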