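import Vale.Agent.P154.Vlm_a
import Vale.Agent.P154.Vlm_b
import Vale.Agent.P154.Vlm_c
import Vale.Agent.P154.Vlm_d

/-! Generated certificates. -/

namespace Vale.Agent.P154

def lm : LimBr := ⟨lmL0, lmL1, lmL2, lmH0, lmH1,
  9, 10, 1, 2, 9, 20, 9081000, 36324, 889938000, -2451870000, 3033054000, -5196602250, 7605337500, -6851614500, 3845803500, -20786409000, 58295479500, -82242076500, 61546477500, 363240000, -157773294, 136778022, 0, 0, -218325402, -145187028, 363240000, 0, 0⟩

theorem lm_ok : lm.OK :=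
  ⟨by decide +kernel, by decide +kernel, by decide +kernel, by decide +kernel, by decide +kernel, by decide +kernel, by decide +kernel, by decide +kernel, by decide +kernel,
    by decide +kernel, by decide +kernel, by decide +kernel,
    ⟨by decide +kernel, by decide +kernel⟩, ⟨by decide +kernel, by decide +kernel⟩, ⟨by decide +kernel, by decide +kernel⟩, ⟨by decide +kernel, by decide +kernel⟩, ⟨by decide +kernel, by decide +kernel⟩,
    by decide +kernel, by decide +kernel, by decide +kernel, by decide +kernel, by decide +kernel, by decide +kernel, by decide +kernel, by decide +kernel, by decide +kernel, by decide +kernel, by decide +kernel⟩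

theorem lm_cert : lm.Cert :=
  ⟨lm_ok, lmL0_pw, lmL1_pw, lmL2_pw, lmH0_pw, lmH1_pw,
    ⟨88, .leaf, by decide +kernel⟩, ⟨88, .leaf, by decide +kernel⟩, ⟨88, .leaf, by decide +kernel⟩, ⟨80, .leaf, by decide +kernel⟩, ⟨80, .leaf, by decide +kernel⟩,
    ⟨96, (.st 1 (.st 0 (.st 2 (.st 0 (.leaf) (.leaf)) (.leaf)) (.leaf)) (.leaf)), by decide +kernel⟩, ⟨72, .leaf, by decide +kernel⟩, ⟨80, .leaf, by decide +kernel⟩, ⟨56, .leaf, by decide +kernel⟩⟩

/-- Poisson trees with `9/10 ≤ lam < 1`. -/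
theorem pois_lim {lam d : ℝ} (h1 : (9 : ℝ) ≤ 10 * lam) (h2 : lam < 1)
    (hd : 0 ≤ d) (hdl : d * lam ^ 2 ≤ 1) : Nonreconstruction 3 lam (poisson d) :=
  lm_cert.nonrec (by norm_num [lm]; exact h1) h2 hd hdl

theorem lm_gc : GCertN lm.u0 72648 := ⟨56, .leaf, by decide +kernel⟩

/-- Poisson trees with `9/10 ≤ lam ≤ 1`. -/
theorem pois_lim1 {lam d : ℝ} (h1 : (9 : ℝ) ≤ 10 * lam) (h2 : lam ≤ 1)
    (hd : 0 ≤ d) (hdl : d * lam ^ 2 ≤ 1) : Nonreconstruction 3 lam (poisson d) := by
  rcases h2.eq_or_lt with h | h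
  · subst h
    exact lm_cert.nonrec_one (by decide) lm_gc hd (by simpa using hdl)
  · exact pois_lim h1 h hd hdl

end Vale.Agent.P154
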