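import Vale.Agent.P154.UnivN
import Vale.Agent.P154.VXA
import Vale.Agent.P154.VXA2
import Vale.Agent.P154.VXB
import Vale.Agent.P154.VXC
import Vale.Agent.P154.VXlm
import Vale.Agent.P154.VXS0
import Vale.Agent.P154.VXS1
import Vale.Agent.P154.VXS2
import Vale.Agent.P154.VXS3
import Vale.Agent.P154.VXS4

/-!
Nonreconstruction below the Kesten-Stigum bound: Poisson trees with `-0.38 ≤ lam ≤ 1`, regular
trees with `-1/3 ≤ lam`.
-/

namespace Vale.Agent.P154

/-- Poisson trees, `0 ≤ lam ≤ 1`. -/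
theorem pois_nonneg {lam d : ℝ} (h0 : 0 ≤ lam) (h1 : lam ≤ 1) (hd : 0 ≤ d)
    (hdl : d * lam ^ 2 ≤ 1) : Nonreconstruction 3 lam (poisson d) := by
  rcases le_total lam (3535 / 10000) with h | h
  · exact nonrec_GW (isOff_poisson hd) (mean_poisson hd) h0 (by linarith) hdl
  rcases le_total lam (45 / 100) with h' | h'
  · exact pois_A (by linarith) (by linarith) hd hdl
  rcases le_total lam (6 / 10) with h'' | h''
  · exact pois_A2 (by linarith) (by linarith) hd hdl
  rcases le_total lam (8 / 10) with h3 | h3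
  · exact pois_B (by linarith) (by linarith) hd hdl
  rcases le_total lam (9 / 10) with h4 | h4
  · exact pois_C (by linarith) (by linarith) hd hdl
  · exact pois_lim1 (by linarith) h1 hd hdl

/-- Poisson trees, `-0.38 ≤ lam ≤ 0`. -/
theorem pois_neg38 {lam d : ℝ} (h0 : -(19 / 50) ≤ lam) (h1 : lam ≤ 0) (hd : 0 ≤ d)
    (hdl : d * lam ^ 2 ≤ 1) : Nonreconstruction 3 lam (poisson d) := by
  rcases le_total (-(781 / 5000)) lam with h | h
  · exact nonrec_GW_neg (isOff_poisson hd) (mean_poisson hd) h h1 hdl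
  rcases le_total (-(5 / 32)) lam with h' | h'
  · exact pois_S0 (by linarith) (by linarith) hd hdl
  rcases le_total (-(1 / 4)) lam with h'' | h''
  · exact pois_S1 (by linarith) (by linarith) hd hdl
  rcases le_total (-(3 / 10)) lam with h3 | h3
  · exact pois_S2 (by linarith) (by linarith) hd hdl
  rcases le_total (-(1 / 3)) lam with h4 | h4
  · exact pois_S3 (by linarith) (by linarith) hd hdl
  · exact pois_S4 (by linarith) (by linarith) hd hdl

/-- Regular trees, `-1/3 ≤ lam ≤ 0`. -/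
theorem reg_neg33 {lam : ℝ} {d : ℕ} (h0 : -(1 / 3) ≤ lam) (h1 : lam ≤ 0)
    (hdl : (d : ℝ) * lam ^ 2 ≤ 1) : Nonreconstruction 3 lam (regular d) := by
  rcases le_total (-(781 / 5000)) lam with h | h
  · exact nonrec_GW_neg (isOff_regular d) (mean_regular d) h h1 hdl
  rcases le_total (-(5 / 32)) lam with h' | h'
  · exact reg_S0 (by linarith) (by linarith) hdl
  rcases le_total (-(1 / 4)) lam with h'' | h''
  · exact reg_S1 (by linarith) (by linarith) hdl
  rcases le_total (-(3 / 10)) lam with h3 | h3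
  · exact reg_S2 (by linarith) (by linarith) hdl
  · exact reg_S3 (by linarith) (by linarith) hdl

/-- Regular trees, all `lam ≥ 0`. -/
theorem reg_nonneg {lam : ℝ} {d : ℕ} (hd : 2 ≤ d) (h0 : 0 ≤ lam) (hdl : (d : ℝ) * lam ^ 2 ≤ 1) :
    Nonreconstruction 3 lam (regular d) := nonrec_all hd h0 hdl

/-- `k² ≤ d` and `d lam² ≤ 1` give `-1/k ≤ lam`. -/
theorem lam_ge_of {d lam k : ℝ} (hk : 0 < k) (hd : 1 ≤ d * k ^ 2) (h1 : d * lam ^ 2 ≤ 1) :
    -k ≤ lam := by
  by_contra h
  rw [not_le] at h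
  have hd0 : 0 < d := by
    by_contra hc
    rw [not_lt] at hc
    nlinarith [sq_nonneg k]
  have h2 : k ^ 2 < (-lam) ^ 2 := by
    apply pow_lt_pow_left₀ (by linarith) hk.le (by norm_num)
  have h3 : d * k ^ 2 < d * (-lam) ^ 2 := mul_lt_mul_of_pos_left h2 hd0
  rw [neg_sq] at h3
  linarith

end Vale.Agent.P154
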