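import Vale.Agent.P154.VNBr2a_10

/-! Generated certificates. -/

namespace Vale.Agent.P154

def NBr2a : RMi := ⟨250000000, [0, 2500000000, -604350000, 2500000000, 1128975000, -1224875000], [NBr2a_10], [0, 2500000000, 487025000, 2500000000, -2500000000, 2500000000], [NBr2a_11], 1, 100, 1, 4, -304050000, -3040500, -303860000, -75965000, 250⟩

theorem NBr2a_certR : NBr2a.Cert vNB :=
  ⟨by decide +kernel, ⟨NBr2a_10_pw, trivial⟩,
    ⟨NBr2a_11_pw, trivial⟩,
    ⟨88, .leaf, by decide +kernel⟩, ⟨88, .leaf, by decide +kernel⟩⟩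

end Vale.Agent.P154
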