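import Vale.Agent.P154.VNBr3a_10

/-! Generated certificates. -/

namespace Vale.Agent.P154

def NBr3a : RMi := ⟨500000000, [0, 5000000000, -723600000, 5000000000, -5000000000, 2647750000], [NBr3a_10, NBr3a_20], [0, 5000000000, -1526100000, 5000000000, -5000000000, 3573700000], [NBr3a_11, NBr3a_21], 1, 100, 1, 4, -24930000, -249300, -24840000, -6210000, 500⟩

theorem NBr3a_certR : NBr3a.Cert vNB :=
  ⟨by decide +kernel, ⟨NBr3a_10_pw, NBr3a_20_pw, trivial⟩,
    ⟨NBr3a_11_pw, NBr3a_21_pw, trivial⟩,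
    ⟨88, .leaf, by decide +kernel⟩, ⟨104, (.st 1 (.st 0 (.leaf) (.leaf)) (.leaf)), by decide +kernel⟩⟩

end Vale.Agent.P154
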