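import Vale.Agent.P154.VNBlo
import Vale.Agent.P154.VNBr3a

/-! Generated certificates. -/

namespace Vale.Agent.P154

def lNB_3 : List Brk := [.lo NBlo, .rmi NBr3a]

theorem reg_NB_3 {lam : ℝ} (h1 : (-5 : ℝ) ≤ 10 * lam) (h2 : 10 * lam ≤ -4)
    (hdl : ((3 : ℕ) : ℝ) * lam ^ 2 ≤ 1) : Nonreconstruction 3 lam (regular 3) :=
  regular_of_list (v := vNB) (l := lNB_3) (by decide +kernel) (e := 3) (by decide +kernel)
    ⟨NBlo_certR, NBr3a_certR, trivial⟩ (by norm_num [vNB]; exact h1)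
    (by norm_num [vNB]; exact h2) (Or.inr rfl) hdl

end Vale.Agent.P154
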