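import Vale.Agent.P154.VNDr5a_10
import Vale.Agent.P154.VNDr5a_40
import Vale.Agent.P154.VNDr5a_21

/-! Generated certificates. -/

namespace Vale.Agent.P154

def NDr5a : RMi := ⟨1009000000000, [0, 3513842500000, -155386000000, 4176755500000, 742018600000, -1165798600000], [NDr5a_10, NDr5a_20, NDr5a_30, NDr5a_40], [0, 3791115700000, -1347822200000, 5455663000000, -714775600000, 10090000000000], [NDr5a_11, NDr5a_21, NDr5a_31, NDr5a_41], 1, 100, 2, 25, -2694030000, -26940300, -2683940000, -214715200, 1009000⟩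

theorem NDr5a_certR : NDr5a.Cert vND :=
  ⟨by decide +kernel, ⟨NDr5a_10_pw, NDr5a_20_pw, NDr5a_30_pw, NDr5a_40_pw, trivial⟩,
    ⟨NDr5a_11_pw, NDr5a_21_pw, NDr5a_31_pw, NDr5a_41_pw, trivial⟩,
    ⟨176, .leaf, by decide +kernel⟩, ⟨184, .leaf, by decide +kernel⟩⟩

end Vale.Agent.P154
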