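import Vale.Agent.P154.VNDr5b_10
import Vale.Agent.P154.VNDr5b_11
import Vale.Agent.P154.VNDr5b_41

/-! Generated certificates. -/

namespace Vale.Agent.P154

def NDr5b : RMi := ⟨10090000000000, [0, 40162236000000, -9285827000000, 57124535000000, -54449676000000, 43781519000000], [NDr5b_10, NDr5b_20, NDr5b_30, NDr5b_40], [0, 28759527000000, -20047821000000, 100900000000000, -84733802000000, 100900000000000], [NDr5b_11, NDr5b_21, NDr5b_31, NDr5b_41], 2, 25, 201, 1000, -249828400000, -19986272000, -249727500000, -50195227500, 10090000⟩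

theorem NDr5b_certR : NDr5b.Cert vND :=
  ⟨by decide +kernel, ⟨NDr5b_10_pw, NDr5b_20_pw, NDr5b_30_pw, NDr5b_40_pw, trivial⟩,
    ⟨NDr5b_11_pw, NDr5b_21_pw, NDr5b_31_pw, NDr5b_41_pw, trivial⟩,
    ⟨184, .leaf, by decide +kernel⟩, ⟨184, .leaf, by decide +kernel⟩⟩

end Vale.Agent.P154
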