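import Vale.Agent.P154.VNDlo
import Vale.Agent.P154.VNDr5a
import Vale.Agent.P154.VNDr5b

/-! Generated certificates. -/

namespace Vale.Agent.P154

def lND_5 : List Brk := [.lo NDlo, .rmi NDr5a, .rmi NDr5b]

theorem reg_ND_5 {lam : ℝ} (h1 : (-4473 : ℝ) ≤ 10000 * lam) (h2 : 10000 * lam ≤ -4300)
    (hdl : ((5 : ℕ) : ℝ) * lam ^ 2 ≤ 1) : Nonreconstruction 3 lam (regular 5) :=
  regular_of_list (v := vND) (l := lND_5) (by decide +kernel) (e := 5) (by decide +kernel)
    ⟨NDlo_certR, NDr5a_certR, NDr5b_certR, trivial⟩ (by norm_num [vND]; exact h1)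
    (by norm_num [vND]; exact h2) (Or.inr rfl) hdl

end Vale.Agent.P154
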