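import Vale.Agent.P154.VNGr8a_10
import Vale.Agent.P154.VNGr8a_41

/-! Generated certificates. -/

namespace Vale.Agent.P154

def NGr8a : RMi := ⟨5045000000000, [0, 36064182500000, -2904911000000, 20684500000000, 36828500000, 33327774500000], [NGr8a_10, NGr8a_20, NGr8a_30, NGr8a_40, NGr8a_50, NGr8a_60, NGr8a_70], [0, 41215632000000, -30031876000000, 50450000000000, -50450000000000, 50450000000000], [NGr8a_11, NGr8a_21, NGr8a_31, NGr8a_41, NGr8a_51, NGr8a_61, NGr8a_71], 1, 100, 63, 500, -121130450000, -1211304500, -120827750000, -15224296500, 5045000⟩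

theorem NGr8a_certR : NGr8a.Cert vNG :=
  ⟨by decide +kernel, ⟨NGr8a_10_pw, NGr8a_20_pw, NGr8a_30_pw, NGr8a_40_pw, NGr8a_50_pw, NGr8a_60_pw, NGr8a_70_pw, trivial⟩,
    ⟨NGr8a_11_pw, NGr8a_21_pw, NGr8a_31_pw, NGr8a_41_pw, NGr8a_51_pw, NGr8a_61_pw, NGr8a_71_pw, trivial⟩,
    ⟨160, .leaf, by decide +kernel⟩, ⟨176, (.st 1 (.st 0 (.leaf) (.leaf)) (.leaf)), by decide +kernel⟩⟩

end Vale.Agent.P154
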