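import Vale.Agent.P154.VNGlo
import Vale.Agent.P154.VNGr8a

/-! Generated certificates. -/

namespace Vale.Agent.P154

def lNG_8 : List Brk := [.lo NGlo, .rmi NGr8a]

theorem reg_NG_8 {lam : ℝ} (h1 : (-663 : ℝ) ≤ 1875 * lam) (h2 : 1875 * lam ≤ -625)
    (hdl : ((8 : ℕ) : ℝ) * lam ^ 2 ≤ 1) : Nonreconstruction 3 lam (regular 8) :=
  regular_of_list (v := vNG) (l := lNG_8) (by decide +kernel) (e := 8) (by decide +kernel)
    ⟨NGlo_certR, NGr8a_certR, trivial⟩ (by norm_num [vNG]; exact h1)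
    (by norm_num [vNG]; exact h2) (Or.inr rfl) hdl

end Vale.Agent.P154
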