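import Vale.Agent.P154.VNIr7a_10
import Vale.Agent.P154.VNIr7a_61

/-! Generated certificates. -/

namespace Vale.Agent.P154

def NIr7a : RMi := ⟨10090000000000, [0, 66316525000000, -4509221000000, 33047777000000, -8525041000000, 32709762000000], [NIr7a_10, NIr7a_20, NIr7a_30, NIr7a_40, NIr7a_50, NIr7a_60], [0, 75933304000000, -22663149000000, 73804314000000, -90248996000000, 63030212000000], [NIr7a_11, NIr7a_21, NIr7a_31, NIr7a_41, NIr7a_51, NIr7a_61], 1, 100, 57, 1000, -200387400000, -2003874000, -199782000000, -11387574000, 10090000⟩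

theorem NIr7a_certR : NIr7a.Cert vNI :=
  ⟨by decide +kernel, ⟨NIr7a_10_pw, NIr7a_20_pw, NIr7a_30_pw, NIr7a_40_pw, NIr7a_50_pw, NIr7a_60_pw, trivial⟩,
    ⟨NIr7a_11_pw, NIr7a_21_pw, NIr7a_31_pw, NIr7a_41_pw, NIr7a_51_pw, NIr7a_61_pw, trivial⟩,
    ⟨152, .leaf, by decide +kernel⟩, ⟨160, (.st 1 (.st 0 (.leaf) (.leaf)) (.leaf)), by decide +kernel⟩⟩

end Vale.Agent.P154
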