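import Vale.Agent.P154.VNIr7b_10

/-! Generated certificates. -/

namespace Vale.Agent.P154

def NIr7b : RMi := ⟨10090000000000, [0, 90459877000000, -25369287000000, 88652758000000, -63930240000000, 63610387000000], [NIr7b_10, NIr7b_20, NIr7b_30, NIr7b_40, NIr7b_50, NIr7b_60], [0, 33653177000000, -2866569000000, 100900000000000, -77055312000000, -20173946000000], [NIr7b_11, NIr7b_21, NIr7b_31, NIr7b_41, NIr7b_51, NIr7b_61], 57, 1000, 143, 1000, -1296262300000, -73886951100, -1295656900000, -185278936700, 10090000⟩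

theorem NIr7b_certR : NIr7b.Cert vNI :=
  ⟨by decide +kernel, ⟨NIr7b_10_pw, NIr7b_20_pw, NIr7b_30_pw, NIr7b_40_pw, NIr7b_50_pw, NIr7b_60_pw, trivial⟩,
    ⟨NIr7b_11_pw, NIr7b_21_pw, NIr7b_31_pw, NIr7b_41_pw, NIr7b_51_pw, NIr7b_61_pw, trivial⟩,
    ⟨152, .leaf, by decide +kernel⟩, ⟨152, .leaf, by decide +kernel⟩⟩

end Vale.Agent.P154
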