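import Vale.Agent.P154.VNIlo
import Vale.Agent.P154.VNIr7a
import Vale.Agent.P154.VNIr7b

/-! Generated certificates. -/

namespace Vale.Agent.P154

def lNI_7 : List Brk := [.lo NIlo, .rmi NIr7a, .rmi NIr7b]

theorem reg_NI_7 {lam : ℝ} (h1 : (-189 : ℝ) ≤ 500 * lam) (h2 : 500 * lam ≤ -180)
    (hdl : ((7 : ℕ) : ℝ) * lam ^ 2 ≤ 1) : Nonreconstruction 3 lam (regular 7) :=
  regular_of_list (v := vNI) (l := lNI_7) (by decide +kernel) (e := 7) (by decide +kernel)
    ⟨NIlo_certR, NIr7a_certR, NIr7b_certR, trivial⟩ (by norm_num [vNI]; exact h1)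
    (by norm_num [vNI]; exact h2) (Or.inr rfl) hdl

end Vale.Agent.P154
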