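import Vale.Agent.P154.VNLr6a_10
import Vale.Agent.P154.VNLr6a_31

/-! Generated certificates. -/

namespace Vale.Agent.P154

def NLr6a : RMi := ⟨10090000000000, [0, 51450928000000, -2857488000000, 27636510000000, -17456709000000, 6286070000000], [NLr6a_10, NLr6a_20, NLr6a_30, NLr6a_40, NLr6a_50], [0, 59871033000000, -17818940000000, 64296507000000, -63304660000000, 77174374000000], [NLr6a_11, NLr6a_21, NLr6a_31, NLr6a_41, NLr6a_51], 1, 100, 67, 1000, -110182800000, -1101828000, -109779200000, -7355206400, 10090000⟩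

theorem NLr6a_certR : NLr6a.Cert vNL :=
  ⟨by decide +kernel, ⟨NLr6a_10_pw, NLr6a_20_pw, NLr6a_30_pw, NLr6a_40_pw, NLr6a_50_pw, trivial⟩,
    ⟨NLr6a_11_pw, NLr6a_21_pw, NLr6a_31_pw, NLr6a_41_pw, NLr6a_51_pw, trivial⟩,
    ⟨184, .leaf, by decide +kernel⟩, ⟨200, (.st 1 (.st 0 (.leaf) (.leaf)) (.leaf)), by decide +kernel⟩⟩

end Vale.Agent.P154
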