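import Vale.Agent.P154.VNLr6b_10

/-! Generated certificates. -/

namespace Vale.Agent.P154

def NLr6b : RMi := ⟨10090000000000, [0, 72072870000000, -21288891000000, 87938386000000, -28726230000000, 100900000000000], [NLr6b_10, NLr6b_20, NLr6b_30, NLr6b_40, NLr6b_50], [0, 28008831000000, -27617339000000, 86580272000000, -98300816000000, 56509045000000], [NLr6b_11, NLr6b_21, NLr6b_31, NLr6b_41, NLr6b_51], 67, 1000, 167, 1000, -786818200000, -52716819400, -786414600000, -131331238200, 10090000⟩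

theorem NLr6b_certR : NLr6b.Cert vNL :=
  ⟨by decide +kernel, ⟨NLr6b_10_pw, NLr6b_20_pw, NLr6b_30_pw, NLr6b_40_pw, NLr6b_50_pw, trivial⟩,
    ⟨NLr6b_11_pw, NLr6b_21_pw, NLr6b_31_pw, NLr6b_41_pw, NLr6b_51_pw, trivial⟩,
    ⟨184, .leaf, by decide +kernel⟩, ⟨184, .leaf, by decide +kernel⟩⟩

end Vale.Agent.P154
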