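import Vale.Agent.P154.VNLlo
import Vale.Agent.P154.VNLr6a
import Vale.Agent.P154.VNLr6b

/-! Generated certificates. -/

namespace Vale.Agent.P154

def lNL_6 : List Brk := [.lo NLlo, .rmi NLr6a, .rmi NLr6b]

theorem reg_NL_6 {lam : ℝ} (h1 : (-4083 : ℝ) ≤ 10000 * lam) (h2 : 10000 * lam ≤ -3900)
    (hdl : ((6 : ℕ) : ℝ) * lam ^ 2 ≤ 1) : Nonreconstruction 3 lam (regular 6) :=
  regular_of_list (v := vNL) (l := lNL_6) (by decide +kernel) (e := 6) (by decide +kernel)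
    ⟨NLlo_certR, NLr6a_certR, NLr6b_certR, trivial⟩ (by norm_num [vNL]; exact h1)
    (by norm_num [vNL]; exact h2) (Or.inr rfl) hdl

end Vale.Agent.P154
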