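import Vale.Agent.P154.Final4
import Vale.Agent.P154.DEFin
import Vale.Agent.P154.VXNB_2
import Vale.Agent.P154.VXNB_3
import Vale.Agent.P154.VXND_5
import Vale.Agent.P154.VXNL_6
import Vale.Agent.P154.VXNI_7
import Vale.Agent.P154.VXNG_8

/-!
Regular trees, `q = 3`: nonreconstruction for all `d lam² ≤ 1`.
-/

namespace Vale.Agent.P154

theorem nonrec_neg_of {off : ℕ → ℝ} (hoff : IsOff off) {l lam : ℝ} (hl : 0 < l) (hl2 : l ≤ 1 / 2)
    (h : Nonreconstruction 3 (-l) off) (h0 : -l ≤ lam) (h1 : lam ≤ 0) :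
    Nonreconstruction 3 lam off :=
  nonrec_mono (lam' := -l) (t := lam / (-l)) (by linarith) (by linarith)
    (div_nonneg_of_nonpos h1 (by linarith))
    ((div_le_one_of_neg (by linarith)).2 h0) (by field_simp) hoff h

/-- reduction to the critical line -/
theorem reg_crit {d : ℕ} (hd : 4 ≤ d)
    (h : ∀ l : ℝ, (d : ℝ) * l ^ 2 = 1 → 0 < l → Nonreconstruction 3 (-l) (regular d))
    {lam : ℝ} (h1 : lam ≤ 0) (hdl : (d : ℝ) * lam ^ 2 ≤ 1) :
    Nonreconstruction 3 lam (regular d) := by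
  have hd' : (4 : ℝ) ≤ d := by exact_mod_cast hd
  have hd0 : (0 : ℝ) < d := by linarith
  set l := Real.sqrt (1 / d) with hl
  have e : l ^ 2 = 1 / d := Real.sq_sqrt (by positivity)
  have hl0 : 0 < l := Real.sqrt_pos.2 (by positivity)
  have e1 : (d : ℝ) * l ^ 2 = 1 := by rw [e]; field_simp
  refine nonrec_neg_of (isOff_regular d) hl0 ?_ (h l e1 hl0) ?_ h1
  · rw [hl, Real.sqrt_le_left (by norm_num)]
    rw [div_le_iff₀ hd0]
    nlinarith
  · have h2 : lam ^ 2 ≤ 1 / d := by
      rw [le_div_iff₀ hd0]; linarith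
    have h3 := Real.abs_le_sqrt h2
    exact (abs_le.1 h3).1

theorem lt_of_sq {a l : ℝ} (hl : 0 < l) (h : a ^ 2 ≤ l ^ 2) : a ≤ l := by
  nlinarith [sq_nonneg (a - l)]

/-- Regular trees, `q = 3`, `lam ≤ 0`. -/
theorem reg_neg_all {lam : ℝ} {d : ℕ} (hd : 2 ≤ d) (h0 : -(1 / 2) ≤ lam) (h1 : lam ≤ 0)
    (hdl : (d : ℝ) * lam ^ 2 ≤ 1) : Nonreconstruction 3 lam (regular d) := by
  rcases le_or_gt 9 d with h9 | h9
  · have hd' : (9 : ℝ) ≤ d := by exact_mod_cast h9
    exact reg_neg33 (lam_ge_of (by norm_num) (by linarith) hdl) h1 hdl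
  · interval_cases d
    · exact nonrec_neg_of (isOff_regular 2) (l := 1 / 2) (by norm_num) le_rfl
        (reg_NB_2 (by norm_num) (by norm_num) (by norm_num)) h0 h1
    · exact nonrec_neg_of (isOff_regular 3) (l := 1 / 2) (by norm_num) le_rfl
        (reg_NB_3 (by norm_num) (by norm_num) (by norm_num)) h0 h1
    · exact reg4_nonpos h0 h1
    · refine reg_crit (by norm_num) (fun l hl hp => ?_) h1 hdl
      push_cast at hl
      have a1 : l ≤ 4473 / 10000 := lt_of_sq (by norm_num) (by nlinarith)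
      have a2 : 43 / 100 ≤ l := lt_of_sq hp (by nlinarith)
      exact reg_ND_5 (by linarith) (by linarith) (by push_cast; nlinarith)
    · refine reg_crit (by norm_num) (fun l hl hp => ?_) h1 hdl
      push_cast at hl
      have a1 : l ≤ 4083 / 10000 := lt_of_sq (by norm_num) (by nlinarith)
      have a2 : 39 / 100 ≤ l := lt_of_sq hp (by nlinarith)
      exact reg_NL_6 (by linarith) (by linarith) (by push_cast; nlinarith)
    · refine reg_crit (by norm_num) (fun l hl hp => ?_) h1 hdl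
      push_cast at hl
      have a1 : l ≤ 378 / 1000 := lt_of_sq (by norm_num) (by nlinarith)
      have a2 : 36 / 100 ≤ l := lt_of_sq hp (by nlinarith)
      exact reg_NI_7 (by linarith) (by linarith) (by push_cast; nlinarith)
    · refine reg_crit (by norm_num) (fun l hl hp => ?_) h1 hdl
      push_cast at hl
      have a1 : l ≤ 3536 / 10000 := lt_of_sq (by norm_num) (by nlinarith)
      have a2 : 1 / 3 ≤ l := lt_of_sq hp (by nlinarith)
      exact reg_NG_8 (by linarith) (by linarith) (by push_cast; nlinarith)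

/-- Regular trees, `q = 3`: all `lam`. -/
theorem reg_three {lam : ℝ} {d : ℕ} (hd : 2 ≤ d) (h0 : -(1 / 2) ≤ lam)
    (hdl : (d : ℝ) * lam ^ 2 ≤ 1) : Nonreconstruction 3 lam (regular d) := by
  rcases le_total 0 lam with hp | hp
  · exact reg_nonneg hd hp hdl
  · exact reg_neg_all hd h0 hp hdl

end Vale.Agent.P154
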