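import Vale.Agent.P154.VS5pa_000

/-! Generated certificates. -/

namespace Vale.Agent.P154

def S5pa_q00 : Piece := ⟨S5pa_000, S5pa_010, [0, 130362800000, 495015400000, -1784315600000, 2629252200000, -1175888600000], 7063⟩

theorem S5pa_q00_cert : S5pa_q00.Cert vS5 :=
  ⟨S5pa_000_pw, S5pa_010_pw, S5pa_000_w, S5pa_010_w⟩

def S5pa_q10 : Piece := ⟨S5pa_100, S5pa_110, [0, -30270000000, 604189200000, -656253600000, 539209600000, -425596200000], 14126⟩

theorem S5pa_q10_cert : S5pa_q10.Cert vS5 :=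
  ⟨S5pa_100_pw, S5pa_110_pw, S5pa_100_w, S5pa_110_w⟩

def S5pa_q01 : Piece := ⟨S5pa_001, S5pa_011, [0, 435888000000, 2477095000000, -6397060000000, 9920286200000, -5238324400000], 7063⟩

theorem S5pa_q01_cert : S5pa_q01.Cert vS5 :=
  ⟨S5pa_001_pw, S5pa_011_pw, S5pa_001_w, S5pa_011_w⟩

def S5pa_q11 : Piece := ⟨S5pa_101, S5pa_111, [0, -210477400000, 2180650800000, -3023569400000, 4875084400000, -2703111000000], 14126⟩

theorem S5pa_q11_cert : S5pa_q11.Cert vS5 :=
  ⟨S5pa_101_pw, S5pa_111_pw, S5pa_101_w, S5pa_111_w⟩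

def S5pa : PMi := ⟨7063000000000, 2018, [0, 33958904000000, 885700200000, 5178591600000, -1527726900000, 1714190100000], [S5pa_q00, S5pa_q10], [0, 41632147200000, 3722907300000, 7830748100000, 110182800000, 2698066000000], [S5pa_q01, S5pa_q11], 1, 100, 1, 20, -63920150000, -639201500, -63708260000, -3185413000, 7063000⟩

theorem S5pa_certP : S5pa.Cert vS5 :=
  ⟨by decide +kernel, ⟨S5pa_q00_cert, S5pa_q10_cert, trivial⟩, ⟨S5pa_q01_cert, S5pa_q11_cert, trivial⟩,
    ⟨152, .leaf, by decide +kernel⟩, ⟨168, (.st 1 (.st 0 (.leaf) (.leaf)) (.leaf)), by decide +kernel⟩⟩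

end Vale.Agent.P154
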