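import Vale.Agent.P154.VS5pb_000
import Vale.Agent.P154.VS5pb_111

/-! Generated certificates. -/

namespace Vale.Agent.P154

def S5pb_q00 : Piece := ⟨S5pb_000, S5pb_010, [0, 1086894800000, 2653266400000, -8106104200000, 11886827200000, -5420549800000], 7063⟩

theorem S5pb_q00_cert : S5pb_q00.Cert vS5 :=
  ⟨S5pb_000_pw, S5pb_010_pw, S5pb_000_w, S5pb_010_w⟩

def S5pb_q10 : Piece := ⟨S5pb_100, S5pb_110, [0, 345279800000, 1110101800000, -1285667800000, 2391330000000, -1549218600000], 14126⟩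

theorem S5pb_q10_cert : S5pb_q10.Cert vS5 :=
  ⟨S5pb_100_pw, S5pb_110_pw, S5pb_100_w, S5pb_110_w⟩

def S5pb_q01 : Piece := ⟨S5pb_001, S5pb_011, [0, 1806715400000, 8165029800000, -14957012400000, 20440725600000, -8564190200000], 7063⟩

theorem S5pb_q01_cert : S5pb_q01.Cert vS5 :=
  ⟨S5pb_001_pw, S5pb_011_pw, S5pb_001_w, S5pb_011_w⟩

def S5pb_q11 : Piece := ⟨S5pb_101, S5pb_111, [0, 182427200000, 3823706400000, -1423699000000, 0, -5841101000000], 14126⟩

theorem S5pb_q11_cert : S5pb_q11.Cert vS5 :=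
  ⟨S5pb_101_pw, S5pb_111_pw, S5pb_101_w, S5pb_111_w⟩

def S5pb : PMi := ⟨7063000000000, 2018, [0, 43767998400000, 2760926700000, 5619322800000, 2873228400000, 1808128000000], [S5pb_q00, S5pb_q10], [0, 41880764800000, 9915039400000, 13297510100000, 912539600000, 3090768800000], [S5pb_q01, S5pb_q11], 1, 20, 4, 25, -228346790000, -11417339500, -228205530000, -36512884800, 7063000⟩

theorem S5pb_certP : S5pb.Cert vS5 :=
  ⟨by decide +kernel, ⟨S5pb_q00_cert, S5pb_q10_cert, trivial⟩, ⟨S5pb_q01_cert, S5pb_q11_cert, trivial⟩,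
    ⟨152, .leaf, by decide +kernel⟩, ⟨160, .leaf, by decide +kernel⟩⟩

end Vale.Agent.P154
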