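import Vale.Agent.P154.VS5lo
import Vale.Agent.P154.VS5pa
import Vale.Agent.P154.VS5pb

/-! Generated certificates. -/

namespace Vale.Agent.P154

def lS5 : List Brk := [.lo S5lo, .pmi S5pa, .pmi S5pb]

theorem pois_S5 {lam d : ℝ} (h1 : (-20 : ℝ) ≤ 50 * lam) (h2 : 50 * lam ≤ -19)
    (hd : 0 ≤ d) (hdl : d * lam ^ 2 ≤ 1) : Nonreconstruction 3 lam (poisson d) :=
  poisson_of_list (v := vS5) (l := lS5) (by decide +kernel) (by decide +kernel)
    ⟨S5lo_certP, S5pa_certP, S5pb_certP, trivial⟩ (by norm_num [vS5]; exact h1)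
    (by norm_num [vS5]; exact h2) hd hdl

end Vale.Agent.P154
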