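import Vale.Agent.P154.VS6pa_000

/-! Generated certificates. -/

namespace Vale.Agent.P154

def S6pa_q00 : Piece := ⟨S6pa_000, S6pa_010, [0, 157807600000, 922226000000, -2508374000000, 3535536000000, -1581304800000], 13117⟩

theorem S6pa_q00_cert : S6pa_q00.Cert vS6 :=
  ⟨S6pa_000_pw, S6pa_010_pw, S6pa_000_w, S6pa_010_w⟩

def S6pa_q10 : Piece := ⟨S6pa_100, S6pa_110, [0, -16144000000, 1005771200000, -1283044400000, 1488880400000, -1450538400000], 26234⟩

theorem S6pa_q10_cert : S6pa_q10.Cert vS6 :=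
  ⟨S6pa_100_pw, S6pa_110_pw, S6pa_100_w, S6pa_110_w⟩

def S6pa_q01 : Piece := ⟨S6pa_001, S6pa_011, [0, 701860400000, 4380270800000, -11641842000000, 17652253200000, -8593854800000], 13117⟩

theorem S6pa_q01_cert : S6pa_q01.Cert vS6 :=
  ⟨S6pa_001_pw, S6pa_011_pw, S6pa_001_w, S6pa_011_w⟩

def S6pa_q11 : Piece := ⟨S6pa_101, S6pa_111, [0, -332970000000, 3715138000000, -5392903200000, 8924403200000, -4919076800000], 26234⟩

theorem S6pa_q11_cert : S6pa_q11.Cert vS6 :=
  ⟨S6pa_101_pw, S6pa_111_pw, S6pa_101_w, S6pa_111_w⟩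

def S6pa : PMi := ⟨13117000000000, 4036, [0, 57659708600000, 1520260300000, 9866607400000, -4311557900000, 2741453000000], [S6pa_q00, S6pa_q10], [0, 71811639900000, 5726882200000, 12162082400000, 3317289300000, 3836722500000], [S6pa_q01, S6pa_q11], 1, 100, 1, 20, -70962970000, -709629700, -14166360000, -708318000, 13117000⟩

theorem S6pa_certP : S6pa.Cert vS6 :=
  ⟨by decide +kernel, ⟨S6pa_q00_cert, S6pa_q10_cert, trivial⟩, ⟨S6pa_q01_cert, S6pa_q11_cert, trivial⟩,
    ⟨160, .leaf, by decide +kernel⟩, ⟨160, .leaf, by decide +kernel⟩⟩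

end Vale.Agent.P154
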