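import Vale.Agent.P154.VS6pc_000
import Vale.Agent.P154.VS6pc_211

/-! Generated certificates. -/

namespace Vale.Agent.P154

def S6pc_q00 : Piece := ⟨S6pc_000, S6pc_010, [0, 200059475000000, 982122762500000, -3373263575000000, 5531047912500000, -2571083350000000], 21189⟩

theorem S6pc_q00_cert : S6pc_q00.Cert vS6 :=
  ⟨S6pc_000_pw, S6pc_010_pw, S6pc_000_w, S6pc_010_w⟩

def S6pc_q10 : Piece := ⟨S6pc_100, S6pc_110, [0, 239700562500000, 750090600000000, -1366293206250000, 1701079406250000, -577400250000000], 43387⟩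

theorem S6pc_q10_cert : S6pc_q10.Cert vS6 :=
  ⟨S6pc_100_pw, S6pc_110_pw, S6pc_100_w, S6pc_110_w⟩

def S6pc_q20 : Piece := ⟨S6pc_200, S6pc_210, [0, -50191443750000, 614745862500000, 1324312500000, 237846525000000, -94291050000000], 65585⟩

theorem S6pc_q20_cert : S6pc_q20.Cert vS6 :=
  ⟨S6pc_200_pw, S6pc_210_pw, S6pc_200_w, S6pc_210_w⟩

def S6pc_q01 : Piece := ⟨S6pc_001, S6pc_011, [0, -73114662500000, 4282410412500000, -6396908650000000, 7840472337500000, -2767396912500000], 21189⟩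

theorem S6pc_q01_cert : S6pc_q01.Cert vS6 :=
  ⟨S6pc_001_pw, S6pc_011_pw, S6pc_001_w, S6pc_011_w⟩

def S6pc_q11 : Piece := ⟨S6pc_101, S6pc_111, [0, 732742106250000, 2462426662500000, -4341890962500000, 5767116075000000, -3667551037500000], 43387⟩

theorem S6pc_q11_cert : S6pc_q11.Cert vS6 :=
  ⟨S6pc_101_pw, S6pc_111_pw, S6pc_101_w, S6pc_111_w⟩

def S6pc_q21 : Piece := ⟨S6pc_201, S6pc_211, [0, -217187250000000, 1796429906250000, -13375556250000, 0, -4699852631250000], 65585⟩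

theorem S6pc_q21_cert : S6pc_q21.Cert vS6 :=
  ⟨S6pc_201_pw, S6pc_211_pw, S6pc_201_w, S6pc_211_w⟩

def S6pc : PMi := ⟨2913487500000000, 10090, [0, 16360106358750000, 1087896232500000, 2843855148750000, 684086865000000, 873754901250000], [S6pc_q00, S6pc_q10, S6pc_q20], [0, 19160550543750000, 4406358495000000, 6119780493750000, 17772273750000, 1231531166250000], [S6pc_q01, S6pc_q11, S6pc_q21], 1, 20, 441, 2500, -92095339875000, -4604766993750, -92037070125000, -16235339170050, 2913487500⟩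

theorem S6pc_certP : S6pc.Cert vS6 :=
  ⟨by decide +kernel, ⟨S6pc_q00_cert, S6pc_q10_cert, S6pc_q20_cert, trivial⟩, ⟨S6pc_q01_cert, S6pc_q11_cert, S6pc_q21_cert, trivial⟩,
    ⟨168, .leaf, by decide +kernel⟩, ⟨168, .leaf, by decide +kernel⟩⟩

end Vale.Agent.P154
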