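import Vale.Agent.P154.Final5
import Vale.Agent.P154.VXS5
import Vale.Agent.P154.VXS6

/-!
Poisson trees, `-0.42 ≤ lam ≤ 0`.
-/

namespace Vale.Agent.P154

/-- Poisson trees, `-0.42 ≤ lam ≤ 0`. -/
theorem pois_neg42 {lam d : ℝ} (h0 : -(21 / 50) ≤ lam) (h1 : lam ≤ 0) (hd : 0 ≤ d)
    (hdl : d * lam ^ 2 ≤ 1) : Nonreconstruction 3 lam (poisson d) := by
  rcases le_total (-(19 / 50)) lam with h | h
  · exact pois_neg38 h h1 hd hdl
  rcases le_total (-(20 / 50)) lam with h' | h'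
  · exact pois_S5 (by linarith) (by linarith) hd hdl
  · exact pois_S6 (by linarith) (by linarith) hd hdl

end Vale.Agent.P154
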