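import Vale.Agent.P154.VS7pa_000
import Vale.Agent.P154.VS7pa_010
import Vale.Agent.P154.VS7pa_100
import Vale.Agent.P154.VS7pa_001
import Vale.Agent.P154.VS7pa_011
import Vale.Agent.P154.VS7pa_101
import Vale.Agent.P154.VS7pa_201

/-! Generated certificates. -/

namespace Vale.Agent.P154

def S7pa_q00 : Piece := ⟨S7pa_000, S7pa_010, [0, 387657800000, 968286850000, -5559287300000, 9062787550000, -4124438850000], 20180⟩

theorem S7pa_q00_cert : S7pa_q00.Cert vS7 :=
  ⟨S7pa_000_pw, S7pa_010_pw, S7pa_000_w, S7pa_010_w⟩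

def S7pa_q10 : Piece := ⟨S7pa_100, S7pa_110, [0, -49743700000, 1481161550000, -3337973800000, 4918622750000, -2354249250000], 40360⟩

theorem S7pa_q10_cert : S7pa_q10.Cert vS7 :=
  ⟨S7pa_100_pw, S7pa_110_pw, S7pa_100_w, S7pa_110_w⟩

def S7pa_q20 : Piece := ⟨S7pa_200, S7pa_210, [0, -330952000000, 1772813000000, -1085684000000, -207854000000, -821326000000], 57513⟩

theorem S7pa_q20_cert : S7pa_q20.Cert vS7 :=
  ⟨S7pa_200_pw, S7pa_210_pw, S7pa_200_w, S7pa_210_w⟩

def S7pa_q01 : Piece := ⟨S7pa_001, S7pa_011, [0, 210981900000, 5912639100000, -14800466050000, 21759438150000, -9306360150000], 20180⟩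

theorem S7pa_q01_cert : S7pa_q01.Cert vS7 :=
  ⟨S7pa_001_pw, S7pa_011_pw, S7pa_001_w, S7pa_011_w⟩

def S7pa_q11 : Piece := ⟨S7pa_101, S7pa_111, [0, -334483500000, 5095298650000, -8242016500000, 12827013400000, -5886909600000], 40360⟩

theorem S7pa_q11_cert : S7pa_q11.Cert vS7 :=
  ⟨S7pa_101_pw, S7pa_111_pw, S7pa_101_w, S7pa_111_w⟩

def S7pa_q21 : Piece := ⟨S7pa_201, S7pa_211, [0, -1096783000000, 4582878000000, -6973199000000, 12541870000000, -10623761000000], 57513⟩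

theorem S7pa_q21_cert : S7pa_q21.Cert vS7 :=
  ⟨S7pa_201_pw, S7pa_211_pw, S7pa_201_w, S7pa_211_w⟩

def S7pa : PMi := ⟨17153000000000, 10090, [0, 79159379700000, 1974310300000, 13976264400000, -4516384900000, 5012106600000], [S7pa_q00, S7pa_q10, S7pa_q20], [0, 84756403600000, 5928076800000, 17218181400000, 2862835700000, 5660490000000], [S7pa_q01, S7pa_q11, S7pa_q21], 1, 100, 1, 20, -83020520000, -830205200, -82677460000, -4133873000, 17153000⟩

theorem S7pa_certP : S7pa.Cert vS7 :=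
  ⟨by decide +kernel, ⟨S7pa_q00_cert, S7pa_q10_cert, S7pa_q20_cert, trivial⟩, ⟨S7pa_q01_cert, S7pa_q11_cert, S7pa_q21_cert, trivial⟩,
    ⟨176, .leaf, by decide +kernel⟩, ⟨200, (.st 1 (.st 0 (.st 2 (.leaf) (.leaf)) (.leaf)) (.st 0 (.leaf) (.leaf))), by decide +kernel⟩⟩

end Vale.Agent.P154
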