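import Vale.Agent.P154.VS7pc_000
import Vale.Agent.P154.VS7pc_100
import Vale.Agent.P154.VS7pc_200
import Vale.Agent.P154.VS7pc_300
import Vale.Agent.P154.VS7pc_011
import Vale.Agent.P154.VS7pc_101
import Vale.Agent.P154.VS7pc_111
import Vale.Agent.P154.VS7pc_211
import Vale.Agent.P154.VS7pc_311

/-! Generated certificates. -/

namespace Vale.Agent.P154

def S7pc_q00 : Piece := ⟨S7pc_000, S7pc_010, [0, 32045840000000, 418613920000000, -1392016400000000, 2358234800000000, -1125317520000000], 15135⟩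

theorem S7pc_q00_cert : S7pc_q00.Cert vS7 :=
  ⟨S7pc_000_pw, S7pc_010_pw, S7pc_000_w, S7pc_010_w⟩

def S7pc_q10 : Piece := ⟨S7pc_100, S7pc_110, [0, 64979600000000, 403519280000000, -677079360000000, 708963760000000, -201880720000000], 30270⟩

theorem S7pc_q10_cert : S7pc_q10.Cert vS7 :=
  ⟨S7pc_100_pw, S7pc_110_pw, S7pc_100_w, S7pc_110_w⟩

def S7pc_q20 : Piece := ⟨S7pc_200, S7pc_210, [0, 97590480000000, 174597360000000, -371634880000000, 664567760000000, -280986320000000], 45405⟩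

theorem S7pc_q20_cert : S7pc_q20.Cert vS7 :=
  ⟨S7pc_200_pw, S7pc_210_pw, S7pc_200_w, S7pc_210_w⟩

def S7pc_q30 : Piece := ⟨S7pc_300, S7pc_310, [0, -117750300000000, 134297900000000, 329438500000000, 192416300000000, -298966700000000], 57513⟩

theorem S7pc_q30_cert : S7pc_q30.Cert vS7 :=
  ⟨S7pc_300_pw, S7pc_310_pw, S7pc_300_w, S7pc_310_w⟩

def S7pc_q01 : Piece := ⟨S7pc_001, S7pc_011, [0, -193728000000000, 1632804160000000, -2841021120000000, 4284617600000000, -1640634000000000], 15135⟩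

theorem S7pc_q01_cert : S7pc_q01.Cert vS7 :=
  ⟨S7pc_001_pw, S7pc_011_pw, S7pc_001_w, S7pc_011_w⟩

def S7pc_q11 : Piece := ⟨S7pc_101, S7pc_111, [0, 159987040000000, 1197884800000000, -2424021600000000, 3362230160000000, -1076239760000000], 30270⟩

theorem S7pc_q11_cert : S7pc_q11.Cert vS7 :=
  ⟨S7pc_101_pw, S7pc_111_pw, S7pc_101_w, S7pc_111_w⟩

def S7pc_q21 : Piece := ⟨S7pc_201, S7pc_211, [0, 207369680000000, 952576720000000, -996246240000000, 506760160000000, -1650320400000000], 45405⟩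

theorem S7pc_q21_cert : S7pc_q21.Cert vS7 :=
  ⟨S7pc_201_pw, S7pc_211_pw, S7pc_201_w, S7pc_211_w⟩

def S7pc_q31 : Piece := ⟨S7pc_301, S7pc_311, [0, 9787300000000, 872785000000000, -150542800000000, 0, -1585643500000000], 57513⟩

theorem S7pc_q31_cert : S7pc_q31.Cert vS7 :=
  ⟨S7pc_301_pw, S7pc_311_pw, S7pc_301_w, S7pc_311_w⟩

def S7pc : PMi := ⟨1210800000000000, 10090, [0, 6202565160000000, 408766080000000, 1236953280000000, 108972000000000, 420631920000000], [S7pc_q00, S7pc_q10, S7pc_q20, S7pc_q30], [0, 6303545880000000, 1634580000000000, 2535415200000000, 122411880000000, 576461880000000], [S7pc_q01, S7pc_q11, S7pc_q21, S7pc_q31], 1, 20, 7569, 40000, -26952408000000, -1347620400000, -26928192000000, -5095487131200, 1210800000⟩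

theorem S7pc_certP : S7pc.Cert vS7 :=
  ⟨by decide +kernel, ⟨S7pc_q00_cert, S7pc_q10_cert, S7pc_q20_cert, S7pc_q30_cert, trivial⟩, ⟨S7pc_q01_cert, S7pc_q11_cert, S7pc_q21_cert, S7pc_q31_cert, trivial⟩,
    ⟨184, .leaf, by decide +kernel⟩, ⟨184, .leaf, by decide +kernel⟩⟩

end Vale.Agent.P154
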