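import Vale.Agent.P154.VS7lo
import Vale.Agent.P154.VS7pa
import Vale.Agent.P154.VS7pc

/-! Generated certificates. -/

namespace Vale.Agent.P154

def lS7 : List Brk := [.lo S7lo, .pmi S7pa, .pmi S7pc]

theorem pois_S7 {lam d : ℝ} (h1 : (-87 : ℝ) ≤ 200 * lam) (h2 : 200 * lam ≤ -84)
    (hd : 0 ≤ d) (hdl : d * lam ^ 2 ≤ 1) : Nonreconstruction 3 lam (poisson d) :=
  poisson_of_list (v := vS7) (l := lS7) (by decide +kernel) (by decide +kernel)
    ⟨S7lo_certP, S7pa_certP, S7pc_certP, trivial⟩ (by norm_num [vS7]; exact h1)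
    (by norm_num [vS7]; exact h2) hd hdl

end Vale.Agent.P154
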