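import Vale.Agent.P154.VS8pa_000
import Vale.Agent.P154.VS8pa_010
import Vale.Agent.P154.VS8pa_100
import Vale.Agent.P154.VS8pa_001
import Vale.Agent.P154.VS8pa_011
import Vale.Agent.P154.VS8pa_101
import Vale.Agent.P154.VS8pa_201
import Vale.Agent.P154.VS8pa_211

/-! Generated certificates. -/

namespace Vale.Agent.P154

def S8pa_q00 : Piece := ⟨S8pa_000, S8pa_010, [0, 3679318500000, 8387817000000, -51870672000000, 85559164000000, -39340405500000], 18162⟩

theorem S8pa_q00_cert : S8pa_q00.Cert vS8 :=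
  ⟨S8pa_000_pw, S8pa_010_pw, S8pa_000_w, S8pa_010_w⟩

def S8pa_q10 : Piece := ⟨S8pa_100, S8pa_110, [0, -197259500000, 13233539500000, -32402017000000, 46750501500000, -21432673500000], 36324⟩

theorem S8pa_q10_cert : S8pa_q10.Cert vS8 :=
  ⟨S8pa_100_pw, S8pa_110_pw, S8pa_100_w, S8pa_110_w⟩

def S8pa_q20 : Piece := ⟨S8pa_200, S8pa_210, [0, -2606247000000, 15619320000000, -11587356000000, 4585905000000, -9180891000000], 53477⟩

theorem S8pa_q20_cert : S8pa_q20.Cert vS8 :=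
  ⟨S8pa_200_pw, S8pa_210_pw, S8pa_200_w, S8pa_210_w⟩

def S8pa_q01 : Piece := ⟨S8pa_001, S8pa_011, [0, 1440852000000, 51167399000000, -132566960500000, 196187437500000, -82668883500000], 18162⟩

theorem S8pa_q01_cert : S8pa_q01.Cert vS8 :=
  ⟨S8pa_001_pw, S8pa_011_pw, S8pa_001_w, S8pa_011_w⟩

def S8pa_q11 : Piece := ⟨S8pa_101, S8pa_111, [0, -2444302500000, 44083210000000, -72960285500000, 111202899000000, -49452099000000], 36324⟩

theorem S8pa_q11_cert : S8pa_q11.Cert vS8 :=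
  ⟨S8pa_101_pw, S8pa_111_pw, S8pa_101_w, S8pa_111_w⟩

def S8pa_q21 : Piece := ⟨S8pa_201, S8pa_211, [0, -8100252000000, 39275325000000, -63412623000000, 114048279000000, -72638919000000], 53477⟩

theorem S8pa_q21_cert : S8pa_q21.Cert vS8 :=
  ⟨S8pa_201_pw, S8pa_211_pw, S8pa_201_w, S8pa_211_w⟩

def S8pa : PMi := ⟨154377000000000, 10090, [0, 673979106600000, 17614415700000, 117141267600000, -44198135100000, 47764243800000], [S8pa_q00, S8pa_q10, S8pa_q20], [0, 700408449000000, 47100422700000, 138507044400000, 27170352000000, 52148550600000], [S8pa_q01, S8pa_q11, S8pa_q21], 1, 100, 1, 20, -492462630000, -4924626300, -375136110000, -18756805500, 154377000⟩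

theorem S8pa_certP : S8pa.Cert vS8 :=
  ⟨by decide +kernel, ⟨S8pa_q00_cert, S8pa_q10_cert, S8pa_q20_cert, trivial⟩, ⟨S8pa_q01_cert, S8pa_q11_cert, S8pa_q21_cert, trivial⟩,
    ⟨224, .leaf, by decide +kernel⟩, ⟨248, (.st 1 (.st 0 (.st 2 (.leaf) (.leaf)) (.leaf)) (.st 0 (.leaf) (.leaf))), by decide +kernel⟩⟩

end Vale.Agent.P154
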