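import Vale.Agent.P154.VS8pf_000
import Vale.Agent.P154.VS8pf_010
import Vale.Agent.P154.VS8pf_110
import Vale.Agent.P154.VS8pf_200
import Vale.Agent.P154.VS8pf_210
import Vale.Agent.P154.VS8pf_001
import Vale.Agent.P154.VS8pf_011
import Vale.Agent.P154.VS8pf_101
import Vale.Agent.P154.VS8pf_211
import Vale.Agent.P154.VS8pf_311

/-! Generated certificates. -/

namespace Vale.Agent.P154

def S8pf_q00 : Piece := ⟨S8pf_000, S8pf_010, [0, 10428015000, 824796960000, -2337449400000, 3620095245000, -1573843245000], 40360⟩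

theorem S8pf_q00_cert : S8pf_q00.Cert vS8 :=
  ⟨S8pf_000_pw, S8pf_010_pw, S8pf_000_w, S8pf_010_w⟩

def S8pf_q10 : Piece := ⟨S8pf_100, S8pf_110, [0, 46434180000, 668179980000, -1481368395000, 2444680875000, -1137440655000], 80720⟩

theorem S8pf_q10_cert : S8pf_q10.Cert vS8 :=
  ⟨S8pf_100_pw, S8pf_110_pw, S8pf_100_w, S8pf_110_w⟩

def S8pf_q20 : Piece := ⟨S8pf_200, S8pf_210, [0, 83620875000, 456471600000, -536747640000, 926322540000, -401183445000], 121080⟩

theorem S8pf_q20_cert : S8pf_q20.Cert vS8 :=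
  ⟨S8pf_200_pw, S8pf_210_pw, S8pf_200_w, S8pf_210_w⟩

def S8pf_q30 : Piece := ⟨S8pf_300, S8pf_310, [0, -148121200000, 329337600000, 164870600000, 736166400000, -623360200000], 160431⟩

theorem S8pf_q30_cert : S8pf_q30.Cert vS8 :=
  ⟨S8pf_300_pw, S8pf_310_pw, S8pf_300_w, S8pf_310_w⟩

def S8pf_q01 : Piece := ⟨S8pf_001, S8pf_011, [0, -194590695000, 1718851680000, -3795600705000, 5865266550000, -2406116895000], 40360⟩

theorem S8pf_q01_cert : S8pf_q01.Cert vS8 :=
  ⟨S8pf_001_pw, S8pf_011_pw, S8pf_001_w, S8pf_011_w⟩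

def S8pf_q11 : Piece := ⟨S8pf_101, S8pf_111, [0, 23020335000, 1677336375000, -2164698510000, 1962237615000, -263454945000], 80720⟩

theorem S8pf_q11_cert : S8pf_q11.Cert vS8 :=
  ⟨S8pf_101_pw, S8pf_111_pw, S8pf_101_w, S8pf_111_w⟩

def S8pf_q21 : Piece := ⟨S8pf_201, S8pf_211, [0, 152485125000, 1406207985000, -1008566130000, 0, -432270735000], 121080⟩

theorem S8pf_q21_cert : S8pf_q21.Cert vS8 :=
  ⟨S8pf_201_pw, S8pf_211_pw, S8pf_201_w, S8pf_211_w⟩

def S8pf_q31 : Piece := ⟨S8pf_301, S8pf_311, [0, 108972000000, 1105258600000, -1065907600000, 0, -1468095000000], 160431⟩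

theorem S8pf_q31_cert : S8pf_q31.Cert vS8 :=
  ⟨S8pf_301_pw, S8pf_311_pw, S8pf_301_w, S8pf_311_w⟩

def S8pf : PMi := ⟨2623400000000, 30270, [0, 11279570640000, 794365520000, 2530531640000, -214856460000, 951769520000], [S8pf_q00, S8pf_q10, S8pf_q20, S8pf_q30], [0, 12231340160000, 1833756600000, 3679843180000, -56665440000, 931307000000], [S8pf_q01, S8pf_q11, S8pf_q21, S8pf_q31], 1, 20, 1, 10, -37121110000, -1856055500, -37094876000, -3709487600, 2623400⟩

theorem S8pf_certP : S8pf.Cert vS8 :=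
  ⟨by decide +kernel, ⟨S8pf_q00_cert, S8pf_q10_cert, S8pf_q20_cert, S8pf_q30_cert, trivial⟩, ⟨S8pf_q01_cert, S8pf_q11_cert, S8pf_q21_cert, S8pf_q31_cert, trivial⟩,
    ⟨224, .leaf, by decide +kernel⟩, ⟨224, .leaf, by decide +kernel⟩⟩

end Vale.Agent.P154
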