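import Vale.Agent.P154.VS8pg_000
import Vale.Agent.P154.VS8pg_200
import Vale.Agent.P154.VS8pg_101

/-! Generated certificates. -/

namespace Vale.Agent.P154

def S8pg_q00 : Piece := ⟨S8pg_000, S8pg_010, [0, -861786900000000, 1186063734375000, -1057681096875000, 4611691256250000, -2880739143750000], 40360⟩

theorem S8pg_q00_cert : S8pg_q00.Cert vS8 :=
  ⟨S8pg_000_pw, S8pg_010_pw, S8pg_000_w, S8pg_010_w⟩

def S8pg_q10 : Piece := ⟨S8pg_100, S8pg_110, [0, 539600587500000, 1483409728125000, -2079454406250000, 498773925000000, 579566446875000], 80720⟩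

theorem S8pg_q10_cert : S8pg_q10.Cert vS8 :=
  ⟨S8pg_100_pw, S8pg_110_pw, S8pg_100_w, S8pg_110_w⟩

def S8pg_q20 : Piece := ⟨S8pg_200, S8pg_210, [0, 579320503125000, 587928534375000, -897571715625000, 0, 691224909375000], 121080⟩

theorem S8pg_q20_cert : S8pg_q20.Cert vS8 :=
  ⟨S8pg_200_pw, S8pg_210_pw, S8pg_200_w, S8pg_210_w⟩

def S8pg_q30 : Piece := ⟨S8pg_300, S8pg_310, [0, 425167375000000, 299546875000000, -152863500000000, 0, -400825250000000], 160431⟩

theorem S8pg_q30_cert : S8pg_q30.Cert vS8 :=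
  ⟨S8pg_300_pw, S8pg_310_pw, S8pg_300_w, S8pg_310_w⟩

def S8pg_q01 : Piece := ⟨S8pg_001, S8pg_011, [0, -1974559396875000, 2856390712500000, -566285484375000, 4947773390625000, -3221986096875000], 40360⟩

theorem S8pg_q01_cert : S8pg_q01.Cert vS8 :=
  ⟨S8pg_001_pw, S8pg_011_pw, S8pg_001_w, S8pg_011_w⟩

def S8pg_q11 : Piece := ⟨S8pg_101, S8pg_111, [0, 938521350000000, 3098522334375000, -3613774490625000, 410603090625000, 1259846859375000], 80720⟩

theorem S8pg_q11_cert : S8pg_q11.Cert vS8 :=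
  ⟨S8pg_101_pw, S8pg_111_pw, S8pg_101_w, S8pg_111_w⟩

def S8pg_q21 : Piece := ⟨S8pg_201, S8pg_211, [0, 1384294396875000, 1728369703125000, -2234890856250000, 0, 1123348078125000], 121080⟩

theorem S8pg_q21_cert : S8pg_q21.Cert vS8 :=
  ⟨S8pg_201_pw, S8pg_211_pw, S8pg_201_w, S8pg_211_w⟩

def S8pg_q31 : Piece := ⟨S8pg_301, S8pg_311, [0, 723705250000000, -723705250000000, -2066936500000000, 0, -2136431375000000], 160431⟩

theorem S8pg_q31_cert : S8pg_q31.Cert vS8 :=
  ⟨S8pg_301_pw, S8pg_311_pw, S8pg_301_w, S8pg_311_w⟩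

def S8pg : PMi := ⟨1639625000000000, 30270, [0, 9215020425000000, 1395648800000000, 2831960300000000, 255781500000000, 243648275000000], [S8pg_q00, S8pg_q10, S8pg_q20, S8pg_q30], [0, 7827241825000000, 2913777587500000, 3421077562500000, 586329900000000, -309725162500000], [S8pg_q01, S8pg_q11, S8pg_q21, S8pg_q31], 1, 10, 2501, 12500, -80669550000000, -8066955000000, -80636757500000, -16133802440600, 1639625000⟩

theorem S8pg_certP : S8pg.Cert vS8 :=
  ⟨by decide +kernel, ⟨S8pg_q00_cert, S8pg_q10_cert, S8pg_q20_cert, S8pg_q30_cert, trivial⟩, ⟨S8pg_q01_cert, S8pg_q11_cert, S8pg_q21_cert, S8pg_q31_cert, trivial⟩,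
    ⟨232, .leaf, by decide +kernel⟩, ⟨240, .leaf, by decide +kernel⟩⟩

end Vale.Agent.P154
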