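import Vale.Agent.P154.VS8lo
import Vale.Agent.P154.VS8pa
import Vale.Agent.P154.VS8pf
import Vale.Agent.P154.VS8pg

/-! Generated certificates. -/

namespace Vale.Agent.P154

def lS8 : List Brk := [.lo S8lo, .pmi S8pa, .pmi S8pf, .pmi S8pg]

theorem pois_S8 {lam d : ℝ} (h1 : (-4473 : ℝ) ≤ 10000 * lam) (h2 : 10000 * lam ≤ -4350)
    (hd : 0 ≤ d) (hdl : d * lam ^ 2 ≤ 1) : Nonreconstruction 3 lam (poisson d) :=
  poisson_of_list (v := vS8) (l := lS8) (by decide +kernel) (by decide +kernel)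
    ⟨S8lo_certP, S8pa_certP, S8pf_certP, S8pg_certP, trivial⟩ (by norm_num [vS8]; exact h1)
    (by norm_num [vS8]; exact h2) hd hdl

end Vale.Agent.P154
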