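import Vale.Agent.P154.VS9pd_000
import Vale.Agent.P154.VS9pd_010
import Vale.Agent.P154.VS9pd_100
import Vale.Agent.P154.VS9pd_300
import Vale.Agent.P154.VS9pd_001
import Vale.Agent.P154.VS9pd_011
import Vale.Agent.P154.VS9pd_101
import Vale.Agent.P154.VS9pd_111
import Vale.Agent.P154.VS9pd_201
import Vale.Agent.P154.VS9pd_211
import Vale.Agent.P154.VS9pd_311

/-! Generated certificates. -/

namespace Vale.Agent.P154

def S9pd_q00 : Piece := ⟨S9pd_000, S9pd_010, [0, 73091960000, 110182800000, -867336400000, 1387980400000, -613915960000], 5045⟩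

theorem S9pd_q00_cert : S9pd_q00.Cert vS9 :=
  ⟨S9pd_000_pw, S9pd_010_pw, S9pd_000_w, S9pd_010_w⟩

def S9pd_q10 : Piece := ⟨S9pd_100, S9pd_110, [0, 5448600000, 166969320000, -439722200000, 690317440000, -358961840000], 10090⟩

theorem S9pd_q10_cert : S9pd_q10.Cert vS9 :=
  ⟨S9pd_100_pw, S9pd_110_pw, S9pd_100_w, S9pd_110_w⟩

def S9pd_q20 : Piece := ⟨S9pd_200, S9pd_210, [0, -9888200000, 185938520000, -322395680000, 313153240000, -78500200000], 15135⟩

theorem S9pd_q20_cert : S9pd_q20.Cert vS9 :=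
  ⟨S9pd_200_pw, S9pd_210_pw, S9pd_200_w, S9pd_210_w⟩

def S9pd_q30 : Piece := ⟨S9pd_300, S9pd_310, [0, -54566720000, 233482600000, -145659240000, 174516640000, -310772000000], 20180⟩

theorem S9pd_q30_cert : S9pd_q30.Cert vS9 :=
  ⟨S9pd_300_pw, S9pd_310_pw, S9pd_300_w, S9pd_310_w⟩

def S9pd_q01 : Piece := ⟨S9pd_001, S9pd_011, [0, 42014760000, 732130400000, -2047785680000, 3027040360000, -1280219200000], 5045⟩

theorem S9pd_q01_cert : S9pd_q01.Cert vS9 :=
  ⟨S9pd_001_pw, S9pd_011_pw, S9pd_001_w, S9pd_011_w⟩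

def S9pd_q11 : Piece := ⟨S9pd_101, S9pd_111, [0, -28695960000, 696613600000, -1315534200000, 1811235720000, -690882480000], 10090⟩

theorem S9pd_q11_cert : S9pd_q11.Cert vS9 :=
  ⟨S9pd_101_pw, S9pd_111_pw, S9pd_101_w, S9pd_111_w⟩

def S9pd_q21 : Piece := ⟨S9pd_201, S9pd_211, [0, -62719440000, 566170080000, -1168381640000, 1869677000000, -787060360000], 15135⟩

theorem S9pd_q21_cert : S9pd_q21.Cert vS9 :=
  ⟨S9pd_201_pw, S9pd_211_pw, S9pd_201_w, S9pd_211_w⟩

def S9pd_q31 : Piece := ⟨S9pd_301, S9pd_311, [0, -132542240000, 540702920000, -942527080000, 1781974720000, -885054440000], 20180⟩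

theorem S9pd_q31_cert : S9pd_q31.Cert vS9 :=
  ⟨S9pd_301_pw, S9pd_311_pw, S9pd_301_w, S9pd_311_w⟩

def S9pd : PMi := ⟨2522500000000, 4036, [0, 9348385000000, 253208550000, 1596994750000, -791762300000, 788937100000], [S9pd_q00, S9pd_q10, S9pd_q20, S9pd_q30], [0, 9804705250000, 665132800000, 1917453150000, 179198400000, 947097850000], [S9pd_q01, S9pd_q11, S9pd_q21, S9pd_q31], 1, 100, 1, 20, -5675625000, -56756250, -5650400000, -282520000, 2522500⟩

theorem S9pd_certP : S9pd.Cert vS9 :=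
  ⟨by decide +kernel, ⟨S9pd_q00_cert, S9pd_q10_cert, S9pd_q20_cert, S9pd_q30_cert, trivial⟩, ⟨S9pd_q01_cert, S9pd_q11_cert, S9pd_q21_cert, S9pd_q31_cert, trivial⟩,
    ⟨216, .leaf, by decide +kernel⟩, ⟨232, (.st 1 (.st 0 (.st 2 (.leaf) (.leaf)) (.leaf)) (.st 0 (.leaf) (.leaf))), by decide +kernel⟩⟩

end Vale.Agent.P154
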