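import Vale.Agent.P154.VS9lo
import Vale.Agent.P154.VS9pd
import Vale.Agent.P154.VS9pb
import Vale.Agent.P154.VS9pc

/-! Generated certificates. -/

namespace Vale.Agent.P154

def lS9 : List Brk := [.lo S9lo, .pmi S9pd, .pmi S9pb, .pmi S9pc]

theorem pois_S9 {lam d : ℝ} (h1 : (-4600 : ℝ) ≤ 10000 * lam) (h2 : 10000 * lam ≤ -4473)
    (hd : 0 ≤ d) (hdl : d * lam ^ 2 ≤ 1) : Nonreconstruction 3 lam (poisson d) :=
  poisson_of_list (v := vS9) (l := lS9) (by decide +kernel) (by decide +kernel)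
    ⟨S9lo_certP, S9pd_certP, S9pb_certP, S9pc_certP, trivial⟩ (by norm_num [vS9]; exact h1)
    (by norm_num [vS9]; exact h2) hd hdl

end Vale.Agent.P154
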