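import Vale.Agent.P154.V5WPF1

/-! Density evolution, cell PF1: generations. -/

namespace Vale.Agent.P154.DE

theorem cPF1 : seg10 197 200 asPF1 35 v10 aPF1 = true := by decide +kernel

theorem rPF1 : reg aPF1 wPF1_0 = true := by decide +kernel

theorem sPF1_0 : seg20 197 200 asPF1 11 wPF1_0 wPF1_1 = true := by decide +kernel

end Vale.Agent.P154.DE
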