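import Vale.Agent.P154.V5WPF1
import Vale.Agent.P154.V5SPF1_1

/-! Density evolution, cell PF1: generations. -/

namespace Vale.Agent.P154.DE

theorem sPF1_2 : seg20 197 200 asPF1 11 wPF1_2 wPF1_3 = true := by decide +kernel

end Vale.Agent.P154.DE
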