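import Vale.Agent.P154.V5WPA1
import Vale.Agent.P154.V5SPF1_4

/-! Density evolution, cell PA1: generations. -/

namespace Vale.Agent.P154.DE

theorem cPA1 : seg10 93 100 asPA1 43 v10 aPA1 = true := by decide +kernel

theorem rPA1 : reg aPA1 wPA1_0 = true := by decide +kernel

theorem sPA1_0 : seg20 93 100 asPA1 1 wPA1_0 wPA1_1 = true := by decide +kernel

end Vale.Agent.P154.DE
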