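import Vale.Agent.P154.V5WPF2

/-! Density evolution, cell PF2: generations. -/

namespace Vale.Agent.P154.DE

theorem cPF2 : seg10 99 100 asPF2 35 v10 aPF2 = true := by decide +kernel

theorem rPF2 : reg aPF2 wPF2_0 = true := by decide +kernel

theorem sPF2_0 : seg20 99 100 asPF2 11 wPF2_0 wPF2_1 = true := by decide +kernel

end Vale.Agent.P154.DE
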