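import Vale.Agent.P154.V5WPF2
import Vale.Agent.P154.V5SPF2_2

/-! Density evolution, cell PF2: generations. -/

namespace Vale.Agent.P154.DE

theorem sPF2_3 : seg20 99 100 asPF2 11 wPF2_3 wPF2_4 = true := by decide +kernel

end Vale.Agent.P154.DE
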