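import Vale.Agent.P154.V5WPB1
import Vale.Agent.P154.V5SPF2_4

/-! Density evolution, cell PB1: generations. -/

namespace Vale.Agent.P154.DE

theorem cPB1 : seg10 47 50 asPB1 46 v10 aPB1 = true := by decide +kernel

theorem rPB1 : reg aPB1 wPB1_0 = true := by decide +kernel

theorem sPB1_0 : seg20 47 50 asPB1 12 wPB1_0 wPB1_1 = true := by decide +kernel

end Vale.Agent.P154.DE
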