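import Vale.Agent.P154.V5WPF3

/-! Density evolution, cell PF3: generations. -/

namespace Vale.Agent.P154.DE

theorem cPF3 : seg10 199 200 asPF3 36 v10 aPF3 = true := by decide +kernel

theorem rPF3 : reg aPF3 wPF3_0 = true := by decide +kernel

theorem sPF3_0 : seg20 199 200 asPF3 10 wPF3_0 wPF3_1 = true := by decide +kernel

end Vale.Agent.P154.DE
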