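import Vale.Agent.P154.V5WPF3
import Vale.Agent.P154.V5SPF3_2

/-! Density evolution, cell PF3: generations. -/

namespace Vale.Agent.P154.DE

theorem sPF3_3 : seg20 199 200 asPF3 10 wPF3_3 wPF3_4 = true := by decide +kernel

end Vale.Agent.P154.DE
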