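import Vale.Agent.P154.V5WPC1
import Vale.Agent.P154.V5SPF3_4

/-! Density evolution, cell PC1: generations. -/

namespace Vale.Agent.P154.DE

theorem cPC1 : seg10 19 20 asPC1 48 v10 aPC1 = true := by decide +kernel

theorem rPC1 : reg aPC1 wPC1_0 = true := by decide +kernel

theorem sPC1_0 : seg20 19 20 asPC1 12 wPC1_0 wPC1_1 = true := by decide +kernel

end Vale.Agent.P154.DE
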