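import Vale.Agent.P154.V5WPF4

/-! Density evolution, cell PF4: generations. -/

namespace Vale.Agent.P154.DE

theorem cPF4 : seg10 1 1 asPF4 36 v10 aPF4 = true := by decide +kernel

theorem rPF4 : reg aPF4 wPF4_0 = true := by decide +kernel

theorem sPF4_0 : seg20 1 1 asPF4 12 wPF4_0 wPF4_1 = true := by decide +kernel

end Vale.Agent.P154.DE
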