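import Vale.Agent.P154.V5WPD1
import Vale.Agent.P154.V5SPF4_3

/-! Density evolution, cell PD1: generations. -/

namespace Vale.Agent.P154.DE

theorem cPD1 : seg10 24 25 asPD1 50 v10 aPD1 = true := by decide +kernel

theorem rPD1 : reg aPD1 wPD1_0 = true := by decide +kernel

theorem sPD1_0 : seg20 24 25 asPD1 13 wPD1_0 wPD1_1 = true := by decide +kernel

end Vale.Agent.P154.DE
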