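import Vale.Agent.P154.V5Grid
import Vale.Agent.P154.V5SPD1_0

/-! Density evolution, cell PD1: the bound. -/

namespace Vale.Agent.P154.DE

open scoped BigOperators ENNReal

theorem xPD1 : Nat.ble (1000 * xsum wPD1_1.toL g20.toL) (199 * (67108864 * 120 ^ 2)) = true := by
  decide +kernel

theorem zPD1 : hazOK 65536 1600 361 asPD1 = true := by decide +kernel

theorem de_PD1 {lam d : ℝ} (h1 : -(12 / 25) ≤ lam) (h2 : lam ≤ -(19 / 40)) (hd : 0 ≤ d)
    (hdl : d * lam ^ 2 ≤ 1) : xs lam (poisson d) 63 ≤ 199 / 1000 := by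
  have c : Cell 24 25 1600 361 asPD1 lam d := Cell.mk' (la := 19 / 40) (lb := 12 / 25)
    (by norm_num) (by norm_num) zPD1 (by norm_num) (by norm_num) (by norm_num) h1 h2 hd hdl
    (by norm_num)
  have h := (((At10.zero lam d).step c cPD1).reg rPD1)
  have h := h.step c sPD1_0
  have h := h.xs_le c (a := 199) (b := 1000) (by norm_num) xPD1
  norm_num at h
  norm_num
  exact h

end Vale.Agent.P154.DE
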