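import Vale.Agent.P154.V5WPE1

/-! Density evolution, cell PE1: generations. -/

namespace Vale.Agent.P154.DE

theorem cPE1 : seg10 193 200 asPE1 32 v10 aPE1 = true := by decide +kernel

theorem rPE1 : reg aPE1 wPE1_0 = true := by decide +kernel

theorem sPE1_0 : seg20 193 200 asPE1 11 wPE1_0 wPE1_1 = true := by decide +kernel

end Vale.Agent.P154.DE
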