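import Vale.Agent.P154.V5WPE2
import Vale.Agent.P154.V5SPE1_2

/-! Density evolution, cell PE2: generations. -/

namespace Vale.Agent.P154.DE

theorem cPE2 : seg10 97 100 asPE2 33 v10 aPE2 = true := by decide +kernel

theorem rPE2 : reg aPE2 wPE2_0 = true := by decide +kernel

theorem sPE2_0 : seg20 97 100 asPE2 11 wPE2_0 wPE2_1 = true := by decide +kernel

end Vale.Agent.P154.DE
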