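import Vale.Agent.P154.V5WPE2
import Vale.Agent.P154.V5SPE2_1

/-! Density evolution, cell PE2: generations. -/

namespace Vale.Agent.P154.DE

theorem sPE2_2 : seg20 97 100 asPE2 10 wPE2_2 wPE2_3 = true := by decide +kernel

end Vale.Agent.P154.DE
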