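import Vale.Agent.P154.V5Grid
import Vale.Agent.P154.V5SPE2_0
import Vale.Agent.P154.V5SPE2_1
import Vale.Agent.P154.V5SPE2_2

/-! Density evolution, cell PE2: the bound. -/

namespace Vale.Agent.P154.DE

open scoped BigOperators ENNReal

theorem xPE2 : Nat.ble (100 * xsum wPE2_3.toL g20.toL) (14 * (67108864 * 120 ^ 2)) = true := by
  decide +kernel

theorem zPE2 : hazOK 65536 160000 37249 asPE2 = true := by decide +kernel

theorem de_PE2 {lam d : ℝ} (h1 : -(97 / 200) ≤ lam) (h2 : lam ≤ -(193 / 400)) (hd : 0 ≤ d)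
    (hdl : d * lam ^ 2 ≤ 1) : xs lam (poisson d) 65 ≤ 14 / 100 := by
  have c : Cell 97 100 160000 37249 asPE2 lam d := Cell.mk' (la := 193 / 400) (lb := 97 / 200)
    (by norm_num) (by norm_num) zPE2 (by norm_num) (by norm_num) (by norm_num) h1 h2 hd hdl
    (by norm_num)
  have h := (((At10.zero lam d).step c cPE2).reg rPE2)
  have h := h.step c sPE2_0
  have h := h.step c sPE2_1
  have h := h.step c sPE2_2
  have h := h.xs_le c (a := 14) (b := 100) (by norm_num) xPE2
  norm_num at h
  norm_num
  exact h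

end Vale.Agent.P154.DE
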