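import Vale.Agent.P154.V5WPE4
import Vale.Agent.P154.V5SPE3_2

/-! Density evolution, cell PE4: generations. -/

namespace Vale.Agent.P154.DE

theorem cPE4 : seg10 49 50 asPE4 34 v10 aPE4 = true := by decide +kernel

theorem rPE4 : reg aPE4 wPE4_0 = true := by decide +kernel

theorem sPE4_0 : seg20 49 50 asPE4 11 wPE4_0 wPE4_1 = true := by decide +kernel

end Vale.Agent.P154.DE
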