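import Vale.Agent.P154.V5WPE4
import Vale.Agent.P154.V5SPE4_0

/-! Density evolution, cell PE4: generations. -/

namespace Vale.Agent.P154.DE

theorem sPE4_1 : seg20 49 50 asPE4 11 wPE4_1 wPE4_2 = true := by decide +kernel

end Vale.Agent.P154.DE
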