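import Vale.Agent.P154.V5WPE4
import Vale.Agent.P154.V5SPE4_1

/-! Density evolution, cell PE4: generations. -/

namespace Vale.Agent.P154.DE

theorem sPE4_2 : seg20 49 50 asPE4 9 wPE4_2 wPE4_3 = true := by decide +kernel

end Vale.Agent.P154.DE
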