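import Vale.Agent.P154.V5Grid
import Vale.Agent.P154.V5SPE4_0
import Vale.Agent.P154.V5SPE4_1
import Vale.Agent.P154.V5SPE4_2

/-! Density evolution, cell PE4: the bound. -/

namespace Vale.Agent.P154.DE

open scoped BigOperators ENNReal

theorem xPE4 : Nat.ble (100 * xsum wPE4_3.toL g20.toL) (14 * (67108864 * 120 ^ 2)) = true := by
  decide +kernel

theorem zPE4 : hazOK 65536 6400 1521 asPE4 = true := by decide +kernel

theorem de_PE4 {lam d : ℝ} (h1 : -(49 / 100) ≤ lam) (h2 : lam ≤ -(39 / 80)) (hd : 0 ≤ d)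
    (hdl : d * lam ^ 2 ≤ 1) : xs lam (poisson d) 65 ≤ 14 / 100 := by
  have c : Cell 49 50 6400 1521 asPE4 lam d := Cell.mk' (la := 39 / 80) (lb := 49 / 100)
    (by norm_num) (by norm_num) zPE4 (by norm_num) (by norm_num) (by norm_num) h1 h2 hd hdl
    (by norm_num)
  have h := (((At10.zero lam d).step c cPE4).reg rPE4)
  have h := h.step c sPE4_0
  have h := h.step c sPE4_1
  have h := h.step c sPE4_2
  have h := h.xs_le c (a := 14) (b := 100) (by norm_num) xPE4
  norm_num at h
  norm_num
  exact h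

end Vale.Agent.P154.DE
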