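import Vale.Agent.P154.V5Grid
import Vale.Agent.P154.V5SPF4_0
import Vale.Agent.P154.V5SPF4_1
import Vale.Agent.P154.V5SPF4_2
import Vale.Agent.P154.V5SPF4_3

/-! Density evolution, cell PF4: the bound. -/

namespace Vale.Agent.P154.DE

open scoped BigOperators ENNReal

theorem xPF4 : Nat.ble (1000 * xsum wPF4_4.toL g20.toL) (122 * (67108864 * 120 ^ 2)) = true := by
  decide +kernel

theorem zPF4 : hazOK 65536 160000 39601 asPF4 = true := by decide +kernel

theorem de_PF4 {lam d : ℝ} (h1 : -(1 / 2) ≤ lam) (h2 : lam ≤ -(199 / 400)) (hd : 0 ≤ d)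
    (hdl : d * lam ^ 2 ≤ 1) : xs lam (poisson d) 84 ≤ 122 / 1000 := by
  have c : Cell 1 1 160000 39601 asPF4 lam d := Cell.mk' (la := 199 / 400) (lb := 1 / 2)
    (by norm_num) (by norm_num) zPF4 (by norm_num) (by norm_num) (by norm_num) h1 h2 hd hdl
    (by norm_num)
  have h := (((At10.zero lam d).step c cPF4).reg rPF4)
  have h := h.step c sPF4_0
  have h := h.step c sPF4_1
  have h := h.step c sPF4_2
  have h := h.step c sPF4_3
  have h := h.xs_le c (a := 122) (b := 1000) (by norm_num) xPF4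
  norm_num at h
  norm_num
  exact h

end Vale.Agent.P154.DE
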