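import Vale.Agent.P154.VPApa_000
import Vale.Agent.P154.VPApa_101

/-! Generated certificates. -/

namespace Vale.Agent.P154

def PApa_q00 : Piece := ⟨PApa_000, PApa_010, [0, 138737500000, 823596250000, -2977811250000, 3773660000000, -1412600000000], 6054⟩

theorem PApa_q00_cert : PApa_q00.Cert vPA :=
  ⟨PApa_000_pw, PApa_010_pw, PApa_000_w, PApa_010_w⟩

def PApa_q10 : Piece := ⟨PApa_100, PApa_110, [0, -1261250000, 985036250000, -1560166250000, 901793750000, 8828750000], 12108⟩

theorem PApa_q10_cert : PApa_q10.Cert vPA :=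
  ⟨PApa_100_pw, PApa_110_pw, PApa_100_w, PApa_110_w⟩

def PApa_q20 : Piece := ⟨PApa_200, PApa_210, [0, -52972500000, 1122512500000, -1634580000000, 166485000000, 775668750000], 18162⟩

theorem PApa_q20_cert : PApa_q20.Cert vPA :=
  ⟨PApa_200_pw, PApa_210_pw, PApa_200_w, PApa_210_w⟩

def PApa_q30 : Piece := ⟨PApa_300, PApa_310, [0, -418735000000, 3632400000000, -7229485000000, 0, 717651250000], 24216⟩

theorem PApa_q30_cert : PApa_q30.Cert vPA :=
  ⟨PApa_300_pw, PApa_310_pw, PApa_300_w, PApa_310_w⟩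

def PApa_q01 : Piece := ⟨PApa_001, PApa_011, [0, 123602500000, 2379978750000, -4146990000000, 3056008750000, -401077500000], 6054⟩

theorem PApa_q01_cert : PApa_q01.Cert vPA :=
  ⟨PApa_001_pw, PApa_011_pw, PApa_001_w, PApa_011_w⟩

def PApa_q11 : Piece := ⟨PApa_101, PApa_111, [0, 0, 2583040000000, -4006991250000, 2057098750000, 367023750000], 12108⟩

theorem PApa_q11_cert : PApa_q11.Cert vPA :=
  ⟨PApa_101_pw, PApa_111_pw, PApa_101_w, PApa_111_w⟩

def PApa_q21 : Piece := ⟨PApa_201, PApa_211, [0, -138737500000, 3013126250000, -4345006250000, 0, 2454392500000], 18162⟩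

theorem PApa_q21_cert : PApa_q21.Cert vPA :=
  ⟨PApa_201_pw, PApa_211_pw, PApa_201_w, PApa_211_w⟩

def PApa_q31 : Piece := ⟨PApa_301, PApa_311, [0, -254772500000, 2132773750000, -2632228750000, 0, -1230980000000], 24216⟩

theorem PApa_q31_cert : PApa_q31.Cert vPA :=
  ⟨PApa_301_pw, PApa_311_pw, PApa_301_w, PApa_311_w⟩

def PApa : PMi := ⟨15135000000000, 5045, [0, 40956823500000, 749182500000, 3721696500000, 1271340000000, 1649715000000], [PApa_q00, PApa_q10, PApa_q20, PApa_q30], [0, 41669682000000, 1819227000000, 4436068500000, 1596742500000, 3322132500000], [PApa_q01, PApa_q11, PApa_q21, PApa_q31], 1, 100, 13, 500, -35415900000, -354159000, -14680950000, -381704700, 15135000⟩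

theorem PApa_certP : PApa.Cert vPA :=
  ⟨by decide +kernel, ⟨PApa_q00_cert, PApa_q10_cert, PApa_q20_cert, PApa_q30_cert, trivial⟩, ⟨PApa_q01_cert, PApa_q11_cert, PApa_q21_cert, PApa_q31_cert, trivial⟩,
    ⟨176, .leaf, by decide +kernel⟩, ⟨176, .leaf, by decide +kernel⟩⟩

end Vale.Agent.P154
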