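import Vale.Agent.P154.VPApb_000
import Vale.Agent.P154.VPApb_100
import Vale.Agent.P154.VPApb_210
import Vale.Agent.P154.VPApb_001
import Vale.Agent.P154.VPApb_011
import Vale.Agent.P154.VPApb_111
import Vale.Agent.P154.VPApb_311

/-! Generated certificates. -/

namespace Vale.Agent.P154

def PApb_q00 : Piece := ⟨PApb_000, PApb_010, [0, 471707500000, 4744822500000, -14395907500000, 19625050000000, -7842452500000], 6054⟩

theorem PApb_q00_cert : PApb_q00.Cert vPA :=
  ⟨PApb_000_pw, PApb_010_pw, PApb_000_w, PApb_010_w⟩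

def PApb_q10 : Piece := ⟨PApb_100, PApb_110, [0, 295132500000, 4343745000000, -11184765000000, 17276602500000, -8314160000000], 12108⟩

theorem PApb_q10_cert : PApb_q10.Cert vPA :=
  ⟨PApb_100_pw, PApb_110_pw, PApb_100_w, PApb_110_w⟩

def PApb_q20 : Piece := ⟨PApb_200, PApb_210, [0, -194232500000, 4384105000000, -6109495000000, 6402105000000, -1846470000000], 18162⟩

theorem PApb_q20_cert : PApb_q20.Cert vPA :=
  ⟨PApb_200_pw, PApb_210_pw, PApb_200_w, PApb_210_w⟩

def PApb_q30 : Piece := ⟨PApb_300, PApb_310, [0, -918190000000, 4159602500000, -10768552500000, 24642302500000, -26256702500000], 24216⟩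

theorem PApb_q30_cert : PApb_q30.Cert vPA :=
  ⟨PApb_300_pw, PApb_310_pw, PApb_300_w, PApb_310_w⟩

def PApb_q01 : Piece := ⟨PApb_001, PApb_011, [0, 194232500000, 9802435000000, -25401575000000, 34641492500000, -13280962500000], 6054⟩

theorem PApb_q01_cert : PApb_q01.Cert vPA :=
  ⟨PApb_001_pw, PApb_011_pw, PApb_001_w, PApb_011_w⟩

def PApb_q11 : Piece := ⟨PApb_101, PApb_111, [0, -353150000000, 8339385000000, -15861480000000, 22793310000000, -9007847500000], 12108⟩

theorem PApb_q11_cert : PApb_q11.Cert vPA :=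
  ⟨PApb_101_pw, PApb_111_pw, PApb_101_w, PApb_111_w⟩

def PApb_q21 : Piece := ⟨PApb_201, PApb_211, [0, -70630000000, 6555977500000, -13311232500000, 20555852500000, -8367132500000], 18162⟩

theorem PApb_q21_cert : PApb_q21.Cert vPA :=
  ⟨PApb_201_pw, PApb_211_pw, PApb_201_w, PApb_211_w⟩

def PApb_q31 : Piece := ⟨PApb_301, PApb_311, [0, -1420167500000, 6533275000000, -6339042500000, 0, -9979010000000], 24216⟩

theorem PApb_q31_cert : PApb_q31.Cert vPA :=
  ⟨PApb_301_pw, PApb_311_pw, PApb_301_w, PApb_311_w⟩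

def PApb : PMi := ⟨30270000000000, 5045, [0, 106738074000000, 6196269000000, 20202198000000, -9271701000000, 10210071000000], [PApb_q00, PApb_q10, PApb_q20, PApb_q30], [0, 114341898000000, 7664364000000, 22315044000000, 2781813000000, 10724661000000], [PApb_q01, PApb_q11, PApb_q21, PApb_q31], 13, 500, 53, 1000, -133188000000, -3462888000, -72042600000, -3818257800, 30270000⟩

theorem PApb_certP : PApb.Cert vPA :=
  ⟨by decide +kernel, ⟨PApb_q00_cert, PApb_q10_cert, PApb_q20_cert, PApb_q30_cert, trivial⟩, ⟨PApb_q01_cert, PApb_q11_cert, PApb_q21_cert, PApb_q31_cert, trivial⟩,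
    ⟨176, .leaf, by decide +kernel⟩, ⟨176, .leaf, by decide +kernel⟩⟩

end Vale.Agent.P154
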