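import Vale.Agent.P154.VPBpa_000
import Vale.Agent.P154.VPBpa_011

/-! Generated certificates. -/

namespace Vale.Agent.P154

def PBpa_q00 : Piece := ⟨PBpa_000, PBpa_010, [0, 3027000000000, 33196100000000, -110182800000000, 164971500000000, -80417300000000], 29261⟩

theorem PBpa_q00_cert : PBpa_q00.Cert vPB :=
  ⟨PBpa_000_pw, PBpa_010_pw, PBpa_000_w, PBpa_010_w⟩

def PBpa_q10 : Piece := ⟨PBpa_100, PBpa_110, [0, 1059450000000, 32590700000000, -62406650000000, 54132850000000, -15841300000000], 58522⟩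

theorem PBpa_q10_cert : PBpa_q10.Cert vPB :=
  ⟨PBpa_100_pw, PBpa_110_pw, PBpa_100_w, PBpa_110_w⟩

def PBpa_q20 : Piece := ⟨PBpa_200, PBpa_210, [0, -1412600000000, 39250100000000, -59833700000000, 17657500000000, 15942200000000], 87783⟩

theorem PBpa_q20_cert : PBpa_q20.Cert vPB :=
  ⟨PBpa_200_pw, PBpa_210_pw, PBpa_200_w, PBpa_210_w⟩

def PBpa_q30 : Piece := ⟨PBpa_300, PBpa_310, [0, -10090000000000, 91566750000000, -173245300000000, 0, 57210300000000], 117044⟩

theorem PBpa_q30_cert : PBpa_q30.Cert vPB :=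
  ⟨PBpa_300_pw, PBpa_310_pw, PBpa_300_w, PBpa_310_w⟩

def PBpa_q01 : Piece := ⟨PBpa_001, PBpa_011, [0, 3481050000000, 95955900000000, -157050850000000, 98024350000000, -3178350000000], 29261⟩

theorem PBpa_q01_cert : PBpa_q01.Cert vPB :=
  ⟨PBpa_001_pw, PBpa_011_pw, PBpa_001_w, PBpa_011_w⟩

def PBpa_q11 : Piece := ⟨PBpa_101, PBpa_111, [0, 2623400000000, 89801000000000, -156092300000000, 96712650000000, 3682850000000], 58522⟩

theorem PBpa_q11_cert : PBpa_q11.Cert vPB :=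
  ⟨PBpa_101_pw, PBpa_111_pw, PBpa_101_w, PBpa_111_w⟩

def PBpa_q21 : Piece := ⟨PBpa_201, PBpa_211, [0, -5347700000000, 112503500000000, -156041850000000, 0, 85210050000000], 87783⟩

theorem PBpa_q21_cert : PBpa_q21.Cert vPB :=
  ⟨PBpa_201_pw, PBpa_211_pw, PBpa_201_w, PBpa_211_w⟩

def PBpa_q31 : Piece := ⟨PBpa_301, PBpa_311, [0, -8828750000000, 80467750000000, -96813550000000, 0, -44194200000000], 117044⟩

theorem PBpa_q31_cert : PBpa_q31.Cert vPB :=
  ⟨PBpa_301_pw, PBpa_311_pw, PBpa_301_w, PBpa_311_w⟩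

def PBpa : PMi := ⟨585220000000000, 25225, [0, 1438529282000000, 21828706000000, 150928238000000, 99136268000000, 14220846000000], [PBpa_q00, PBpa_q10, PBpa_q20, PBpa_q30], [0, 1499918860000000, 69465614000000, 150577106000000, 50387442000000, 125002992000000], [PBpa_q01, PBpa_q11, PBpa_q21, PBpa_q31], 1, 100, 53, 2000, -1141179000000, -11411790000, -462323800000, -12251580700, 585220000⟩

theorem PBpa_certP : PBpa.Cert vPB :=
  ⟨by decide +kernel, ⟨PBpa_q00_cert, PBpa_q10_cert, PBpa_q20_cert, PBpa_q30_cert, trivial⟩, ⟨PBpa_q01_cert, PBpa_q11_cert, PBpa_q21_cert, PBpa_q31_cert, trivial⟩,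
    ⟨184, .leaf, by decide +kernel⟩, ⟨184, .leaf, by decide +kernel⟩⟩

end Vale.Agent.P154
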