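import Vale.Agent.P154.VPBpb_000
import Vale.Agent.P154.VPBpb_110
import Vale.Agent.P154.VPBpb_001
import Vale.Agent.P154.VPBpb_101

/-! Generated certificates. -/

namespace Vale.Agent.P154

def PBpb_q00 : Piece := ⟨PBpb_000, PBpb_010, [0, 4641400000000, 77138050000000, -184899250000000, 211940450000000, -73102050000000], 29261⟩

theorem PBpb_q00_cert : PBpb_q00.Cert vPB :=
  ⟨PBpb_000_pw, PBpb_010_pw, PBpb_000_w, PBpb_010_w⟩

def PBpb_q10 : Piece := ⟨PBpb_100, PBpb_110, [0, 3935100000000, 66947150000000, -147616700000000, 145447350000000, -32035750000000], 58522⟩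

theorem PBpb_q10_cert : PBpb_q10.Cert vPB :=
  ⟨PBpb_100_pw, PBpb_110_pw, PBpb_100_w, PBpb_110_w⟩

def PBpb_q20 : Piece := ⟨PBpb_200, PBpb_210, [0, -3632400000000, 71235400000000, -107105350000000, 94038800000000, -18515150000000], 87783⟩

theorem PBpb_q20_cert : PBpb_q20.Cert vPB :=
  ⟨PBpb_200_pw, PBpb_210_pw, PBpb_200_w, PBpb_210_w⟩

def PBpb_q30 : Piece := ⟨PBpb_300, PBpb_310, [0, -32439350000000, 161137300000000, -325654750000000, 33751050000000, 8526050000000], 117044⟩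

theorem PBpb_q30_cert : PBpb_q30.Cert vPB :=
  ⟨PBpb_300_pw, PBpb_310_pw, PBpb_300_w, PBpb_310_w⟩

def PBpb_q01 : Piece := ⟨PBpb_001, PBpb_011, [0, 5297250000000, 135962750000000, -291752350000000, 294426200000000, -79004700000000], 29261⟩

theorem PBpb_q01_cert : PBpb_q01.Cert vPB :=
  ⟨PBpb_001_pw, PBpb_011_pw, PBpb_001_w, PBpb_011_w⟩

def PBpb_q11 : Piece := ⟨PBpb_101, PBpb_111, [0, 5852200000000, 102665750000000, -214715200000000, 257345450000000, -87530750000000], 58522⟩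

theorem PBpb_q11_cert : PBpb_q11.Cert vPB :=
  ⟨PBpb_101_pw, PBpb_111_pw, PBpb_101_w, PBpb_111_w⟩

def PBpb_q21 : Piece := ⟨PBpb_201, PBpb_211, [0, -8475600000000, 137425800000000, -169814700000000, 91062250000000, 12662950000000], 87783⟩

theorem PBpb_q21_cert : PBpb_q21.Cert vPB :=
  ⟨PBpb_201_pw, PBpb_211_pw, PBpb_201_w, PBpb_211_w⟩

def PBpb_q31 : Piece := ⟨PBpb_301, PBpb_311, [0, -5398150000000, 87026250000000, -53931050000000, 0, -87177600000000], 117044⟩

theorem PBpb_q31_cert : PBpb_q31.Cert vPB :=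
  ⟨PBpb_301_pw, PBpb_311_pw, PBpb_301_w, PBpb_311_w⟩

def PBpb : PMi := ⟨585220000000000, 25225, [0, 1447717236000000, 81404102000000, 227006838000000, -139457926000000, 181652288000000], [PBpb_q00, PBpb_q10, PBpb_q20, PBpb_q30], [0, 1523503226000000, 99019224000000, 200203762000000, 43423324000000, 113883812000000], [PBpb_q01, PBpb_q11, PBpb_q21, PBpb_q31], 53, 2000, 11, 250, -1749807800000, -46369906700, -1111918000000, -48924392000, 585220000⟩

theorem PBpb_certP : PBpb.Cert vPB :=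
  ⟨by decide +kernel, ⟨PBpb_q00_cert, PBpb_q10_cert, PBpb_q20_cert, PBpb_q30_cert, trivial⟩, ⟨PBpb_q01_cert, PBpb_q11_cert, PBpb_q21_cert, PBpb_q31_cert, trivial⟩,
    ⟨184, .leaf, by decide +kernel⟩, ⟨184, .leaf, by decide +kernel⟩⟩

end Vale.Agent.P154
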