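import Vale.Agent.P154.VPBlo
import Vale.Agent.P154.VPBpa
import Vale.Agent.P154.VPBpb

/-! Generated certificates. -/

namespace Vale.Agent.P154

def lPB : List Brk := [.lo PBlo, .pmi PBpa, .pmi PBpb]

theorem low_PB {lam d : ℝ} (h1 : -(47/100 : ℝ) ≤ lam) (h2 : lam ≤ -(93/200 : ℝ))
    (hd : 0 ≤ d) (hdl : d * lam ^ 2 ≤ 1) {N : ℕ} (hN : xs lam (poisson d) N ≤ 199 / 1000) :
    Nonreconstruction 3 lam (poisson d) :=
  poisson_of_part (v := vPB) (l := lPB) (by decide +kernel) (tn := 199) (td := 1000)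
    (by decide +kernel) ⟨PBlo_certP, PBpa_certP, PBpb_certP, trivial⟩
    (by norm_num [vPB]; linarith) (by norm_num [vPB]; linarith) hd hdl (N := N)
    (by norm_num at hN ⊢; exact hN)

end Vale.Agent.P154
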