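import Vale.Agent.P154.VPCpa_000
import Vale.Agent.P154.VPCpa_011

/-! Generated certificates. -/

namespace Vale.Agent.P154

def PCpa_q00 : Piece := ⟨PCpa_000, PCpa_010, [0, 20306125000000, 68612000000000, -413311625000000, 654210375000000, -294375750000000], 38342⟩

theorem PCpa_q00_cert : PCpa_q00.Cert vPC :=
  ⟨PCpa_000_pw, PCpa_010_pw, PCpa_000_w, PCpa_010_w⟩

def PCpa_q10 : Piece := ⟨PCpa_100, PCpa_110, [0, 756750000000, 70882250000000, -213781875000000, 292231625000000, -111999000000000], 76684⟩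

theorem PCpa_q10_cert : PCpa_q10.Cert vPC :=
  ⟨PCpa_100_pw, PCpa_110_pw, PCpa_100_w, PCpa_110_w⟩

def PCpa_q20 : Piece := ⟨PCpa_200, PCpa_210, [0, -10846750000000, 88665875000000, -243925750000000, 313294500000000, -145674375000000], 115026⟩

theorem PCpa_q20_cert : PCpa_q20.Cert vPC :=
  ⟨PCpa_200_pw, PCpa_210_pw, PCpa_200_w, PCpa_210_w⟩

def PCpa_q01 : Piece := ⟨PCpa_001, PCpa_011, [0, 15513375000000, 234844750000000, -561130125000000, 530986250000000, -111872875000000], 38342⟩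

theorem PCpa_q01_cert : PCpa_q01.Cert vPC :=
  ⟨PCpa_001_pw, PCpa_011_pw, PCpa_001_w, PCpa_011_w⟩

def PCpa_q11 : Piece := ⟨PCpa_101, PCpa_111, [0, 2396375000000, 186412750000000, -467671500000000, 544733875000000, -159422000000000], 76684⟩

theorem PCpa_q11_cert : PCpa_q11.Cert vPC :=
  ⟨PCpa_101_pw, PCpa_111_pw, PCpa_101_w, PCpa_111_w⟩

def PCpa_q21 : Piece := ⟨PCpa_201, PCpa_211, [0, -39855500000000, 256033750000000, -297907250000000, 0, -133440250000000], 115026⟩

theorem PCpa_q21_cert : PCpa_q21.Cert vPC :=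
  ⟨PCpa_201_pw, PCpa_211_pw, PCpa_201_w, PCpa_211_w⟩

def PCpa : PMi := ⟨1917100000000000, 25225, [0, 4326894700000000, 24538880000000, 475824220000000, 381311190000000, 18212450000000], [PCpa_q00, PCpa_q10, PCpa_q20], [0, 4333221130000000, 179440560000000, 536212870000000, 101606300000000, 371342270000000], [PCpa_q01, PCpa_q11, PCpa_q21], 1, 100, 271, 10000, -3968397000000, -39683970000, -1667877000000, -45199466700, 1917100000⟩

theorem PCpa_certP : PCpa.Cert vPC :=
  ⟨by decide +kernel, ⟨PCpa_q00_cert, PCpa_q10_cert, PCpa_q20_cert, trivial⟩, ⟨PCpa_q01_cert, PCpa_q11_cert, PCpa_q21_cert, trivial⟩,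
    ⟨184, .leaf, by decide +kernel⟩, ⟨184, .leaf, by decide +kernel⟩⟩

end Vale.Agent.P154
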