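import Vale.Agent.P154.VPCpb_000
import Vale.Agent.P154.VPCpb_110
import Vale.Agent.P154.VPCpb_001
import Vale.Agent.P154.VPCpb_101

/-! Generated certificates. -/

namespace Vale.Agent.P154

def PCpb_q00 : Piece := ⟨PCpb_000, PCpb_010, [0, 54486000000000, 593796500000000, -1706723500000000, 2081567000000000, -756245500000000], 57513⟩

theorem PCpb_q00_cert : PCpb_q00.Cert vPC :=
  ⟨PCpb_000_pw, PCpb_010_pw, PCpb_000_w, PCpb_010_w⟩

def PCpb_q10 : Piece := ⟨PCpb_100, PCpb_110, [0, 42378000000000, 519130500000000, -1385861500000000, 1315231500000000, -214917000000000], 115026⟩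

theorem PCpb_q10_cert : PCpb_q10.Cert vPC :=
  ⟨PCpb_100_pw, PCpb_110_pw, PCpb_100_w, PCpb_110_w⟩

def PCpb_q20 : Piece := ⟨PCpb_200, PCpb_210, [0, -1513500000000, 402086500000000, -994874000000000, 1398474000000000, -528716000000000], 172539⟩

theorem PCpb_q20_cert : PCpb_q20.Cert vPC :=
  ⟨PCpb_200_pw, PCpb_210_pw, PCpb_200_w, PCpb_210_w⟩

def PCpb_q30 : Piece := ⟨PCpb_300, PCpb_310, [0, -211890000000000, 1201214500000000, -2226358500000000, 2401420000000000, -2527040500000000], 230052⟩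

theorem PCpb_q30_cert : PCpb_q30.Cert vPC :=
  ⟨PCpb_300_pw, PCpb_310_pw, PCpb_300_w, PCpb_310_w⟩

def PCpb_q01 : Piece := ⟨PCpb_001, PCpb_011, [0, 82738000000000, 1104855000000000, -2772227500000000, 2877163500000000, -749687000000000], 57513⟩

theorem PCpb_q01_cert : PCpb_q01.Cert vPC :=
  ⟨PCpb_001_pw, PCpb_011_pw, PCpb_001_w, PCpb_011_w⟩

def PCpb_q11 : Piece := ⟨PCpb_101, PCpb_111, [0, 68107500000000, 711345000000000, -1891370500000000, 2672841000000000, -1027162000000000], 115026⟩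

theorem PCpb_q11_cert : PCpb_q11.Cert vPC :=
  ⟨PCpb_101_pw, PCpb_111_pw, PCpb_101_w, PCpb_111_w⟩

def PCpb_q21 : Piece := ⟨PCpb_201, PCpb_211, [0, -504500000000, 671489500000000, -1661823000000000, 2322213500000000, -802659500000000], 172539⟩

theorem PCpb_q21_cert : PCpb_q21.Cert vPC :=
  ⟨PCpb_201_pw, PCpb_211_pw, PCpb_201_w, PCpb_211_w⟩

def PCpb_q31 : Piece := ⟨PCpb_301, PCpb_311, [0, -134197000000000, 628102500000000, -348105000000000, 0, -695705500000000], 230052⟩

theorem PCpb_q31_cert : PCpb_q31.Cert vPC :=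
  ⟨PCpb_301_pw, PCpb_311_pw, PCpb_301_w, PCpb_311_w⟩

def PCpb : PMi := ⟨5751300000000000, 50450, [0, 11464641420000000, 569953830000000, 1554576390000000, -422720550000000, 1183042410000000], [PCpb_q00, PCpb_q10, PCpb_q20, PCpb_q30], [0, 12403828710000000, 745368480000000, 1551700740000000, 347378520000000, 1197420660000000], [PCpb_q01, PCpb_q11, PCpb_q21, PCpb_q31], 271, 10000, 113, 2500, -13918146000000, -377181756600, -8339385000000, -376940202000, 5751300000⟩

theorem PCpb_certP : PCpb.Cert vPC :=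
  ⟨by decide +kernel, ⟨PCpb_q00_cert, PCpb_q10_cert, PCpb_q20_cert, PCpb_q30_cert, trivial⟩, ⟨PCpb_q01_cert, PCpb_q11_cert, PCpb_q21_cert, PCpb_q31_cert, trivial⟩,
    ⟨192, .leaf, by decide +kernel⟩, ⟨192, .leaf, by decide +kernel⟩⟩

end Vale.Agent.P154
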