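import Vale.Agent.P154.VPDa_000
import Vale.Agent.P154.VPDa_010
import Vale.Agent.P154.VPDa_100
import Vale.Agent.P154.VPDa_300
import Vale.Agent.P154.VPDa_001
import Vale.Agent.P154.VPDa_011
import Vale.Agent.P154.VPDa_101
import Vale.Agent.P154.VPDa_111

/-! Generated certificates. -/

namespace Vale.Agent.P154

def PDa_q00 : Piece := ⟨PDa_000, PDa_010, [0, 396839700000000, 646446120000000, -4919086890000000, 6524849850000000, -2188369650000000], 55495⟩

theorem PDa_q00_cert : PDa_q00.Cert vPD :=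
  ⟨PDa_000_pw, PDa_010_pw, PDa_000_w, PDa_010_w⟩

def PDa_q10 : Piece := ⟨PDa_100, PDa_110, [0, -24443025000000, 845728665000000, -2393691060000000, 3499090920000000, -1504827645000000], 110990⟩

theorem PDa_q10_cert : PDa_q10.Cert vPD :=
  ⟨PDa_100_pw, PDa_110_pw, PDa_100_w, PDa_110_w⟩

def PDa_q20 : Piece := ⟨PDa_200, PDa_210, [0, -94608885000000, 890588805000000, -1629630855000000, 1669027260000000, -382461450000000], 166485⟩

theorem PDa_q20_cert : PDa_q20.Cert vPD :=
  ⟨PDa_200_pw, PDa_210_pw, PDa_200_w, PDa_210_w⟩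

def PDa_q30 : Piece := ⟨PDa_300, PDa_310, [0, -249727500000000, 1299692900000000, -4250917000000000, 8222416675000000, -4874958275000000], 223998⟩

theorem PDa_q30_cert : PDa_q30.Cert vPD :=
  ⟨PDa_300_pw, PDa_310_pw, PDa_300_w, PDa_310_w⟩

def PDa_q01 : Piece := ⟨PDa_001, PDa_011, [0, 389650575000000, 2504403585000000, -8577488820000000, 11608423920000000, -4412109795000000], 55495⟩

theorem PDa_q01_cert : PDa_q01.Cert vPD :=
  ⟨PDa_001_pw, PDa_011_pw, PDa_001_w, PDa_011_w⟩

def PDa_q11 : Piece := ⟨PDa_101, PDa_111, [0, -248168595000000, 2922523095000000, -5302698600000000, 5568696225000000, -1454791335000000], 110990⟩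

theorem PDa_q11_cert : PDa_q11.Cert vPD :=
  ⟨PDa_101_pw, PDa_111_pw, PDa_101_w, PDa_111_w⟩

def PDa_q21 : Piece := ⟨PDa_201, PDa_211, [0, -352267125000000, 2689595445000000, -4945830435000000, 5525849040000000, -1499651475000000], 166485⟩

theorem PDa_q21_cert : PDa_q21.Cert vPD :=
  ⟨PDa_201_pw, PDa_211_pw, PDa_201_w, PDa_211_w⟩

def PDa_q31 : Piece := ⟨PDa_301, PDa_311, [0, -387077625000000, 1551085250000000, -2563869000000000, 5188227550000000, -2308314525000000], 223998⟩

theorem PDa_q31_cert : PDa_q31.Cert vPD :=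
  ⟨PDa_301_pw, PDa_311_pw, PDa_301_w, PDa_311_w⟩

def PDa : PMi := ⟨15816075000000000, 50450, [0, 47888860849500000, 1212460309500000, 8477732521500000, -4740077677500000, 4832443555500000], [PDa_q00, PDa_q10, PDa_q20, PDa_q30], [0, 48855223032000000, 2740609476000000, 8641903380000000, -1591097145000000, 4603110468000000], [PDa_q01, PDa_q11, PDa_q21, PDa_q31], 1, 100, 4, 125, -28975049400000, -289750494000, -13380399450000, -428172782400, 15816075000⟩

theorem PDa_certP : PDa.Cert vPD :=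
  ⟨by decide +kernel, ⟨PDa_q00_cert, PDa_q10_cert, PDa_q20_cert, PDa_q30_cert, trivial⟩, ⟨PDa_q01_cert, PDa_q11_cert, PDa_q21_cert, PDa_q31_cert, trivial⟩,
    ⟨192, .leaf, by decide +kernel⟩, ⟨192, .leaf, by decide +kernel⟩⟩

end Vale.Agent.P154
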