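import Vale.Agent.P154.VPDlo
import Vale.Agent.P154.VPDa
import Vale.Agent.P154.VPDc

/-! Generated certificates. -/

namespace Vale.Agent.P154

def lPD : List Brk := [.lo PDlo, .pmi PDa, .pmi PDc]

theorem low_PD {lam d : ℝ} (h1 : (-96 : ℝ) ≤ 200 * lam) (h2 : 200 * lam ≤ -95)
    (hd : 0 ≤ d) (hdl : d * lam ^ 2 ≤ 1) {N : ℕ}
    (hN : xs lam (poisson d) N ≤ 199 / 1000) : Nonreconstruction 3 lam (poisson d) :=
  poisson_of_part (v := vPD) (l := lPD) (by decide +kernel) (tn := 199) (td := 1000)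
    (by decide +kernel) ⟨PDlo_certP, PDa_certP, PDc_certP, trivial⟩
    (by norm_num [vPD]; exact h1) (by norm_num [vPD]; exact h2) hd hdl (N := N)
    (by push_cast; exact hN)

end Vale.Agent.P154
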