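import Vale.Agent.P154.VPEpa_000
import Vale.Agent.P154.VPEpa_100
import Vale.Agent.P154.VPEpa_001
import Vale.Agent.P154.VPEpa_011
import Vale.Agent.P154.VPEpa_101

/-! Generated certificates. -/

namespace Vale.Agent.P154

def PEpa_q00 : Piece := ⟨PEpa_000, PEpa_010, [0, 12410700000000, 31581700000000, -200286500000000, 312991800000000, -140553700000000], 11099⟩

theorem PEpa_q00_cert : PEpa_q00.Cert vPE :=
  ⟨PEpa_000_pw, PEpa_010_pw, PEpa_000_w, PEpa_010_w⟩

def PEpa_q10 : Piece := ⟨PEpa_100, PEpa_110, [0, 1513500000000, 34709600000000, -136820400000000, 226217800000000, -109375600000000], 22198⟩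

theorem PEpa_q10_cert : PEpa_q10.Cert vPE :=
  ⟨PEpa_100_pw, PEpa_110_pw, PEpa_100_w, PEpa_110_w⟩

def PEpa_q20 : Piece := ⟨PEpa_200, PEpa_210, [0, -1715300000000, 39149200000000, -129152000000000, 190902800000000, -81123600000000], 33297⟩

theorem PEpa_q20_cert : PEpa_q20.Cert vPE :=
  ⟨PEpa_200_pw, PEpa_210_pw, PEpa_200_w, PEpa_210_w⟩

def PEpa_q30 : Piece := ⟨PEpa_300, PEpa_310, [0, -19877300000000, 44396000000000, -715280100000000, 1103745100000000, -393913600000000], 44396⟩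

theorem PEpa_q30_cert : PEpa_q30.Cert vPE :=
  ⟨PEpa_300_pw, PEpa_310_pw, PEpa_300_w, PEpa_310_w⟩

def PEpa_q01 : Piece := ⟨PEpa_001, PEpa_011, [0, 15538600000000, 143984300000000, -428724100000000, 448096900000000, -106348600000000], 11099⟩

theorem PEpa_q01_cert : PEpa_q01.Cert vPE :=
  ⟨PEpa_001_pw, PEpa_011_pw, PEpa_001_w, PEpa_011_w⟩

def PEpa_q11 : Piece := ⟨PEpa_101, PEpa_111, [0, 4136900000000, 112301700000000, -310973800000000, 382007400000000, -116135900000000], 22198⟩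

theorem PEpa_q11_cert : PEpa_q11.Cert vPE :=
  ⟨PEpa_101_pw, PEpa_111_pw, PEpa_101_w, PEpa_111_w⟩

def PEpa_q21 : Piece := ⟨PEpa_201, PEpa_211, [0, -6054000000000, 88186600000000, -267385000000000, 393711800000000, -137627600000000], 33297⟩

theorem PEpa_q21_cert : PEpa_q21.Cert vPE :=
  ⟨PEpa_201_pw, PEpa_211_pw, PEpa_201_w, PEpa_211_w⟩

def PEpa_q31 : Piece := ⟨PEpa_301, PEpa_311, [0, -28151100000000, 85462300000000, -93130700000000, 190297400000000, -83545200000000], 44396⟩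

theorem PEpa_q31_cert : PEpa_q31.Cert vPE :=
  ⟨PEpa_301_pw, PEpa_311_pw, PEpa_301_w, PEpa_311_w⟩

def PEpa : PMi := ⟨1109900000000000, 10090, [0, 2175404000000000, 19978200000000, 266265010000000, 136406710000000, -221980000000], [PEpa_q00, PEpa_q10, PEpa_q20, PEpa_q30], [0, 2220909900000000, 120535140000000, 304778540000000, -47392730000000, 276254110000000], [PEpa_q01, PEpa_q11, PEpa_q21, PEpa_q31], 1, 100, 337, 10000, -1043306000000, -10433060000, -443960000000, -14961452000, 1109900000⟩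

theorem PEpa_certP : PEpa.Cert vPE :=
  ⟨by decide +kernel, ⟨PEpa_q00_cert, PEpa_q10_cert, PEpa_q20_cert, PEpa_q30_cert, trivial⟩, ⟨PEpa_q01_cert, PEpa_q11_cert, PEpa_q21_cert, PEpa_q31_cert, trivial⟩,
    ⟨176, .leaf, by decide +kernel⟩, ⟨176, .leaf, by decide +kernel⟩⟩

end Vale.Agent.P154
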