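import Vale.Agent.P154.VPElo
import Vale.Agent.P154.VPEpa

/-! Generated certificates. -/

namespace Vale.Agent.P154

def lPE : List Brk := [.lo PElo, .pmi PEpa]

theorem low_PE {lam d : ℝ} (h1 : -(49/100 : ℝ) ≤ lam) (h2 : lam ≤ -(12/25 : ℝ))
    (hd : 0 ≤ d) (hdl : d * lam ^ 2 ≤ 1) {N : ℕ} (hN : xs lam (poisson d) N ≤ 14 / 100) :
    Nonreconstruction 3 lam (poisson d) :=
  poisson_of_part (v := vPE) (l := lPE) (by decide +kernel) (tn := 14) (td := 100)
    (by decide +kernel) ⟨PElo_certP, PEpa_certP, trivial⟩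
    (by norm_num [vPE]; linarith) (by norm_num [vPE]; linarith) hd hdl (N := N)
    (by norm_num at hN ⊢; exact hN)

end Vale.Agent.P154
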