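import Vale.Agent.P154.VPFpa_000
import Vale.Agent.P154.VPFpa_001

/-! Generated certificates. -/

namespace Vale.Agent.P154

def PFpa_q00 : Piece := ⟨PFpa_000, PFpa_010, [0, 968640000000, 4944100000000, -24276540000000, 33418080000000, -12027280000000], 21189⟩

theorem PFpa_q00_cert : PFpa_q00.Cert vPF :=
  ⟨PFpa_000_pw, PFpa_010_pw, PFpa_000_w, PFpa_010_w⟩

def PFpa_q10 : Piece := ⟨PFpa_100, PFpa_110, [0, 40360000000, 5953100000000, -22117280000000, 29180280000000, -11805300000000], 42378⟩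

theorem PFpa_q10_cert : PFpa_q10.Cert vPF :=
  ⟨PFpa_100_pw, PFpa_110_pw, PFpa_100_w, PFpa_110_w⟩

def PFpa_q20 : Piece := ⟨PFpa_200, PFpa_210, [0, -605400000000, 6255800000000, -19070100000000, 22359440000000, -7385880000000], 63567⟩

theorem PFpa_q20_cert : PFpa_q20.Cert vPF :=
  ⟨PFpa_200_pw, PFpa_210_pw, PFpa_200_w, PFpa_210_w⟩

def PFpa_q30 : Piece := ⟨PFpa_300, PFpa_310, [0, -1513500000000, 4500140000000, -24417800000000, 61427920000000, -44577620000000], 84756⟩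

theorem PFpa_q30_cert : PFpa_q30.Cert vPF :=
  ⟨PFpa_300_pw, PFpa_310_pw, PFpa_300_w, PFpa_310_w⟩

def PFpa_q01 : Piece := ⟨PFpa_001, PFpa_011, [0, 2018000000000, 12329980000000, -42418360000000, 44396000000000, -10251440000000], 21189⟩

theorem PFpa_q01_cert : PFpa_q01.Cert vPF :=
  ⟨PFpa_001_pw, PFpa_011_pw, PFpa_001_w, PFpa_011_w⟩

def PFpa_q11 : Piece := ⟨PFpa_101, PFpa_111, [0, 242160000000, 12915200000000, -40400360000000, 41369000000000, -8092180000000], 42378⟩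

theorem PFpa_q11_cert : PFpa_q11.Cert vPF :=
  ⟨PFpa_101_pw, PFpa_111_pw, PFpa_101_w, PFpa_111_w⟩

def PFpa_q21 : Piece := ⟨PFpa_201, PFpa_211, [0, -1109900000000, 11724580000000, -35960760000000, 40682880000000, -9363520000000], 63567⟩

theorem PFpa_q21_cert : PFpa_q21.Cert vPF :=
  ⟨PFpa_201_pw, PFpa_211_pw, PFpa_201_w, PFpa_211_w⟩

def PFpa_q31 : Piece := ⟨PFpa_301, PFpa_311, [0, -2845380000000, 8637040000000, -24639780000000, 37232100000000, -12229080000000], 84756⟩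

theorem PFpa_q31_cert : PFpa_q31.Cert vPF :=
  ⟨PFpa_301_pw, PFpa_311_pw, PFpa_301_w, PFpa_311_w⟩

def PFpa : PMi := ⟨211890000000000, 20180, [0, 363836319000000, 3051216000000, 56108472000000, 31169019000000, -8009442000000], [PFpa_q00, PFpa_q10, PFpa_q20, PFpa_q30], [0, 364811013000000, 11314926000000, 45852996000000, -4661580000000, 49412748000000], [PFpa_q01, PFpa_q11, PFpa_q21, PFpa_q31], 1, 100, 19, 1000, -387758700000, -3877587000, -209771100000, -3985650900, 211890000⟩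

theorem PFpa_certP : PFpa.Cert vPF :=
  ⟨by decide +kernel, ⟨PFpa_q00_cert, PFpa_q10_cert, PFpa_q20_cert, PFpa_q30_cert, trivial⟩, ⟨PFpa_q01_cert, PFpa_q11_cert, PFpa_q21_cert, PFpa_q31_cert, trivial⟩,
    ⟨176, .leaf, by decide +kernel⟩, ⟨176, .leaf, by decide +kernel⟩⟩

end Vale.Agent.P154
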