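import Vale.Agent.P154.VPFpb_000
import Vale.Agent.P154.VPFpb_200
import Vale.Agent.P154.VPFpb_101

/-! Generated certificates. -/

namespace Vale.Agent.P154

def PFpb_q00 : Piece := ⟨PFpb_000, PFpb_010, [0, 3713120000000, 24579240000000, -82576560000000, 88226960000000, -22641960000000], 21189⟩

theorem PFpb_q00_cert : PFpb_q00.Cert vPF :=
  ⟨PFpb_000_pw, PFpb_010_pw, PFpb_000_w, PFpb_010_w⟩

def PFpb_q10 : Piece := ⟨PFpb_100, PFpb_110, [0, 1614400000000, 19009560000000, -69177040000000, 89235960000000, -29866400000000], 42378⟩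

theorem PFpb_q10_cert : PFpb_q10.Cert vPF :=
  ⟨PFpb_100_pw, PFpb_110_pw, PFpb_100_w, PFpb_110_w⟩

def PFpb_q20 : Piece := ⟨PFpb_200, PFpb_210, [0, -1493320000000, 15780760000000, -48956680000000, 71800440000000, -25628600000000], 63567⟩

theorem PFpb_q20_cert : PFpb_q20.Cert vPF :=
  ⟨PFpb_200_pw, PFpb_210_pw, PFpb_200_w, PFpb_210_w⟩

def PFpb_q30 : Piece := ⟨PFpb_300, PFpb_310, [0, -3914920000000, 13601320000000, -55091400000000, 117326520000000, -60580360000000], 84756⟩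

theorem PFpb_q30_cert : PFpb_q30.Cert vPF :=
  ⟨PFpb_300_pw, PFpb_310_pw, PFpb_300_w, PFpb_310_w⟩

def PFpb_q01 : Piece := ⟨PFpb_001, PFpb_011, [0, 6013640000000, 41328640000000, -131412160000000, 130403160000000, -25951480000000], 21189⟩

theorem PFpb_q01_cert : PFpb_q01.Cert vPF :=
  ⟨PFpb_001_pw, PFpb_011_pw, PFpb_001_w, PFpb_011_w⟩

def PFpb_q11 : Piece := ⟨PFpb_101, PFpb_111, [0, 2704120000000, 31924760000000, -109658120000000, 131856120000000, -36525800000000], 42378⟩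

theorem PFpb_q11_cert : PFpb_q11.Cert vPF :=
  ⟨PFpb_101_pw, PFpb_111_pw, PFpb_101_w, PFpb_111_w⟩

def PFpb_q21 : Piece := ⟨PFpb_201, PFpb_211, [0, -2421600000000, 24902120000000, -78419480000000, 115752480000000, -39754600000000], 63567⟩

theorem PFpb_q21_cert : PFpb_q21.Cert vPF :=
  ⟨PFpb_201_pw, PFpb_211_pw, PFpb_201_w, PFpb_211_w⟩

def PFpb_q31 : Piece := ⟨PFpb_301, PFpb_311, [0, -8233440000000, 24175640000000, -35395720000000, 66674720000000, -27081560000000], 84756⟩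

theorem PFpb_q31_cert : PFpb_q31.Cert vPF :=
  ⟨PFpb_301_pw, PFpb_311_pw, PFpb_301_w, PFpb_311_w⟩

def PFpb : PMi := ⟨423780000000000, 20180, [0, 679743120000000, 7797552000000, 85095024000000, 70898394000000, -11103036000000], [PFpb_q00, PFpb_q10, PFpb_q20, PFpb_q30], [0, 696948588000000, 31613988000000, 80179176000000, 6695724000000, 70728882000000], [PFpb_q01, PFpb_q11, PFpb_q21, PFpb_q31], 19, 1000, 61, 2000, -750090600000, -14251721400, -377164200000, -11503508100, 423780000⟩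

theorem PFpb_certP : PFpb.Cert vPF :=
  ⟨by decide +kernel, ⟨PFpb_q00_cert, PFpb_q10_cert, PFpb_q20_cert, PFpb_q30_cert, trivial⟩, ⟨PFpb_q01_cert, PFpb_q11_cert, PFpb_q21_cert, PFpb_q31_cert, trivial⟩,
    ⟨176, .leaf, by decide +kernel⟩, ⟨176, .leaf, by decide +kernel⟩⟩

end Vale.Agent.P154
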