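import Vale.Agent.P154.Final7
import Vale.Agent.P154.VXPA
import Vale.Agent.P154.VXPB
import Vale.Agent.P154.VXPC
import Vale.Agent.P154.VXPD
import Vale.Agent.P154.VXPE
import Vale.Agent.P154.VXPF
import Vale.Agent.P154.V5XPA1
import Vale.Agent.P154.V5XPB1
import Vale.Agent.P154.V5XPC1
import Vale.Agent.P154.V5XPD1
import Vale.Agent.P154.V5XPE1
import Vale.Agent.P154.V5XPE2
import Vale.Agent.P154.V5XPE3
import Vale.Agent.P154.V5XPE4
import Vale.Agent.P154.V5XPF1
import Vale.Agent.P154.V5XPF2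
import Vale.Agent.P154.V5XPF3
import Vale.Agent.P154.V5XPF4

/-!
Poisson trees, `q = 3`: all `lam`.
-/

namespace Vale.Agent.P154

open DE

/-- Poisson trees, `-1/2 ≤ lam ≤ 0`. -/
theorem pois_neg_all {lam d : ℝ} (h0 : -(1 / 2) ≤ lam) (h1 : lam ≤ 0) (hd : 0 ≤ d)
    (hdl : d * lam ^ 2 ≤ 1) : Nonreconstruction 3 lam (poisson d) := by
  rcases le_total (-(46 / 100)) lam with h | h
  · exact pois_neg46 h h1 hd hdl
  rcases le_total (-(93 / 200)) lam with a1 | a1
  · exact low_PA a1 (by linarith) hd hdl (de_PA1 a1 (by linarith) hd hdl)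
  rcases le_total (-(47 / 100)) lam with a2 | a2
  · exact low_PB a2 a1 hd hdl (de_PB1 a2 a1 hd hdl)
  rcases le_total (-(19 / 40)) lam with a3 | a3
  · exact low_PC a3 a2 hd hdl (de_PC1 a3 a2 hd hdl)
  rcases le_total (-(12 / 25)) lam with a4 | a4
  · exact low_PD (by linarith) (by linarith) hd hdl (de_PD1 a4 a3 hd hdl)
  rcases le_total (-(193 / 400)) lam with a5 | a5
  · exact low_PE (by linarith) a4 hd hdl (de_PE1 a5 a4 hd hdl)
  rcases le_total (-(194 / 400)) lam with a6 | a6
  · exact low_PE (by linarith) a4 hd hdl (de_PE2 (by linarith) (by linarith) hd hdl)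
  rcases le_total (-(195 / 400)) lam with a7 | a7
  · exact low_PE (by linarith) a4 hd hdl (de_PE3 (by linarith) (by linarith) hd hdl)
  rcases le_total (-(196 / 400)) lam with a8 | a8
  · exact low_PE (by linarith) a4 hd hdl (de_PE4 (by linarith) (by linarith) hd hdl)
  rcases le_total (-(197 / 400)) lam with a9 | a9
  · exact low_PF h0 (by linarith) hd hdl (de_PF1 (by linarith) (by linarith) hd hdl)
  rcases le_total (-(198 / 400)) lam with b1 | b1
  · exact low_PF h0 (by linarith) hd hdl (de_PF2 (by linarith) (by linarith) hd hdl)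
  rcases le_total (-(199 / 400)) lam with b2 | b2
  · exact low_PF h0 (by linarith) hd hdl (de_PF3 (by linarith) (by linarith) hd hdl)
  · exact low_PF h0 (by linarith) hd hdl (de_PF4 h0 b2 hd hdl)

/-- Poisson trees, `q = 3`: all `lam`. -/
theorem pois_three {lam d : ℝ} (h0 : -(1 / 2) ≤ lam) (h1 : lam ≤ 1) (hd : 0 ≤ d)
    (hdl : d * lam ^ 2 ≤ 1) : Nonreconstruction 3 lam (poisson d) := by
  rcases le_total 0 lam with hp | hp
  · exact pois_nonneg hp h1 hd hdl
  · exact pois_neg_all h0 hp hd hdl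

end Vale.Agent.P154
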