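import Mathlib

/-!
Kronecker positivity: certify that an integer polynomial (given as an expression) has only
nonnegative coefficients (or is zero) by evaluating it in the kernel at powers of a large base.
-/

namespace Vale.Agent.P154

/-- polynomial expressions -/
inductive PE where
  | c (z : Int)
  | v (i : Nat)
  | add (a b : PE)
  | sub (a b : PE)
  | mul (a b : PE)

/-- semantic value -/
def PE.ev {R : Type*} [CommRing R] (ρ : Nat → R) : PE → R
  | .c z => (z : R)
  | .v i => ρ i
  | .add a b => a.ev ρ + b.ev ρ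
  | .sub a b => a.ev ρ - b.ev ρ
  | .mul a b => a.ev ρ * b.ev ρ

/-- integer value (kernel friendly) -/
def PE.evZ (w : Nat → Int) : PE → Int
  | .c z => z
  | .v i => w i
  | .add a b => Int.add (a.evZ w) (b.evZ w)
  | .sub a b => Int.sub (a.evZ w) (b.evZ w)
  | .mul a b => Int.mul (a.evZ w) (b.evZ w)

/-- bound for the sum of the absolute values of the coefficients -/
def PE.l1 : PE → Nat
  | .c z => z.natAbs
  | .v _ => 1
  | .add a b => a.l1 + b.l1
  | .sub a b => a.l1 + b.l1
  | .mul a b => a.l1 * b.l1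

/-- degree bound in variable `i` -/
def PE.deg (i : Nat) : PE → Nat
  | .c _ => 0
  | .v j => if i = j then 1 else 0
  | .add a b => max (a.deg i) (b.deg i)
  | .sub a b => max (a.deg i) (b.deg i)
  | .mul a b => a.deg i + b.deg i

/-- all variables have index `< m` -/
def PE.vars (m : Nat) : PE → Bool
  | .c _ => true
  | .v j => j < m
  | .add a b => a.vars m && b.vars m
  | .sub a b => a.vars m && b.vars m
  | .mul a b => a.vars m && b.vars m

/-- `∑_{j < M} 2^(K-1) * 2^(K j)` -/
def halfMask (M K : Nat) : Nat := (2 ^ (K * M) - 1) / (2 ^ K - 1) * 2 ^ (K - 1)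

/-- packed value of `e`: base `2^K`, `D + 1` slots per variable -/
def PE.packed (D K : Nat) (e : PE) : Int :=
  e.evZ (fun i => Int.ofNat (2 ^ (K * (D + 1) ^ i)))

def PE.side (m D K : Nat) (e : PE) : Bool :=
  0 < K && e.vars m && Nat.ble (e.l1 + 1) (2 ^ (K - 1)) &&
    (List.range m).all (fun i => Nat.ble (e.deg i) D)

/-- all coefficients are nonnegative -/
def PE.check (m D K : Nat) (e : PE) : Bool :=
  e.side m D K &&
    (match e.packed D K with
     | .ofNat n => Nat.beq (Nat.land (n + halfMask ((D + 1) ^ m) K) (halfMask ((D + 1) ^ m) K))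
          (halfMask ((D + 1) ^ m) K)
     | .negSucc _ => false)

/-- the polynomial is zero -/
def PE.checkZero (m D K : Nat) (e : PE) : Bool :=
  e.side m D K && decide (e.packed D K = 0)

namespace Kron

open Finset

/-! ### Digits -/

theorem digit_extract (B : ℕ) : ∀ (j M : ℕ) (d : ℕ → ℕ), (∀ i < M, d i < B) → j < M →
    (∑ i ∈ range M, d i * B ^ i) / B ^ j % B = d j := by
  intro j
  induction j with
  | zero =>
    intro M d hd hj
    obtain ⟨M, rfl⟩ : ∃ M', M = M' + 1 := ⟨M - 1, by omega⟩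
    rw [Finset.sum_range_succ']
    have h1 : ∑ i ∈ range M, d (i + 1) * B ^ (i + 1) = B * ∑ i ∈ range M, d (i + 1) * B ^ i := by
      rw [Finset.mul_sum]
      exact Finset.sum_congr rfl fun i _ => by ring
    rw [h1, pow_zero, Nat.div_one, mul_one, Nat.mul_add_mod, Nat.mod_eq_of_lt (hd 0 (by omega))]
  | succ j ih =>
    intro M d hd hj
    obtain ⟨M, rfl⟩ : ∃ M', M = M' + 1 := ⟨M - 1, by omega⟩
    rw [Finset.sum_range_succ']
    have h1 : ∑ i ∈ range M, d (i + 1) * B ^ (i + 1) = B * ∑ i ∈ range M, d (i + 1) * B ^ i := by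
      rw [Finset.mul_sum]
      exact Finset.sum_congr rfl fun i _ => by ring
    have hB : 0 < B := lt_of_le_of_lt (Nat.zero_le _) (hd 0 (by omega))
    rw [h1, pow_zero, mul_one, pow_succ', ← Nat.div_div_eq_div_mul, Nat.mul_add_div hB,
      Nat.div_eq_of_lt (hd 0 (by omega)), add_zero]
    exact ih M (fun i => d (i + 1)) (fun i hi => hd (i + 1) (by omega)) (by omega)

theorem sum_digits_lt (B : ℕ) : ∀ (M : ℕ) (d : ℕ → ℕ), (∀ i < M, d i < B) →
    ∑ i ∈ range M, d i * B ^ i < B ^ M := by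
  intro M
  induction M with
  | zero => intro d _; simp
  | succ M ih =>
    intro d hd
    rw [Finset.sum_range_succ, pow_succ]
    have h1 := ih d (fun i hi => hd i (by omega))
    have h2 : (d M + 1) * B ^ M ≤ B * B ^ M := Nat.mul_le_mul_right _ (hd M (by omega))
    nlinarith

theorem halfMask_eq (M K : ℕ) (hK : 0 < K) :
    halfMask M K = ∑ j ∈ range M, 2 ^ (K - 1) * (2 ^ K) ^ j := by
  have h2 : 2 ≤ 2 ^ K := by
    calc 2 = 2 ^ 1 := rfl
      _ ≤ 2 ^ K := Nat.pow_le_pow_right (by norm_num) hK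
  rw [halfMask, pow_mul, ← Nat.geomSum_eq h2 M, Finset.sum_mul]
  exact Finset.sum_congr rfl fun i _ => mul_comm _ _

theorem testBit_digit (K M : ℕ) (hK : 0 < K) (d : ℕ → ℕ) (hd : ∀ i < M, d i < 2 ^ K) (j : ℕ)
    (hj : j < M) :
    Nat.testBit (∑ i ∈ range M, d i * (2 ^ K) ^ i) (K * j + (K - 1)) = true ↔
      2 ^ (K - 1) ≤ d j := by
  have hKe : 2 ^ K = 2 ^ (K - 1) * 2 := by
    rw [← pow_succ]; congr 1; omega
  have h1 : (∑ i ∈ range M, d i * (2 ^ K) ^ i) / 2 ^ (K * j + (K - 1)) % 2 =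
      d j / 2 ^ (K - 1) := by
    rw [pow_add, ← Nat.div_div_eq_div_mul, pow_mul]
    have h2 := digit_extract (2 ^ K) j M d hd hj
    rw [← Nat.mod_mul_right_div_self, ← hKe, h2]
  rw [Nat.testBit_eq_decide_div_mod_eq, h1, decide_eq_true_iff]
  have hdj := hd j hj
  rw [hKe] at hdj
  have hpos : 0 < 2 ^ (K - 1) := by positivity
  constructor
  · intro h
    by_contra hlt
    rw [Nat.div_eq_of_lt (not_le.1 hlt)] at h
    omega
  · intro h
    have h3 : d j / 2 ^ (K - 1) < 2 := Nat.div_lt_of_lt_mul hdj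
    have h4 : 1 ≤ d j / 2 ^ (K - 1) := (Nat.one_le_div_iff hpos).2 h
    omega

/-! ### The polynomial of an expression -/

/-- The polynomial of an expression. -/
noncomputable def poly (e : PE) : MvPolynomial ℕ ℤ := e.ev MvPolynomial.X

theorem map_ev {R S : Type*} [CommRing R] [CommRing S] (f : R →+* S) (ρ : ℕ → R) (e : PE) :
    f (e.ev ρ) = e.ev (fun i => f (ρ i)) := by
  induction e with
  | c z => simp [PE.ev]
  | v i => simp [PE.ev]
  | add a b iha ihb => simp [PE.ev, iha, ihb]
  | sub a b iha ihb => simp [PE.ev, iha, ihb]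
  | mul a b iha ihb => simp [PE.ev, iha, ihb]

theorem ev_eq_sum {R : Type*} [CommRing R] (ρ : ℕ → R) (e : PE) :
    e.ev ρ = ∑ α ∈ (poly e).support,
      (((poly e).coeff α : ℤ) : R) * ∏ i ∈ α.support, ρ i ^ α i := by
  have h1 := map_ev (MvPolynomial.eval₂Hom (Int.castRingHom R) ρ) MvPolynomial.X e
  have h2 : (fun i => MvPolynomial.eval₂Hom (Int.castRingHom R) ρ (MvPolynomial.X i)) = ρ := by
    funext i; simp
  rw [h2] at h1
  rw [← h1]
  rfl

theorem evZ_eq (w : ℕ → ℤ) (e : PE) : e.evZ w = e.ev w := by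
  induction e with
  | c z => simp [PE.ev, PE.evZ]
  | v i => simp [PE.ev, PE.evZ]
  | add a b iha ihb => rw [PE.ev, PE.evZ, iha, ihb]; rfl
  | sub a b iha ihb => rw [PE.ev, PE.evZ, iha, ihb]; rfl
  | mul a b iha ihb => rw [PE.ev, PE.evZ, iha, ihb]; rfl

theorem degreeOf_le (i : ℕ) (e : PE) : (poly e).degreeOf i ≤ e.deg i := by
  induction e with
  | c z =>
    have : poly (.c z) = MvPolynomial.C z := by
      rw [poly, PE.ev]; simp
    rw [this, MvPolynomial.degreeOf_C]
    exact Nat.zero_le _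
  | v j =>
    have : poly (.v j) = MvPolynomial.X j := rfl
    rw [this, MvPolynomial.degreeOf_X, PE.deg]
  | add a b iha ihb =>
    have : poly (.add a b) = poly a + poly b := rfl
    rw [this, PE.deg]
    exact (MvPolynomial.degreeOf_add_le _ _ _).trans (max_le_max iha ihb)
  | sub a b iha ihb =>
    have : poly (.sub a b) = poly a + MvPolynomial.C (-1) * poly b := by
      have h : poly (.sub a b) = poly a - poly b := rfl
      rw [h]; simp [sub_eq_add_neg]
    rw [this, PE.deg]
    exact (MvPolynomial.degreeOf_add_le _ _ _).trans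
      (max_le_max iha ((MvPolynomial.degreeOf_C_mul_le _ _ _).trans ihb))
  | mul a b iha ihb =>
    have : poly (.mul a b) = poly a * poly b := rfl
    rw [this, PE.deg]
    exact (MvPolynomial.degreeOf_mul_le _ _ _).trans (add_le_add iha ihb)

theorem deg_eq_zero (m : ℕ) (i : ℕ) (hi : m ≤ i) (e : PE) (h : e.vars m = true) :
    e.deg i = 0 := by
  induction e with
  | c z => rfl
  | v j =>
    rw [PE.vars, decide_eq_true_iff] at h
    rw [PE.deg, if_neg (by omega)]
  | add a b iha ihb =>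
    rw [PE.vars, Bool.and_eq_true] at h
    rw [PE.deg, iha h.1, ihb h.2]; rfl
  | sub a b iha ihb =>
    rw [PE.vars, Bool.and_eq_true] at h
    rw [PE.deg, iha h.1, ihb h.2]; rfl
  | mul a b iha ihb =>
    rw [PE.vars, Bool.and_eq_true] at h
    rw [PE.deg, iha h.1, ihb h.2]

/-! ### The sum of the absolute values of the coefficients -/

/-- The sum of the absolute values of the coefficients. -/
noncomputable def nrm (p : MvPolynomial ℕ ℤ) : ℤ := ∑ α ∈ p.support, |p.coeff α|

theorem nrm_nonneg (p : MvPolynomial ℕ ℤ) : 0 ≤ nrm p :=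
  Finset.sum_nonneg fun _ _ => abs_nonneg _

theorem nrm_eq_of_subset (p : MvPolynomial ℕ ℤ) (S : Finset (ℕ →₀ ℕ)) (h : p.support ⊆ S) :
    nrm p = ∑ α ∈ S, |p.coeff α| := by
  rw [nrm]
  refine Finset.sum_subset h fun α _ hα => ?_
  rw [MvPolynomial.notMem_support_iff.1 hα, abs_zero]

theorem nrm_add_le (p q : MvPolynomial ℕ ℤ) : nrm (p + q) ≤ nrm p + nrm q := by
  classical
  rw [nrm_eq_of_subset (p + q) (p.support ∪ q.support) MvPolynomial.support_add,
    nrm_eq_of_subset p (p.support ∪ q.support) Finset.subset_union_left,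
    nrm_eq_of_subset q (p.support ∪ q.support) Finset.subset_union_right,
    ← Finset.sum_add_distrib]
  refine Finset.sum_le_sum fun α _ => ?_
  rw [MvPolynomial.coeff_add]
  exact abs_add_le _ _

theorem nrm_neg (p : MvPolynomial ℕ ℤ) : nrm (-p) = nrm p := by
  simp [nrm]

theorem nrm_monomial (α : ℕ →₀ ℕ) (z : ℤ) : nrm (MvPolynomial.monomial α z) = |z| := by
  classical
  rw [nrm_eq_of_subset _ {α} MvPolynomial.support_monomial_subset]
  simp

theorem nrm_sum_le {ι : Type*} (s : Finset ι) (f : ι → MvPolynomial ℕ ℤ) :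
    nrm (∑ i ∈ s, f i) ≤ ∑ i ∈ s, nrm (f i) := by
  classical
  induction s using Finset.induction_on with
  | empty => simp [nrm]
  | insert a s ha ih =>
    rw [Finset.sum_insert ha, Finset.sum_insert ha]
    exact (nrm_add_le _ _).trans (add_le_add le_rfl ih)

theorem nrm_mul_le (p q : MvPolynomial ℕ ℤ) : nrm (p * q) ≤ nrm p * nrm q := by
  have h : p * q = ∑ α ∈ p.support, ∑ β ∈ q.support,
      MvPolynomial.monomial (α + β) (p.coeff α * q.coeff β) := by
    conv_lhs => rw [p.as_sum, q.as_sum]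
    rw [Finset.sum_mul_sum]
    refine Finset.sum_congr rfl fun α _ => Finset.sum_congr rfl fun β _ => ?_
    rw [MvPolynomial.monomial_mul]
  have h2 : nrm p * nrm q = ∑ α ∈ p.support, ∑ β ∈ q.support, |p.coeff α| * |q.coeff β| := by
    rw [nrm, nrm, Finset.sum_mul_sum]
  rw [h, h2]
  refine (nrm_sum_le _ _).trans (Finset.sum_le_sum fun α _ => ?_)
  refine (nrm_sum_le _ _).trans (Finset.sum_le_sum fun β _ => ?_)
  rw [nrm_monomial, abs_mul]

theorem nrm_poly_le (e : PE) : nrm (poly e) ≤ e.l1 := by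
  induction e with
  | c z =>
    have : poly (.c z) = MvPolynomial.monomial 0 z := by
      rw [poly, PE.ev]
      exact (map_intCast (MvPolynomial.C (σ := ℕ) (R := ℤ)) z).symm ▸ by simp
    rw [this, nrm_monomial, PE.l1, Int.natCast_natAbs]
  | v j =>
    have : poly (.v j) = MvPolynomial.monomial (Finsupp.single j 1) 1 := rfl
    rw [this, nrm_monomial, PE.l1]
    simp
  | add a b iha ihb =>
    have : poly (.add a b) = poly a + poly b := rfl
    rw [this, PE.l1]
    push_cast
    exact (nrm_add_le _ _).trans (add_le_add iha ihb)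
  | sub a b iha ihb =>
    have : poly (.sub a b) = poly a + -poly b := by
      have h : poly (.sub a b) = poly a - poly b := rfl
      rw [h, sub_eq_add_neg]
    rw [this, PE.l1]
    push_cast
    exact (nrm_add_le _ _).trans (add_le_add iha (by rw [nrm_neg]; exact ihb))
  | mul a b iha ihb =>
    have : poly (.mul a b) = poly a * poly b := rfl
    rw [this, PE.l1]
    push_cast
    exact (nrm_mul_le _ _).trans (mul_le_mul iha ihb (nrm_nonneg _) (by positivity))

/-! ### Kronecker packing -/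

/-- The slot of an exponent vector. -/
def slot (D : ℕ) (α : ℕ →₀ ℕ) : ℕ := ∑ i ∈ α.support, (D + 1) ^ i * α i

/-- Everything that `side` guarantees. -/
theorem side_spec {m D K : ℕ} {e : PE} (h : e.side m D K = true) :
    0 < K ∧ (e.l1 : ℤ) < 2 ^ (K - 1) ∧
      (∀ α ∈ (poly e).support, (∀ i < m, α i < D + 1) ∧ ∀ i, m ≤ i → α i = 0) := by
  rw [PE.side, Bool.and_eq_true, Bool.and_eq_true, Bool.and_eq_true, decide_eq_true_iff] at h
  obtain ⟨⟨⟨hK, hv⟩, hl⟩, hd⟩ := h
  refine ⟨hK, ?_, fun α hα => ⟨fun i hi => ?_, fun i hi => ?_⟩⟩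
  · have := Nat.le_of_ble_eq_true hl
    have h2 : e.l1 < 2 ^ (K - 1) := this
    exact_mod_cast h2
  · rw [List.all_eq_true] at hd
    have h1 := Nat.le_of_ble_eq_true (hd i (List.mem_range.2 hi))
    have h2 := MvPolynomial.monomial_le_degreeOf i hα
    have h3 := degreeOf_le i e
    omega
  · have h1 := deg_eq_zero m i hi e hv
    have h2 := MvPolynomial.monomial_le_degreeOf i hα
    have h3 := degreeOf_le i e
    omega

theorem slot_eq {m D : ℕ} {α : ℕ →₀ ℕ} (h : ∀ i, m ≤ i → α i = 0) :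
    slot D α = ∑ i ∈ range m, α i * (D + 1) ^ i := by
  rw [slot]
  have hs : α.support ⊆ range m := by
    intro i hi
    rw [Finset.mem_range]
    by_contra hlt
    exact (Finsupp.mem_support_iff.1 hi) (h i (not_lt.1 hlt))
  rw [← Finset.sum_subset hs]
  · exact Finset.sum_congr rfl fun i _ => mul_comm _ _
  · intro i _ hi
    rw [Finsupp.notMem_support_iff.1 hi, zero_mul]

/-- The coefficient packed in slot `j`. -/
noncomputable def cf (D : ℕ) (e : PE) (j : ℕ) : ℤ :=
  ∑ α ∈ (poly e).support with slot D α = j, (poly e).coeff α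

theorem packed_eq {m D K : ℕ} {e : PE} (h : e.side m D K = true) :
    e.packed D K = ∑ j ∈ range ((D + 1) ^ m), cf D e j * (2 ^ K) ^ j := by
  obtain ⟨hK, hl, hs⟩ := side_spec h
  rw [PE.packed, evZ_eq, ev_eq_sum]
  have hmaps : ∀ α ∈ (poly e).support, slot D α ∈ range ((D + 1) ^ m) := by
    intro α hα
    rw [Finset.mem_range, slot_eq (hs α hα).2]
    exact sum_digits_lt (D + 1) m _ (hs α hα).1
  rw [← Finset.sum_fiberwise_of_maps_to hmaps]
  refine Finset.sum_congr rfl fun j _ => ?_
  rw [cf, Finset.sum_mul]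
  refine Finset.sum_congr rfl fun α hα => ?_
  rw [Finset.mem_filter] at hα
  rw [Int.cast_id, ← hα.2, slot, ← Finset.prod_pow_eq_pow_sum]
  congr 1
  refine Finset.prod_congr rfl fun i _ => ?_
  have : (Int.ofNat (2 ^ (K * (D + 1) ^ i)) : ℤ) = 2 ^ (K * (D + 1) ^ i) := by
    rw [Int.ofNat_eq_natCast]; push_cast; rfl
  rw [this, ← pow_mul, ← pow_mul, mul_assoc]

theorem abs_cf_lt {m D K : ℕ} {e : PE} (h : e.side m D K = true) (j : ℕ) :
    |cf D e j| < 2 ^ (K - 1) := by
  obtain ⟨hK, hl, hs⟩ := side_spec h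
  refine lt_of_le_of_lt ?_ hl
  refine le_trans ?_ (nrm_poly_le e)
  rw [cf, nrm]
  refine (Finset.abs_sum_le_sum_abs _ _).trans ?_
  exact Finset.sum_le_sum_of_subset_of_nonneg (Finset.filter_subset _ _)
    fun _ _ _ => abs_nonneg _

theorem cf_slot {m D K : ℕ} {e : PE} (h : e.side m D K = true) {α : ℕ →₀ ℕ}
    (hα : α ∈ (poly e).support) : cf D e (slot D α) = (poly e).coeff α := by
  obtain ⟨hK, hl, hs⟩ := side_spec h
  rw [cf]
  have : (poly e).support.filter (fun β => slot D β = slot D α) = {α} := by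
    ext β
    rw [Finset.mem_filter, Finset.mem_singleton]
    constructor
    · rintro ⟨hβ, hβα⟩
      rw [slot_eq (hs α hα).2, slot_eq (hs β hβ).2] at hβα
      ext i
      rcases lt_or_ge i m with hi | hi
      · rw [← digit_extract (D + 1) i m _ (hs α hα).1 hi,
          ← digit_extract (D + 1) i m _ (hs β hβ).1 hi, hβα]
      · rw [(hs α hα).2 i hi, (hs β hβ).2 i hi]
    · rintro rfl
      exact ⟨hα, rfl⟩
  rw [this, Finset.sum_singleton]

/-- The digits of the packed value, shifted by `2^(K-1)`. -/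
noncomputable def dg (D K : ℕ) (e : PE) (j : ℕ) : ℕ := (cf D e j + 2 ^ (K - 1)).toNat

theorem dg_cast {m D K : ℕ} {e : PE} (h : e.side m D K = true) (j : ℕ) :
    (dg D K e j : ℤ) = cf D e j + 2 ^ (K - 1) := by
  have := abs_lt.1 (abs_cf_lt h j)
  rw [dg, Int.toNat_of_nonneg (by linarith [this.1])]

theorem dg_lt {m D K : ℕ} {e : PE} (h : e.side m D K = true) (j : ℕ) : dg D K e j < 2 ^ K := by
  have h1 := abs_lt.1 (abs_cf_lt h j)
  have h2 := dg_cast h j
  have hK := (side_spec h).1
  have hKe : (2 : ℤ) ^ K = 2 ^ (K - 1) * 2 := by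
    rw [← pow_succ]; congr 1; omega
  have : (dg D K e j : ℤ) < 2 ^ K := by rw [h2, hKe]; linarith [h1.2]
  exact_mod_cast this

theorem packed_add {m D K : ℕ} {e : PE} (h : e.side m D K = true) :
    e.packed D K + (halfMask ((D + 1) ^ m) K : ℤ) =
      ((∑ j ∈ range ((D + 1) ^ m), dg D K e j * (2 ^ K) ^ j : ℕ) : ℤ) := by
  rw [packed_eq h, halfMask_eq _ _ (side_spec h).1]
  push_cast
  rw [← Finset.sum_add_distrib]
  refine Finset.sum_congr rfl fun j _ => ?_
  rw [dg_cast h j]
  ring

theorem coeff_nonneg {m D K : ℕ} {e : PE} (h : e.check m D K = true) (α : ℕ →₀ ℕ)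
    (hα : α ∈ (poly e).support) : 0 ≤ (poly e).coeff α := by
  rw [PE.check, Bool.and_eq_true] at h
  obtain ⟨hside, h2⟩ := h
  obtain ⟨hK, hl, hs⟩ := side_spec hside
  have hlt : slot D α < (D + 1) ^ m := by
    rw [slot_eq (hs α hα).2]
    exact sum_digits_lt (D + 1) m _ (hs α hα).1
  have hpa := packed_add hside
  revert h2
  match hp : e.packed D K with
  | .negSucc n => intro h2; simp at h2
  | .ofNat n =>
    intro h2
    simp only at h2
    have h3 := Nat.eq_of_beq_eq_true h2
    rw [hp] at hpa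
    have h4 : n + halfMask ((D + 1) ^ m) K =
        ∑ j ∈ range ((D + 1) ^ m), dg D K e j * (2 ^ K) ^ j := by
      have : (Int.ofNat n : ℤ) = (n : ℤ) := rfl
      rw [this] at hpa
      exact_mod_cast hpa
    have h5 : Nat.testBit (halfMask ((D + 1) ^ m) K) (K * slot D α + (K - 1)) = true := by
      rw [halfMask_eq _ _ hK]
      rw [testBit_digit K _ hK (fun _ => 2 ^ (K - 1)) (fun i _ => ?_) _ hlt]
      exact Nat.pow_lt_pow_right (by norm_num) (by omega)
    have h6 : Nat.testBit (n + halfMask ((D + 1) ^ m) K) (K * slot D α + (K - 1)) = true := by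
      have h7 : Nat.testBit ((n + halfMask ((D + 1) ^ m) K) &&& halfMask ((D + 1) ^ m) K)
          (K * slot D α + (K - 1)) = true := by
        have h8 : (n + halfMask ((D + 1) ^ m) K) &&& halfMask ((D + 1) ^ m) K =
          halfMask ((D + 1) ^ m) K := h3
        rw [h8]; exact h5
      rw [Nat.testBit_and, Bool.and_eq_true] at h7
      exact h7.1
    rw [h4, testBit_digit K _ hK _ (fun i _ => dg_lt hside i) _ hlt] at h6
    have h9 := dg_cast hside (slot D α)
    rw [cf_slot hside hα] at h9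
    have h10 : ((2 ^ (K - 1) : ℕ) : ℤ) ≤ (dg D K e (slot D α) : ℤ) := by exact_mod_cast h6
    push_cast at h10
    linarith

theorem poly_eq_zero {m D K : ℕ} {e : PE} (h : e.checkZero m D K = true) : poly e = 0 := by
  rw [PE.checkZero, Bool.and_eq_true, decide_eq_true_iff] at h
  obtain ⟨hside, h2⟩ := h
  obtain ⟨hK, hl, hs⟩ := side_spec hside
  have hpa := packed_add hside
  rw [h2, zero_add, halfMask_eq _ _ hK] at hpa
  have h4 : ∑ j ∈ range ((D + 1) ^ m), 2 ^ (K - 1) * (2 ^ K) ^ j =
      ∑ j ∈ range ((D + 1) ^ m), dg D K e j * (2 ^ K) ^ j := by exact_mod_cast hpa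
  rw [← MvPolynomial.support_eq_empty, Finset.eq_empty_iff_forall_notMem]
  intro α hα
  have hlt : slot D α < (D + 1) ^ m := by
    rw [slot_eq (hs α hα).2]
    exact sum_digits_lt (D + 1) m _ (hs α hα).1
  have h5 := digit_extract (2 ^ K) (slot D α) ((D + 1) ^ m) (fun _ => 2 ^ (K - 1))
    (fun i _ => Nat.pow_lt_pow_right (by norm_num) (by omega)) hlt
  have h6 := digit_extract (2 ^ K) (slot D α) ((D + 1) ^ m) (dg D K e)
    (fun i _ => dg_lt hside i) hlt
  rw [h4, h6] at h5
  have h9 := dg_cast hside (slot D α)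
  rw [cf_slot hside hα, h5] at h9
  push_cast at h9
  exact (MvPolynomial.mem_support_iff.1 hα) (by linarith)

end Kron

theorem PE.nonneg_of_check {m D K : Nat} {e : PE} (h : e.check m D K = true) (ρ : Nat → ℝ)
    (hρ : ∀ i, 0 ≤ ρ i) : 0 ≤ e.ev ρ := by
  rw [Kron.ev_eq_sum]
  refine Finset.sum_nonneg fun α hα => mul_nonneg ?_ ?_
  · exact_mod_cast Kron.coeff_nonneg h α hα
  · exact Finset.prod_nonneg fun i _ => pow_nonneg (hρ i) _

theorem PE.zero_of_check {m D K : Nat} {e : PE} (h : e.checkZero m D K = true)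
    {R : Type*} [CommRing R] (ρ : Nat → R) : e.ev ρ = 0 := by
  rw [Kron.ev_eq_sum, Kron.poly_eq_zero h]
  simp

end Vale.Agent.P154
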