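import Vale.Agent.P154.Poly

/-!
Two-level Kronecker positivity: polynomials in two groups of two variables, given as
`∑_r v_r(s) ∑_c M_rc u_c(t)`.  The `v`-part is expanded digit by digit, the `u`-part is packed.
-/

namespace Vale.Agent.P154

open Finset

/-! ### Forcing evaluation in the kernel -/

def force (n : Nat) (f : Nat → Bool) : Bool :=
  match n with
  | 0 => f 0
  | m + 1 => f (m + 1)

theorem force_eq (n : Nat) (f : Nat → Bool) : force n f = f n := by cases n <;> rfl

def forceZ (z : Int) (f : Int → Bool) : Bool :=
  match z with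
  | .ofNat n => force n (fun n => f (.ofNat n))
  | .negSucc n => force n (fun n => f (.negSucc n))

theorem forceZ_eq (z : Int) (f : Int → Bool) : forceZ z f = f z := by
  cases z <;> simp [forceZ, force_eq]

def forceLZ : List Int → (List Int → Bool) → Bool
  | [], f => f []
  | a :: as, f => forceZ a (fun a => forceLZ as (fun as => f (a :: as)))

theorem forceLZ_eq (l : List Int) (f : List Int → Bool) : forceLZ l f = f l := by
  induction l generalizing f with
  | nil => rfl
  | cons a as ih => rw [forceLZ, forceZ_eq, ih]

def forceLN : List Nat → (List Nat → Bool) → Bool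
  | [], f => f []
  | a :: as, f => force a (fun a => forceLN as (fun as => f (a :: as)))

theorem forceLN_eq (l : List Nat) (f : List Nat → Bool) : forceLN l f = f l := by
  induction l generalizing f with
  | nil => rfl
  | cons a as ih => rw [forceLN, force_eq, ih]

def forceM : List (List Int) → (List (List Int) → Bool) → Bool
  | [], f => f []
  | a :: as, f => forceLZ a (fun a => forceM as (fun as => f (a :: as)))

theorem forceM_eq (l : List (List Int)) (f : List (List Int) → Bool) : forceM l f = f l := by
  induction l generalizing f with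
  | nil => rfl
  | cons a as ih => rw [forceM, forceLZ_eq, ih]

/-! ### The check -/

/-- `c + ∑ (digit at shift s of n) * b` -/
def acc (B s : Nat) : List Nat → List Nat → Nat → Nat
  | n :: ns, b :: bs, c => acc B s ns bs (Nat.add c (Nat.mul (Nat.mod (Nat.shiftRight n s) B) b))
  | _, _, c => c

def slotsOK (K B MOD h : Nat) (vs Bs : List Nat) (cst : Nat) : List Nat → Bool
  | [] => true
  | j :: js =>
    (Nat.beq (Nat.land (Nat.mod (acc B (Nat.mul K j) vs Bs cst) MOD) h) h) &&
      slotsOK K B MOD h vs Bs cst js

def toMod (MOD : Nat) : Int → Nat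
  | .ofNat n => Nat.mod n MOD
  | .negSucc n => Nat.sub MOD (Nat.succ (Nat.mod n MOD))

def toModL (MOD : Nat) : List Int → List Nat
  | [] => []
  | a :: as => toMod MOD a :: toModL MOD as

def sumZ : List Int → Int
  | [] => 0
  | a :: as => Int.add a (sumZ as)

def dotZ : List Int → List Int → Int
  | a :: as, b :: bs => Int.add (Int.mul a b) (dotZ as bs)
  | _, _ => 0

def rowsZ (us : List Int) : List (List Int) → List Int
  | [] => []
  | r :: M => dotZ r us :: rowsZ us M

def packL (D K : Nat) : List PE → List Int
  | [] => []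
  | e :: es => e.packed D K :: packL D K es

/-- packed values shifted by the half mask, as natural numbers -/
def packN (D K h : Nat) : List PE → List Nat
  | [] => []
  | e :: es => (Int.add (e.packed D K) (Int.ofNat h)).toNat :: packN D K h es

/-- `∑ |M_rc| L_c` -/
def dotN : List Int → List Nat → Nat
  | a :: as, b :: bs => a.natAbs * b + dotN as bs
  | _, _ => 0

def mdotN : List (List Int) → List Nat → List Nat → Nat
  | r :: M, lu, v :: lv => v * dotN r lu + mdotN M lu lv
  | _, _, _ => 0

def l1L : List PE → List Nat
  | [] => []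
  | e :: es => e.l1 :: l1L es

/-- total degree bound -/
def PE.tdeg : PE → Nat
  | .c _ => 0
  | .v _ => 1
  | .add a b => max a.tdeg b.tdeg
  | .sub a b => max a.tdeg b.tdeg
  | .mul a b => a.tdeg + b.tdeg

def degOK (D : Nat) : List PE → Bool
  | [] => true
  | e :: es => e.vars 2 && Nat.ble e.tdeg D && degOK D es

def l1OK (K : Nat) : List PE → Bool
  | [] => true
  | e :: es => Nat.ble (e.l1 + 1) (2 ^ (K - 1)) && l1OK K es

def slotList (D : Nat) : List Nat :=
  (List.range ((D + 1) ^ 2)).filter (fun j => Nat.ble (j % (D + 1) + j / (D + 1)) D)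

def twoLevel (D K : Nat) (M : List (List Int)) (eu ev : List PE) : Bool :=
  Nat.blt 0 K && degOK D eu && degOK D ev && l1OK K ev &&
  Nat.ble M.length ev.length &&
  forceM M fun M =>
  Nat.ble (mdotN M (l1L eu) (l1L ev) + 1) (2 ^ (K - 1)) &&
  force (halfMask ((D + 1) ^ 2) K) fun h =>
  force (2 ^ K) fun B =>
  force (2 ^ (K * (D + 1) ^ 2)) fun MOD =>
  forceLZ (packL D K eu) fun us =>
  forceLN (packN D K h ev) fun vs =>
  forceLZ (rowsZ us M) fun Bs =>
  forceLN (toModL MOD Bs) fun Bn =>
  force (toMod MOD (Int.sub (Int.ofNat h) (Int.mul (Int.ofNat (2 ^ (K - 1))) (sumZ Bs)))) fun cst =>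
  forceLN (slotList D) fun js =>
  slotsOK K B MOD h vs Bn cst js

end Vale.Agent.P154
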