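import Vale.Agent.P154.Kron2

/-!
Soundness of the two-level Kronecker positivity check.
-/

namespace Vale.Agent.P154

open Finset

namespace Kron

/-! ### positivity from the masked digits -/

theorem nonneg_of_land {m D K : ℕ} {e : PE} (hside : e.side m D K = true) {n : ℕ}
    (hn : (n : ℤ) = e.packed D K + (halfMask ((D + 1) ^ m) K : ℤ))
    (hland : Nat.land n (halfMask ((D + 1) ^ m) K) = halfMask ((D + 1) ^ m) K)
    (ρ : ℕ → ℝ) (hρ : ∀ i, 0 ≤ ρ i) : 0 ≤ e.ev ρ := by
  obtain ⟨hK, hl, hs⟩ := side_spec hside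
  rw [ev_eq_sum]
  refine Finset.sum_nonneg fun α hα => mul_nonneg ?_
    (Finset.prod_nonneg fun i _ => pow_nonneg (hρ i) _)
  have hlt : slot D α < (D + 1) ^ m := by
    rw [slot_eq (hs α hα).2]
    exact sum_digits_lt (D + 1) m _ (hs α hα).1
  have h4 : n = ∑ j ∈ range ((D + 1) ^ m), dg D K e j * (2 ^ K) ^ j := by
    have := packed_add hside
    rw [← hn] at this
    exact_mod_cast this
  have h5 : Nat.testBit (halfMask ((D + 1) ^ m) K) (K * slot D α + (K - 1)) = true := by
    rw [halfMask_eq _ _ hK]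
    rw [testBit_digit K _ hK (fun _ => 2 ^ (K - 1)) (fun i _ => ?_) _ hlt]
    exact Nat.pow_lt_pow_right (by norm_num) (by omega)
  have h6 : Nat.testBit n (K * slot D α + (K - 1)) = true := by
    have h7 : Nat.testBit (n &&& halfMask ((D + 1) ^ m) K)
        (K * slot D α + (K - 1)) = true := by
      have h8 : n &&& halfMask ((D + 1) ^ m) K = halfMask ((D + 1) ^ m) K := hland
      rw [h8]; exact h5
    rw [Nat.testBit_and, Bool.and_eq_true] at h7
    exact h7.1
  rw [h4, testBit_digit K _ hK _ (fun i _ => dg_lt hside i) _ hlt] at h6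
  have h9 := dg_cast hside (slot D α)
  rw [cf_slot hside hα] at h9
  have h10 : ((2 ^ (K - 1) : ℕ) : ℤ) ≤ (dg D K e (slot D α) : ℤ) := by exact_mod_cast h6
  push_cast at h10
  have h11 : (0 : ℤ) ≤ (poly e).coeff α := by linarith
  exact_mod_cast h11

/-! ### total degree -/

theorem totalDegree_le (e : PE) : (poly e).totalDegree ≤ e.tdeg := by
  induction e with
  | c z =>
    have : poly (.c z) = MvPolynomial.C z := by
      rw [poly, PE.ev]; simp
    rw [this, MvPolynomial.totalDegree_C]
    exact Nat.zero_le _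
  | v j =>
    have : poly (.v j) = MvPolynomial.X j := rfl
    rw [this, MvPolynomial.totalDegree_X]
    exact le_rfl
  | add a b iha ihb =>
    have : poly (.add a b) = poly a + poly b := rfl
    rw [this]
    exact (MvPolynomial.totalDegree_add _ _).trans (max_le_max iha ihb)
  | sub a b iha ihb =>
    have : poly (.sub a b) = poly a - poly b := rfl
    rw [this]
    exact (MvPolynomial.totalDegree_sub _ _).trans (max_le_max iha ihb)
  | mul a b iha ihb =>
    have : poly (.mul a b) = poly a * poly b := rfl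
    rw [this]
    exact (MvPolynomial.totalDegree_mul _ _).trans (add_le_add iha ihb)

theorem deg_le_tdeg (i : ℕ) (e : PE) : e.deg i ≤ e.tdeg := by
  induction e with
  | c z => simp [PE.deg]
  | v j => simp only [PE.deg, PE.tdeg]; split <;> simp
  | add a b iha ihb => exact max_le_max iha ihb
  | sub a b iha ihb => exact max_le_max iha ihb
  | mul a b iha ihb => exact add_le_add iha ihb

theorem sum_le_of_mem {e : PE} {D : ℕ} (hv : e.vars 2 = true) (hD : e.tdeg ≤ D) {α : ℕ →₀ ℕ}
    (hα : α ∈ (poly e).support) : α 0 + α 1 ≤ D := by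
  have h1 := MvPolynomial.le_totalDegree hα
  have h2 := totalDegree_le e
  have h3 : α 0 + α 1 ≤ α.sum fun _ n => n := by
    have hs : ∀ i, 2 ≤ i → α i = 0 := by
      intro i hi
      have h1 := deg_eq_zero 2 i hi e hv
      have h2 := MvPolynomial.monomial_le_degreeOf i hα
      have h3 := degreeOf_le i e
      omega
    have hsub : α.support ⊆ range 2 := by
      intro i hi
      rw [Finset.mem_range]
      by_contra hlt
      exact (Finsupp.mem_support_iff.1 hi) (hs i (not_lt.1 hlt))
    rw [Finsupp.sum_of_support_subset α hsub (fun _ n => n) (fun _ _ => rfl)]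
    simp [Finset.sum_range_succ]
  omega

/-- expansion of a polynomial in two variables in its digits -/
theorem ev_digits {D K : ℕ} {e : PE} (h : e.side 2 D K = true) (ρ : ℕ → ℝ) :
    e.ev ρ = ∑ j ∈ range ((D + 1) ^ 2), (cf D e j : ℝ) *
      (ρ 0 ^ (j % (D + 1)) * ρ 1 ^ (j / (D + 1))) := by
  obtain ⟨hK, hl, hs⟩ := side_spec h
  rw [ev_eq_sum]
  have hmaps : ∀ α ∈ (poly e).support, slot D α ∈ range ((D + 1) ^ 2) := by
    intro α hα
    rw [Finset.mem_range, slot_eq (hs α hα).2]
    exact sum_digits_lt (D + 1) 2 _ (hs α hα).1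
  rw [← Finset.sum_fiberwise_of_maps_to hmaps]
  refine Finset.sum_congr rfl fun j _ => ?_
  rw [cf, Int.cast_sum, Finset.sum_mul]
  refine Finset.sum_congr rfl fun α hα => ?_
  rw [Finset.mem_filter] at hα
  congr 1
  have h0 := (hs α hα.1).1 0 (by norm_num)
  have h1 := (hs α hα.1).1 1 (by norm_num)
  have hj : j = α 0 + (D + 1) * α 1 := by
    rw [← hα.2, slot_eq (hs α hα.1).2]
    simp [Finset.sum_range_succ]
    ring
  have hm : j % (D + 1) = α 0 := by
    rw [hj, Nat.add_mul_mod_self_left, Nat.mod_eq_of_lt h0]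
  have hd : j / (D + 1) = α 1 := by
    rw [hj, Nat.add_mul_div_left _ _ (by omega), Nat.div_eq_of_lt h0, zero_add]
  rw [hm, hd]
  have hsub : α.support ⊆ range 2 := by
    intro i hi
    rw [Finset.mem_range]
    by_contra hlt
    exact (Finsupp.mem_support_iff.1 hi) ((hs α hα.1).2 i (not_lt.1 hlt))
  rw [Finset.prod_subset hsub (fun i _ hi => by
    rw [Finsupp.notMem_support_iff.1 hi, pow_zero])]
  simp [Finset.prod_range_succ]

theorem cf_eq_zero {D K : ℕ} {e : PE} (h : e.side 2 D K = true) (hD : e.tdeg ≤ D) {j : ℕ}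
    (hj : D < j % (D + 1) + j / (D + 1)) : cf D e j = 0 := by
  obtain ⟨hK, hl, hs⟩ := side_spec h
  have hv : e.vars 2 = true := by
    rw [PE.side, Bool.and_eq_true, Bool.and_eq_true, Bool.and_eq_true] at h
    exact h.1.1.2
  rw [cf]
  refine Finset.sum_eq_zero fun α hα => ?_
  rw [Finset.mem_filter] at hα
  exfalso
  have h0 := (hs α hα.1).1 0 (by norm_num)
  have hj' : j = α 0 + (D + 1) * α 1 := by
    rw [← hα.2, slot_eq (hs α hα.1).2]
    simp [Finset.sum_range_succ]
    ring
  have hm : j % (D + 1) = α 0 := by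
    rw [hj', Nat.add_mul_mod_self_left, Nat.mod_eq_of_lt h0]
  have hd : j / (D + 1) = α 1 := by
    rw [hj', Nat.add_mul_div_left _ _ (by omega), Nat.div_eq_of_lt h0, zero_add]
  have := sum_le_of_mem hv hD hα.1
  omega

end Kron

/-! ### The list functions -/

theorem dotZ_eq (a b : List Int) : dotZ a b = dot a b := by
  induction a generalizing b with
  | nil => simp [dotZ, dot]
  | cons x xs ih =>
    cases b with
    | nil => simp [dotZ, dot]
    | cons y ys =>
      simp only [dotZ, dot, ih]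
      rfl

theorem packL_eq (D K : ℕ) (es : List PE) : packL D K es = es.map (PE.packed D K) := by
  induction es with
  | nil => rfl
  | cons e es ih => simp [packL, ih]

theorem packed_dotPE (D K : ℕ) (ds : List Int) (es : List PE) :
    (dotPE ds es).packed D K = dotZ ds (es.map (PE.packed D K)) := by
  rw [dotZ_eq]
  rw [PE.packed, Kron.evZ_eq, ev_dotPE]
  congr 1
  apply List.map_congr_left
  intro e _
  rw [PE.packed, Kron.evZ_eq]

theorem rowsZ_eq (D K : ℕ) (eu : List PE) (M : List (List Int)) :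
    rowsZ (packL D K eu) M = (M.map (fun r => dotPE r eu)).map (PE.packed D K) := by
  induction M with
  | nil => rfl
  | cons r M ih =>
    rw [rowsZ, ih, List.map_cons, List.map_cons, packed_dotPE, packL_eq]

theorem l1_dotPE (ds : List Int) (es : List PE) : (dotPE ds es).l1 = dotN ds (l1L es) := by
  induction ds generalizing es with
  | nil => simp [dotPE, dotN, PE.l1]
  | cons a as ih =>
    cases es with
    | nil => simp [dotPE, dotN, PE.l1, l1L]
    | cons e es => simp [dotPE, dotN, PE.l1, l1L, ih]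

theorem degOK_mem {D : ℕ} {es : List PE} (h : degOK D es = true) :
    ∀ e ∈ es, e.vars 2 = true ∧ e.tdeg ≤ D := by
  induction es with
  | nil => simp
  | cons e es ih =>
    rw [degOK, Bool.and_eq_true, Bool.and_eq_true] at h
    intro e' he'
    rcases List.mem_cons.1 he' with rfl | h2
    · exact ⟨h.1.1, Nat.le_of_ble_eq_true h.1.2⟩
    · exact ih h.2 e' h2

theorem l1OK_mem {K : ℕ} {es : List PE} (h : l1OK K es = true) :
    ∀ e ∈ es, e.l1 + 1 ≤ 2 ^ (K - 1) := by
  induction es with
  | nil => simp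
  | cons e es ih =>
    rw [l1OK, Bool.and_eq_true] at h
    intro e' he'
    rcases List.mem_cons.1 he' with rfl | h2
    · exact Nat.le_of_ble_eq_true h.1
    · exact ih h.2 e' h2

theorem dotPE_vars {es : List PE} (h : ∀ e ∈ es, e.vars 2 = true) (ds : List Int) :
    (dotPE ds es).vars 2 = true := by
  induction ds generalizing es with
  | nil => simp [dotPE, PE.vars]
  | cons a as ih =>
    cases es with
    | nil => simp [dotPE, PE.vars]
    | cons e es =>
      simp only [dotPE, PE.vars, Bool.true_and, Bool.and_eq_true]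
      exact ⟨h e (by simp), ih (fun e he => h e (by simp [he]))⟩

theorem dotPE_tdeg {D : ℕ} {es : List PE} (h : ∀ e ∈ es, e.tdeg ≤ D) (ds : List Int) :
    (dotPE ds es).tdeg ≤ D := by
  induction ds generalizing es with
  | nil => simp [dotPE, PE.tdeg]
  | cons a as ih =>
    cases es with
    | nil => simp [dotPE, PE.tdeg]
    | cons e es =>
      simp only [dotPE, PE.tdeg, zero_add]
      exact max_le (h e (by simp)) (ih (fun e he => h e (by simp [he])))

theorem side_of {D K : ℕ} {e : PE} (hK : 0 < K) (hv : e.vars 2 = true) (hD : e.tdeg ≤ D)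
    (hl : e.l1 + 1 ≤ 2 ^ (K - 1)) : e.side 2 D K = true := by
  rw [PE.side, Bool.and_eq_true, Bool.and_eq_true, Bool.and_eq_true, decide_eq_true_iff]
  refine ⟨⟨⟨hK, hv⟩, Nat.ble_eq_true_of_le hl⟩, ?_⟩
  rw [List.all_eq_true]
  intro i _
  exact Nat.ble_eq_true_of_le ((Kron.deg_le_tdeg i e).trans hD)

theorem toMod_cast {MOD : ℕ} (hM : 0 < MOD) (z : ℤ) :
    ((toMod MOD z : ℕ) : ℤ) ≡ z [ZMOD MOD] := by
  cases z with
  | ofNat n =>
    have : toMod MOD (Int.ofNat n) = n % MOD := rfl
    rw [this]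
    have h2 : (Int.ofNat n : ℤ) = (n : ℤ) := rfl
    rw [h2]
    push_cast
    exact Int.mod_modEq _ _
  | negSucc n =>
    have : toMod MOD (Int.negSucc n) = MOD - (n % MOD + 1) := rfl
    rw [this]
    have hlt : n % MOD + 1 ≤ MOD := Nat.mod_lt _ hM
    rw [Nat.cast_sub hlt, Int.negSucc_eq]
    push_cast
    have h1 : (n : ℤ) % MOD ≡ n [ZMOD MOD] := Int.mod_modEq _ _
    have h2 : ((MOD : ℤ) - ((n : ℤ) % MOD + 1)) ≡ (0 - ((n : ℤ) + 1)) [ZMOD MOD] :=
      Int.ModEq.sub (by simp [Int.ModEq]) (h1.add_right 1)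
    simpa using h2

/-- the accumulated value modulo `MOD` -/
theorem acc_cast {MOD : ℕ} (hM : 0 < MOD) (B s : ℕ) (ns : List ℕ) (zs : List ℤ) (c : ℕ) :
    ((acc B s ns (toModL MOD zs) c : ℕ) : ℤ) ≡
      c + dotZ (ns.map (fun n => ((n / 2 ^ s % B : ℕ) : ℤ))) zs [ZMOD MOD] := by
  induction ns generalizing zs c with
  | nil =>
    have : acc B s [] (toModL MOD zs) c = c := by
      cases zs <;> rfl
    rw [this]
    simp [dotZ, Int.ModEq]
  | cons n ns ih =>
    cases zs with
    | nil =>
      simp [acc, toModL, dotZ, Int.ModEq]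
    | cons z zs =>
      rw [toModL, acc]
      refine (ih zs _).trans ?_
      rw [List.map_cons, dotZ]
      have h1 : ((Nat.add c (Nat.mul (Nat.mod (Nat.shiftRight n s) B) (toMod MOD z)) : ℕ) : ℤ)
          = c + ((n / 2 ^ s % B : ℕ) : ℤ) * (toMod MOD z : ℕ) := by
        have h2 : Nat.shiftRight n s = n / 2 ^ s := Nat.shiftRight_eq_div_pow n s
        rw [h2]
        have h3 : Nat.add c (Nat.mul (Nat.mod (n / 2 ^ s) B) (toMod MOD z))
          = c + (n / 2 ^ s % B) * toMod MOD z := rfl
        rw [h3]; push_cast; ring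
      rw [h1]
      have h4 : ((n / 2 ^ s % B : ℕ) : ℤ) * (toMod MOD z : ℕ) ≡
          ((n / 2 ^ s % B : ℕ) : ℤ) * z [ZMOD MOD] := (toMod_cast hM z).mul_left _
      have h5 : Int.add (Int.mul ((n / 2 ^ s % B : ℕ) : ℤ) z)
          (dotZ (ns.map (fun n => ((n / 2 ^ s % B : ℕ) : ℤ))) zs) =
          ((n / 2 ^ s % B : ℕ) : ℤ) * z +
          (dotZ (ns.map (fun n => ((n / 2 ^ s % B : ℕ) : ℤ))) zs) := rfl
      rw [h5]
      have h6 := (h4.add_left c).add_right
        (dotZ (ns.map (fun n => ((n / 2 ^ s % B : ℕ) : ℤ))) zs)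
      rw [← add_assoc]
      exact h6

theorem sumZ_eq (l : List Int) : sumZ l = l.sum := by
  induction l with
  | nil => rfl
  | cons a as ih => rw [sumZ, List.sum_cons, ih]; rfl

/-- shifting the digits -/
theorem dotZ_shift (H : ℤ) (as : List ℤ) (zs : List ℤ) (hlen : zs.length ≤ as.length) :
    dotZ (as.map (fun a => a + H)) zs = dotZ as zs + H * sumZ zs := by
  induction as generalizing zs with
  | nil =>
    have : zs = [] := by
      cases zs with
      | nil => rfl
      | cons _ _ => simp at hlen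
    subst this
    simp [dotZ, sumZ]
  | cons a as ih =>
    cases zs with
    | nil => simp [dotZ, sumZ]
    | cons z zs =>
      simp only [List.map_cons, dotZ, sumZ]
      rw [ih zs (by simpa using hlen)]
      have e1 : ∀ x y : ℤ, Int.add x y = x + y := fun _ _ => rfl
      have e2 : ∀ x y : ℤ, Int.mul x y = x * y := fun _ _ => rfl
      simp only [e1, e2]
      ring

theorem map_toNat_digit {D K : ℕ} (hK : 0 < K) {e : PE} (h : e.side 2 D K = true) {j : ℕ}
    (hj : j < (D + 1) ^ 2) :
    ((((Int.add (e.packed D K) (Int.ofNat (halfMask ((D + 1) ^ 2) K))).toNat / 2 ^ (K * j) % 2 ^ K :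
      ℕ)) : ℤ) = Kron.cf D e j + 2 ^ (K - 1) := by
  have h1 := Kron.packed_add h
  have h2 : (Int.add (e.packed D K) (Int.ofNat (halfMask ((D + 1) ^ 2) K))).toNat =
      ∑ j ∈ range ((D + 1) ^ 2), Kron.dg D K e j * (2 ^ K) ^ j := by
    have : Int.add (e.packed D K) (Int.ofNat (halfMask ((D + 1) ^ 2) K)) =
      e.packed D K + (halfMask ((D + 1) ^ 2) K : ℤ) := rfl
    rw [this, h1, Int.toNat_natCast]
  rw [h2, pow_mul, Kron.digit_extract (2 ^ K) j _ _ (fun i _ => Kron.dg_lt h i) hj,
    Kron.dg_cast h]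

theorem natAbs_cf_le {D K : ℕ} {e : PE} (h : e.side 2 D K = true) (j : ℕ) :
    (Kron.cf D e j).natAbs ≤ e.l1 := by
  have : |Kron.cf D e j| ≤ (e.l1 : ℤ) := by
    refine le_trans ?_ (Kron.nrm_poly_le e)
    rw [Kron.cf, Kron.nrm]
    refine (Finset.abs_sum_le_sum_abs _ _).trans ?_
    exact Finset.sum_le_sum_of_subset_of_nonneg (Finset.filter_subset _ _)
      fun _ _ _ => abs_nonneg _
  rw [Int.abs_eq_natAbs] at this
  exact_mod_cast this

/-- the combination of the rows in slot `j` -/
noncomputable def wPE (D : ℕ) (M : List (List Int)) (eu ev : List PE) (j : ℕ) : PE :=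
  dotPE (ev.map (fun e => Kron.cf D e j)) (M.map (fun r => dotPE r eu))

theorem l1_wPE_le {D K : ℕ} (M : List (List Int)) (eu ev : List PE) (j : ℕ)
    (hs : ∀ e ∈ ev, e.side 2 D K = true) :
    (wPE D M eu ev j).l1 ≤ mdotN M (l1L eu) (l1L ev) := by
  rw [wPE, l1_dotPE]
  induction M generalizing ev with
  | nil =>
    have : dotN (ev.map (fun e => Kron.cf D e j)) (l1L (([] : List (List Int)).map
        (fun r => dotPE r eu))) = 0 := by
      cases ev <;> simp [dotN, l1L]
    rw [this]; exact Nat.zero_le _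
  | cons r M ih =>
    cases ev with
    | nil => simp [dotN]
    | cons e ev =>
      simp only [List.map_cons, l1L, dotN, mdotN]
      refine add_le_add ?_ (ih ev (fun e he => hs e (by simp [he])))
      rw [l1_dotPE]
      exact Nat.mul_le_mul_right _ (natAbs_cf_le (hs e (by simp)) j)

theorem mdot_eq_sum {D K : ℕ} (M : List (List Int)) (eu ev : List PE)
    (hs : ∀ e ∈ ev, e.side 2 D K = true) (ρu ρv : ℕ → ℝ) :
    mdot M (eu.map (PE.ev ρu)) (ev.map (PE.ev ρv)) =
      ∑ j ∈ range ((D + 1) ^ 2), (ρv 0 ^ (j % (D + 1)) * ρv 1 ^ (j / (D + 1))) *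
        (wPE D M eu ev j).ev ρu := by
  induction M generalizing ev with
  | nil =>
    have h1 : ∀ j, (wPE D [] eu ev j).ev ρu = 0 := by
      intro j
      rw [wPE]
      cases ev <;> simp [dotPE, PE.ev]
    simp [mdot, h1]
  | cons r M ih =>
    cases ev with
    | nil =>
      have h1 : ∀ j, (wPE D (r :: M) eu [] j).ev ρu = 0 := by
        intro j
        rw [wPE]
        simp [dotPE, PE.ev]
      simp [mdot, h1]
    | cons e ev =>
      have h1 : ∀ j, (wPE D (r :: M) eu (e :: ev) j).ev ρu =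
          (Kron.cf D e j : ℝ) * dot r (eu.map (PE.ev ρu)) + (wPE D M eu ev j).ev ρu := by
        intro j
        rw [wPE, List.map_cons, List.map_cons, dotPE, PE.ev, PE.ev, PE.ev, ev_dotPE, wPE]
      rw [List.map_cons, mdot, ih ev (fun e he => hs e (by simp [he])),
        Kron.ev_digits (hs e (by simp)), Finset.sum_mul, ← Finset.sum_add_distrib]
      refine Finset.sum_congr rfl fun j _ => ?_
      rw [h1]
      ring

theorem slotsOK_mem {K B MOD h : ℕ} {vs Bs : List ℕ} {cst : ℕ} {js : List ℕ}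
    (H : slotsOK K B MOD h vs Bs cst js = true) :
    ∀ j ∈ js, Nat.land (acc B (K * j) vs Bs cst % MOD) h = h := by
  induction js with
  | nil => simp
  | cons a as ih =>
    rw [slotsOK, Bool.and_eq_true] at H
    intro j hj
    rcases List.mem_cons.1 hj with rfl | h2
    · exact Nat.eq_of_beq_eq_true H.1
    · exact ih H.2 j h2

theorem twoLevel_sound {D K : ℕ} {M : List (List Int)} {eu ev : List PE}
    (H : twoLevel D K M eu ev = true) (ρu ρv : ℕ → ℝ) (hu : ∀ i, 0 ≤ ρu i) (hv : ∀ i, 0 ≤ ρv i) :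
    0 ≤ mdot M (eu.map (PE.ev ρu)) (ev.map (PE.ev ρv)) := by
  simp only [twoLevel, force_eq, forceLZ_eq, forceLN_eq, forceM_eq,
    Bool.and_eq_true] at H
  obtain ⟨⟨⟨⟨⟨hK0, hdu⟩, hdv⟩, hlv⟩, hlen⟩, hb, hslots⟩ := H
  have hK : 0 < K := by
    have := Nat.le_of_ble_eq_true hK0
    omega
  have hlen' := Nat.le_of_ble_eq_true hlen
  have hb' := Nat.le_of_ble_eq_true hb
  have hdu' := degOK_mem hdu
  have hdv' := degOK_mem hdv
  have hlv' := l1OK_mem hlv
  have hsv : ∀ e ∈ ev, e.side 2 D K = true := fun e he =>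
    side_of hK (hdv' e he).1 (hdv' e he).2 (hlv' e he)
  rw [mdot_eq_sum M eu ev hsv]
  refine Finset.sum_nonneg fun j hj => ?_
  refine mul_nonneg (mul_nonneg (pow_nonneg (hv 0) _) (pow_nonneg (hv 1) _)) ?_
  rw [Finset.mem_range] at hj
  by_cases hjD : j % (D + 1) + j / (D + 1) ≤ D
  swap
  · -- the unused slots
    have hz : ∀ e ∈ ev, Kron.cf D e j = 0 := fun e he =>
      Kron.cf_eq_zero (hsv e he) (hdv' e he).2 (not_le.1 hjD)
    rw [wPE, ev_dotPE]
    have h1 : ev.map (fun e => Kron.cf D e j) = ev.map (fun _ => (0 : ℤ)) :=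
      List.map_congr_left hz
    rw [h1]
    have h2 : ∀ (l : List PE) (g : List ℝ), dot (l.map (fun _ => (0 : ℤ))) g = 0 := by
      intro l
      induction l with
      | nil => intro g; simp [dot]
      | cons a as ih =>
        intro g
        cases g with
        | nil => simp [dot]
        | cons b bs =>
          rw [List.map_cons, dot, ih]
          simp
    rw [h2]
  -- the used slots
  have hw : (wPE D M eu ev j).side 2 D K = true := by
    refine side_of hK ?_ ?_ ?_
    · refine dotPE_vars (fun e he => ?_) _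
      obtain ⟨r, _, rfl⟩ := List.mem_map.1 he
      exact dotPE_vars (fun e he => (hdu' e he).1) _
    · refine dotPE_tdeg (fun e he => ?_) _
      obtain ⟨r, _, rfl⟩ := List.mem_map.1 he
      exact dotPE_tdeg (fun e he => (hdu' e he).2) _
    · have := l1_wPE_le (K := K) M eu ev j hsv
      omega
  set h := halfMask ((D + 1) ^ 2) K with hh
  set MOD := 2 ^ (K * (D + 1) ^ 2) with hMOD
  have hM : 0 < MOD := by positivity
  have hmem : j ∈ slotList D := by
    rw [slotList, List.mem_filter, List.mem_range]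
    exact ⟨hj, Nat.ble_eq_true_of_le hjD⟩
  have hland := slotsOK_mem hslots j hmem
  refine Kron.nonneg_of_land hw ?_ hland ρu hu
  -- the congruence
  set Bs := rowsZ (packL D K eu) M with hBs
  set cst := toMod MOD (Int.sub (Int.ofNat h) (Int.mul (Int.ofNat (2 ^ (K - 1))) (sumZ Bs)))
    with hcst
  have hacc := acc_cast hM (2 ^ K) (K * j) (packN D K h ev) Bs cst
  have hdig : (packN D K h ev).map (fun n => ((n / 2 ^ (K * j) % 2 ^ K : ℕ) : ℤ)) =
      (ev.map (fun e => Kron.cf D e j)).map (fun a => a + 2 ^ (K - 1)) := by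
    have : ∀ l : List PE, (∀ e ∈ l, e.side 2 D K = true) →
        (packN D K h l).map (fun n => ((n / 2 ^ (K * j) % 2 ^ K : ℕ) : ℤ)) =
        (l.map (fun e => Kron.cf D e j)).map (fun a => a + 2 ^ (K - 1)) := by
      intro l
      induction l with
      | nil => intro _; rfl
      | cons e es ih =>
        intro hl
        rw [packN, List.map_cons, List.map_cons, List.map_cons,
          ih (fun e he => hl e (by simp [he])), map_toNat_digit hK (hl e (by simp)) hj]
    exact this ev hsv
  rw [hdig, dotZ_shift _ _ _ (by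
    rw [hBs, rowsZ_eq]
    simpa using hlen')] at hacc
  have hcst' : ((cst : ℕ) : ℤ) ≡ (h : ℤ) - 2 ^ (K - 1) * sumZ Bs [ZMOD MOD] := by
    have h1 := toMod_cast hM
      (Int.sub (Int.ofNat h) (Int.mul (Int.ofNat (2 ^ (K - 1))) (sumZ Bs)))
    have h2 : Int.sub (Int.ofNat h) (Int.mul (Int.ofNat (2 ^ (K - 1))) (sumZ Bs)) =
        (h : ℤ) - ((2 ^ (K - 1) : ℕ) : ℤ) * sumZ Bs := rfl
    rw [← hcst, h2] at h1
    push_cast at h1
    exact h1
  have hpk : (wPE D M eu ev j).packed D K = dotZ (ev.map (fun e => Kron.cf D e j)) Bs := by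
    rw [wPE, packed_dotPE, hBs, rowsZ_eq]
  have hcong : ((acc (2 ^ K) (K * j) (packN D K h ev) (toModL MOD Bs) cst : ℕ) : ℤ) ≡
      (wPE D M eu ev j).packed D K + (h : ℤ) [ZMOD MOD] := by
    refine hacc.trans ?_
    rw [hpk]
    have h3 := hcst'.add_right (dotZ (ev.map (fun e => Kron.cf D e j)) Bs + 2 ^ (K - 1) * sumZ Bs)
    have h4 : (h : ℤ) - 2 ^ (K - 1) * sumZ Bs +
        (dotZ (ev.map (fun e => Kron.cf D e j)) Bs + 2 ^ (K - 1) * sumZ Bs) =
        dotZ (ev.map (fun e => Kron.cf D e j)) Bs + (h : ℤ) := by ring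
    rw [h4] at h3
    exact h3
  have hpa := Kron.packed_add hw
  have hlt : ∑ i ∈ range ((D + 1) ^ 2), Kron.dg D K (wPE D M eu ev j) i * (2 ^ K) ^ i < MOD := by
    have := Kron.sum_digits_lt (2 ^ K) ((D + 1) ^ 2) _ (fun i _ => Kron.dg_lt hw i)
    rw [← pow_mul] at this
    exact this
  push_cast
  have h5 : ((acc (2 ^ K) (K * j) (packN D K h ev) (toModL MOD Bs) cst : ℕ) : ℤ) % (MOD : ℤ) =
      ((wPE D M eu ev j).packed D K + (h : ℤ)) % (MOD : ℤ) := hcong
  rw [h5]
  refine Int.emod_eq_of_lt ?_ ?_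
  · rw [hpa]; positivity
  · rw [hpa]; exact_mod_cast hlt

end Vale.Agent.P154
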