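import Vale.Agent.P154.Kron2

/-!
Leaf certificates.
-/

namespace Vale.Agent.P154

/-! ### matrix arithmetic -/

def addL : List Int → List Int → List Int
  | [], b => b
  | a, [] => a
  | a :: as, b :: bs => Int.add a b :: addL as bs

def smulL (c : Int) : List Int → List Int
  | [] => []
  | a :: as => Int.mul c a :: smulL c as

def addM : List (List Int) → List (List Int) → List (List Int)
  | [], b => b
  | a, [] => a
  | a :: as, b :: bs => addL a b :: addM as bs

def smulM (c : Int) : List (List Int) → List (List Int)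
  | [] => []
  | a :: as => smulL c a :: smulM c as

/-- `∑ c_m T_m` -/
def lin : List Int → List (List (List Int)) → List (List Int)
  | c :: cs, T :: Ts => addM (smulM c T) (lin cs Ts)
  | _, _ => []

/-- Parameters of a merge inequality, all divided by `Q`:
`Φ = N + a N² + b N C + c C²` for the output and the two inputs. -/
structure Par where
  Q : Int
  aU : Int
  bU : Int
  cU : Int
  aV : Int
  bV : Int
  cV : Int
  aK : Int
  bK : Int
  cK : Int

/-- `2 Q W (U + V)` -/
def baseM (P : Par) (W : Int) : List (List Int) :=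
  let w := Int.mul 2 W
  [[0, w * P.Q, w * P.aU, 0, 0, 0, 0, w * P.bU, 0, 0, w * P.cU],
   [w * P.Q], [w * P.aV], [], [], [], [], [w * P.bV], [], [], [w * P.cV]]

/-- `a_K N_y² (1+z)² + b_K N_y C_y (1+z) + c_K C_y²` times `z^m`, as tables -/
def combT (a b c : Int) : List (List (List Int)) → List (List (List Int)) →
    List (List (List Int)) → List (List (List Int))
  | b0 :: b1 :: b2 :: bs, c0 :: c1 :: cs, d0 :: ds =>
    addM (smulM a (addM b0 (addM (smulM 2 b1) b2)))
      (addM (smulM b (addM c0 c1)) (smulM c d0)) :: combT a b c (b1 :: b2 :: bs) (c1 :: cs) ds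
  | _, _, _ => []

/-- matrix of `2 Q W (U + V - upper bound)` where `π₁ = l1 / W`, `π₅ = l5 / W`. -/
def leafM (P : Par) (W : Int) (T : List (List (List Int))) (l1 l5 : List Int) : List (List Int) :=
  addM (baseM P W) (addM (lin (smulL (-P.Q) l1) tabA) (lin (smulL (-1) l5) T))

/-- point of a triangle in coordinates `(S, p, r)`, `S = tot`, `p = (x0-x1)/2`, `r = (x1-x2)/2` -/
structure Pt where
  S : Int
  p : Int
  r : Int

structure Tri where
  a : Pt
  b : Pt
  c : Pt

def linPE (i : Nat) (a b c : Int) : PE :=
  PE.add (PE.c a) (PE.add (PE.mul (PE.c b) (PE.v i)) (PE.mul (PE.c c) (PE.v (i + 1))))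

/-- homogenised monomials of degree 10 on a triangle, in the variables `0`, `1` -/
def triMon (T : Tri) : List PE :=
  let S := linPE 0 T.a.S T.b.S T.c.S
  let p := linPE 0 T.a.p T.b.p T.c.p
  let r := linPE 0 T.a.r T.b.r T.c.r
  let N := nPE p r
  let C := cPE p r
  mons.map (fun e => PE.mul (PE.mul (N.pow e.1) (C.pow e.2)) (S.pow (10 - 2 * e.1 - 3 * e.2)))

end Vale.Agent.P154
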