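import Vale.Agent.P154.Leaf
import Vale.Agent.P154.Avg

/-!
Soundness of a leaf certificate.
-/

namespace Vale.Agent.P154

/-! ### matrices -/

theorem dot_addL (a b : List Int) (f : List ℝ) : dot (addL a b) f = dot a f + dot b f := by
  induction a generalizing b f with
  | nil => simp [addL, dot]
  | cons x xs ih =>
    cases b with
    | nil => simp [addL, dot]
    | cons y ys =>
      cases f with
      | nil => simp [addL, dot]
      | cons z zs =>
        have e : ((Int.add x y : ℤ) : ℝ) = (x : ℝ) + y := by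
          have : Int.add x y = x + y := rfl
          rw [this]; push_cast; ring
        simp only [addL, dot, ih, e]
        ring

theorem dot_smulL (c : Int) (a : List Int) (f : List ℝ) : dot (smulL c a) f = c * dot a f := by
  induction a generalizing f with
  | nil => simp [smulL, dot]
  | cons x xs ih =>
    cases f with
    | nil => simp [smulL, dot]
    | cons z zs =>
      have e : ((Int.mul c x : ℤ) : ℝ) = (c : ℝ) * x := by
        have : Int.mul c x = c * x := rfl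
        rw [this]; push_cast; ring
      simp only [smulL, dot, ih, e]
      ring

theorem mdot_addM (A B : List (List Int)) (f g : List ℝ) :
    mdot (addM A B) f g = mdot A f g + mdot B f g := by
  induction A generalizing B g with
  | nil => simp [addM, mdot]
  | cons x xs ih =>
    cases B with
    | nil => simp [addM, mdot]
    | cons y ys =>
      cases g with
      | nil => simp [addM, mdot]
      | cons z zs =>
        simp only [addM, mdot, ih, dot_addL]
        ring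

theorem mdot_smulM (c : Int) (A : List (List Int)) (f g : List ℝ) :
    mdot (smulM c A) f g = c * mdot A f g := by
  induction A generalizing g with
  | nil => simp [smulM, mdot]
  | cons x xs ih =>
    cases g with
    | nil => simp [smulM, mdot]
    | cons z zs =>
      simp only [smulM, mdot, ih, dot_smulL]
      ring

/-- value of a coefficient list -/
def pv : List Int → ℝ → ℝ
  | [], _ => 0
  | a :: as, z => a + z * pv as z

theorem pv_addL (a b : List Int) (z : ℝ) : pv (addL a b) z = pv a z + pv b z := by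
  induction a generalizing b with
  | nil => simp [addL, pv]
  | cons x xs ih =>
    cases b with
    | nil => simp [addL, pv]
    | cons y ys =>
      have e : ((Int.add x y : ℤ) : ℝ) = (x : ℝ) + y := by
        have : Int.add x y = x + y := rfl
        rw [this]; push_cast; ring
      simp only [addL, pv, ih, e]
      ring

theorem sum6_add (f g : V → ℝ) (y : V) :
    sum6 (fun v => f v + g v) y = sum6 f y + sum6 g y := by
  simp only [sum6]; ring

theorem sum6_smul (c : ℝ) (f : V → ℝ) (y : V) :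
    sum6 (fun v => c * f v) y = c * sum6 f y := by
  simp only [sum6]; ring

theorem sum6_congr {f g : V → ℝ} (y : V) (h : ∀ v, f v = g v) : sum6 f y = sum6 g y := by
  have : f = g := funext h
  rw [this]

/-- the tables `Ts` represent `F(w) z(w)^m`, `F(w) z(w)^(m+1)`, … -/
def TabOK (x y : V) (F : V → ℝ) : ℕ → List (List (List Int)) → Prop
  | _, [] => True
  | m, T :: Ts => mdot T (monL (Nh x) (Ch x)) (monL (Nh y) (Ch y)) =
      (1 / 3) * sum6 (fun v => F (had x v) * zz (had x v) ^ m) y ∧ TabOK x y F (m + 1) Ts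

theorem tabOK_of_allId (i j : ℕ) (x y : V) (hx : tot x = 1) (hy : tot y = 1)
    (Ts : List (List (List Int))) (m : ℕ) (h : allId i j m Ts = true) :
    TabOK x y (fun w => Ny w ^ i * Cy w ^ j) m Ts := by
  induction Ts generalizing m with
  | nil => trivial
  | cons T Ts ih =>
    rw [allId, Bool.and_eq_true] at h
    exact ⟨ev_idPE i j m T h.1 x y hx hy, ih (m + 1) h.2⟩

theorem table_sum (x y : V) (F : V → ℝ) (l : List Int)
    (Ts : List (List (List Int))) (m : ℕ) (h : TabOK x y F m Ts) (hl : l.length ≤ Ts.length) :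
    mdot (lin l Ts) (monL (Nh x) (Ch x)) (monL (Nh y) (Ch y)) =
      (1 / 3) * sum6 (fun v => F (had x v) *
        (zz (had x v) ^ m * pv l (zz (had x v)))) y := by
  induction l generalizing Ts m with
  | nil =>
    simp [lin, mdot, pv, sum6]
  | cons a as ih =>
    cases Ts with
    | nil => simp at hl
    | cons T Ts =>
      obtain ⟨h1, h2⟩ := h
      rw [lin, mdot_addM, mdot_smulM, ih Ts (m + 1) h2 (by simpa using hl), h1]
      have e : sum6 (fun v => F (had x v) *
          (zz (had x v) ^ m * pv (a :: as) (zz (had x v)))) y =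
          sum6 (fun v => (a : ℝ) * (F (had x v) * zz (had x v) ^ m) +
            F (had x v) *
              (zz (had x v) ^ (m + 1) * pv as (zz (had x v)))) y := by
        apply sum6_congr
        intro v
        rw [pv]; ring
      rw [e, sum6_add, sum6_smul]
      ring

/-- the quadratic form of the output potential -/
noncomputable def FK (a b c : ℝ) (w : V) : ℝ :=
  a * (Ny w ^ 2 * (1 + zz w) ^ 2) + b * (Ny w * Cy w * (1 + zz w)) + c * Cy w ^ 2

theorem combT_ok (a b c : Int) (x y : V) (Bs Cs Ds : List (List (List Int))) (m : ℕ)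
    (hB : TabOK x y (fun w => Ny w ^ 2 * Cy w ^ 0) m Bs)
    (hC : TabOK x y (fun w => Ny w ^ 1 * Cy w ^ 1) m Cs)
    (hD : TabOK x y (fun w => Ny w ^ 0 * Cy w ^ 2) m Ds) :
    TabOK x y (FK a b c) m (combT a b c Bs Cs Ds) := by
  induction Ds generalizing Bs Cs m with
  | nil =>
    have : combT a b c Bs Cs [] = [] := by
      rcases Bs with _ | ⟨b0, _ | ⟨b1, _ | ⟨b2, bs⟩⟩⟩ <;>
        rcases Cs with _ | ⟨c0, _ | ⟨c1, cs⟩⟩ <;> rfl
    rw [this]; trivial
  | cons d0 ds ih =>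
    rcases Bs with _ | ⟨b0, _ | ⟨b1, _ | ⟨b2, bs⟩⟩⟩
    · have : combT a b c [] Cs (d0 :: ds) = [] := by unfold combT; rfl
      rw [this]; trivial
    · have : combT a b c [b0] Cs (d0 :: ds) = [] := by unfold combT; rfl
      rw [this]; trivial
    · have : combT a b c [b0, b1] Cs (d0 :: ds) = [] := by unfold combT; rfl
      rw [this]; trivial
    · rcases Cs with _ | ⟨c0, _ | ⟨c1, cs⟩⟩
      · have : combT a b c (b0 :: b1 :: b2 :: bs) [] (d0 :: ds) = [] := by unfold combT; rfl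
        rw [this]; trivial
      · have : combT a b c (b0 :: b1 :: b2 :: bs) [c0] (d0 :: ds) = [] := by unfold combT; rfl
        rw [this]; trivial
      · rw [combT]
        obtain ⟨hb0, hb1, hb2, hbs⟩ := hB
        obtain ⟨hc0, hc1, hcs⟩ := hC
        obtain ⟨hd0, hds⟩ := hD
        refine ⟨?_, ih (b1 :: b2 :: bs) (c1 :: cs) (m + 1) ⟨hb1, hb2, hbs⟩ ⟨hc1, hcs⟩ hds⟩
        rw [mdot_addM, mdot_addM, mdot_smulM, mdot_smulM, mdot_smulM, mdot_addM, mdot_addM,
          mdot_addM, mdot_smulM, hb0, hb1, hb2, hc0, hc1, hd0]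
        have e : sum6 (fun v => FK a b c (had x v) * zz (had x v) ^ m) y =
            a * (sum6 (fun v => Ny (had x v) ^ 2 * Cy (had x v) ^ 0 * zz (had x v) ^ m) y +
              (2 * sum6 (fun v => Ny (had x v) ^ 2 * Cy (had x v) ^ 0 * zz (had x v) ^ (m + 1)) y +
              sum6 (fun v => Ny (had x v) ^ 2 * Cy (had x v) ^ 0 * zz (had x v) ^ (m + 1 + 1)) y)) +
            (b * (sum6 (fun v => Ny (had x v) ^ 1 * Cy (had x v) ^ 1 * zz (had x v) ^ m) y +
              sum6 (fun v => Ny (had x v) ^ 1 * Cy (had x v) ^ 1 * zz (had x v) ^ (m + 1)) y) +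
            c * sum6 (fun v => Ny (had x v) ^ 0 * Cy (had x v) ^ 2 * zz (had x v) ^ m) y) := by
          rw [← sum6_smul, ← sum6_smul, ← sum6_add, ← sum6_add, ← sum6_add, ← sum6_smul,
            ← sum6_smul, ← sum6_add, ← sum6_add]
          apply sum6_congr
          intro v
          rw [FK]; ring
        rw [e]
        push_cast
        ring

/-- the polynomial `N + a N² + b N C + c C²` -/
def pot (a b c N C : ℝ) : ℝ := N + a * N ^ 2 + b * (N * C) + c * C ^ 2

theorem Psi_of_tot_one (a b c : ℝ) (x : V) (hx : tot x = 1) :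
    Psi a b c x = pot a b c (Nh x) (Ch x) := by
  rw [Psi, hx, pot]; ring

theorem mdot_baseM (P : Par) (W : Int) (N C N' C' : ℝ) :
    mdot (baseM P W) (monL N C) (monL N' C') =
      2 * W * ((P.Q * N + P.aU * N ^ 2 + P.bU * (N * C) + P.cU * C ^ 2) +
        (P.Q * N' + P.aV * N' ^ 2 + P.bV * (N' * C') + P.cV * C' ^ 2)) := by
  have e : (Int.mul 2 W : ℤ) = 2 * W := rfl
  simp only [baseM, monL, mons, List.map_cons, List.map_nil, mdot, dot, e]
  push_cast
  ring

/-- the upper bound -/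
noncomputable def upper (P : Par) (l1 l5 : List Int) (w : V) : ℝ :=
  P.Q * (Ny w * pv l1 (zz w)) + (P.aK * (Ny w ^ 2 * (1 + zz w) ^ 2) +
    P.bK * (Ny w * Cy w * (1 + zz w)) + P.cK * Cy w ^ 2) * pv l5 (zz w)

theorem pv_smulL (c : Int) (l : List Int) (z : ℝ) : pv (smulL c l) z = c * pv l z := by
  induction l with
  | nil => simp [smulL, pv]
  | cons a as ih =>
    have e : ((Int.mul c a : ℤ) : ℝ) = (c : ℝ) * a := by
      have : Int.mul c a = c * a := rfl
      rw [this]; push_cast; ring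
    rw [smulL, pv, pv, ih, e]; ring

theorem smulL_length (c : Int) (l : List Int) : (smulL c l).length = l.length := by
  induction l with
  | nil => rfl
  | cons a as ih => simp [smulL, ih]

theorem mdot_leafM (P : Par) (W : Int) (T : List (List (List Int)))
    (hT : T = combT P.aK P.bK P.cK tabB tabC tabD) (l1 l5 : List Int) (h1 : l1.length ≤ 5)
    (h5 : l5.length ≤ 5) (x y : V) (hx : tot x = 1) (hy : tot y = 1) :
    mdot (leafM P W T l1 l5) (monL (Nh x) (Ch x)) (monL (Nh y) (Ch y)) =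
      2 * W * ((P.Q * Nh x + P.aU * Nh x ^ 2 + P.bU * (Nh x * Ch x) + P.cU * Ch x ^ 2) +
        (P.Q * Nh y + P.aV * Nh y ^ 2 + P.bV * (Nh y * Ch y) + P.cV * Ch y ^ 2)) -
      (1 / 3) * sum6 (fun v => upper P l1 l5 (had x v)) y := by
  have hlen : T.length = 5 := by
    rw [hT]; simp [combT, tabB, tabC, tabD]
  have tA := tabOK_of_allId 1 0 x y hx hy tabA 0 idA
  have tK := combT_ok P.aK P.bK P.cK x y tabB tabC tabD 0 (tabOK_of_allId 2 0 x y hx hy tabB 0 idB)
    (tabOK_of_allId 1 1 x y hx hy tabC 0 idC) (tabOK_of_allId 0 2 x y hx hy tabD 0 idD)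
  rw [← hT] at tK
  rw [leafM, mdot_addM, mdot_addM, mdot_baseM,
    table_sum x y _ _ tabA 0 tA (by rw [smulL_length]; simpa [tabA] using h1),
    table_sum x y _ _ T 0 tK (by rw [smulL_length, hlen]; exact h5)]
  have e : sum6 (fun v => upper P l1 l5 (had x v)) y =
      (-1) * sum6 (fun v => Ny (had x v) ^ 1 * Cy (had x v) ^ 0 *
        (zz (had x v) ^ 0 * pv (smulL (-P.Q) l1) (zz (had x v)))) y +
      (-1) * sum6 (fun v => FK P.aK P.bK P.cK (had x v) *
        (zz (had x v) ^ 0 * pv (smulL (-1) l5) (zz (had x v)))) y := by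
    rw [← sum6_smul, ← sum6_smul, ← sum6_add]
    apply sum6_congr
    intro v
    rw [upper, pv_smulL, pv_smulL, FK]
    push_cast
    ring
  rw [e]
  ring

/-! ### the pointwise bound -/

theorem Nh_nonneg' (x : V) : 0 ≤ Nh x := by
  unfold Nh
  nlinarith [sq_nonneg (x 0 - x 1), sq_nonneg (x 1 - x 2), sq_nonneg (x 2 - x 0)]

theorem psd_nonneg {a b c : ℝ} (ha : 0 ≤ a) (hc : 0 ≤ c) (hb : b ^ 2 ≤ 4 * a * c) (X Y : ℝ) :
    0 ≤ a * X ^ 2 + b * (X * Y) + c * Y ^ 2 := by
  rcases eq_or_lt_of_le ha with h | h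
  · have hb0 : b = 0 := by
      have : b ^ 2 ≤ 0 := by rw [← h] at hb; simpa using hb
      exact pow_eq_zero_iff (by norm_num) |>.1 (le_antisymm this (sq_nonneg b))
    rw [← h, hb0]
    nlinarith [mul_nonneg hc (sq_nonneg Y)]
  · have h1 : 0 ≤ 4 * a * (a * X ^ 2 + b * (X * Y) + c * Y ^ 2) := by
      have : 4 * a * (a * X ^ 2 + b * (X * Y) + c * Y ^ 2) =
        (2 * a * X + b * Y) ^ 2 + (4 * a * c - b ^ 2) * Y ^ 2 := by ring
      rw [this]
      nlinarith [sq_nonneg (2 * a * X + b * Y), mul_nonneg (sub_nonneg.2 hb) (sq_nonneg Y)]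
    by_contra hneg
    rw [not_le] at hneg
    nlinarith

/-- conditions on a leaf at one permutation -/
structure ZOK (W : Int) (l1 l5 : List Int) (z : ℝ) : Prop where
  pos : 0 < 1 + z
  h1 : (W : ℝ) ≤ pv l1 z * (1 + z)
  h5 : (W : ℝ) ≤ pv l5 z * (1 + z) ^ 5

theorem Psi_le_upper (P : Par) (W : Int) (l1 l5 : List Int) (hW : (0 : ℝ) < W) (hQ : (0 : ℝ) < P.Q)
    (ha : (0 : ℝ) ≤ P.aK) (hc : (0 : ℝ) ≤ P.cK) (hb : (P.bK : ℝ) ^ 2 ≤ 4 * P.aK * P.cK) (w : V)
    (hz : ZOK W l1 l5 (zz w)) :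
    Psi (P.aK / P.Q) (P.bK / P.Q) (P.cK / P.Q) w ≤ upper P l1 l5 w / (3 * P.Q * W) := by
  obtain ⟨hpos, h1, h5⟩ := hz
  have htot : tot w = (1 + zz w) / 3 := by rw [zz]; ring
  have hNy : Nh w = Ny w / 9 := by rw [Ny]; ring
  have hCy : Ch w = Cy w / 27 := by rw [Cy]; ring
  have hN0 : 0 ≤ Ny w := by rw [Ny]; linarith [Nh_nonneg' w]
  set Z := 1 + zz w with hZ
  set n := Ny w
  set c := Cy w
  have hform : 0 ≤ (P.aK : ℝ) * (n * Z) ^ 2 + P.bK * ((n * Z) * c) + P.cK * c ^ 2 :=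
    psd_nonneg ha hc hb _ _
  have e1 : Psi (P.aK / P.Q) (P.bK / P.Q) (P.cK / P.Q) w =
      (P.Q * (n / Z) + ((P.aK : ℝ) * (n * Z) ^ 2 + P.bK * ((n * Z) * c) + P.cK * c ^ 2) / Z ^ 5) /
        (3 * P.Q) := by
    rw [Psi, htot, hNy, hCy]
    field_simp
    ring
  rw [e1, div_le_div_iff₀ (by positivity) (by positivity)]
  have h1' : n / Z ≤ n * pv l1 (zz w) / W := by
    rw [div_le_div_iff₀ hpos hW]
    calc n * W ≤ n * (pv l1 (zz w) * Z) := mul_le_mul_of_nonneg_left h1 hN0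
      _ = n * pv l1 (zz w) * Z := by ring
  have h5' : ((P.aK : ℝ) * (n * Z) ^ 2 + P.bK * ((n * Z) * c) + P.cK * c ^ 2) / Z ^ 5 ≤
      ((P.aK : ℝ) * (n * Z) ^ 2 + P.bK * ((n * Z) * c) + P.cK * c ^ 2) * pv l5 (zz w) / W := by
    rw [div_le_div_iff₀ (by positivity) hW]
    calc _ ≤ ((P.aK : ℝ) * (n * Z) ^ 2 + P.bK * ((n * Z) * c) + P.cK * c ^ 2) *
        (pv l5 (zz w) * Z ^ 5) := mul_le_mul_of_nonneg_left h5 hform
      _ = _ := by ring
  have e2 : upper P l1 l5 w = W * (P.Q * (n * pv l1 (zz w) / W) +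
      ((P.aK : ℝ) * (n * Z) ^ 2 + P.bK * ((n * Z) * c) + P.cK * c ^ 2) * pv l5 (zz w) / W) := by
    rw [upper]
    field_simp
    ring
  rw [e2]
  have h6 : P.Q * (n / Z) + ((P.aK : ℝ) * (n * Z) ^ 2 + P.bK * ((n * Z) * c) + P.cK * c ^ 2) / Z ^ 5
      ≤ P.Q * (n * pv l1 (zz w) / W) +
      ((P.aK : ℝ) * (n * Z) ^ 2 + P.bK * ((n * Z) * c) + P.cK * c ^ 2) * pv l5 (zz w) / W :=
    add_le_add (mul_le_mul_of_nonneg_left h1' hQ.le) h5'
  have h7 := mul_le_mul_of_nonneg_right h6 (show (0 : ℝ) ≤ 3 * P.Q * W by positivity)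
  nlinarith [h7]

/-- conditions on the parameters -/
structure Par.OK (P : Par) : Prop where
  hQ : 0 < P.Q
  ha : 0 ≤ P.aK
  hc : 0 ≤ P.cK
  hb : P.bK ^ 2 ≤ 4 * P.aK * P.cK

theorem leaf_ineq (P : Par) (hP : P.OK) (W : Int) (hW : 0 < W) (T : List (List (List Int)))
    (hT : T = combT P.aK P.bK P.cK tabB tabC tabD) (l1 l5 : List Int)
    (hl1 : l1.length ≤ 5) (hl5 : l5.length ≤ 5) (x y : V) (hx : tot x = 1) (hy : tot y = 1)
    (hz0 : ZOK W l1 l5 (zz (had x ![y 0, y 1, y 2])))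
    (hz1 : ZOK W l1 l5 (zz (had x ![y 1, y 2, y 0])))
    (hz2 : ZOK W l1 l5 (zz (had x ![y 2, y 0, y 1])))
    (hz3 : ZOK W l1 l5 (zz (had x ![y 0, y 2, y 1])))
    (hz4 : ZOK W l1 l5 (zz (had x ![y 1, y 0, y 2])))
    (hz5 : ZOK W l1 l5 (zz (had x ![y 2, y 1, y 0])))
    (hR : 0 ≤ mdot (leafM P W T l1 l5) (monL (Nh x) (Ch x)) (monL (Nh y) (Ch y))) :
    (1 / 6) * sum6 (fun v => Psi (P.aK / P.Q) (P.bK / P.Q) (P.cK / P.Q) (had x v)) y ≤
      (1 / 3) * Psi (P.aU / P.Q) (P.bU / P.Q) (P.cU / P.Q) x +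
      (1 / 3) * Psi (P.aV / P.Q) (P.bV / P.Q) (P.cV / P.Q) y := by
  have hW' : (0 : ℝ) < W := by exact_mod_cast hW
  have hQ : (0 : ℝ) < P.Q := by exact_mod_cast hP.hQ
  have ha : (0 : ℝ) ≤ P.aK := by exact_mod_cast hP.ha
  have hc : (0 : ℝ) ≤ P.cK := by exact_mod_cast hP.hc
  have hb : (P.bK : ℝ) ^ 2 ≤ 4 * P.aK * P.cK := by exact_mod_cast hP.hb
  have key := fun w hz => Psi_le_upper P W l1 l5 hW' hQ ha hc hb w hz
  have hsum : sum6 (fun v => Psi (P.aK / P.Q) (P.bK / P.Q) (P.cK / P.Q) (had x v)) y ≤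
      sum6 (fun v => upper P l1 l5 (had x v)) y / (3 * P.Q * W) := by
    simp only [sum6, add_div]
    exact add_le_add (add_le_add (add_le_add (add_le_add (add_le_add (key _ hz0) (key _ hz1))
      (key _ hz2)) (key _ hz3)) (key _ hz4)) (key _ hz5)
  rw [mdot_leafM P W T hT l1 l5 hl1 hl5 x y hx hy] at hR
  rw [Psi_of_tot_one _ _ _ x hx, Psi_of_tot_one _ _ _ y hy, pot, pot]
  have hR' : sum6 (fun v => upper P l1 l5 (had x v)) y / (3 * P.Q * W) ≤
      2 * (Nh x + P.aU / P.Q * Nh x ^ 2 + P.bU / P.Q * (Nh x * Ch x) + P.cU / P.Q * Ch x ^ 2 +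
      (Nh y + P.aV / P.Q * Nh y ^ 2 + P.bV / P.Q * (Nh y * Ch y) + P.cV / P.Q * Ch y ^ 2)) := by
    rw [div_le_iff₀ (by positivity)]
    have e : 2 * (Nh x + P.aU / P.Q * Nh x ^ 2 + P.bU / P.Q * (Nh x * Ch x) +
        P.cU / P.Q * Ch x ^ 2 + (Nh y + P.aV / P.Q * Nh y ^ 2 + P.bV / P.Q * (Nh y * Ch y) +
        P.cV / P.Q * Ch y ^ 2)) * (3 * P.Q * W) =
        6 * W * ((P.Q * Nh x + P.aU * Nh x ^ 2 + P.bU * (Nh x * Ch x) + P.cU * Ch x ^ 2) +
        (P.Q * Nh y + P.aV * Nh y ^ 2 + P.bV * (Nh y * Ch y) + P.cV * Ch y ^ 2)) := by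
      field_simp
      ring
    rw [e]
    linarith
  linarith

end Vale.Agent.P154
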