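import Vale.Agent.P154.Cert

/-!
Certificate trees and the merge inequality.
-/

namespace Vale.Agent.P154

inductive Cert where
  | leaf (l1 l5 bps : List Int)
  | su (e : Nat) (l r : Cert)
  | sv (e : Nat) (l r : Cert)

def Pt.add (a b : Pt) : Pt := ⟨Int.add a.S b.S, Int.add a.p b.p, Int.add a.r b.r⟩

/-- first half of the triangle, cut at the midpoint of edge `e` (0: ab, 1: bc, 2: ca) -/
def Tri.left (T : Tri) : Nat → Tri
  | 0 => ⟨T.a.add T.a, T.a.add T.b, T.c.add T.c⟩
  | 1 => ⟨T.a.add T.a, T.b.add T.b, T.b.add T.c⟩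
  | _ => ⟨T.a.add T.a, T.b.add T.b, T.c.add T.a⟩

def Tri.right (T : Tri) : Nat → Tri
  | 0 => ⟨T.a.add T.b, T.b.add T.b, T.c.add T.c⟩
  | 1 => ⟨T.a.add T.a, T.b.add T.c, T.c.add T.c⟩
  | _ => ⟨T.c.add T.a, T.b.add T.b, T.c.add T.c⟩

/-- fixed data of a check: `W` denominator of the `π`s, `Zd` denominator of the break points -/
structure Cfg where
  P : Par
  T : List (List (List Int))
  W : Int
  Zd : Int
  K : Nat
  Kp : Nat

def leafOK (c : Cfg) (l1 l5 bps : List Int) (U V : Tri) : Bool :=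
  Nat.ble l1.length 5 && Nat.ble l5.length 5 &&
  (match bps with
    | lo :: b :: rest =>
      decide (-c.Zd < lo) && zOK c.Zd lo ((b :: rest).getLastD 0) U V &&
        piOK l1 1 c.W c.Zd c.Kp (lo :: b :: rest) && piOK l5 5 c.W c.Zd c.Kp (lo :: b :: rest)
    | _ => false) &&
  twoLevel 10 c.K (leafM c.P c.W c.T l1 l5) (triMon U) (triMon V)

def Cert.check (c : Cfg) : Cert → Tri → Tri → Bool
  | .leaf l1 l5 bps, U, V => leafOK c l1 l5 bps U V
  | .su e l r, U, V => l.check c (U.left e) V && r.check c (U.right e) V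
  | .sv e l r, U, V => l.check c U (V.left e) && r.check c U (V.right e)

theorem check_su {c : Cfg} {e : Nat} {l r : Cert} {U V : Tri} (h1 : l.check c (U.left e) V = true)
    (h2 : r.check c (U.right e) V = true) : (Cert.su e l r).check c U V = true := by
  rw [Cert.check, h1, h2]; rfl

theorem check_sv {c : Cfg} {e : Nat} {l r : Cert} {U V : Tri} (h1 : l.check c U (V.left e) = true)
    (h2 : r.check c U (V.right e) = true) : (Cert.sv e l r).check c U V = true := by
  rw [Cert.check, h1, h2]; rfl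

theorem inTri_split {T : Tri} {S p r : ℝ} (e : Nat) (h : InTri T S p r) :
    InTri (T.left e) S p r ∨ InTri (T.right e) S p r := by
  obtain ⟨α, β, γ, hα, hβ, hγ, hS, hp, hr⟩ := h
  have ad : ∀ a b : Pt, ((a.add b).S : ℝ) = a.S + b.S ∧ ((a.add b).p : ℝ) = a.p + b.p ∧
      ((a.add b).r : ℝ) = a.r + b.r := by
    intro a b
    have e1 : (a.add b).S = a.S + b.S := rfl
    have e2 : (a.add b).p = a.p + b.p := rfl
    have e3 : (a.add b).r = a.r + b.r := rfl
    rw [e1, e2, e3]; push_cast; exact ⟨rfl, rfl, rfl⟩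
  match e with
  | 0 =>
    rcases le_total β α with hab | hab
    · left
      refine ⟨(α - β) / 2, β, γ / 2, by linarith, hβ, by linarith, ?_, ?_, ?_⟩ <;>
        simp only [Tri.left, ad] <;> linarith
    · right
      refine ⟨α, (β - α) / 2, γ / 2, hα, by linarith, by linarith, ?_, ?_, ?_⟩ <;>
        simp only [Tri.right, ad] <;> linarith
  | 1 =>
    rcases le_total γ β with hab | hab
    · left
      refine ⟨α / 2, (β - γ) / 2, γ, by linarith, by linarith, hγ, ?_, ?_, ?_⟩ <;>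
        simp only [Tri.left, ad] <;> linarith
    · right
      refine ⟨α / 2, β, (γ - β) / 2, by linarith, hβ, by linarith, ?_, ?_, ?_⟩ <;>
        simp only [Tri.right, ad] <;> linarith
  | (n + 2) =>
    rcases le_total γ α with hab | hab
    · left
      refine ⟨(α - γ) / 2, β / 2, γ, by linarith, by linarith, hγ, ?_, ?_, ?_⟩ <;>
        simp only [Tri.left, ad] <;> linarith
    · right
      refine ⟨α, β / 2, (γ - α) / 2, hα, by linarith, by linarith, ?_, ?_, ?_⟩ <;>
        simp only [Tri.right, ad] <;> linarith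

/-- normalised, sorted vector -/
structure Srt (x : V) : Prop where
  tot : tot x = 1
  h01 : x 1 ≤ x 0
  h12 : x 2 ≤ x 1

def InTriV (T : Tri) (x : V) : Prop := InTri T 1 ((x 0 - x 1) / 2) ((x 1 - x 2) / 2)

/-- the merge inequality at a pair of points -/
def MergeAt (P : Par) (x y : V) : Prop :=
  (1 / 6) * sum6 (fun v => Psi (P.aK / P.Q) (P.bK / P.Q) (P.cK / P.Q) (had x v)) y ≤
      (1 / 3) * Psi (P.aU / P.Q) (P.bU / P.Q) (P.cU / P.Q) x +
      (1 / 3) * Psi (P.aV / P.Q) (P.bV / P.Q) (P.cV / P.Q) y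

theorem hm_one (x : V) :
    hm 1 ((x 0 - x 1) / 2) ((x 1 - x 2) / 2) = monL (Nh x) (Ch x) := by
  have h1 : nR ((x 0 - x 1) / 2) ((x 1 - x 2) / 2) = Nh x := by rw [nR, Nh]; ring
  have h2 : cR ((x 0 - x 1) / 2) ((x 1 - x 2) / 2) = Ch x := by rw [cR, Ch]; ring
  simp only [hm, monL, h1, h2, one_pow, mul_one]

theorem zz_had (x v : V) (hx : tot x = 1) (hv : tot v = 1) :
    zz (had x v) = 3 * ((x 0 - 1 / 3) * (v 0 - 1 / 3) + (x 1 - 1 / 3) * (v 1 - 1 / 3) +
      (x 2 - 1 / 3) * (v 2 - 1 / 3)) := by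
  simp only [tot] at hx hv
  simp only [zz, tot, had]
  have hx2 : x 2 = 1 - x 0 - x 1 := by linarith
  have hv2 : v 2 = 1 - v 0 - v 1 := by linarith
  rw [hx2, hv2]
  ring

theorem leafOK_sound {c : Cfg} (hP : c.P.OK)
    (hT : c.T = combT c.P.aK c.P.bK c.P.cK tabB tabC tabD) (hW : 0 < c.W) (hZ : 0 < c.Zd) {l1 l5 bps : List Int}
    {A B : Tri} (h : leafOK c l1 l5 bps A B = true) {x y : V} (hx : Srt x) (hy : Srt y)
    (hxU : InTriV A x) (hyV : InTriV B y) : MergeAt c.P x y := by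
  unfold leafOK at h
  rcases bps with _ | ⟨lo, _ | ⟨b, rest⟩⟩
  · simp at h
  · simp at h
  · simp only [Bool.and_eq_true, decide_eq_true_iff] at h
    obtain ⟨⟨⟨hl1, hl5⟩, hb⟩, htwo⟩ := h
    have hl1' := Nat.le_of_ble_eq_true hl1
    have hl5' := Nat.le_of_ble_eq_true hl5
    obtain ⟨⟨⟨hlo, hzok⟩, hp1⟩, hp5⟩ := hb
    obtain ⟨zu, zl⟩ := zOK_sound hzok hxU hyV
    have hZ' : (0 : ℝ) < c.Zd := by exact_mod_cast hZ
    have hlo' : (-(c.Zd : ℝ)) < lo := by exact_mod_cast hlo
    have hlast : (lo :: b :: rest).getLast? = some ((b :: rest).getLastD 0) := by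
      rw [List.getLast?_cons_cons]
      cases hgl : (b :: rest).getLast? with
      | none => simp at hgl
      | some a => rw [List.getLastD_eq_getLast?, hgl]; rfl
    have hz : ∀ z : ℝ, -(4 * ((x 0 - x 1) / 2 * ((y 0 - y 1) / 2) +
        2 * ((x 0 - x 1) / 2) * ((y 1 - y 2) / 2) + 2 * ((x 1 - x 2) / 2) * ((y 0 - y 1) / 2) +
        (x 1 - x 2) / 2 * ((y 1 - y 2) / 2))) ≤ z →
        z ≤ 4 * (2 * ((x 0 - x 1) / 2) * ((y 0 - y 1) / 2) + (x 0 - x 1) / 2 * ((y 1 - y 2) / 2) +
        (x 1 - x 2) / 2 * ((y 0 - y 1) / 2) + 2 * ((x 1 - x 2) / 2) * ((y 1 - y 2) / 2)) →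
        ZOK c.W l1 l5 z := by
      intro z hz1 hz2
      have k1 : (lo : ℝ) ≤ c.Zd * z := by
        have := mul_le_mul_of_nonneg_left hz1 hZ'.le
        have zl' := zl
        rw [mul_one] at zl'
        linarith
      have k2 : c.Zd * z ≤ ((b :: rest).getLastD 0 : ℤ) := by
        have := mul_le_mul_of_nonneg_left hz2 hZ'.le
        have zu' := zu
        rw [mul_one] at zu'
        linarith
      refine ⟨?_, ?_, ?_⟩
      · by_contra hneg
        rw [not_lt] at hneg
        have : c.Zd * z ≤ c.Zd * (-1) := mul_le_mul_of_nonneg_left (by linarith) hZ'.le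
        linarith
      · have := piOK_sound hl1' hZ _ hp1 (by simp) (by simp) hlast k1 k2
        simpa using this
      · exact piOK_sound hl5' hZ _ hp5 (by simp) (by simp) hlast k1 k2
    have hR := leaf_nonneg htwo hxU hyV
    rw [hm_one x, hm_one y] at hR
    have hy2 : y 2 = 1 - y 0 - y 1 := by have := hy.tot; simp only [tot] at this; linarith
    have hx2 : x 2 = 1 - x 0 - x 1 := by have := hx.tot; simp only [tot] at this; linarith
    have ty : ∀ a b c : ℝ, a + b + c = 1 → tot ![a, b, c] = 1 := by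
      intro a b c h; simpa [tot] using h
    have hP1 : 0 ≤ x 0 - x 1 := by linarith [hx.h01]
    have hP2 : 0 ≤ x 1 - x 2 := by linarith [hx.h12]
    have hQ1 : 0 ≤ y 0 - y 1 := by linarith [hy.h01]
    have hQ2 : 0 ≤ y 1 - y 2 := by linarith [hy.h12]
    have m1 := mul_nonneg hP1 hQ1
    have m2 := mul_nonneg hP1 hQ2
    have m3 := mul_nonneg hP2 hQ1
    have m4 := mul_nonneg hP2 hQ2
    refine leaf_ineq c.P hP c.W hW c.T hT l1 l5 hl1' hl5' x y hx.tot hy.tot ?_ ?_ ?_ ?_ ?_ ?_ hR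
    all_goals
      refine hz _ ?_ ?_ <;>
      · rw [zz_had x _ hx.tot (ty _ _ _ (by rw [hy2]; ring))]
        simp only [Matrix.cons_val_zero, Matrix.cons_val_one, Matrix.cons_val]
        rw [hy2] at m2 m4 ⊢
        rw [hx2] at m3 m4 ⊢
        linarith [m1, m2, m3, m4]

theorem Cert.check_sound {c : Cfg} (hP : c.P.OK)
    (hT : c.T = combT c.P.aK c.P.bK c.P.cK tabB tabC tabD) (hW : 0 < c.W) (hZ : 0 < c.Zd) (C : Cert)
    {A B : Tri} (h : C.check c A B = true) {x y : V} (hx : Srt x) (hy : Srt y)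
    (hxU : InTriV A x) (hyV : InTriV B y) : MergeAt c.P x y := by
  induction C generalizing A B with
  | leaf l1 l5 bps => exact leafOK_sound hP hT hW hZ h hx hy hxU hyV
  | su e l r ihl ihr =>
    rw [Cert.check, Bool.and_eq_true] at h
    rcases inTri_split e hxU with h1 | h1
    · exact ihl h.1 h1 hyV
    · exact ihr h.2 h1 hyV
  | sv e l r ihl ihr =>
    rw [Cert.check, Bool.and_eq_true] at h
    rcases inTri_split e hyV with h1 | h1
    · exact ihl h.1 hxU h1
    · exact ihr h.2 hxU h1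

end Vale.Agent.P154
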