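import Vale.Agent.P154.Merge

/-!
The merge inequality for arbitrary vectors.
-/

namespace Vale.Agent.P154

theorem perm_cases (σ : Equiv.Perm (Fin 3)) (y : V) :
    perm σ y = ![y 0, y 1, y 2] ∨ perm σ y = ![y 1, y 2, y 0] ∨ perm σ y = ![y 2, y 0, y 1] ∨
    perm σ y = ![y 0, y 2, y 1] ∨ perm σ y = ![y 1, y 0, y 2] ∨ perm σ y = ![y 2, y 1, y 0] := by
  have h : σ ∈ (Finset.univ : Finset (Equiv.Perm (Fin 3))) := Finset.mem_univ σ
  rw [univ_perm3] at h
  simp only [Finset.mem_insert, Finset.mem_singleton] at h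
  rcases h with rfl | rfl | rfl | rfl | rfl | rfl
  · left; funext i; fin_cases i <;> rfl
  · right; left; funext i; fin_cases i <;> rfl
  · right; right; left; funext i; fin_cases i <;> rfl
  · right; right; right; left; funext i; fin_cases i <;> rfl
  · right; right; right; right; left; funext i; fin_cases i <;> rfl
  · right; right; right; right; right; funext i; fin_cases i <;> rfl

theorem tot_perm (σ : Equiv.Perm (Fin 3)) (y : V) : tot (perm σ y) = tot y := by
  rcases perm_cases σ y with h | h | h | h | h | h <;> rw [h] <;> simp [tot] <;> ring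

theorem Nh_perm (σ : Equiv.Perm (Fin 3)) (y : V) : Nh (perm σ y) = Nh y := by
  rcases perm_cases σ y with h | h | h | h | h | h <;> rw [h] <;> simp [Nh] <;> ring

theorem Ch_perm (σ : Equiv.Perm (Fin 3)) (y : V) : Ch (perm σ y) = Ch y := by
  rcases perm_cases σ y with h | h | h | h | h | h <;> rw [h] <;> simp [Ch] <;> ring

theorem Psi_perm (a b c : ℝ) (σ : Equiv.Perm (Fin 3)) (y : V) :
    Psi a b c (perm σ y) = Psi a b c y := by
  rw [Psi, Psi, tot_perm, Nh_perm, Ch_perm]

/-- the sum over the permutations -/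
noncomputable def SS (a b c : ℝ) (x y : V) : ℝ :=
  ∑ g : Equiv.Perm (Fin 3), Psi a b c (had x (perm g y))

theorem SS_perm_left (a b c : ℝ) (σ : Equiv.Perm (Fin 3)) (x y : V) :
    SS a b c (perm σ x) y = SS a b c x y := by
  have h : ∀ g : Equiv.Perm (Fin 3), Psi a b c (had (perm σ x) (perm g y)) =
      Psi a b c (had x (perm (g * σ⁻¹) y)) := by
    intro g
    rw [← Psi_perm a b c σ (had x (perm (g * σ⁻¹) y))]
    congr 1
    funext i
    simp [had, perm]
  rw [SS, Finset.sum_congr rfl (fun g _ => h g), SS]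
  exact Equiv.sum_comp (Equiv.mulRight σ⁻¹) (fun g => Psi a b c (had x (perm g y)))

theorem SS_perm_right (a b c : ℝ) (τ : Equiv.Perm (Fin 3)) (x y : V) :
    SS a b c x (perm τ y) = SS a b c x y := by
  have h : ∀ g : Equiv.Perm (Fin 3), Psi a b c (had x (perm g (perm τ y))) =
      Psi a b c (had x (perm (τ * g) y)) := by
    intro g
    congr 1
  rw [SS, Finset.sum_congr rfl (fun g _ => h g), SS]
  exact Equiv.sum_comp (Equiv.mulLeft τ) (fun g => Psi a b c (had x (perm g y)))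

theorem SS_eq_sum6 (a b c : ℝ) (x y : V) :
    SS a b c x y = sum6 (fun v => Psi a b c (had x v)) y :=
  sum_perm_eq (fun v => Psi a b c (had x v)) y

theorem exists_sort (x : V) : ∃ σ : Equiv.Perm (Fin 3),
    perm σ x 1 ≤ perm σ x 0 ∧ perm σ x 2 ≤ perm σ x 1 := by
  have h := Tuple.monotone_sort (fun i => - x i)
  refine ⟨Tuple.sort (fun i => - x i), ?_, ?_⟩
  · have := h (show (0 : Fin 3) ≤ 1 by decide)
    simp only [Function.comp] at this
    simp only [perm]; linarith
  · have := h (show (1 : Fin 3) ≤ 2 by decide)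
    simp only [Function.comp] at this
    simp only [perm]; linarith

theorem Psi_smul (a b c t : ℝ) (ht : 0 ≤ t) (x : V) :
    Psi a b c (fun i => t * x i) = t * Psi a b c x := by
  rcases eq_or_lt_of_le ht with h | h
  · subst h
    simp [Psi, tot, Nh, Ch]
  · have h1 : tot (fun i => t * x i) = t * tot x := by simp only [tot]; ring
    have h2 : Nh (fun i => t * x i) = t ^ 2 * Nh x := by simp only [Nh]; ring
    have h3 : Ch (fun i => t * x i) = t ^ 3 * Ch x := by simp only [Ch]; ring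
    rw [Psi, h1, h2, h3, Psi]
    rcases eq_or_ne (tot x) 0 with h0 | h0
    · simp [h0]
    · field_simp

def baseTri (k d : Int) : Tri := ⟨⟨4 * d, 0, 0⟩, ⟨4 * d, 2 * k, 0⟩, ⟨4 * d, 0, k⟩⟩

theorem inTri_base {k d : Int} (hk : 0 < k) (hd : 0 < d) {x : V} (hx : Srt x)
    (h : ((d : ℝ) - k) ≤ 3 * d * x 2) : InTriV (baseTri k d) x := by
  have hk' : (0 : ℝ) < k := by exact_mod_cast hk
  have hd' : (0 : ℝ) < d := by exact_mod_cast hd
  have hx2 : x 2 = 1 - x 0 - x 1 := by have := hx.tot; simp only [tot] at this; linarith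
  refine ⟨(1 - (4 * d) * ((x 0 - x 1) / 2 / (2 * k)) - (4 * d) * ((x 1 - x 2) / 2 / k)) / (4 * d),
    (x 0 - x 1) / 2 / (2 * k), (x 1 - x 2) / 2 / k, ?_, ?_, ?_, ?_, ?_, ?_⟩
  · apply div_nonneg _ (by positivity)
    have e : 1 - (4 * d) * ((x 0 - x 1) / 2 / (2 * k)) - (4 * d) * ((x 1 - x 2) / 2 / k) =
        (k - d * (x 0 - x 1) - 2 * d * (x 1 - x 2)) / k := by
      field_simp
      ring
    rw [e]
    apply div_nonneg _ hk'.le
    rw [hx2] at h ⊢
    linarith
  · have := hx.h01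
    apply div_nonneg _ (by positivity)
    linarith
  · have := hx.h12
    apply div_nonneg _ (by positivity)
    linarith
  · simp only [baseTri]; push_cast; field_simp; ring
  · simp only [baseTri]; push_cast; field_simp; ring
  · simp only [baseTri]; push_cast; field_simp; ring

theorem eq_zero_of_tot_eq {x : V} (hx : ∀ i, 0 ≤ x i) (h : tot x = 0) : x = fun _ => 0 := by
  simp only [tot] at h
  have h0 := hx 0
  have h1 := hx 1
  have h2 := hx 2
  funext i
  fin_cases i
  · show x 0 = 0; linarith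
  · show x 1 = 0; linarith
  · show x 2 = 0; linarith

theorem Psi_zero (a b c : ℝ) : Psi a b c (fun _ => 0) = 0 := by
  simp [Psi, tot, Nh, Ch]

theorem SS_smul (a b c s t : ℝ) (hs : 0 ≤ s) (ht : 0 ≤ t) (x y : V) :
    SS a b c (fun i => s * x i) (fun i => t * y i) = s * t * SS a b c x y := by
  rw [SS, SS, Finset.mul_sum]
  refine Finset.sum_congr rfl fun g _ => ?_
  rw [← Psi_smul a b c (s * t) (by positivity)]
  congr 1
  funext i
  simp only [had, perm]
  ring

/-- the merge inequality -/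
theorem merge_ineq {c : Cfg} (hP : c.P.OK)
    (hT : c.T = combT c.P.aK c.P.bK c.P.cK tabB tabC tabD) (hW : 0 < c.W) (hZ : 0 < c.Zd) (C : Cert)
    {kU dU kV dV : Int} (hkU : 0 < kU) (hdU : 0 < dU) (hkV : 0 < kV) (hdV : 0 < dV)
    (h : C.check c (baseTri kU dU) (baseTri kV dV) = true) {x y : V}
    (hx0 : ∀ i, 0 ≤ x i) (hy0 : ∀ i, 0 ≤ y i)
    (hx : ∀ i, tot x * (dU - kU) ≤ 3 * dU * x i) (hy : ∀ i, tot y * (dV - kV) ≤ 3 * dV * y i) :
    (1 / 6) * ∑ g : Equiv.Perm (Fin 3),
        Psi (c.P.aK / c.P.Q) (c.P.bK / c.P.Q) (c.P.cK / c.P.Q) (had x (perm g y)) ≤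
      tot y / 3 * Psi (c.P.aU / c.P.Q) (c.P.bU / c.P.Q) (c.P.cU / c.P.Q) x +
      tot x / 3 * Psi (c.P.aV / c.P.Q) (c.P.bV / c.P.Q) (c.P.cV / c.P.Q) y := by
  have htx : 0 ≤ tot x := by simp only [tot]; linarith [hx0 0, hx0 1, hx0 2]
  have hty : 0 ≤ tot y := by simp only [tot]; linarith [hy0 0, hy0 1, hy0 2]
  rcases eq_or_lt_of_le htx with h0 | htx'
  · have hx' := eq_zero_of_tot_eq hx0 h0.symm
    have e : ∀ g : Equiv.Perm (Fin 3), had x (perm g y) = fun _ => 0 := by
      intro g; rw [hx']; funext i; simp [had]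
    simp only [e, ← h0]
    rw [hx']
    simp [Psi_zero]
  rcases eq_or_lt_of_le hty with h0 | hty'
  · have hy' := eq_zero_of_tot_eq hy0 h0.symm
    have e : ∀ g : Equiv.Perm (Fin 3), had x (perm g y) = fun _ => 0 := by
      intro g; rw [hy']; funext i; simp [had, perm]
    simp only [e, ← h0]
    rw [hy']
    simp [Psi_zero]
  -- sort
  obtain ⟨σ, hσ0, hσ1⟩ := exists_sort x
  obtain ⟨τ, hτ0, hτ1⟩ := exists_sort y
  obtain ⟨x', hx'⟩ : ∃ x' : V, x' = fun i => (tot x)⁻¹ * perm σ x i := ⟨_, rfl⟩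
  obtain ⟨y', hy'⟩ : ∃ y' : V, y' = fun i => (tot y)⁻¹ * perm τ y i := ⟨_, rfl⟩
  have hix : 0 < (tot x)⁻¹ := inv_pos.2 htx'
  have hiy : 0 < (tot y)⁻¹ := inv_pos.2 hty'
  have totx' : tot x' = 1 := by
    have : tot x' = (tot x)⁻¹ * tot (perm σ x) := by rw [hx']; simp only [tot]; ring
    rw [this, tot_perm, inv_mul_cancel₀ htx'.ne']
  have toty' : tot y' = 1 := by
    have : tot y' = (tot y)⁻¹ * tot (perm τ y) := by rw [hy']; simp only [tot]; ring
    rw [this, tot_perm, inv_mul_cancel₀ hty'.ne']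
  have sx : Srt x' := ⟨totx', by rw [hx']; exact mul_le_mul_of_nonneg_left hσ0 hix.le,
    by rw [hx']; exact mul_le_mul_of_nonneg_left hσ1 hix.le⟩
  have sy : Srt y' := ⟨toty', by rw [hy']; exact mul_le_mul_of_nonneg_left hτ0 hiy.le,
    by rw [hy']; exact mul_le_mul_of_nonneg_left hτ1 hiy.le⟩
  have bx : InTriV (baseTri kU dU) x' := by
    refine inTri_base hkU hdU sx ?_
    have := hx (σ 2)
    have e : x' 2 = (tot x)⁻¹ * x (σ 2) := by rw [hx']; rfl
    rw [e]
    have h2 := mul_le_mul_of_nonneg_left this hix.le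
    have h3 : (tot x)⁻¹ * (tot x * ((dU : ℝ) - kU)) = (dU : ℝ) - kU := by
      field_simp
    rw [h3] at h2
    linarith
  have by' : InTriV (baseTri kV dV) y' := by
    refine inTri_base hkV hdV sy ?_
    have := hy (τ 2)
    have e : y' 2 = (tot y)⁻¹ * y (τ 2) := by rw [hy']; rfl
    rw [e]
    have h2 := mul_le_mul_of_nonneg_left this hiy.le
    have h3 : (tot y)⁻¹ * (tot y * ((dV : ℝ) - kV)) = (dV : ℝ) - kV := by
      field_simp
    rw [h3] at h2
    linarith
  have key := Cert.check_sound hP hT hW hZ C h sx sy bx by'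
  rw [MergeAt, ← SS_eq_sum6] at key
  have e1 : x = fun i => tot x * perm σ⁻¹ x' i := by
    funext i
    simp only [perm, hx']
    rw [show σ (σ⁻¹ i) = i from σ.apply_symm_apply i]
    field_simp
  have e2 : y = fun i => tot y * perm τ⁻¹ y' i := by
    funext i
    simp only [perm, hy']
    rw [show τ (τ⁻¹ i) = i from τ.apply_symm_apply i]
    field_simp
  have e3 : ∀ a b c : ℝ, SS a b c x y = tot x * tot y * SS a b c x' y' := by
    intro a b c
    conv_lhs => rw [e1, e2]
    rw [SS_smul a b c _ _ htx hty, SS_perm_left, SS_perm_right]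
  have e4 : ∀ a b c : ℝ, Psi a b c x = tot x * Psi a b c x' := by
    intro a b c
    conv_lhs => rw [e1]
    rw [Psi_smul a b c _ htx, Psi_perm]
  have e5 : ∀ a b c : ℝ, Psi a b c y = tot y * Psi a b c y' := by
    intro a b c
    conv_lhs => rw [e2]
    rw [Psi_smul a b c _ hty, Psi_perm]
  have e6 := e3 (c.P.aK / c.P.Q) (c.P.bK / c.P.Q) (c.P.cK / c.P.Q)
  rw [SS] at e6
  rw [e6, e4, e5]
  have h2 := mul_le_mul_of_nonneg_left key (show 0 ≤ tot x * tot y by positivity)
  linarith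

end Vale.Agent.P154
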