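import Vale.Agent.P154.Final2

/-!
# Antiferromagnetic messages: `λ < 0`
-/

namespace Vale.Agent.P154

open scoped BigOperators ENNReal

/-- the normalised sorted vector lies in the triangle -/
def InDom (T : Tri) (x : V) : Prop :=
  0 < tot x → ∀ σ : Equiv.Perm (Fin 3), Srt (fun i => (tot x)⁻¹ * perm σ x i) →
    InTriV T (fun i => (tot x)⁻¹ * perm σ x i)

/-- the merge inequality, arbitrary triangles -/
theorem merge_gen {c : Cfg} (hP : c.P.OK)
    (hT : c.T = combT c.P.aK c.P.bK c.P.cK tabB tabC tabD) (hW : 0 < c.W) (hZ : 0 < c.Zd) (C : Cert)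
    {TU TV : Tri} (h : C.check c TU TV = true) {x y : V}
    (hx0 : ∀ i, 0 ≤ x i) (hy0 : ∀ i, 0 ≤ y i) (hx : InDom TU x) (hy : InDom TV y) :
    (1 / 6) * ∑ g : Equiv.Perm (Fin 3),
        Psi (c.P.aK / c.P.Q) (c.P.bK / c.P.Q) (c.P.cK / c.P.Q) (had x (perm g y)) ≤
      tot y / 3 * Psi (c.P.aU / c.P.Q) (c.P.bU / c.P.Q) (c.P.cU / c.P.Q) x +
      tot x / 3 * Psi (c.P.aV / c.P.Q) (c.P.bV / c.P.Q) (c.P.cV / c.P.Q) y := by
  have htx : 0 ≤ tot x := by simp only [tot]; linarith [hx0 0, hx0 1, hx0 2]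
  have hty : 0 ≤ tot y := by simp only [tot]; linarith [hy0 0, hy0 1, hy0 2]
  rcases eq_or_lt_of_le htx with h0 | htx'
  · have hx' := eq_zero_of_tot_eq hx0 h0.symm
    have e : ∀ g : Equiv.Perm (Fin 3), had x (perm g y) = fun _ => 0 := by
      intro g; rw [hx']; funext i; simp [had]
    simp only [e, ← h0]
    rw [hx']
    simp [Psi_zero]
  rcases eq_or_lt_of_le hty with h0 | hty'
  · have hy' := eq_zero_of_tot_eq hy0 h0.symm
    have e : ∀ g : Equiv.Perm (Fin 3), had x (perm g y) = fun _ => 0 := by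
      intro g; rw [hy']; funext i; simp [had, perm]
    simp only [e, ← h0]
    rw [hy']
    simp [Psi_zero]
  -- sort
  obtain ⟨σ, hσ0, hσ1⟩ := exists_sort x
  obtain ⟨τ, hτ0, hτ1⟩ := exists_sort y
  obtain ⟨x', hx'⟩ : ∃ x' : V, x' = fun i => (tot x)⁻¹ * perm σ x i := ⟨_, rfl⟩
  obtain ⟨y', hy'⟩ : ∃ y' : V, y' = fun i => (tot y)⁻¹ * perm τ y i := ⟨_, rfl⟩
  have hix : 0 < (tot x)⁻¹ := inv_pos.2 htx'
  have hiy : 0 < (tot y)⁻¹ := inv_pos.2 hty'
  have totx' : tot x' = 1 := by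
    have : tot x' = (tot x)⁻¹ * tot (perm σ x) := by rw [hx']; simp only [tot]; ring
    rw [this, tot_perm, inv_mul_cancel₀ htx'.ne']
  have toty' : tot y' = 1 := by
    have : tot y' = (tot y)⁻¹ * tot (perm τ y) := by rw [hy']; simp only [tot]; ring
    rw [this, tot_perm, inv_mul_cancel₀ hty'.ne']
  have sx : Srt x' := ⟨totx', by rw [hx']; exact mul_le_mul_of_nonneg_left hσ0 hix.le,
    by rw [hx']; exact mul_le_mul_of_nonneg_left hσ1 hix.le⟩
  have sy : Srt y' := ⟨toty', by rw [hy']; exact mul_le_mul_of_nonneg_left hτ0 hiy.le,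
    by rw [hy']; exact mul_le_mul_of_nonneg_left hτ1 hiy.le⟩
  have bx : InTriV TU x' := by
    rw [hx']; rw [hx'] at sx
    exact hx htx' σ sx
  have by' : InTriV TV y' := by
    rw [hy']; rw [hy'] at sy
    exact hy hty' τ sy
  have key := Cert.check_sound hP hT hW hZ C h sx sy bx by'
  rw [MergeAt, ← SS_eq_sum6] at key
  have e1 : x = fun i => tot x * perm σ⁻¹ x' i := by
    funext i
    simp only [perm, hx']
    rw [show σ (σ⁻¹ i) = i from σ.apply_symm_apply i]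
    field_simp
  have e2 : y = fun i => tot y * perm τ⁻¹ y' i := by
    funext i
    simp only [perm, hy']
    rw [show τ (τ⁻¹ i) = i from τ.apply_symm_apply i]
    field_simp
  have e3 : ∀ a b c : ℝ, SS a b c x y = tot x * tot y * SS a b c x' y' := by
    intro a b c
    conv_lhs => rw [e1, e2]
    rw [SS_smul a b c _ _ htx hty, SS_perm_left, SS_perm_right]
  have e4 : ∀ a b c : ℝ, Psi a b c x = tot x * Psi a b c x' := by
    intro a b c
    conv_lhs => rw [e1]
    rw [Psi_smul a b c _ htx, Psi_perm]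
  have e5 : ∀ a b c : ℝ, Psi a b c y = tot y * Psi a b c y' := by
    intro a b c
    conv_lhs => rw [e2]
    rw [Psi_smul a b c _ hty, Psi_perm]
  have e6 := e3 (c.P.aK / c.P.Q) (c.P.bK / c.P.Q) (c.P.cK / c.P.Q)
  rw [SS] at e6
  rw [e6, e4, e5]
  have h2 := mul_le_mul_of_nonneg_left key (show 0 ≤ tot x * tot y by positivity)
  linarith


theorem inDom_full {x : V} (hx : ∀ i, 0 ≤ x i) : InDom (baseTri 1 1) x := by
  intro h σ hs
  refine inTri_base (by norm_num) (by norm_num) hs ?_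
  have h1 := hx (σ 2)
  have h2 : 0 < (tot x)⁻¹ := inv_pos.2 h
  have h3 : 0 ≤ (tot x)⁻¹ * perm σ x 2 := mul_nonneg h2.le h1
  norm_num
  exact h3

/-- the inverted triangle -/
def baseTriN (k d : Int) : Tri := ⟨⟨4 * d, 0, 0⟩, ⟨4 * d, k, 0⟩, ⟨4 * d, 0, 2 * k⟩⟩

theorem inTri_baseN {k d : Int} (hk : 0 < k) (hd : 0 < d) {x : V} (hx : Srt x)
    (h : 3 * d * x 0 ≤ (d : ℝ) + k) : InTriV (baseTriN k d) x := by
  have hk' : (0 : ℝ) < k := by exact_mod_cast hk
  have hd' : (0 : ℝ) < d := by exact_mod_cast hd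
  have hx2 : x 0 = 1 - x 1 - x 2 := by have := hx.tot; simp only [tot] at this; linarith
  refine ⟨(1 - (4 * d) * ((x 0 - x 1) / 2 / k) - (4 * d) * ((x 1 - x 2) / 2 / (2 * k))) / (4 * d),
    (x 0 - x 1) / 2 / k, (x 1 - x 2) / 2 / (2 * k), ?_, ?_, ?_, ?_, ?_, ?_⟩
  · apply div_nonneg _ (by positivity)
    have e : 1 - (4 * d) * ((x 0 - x 1) / 2 / k) - (4 * d) * ((x 1 - x 2) / 2 / (2 * k)) =
        (k - 2 * d * (x 0 - x 1) - d * (x 1 - x 2)) / k := by
      field_simp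
      ring
    rw [e]
    apply div_nonneg _ hk'.le
    rw [hx2] at h ⊢
    linarith
  · have := hx.h01
    apply div_nonneg _ (by positivity)
    linarith
  · have := hx.h12
    apply div_nonneg _ (by positivity)
    linarith
  · simp only [baseTriN]; push_cast; field_simp; ring
  · simp only [baseTriN]; push_cast; field_simp; ring
  · simp only [baseTriN]; push_cast; field_simp; ring

theorem inDom_neg {lam : ℝ} {k d : Int} (hk : 0 < k) (hd : 0 < d) (h1 : lam ≤ 0)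
    (hkd : -lam * d ≤ k) {x : V} (hx : InK lam 1 x) : InDom (baseTriN k d) x := by
  obtain ⟨z, hz, rfl⟩ := hx
  intro h σ hs
  refine inTri_baseN hk hd hs ?_
  have hd' : (0 : ℝ) < d := by exact_mod_cast hd
  have e : (fun i => ∏ c : Fin 1, mvec lam (z c) i) = mvec lam (z 0) := by
    funext i; simp
  rw [e] at h ⊢
  have ht : tot (mvec lam (z 0)) = tot (z 0) := by simp only [tot, mvec]; ring
  rw [ht] at h ⊢
  have h2 : mvec lam (z 0) (σ 0) ≤ (1 - lam) / 3 * tot (z 0) := by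
    rw [mvec]
    have : lam * z 0 (σ 0) ≤ 0 := mul_nonpos_of_nonpos_of_nonneg h1 (hz 0 (σ 0))
    linarith
  have h3 : (tot (z 0))⁻¹ * mvec lam (z 0) (σ 0) ≤ (1 - lam) / 3 := by
    rw [inv_mul_le_iff₀ h]; linarith
  show 3 * (d : ℝ) * ((tot (z 0))⁻¹ * mvec lam (z 0) (σ 0)) ≤ d + k
  calc 3 * (d : ℝ) * ((tot (z 0))⁻¹ * mvec lam (z 0) (σ 0)) ≤ 3 * (d : ℝ) * ((1 - lam) / 3) :=
        mul_le_mul_of_nonneg_left h3 (by positivity)
    _ = d + -lam * d := by ring
    _ ≤ d + k := by linarith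

end Vale.Agent.P154
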