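import Vale.Agent.P154.Neg

/-!
# Antiferromagnetic messages: nonreconstruction from a universal certificate
-/

namespace Vale.Agent.P154

open scoped BigOperators ENNReal

theorem inK_nn {lam : ℝ} (h0 : -(1 / 2) ≤ lam) (h1 : lam ≤ 1) {k : ℕ} {x : V}
    (hx : InK lam k x) : ∀ i, 0 ≤ x i := by
  obtain ⟨z, hz, rfl⟩ := hx
  intro i
  exact Finset.prod_nonneg fun c _ => mvec_nonneg h0 h1 (hz c) i

theorem dom_step_neg {lam : ℝ} (h0 : -(1 / 2) ≤ lam) (h1 : lam ≤ 0) {off : ℕ → ℝ}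
    (hoff : IsOff off) {c : Cfg} (hP : c.P.OK)
    (hT : c.T = combT c.P.aK c.P.bK c.P.cK tabB tabC tabD) (hW : 0 < c.W) (hZ : 0 < c.Zd) (C : Cert)
    {kV dV : Int} (hkV : 0 < kV) (hdV : 0 < dV) (hkd : -lam * dV ≤ kV)
    (h : C.check c (baseTri 1 1) (baseTriN kV dV) = true) {i : ℕ}
    (pU : 0 ≤ c.P.aU ∧ 0 ≤ c.P.cU ∧ c.P.bU ^ 2 ≤ 4 * c.P.aU * c.P.cU)
    (pV : 0 ≤ c.P.aV ∧ 0 ≤ c.P.cV ∧ c.P.bV ^ 2 ≤ 4 * c.P.aV * c.P.cV)
    {Ψ : V → ℝ}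
    (Di : Dom lam off i (Psi (c.P.aU / c.P.Q) (c.P.bU / c.P.Q) (c.P.cU / c.P.Q)) Ψ)
    (Dj : Dom lam off 1 (Psi (c.P.aV / c.P.Q) (c.P.bV / c.P.Q) (c.P.cV / c.P.Q)) Ψ) :
    Dom lam off (i + 1) (Psi (c.P.aK / c.P.Q) (c.P.bK / c.P.Q) (c.P.cK / c.P.Q)) Ψ := by
  have hQ : (0 : ℝ) < c.P.Q := by exact_mod_cast hP.hQ
  have nn : ∀ a b d : ℤ, 0 ≤ a ∧ 0 ≤ d ∧ b ^ 2 ≤ 4 * a * d → ∀ x : V, (∀ i, 0 ≤ x i) →
      0 ≤ Psi (a / c.P.Q) (b / c.P.Q) (d / c.P.Q) x := by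
    intro a b d ⟨k1, k2, k3⟩ x hx
    have k1' : (0 : ℝ) ≤ a := by exact_mod_cast k1
    have k2' : (0 : ℝ) ≤ d := by exact_mod_cast k2
    have k3' : (b : ℝ) ^ 2 ≤ 4 * a * d := by exact_mod_cast k3
    refine Psi_nonneg (by positivity) (by positivity) ?_ hx
    rw [div_pow]
    have e : 4 * ((a : ℝ) / c.P.Q) * (d / c.P.Q) = (4 * a * d) / (c.P.Q) ^ 2 := by
      field_simp
    rw [e]
    gcongr
  have h1' : lam ≤ 1 := by linarith
  have np : ∀ k x, InK lam k x → ∀ i, 0 ≤ x i := fun k x hx => inK_nn h0 h1' hx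
  refine dom_merge h0 h1' hoff (fun x hx => nn _ _ _ pU x (np _ x hx))
    (fun x hx => nn _ _ _ pV x (np _ x hx))
    (fun x hx => nn _ _ _ ⟨hP.ha, hP.hc, hP.hb⟩ x (np _ x hx)) ?_ Di Dj
  intro x y hx hy
  exact merge_gen hP hT hW hZ C h (np _ x hx) (np _ y hy) (inDom_full (np _ x hx))
    (inDom_neg hkV hdV h1 hkd hy)

theorem nonrec_univ_neg {off : ℕ → ℝ} (hoff : IsOff off) {m : ℝ}
    (hm : HasSum (fun k : ℕ => off k * k) m) {lam L : ℝ} (h0 : -L ≤ lam) (h0' : lam ≤ 0)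
    (hL1 : L ≤ 1 / 2) (h1 : m * lam ^ 2 ≤ 1)
    {a b c a1 b1 c1 δ : ℝ} (hg : Good a b c a1 b1 c1) (hg2 : 9 * b1 ^ 2 ≤ 32 * a1 * c1)
    (hδ : 0 < δ)
    (hfin : |b + b1 * L ^ 3| + max 0 (-(c - c1 * L ^ 4)) + δ ≤ a - a1 * L ^ 2)
    (hdom : ∀ k, Dom lam off k (Psi a b c) (Psi a1 b1 c1)) :
    Nonreconstruction 3 lam off := by
  have hm0 : 0 ≤ m := hm.nonneg (fun k => mul_nonneg (hoff.nonneg k) (by positivity))
  have hlam : -(1 / 2) ≤ lam := by linarith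
  refine gw_general hlam (by linarith) hoff (Φ := Psi a b c)
    (h := fun _ => Psi a1 b1 c1) (δ := δ) (C := 1 + |a| + |b| + |c|) hδ (fun k _ => hdom k) ?_ ?_ ?_ ?_
  · intro t x ht _
    exact Psi_smul a b c t ht x
  · intro x hx
    exact Psi_low hg.a0 hg.c0 hg.b0 hx
  · intro x hx
    exact Psi_up hx
  · intro y hy
    have hmv : ∀ i, 0 ≤ mvec lam y i := fun i => mvec_nonneg hlam (by linarith) hy i
    have hΨ1 : 0 ≤ Psi a1 b1 c1 (mvec lam y) := Psi_nonneg hg.a10 hg.c10 hg.b1' hmv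
    have hts : (∑' k : ℕ, ENNReal.ofReal (off k * k * Psi a1 b1 c1 (mvec lam y))) =
        ENNReal.ofReal (m * Psi a1 b1 c1 (mvec lam y)) := by
      have hs := hm.mul_right (Psi a1 b1 c1 (mvec lam y))
      rw [← hs.tsum_eq, ENNReal.ofReal_tsum_of_nonneg _ hs.summable]
      intro k
      exact mul_nonneg (mul_nonneg (hoff.nonneg k) (by positivity)) hΨ1
    have hty : 0 ≤ tot y := tot_nonneg hy
    rw [hts, ← ENNReal.ofReal_add (by positivity) (by positivity)]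
    apply ENNReal.ofReal_le_ofReal
    rcases eq_or_lt_of_le hty with h | h
    · have hy0 := eq_zero_of_tot_eq hy h.symm
      have : mvec lam y = fun _ => 0 := by
        rw [hy0]; funext i; simp [mvec, tot]
      rw [this, Psi_zero, hy0, Psi_zero]
      simp [tot, Nh]
    · rw [Psi_mvec _ _ _ _ h, Psi_eq_pot _ _ _ h, slack_eq δ h]
      obtain ⟨hN, hC⟩ := norm_bounds hy h
      set N := Nh y / tot y ^ 2
      set C := Ch y / tot y ^ 3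
      have k1 := mono1 (a := a1) (b := -b1) (c := c1) (s := -lam) (t := L) (N := N) (C := C)
        hg.a10 hg.c10 (by nlinarith) (by linarith) (by linarith)
      have k2 := fin_form (A := a - a1 * L ^ 2) (B := b + b1 * L ^ 3) (E := c - c1 * L ^ 4)
        (δ := δ) hN hC hfin
      -- m λ² ≤ 1
      have k3 : 0 ≤ N + (a1 * lam ^ 2 * N ^ 2 + b1 * lam ^ 3 * (N * C) + c1 * lam ^ 4 * C ^ 2) := by
        have := psd_nonneg hg.a10 hg.c10 hg.b1' (lam * N) (lam ^ 2 * C)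
        have e : a1 * (lam * N) ^ 2 + b1 * (lam * N * (lam ^ 2 * C)) + c1 * (lam ^ 2 * C) ^ 2 =
          a1 * lam ^ 2 * N ^ 2 + b1 * lam ^ 3 * (N * C) + c1 * lam ^ 4 * C ^ 2 := by ring
        linarith
      have k4 : m * pot a1 b1 c1 (lam ^ 2 * N) (lam ^ 3 * C) ≤
          N + (a1 * lam ^ 2 * N ^ 2 + b1 * lam ^ 3 * (N * C) + c1 * lam ^ 4 * C ^ 2) := by
        have e : m * pot a1 b1 c1 (lam ^ 2 * N) (lam ^ 3 * C) = (m * lam ^ 2) *
            (N + (a1 * lam ^ 2 * N ^ 2 + b1 * lam ^ 3 * (N * C) + c1 * lam ^ 4 * C ^ 2)) := by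
          rw [pot]; ring
        rw [e]
        calc _ ≤ 1 * (N + (a1 * lam ^ 2 * N ^ 2 + b1 * lam ^ 3 * (N * C) +
              c1 * lam ^ 4 * C ^ 2)) := mul_le_mul_of_nonneg_right h1 k3
          _ = _ := one_mul _
      have e2 : a1 * (-lam) ^ 2 * N ^ 2 + -b1 * (-lam) ^ 3 * (N * C) + c1 * (-lam) ^ 4 * C ^ 2 =
          a1 * lam ^ 2 * N ^ 2 + b1 * lam ^ 3 * (N * C) + c1 * lam ^ 4 * C ^ 2 := by ring
      rw [e2] at k1
      have k5 : m * pot a1 b1 c1 (lam ^ 2 * N) (lam ^ 3 * C) + δ * N ^ 2 ≤ pot a b c N C := by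
        rw [pot] at k4 ⊢
        rw [pot]
        linarith
      have k6 := mul_le_mul_of_nonneg_left k5 h.le
      linarith

end Vale.Agent.P154
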