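import Vale.Agent.P154.Tables

/-!
Table polynomials and their identification with the S3-averages.
-/

namespace Vale.Agent.P154

/-- dot product of an integer row with a list -/
def dot {R : Type*} [CommRing R] : List Int → List R → R
  | a :: as, b :: bs => (a : R) * b + dot as bs
  | _, _ => 0

def mdot {R : Type*} [CommRing R] : List (List Int) → List R → List R → R
  | r :: M, fu, v :: fv => v * dot r fu + mdot M fu fv
  | _, _, _ => 0

def dotPE : List Int → List PE → PE
  | a :: as, b :: bs => PE.add (PE.mul (PE.c a) b) (dotPE as bs)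
  | _, _ => PE.c 0

def mdotPE : List (List Int) → List PE → List PE → PE
  | r :: M, fu, v :: fv => PE.add (PE.mul v (dotPE r fu)) (mdotPE M fu fv)
  | _, _, _ => PE.c 0

def PE.pow (a : PE) : Nat → PE
  | 0 => PE.c 1
  | n + 1 => PE.mul (PE.pow a n) a

theorem PE.ev_pow {R : Type*} [CommRing R] (ρ : Nat → R) (a : PE) (n : Nat) :
    (a.pow n).ev ρ = a.ev ρ ^ n := by
  induction n with
  | zero => simp [PE.pow, PE.ev]
  | succ n ih => simp [PE.pow, PE.ev, ih, pow_succ]

theorem ev_dotPE {R : Type*} [CommRing R] (ρ : Nat → R) (r : List Int) (f : List PE) :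
    (dotPE r f).ev ρ = dot r (f.map (PE.ev ρ)) := by
  induction r generalizing f with
  | nil => simp [dotPE, dot, PE.ev]
  | cons a as ih =>
    cases f with
    | nil => simp [dotPE, dot, PE.ev]
    | cons b bs => simp [dotPE, dot, PE.ev, ih]

theorem ev_mdotPE {R : Type*} [CommRing R] (ρ : Nat → R) (M : List (List Int)) (fu fv : List PE) :
    (mdotPE M fu fv).ev ρ = mdot M (fu.map (PE.ev ρ)) (fv.map (PE.ev ρ)) := by
  induction M generalizing fv with
  | nil => simp [mdotPE, mdot, PE.ev]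
  | cons a as ih =>
    cases fv with
    | nil => simp [mdotPE, mdot, PE.ev]
    | cons b bs => simp [mdotPE, mdot, PE.ev, ih, ev_dotPE]

/-- list of monomials `N^i C^j` -/
def monL {R : Type*} [CommRing R] (N C : R) : List R := mons.map (fun e => N ^ e.1 * C ^ e.2)

def monPE (N C : PE) : List PE := mons.map (fun e => PE.mul (N.pow e.1) (C.pow e.2))

theorem ev_monPE {R : Type*} [CommRing R] (ρ : Nat → R) (N C : PE) :
    (monPE N C).map (PE.ev ρ) = monL (N.ev ρ) (C.ev ρ) := by
  simp [monPE, monL, PE.ev, PE.ev_pow, Function.comp_def]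

/-! the parametrisation `X = (1+4p+2r, 1-2p+2r, 1-2p-4r)` -/

def nPE (p r : PE) : PE :=
  PE.mul (PE.c 4) (PE.add (PE.add (PE.mul p p) (PE.mul p r)) (PE.mul r r))
def cPE (p r : PE) : PE :=
  PE.mul (PE.c 4) (PE.mul (PE.mul (PE.add (PE.add p p) r) (PE.sub p r)) (PE.add p (PE.add r r)))

def x0PE (p r : PE) : PE := PE.add (PE.c 1) (PE.add (PE.mul (PE.c 4) p) (PE.mul (PE.c 2) r))
def x1PE (p r : PE) : PE := PE.add (PE.c 1) (PE.sub (PE.mul (PE.c 2) r) (PE.mul (PE.c 2) p))
def x2PE (p r : PE) : PE := PE.sub (PE.c 1) (PE.add (PE.mul (PE.c 2) p) (PE.mul (PE.c 4) r))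

/-- `(∑ w - 3) * (Nh w)^i * (2 Ch w)^j` for the vector `w` -/
def termPE (i j m : Nat) (a b c : PE) : PE :=
  PE.mul (PE.mul
    (PE.pow (PE.sub (PE.add (PE.add (PE.mul a a) (PE.mul b b)) (PE.mul c c))
      (PE.add (PE.add (PE.mul a b) (PE.mul b c)) (PE.mul c a))) i)
    (PE.pow (PE.mul (PE.mul (PE.sub (PE.add a a) (PE.add b c)) (PE.sub (PE.add b b) (PE.add c a)))
      (PE.sub (PE.add c c) (PE.add a b))) j))
    (PE.pow (PE.sub (PE.add (PE.add a b) c) (PE.c 3)) m)

def sumPE (i j m : Nat) : PE :=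
  let a := x0PE (PE.v 0) (PE.v 1)
  let b := x1PE (PE.v 0) (PE.v 1)
  let c := x2PE (PE.v 0) (PE.v 1)
  let d := x0PE (PE.v 2) (PE.v 3)
  let e := x1PE (PE.v 2) (PE.v 3)
  let f := x2PE (PE.v 2) (PE.v 3)
  PE.add (PE.add (PE.add (termPE i j m (PE.mul a d) (PE.mul b e) (PE.mul c f))
    (termPE i j m (PE.mul a e) (PE.mul b f) (PE.mul c d)))
    (PE.add (termPE i j m (PE.mul a f) (PE.mul b d) (PE.mul c e))
    (termPE i j m (PE.mul a d) (PE.mul b f) (PE.mul c e))))
    (PE.add (termPE i j m (PE.mul a e) (PE.mul b d) (PE.mul c f))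
    (termPE i j m (PE.mul a f) (PE.mul b e) (PE.mul c d)))

def idPE (i j m : Nat) (T : List (List Int)) : PE :=
  PE.sub (PE.mul (PE.c 2) (sumPE i j m))
    (PE.mul (PE.c (9 ^ i * 54 ^ j * 3 ^ m * 6))
      (mdotPE T (monPE (nPE (PE.v 0) (PE.v 1)) (cPE (PE.v 0) (PE.v 1)))
        (monPE (nPE (PE.v 2) (PE.v 3)) (cPE (PE.v 2) (PE.v 3)))))

def allId (i j : Nat) : Nat → List (List (List Int)) → Bool
  | _, [] => true
  | m, T :: Ts => (idPE i j m T).checkZero 4 10 128 && allId i j (m + 1) Ts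

theorem idA : allId 1 0 0 tabA = true := by decide +kernel
theorem idB : allId 2 0 0 tabB = true := by decide +kernel
theorem idC : allId 1 1 0 tabC = true := by decide +kernel
theorem idD : allId 0 2 0 tabD = true := by decide +kernel

end Vale.Agent.P154
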