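import Vale.Agent.P154.Shared

/-!
Reduction of nonreconstruction (q = 3) to pointwise inequalities: merging of children.
-/

namespace Vale.Agent.P154

open scoped BigOperators ENNReal

theorem dom_one (lam : ℝ) (off : ℕ → ℝ) (Ψ : V → ℝ) : Dom lam off 1 Ψ Ψ := by
  intro n
  simp

theorem dom_zero (lam : ℝ) (off : ℕ → ℝ) (Φ Ψ : V → ℝ) (h : Φ (fun _ => 1) = 0) :
    Dom lam off 0 Φ Ψ := by
  intro n
  have : ∀ f : Fin 0 → Obs 3 n, ENNReal.ofReal (Φ (PL lam off n 0 f)) = 0 := by
    intro f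
    have h1 : PL lam off n 0 f = fun _ => 1 := by
      funext i; simp [PL]
    rw [h1, h, ENNReal.ofReal_zero]
  rw [G, tsum_congr this, tsum_zero]
  exact zero_le

/-- the merge inequality -/
theorem dom_merge {lam : ℝ} (h0 : -(1/2) ≤ lam) (h1 : lam ≤ 1) {off : ℕ → ℝ} (hoff : IsOff off)
    {i j : ℕ} {Φ Φi Φj Ψ : V → ℝ}
    (hi : ∀ x, InK lam i x → 0 ≤ Φi x) (hj : ∀ x, InK lam j x → 0 ≤ Φj x)
    (hΦ : ∀ x, InK lam (i + j) x → 0 ≤ Φ x)
    (H : ∀ x y, InK lam i x → InK lam j y →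
      (1 / 6) * ∑ g : Equiv.Perm (Fin 3), Φ (had x (perm g y)) ≤
        tot y / 3 * Φi x + tot x / 3 * Φj y)
    (Di : Dom lam off i Φi Ψ) (Dj : Dom lam off j Φj Ψ) : Dom lam off (i + j) Φ Ψ := by
  intro n
  have hcard : Fintype.card (Equiv.Perm (Fin 3)) = 6 := by decide
  -- for a fixed family of `i` children
  have hx : ∀ x, InK lam i x → ∑' g : Fin j → Obs 3 n, ENNReal.ofReal (Φ (had x (PL lam off n j g)))
      ≤ ENNReal.ofReal (Φi x) + ENNReal.ofReal (tot x / 3) * G lam off n j Φj := by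
    intro x hxK
    have hx0 : 0 ≤ tot x / 3 := div_nonneg (tot_nonneg (inK_nonneg h0 h1 hxK)) (by norm_num)
    have hnn : ∀ (g : Fin j → Obs 3 n) (p : Equiv.Perm (Fin 3)),
        0 ≤ Φ (had x (perm p (PL lam off n j g))) := fun g p =>
      hΦ _ (inK_had hxK (inK_perm (inK_PL h0 h1 hoff.nonneg n j g) p))
    -- six times the sum
    have h6 : (6 : ℝ≥0∞) * ∑' g : Fin j → Obs 3 n, ENNReal.ofReal (Φ (had x (PL lam off n j g))) =
        ∑' g : Fin j → Obs 3 n, ENNReal.ofReal
          (∑ p : Equiv.Perm (Fin 3), Φ (had x (perm p (PL lam off n j g)))) := by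
      have e1 : ∀ g : Fin j → Obs 3 n, ENNReal.ofReal
          (∑ p : Equiv.Perm (Fin 3), Φ (had x (perm p (PL lam off n j g)))) =
          ∑ p : Equiv.Perm (Fin 3), ENNReal.ofReal (Φ (had x (perm p (PL lam off n j g)))) :=
        fun g => ENNReal.ofReal_sum_of_nonneg fun p _ => hnn g p
      rw [tsum_congr e1, Summable.tsum_finsetSum fun _ _ => ENNReal.summable]
      have e2 : ∀ p ∈ (Finset.univ : Finset (Equiv.Perm (Fin 3))),
          ∑' g : Fin j → Obs 3 n, ENNReal.ofReal (Φ (had x (perm p (PL lam off n j g)))) =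
          ∑' g : Fin j → Obs 3 n, ENNReal.ofReal (Φ (had x (PL lam off n j g))) :=
        fun p _ => tsum_PL_perm lam off p n j (fun y => ENNReal.ofReal (Φ (had x y)))
      rw [Finset.sum_congr rfl e2, Finset.sum_const, Finset.card_univ, hcard, nsmul_eq_mul]
      norm_num
    have h7 : ∀ g : Fin j → Obs 3 n, ENNReal.ofReal
        (∑ p : Equiv.Perm (Fin 3), Φ (had x (perm p (PL lam off n j g)))) ≤
        6 * (ENNReal.ofReal (tot (PL lam off n j g) / 3) * ENNReal.ofReal (Φi x) +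
          ENNReal.ofReal (tot x / 3) * ENNReal.ofReal (Φj (PL lam off n j g))) := by
      intro g
      have hK := inK_PL h0 h1 hoff.nonneg n j g
      have hy0 : 0 ≤ tot (PL lam off n j g) / 3 :=
        div_nonneg (tot_nonneg (inK_nonneg h0 h1 hK)) (by norm_num)
      rw [← ENNReal.ofReal_mul hy0, ← ENNReal.ofReal_mul hx0,
        ← ENNReal.ofReal_add (mul_nonneg hy0 (hi x hxK)) (mul_nonneg hx0 (hj _ hK))]
      have h8 : (6 : ℝ≥0∞) = ENNReal.ofReal 6 := by norm_num
      rw [h8, ← ENNReal.ofReal_mul (by norm_num)]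
      refine ENNReal.ofReal_le_ofReal ?_
      have := H x (PL lam off n j g) hxK hK
      linarith
    have h9 : (6 : ℝ≥0∞) * ∑' g : Fin j → Obs 3 n, ENNReal.ofReal (Φ (had x (PL lam off n j g))) ≤
        6 * (ENNReal.ofReal (Φi x) + ENNReal.ofReal (tot x / 3) * G lam off n j Φj) := by
      rw [h6]
      refine (ENNReal.tsum_le_tsum h7).trans (le_of_eq ?_)
      rw [ENNReal.tsum_mul_left, ENNReal.tsum_add, ENNReal.tsum_mul_right, ENNReal.tsum_mul_left,
        tsum_tot_PL h0 h1 hoff n j, one_mul]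
      rfl
    exact (ENNReal.mul_le_mul_iff_right (by norm_num) (by norm_num)).1 h9
  -- sum over the `i` children
  have hsum : G lam off n (i + j) Φ ≤ G lam off n i Φi + G lam off n j Φj := by
    rw [G, tsum_append]
    calc ∑' f : Fin i → Obs 3 n, ∑' g : Fin j → Obs 3 n,
          ENNReal.ofReal (Φ (PL lam off n (i + j) (Fin.append f g)))
        ≤ ∑' f : Fin i → Obs 3 n, (ENNReal.ofReal (Φi (PL lam off n i f)) +
            ENNReal.ofReal (tot (PL lam off n i f) / 3) * G lam off n j Φj) := by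
          refine ENNReal.tsum_le_tsum fun f => ?_
          simp only [PL_append]
          exact hx _ (inK_PL h0 h1 hoff.nonneg n i f)
      _ = G lam off n i Φi + G lam off n j Φj := by
          rw [ENNReal.tsum_add, ENNReal.tsum_mul_right, tsum_tot_PL h0 h1 hoff n i, one_mul]
          rfl
  refine hsum.trans ?_
  push_cast
  rw [add_mul]
  exact add_le_add (Di n) (Dj n)

end Vale.Agent.P154
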