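import Vale.Agent.P154.RedDefs

/-!
Shared facts about the laws of the observations: nonnegativity, mass, invariance under
relabelling of the spins, and sums over `Fin k → Obs`.
-/

namespace Vale.Agent.P154

open scoped BigOperators ENNReal

/-! ### Sums over `Fin k → α` -/

theorem tsum_pi_prod {α : Type*} : ∀ (k : ℕ) (h : Fin k → α → ℝ≥0∞),
    ∑' f : Fin k → α, ∏ c, h c (f c) = ∏ c, ∑' a, h c a := by
  intro k
  induction k with
  | zero =>
    intro h
    simp
  | succ k ih =>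
    intro h
    rw [← (Fin.consEquiv (fun _ : Fin (k + 1) => α)).tsum_eq, Fin.prod_univ_succ, ← ih,
      ← ENNReal.tsum_mul_right, ENNReal.tsum_prod']
    refine tsum_congr fun a => ?_
    rw [← ENNReal.tsum_mul_left]
    refine tsum_congr fun f => ?_
    rw [Fin.prod_univ_succ]
    simp [Fin.consEquiv]

/-! ### The channel -/

theorem channel_nonneg {q : ℕ} {lam : ℝ} (h0 : 0 ≤ 1 + (q - 1) * lam) (h1 : lam ≤ 1)
    (i j : Fin q) : 0 ≤ channel q lam i j := by
  have hq : (0 : ℝ) < q := by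
    have : 0 < q := Fin.pos i
    exact_mod_cast this
  rw [channel]
  split_ifs with h
  · have : lam * 1 + (1 - lam) / q = (1 + (q - 1) * lam) / q := by field_simp; ring
    rw [this]
    positivity
  · have : 0 ≤ (1 - lam) / q := div_nonneg (by linarith) hq.le
    linarith

theorem channel_sum {q : ℕ} (lam : ℝ) (i : Fin q) : ∑ j, channel q lam i j = 1 := by
  have hq : (q : ℝ) ≠ 0 := by
    have : 0 < q := Fin.pos i
    exact_mod_cast this.ne'
  simp only [channel, Finset.sum_add_distrib, Finset.sum_const, Finset.card_univ,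
    Fintype.card_fin, nsmul_eq_mul]
  simp
  field_simp
  ring

theorem channel_sum_mul {q : ℕ} (lam : ℝ) (i : Fin q) (x : Fin q → ℝ) :
    ∑ j, channel q lam i j * x j = lam * x i + (1 - lam) / q * ∑ j, x j := by
  simp only [channel, add_mul, Finset.sum_add_distrib, Finset.mul_sum]
  simp

theorem channel_perm {q : ℕ} (lam : ℝ) (g : Equiv.Perm (Fin q)) (i j : Fin q) :
    channel q lam (g i) (g j) = channel q lam i j := by
  simp [channel]

/-! ### The laws -/

theorem law_nonneg {q : ℕ} {lam : ℝ} (h0 : 0 ≤ 1 + (q - 1) * lam) (h1 : lam ≤ 1) {off : ℕ → ℝ}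
    (hoff : ∀ k, 0 ≤ off k) : ∀ (n : ℕ) (i : Fin q) (o : Obs q n), 0 ≤ law q lam off n i o
  | 0, i, o => by
    rw [law]; split_ifs <;> norm_num
  | n + 1, i, o => by
    rw [law]
    refine mul_nonneg (hoff _) (Finset.prod_nonneg fun c _ => Finset.sum_nonneg fun j _ => ?_)
    exact mul_nonneg (channel_nonneg h0 h1 i j) (law_nonneg h0 h1 hoff n j _)

/-- mass identity for one child. -/
theorem tsum_child {q : ℕ} {lam : ℝ} (h0 : 0 ≤ 1 + (q - 1) * lam) (h1 : lam ≤ 1) {off : ℕ → ℝ}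
    (hoff : ∀ k, 0 ≤ off k) (n : ℕ)
    (ih : ∀ i, ∑' o : Obs q n, ENNReal.ofReal (law q lam off n i o) = 1) (i : Fin q) :
    ∑' o : Obs q n, ENNReal.ofReal (∑ j, channel q lam i j * law q lam off n j o) = 1 := by
  have e1 : ∀ o : Obs q n, ENNReal.ofReal (∑ j, channel q lam i j * law q lam off n j o) =
      ∑ j, ENNReal.ofReal (channel q lam i j) * ENNReal.ofReal (law q lam off n j o) := by
    intro o
    rw [ENNReal.ofReal_sum_of_nonneg fun j _ =>
      mul_nonneg (channel_nonneg h0 h1 i j) (law_nonneg h0 h1 hoff n j _)]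
    exact Finset.sum_congr rfl fun j _ => ENNReal.ofReal_mul (channel_nonneg h0 h1 i j)
  rw [tsum_congr e1, Summable.tsum_finsetSum fun _ _ => ENNReal.summable]
  have e2 : ∀ j ∈ (Finset.univ : Finset (Fin q)),
      ∑' o : Obs q n, ENNReal.ofReal (channel q lam i j) * ENNReal.ofReal (law q lam off n j o) =
        ENNReal.ofReal (channel q lam i j) := by
    intro j _
    rw [ENNReal.tsum_mul_left, ih j, mul_one]
  rw [Finset.sum_congr rfl e2, ← ENNReal.ofReal_sum_of_nonneg fun j _ => channel_nonneg h0 h1 i j,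
    channel_sum, ENNReal.ofReal_one]

/-- mass identity: given the root spin, the observations form a probability space. -/
theorem tsum_law {q : ℕ} {lam : ℝ} (h0 : 0 ≤ 1 + (q - 1) * lam) (h1 : lam ≤ 1) {off : ℕ → ℝ}
    (hoff : ∀ k, 0 ≤ off k) (hsum : HasSum off 1) : ∀ (n : ℕ) (i : Fin q),
    ∑' o : Obs q n, ENNReal.ofReal (law q lam off n i o) = 1 := by
  intro n
  induction n with
  | zero =>
    intro i
    rw [tsum_eq_single (show Obs q 0 from i)]
    · have : i = Obs.spin (show Obs q 0 from i) := rfl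
      rw [law, if_pos this, ENNReal.ofReal_one]
    · intro o ho
      have : ¬ i = Obs.spin o := fun h => ho h.symm
      rw [law, if_neg this, ENNReal.ofReal_zero]
  | succ n ih =>
    intro i
    have e1 : ∀ k : ℕ, ∑' f : Fin k → Obs q n, ENNReal.ofReal (law q lam off (n + 1) i ⟨k, f⟩) =
        ENNReal.ofReal (off k) := by
      intro k
      have e2 : ∀ f : Fin k → Obs q n, ENNReal.ofReal (law q lam off (n + 1) i ⟨k, f⟩) =
          ENNReal.ofReal (off k) * ∏ c, ENNReal.ofReal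
            (∑ j, channel q lam i j * law q lam off n j (f c)) := by
        intro f
        change ENNReal.ofReal (off k * ∏ c : Fin k,
          ∑ j, channel q lam i j * law q lam off n j (f c)) = _
        rw [ENNReal.ofReal_mul (hoff k), ENNReal.ofReal_prod_of_nonneg]
        intro c _
        exact Finset.sum_nonneg fun j _ =>
          mul_nonneg (channel_nonneg h0 h1 i j) (law_nonneg h0 h1 hoff n j _)
      rw [tsum_congr e2, ENNReal.tsum_mul_left,
        tsum_pi_prod k (fun _ o => ENNReal.ofReal (∑ j, channel q lam i j * law q lam off n j o))]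
      simp only [tsum_child h0 h1 hoff n ih i, Finset.prod_const_one, mul_one]
    have e3 : ∑' o : Obs q (n + 1), ENNReal.ofReal (law q lam off (n + 1) i o) =
        ∑' k : ℕ, ∑' f : Fin k → Obs q n, ENNReal.ofReal (law q lam off (n + 1) i ⟨k, f⟩) :=
      ENNReal.tsum_sigma' (fun o : (Σ k : ℕ, (Fin k → Obs q n)) =>
        ENNReal.ofReal (law q lam off (n + 1) i o))
    rw [e3, tsum_congr e1, ← ENNReal.ofReal_tsum_of_nonneg hoff hsum.summable, hsum.tsum_eq,
      ENNReal.ofReal_one]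

/-! ### Relabelling -/

/-- relabelling of the spins in an observation -/
def relab {q : ℕ} (g : Equiv.Perm (Fin q)) : (n : ℕ) → Obs q n ≃ Obs q n
  | 0 => g
  | n + 1 => Equiv.sigmaCongrRight fun k => Equiv.piCongrRight fun _ : Fin k => relab g n

theorem law_relab {q : ℕ} (lam : ℝ) (off : ℕ → ℝ) (g : Equiv.Perm (Fin q)) :
    ∀ (n : ℕ) (i : Fin q) (o : Obs q n),
      law q lam off n (g i) (relab g n o) = law q lam off n i o
  | 0, i, o => by
    have : (g i = (relab g 0 o).spin) ↔ i = o.spin := by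
      change g i = g o.spin ↔ i = o.spin
      exact g.injective.eq_iff
    rw [law, law]
    by_cases h : i = o.spin
    · rw [if_pos h, if_pos (this.2 h)]
    · rw [if_neg h, if_neg (fun h' => h (this.1 h'))]
  | n + 1, i, ⟨k, f⟩ => by
    change off k * ∏ c : Fin k, ∑ j, channel q lam (g i) j * law q lam off n j (relab g n (f c)) =
      off k * ∏ c : Fin k, ∑ j, channel q lam i j * law q lam off n j (f c)
    congr 1
    refine Finset.prod_congr rfl fun c _ => ?_
    rw [← Equiv.sum_comp g]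
    refine Finset.sum_congr rfl fun j _ => ?_
    rw [channel_perm, law_relab lam off g n j (f c)]

/-! ### The case `q = 3` -/

theorem chan3 {lam : ℝ} (h0 : -(1 / 2) ≤ lam) : 0 ≤ 1 + (((3 : ℕ) : ℝ) - 1) * lam := by
  push_cast; linarith

theorem tot_eq (x : V) : tot x = ∑ j, x j := by
  rw [tot, Fin.sum_univ_three]

theorem mvec_eq (lam : ℝ) (x : V) (i : Fin 3) : mvec lam x i = ∑ j, channel 3 lam i j * x j := by
  rw [channel_sum_mul, mvec, tot_eq]; norm_num

theorem mvec_nonneg {lam : ℝ} (h0 : -(1 / 2) ≤ lam) (h1 : lam ≤ 1) {x : V} (hx : ∀ i, 0 ≤ x i)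
    (i : Fin 3) : 0 ≤ mvec lam x i := by
  rw [mvec_eq]
  exact Finset.sum_nonneg fun j _ => mul_nonneg (channel_nonneg (chan3 h0) h1 i j) (hx j)

theorem L_nonneg {lam : ℝ} (h0 : -(1 / 2) ≤ lam) (h1 : lam ≤ 1) {off : ℕ → ℝ}
    (hoff : ∀ k, 0 ≤ off k) (n : ℕ) (o : Obs 3 n) (i : Fin 3) : 0 ≤ L lam off n o i :=
  law_nonneg (chan3 h0) h1 hoff n i o

theorem PL_nonneg {lam : ℝ} (h0 : -(1 / 2) ≤ lam) (h1 : lam ≤ 1) {off : ℕ → ℝ}
    (hoff : ∀ k, 0 ≤ off k) (n k : ℕ) (f : Fin k → Obs 3 n) (i : Fin 3) :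
    0 ≤ PL lam off n k f i :=
  Finset.prod_nonneg fun c _ => mvec_nonneg h0 h1 (L_nonneg h0 h1 hoff n (f c)) i

/-- the likelihood vector one generation down -/
theorem L_succ (lam : ℝ) (off : ℕ → ℝ) (n k : ℕ) (f : Fin k → Obs 3 n) :
    L lam off (n + 1) ⟨k, f⟩ = fun i => off k * PL lam off n k f i := by
  funext i
  change off k * ∏ c : Fin k, ∑ j, channel 3 lam i j * law 3 lam off n j (f c) = _
  congr 1
  refine Finset.prod_congr rfl fun c _ => ?_
  rw [mvec_eq]
  rfl

theorem tsum_L {lam : ℝ} (h0 : -(1 / 2) ≤ lam) (h1 : lam ≤ 1) {off : ℕ → ℝ} (hoff : IsOff off)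
    (n : ℕ) (i : Fin 3) : ∑' o : Obs 3 n, ENNReal.ofReal (L lam off n o i) = 1 :=
  tsum_law (chan3 h0) h1 hoff.nonneg hoff.sum n i

theorem tsum_mvec_L {lam : ℝ} (h0 : -(1 / 2) ≤ lam) (h1 : lam ≤ 1) {off : ℕ → ℝ}
    (hoff : IsOff off) (n : ℕ) (i : Fin 3) :
    ∑' o : Obs 3 n, ENNReal.ofReal (mvec lam (L lam off n o) i) = 1 := by
  rw [← tsum_child (chan3 h0) h1 hoff.nonneg n
    (tsum_law (chan3 h0) h1 hoff.nonneg hoff.sum n) i]
  exact tsum_congr fun o => by rw [mvec_eq]; rfl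

theorem tsum_PL {lam : ℝ} (h0 : -(1 / 2) ≤ lam) (h1 : lam ≤ 1) {off : ℕ → ℝ}
    (hoff : IsOff off) (n k : ℕ) (i : Fin 3) :
    ∑' f : Fin k → Obs 3 n, ENNReal.ofReal (PL lam off n k f i) = 1 := by
  have e1 : ∀ f : Fin k → Obs 3 n, ENNReal.ofReal (PL lam off n k f i) =
      ∏ c, ENNReal.ofReal (mvec lam (L lam off n (f c)) i) := by
    intro f
    rw [PL, ENNReal.ofReal_prod_of_nonneg]
    intro c _
    exact mvec_nonneg h0 h1 (L_nonneg h0 h1 hoff.nonneg n (f c)) i
  rw [tsum_congr e1, tsum_pi_prod k (fun _ o => ENNReal.ofReal (mvec lam (L lam off n o) i))]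
  simp only [tsum_mvec_L h0 h1 hoff n i, Finset.prod_const_one]

theorem tsum_tot_PL {lam : ℝ} (h0 : -(1 / 2) ≤ lam) (h1 : lam ≤ 1) {off : ℕ → ℝ}
    (hoff : IsOff off) (n k : ℕ) :
    ∑' f : Fin k → Obs 3 n, ENNReal.ofReal (tot (PL lam off n k f) / 3) = 1 := by
  have e1 : ∀ f : Fin k → Obs 3 n, ENNReal.ofReal (tot (PL lam off n k f) / 3) =
      ∑ i : Fin 3, ENNReal.ofReal (1 / 3) * ENNReal.ofReal (PL lam off n k f i) := by
    intro f
    have : tot (PL lam off n k f) / 3 = ∑ i : Fin 3, (1 / 3) * PL lam off n k f i := by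
      rw [← Finset.mul_sum, tot_eq]; ring
    rw [this, ENNReal.ofReal_sum_of_nonneg fun i _ =>
      mul_nonneg (by norm_num) (PL_nonneg h0 h1 hoff.nonneg n k f i)]
    exact Finset.sum_congr rfl fun i _ => ENNReal.ofReal_mul (by norm_num)
  rw [tsum_congr e1, Summable.tsum_finsetSum fun _ _ => ENNReal.summable]
  simp only [ENNReal.tsum_mul_left, tsum_PL h0 h1 hoff n k, mul_one]
  rw [← ENNReal.ofReal_sum_of_nonneg fun i _ => by norm_num]
  simp

theorem tsum_tot_L {lam : ℝ} (h0 : -(1 / 2) ≤ lam) (h1 : lam ≤ 1) {off : ℕ → ℝ}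
    (hoff : IsOff off) (n : ℕ) :
    ∑' o : Obs 3 n, ENNReal.ofReal (tot (L lam off n o) / 3) = 1 := by
  have e1 : ∀ o : Obs 3 n, ENNReal.ofReal (tot (L lam off n o) / 3) =
      ∑ i : Fin 3, ENNReal.ofReal (1 / 3) * ENNReal.ofReal (L lam off n o i) := by
    intro o
    have : tot (L lam off n o) / 3 = ∑ i : Fin 3, (1 / 3) * L lam off n o i := by
      rw [← Finset.mul_sum, tot_eq]; ring
    rw [this, ENNReal.ofReal_sum_of_nonneg fun i _ =>
      mul_nonneg (by norm_num) (L_nonneg h0 h1 hoff.nonneg n o i)]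
    exact Finset.sum_congr rfl fun i _ => ENNReal.ofReal_mul (by norm_num)
  rw [tsum_congr e1, Summable.tsum_finsetSum fun _ _ => ENNReal.summable]
  simp only [ENNReal.tsum_mul_left, tsum_L h0 h1 hoff n, mul_one]
  rw [← ENNReal.ofReal_sum_of_nonneg fun i _ => by norm_num]
  simp

/-! ### Relabelling, `q = 3` -/

theorem mvec_perm (lam : ℝ) (g : Equiv.Perm (Fin 3)) (x : V) :
    mvec lam (perm g x) = perm g (mvec lam x) := by
  have h : tot (perm g x) = tot x := by
    rw [tot_eq, tot_eq]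
    exact Equiv.sum_comp g x
  funext i
  simp only [mvec, perm, h]

theorem L_relab (lam : ℝ) (off : ℕ → ℝ) (g : Equiv.Perm (Fin 3)) (n : ℕ) (o : Obs 3 n) :
    L lam off n (relab g n o) = perm g⁻¹ (L lam off n o) := by
  funext i
  have := law_relab lam off g n (g⁻¹ i) o
  have h : g (g⁻¹ i) = i := g.apply_symm_apply i
  rw [h] at this
  exact this

theorem PL_relab (lam : ℝ) (off : ℕ → ℝ) (g : Equiv.Perm (Fin 3)) (n k : ℕ)
    (f : Fin k → Obs 3 n) :
    PL lam off n k (fun c => relab g n (f c)) = perm g⁻¹ (PL lam off n k f) := by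
  funext i
  simp only [PL, L_relab, mvec_perm]
  rfl

/-- sums over the observations are invariant under relabelling -/
theorem tsum_L_perm (lam : ℝ) (off : ℕ → ℝ) (g : Equiv.Perm (Fin 3)) (n : ℕ)
    (h : V → ℝ≥0∞) :
    ∑' o : Obs 3 n, h (perm g (L lam off n o)) = ∑' o : Obs 3 n, h (L lam off n o) := by
  rw [← (relab g⁻¹ n).tsum_eq (fun o => h (L lam off n o))]
  refine tsum_congr fun o => ?_
  rw [L_relab, inv_inv]

theorem tsum_PL_perm (lam : ℝ) (off : ℕ → ℝ) (g : Equiv.Perm (Fin 3)) (n k : ℕ)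
    (h : V → ℝ≥0∞) :
    ∑' f : Fin k → Obs 3 n, h (perm g (PL lam off n k f)) =
      ∑' f : Fin k → Obs 3 n, h (PL lam off n k f) := by
  rw [← (Equiv.piCongrRight fun _ : Fin k => relab g⁻¹ n).tsum_eq
    (fun f => h (PL lam off n k f))]
  refine tsum_congr fun f => ?_
  have := PL_relab lam off g⁻¹ n k f
  rw [inv_inv] at this
  rw [← this]
  rfl

/-- likelihood vectors of a juxtaposition -/
theorem PL_append (lam : ℝ) (off : ℕ → ℝ) (n i j : ℕ) (f : Fin i → Obs 3 n)
    (g : Fin j → Obs 3 n) :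
    PL lam off n (i + j) (Fin.append f g) = had (PL lam off n i f) (PL lam off n j g) := by
  funext l
  simp only [PL, had, Fin.prod_univ_add, Fin.append_left, Fin.append_right]

theorem tsum_append {α : Type*} (i j : ℕ) (h : (Fin (i + j) → α) → ℝ≥0∞) :
    ∑' f : Fin (i + j) → α, h f = ∑' f : Fin i → α, ∑' g : Fin j → α, h (Fin.append f g) := by
  rw [← (Fin.appendEquiv (α := α) i j).tsum_eq, ENNReal.tsum_prod']
  rfl

theorem inK_PL {lam : ℝ} (h0 : -(1 / 2) ≤ lam) (h1 : lam ≤ 1) {off : ℕ → ℝ}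
    (hoff : ∀ k, 0 ≤ off k) (n k : ℕ) (f : Fin k → Obs 3 n) : InK lam k (PL lam off n k f) :=
  ⟨fun c => L lam off n (f c), fun c i => L_nonneg h0 h1 hoff n (f c) i, rfl⟩

theorem inK_perm {lam : ℝ} {k : ℕ} {x : V} (hx : InK lam k x) (g : Equiv.Perm (Fin 3)) :
    InK lam k (perm g x) := by
  obtain ⟨z, hz, rfl⟩ := hx
  refine ⟨fun c => perm g (z c), fun c i => hz c (g i), ?_⟩
  funext i
  simp only [mvec_perm]
  rfl

theorem inK_had {lam : ℝ} {i j : ℕ} {x y : V} (hx : InK lam i x) (hy : InK lam j y) :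
    InK lam (i + j) (had x y) := by
  obtain ⟨z, hz, rfl⟩ := hx
  obtain ⟨w, hw, rfl⟩ := hy
  refine ⟨Fin.append z w, fun c => ?_, ?_⟩
  · refine Fin.addCases (fun c => ?_) (fun c => ?_) c
    · rw [Fin.append_left]; exact hz c
    · rw [Fin.append_right]; exact hw c
  · funext l
    simp only [had, Fin.prod_univ_add, Fin.append_left, Fin.append_right]

theorem inK_nonneg {lam : ℝ} (h0 : -(1 / 2) ≤ lam) (h1 : lam ≤ 1) {k : ℕ} {x : V}
    (hx : InK lam k x) (i : Fin 3) : 0 ≤ x i := by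
  obtain ⟨z, hz, rfl⟩ := hx
  exact Finset.prod_nonneg fun c _ => mvec_nonneg h0 h1 (hz c) i

theorem tot_nonneg {x : V} (hx : ∀ i, 0 ≤ x i) : 0 ≤ tot x := by
  have := hx 0; have := hx 1; have := hx 2
  rw [tot]; linarith

end Vale.Agent.P154
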