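import Vale.Agent.P154.CertUnivN
import Vale.Agent.P154.AllRegular

/-!
# Nonreconstruction for every Galton-Watson tree, `q = 3`, `-0.1562 ≤ λ ≤ 0`, `m λ² ≤ 1`
-/

namespace Vale.Agent.P154

/-- Domination of any number of children, `-0.1562 ≤ λ ≤ 0`. -/
theorem dom_univ_neg {off : ℕ → ℝ} (hoff : IsOff off) {lam : ℝ} (h0 : -(781 / 5000) ≤ lam)
    (h1 : lam ≤ 0) (k : ℕ) :
    Dom lam off k (Psi (uvNCfg.P.aK / uvNCfg.P.Q) (uvNCfg.P.bK / uvNCfg.P.Q)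
      (uvNCfg.P.cK / uvNCfg.P.Q)) (Psi (uvNCfg.P.aV / uvNCfg.P.Q) (uvNCfg.P.bV / uvNCfg.P.Q)
      (uvNCfg.P.cV / uvNCfg.P.Q)) := by
  induction k with
  | zero =>
    apply dom_zero
    norm_num [Psi, tot, Nh, Ch]
  | succ k ih =>
    exact dom_step_neg (i := k) (kV := 5) (dV := 32) (by linarith) h1 hoff uvN_ok uvN_T
      (by decide) (by decide) uvNCert (by decide) (by decide) (by push_cast; linarith) uvN_check
      (by decide) (by decide) ih (dom_one lam off _)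

/-- Every Galton-Watson tree with mean offspring number `m`, `m λ² ≤ 1`. -/
theorem nonrec_GW_neg {off : ℕ → ℝ} (hoff : IsOff off) {m : ℝ}
    (hm : HasSum (fun k : ℕ => off k * k) m) {lam : ℝ} (h0 : -(781 / 5000) ≤ lam) (hL : lam ≤ 0)
    (h1 : m * lam ^ 2 ≤ 1) : Nonreconstruction 3 lam off := by
  refine nonrec_univ_neg (L := 781 / 5000) (δ := 1 / 10000) hoff hm h0 hL (by norm_num) h1 ?_ ?_
    (by norm_num) ?_ (dom_univ_neg hoff h0 hL)
  · refine ⟨?_, ?_, ?_, ?_, ?_, ?_⟩ <;> norm_num [uvNCfg]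
  · norm_num [uvNCfg]
  · norm_num [uvNCfg, abs_le, abs_of_nonneg, abs_of_nonpos, max_def]

theorem lam_ge {d lam : ℝ} (hd : 41 ≤ d) (h1 : d * lam ^ 2 ≤ 1) : -(781 / 5000) ≤ lam := by
  by_contra h
  rw [not_le] at h
  have h2 : (781 / 5000 : ℝ) ^ 2 ≤ (-lam) ^ 2 := by
    apply pow_le_pow_left₀ (by norm_num); linarith
  have h3 : 41 * (781 / 5000 : ℝ) ^ 2 ≤ d * (-lam) ^ 2 := by gcongr
  norm_num at h3
  linarith

end Vale.Agent.P154
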