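import Vale.Agent.P154.V2Chain

/-!
Brackets with a chain of potentials that are affine in `m`, regular trees.
-/

namespace Vale.Agent.P154

open Filter Topology

/-- interpolation of two chains (with the same `g`) -/
noncomputable def zipC (t : ℝ) : List Cfg2 → List Cfg2 → List Lk
  | a :: as, b :: bs => (mix t a.P.beta b.P.beta, mix t a.P.Wr b.P.Wr, a.P.gr) :: zipC t as bs
  | _, _ => []

theorem zipC_length (t : ℝ) : ∀ as bs : List Cfg2, sameG as bs = true →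
    (zipC t as bs).length = as.length
  | [], [], _ => rfl
  | a :: as, b :: bs, h => by
    rw [sameG, Bool.and_eq_true] at h
    rw [zipC, List.length_cons, List.length_cons, zipC_length t as bs h.2]
  | [], _ :: _, h => absurd h (by simp [sameG])
  | _ :: _, [], h => absurd h (by simp [sameG])

theorem rlast_zip (t : ℝ) : ∀ (as bs : List Cfg2) (p q : P6), sameG as bs = true →
    rlast (mix t p q) (zipC t as bs) =
      mix t (rlast p (as.map Cfg2.lk)) (rlast q (bs.map Cfg2.lk))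
  | [], [], _, _, _ => rfl
  | a :: as, b :: bs, p, q, h => by
    rw [sameG, Bool.and_eq_true] at h
    rw [zipC, rlast, List.map_cons, List.map_cons, rlast, rlast]
    exact rlast_zip t as bs _ _ h.2
  | [], _ :: _, _, _, h => absurd h (by simp [sameG])
  | _ :: _, [], _, _, h => absurd h (by simp [sameG])

theorem mix_add (t : ℝ) (p q p' q' : P6) : mix t p q + mix t p' q' = mix t (p + p') (q + q') := by
  funext i
  simp only [mix, Pi.add_apply, Pi.smul_apply, smul_eq_mul]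
  ring

theorem rsum_zip (t : ℝ) : ∀ (as bs : List Cfg2) (p q : P6), sameG as bs = true →
    rsum (mix t p q) (zipC t as bs) =
      mix t (rsum p (as.map Cfg2.lk)) (rsum q (bs.map Cfg2.lk))
  | [], [], _, _, _ => rfl
  | a :: as, b :: bs, p, q, h => by
    rw [sameG, Bool.and_eq_true] at h
    rw [zipC, rsum, List.map_cons, List.map_cons, rsum, rsum]
    show rsum (mix t p q + mix t a.P.Wr b.P.Wr) _ = _
    rw [mix_add]
    exact rsum_zip t as bs _ _ h.2
  | [], _ :: _, _, _, h => absurd h (by simp [sameG])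
  | _ :: _, [], _, _, h => absurd h (by simp [sameG])

theorem link_U {mn md Q : Int} {prev : List Int} {c : Cfg2} (hmd : 0 < md)
    (h : linkOK mn md Q prev c = true) : c.P.Ur = vec Q prev - ((mn : ℝ) / md) • c.P.gr := by
  obtain ⟨-, -, r⟩ := link_rel h
  have hmd' : (0 : ℝ) < md := by exact_mod_cast hmd
  funext i
  have e := congrFun r i
  simp only [Pi.smul_apply, Pi.sub_apply, Pi.add_apply, smul_eq_mul] at e ⊢
  field_simp
  linarith

theorem mi_chain {lam t m : ℝ} {man mad mbn mbd Q : Int} (hmad : 0 < mad) (hmbd : 0 < mbd)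
    (t0 : 0 ≤ t) (t1 : t ≤ 1)
    (hm : m = (1 - t) * ((man : ℝ) / mad) + t * ((mbn : ℝ) / mbd)) :
    ∀ (ca cb : List Cfg2) (pa pb : List Int), sameG ca cb = true →
      chainOK man mad Q pa ca = true → chainOK mbn mbd Q pb cb = true →
      (∀ c ∈ ca, PW Pos (InK lam 1) c.P.beta c.P.Ur c.P.Wr c.P.gr) →
      (∀ c ∈ cb, PW Pos (InK lam 1) c.P.beta c.P.Ur c.P.Wr c.P.gr) →
      RChain lam m (mix t (vec Q pa) (vec Q pb)) (zipC t ca cb)
  | [], [], _, _, _, _, _, _, _ => trivial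
  | a :: ca, b :: cb, pa, pb, hs, ha, hb, hpa, hpb => by
    rw [sameG, Bool.and_eq_true] at hs
    rw [chainOK, Bool.and_eq_true] at ha hb
    obtain ⟨qa, -, -⟩ := link_rel ha.1
    obtain ⟨qb, -, -⟩ := link_rel hb.1
    have g : b.P.gr = a.P.gr := by
      rw [Par2.gr_eq, Par2.gr_eq, leqL_sound hs.1, qa, qb]
    have ua := link_U hmad ha.1
    have ub := link_U hmbd hb.1
    rw [zipC]
    refine ⟨?_, ?_⟩
    · show PW Pos (InK lam 1) (mix t a.P.beta b.P.beta)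
        (mix t (vec Q pa) (vec Q pb) - m • a.P.gr) (mix t a.P.Wr b.P.Wr) a.P.gr
      have h2 := hpb b List.mem_cons_self
      rw [g] at h2 ub
      refine PW_congr (PW_convex (hpa a List.mem_cons_self) h2 t0 t1) rfl ?_ rfl rfl
      rw [ua, ub]
      funext i
      simp only [Pi.sub_apply, Pi.add_apply, Pi.smul_apply, smul_eq_mul, mix]
      rw [hm]
      ring
    · show RChain lam m (mix t a.P.beta b.P.beta) (zipC t ca cb)
      have e1 : a.P.beta = vec Q a.P.bL := by rw [Par2.beta_eq, qa]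
      have e2 : b.P.beta = vec Q b.P.bL := by rw [Par2.beta_eq, qb]
      rw [e1, e2]
      exact mi_chain hmad hmbd t0 t1 hm ca cb _ _ hs.2 ha.2 hb.2
        (fun c hc => hpa c (List.mem_cons_of_mem _ hc))
        (fun c hc => hpb c (List.mem_cons_of_mem _ hc))
  | [], _ :: _, _, _, h, _, _, _, _ => absurd h (by simp [sameG])
  | _ :: _, [], _, _, h, _, _, _, _ => absurd h (by simp [sameG])

structure RMi.Rel (b : RMi) : Prop where
  hQ : 0 < b.Q
  hman : 0 ≤ b.man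
  hmad : 0 < b.mad
  hmbn : 0 < b.mbn
  hmbd : 0 < b.mbd
  hdl : 0 < b.dl
  hab : b.man * b.mbd < b.mbn * b.mad
  hmu : b.mua ≤ b.mub
  hmma : b.mad * b.mma = b.man * b.mua
  hmmb : b.mbd * b.mmb = b.mbn * b.mub
  Ba0 : b.Ba.getD 0 0 = 0
  Bb0 : b.Bb.getD 0 0 = 0
  same : sameG b.ca b.cb = true
  chaina : chainOK b.man b.mad b.Q b.Ba b.ca = true
  chainb : chainOK b.mbn b.mbd b.Q b.Bb b.cb = true

theorem RMi.rel {b : RMi} (h : b.ok = true) : b.Rel := by
  simp only [RMi.ok, Bool.and_eq_true] at h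
  obtain ⟨⟨⟨⟨⟨⟨⟨⟨⟨⟨⟨⟨⟨⟨⟨⟨h1, h2⟩, h3⟩, h4⟩, h5⟩, h6⟩, h7⟩, h8⟩, h9⟩, h10⟩, h11⟩, h12⟩, -⟩, -⟩,
    h15⟩, h16⟩, h17⟩ := h
  have i7 := pos?_sound h7
  have e7 : Int.sub (Int.mul b.mbn b.mad) (Int.mul b.man b.mbd) =
    b.mbn * b.mad - b.man * b.mbd := rfl
  rw [e7] at i7
  have i8 := nn?_sound h8
  have e8 : Int.sub b.mub b.mua = b.mub - b.mua := rfl
  rw [e8] at i8
  exact ⟨pos?_sound h1, nn?_sound h2, pos?_sound h3, pos?_sound h4, pos?_sound h5, pos?_sound h6,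
    by linarith, by linarith, ieq_sound h9, ieq_sound h10, ieq_sound h11, ieq_sound h12, h15, h16,
    h17⟩

/-- the certified facts -/
structure RMi.Fact (b : RMi) (lam : ℝ) : Prop where
  ok : b.ok = true
  pwa : ∀ c ∈ b.ca, PW Pos (InK lam 1) c.P.beta c.P.Ur c.P.Wr c.P.gr
  pwb : ∀ c ∈ b.cb, PW Pos (InK lam 1) c.P.beta c.P.Ur c.P.Wr c.P.gr
  fina : ∀ x, Pos x → H (sc lam (vec b.Q (sumW b.Ba b.ca))) x ≤
    H (vec b.Q (lastB b.Ba b.ca)) x + (b.mua / b.Q : ℝ) * H eN x -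
      (b.mma / b.Q : ℝ) / lam ^ 2 * tot x - (b.dl / b.Q : ℝ) * tot x
  finb : ∀ x, Pos x → H (sc lam (vec b.Q (sumW b.Bb b.cb))) x ≤
    H (vec b.Q (lastB b.Bb b.cb)) x + (b.mub / b.Q : ℝ) * H eN x -
      (b.mmb / b.Q : ℝ) / lam ^ 2 * tot x - (b.dl / b.Q : ℝ) * tot x

/-- from the checks to the facts -/
theorem RMi.fact {b : RMi} (hok : b.ok = true) {lam : ℝ} (hlam : lam ≠ 0)
    (hpwa : ∀ c ∈ b.ca, PW Pos (InK lam 1) c.P.beta c.P.Ur c.P.Wr c.P.gr)
    (hpwb : ∀ c ∈ b.cb, PW Pos (InK lam 1) c.P.beta c.P.Ur c.P.Wr c.P.gr)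
    {K1 K2 : ℕ} {C1 C2 : FCert} {D a d : Int} (hD : 0 < D) (had : a < d)
    (hfina : C1.check (b.fina K1) D a d (baseTri 1 1) = true)
    (hfinb : C2.check (b.finb K2) D a d (baseTri 1 1) = true)
    (ha : (a : ℝ) ≤ D * lam) (hd : D * lam ≤ d) : b.Fact lam := by
  have R := RMi.rel hok
  exact ⟨hok, hpwa, hpwb,
    fun x hx => fin_one R.hQ hD had hfina hlam ha hd (sumW_zero _ _ _ R.chaina R.Ba0) hx,
    fun x hx => fin_one R.hQ hD had hfinb hlam ha hd (sumW_zero _ _ _ R.chainb R.Bb0) hx⟩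

/-- position of `m` in the bracket -/
noncomputable def posIn (man mad mbn mbd : Int) (m : ℝ) : ℝ :=
  (m - (man : ℝ) / mad) / ((mbn : ℝ) / mbd - (man : ℝ) / mad)

theorem posIn_spec {man mad mbn mbd : Int} (hmad : 0 < mad) (hmbd : 0 < mbd)
    (hab : man * mbd < mbn * mad) {m : ℝ} (hma : (man : ℝ) / mad ≤ m)
    (hmb : m ≤ (mbn : ℝ) / mbd) : 0 ≤ posIn man mad mbn mbd m ∧ posIn man mad mbn mbd m ≤ 1 ∧
      (man : ℝ) / mad ≤ (mbn : ℝ) / mbd ∧
      m = (1 - posIn man mad mbn mbd m) * ((man : ℝ) / mad) +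
        posIn man mad mbn mbd m * ((mbn : ℝ) / mbd) := by
  have hmad : (0 : ℝ) < mad := by exact_mod_cast hmad
  have hmbd : (0 : ℝ) < mbd := by exact_mod_cast hmbd
  have hab : (man : ℝ) * mbd < mbn * mad := by exact_mod_cast hab
  have hlt : (man : ℝ) / mad < (mbn : ℝ) / mbd := by
    rw [div_lt_div_iff₀ hmad hmbd]; exact hab
  rw [posIn]
  generalize (man : ℝ) / mad = ma at *
  generalize (mbn : ℝ) / mbd = mb at *
  have hd : 0 < mb - ma := sub_pos.2 hlt
  refine ⟨div_nonneg (sub_nonneg.2 hma) hd.le, ?_, hlt.le, ?_⟩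
  · rw [div_le_one hd]; linarith
  · field_simp; ring

theorem continuous_posIn (man mad mbn mbd : Int) : Continuous (posIn man mad mbn mbd) := by
  unfold posIn
  fun_prop

theorem sc_mix' (lam t : ℝ) (p q : P6) (x : V) :
    H (sc lam (mix t p q)) x = (1 - t) * H (sc lam p) x + t * H (sc lam q) x := by
  rw [← H_mix]
  congr 1
  funext i
  fin_cases i <;> simp [sc, mix] <;> ring

theorem mid_arith' {t A B m ma mb N S Pa Pb La Lb dl u : ℝ}
    (fa : (1 - t) * La ≤ (1 - t) * (Pa + A * N - ma * A * u * S - dl * S))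
    (fb : t * Lb ≤ t * (Pb + B * N - mb * B * u * S - dl * S))
    (i1 : ((1 - t) * A + t * B) * (m * u) * S ≤
      ((1 - t) * (ma * A * u) + t * (mb * B * u)) * S) (i2 : dl * m ^ 2 * S ≤ dl * S) :
    ((1 - t) * La + t * Lb) ≤ (1 - t) * Pa + t * Pb +
      ((1 - t) * A + t * B) * (N - m * u * S) - dl * m ^ 2 * S := by
  linarith

/-- the closing inequality between the ends -/
theorem mid_close {lam : ℝ} (hlam : lam ≠ 0) {Q man mad mbn mbd mua mub mma mmb dl : Int}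
    (hQ : 0 < Q) (hman : 0 ≤ man) (hmad : 0 < mad) (hmbd : 0 < mbd)
    (hab : man * mbd < mbn * mad) (hdl : 0 < dl) (hmu : mua ≤ mub)
    (hmma : mad * mma = man * mua) (hmmb : mbd * mmb = mbn * mub) {pa pb wa wb : P6} {x : V}
    (hx : Pos x)
    (fina : H (sc lam wa) x ≤ H pa x + (mua / Q : ℝ) * H eN x -
      (mma / Q : ℝ) / lam ^ 2 * tot x - (dl / Q : ℝ) * tot x)
    (finb : H (sc lam wb) x ≤ H pb x + (mub / Q : ℝ) * H eN x -
      (mmb / Q : ℝ) / lam ^ 2 * tot x - (dl / Q : ℝ) * tot x) {m : ℝ}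
    (hma : (man : ℝ) / mad ≤ m) (hmb : m ≤ (mbn : ℝ) / mbd) (hm1 : m ≤ 1) :
    H (sc lam (mix (posIn man mad mbn mbd m) wa wb)) x ≤
      H (mix (posIn man mad mbn mbd m) pa pb) x +
      ((1 - posIn man mad mbn mbd m) * (mua / Q) + posIn man mad mbn mbd m * (mub / Q)) *
        (H eN x - (m / lam ^ 2) * tot x) - (dl / Q : ℝ) * m ^ 2 * tot x := by
  have hQ' : (0 : ℝ) < Q := by exact_mod_cast hQ
  have hman' : (0 : ℝ) ≤ man := by exact_mod_cast hman
  have hmad' : (0 : ℝ) < mad := by exact_mod_cast hmad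
  have hmbd' : (0 : ℝ) < mbd := by exact_mod_cast hmbd
  have hdl' : (0 : ℝ) < dl := by exact_mod_cast hdl
  have hmu' : (mua : ℝ) ≤ mub := by exact_mod_cast hmu
  have hmma' : (mad : ℝ) * mma = man * mua := by exact_mod_cast hmma
  have hmmb' : (mbd : ℝ) * mmb = mbn * mub := by exact_mod_cast hmmb
  obtain ⟨t0, t1, hlt, hm⟩ := posIn_spec hmad hmbd hab hma hmb
  have hm0 : 0 ≤ m := le_trans (by positivity) hma
  have hl2 : 0 < lam ^ 2 := by positivity
  have htx : 0 ≤ tot x := Cvx.tot_nn hx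
  have e1 : (mma : ℝ) = (man : ℝ) / mad * mua := by
    field_simp; linarith
  have e2 : (mmb : ℝ) = (mbn : ℝ) / mbd * mub := by
    field_simp; linarith
  have i1 := mid_mul hQ' hl2 t0 t1 hmu' hlt hm htx
  have i2 := dl_sq (show 0 ≤ (dl / Q : ℝ) by positivity) hm0 hm1 htx
  have fa := mul_le_mul_of_nonneg_left fina (sub_nonneg.2 t1)
  have fb := mul_le_mul_of_nonneg_left finb t0
  rw [e1] at fa
  rw [e2] at fb
  have e3 : m / lam ^ 2 = m * (1 / lam ^ 2) := by ring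
  rw [sc_mix', H_mix, e3]
  rw [e3] at i1
  refine mid_arith' (fa.trans (le_of_eq ?_)) (fb.trans (le_of_eq ?_)) i1 i2
  · ring
  · ring

/-- Regular tree with `ca.length + 1` children: the sequence cannot stay in the bracket unless
it tends to zero. -/
theorem RMi.Fact.regular {b : RMi} {lam : ℝ} {d : ℕ} (hd : b.ca.length + 1 = d) (hlam : lam ≠ 0)
    (h0 : -(1 / 2) ≤ lam) (h1 : lam ≤ 1) (hf : b.Fact lam) (F : Facts lam (regular d))
    {mlo mhi : ℝ} (hmlo : (b.man : ℝ) / b.mad ≤ mlo) (hmhi : mhi ≤ (b.mbn : ℝ) / b.mbd)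
    (hmhi1 : mhi ≤ 1) (hm : ∃ n0 : ℕ, ∀ n, n0 ≤ n →
      lam ^ 2 * xs lam (regular d) n ∈ Set.Icc mlo mhi) :
    Tendsto (xs lam (regular d)) atTop (𝓝 0) := by
  have R := RMi.rel hf.ok
  have hQ : (0 : ℝ) < b.Q := by exact_mod_cast R.hQ
  have hdl : (0 : ℝ) < b.dl := by exact_mod_cast R.hdl
  obtain ⟨t, ht⟩ : ∃ t : ℝ → ℝ, t = posIn b.man b.mad b.mbn b.mbd := ⟨_, rfl⟩
  have elast : ∀ m, rlast (mix (t m) (vec b.Q b.Ba) (vec b.Q b.Bb)) (zipC (t m) b.ca b.cb) =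
      mix (t m) (vec b.Q (lastB b.Ba b.ca)) (vec b.Q (lastB b.Bb b.cb)) := by
    intro m
    rw [rlast_zip _ _ _ _ _ R.same, lastB_vec _ _ R.chaina, lastB_vec _ _ R.chainb]
  have esum : ∀ m, rsum (mix (t m) (vec b.Q b.Ba) (vec b.Q b.Bb)) (zipC (t m) b.ca b.cb) =
      mix (t m) (vec b.Q (sumW b.Ba b.ca)) (vec b.Q (sumW b.Bb b.cb)) := by
    intro m
    rw [rsum_zip _ _ _ _ _ R.same, sumW_vec _ _ _ R.chaina, sumW_vec _ _ _ R.chainb]
  refine chain_regular hlam h0 h1 F (mlo := mlo) (mhi := mhi)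
    (delta := (b.dl : ℝ) / b.Q) (by positivity)
    (B := fun m => mix (t m) (vec b.Q b.Ba) (vec b.Q b.Bb))
    (cs := fun m => zipC (t m) b.ca b.cb)
    (fun m _ => by rw [zipC_length _ _ _ R.same]; exact hd) ?_ (fun m hm' => ?_)
    (fun m hm' => ?_) hm
  · simp only [elast]
    have hc : Continuous t := by rw [ht]; exact continuous_posIn _ _ _ _
    unfold mix
    exact (((continuous_const.sub hc).smul continuous_const).add
      (hc.smul continuous_const)).continuousOn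
  · obtain ⟨t0, t1, -, hm2⟩ := posIn_spec R.hmad R.hmbd R.hab (hmlo.trans hm'.1)
      (hm'.2.trans hmhi)
    rw [← ht] at t0 t1 hm2
    exact mi_chain R.hmad R.hmbd t0 t1 hm2 _ _ _ _ R.same R.chaina R.chainb hf.pwa hf.pwb
  · rw [elast, esum, ht]
    exact ⟨_, fun x hx => mid_close hlam R.hQ R.hman R.hmad R.hmbd R.hab R.hdl R.hmu R.hmma R.hmmb
      hx (hf.fina x hx) (hf.finb x hx) (hmlo.trans hm'.1) (hm'.2.trans hmhi) (hm'.2.trans hmhi1)⟩

end Vale.Agent.P154
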