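import Vale.Agent.P154.V2PBr

/-!
Brackets with chains of potentials for Poisson trees: the final theorems.
-/

namespace Vale.Agent.P154

open Filter Topology

/-- a multiplier `≤ 0` -/
theorem gneg_of {P : Par2} (hQ : 0 < P.Q) {K : ℕ} {C : FCert}
    (h : C.check (gFin (P.gL.map Int.neg) K) 1 0 1 (baseTri 1 1) = true) :
    ∀ x, Pos x → H P.gr x ≤ 0 := by
  intro x hx
  have h1 := gpos hQ (by simp [Par2.gL]) h hx
  rw [vec_neg, H_neg, ← Par2.gr_eq] at h1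
  linarith

namespace PCh

theorem vec_zero {Q : Int} {P : List Int} (h : P.getD 0 0 = 0) : vec Q P 0 = 0 := by
  rw [vec_apply, val0, h]
  simp

theorem inLast_lam {Q z : Int} (hz : 0 < z) {lam : ℝ} (hlam : lam ≠ 0) {ps : List Piece}
    (hne : ps ≠ []) (T1 : ((lastN 0 ps : ℝ) - lastDn 0 ps) * lam ^ 2 ≤ z)
    (T2 : (z : ℝ) ≤ lastN 0 ps * lam ^ 2) : InLast (toR Q z 0 ps) (1 / lam ^ 2) := by
  have hz' : (0 : ℝ) < z := by exact_mod_cast hz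
  have hl2 : 0 < lam ^ 2 := by positivity
  refine inLast_of hz ps 0 hne ?_ ?_
  · rw [Int.cast_zero, sub_zero, div_le_div_iff₀ hz' hl2]
    linarith
  · rw [Int.cast_zero, sub_zero, div_le_div_iff₀ hl2 hz']
    linarith

theorem H_sc_mix (lam t : ℝ) (p q : P6) (x : V) :
    H (sc lam (mix t p q)) x = (1 - t) * H (sc lam p) x + t * H (sc lam q) x := by
  rw [mix, Facts.sc_add, Facts.sc_smul, Facts.sc_smul, H_add, H_smul, H_smul]

theorem mid_arith' {t A B L m ma mb N S Pa Pb La Lb dl v : ℝ}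
    (fa : (1 - t) * La ≤ (1 - t) * (Pa + A * N - ma * A * L * S - dl * S))
    (fb : t * Lb ≤ t * (Pb + B * N - mb * B * L * S - dl * S))
    (i1 : ((1 - t) * A + t * B) * v * S ≤
      ((1 - t) * (ma * A * L) + t * (mb * B * L)) * S) (i2 : dl * m ^ 2 * S ≤ dl * S) :
    (1 - t) * La + t * Lb ≤ (1 - t) * Pa + t * Pb +
      ((1 - t) * A + t * B) * (N - v * S) - dl * m ^ 2 * S := by
  linarith

end PCh

open PCh

/-! ### constant potentials -/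

/-- the integer relations -/
structure PHi.Rel (b : PHi) : Prop where
  hQ : 0 < b.Q
  hz : 0 < b.z
  hmn : 0 < b.mn
  hmd : 0 < b.md
  hmu : 0 ≤ b.mu
  hdl : 0 < b.dl
  hmm : b.md * b.mm = b.mn * b.mu
  hP : b.P.getD 0 0 = 0
  ne : b.ps ≠ []
  pcs : piecesOK b.z b.mn b.md b.Q 0 b.P b.ps = true

theorem PHi.rel {b : PHi} (h : b.ok = true) : b.Rel := by
  simp only [PHi.ok, Bool.and_eq_true] at h
  obtain ⟨⟨⟨⟨⟨⟨⟨⟨⟨⟨h1, h2⟩, h3⟩, h4⟩, h5⟩, h6⟩, h7⟩, h8⟩, h9⟩, h10⟩, h11⟩ := h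
  refine ⟨pos?_sound h1, pos?_sound h2, pos?_sound h3, pos?_sound h4, nn?_sound h5,
    pos?_sound h6, ieq_sound h7, ieq_sound h8, ?_, h11⟩
  intro h0
  rw [h0] at h10
  exact absurd h10 (by simp)

/-- the facts certified for a bracket at one value of `lam` -/
structure PHi.Fact (b : PHi) (lam : ℝ) : Prop where
  ok : b.ok = true
  pcs : ∀ p ∈ b.ps, PcFact lam p
  g : ∀ p ∈ b.ps, (∀ x, Pos x → H p.c0.P.gr x ≤ 0) ∧ ∀ x, Pos x → H p.c1.P.gr x ≤ 0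
  T1 : ((lastN 0 b.ps : ℝ) - lastDn 0 b.ps) * lam ^ 2 ≤ b.z
  T2 : (b.z : ℝ) ≤ lastN 0 b.ps * lam ^ 2
  fin : ∀ x, Pos x → H (sc lam (J (toR b.Q b.z 0 b.ps) (1 / lam ^ 2))) x ≤
    H (vec b.Q b.P) x - (b.mu / b.Q : ℝ) * H eN x +
      (b.mm / b.Q : ℝ) / lam ^ 2 * tot x - (b.dl / b.Q : ℝ) * tot x

/-- from the checks to the facts -/
theorem PHi.fact {b : PHi} (hok : b.ok = true) {lam : ℝ} (hlam : lam ≠ 0)
    (hpcs : ∀ p ∈ b.ps, PcFact lam p)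
    (hg : ∀ p ∈ b.ps, (∀ x, Pos x → H p.c0.P.gr x ≤ 0) ∧ ∀ x, Pos x → H p.c1.P.gr x ≤ 0)
    (hT1 : ((lastN 0 b.ps : ℝ) - lastDn 0 b.ps) * lam ^ 2 ≤ b.z)
    (hT2 : (b.z : ℝ) ≤ lastN 0 b.ps * lam ^ 2)
    {K : ℕ} {C : FCert} {D a d : Int} (hD : 0 < D) (had : a < d)
    (hfin : C.check (b.fin K) D a d (baseTri 1 1) = true)
    (ha : (a : ℝ) ≤ D * lam) (hd : D * lam ≤ d) : b.Fact lam := by
  have R := PHi.rel hok
  refine ⟨hok, hpcs, hg, hT1, hT2, fun x hx => ?_⟩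
  have h := final_pieces R.hz R.hQ R.ne R.pcs hD had hfin hlam ha hd hx
  rw [neg_cast, neg_cast] at h
  refine h.trans (le_of_eq ?_)
  ring

theorem PHi.Fact.br {b : PHi} {lam : ℝ} (hlam : lam ≠ 0) (h0 : -(1 / 2) ≤ lam)
    (h1 : lam ≤ 1) (hf : b.Fact lam) {m : ℝ} (hm : (b.mn : ℝ) / b.md ≤ m) (hm1 : m ≤ 1) :
    BrP lam m ((b.dl : ℝ) / b.Q) (vec b.Q b.P) (toR b.Q b.z 0 b.ps) := by
  have R := PHi.rel hf.ok
  have hQ : (0 : ℝ) < b.Q := by exact_mod_cast R.hQ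
  have hmn : (0 : ℝ) < b.mn := by exact_mod_cast R.hmn
  have hmd : (0 : ℝ) < b.md := by exact_mod_cast R.hmd
  have hmu : (0 : ℝ) ≤ b.mu := by exact_mod_cast R.hmu
  have hdl : (0 : ℝ) < b.dl := by exact_mod_cast R.hdl
  have hmm : (b.md : ℝ) * b.mm = b.mn * b.mu := by exact_mod_cast R.hmm
  have hm0 : 0 < m := lt_of_lt_of_le (by positivity) hm
  have hl2 : 0 < lam ^ 2 := by positivity
  have hg : ∀ (ps : List Piece) (n0 : Int),
      (∀ p ∈ ps, (∀ x, Pos x → H p.c0.P.gr x ≤ 0) ∧ ∀ x, Pos x → H p.c1.P.gr x ≤ 0) →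
      ∀ p ∈ toR b.Q b.z n0 ps, (∀ x, Pos x → H p.g0 x ≤ 0) ∧ ∀ x, Pos x → H p.g1 x ≤ 0 := by
    intro ps
    induction ps with
    | nil => intro n0 _ p hp; simp [toR] at hp
    | cons q ps ih =>
      intro n0 h p hp
      rw [toR, List.mem_cons] at hp
      rcases hp with rfl | hp
      · exact h q List.mem_cons_self
      · exact ih q.n (fun x hx => h x (List.mem_cons_of_mem _ hx)) p hp
  refine ⟨Ch.mono h0 h1 hm _ _ (ch_of R.hz R.hmd b.ps 0 b.P R.pcs hf.pcs) (hg b.ps 0 hf.g),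
    inLast_lam R.hz hlam R.ne hf.T1 hf.T2, ⟨-(b.mu / b.Q : ℝ), fun x hx => ?_⟩⟩
  refine (hf.fin x hx).trans ?_
  have ht : 0 ≤ tot x := Cvx.tot_nn hx
  have i1 : (b.mm / b.Q : ℝ) / lam ^ 2 * tot x ≤
      (b.mu / b.Q : ℝ) * (m / lam ^ 2) * tot x := by
    refine mul_le_mul_of_nonneg_right ?_ ht
    have e1 : (b.mm : ℝ) = b.mu * (b.mn / b.md) := by
      field_simp
      linarith
    rw [e1]
    have e2 : (b.mu : ℝ) * (b.mn / b.md) / b.Q / lam ^ 2 =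
        (b.mu / b.Q) * ((b.mn / b.md) / lam ^ 2) := by ring
    rw [e2]
    exact mul_le_mul_of_nonneg_left (div_le_div_of_nonneg_right hm hl2.le) (by positivity)
  have i2 := dl_sq (show 0 ≤ (b.dl / b.Q : ℝ) by positivity) hm0.le hm1 ht
  nlinarith [i1, i2]

/-- Poisson tree: the sequence cannot stay in the bracket unless it tends to zero. -/
theorem PHi.Fact.poisson {b : PHi} {lam d : ℝ} (hlam : lam ≠ 0) (h0 : -(1 / 2) ≤ lam)
    (h1 : lam ≤ 1) (hf : b.Fact lam) (hd : 0 ≤ d) (hdl : d * lam ^ 2 ≤ 1)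
    (F : Facts lam (poisson d)) {mhi : ℝ} (hmhi : mhi ≤ 1)
    (hm : ∃ n0 : ℕ, ∀ n, n0 ≤ n →
      lam ^ 2 * xs lam (poisson d) n ∈ Set.Icc ((b.mn : ℝ) / b.md) mhi) :
    Tendsto (xs lam (poisson d)) atTop (𝓝 0) := by
  have R := PHi.rel hf.ok
  have hQ : (0 : ℝ) < b.Q := by exact_mod_cast R.hQ
  have hdl' : (0 : ℝ) < b.dl := by exact_mod_cast R.hdl
  obtain ⟨n0, hn0⟩ := hm
  exact bracket_chain hlam h0 h1 hd hdl F (delta := (b.dl : ℝ) / b.Q) (by positivity)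
    (P := fun _ => vec b.Q b.P) (ps := fun _ => toR b.Q b.z 0 b.ps) continuousOn_const
    (fun m hm => hf.br hlam h0 h1 hm.1 (hm.2.trans hmhi)) hn0

/-! ### affine potentials -/

/-- the integer relations -/
structure PMi.Rel (b : PMi) : Prop where
  hQ : 0 < b.Q
  hz : 0 < b.z
  hman : 0 ≤ b.man
  hmad : 0 < b.mad
  hmbn : 0 < b.mbn
  hmbd : 0 < b.mbd
  hdl : 0 < b.dl
  hab : b.man * b.mbd < b.mbn * b.mad
  hmu : b.mua ≤ b.mub
  hmma : b.mad * b.mma = b.man * b.mua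
  hmmb : b.mbd * b.mmb = b.mbn * b.mub
  nea : b.pa ≠ []
  same : samePG b.pa b.pb = true
  pca : piecesOK b.z b.man b.mad b.Q 0 b.Pa b.pa = true
  pcb : piecesOK b.z b.mbn b.mbd b.Q 0 b.Pb b.pb = true

theorem PMi.rel {b : PMi} (h : b.ok = true) : b.Rel := by
  simp only [PMi.ok, Bool.and_eq_true] at h
  obtain ⟨⟨⟨⟨⟨⟨⟨⟨⟨⟨⟨⟨⟨⟨⟨⟨⟨⟨h1, h2⟩, h3⟩, h4⟩, h5⟩, h6⟩, h7⟩, h8⟩, h9⟩, h10⟩, h11⟩, h12⟩,
    h13⟩, h14⟩, h15⟩, h16⟩, h17⟩, h18⟩, h19⟩ := h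
  have i8 := pos?_sound h8
  have e8 : Int.sub (Int.mul b.mbn b.mad) (Int.mul b.man b.mbd) =
    b.mbn * b.mad - b.man * b.mbd := rfl
  rw [e8] at i8
  have i9 := nn?_sound h9
  have e9 : Int.sub b.mub b.mua = b.mub - b.mua := rfl
  rw [e9] at i9
  refine ⟨pos?_sound h1, pos?_sound h2, nn?_sound h3, pos?_sound h4, pos?_sound h5,
    pos?_sound h6, pos?_sound h7, by linarith, by linarith, ieq_sound h10, ieq_sound h11, ?_,
    h17, h18, h19⟩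
  intro h0
  rw [h0] at h16
  exact absurd h16 (by simp)

theorem PMi.Rel.neb {b : PMi} (R : b.Rel) : b.pb ≠ [] := by
  intro h0
  have h1 := R.same
  have h2 := R.nea
  rw [h0] at h1
  cases h3 : b.pa with
  | nil => exact h2 h3
  | cons a as => rw [h3] at h1; exact absurd h1 (by simp [samePG])

/-- the facts certified for a bracket at one value of `lam` -/
structure PMi.Fact (b : PMi) (lam : ℝ) : Prop where
  ok : b.ok = true
  pca : ∀ p ∈ b.pa, PcFact lam p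
  pcb : ∀ p ∈ b.pb, PcFact lam p
  T1 : ((lastN 0 b.pa : ℝ) - lastDn 0 b.pa) * lam ^ 2 ≤ b.z
  T2 : (b.z : ℝ) ≤ lastN 0 b.pa * lam ^ 2
  fina : ∀ x, Pos x → H (sc lam (J (toR b.Q b.z 0 b.pa) (1 / lam ^ 2))) x ≤
    H (vec b.Q b.Pa) x + (b.mua / b.Q : ℝ) * H eN x -
      (b.mma / b.Q : ℝ) / lam ^ 2 * tot x - (b.dl / b.Q : ℝ) * tot x
  finb : ∀ x, Pos x → H (sc lam (J (toR b.Q b.z 0 b.pb) (1 / lam ^ 2))) x ≤
    H (vec b.Q b.Pb) x + (b.mub / b.Q : ℝ) * H eN x -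
      (b.mmb / b.Q : ℝ) / lam ^ 2 * tot x - (b.dl / b.Q : ℝ) * tot x

/-- from the checks to the facts -/
theorem PMi.fact {b : PMi} (hok : b.ok = true) {lam : ℝ} (hlam : lam ≠ 0)
    (hpca : ∀ p ∈ b.pa, PcFact lam p) (hpcb : ∀ p ∈ b.pb, PcFact lam p)
    (hT1 : ((lastN 0 b.pa : ℝ) - lastDn 0 b.pa) * lam ^ 2 ≤ b.z)
    (hT2 : (b.z : ℝ) ≤ lastN 0 b.pa * lam ^ 2)
    {K K' : ℕ} {C C' : FCert} {D a d : Int} (hD : 0 < D) (had : a < d)
    (hfina : C.check (b.fina K) D a d (baseTri 1 1) = true)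
    (hfinb : C'.check (b.finb K') D a d (baseTri 1 1) = true)
    (ha : (a : ℝ) ≤ D * lam) (hd : D * lam ≤ d) : b.Fact lam := by
  have R := PMi.rel hok
  exact ⟨hok, hpca, hpcb, hT1, hT2,
    fun x hx => final_pieces R.hz R.hQ R.nea R.pca hD had hfina hlam ha hd hx,
    fun x hx => final_pieces R.hz R.hQ R.neb R.pcb hD had hfinb hlam ha hd hx⟩

/-- position of `m` in the bracket -/
noncomputable def PMi.pos (b : PMi) (m : ℝ) : ℝ :=
  (m - (b.man : ℝ) / b.mad) / ((b.mbn : ℝ) / b.mbd - (b.man : ℝ) / b.mad)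

/-- `m` as a convex combination of the ends -/
theorem PMi.pos_spec {b : PMi} (R : b.Rel) {m : ℝ} (hma : (b.man : ℝ) / b.mad ≤ m)
    (hmb : m ≤ (b.mbn : ℝ) / b.mbd) : 0 ≤ b.pos m ∧ b.pos m ≤ 1 ∧
      (b.man : ℝ) / b.mad ≤ (b.mbn : ℝ) / b.mbd ∧
      m = (1 - b.pos m) * ((b.man : ℝ) / b.mad) + b.pos m * ((b.mbn : ℝ) / b.mbd) := by
  have hmad : (0 : ℝ) < b.mad := by exact_mod_cast R.hmad
  have hmbd : (0 : ℝ) < b.mbd := by exact_mod_cast R.hmbd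
  have hab : (b.man : ℝ) * b.mbd < b.mbn * b.mad := by exact_mod_cast R.hab
  have hlt : (b.man : ℝ) / b.mad < (b.mbn : ℝ) / b.mbd := by
    rw [div_lt_div_iff₀ hmad hmbd]; exact hab
  rw [PMi.pos]
  generalize (b.man : ℝ) / b.mad = ma at *
  generalize (b.mbn : ℝ) / b.mbd = mb at *
  have hd : 0 < mb - ma := sub_pos.2 hlt
  refine ⟨div_nonneg (sub_nonneg.2 hma) hd.le, ?_, hlt.le, ?_⟩
  · rw [div_le_one hd]; linarith
  · field_simp; ring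

theorem PMi.Fact.br {b : PMi} {lam : ℝ} (hlam : lam ≠ 0) (hf : b.Fact lam) {m : ℝ}
    (hma : (b.man : ℝ) / b.mad ≤ m) (hmb : m ≤ (b.mbn : ℝ) / b.mbd) (hm1 : m ≤ 1) :
    BrP lam m ((b.dl : ℝ) / b.Q) (mix (b.pos m) (vec b.Q b.Pa) (vec b.Q b.Pb))
      (mixL (b.pos m) (toR b.Q b.z 0 b.pa) (toR b.Q b.z 0 b.pb)) := by
  have R := PMi.rel hf.ok
  have hQ : (0 : ℝ) < b.Q := by exact_mod_cast R.hQ
  have hman : (0 : ℝ) ≤ b.man := by exact_mod_cast R.hman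
  have hmad : (0 : ℝ) < b.mad := by exact_mod_cast R.hmad
  have hmbd : (0 : ℝ) < b.mbd := by exact_mod_cast R.hmbd
  have hdl : (0 : ℝ) < b.dl := by exact_mod_cast R.hdl
  have hmu : (b.mua : ℝ) ≤ b.mub := by exact_mod_cast R.hmu
  have hmma : (b.mad : ℝ) * b.mma = b.man * b.mua := by exact_mod_cast R.hmma
  have hmmb : (b.mbd : ℝ) * b.mmb = b.mbn * b.mub := by exact_mod_cast R.hmmb
  obtain ⟨t0, t1, hlt, hm⟩ := PMi.pos_spec R hma hmb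
  have hm0 : 0 ≤ m := le_trans (by positivity) hma
  have hl2 : 0 < lam ^ 2 := by positivity
  have hs := sameL_of b.pa b.pb 0 b.Pa b.Pb R.same R.pca R.pcb
  refine ⟨ch_mix t0 t1 hm _ _ _ _ hs (ch_of R.hz R.hmad b.pa 0 b.Pa R.pca hf.pca)
    (ch_of R.hz R.hmbd b.pb 0 b.Pb R.pcb hf.pcb),
    inLast_mix _ _ _ _ hs (inLast_lam R.hz hlam R.nea hf.T1 hf.T2),
    ⟨(1 - b.pos m) * (b.mua / b.Q) + b.pos m * (b.mub / b.Q), fun x hx => ?_⟩⟩
  have htx : 0 ≤ tot x := Cvx.tot_nn hx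
  have fa := mul_le_mul_of_nonneg_left (hf.fina x hx) (sub_nonneg.2 t1)
  have fb := mul_le_mul_of_nonneg_left (hf.finb x hx) t0
  have e1 : (b.mma : ℝ) = (b.man : ℝ) / b.mad * b.mua := by
    field_simp; linarith
  have e2 : (b.mmb : ℝ) = (b.mbn : ℝ) / b.mbd * b.mub := by
    field_simp; linarith
  have i1 := mid_mul hQ hl2 t0 t1 hmu hlt hm htx
  have i2 := dl_sq (show 0 ≤ (b.dl / b.Q : ℝ) by positivity) hm0 hm1 htx
  rw [J_mix _ _ _ _ hs, H_sc_mix, H_mix]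
  rw [e1] at fa
  rw [e2] at fb
  refine mid_arith' (L := 1 / lam ^ 2) (v := m / lam ^ 2) (fa.trans (le_of_eq ?_))
    (fb.trans (le_of_eq ?_)) i1 i2
  · ring
  · ring

theorem PMi.continuous_P (b : PMi) :
    Continuous fun m => mix (b.pos m) (vec b.Q b.Pa) (vec b.Q b.Pb) := by
  have h : Continuous b.pos := by
    unfold PMi.pos
    fun_prop
  unfold mix
  exact ((continuous_const.sub h).smul continuous_const).add (h.smul continuous_const)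

/-- Poisson tree: the sequence cannot stay in the bracket unless it tends to zero. -/
theorem PMi.Fact.poisson {b : PMi} {lam d : ℝ} (hlam : lam ≠ 0) (h0 : -(1 / 2) ≤ lam)
    (h1 : lam ≤ 1) (hf : b.Fact lam) (hd : 0 ≤ d) (hdl : d * lam ^ 2 ≤ 1)
    (F : Facts lam (poisson d)) {mlo mhi : ℝ}
    (hmlo : (b.man : ℝ) / b.mad ≤ mlo) (hmhi : mhi ≤ (b.mbn : ℝ) / b.mbd) (hmhi1 : mhi ≤ 1)
    (hm : ∃ n0 : ℕ, ∀ n, n0 ≤ n → lam ^ 2 * xs lam (poisson d) n ∈ Set.Icc mlo mhi) :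
    Tendsto (xs lam (poisson d)) atTop (𝓝 0) := by
  have R := PMi.rel hf.ok
  have hQ : (0 : ℝ) < b.Q := by exact_mod_cast R.hQ
  have hdl' : (0 : ℝ) < b.dl := by exact_mod_cast R.hdl
  obtain ⟨n0, hn0⟩ := hm
  exact bracket_chain hlam h0 h1 hd hdl F (delta := (b.dl : ℝ) / b.Q) (by positivity)
    (P := fun m => mix (b.pos m) (vec b.Q b.Pa) (vec b.Q b.Pb))
    (ps := fun m => mixL (b.pos m) (toR b.Q b.z 0 b.pa) (toR b.Q b.z 0 b.pb))
    b.continuous_P.continuousOn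
    (fun m hm => hf.br hlam (hmlo.trans hm.1) (hm.2.trans hmhi) (hm.2.trans hmhi1)) hn0

end Vale.Agent.P154
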