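import Vale.Agent.P154.V2Low
import Vale.Agent.P154.V2ChainMid
import Vale.Agent.P154.V2PFin

/-!
Assembly of the brackets over an interval of `lam`.
-/

namespace Vale.Agent.P154

open Filter Topology

/-! ### intervals of `lam` -/

/-- `a ≤ D lam ≤ b`; `neg` = the sign of `lam` is negative -/
structure Iv where
  neg : Bool
  D : Int
  a : Int
  b : Int

def Iv.ok (v : Iv) : Bool :=
  decide (0 < v.D) && decide (v.a < v.b) &&
  (match v.neg with
    | false => decide (0 < v.a) && decide (v.b < v.D)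
    | true => decide (v.b < 0) && decide (Int.neg v.D ≤ Int.mul 2 v.a))

def Iv.mem (v : Iv) (lam : ℝ) : Prop := (v.a : ℝ) ≤ v.D * lam ∧ v.D * lam ≤ v.b

/-- the triangle of the messages -/
def Iv.tri (v : Iv) : Tri :=
  match v.neg with
  | false => baseTri v.b v.D
  | true => baseTriN (Int.neg v.a) v.D

/-- lower bound of `D² lam²` -/
def Iv.lo2 (v : Iv) : Int :=
  match v.neg with
  | false => Int.mul v.a v.a
  | true => Int.mul v.b v.b

/-- upper bound of `D² lam²` -/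
def Iv.hi2 (v : Iv) : Int :=
  match v.neg with
  | false => Int.mul v.b v.b
  | true => Int.mul v.a v.a

/-- consequences of membership -/
structure Iv.Cons (v : Iv) (lam : ℝ) : Prop where
  D : 0 < v.D
  ab : v.a < v.b
  ne : lam ≠ 0
  h0 : -(1 / 2) ≤ lam
  h1 : lam < 1
  lo2 : (v.lo2 : ℝ) ≤ v.D ^ 2 * lam ^ 2
  hi2 : v.D ^ 2 * lam ^ 2 ≤ (v.hi2 : ℝ)

theorem Iv.cons {v : Iv} (hv : v.ok = true) {lam : ℝ} (hl : v.mem lam) : v.Cons lam := by
  obtain ⟨hl1, hl2⟩ := hl
  rw [Iv.ok, Bool.and_eq_true, Bool.and_eq_true, decide_eq_true_eq, decide_eq_true_eq] at hv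
  obtain ⟨⟨hD, hab⟩, hs⟩ := hv
  have hD' : (0 : ℝ) < v.D := by exact_mod_cast hD
  cases hn : v.neg with
  | false =>
    rw [hn] at hs
    simp only [Bool.and_eq_true, decide_eq_true_eq] at hs
    have ha' : (0 : ℝ) < v.a := by exact_mod_cast hs.1
    have hb' : (v.b : ℝ) < v.D := by exact_mod_cast hs.2
    have hlp : 0 < lam := by
      have : 0 < v.D * lam := lt_of_lt_of_le ha' hl1
      exact (pos_iff_pos_of_mul_pos this).1 hD'
    refine ⟨hD, hab, hlp.ne', by linarith, ?_, ?_, ?_⟩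
    · by_contra hc
      rw [not_lt] at hc
      nlinarith
    · have e : v.lo2 = v.a * v.a := by rw [Iv.lo2, hn]; rfl
      rw [e]
      push_cast
      nlinarith
    · have e : v.hi2 = v.b * v.b := by rw [Iv.hi2, hn]; rfl
      rw [e]
      push_cast
      have : 0 < v.D * lam := mul_pos hD' hlp
      nlinarith
  | true =>
    rw [hn] at hs
    simp only [Bool.and_eq_true, decide_eq_true_eq] at hs
    have e2 : Int.neg v.D = -v.D := rfl
    have e3 : Int.mul 2 v.a = 2 * v.a := rfl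
    rw [e2, e3] at hs
    have hb' : (v.b : ℝ) < 0 := by exact_mod_cast hs.1
    have ha' : (-v.D : ℝ) ≤ 2 * v.a := by exact_mod_cast hs.2
    have hlp : lam < 0 := by
      have : v.D * lam < 0 := lt_of_le_of_lt hl2 hb'
      by_contra hc
      rw [not_lt] at hc
      have := mul_nonneg hD'.le hc
      linarith
    refine ⟨hD, hab, hlp.ne, ?_, by linarith, ?_, ?_⟩
    · by_contra hc
      rw [not_le] at hc
      nlinarith
    · have e : v.lo2 = v.b * v.b := by rw [Iv.lo2, hn]; rfl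
      rw [e]
      push_cast
      nlinarith
    · have e : v.hi2 = v.a * v.a := by rw [Iv.hi2, hn]; rfl
      rw [e]
      push_cast
      have : v.D * lam < 0 := by nlinarith
      nlinarith

/-! ### certificates -/

/-- the conditions on the parameters -/
def Cfg2.good (c : Cfg2) : Bool :=
  c.P.okB && decide (0 < c.W) && decide (0 < c.Zd)

theorem Cfg2.good_sound {c : Cfg2} (h : c.good = true) : c.P.OK ∧ 0 < c.W ∧ 0 < c.Zd := by
  simp only [Cfg2.good, Bool.and_eq_true, decide_eq_true_eq] at h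
  exact ⟨Par2.okB_sound h.1.1, h.1.2, h.2⟩

/-- a merge inequality has a certificate on the whole interval -/
def PWCert (v : Iv) (c : Cfg2) : Prop :=
  c.good = true ∧ ∃ C : Cert2, C.check c (baseTri 1 1) v.tri = true

/-- a polynomial inequality in `lam` and `x` has a certificate -/
def FinCert (v : Iv) (f : Nat → FCfg) : Prop :=
  ∃ (K : Nat) (C : FCert), C.check (f K) v.D v.a v.b (baseTri 1 1) = true

/-- `g ≤ 0` has a certificate -/
def GCert (c : Cfg2) : Prop :=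
  ∃ (K : Nat) (C : FCert), C.check (gFin (c.P.gL.map Int.neg) K) 1 0 1 (baseTri 1 1) = true

/-- `W ≥ 0` on messages has a certificate -/
def WCert (v : Iv) (c : Cfg2) : Prop := FinCert v (hFin c.P.wL)

theorem PWCert.pw {v : Iv} {c : Cfg2} (h : PWCert v c) (hv : v.ok = true) {lam : ℝ}
    (hl : v.mem lam) : PW Pos (InK lam 1) c.P.beta c.P.Ur c.P.Wr c.P.gr := by
  obtain ⟨hg, C, hC⟩ := h
  obtain ⟨hP, hW, hZ⟩ := Cfg2.good_sound hg
  have H := Iv.cons hv hl
  have hD' : (0 : ℝ) < v.D := by exact_mod_cast H.D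
  rw [Iv.ok, Bool.and_eq_true, Bool.and_eq_true, decide_eq_true_eq, decide_eq_true_eq] at hv
  obtain ⟨⟨hD, hab⟩, hs⟩ := hv
  cases hn : v.neg with
  | false =>
    rw [hn] at hs
    simp only [Bool.and_eq_true, decide_eq_true_eq] at hs
    rw [Iv.tri, hn] at hC
    have ha' : (0 : ℝ) < v.a := by exact_mod_cast hs.1
    have hlp : 0 < lam := by
      have : 0 < v.D * lam := lt_of_lt_of_le ha' hl.1
      exact (pos_iff_pos_of_mul_pos this).1 hD'
    exact Cert2.pw_pos hP hW hZ C (by linarith [hs.1]) hD hC hlp.le H.h1.le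
      (by have := hl.2; linarith)
  | true =>
    rw [hn] at hs
    simp only [Bool.and_eq_true, decide_eq_true_eq] at hs
    rw [Iv.tri, hn] at hC
    have e2 : Int.neg v.a = -v.a := rfl
    have hC' : C.check c (baseTri 1 1) (baseTriN (-v.a) v.D) = true := by rw [← e2]; exact hC
    have hb' : (v.b : ℝ) < 0 := by exact_mod_cast hs.1
    have hlp : lam < 0 := by
      have : v.D * lam < 0 := lt_of_le_of_lt hl.2 hb'
      by_contra hc
      rw [not_lt] at hc
      have := mul_nonneg hD'.le hc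
      linarith
    exact Cert2.pw_neg hP hW hZ C (by linarith [hs.1]) hD hC' H.h0 hlp.le
      (by have := hl.1; push_cast; linarith)

/-- all links of a chain -/
def AllPW (v : Iv) : List Cfg2 → Prop
  | [] => True
  | c :: cs => PWCert v c ∧ AllPW v cs

def AllG : List Cfg2 → Prop
  | [] => True
  | c :: cs => GCert c ∧ AllG cs

theorem AllPW.pw {v : Iv} (hv : v.ok = true) {lam : ℝ} (hl : v.mem lam) : ∀ {cs : List Cfg2},
    AllPW v cs → ∀ c ∈ cs, PW Pos (InK lam 1) c.P.beta c.P.Ur c.P.Wr c.P.gr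
  | [], _, c, hc => absurd hc (by simp)
  | d :: cs, h, c, hc => by
    rcases List.mem_cons.1 hc with rfl | hc
    · exact h.1.pw hv hl
    · exact AllPW.pw hv hl h.2 c hc

theorem GCert.nonpos {c : Cfg2} (hQ : 0 < c.P.Q) (h : GCert c) : ∀ x, Pos x → H c.P.gr x ≤ 0 := by
  obtain ⟨K, C, hC⟩ := h
  exact g_nonpos hQ hC

theorem AllG.nonpos {v : Iv} : ∀ {cs : List Cfg2}, AllPW v cs → AllG cs →
    ∀ c ∈ cs, ∀ x, Pos x → H c.P.gr x ≤ 0
  | [], _, _, c, hc => absurd hc (by simp)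
  | d :: cs, h, h', c, hc => by
    rcases List.mem_cons.1 hc with rfl | hc
    · exact h'.1.nonpos (Cfg2.good_sound h.1.1).1.hQ
    · exact AllG.nonpos h.2 h'.2 c hc

/-! ### bounds of `theta` -/

/-- `tan/tad ≤ thetaOf reg lam ≤ tbn/tbd` on the interval -/
def thetaOK (reg : Bool) (v : Iv) (tan tad tbn tbd : Int) : Bool :=
  decide (0 < tad) && decide (0 < tbd) &&
  (match reg, v.neg with
    | true, false => decide (2 * v.b * tan ≤ tad * (v.b + v.D)) &&
        decide (tbd * (v.a + v.D) ≤ 2 * v.a * tbn)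
    | true, true => decide (tad * (v.b + v.D) ≤ 2 * v.b * tan) &&
        decide (2 * v.a * tbn ≤ tbd * (v.a + v.D))
    | false, false => (decide (tan ≤ 2 * tad) ||
        (decide (v.D ≤ 2 * v.a) && decide (2 * tan * (v.a * (v.D - v.a)) ≤ tad * (v.D * v.D))) ||
        (decide (2 * v.b ≤ v.D) && decide (2 * tan * (v.b * (v.D - v.b)) ≤ tad * (v.D * v.D)))) &&
        decide (tbd * (v.D * v.D) ≤ 2 * tbn * (v.a * (v.D - v.a))) &&
        decide (tbd * (v.D * v.D) ≤ 2 * tbn * (v.b * (v.D - v.b)))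
    | false, true => decide (tad * (v.D * v.D) ≤ 2 * tan * (v.b * (v.D - v.b))) &&
        decide (2 * tbn * (v.a * (v.D - v.a)) ≤ tbd * (v.D * v.D)) && decide (tan ≤ 0) &&
        decide (tbn ≤ 0))

namespace Th

theorem rp {D a b s tan tad tbn tbd : ℝ} (hD : 0 < D) (ha : 0 < a) (h1 : a ≤ s) (h2 : s ≤ b)
    (htad : 0 < tad) (htbd : 0 < tbd) (k1 : 2 * b * tan ≤ tad * (b + D))
    (k2 : tbd * (a + D) ≤ 2 * a * tbn) :
    tan / tad ≤ (D + s) / (2 * s) ∧ (D + s) / (2 * s) ≤ tbn / tbd := by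
  have hs : 0 < s := by linarith
  have hb : 0 < b := by linarith
  constructor
  · rw [div_le_div_iff₀ htad (by positivity)]
    have e : b * (tad * (D + s) - 2 * s * tan) =
        (b - s) * (tad * D) + s * (tad * (b + D) - 2 * b * tan) := by ring
    have h : 0 ≤ b * (tad * (D + s) - 2 * s * tan) := by
      rw [e]
      have := mul_nonneg (sub_nonneg.2 h2) (mul_pos htad hD).le
      have := mul_nonneg hs.le (sub_nonneg.2 k1)
      linarith
    have := nonneg_of_mul_nonneg_right h hb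
    linarith
  · rw [div_le_div_iff₀ (by positivity) htbd]
    have e : a * (2 * s * tbn - tbd * (D + s)) =
        (s - a) * (tbd * D) + s * (2 * a * tbn - tbd * (a + D)) := by ring
    have h : 0 ≤ a * (2 * s * tbn - tbd * (D + s)) := by
      rw [e]
      have := mul_nonneg (sub_nonneg.2 h1) (mul_pos htbd hD).le
      have := mul_nonneg hs.le (sub_nonneg.2 k2)
      linarith
    have := nonneg_of_mul_nonneg_right h ha
    linarith

theorem rn {D a b s tan tad tbn tbd : ℝ} (hD : 0 < D) (hb : b < 0) (h1 : a ≤ s) (h2 : s ≤ b)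
    (htad : 0 < tad) (htbd : 0 < tbd) (k1 : tad * (b + D) ≤ 2 * b * tan)
    (k2 : 2 * a * tbn ≤ tbd * (a + D)) :
    tan / tad ≤ (D + s) / (2 * s) ∧ (D + s) / (2 * s) ≤ tbn / tbd := by
  have hs : s < 0 := by linarith
  have ha : a < 0 := by linarith
  have e0 : (D + s) / (2 * s) = -(D + s) / (2 * (-s)) := by
    rw [show 2 * -s = -(2 * s) by ring, neg_div_neg_eq]
  rw [e0]
  constructor
  · rw [div_le_div_iff₀ htad (by linarith)]
    have e : (-b) * (2 * s * tan - tad * (D + s)) =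
        (b - s) * (tad * D) + (-s) * (2 * b * tan - tad * (b + D)) := by ring
    have h : 0 ≤ (-b) * (2 * s * tan - tad * (D + s)) := by
      rw [e]
      have := mul_nonneg (sub_nonneg.2 h2) (mul_pos htad hD).le
      have := mul_nonneg (neg_nonneg.2 hs.le) (sub_nonneg.2 k1)
      linarith
    have := nonneg_of_mul_nonneg_right h (by linarith)
    linarith
  · rw [div_le_div_iff₀ (by linarith) htbd]
    have e : (-a) * (tbd * (D + s) - 2 * s * tbn) =
        (s - a) * (tbd * D) + (-s) * (tbd * (a + D) - 2 * a * tbn) := by ring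
    have h : 0 ≤ (-a) * (tbd * (D + s) - 2 * s * tbn) := by
      rw [e]
      have := mul_nonneg (sub_nonneg.2 h1) (mul_pos htbd hD).le
      have := mul_nonneg (neg_nonneg.2 hs.le) (sub_nonneg.2 k2)
      linarith
    have := nonneg_of_mul_nonneg_right h (by linarith)
    linarith

theorem pp_lower {D a b s tan tad : ℝ} (hD : 0 < D) (ha : 0 < a) (hb : b < D) (h1 : a ≤ s)
    (h2 : s ≤ b) (htad : 0 < tad)
    (k : (tan ≤ 2 * tad ∨ (D ≤ 2 * a ∧ 2 * tan * (a * (D - a)) ≤ tad * (D * D))) ∨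
      (2 * b ≤ D ∧ 2 * tan * (b * (D - b)) ≤ tad * (D * D))) :
    tan / tad ≤ D ^ 2 / (2 * (s * (D - s))) := by
  have hw : 0 < s * (D - s) := mul_pos (by linarith) (by linarith)
  rw [div_le_div_iff₀ htad (by positivity)]
  rcases le_total tan 0 with ht | ht
  · have : 0 ≤ -tan * (s * (D - s)) := mul_nonneg (neg_nonneg.2 ht) hw.le
    have : 0 < D ^ 2 * tad := by positivity
    linarith
  rcases k with (k | ⟨k, k'⟩) | ⟨k, k'⟩
  · have e1 : tan * (s * (D - s)) ≤ 2 * tad * (s * (D - s)) := mul_le_mul_of_nonneg_right k hw.le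
    have e2 : 4 * (s * (D - s)) ≤ D ^ 2 := by nlinarith [sq_nonneg (D - 2 * s)]
    have e3 := mul_le_mul_of_nonneg_left e2 htad.le
    linarith
  · have e1 : s * (D - s) ≤ a * (D - a) := by
      have : 0 ≤ (s - a) * (s + a - D) := mul_nonneg (by linarith) (by linarith)
      linarith
    have e2 := mul_le_mul_of_nonneg_left e1 ht
    linarith
  · have e1 : s * (D - s) ≤ b * (D - b) := by
      have : 0 ≤ (b - s) * (D - s - b) := mul_nonneg (by linarith) (by linarith)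
      linarith
    have e2 := mul_le_mul_of_nonneg_left e1 ht
    linarith

theorem pp_upper {D a b s tbn tbd : ℝ} (hD : 0 < D) (ha : 0 < a) (hb : b < D) (h1 : a ≤ s)
    (h2 : s ≤ b) (htbd : 0 < tbd) (k1 : tbd * (D * D) ≤ 2 * tbn * (a * (D - a)))
    (k2 : tbd * (D * D) ≤ 2 * tbn * (b * (D - b))) :
    D ^ 2 / (2 * (s * (D - s))) ≤ tbn / tbd := by
  have hw : 0 < s * (D - s) := mul_pos (by linarith) (by linarith)
  have ht : 0 < tbn := by
    by_contra hc
    rw [not_lt] at hc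
    have h3 : 0 < a * (D - a) := mul_pos ha (by linarith)
    have h4 : 0 ≤ -tbn * (a * (D - a)) := mul_nonneg (neg_nonneg.2 hc) h3.le
    have h5 : 0 < tbd * (D * D) := by positivity
    linarith
  rw [div_le_div_iff₀ (by positivity) htbd]
  rcases le_total (s + a) D with h | h
  · have e1 : a * (D - a) ≤ s * (D - s) := by
      have : 0 ≤ (s - a) * (D - s - a) := mul_nonneg (by linarith) (by linarith)
      linarith
    have e2 := mul_le_mul_of_nonneg_left e1 ht.le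
    linarith
  · have e1 : b * (D - b) ≤ s * (D - s) := by
      have : 0 ≤ (b - s) * (s + b - D) := mul_nonneg (by linarith) (by linarith)
      linarith
    have e2 := mul_le_mul_of_nonneg_left e1 ht.le
    linarith

theorem pn {D a b s tan tad tbn tbd : ℝ} (hD : 0 < D) (hb : b < 0) (h1 : a ≤ s) (h2 : s ≤ b)
    (htad : 0 < tad) (htbd : 0 < tbd) (k1 : tad * (D * D) ≤ 2 * tan * (b * (D - b)))
    (k2 : 2 * tbn * (a * (D - a)) ≤ tbd * (D * D)) (ht : tan ≤ 0) (ht' : tbn ≤ 0) :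
    tan / tad ≤ D ^ 2 / (2 * (s * (D - s))) ∧ D ^ 2 / (2 * (s * (D - s))) ≤ tbn / tbd := by
  have hs : s < 0 := by linarith
  have hw : 0 < (-s) * (D - s) := mul_pos (by linarith) (by linarith)
  have e0 : D ^ 2 / (2 * (s * (D - s))) = -D ^ 2 / (2 * ((-s) * (D - s))) := by
    rw [show 2 * (-s * (D - s)) = -(2 * (s * (D - s))) by ring, neg_div_neg_eq]
  rw [e0]
  constructor
  · rw [div_le_div_iff₀ htad (by positivity)]
    have e1 : (-b) * (D - b) ≤ (-s) * (D - s) := by nlinarith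
    have e2 := mul_le_mul_of_nonneg_left e1 (neg_nonneg.2 ht)
    linarith
  · rw [div_le_div_iff₀ (by positivity) htbd]
    have e1 : (-s) * (D - s) ≤ (-a) * (D - a) := by nlinarith
    have e2 := mul_le_mul_of_nonneg_left e1 (neg_nonneg.2 ht')
    linarith

end Th

theorem thetaOK_sound {reg : Bool} {v : Iv} {tan tad tbn tbd : Int} (hv : v.ok = true)
    (h : thetaOK reg v tan tad tbn tbd = true) {lam : ℝ} (hl : v.mem lam) :
    (tan / tad : ℝ) ≤ thetaOf reg lam ∧ thetaOf reg lam ≤ (tbn / tbd : ℝ) := by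
  have H := Iv.cons hv hl
  obtain ⟨hl1, hl2⟩ := hl
  rw [Iv.ok, Bool.and_eq_true, Bool.and_eq_true, decide_eq_true_eq, decide_eq_true_eq] at hv
  obtain ⟨⟨hD, hab⟩, hs⟩ := hv
  have hD' : (0 : ℝ) < v.D := by exact_mod_cast hD
  have hne := H.ne
  rw [thetaOK.eq_def, Bool.and_eq_true, Bool.and_eq_true, decide_eq_true_eq, decide_eq_true_eq] at h
  obtain ⟨⟨ht1, ht2⟩, h⟩ := h
  have ht1' : (0 : ℝ) < tad := by exact_mod_cast ht1
  have ht2' : (0 : ℝ) < tbd := by exact_mod_cast ht2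
  have er : thetaOf true lam = (v.D + v.D * lam) / (2 * (v.D * lam)) := by
    rw [thetaOf_true]; field_simp
  have h1l : (1 - lam) ≠ 0 := by have := H.h1; intro h; linarith
  have ep : thetaOf false lam = (v.D : ℝ) ^ 2 / (2 * (v.D * lam * (v.D - v.D * lam))) := by
    rw [thetaOf_false]
    have e : (2 * (v.D * lam * (v.D - v.D * lam)) : ℝ) = v.D ^ 2 * (2 * lam * (1 - lam)) := by ring
    rw [e]
    field_simp
  cases hn : v.neg with
  | false =>
    rw [hn] at hs
    simp only [Bool.and_eq_true, decide_eq_true_eq] at hs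
    have ha' : (0 : ℝ) < v.a := by exact_mod_cast hs.1
    have hb' : (v.b : ℝ) < v.D := by exact_mod_cast hs.2
    cases reg with
    | true =>
      rw [hn] at h
      simp only [Bool.and_eq_true, decide_eq_true_eq] at h
      rw [er]
      exact Th.rp hD' ha' hl1 hl2 ht1' ht2' (by exact_mod_cast h.1) (by exact_mod_cast h.2)
    | false =>
      rw [hn] at h
      simp only [Bool.and_eq_true, Bool.or_eq_true, decide_eq_true_eq] at h
      rw [ep]
      refine ⟨Th.pp_lower hD' ha' hb' hl1 hl2 ht1' ?_, Th.pp_upper hD' ha' hb' hl1 hl2 ht2'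
        (by exact_mod_cast h.1.2) (by exact_mod_cast h.2)⟩
      rcases h.1.1 with (k | k) | k
      · left; left; exact_mod_cast k
      · left; right; exact ⟨by exact_mod_cast k.1, by exact_mod_cast k.2⟩
      · right; exact ⟨by exact_mod_cast k.1, by exact_mod_cast k.2⟩
  | true =>
    rw [hn] at hs
    simp only [Bool.and_eq_true, decide_eq_true_eq] at hs
    have hb' : (v.b : ℝ) < 0 := by exact_mod_cast hs.1
    cases reg with
    | true =>
      rw [hn] at h
      simp only [Bool.and_eq_true, decide_eq_true_eq] at h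
      rw [er]
      exact Th.rn hD' hb' hl1 hl2 ht1' ht2' (by exact_mod_cast h.1) (by exact_mod_cast h.2)
    | false =>
      rw [hn] at h
      simp only [Bool.and_eq_true, decide_eq_true_eq] at h
      rw [ep]
      exact Th.pn hD' hb' hl1 hl2 ht1' ht2' (by exact_mod_cast h.1.1.1)
        (by exact_mod_cast h.1.1.2) (by exact_mod_cast h.1.2) (by exact_mod_cast h.2)

/-! ### certificates of brackets -/

structure HiBr.Cert (b : HiBr) (v : Iv) (reg : Bool) : Prop where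
  ok : b.ok = true
  p1 : PWCert v b.c1
  p0 : PWCert v b.c0
  g1 : GCert b.c1
  g0 : GCert b.c0
  w1 : WCert v b.c1
  w0 : WCert v b.c0
  fin : FinCert v (b.fin reg)

structure MiBr.Cert (b : MiBr) (v : Iv) (reg : Bool) : Prop where
  ok : b.ok = true
  pa1 : PWCert v b.a1
  pa0 : PWCert v b.a0
  pb1 : PWCert v b.b1
  pb0 : PWCert v b.b0
  wa1 : WCert v b.a1
  wa0 : WCert v b.a0
  wb1 : WCert v b.b1
  wb0 : WCert v b.b0
  fina : FinCert v (b.fina reg)
  finb : FinCert v (b.finb reg)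

structure LoBr.Cert (b : LoBr) (v : Iv) (reg : Bool) : Prop where
  ok : b.ok = true
  pz : PWCert v b.z
  pa1 : PWCert v b.a1
  pa0 : PWCert v b.a0
  pb1 : PWCert v b.b1
  pb0 : PWCert v b.b0
  wz : WCert v b.z
  wa1 : WCert v b.a1
  wa0 : WCert v b.a0
  wb1 : WCert v b.b1
  wb0 : WCert v b.b0
  fin0 : FinCert v b.fin0
  fin1 : FinCert v (b.fin1 reg)

structure RHi.Cert (b : RHi) (v : Iv) : Prop where
  ok : b.ok = true
  pw : AllPW v b.cs
  g : AllG b.cs
  fin : FinCert v b.fin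

structure RMi.Cert (b : RMi) (v : Iv) : Prop where
  ok : b.ok = true
  pa : AllPW v b.ca
  pb : AllPW v b.cb
  fina : FinCert v b.fina
  finb : FinCert v b.finb

/-- certificates of a piece -/
structure Piece.Cert (p : Piece) (v : Iv) : Prop where
  p0 : PWCert v p.c0
  p1 : PWCert v p.c1
  w0 : WCert v p.c0
  w1 : WCert v p.c1

def AllPc (v : Iv) : List Piece → Prop
  | [] => True
  | p :: ps => p.Cert v ∧ AllPc v ps

def AllPcG : List Piece → Prop
  | [] => True
  | p :: ps => (GCert p.c0 ∧ GCert p.c1) ∧ AllPcG ps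

structure PHi.Cert (b : PHi) (v : Iv) : Prop where
  ok : b.ok = true
  pc : AllPc v b.ps
  g : AllPcG b.ps
  fin : FinCert v b.fin

structure PMi.Cert (b : PMi) (v : Iv) : Prop where
  ok : b.ok = true
  pa : AllPc v b.pa
  pb : AllPc v b.pb
  fina : FinCert v b.fina
  finb : FinCert v b.finb

/-- `1 / lam²` is in the last piece for all `lam` in the interval -/
def tOK (v : Iv) (z n dn : Int) : Bool :=
  decide (0 < n) && decide (0 ≤ n - dn) && decide ((n - dn) * v.hi2 ≤ z * (v.D * v.D)) &&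
    decide (z * (v.D * v.D) ≤ n * v.lo2)

theorem tOK_sound {v : Iv} (hv : v.ok = true) {z n dn : Int} (h : tOK v z n dn = true) {lam : ℝ}
    (hl : v.mem lam) : ((n : ℝ) - dn) * lam ^ 2 ≤ z ∧ (z : ℝ) ≤ n * lam ^ 2 := by
  have H := Iv.cons hv hl
  rw [tOK, Bool.and_eq_true, Bool.and_eq_true, Bool.and_eq_true, decide_eq_true_eq,
    decide_eq_true_eq, decide_eq_true_eq, decide_eq_true_eq] at h
  obtain ⟨⟨⟨h1, h2⟩, h3⟩, h4⟩ := h
  have hD : (0 : ℝ) < v.D := by exact_mod_cast H.D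
  have h1' : (0 : ℝ) < n := by exact_mod_cast h1
  have h2' : (0 : ℝ) ≤ (n : ℝ) - dn := by exact_mod_cast h2
  have h3' : ((n : ℝ) - dn) * v.hi2 ≤ z * (v.D * v.D) := by exact_mod_cast h3
  have h4' : (z : ℝ) * (v.D * v.D) ≤ n * v.lo2 := by exact_mod_cast h4
  have k1 := mul_le_mul_of_nonneg_left H.hi2 h2'
  have k2 := mul_le_mul_of_nonneg_left H.lo2 h1'.le
  constructor
  · have e : (v.D : ℝ) ^ 2 * (((n : ℝ) - dn) * lam ^ 2) ≤ v.D ^ 2 * z := by
      linarith
    exact le_of_mul_le_mul_left e (by positivity)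
  · have e : (v.D : ℝ) ^ 2 * z ≤ v.D ^ 2 * (n * lam ^ 2) := by
      linarith
    exact le_of_mul_le_mul_left e (by positivity)

theorem Piece.Cert.fact {p : Piece} {v : Iv} (h : p.Cert v) (hv : v.ok = true)
    {lam : ℝ} (hl : v.mem lam) : PcFact lam p := by
  have H := Iv.cons hv hl
  obtain ⟨K1, C1, e1⟩ := h.w0
  obtain ⟨K2, C2, e2⟩ := h.w1
  exact PcFact.of (Cfg2.good_sound h.p0.1).1.hQ (Cfg2.good_sound h.p1.1).1.hQ (h.p0.pw hv hl)
    (h.p1.pw hv hl) H.D H.ab e1 e2 hl.1 hl.2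

theorem AllPc.fact {v : Iv} (hv : v.ok = true) {lam : ℝ} (hl : v.mem lam) : ∀ {ps : List Piece},
    AllPc v ps → ∀ p ∈ ps, PcFact lam p
  | [], _, p, hp => absurd hp (by simp)
  | q :: ps, h, p, hp => by
    rcases List.mem_cons.1 hp with rfl | hp
    · exact h.1.fact hv hl
    · exact AllPc.fact hv hl h.2 p hp

theorem AllPcG.nonpos {v : Iv} : ∀ {ps : List Piece}, AllPc v ps → AllPcG ps →
    ∀ p ∈ ps, (∀ x, Pos x → H p.c0.P.gr x ≤ 0) ∧ ∀ x, Pos x → H p.c1.P.gr x ≤ 0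
  | [], _, _, p, hp => absurd hp (by simp)
  | q :: ps, h, h', p, hp => by
    rcases List.mem_cons.1 hp with rfl | hp
    · exact ⟨h'.1.1.nonpos (Cfg2.good_sound h.1.p0.1).1.hQ,
        h'.1.2.nonpos (Cfg2.good_sound h.1.p1.1).1.hQ⟩
    · exact AllPcG.nonpos h.2 h'.2 p hp

theorem HiBr.Cert.fact {b : HiBr} {v : Iv} {reg : Bool} (h : b.Cert v reg) (hv : v.ok = true)
    {lam : ℝ} (hl : v.mem lam) : b.Fact reg lam := by
  have H := Iv.cons hv hl
  obtain ⟨K1, C1, e1⟩ := h.g1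
  obtain ⟨K2, C2, e2⟩ := h.g0
  obtain ⟨K3, C3, e3⟩ := h.w1
  obtain ⟨K4, C4, e4⟩ := h.w0
  obtain ⟨K5, C5, e5⟩ := h.fin
  exact HiBr.fact h.ok H.ne (h.p1.pw hv hl) (h.p0.pw hv hl) H.D H.ab e1 e2 e3 e4 e5 hl.1 hl.2

theorem MiBr.Cert.fact {b : MiBr} {v : Iv} {reg : Bool} (h : b.Cert v reg) (hv : v.ok = true)
    {lam : ℝ} (hl : v.mem lam) : b.Fact reg lam := by
  have H := Iv.cons hv hl
  obtain ⟨K1, C1, e1⟩ := h.wa1
  obtain ⟨K2, C2, e2⟩ := h.wa0
  obtain ⟨K3, C3, e3⟩ := h.wb1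
  obtain ⟨K4, C4, e4⟩ := h.wb0
  obtain ⟨K5, C5, e5⟩ := h.fina
  obtain ⟨K6, C6, e6⟩ := h.finb
  exact MiBr.fact h.ok H.ne (h.pa1.pw hv hl) (h.pa0.pw hv hl) (h.pb1.pw hv hl) (h.pb0.pw hv hl)
    H.D H.ab e1 e2 e3 e4 e5 e6 hl.1 hl.2

theorem LoBr.Cert.fact {b : LoBr} {v : Iv} {reg : Bool} (h : b.Cert v reg) (hv : v.ok = true)
    (ht : thetaOK reg v b.tan b.tad b.tbn b.tbd = true) {lam : ℝ} (hl : v.mem lam) :
    b.Fact reg lam := by
  have H := Iv.cons hv hl
  obtain ⟨K0, C0, e0⟩ := h.fin0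
  obtain ⟨K1, C1, e1⟩ := h.fin1
  obtain ⟨K2, C2, e2⟩ := h.wz
  obtain ⟨K3, C3, e3⟩ := h.wa1
  obtain ⟨K4, C4, e4⟩ := h.wa0
  obtain ⟨K5, C5, e5⟩ := h.wb1
  obtain ⟨K6, C6, e6⟩ := h.wb0
  obtain ⟨t1, t2⟩ := thetaOK_sound hv ht hl
  exact LoBr.fact h.ok H.ne t1 t2 (h.pz.pw hv hl) (h.pa1.pw hv hl) (h.pa0.pw hv hl)
    (h.pb1.pw hv hl) (h.pb0.pw hv hl) H.D H.ab e2 e3 e4 e5 e6 e0 e1 hl.1 hl.2

theorem RHi.Cert.fact {b : RHi} {v : Iv} (h : b.Cert v) (hv : v.ok = true)
    {lam : ℝ} (hl : v.mem lam) : b.Fact lam := by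
  have H := Iv.cons hv hl
  obtain ⟨K, C, e⟩ := h.fin
  exact RHi.fact h.ok H.ne (AllPW.pw hv hl h.pw) (AllG.nonpos h.pw h.g) H.D H.ab e hl.1 hl.2

theorem RMi.Cert.fact {b : RMi} {v : Iv} (h : b.Cert v) (hv : v.ok = true)
    {lam : ℝ} (hl : v.mem lam) : b.Fact lam := by
  have H := Iv.cons hv hl
  obtain ⟨K1, C1, e1⟩ := h.fina
  obtain ⟨K2, C2, e2⟩ := h.finb
  exact RMi.fact h.ok H.ne (AllPW.pw hv hl h.pa) (AllPW.pw hv hl h.pb) H.D H.ab e1 e2 hl.1 hl.2

theorem PHi.Cert.fact {b : PHi} {v : Iv} (h : b.Cert v) (hv : v.ok = true)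
    (ht : tOK v b.z (lastN 0 b.ps) (lastDn 0 b.ps) = true) {lam : ℝ} (hl : v.mem lam) :
    b.Fact lam := by
  have H := Iv.cons hv hl
  obtain ⟨K, C, e⟩ := h.fin
  obtain ⟨t1, t2⟩ := tOK_sound hv ht hl
  exact PHi.fact h.ok H.ne (AllPc.fact hv hl h.pc) (AllPcG.nonpos h.pc h.g) t1 t2 H.D H.ab e
    hl.1 hl.2

theorem PMi.Cert.fact {b : PMi} {v : Iv} (h : b.Cert v) (hv : v.ok = true)
    (ht : tOK v b.z (lastN 0 b.pa) (lastDn 0 b.pa) = true) {lam : ℝ} (hl : v.mem lam) :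
    b.Fact lam := by
  have H := Iv.cons hv hl
  obtain ⟨K1, C1, e1⟩ := h.fina
  obtain ⟨K2, C2, e2⟩ := h.finb
  obtain ⟨t1, t2⟩ := tOK_sound hv ht hl
  exact PMi.fact h.ok H.ne (AllPc.fact hv hl h.pa) (AllPc.fact hv hl h.pb) t1 t2 H.D H.ab e1 e2
    hl.1 hl.2

/-! ### lists of brackets -/

/-- a bracket -/
inductive Brk where
  | lo (b : LoBr)
  | mi (b : MiBr)
  | hi (b : HiBr)
  | rmi (b : RMi)
  | rhi (b : RHi)
  | pmi (b : PMi)
  | phi (b : PHi)

def Brk.Cert (v : Iv) (reg : Bool) : Brk → Prop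
  | .lo b => b.Cert v reg
  | .mi b => b.Cert v reg
  | .hi b => b.Cert v reg
  | .rmi b => b.Cert v
  | .rhi b => b.Cert v
  | .pmi b => b.Cert v
  | .phi b => b.Cert v

/-- numerator of the upper end -/
def Brk.en : Brk → Int
  | .lo b => b.mn
  | .mi b => b.mbn
  | .hi _ => 1
  | .rmi b => b.mbn
  | .rhi _ => 1
  | .pmi b => b.mbn
  | .phi _ => 1

/-- denominator of the upper end -/
def Brk.ed : Brk → Int
  | .lo b => b.md
  | .mi b => b.mbd
  | .hi _ => 1
  | .rmi b => b.mbd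
  | .rhi _ => 1
  | .pmi b => b.mbd
  | .phi _ => 1

/-- the bracket begins at or below `cn/cd`, ends at or below `1`, and fits the interval -/
def Brk.stepOK (v : Iv) (reg : Bool) (d : Nat) (cn cd : Int) : Brk → Bool
  | .lo b => decide (0 ≤ cn) && decide (b.mn ≤ b.md) &&
      decide (b.ed * (v.D * v.D) ≤ b.en * v.lo2) && thetaOK reg v b.tan b.tad b.tbn b.tbd
  | .mi b => decide (b.man * cd ≤ cn * b.mad) && decide (b.mbn ≤ b.mbd) &&
      decide (b.ed * (v.D * v.D) ≤ b.en * v.lo2)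
  | .hi b => decide (b.mn * cd ≤ cn * b.md) && decide (b.ed * (v.D * v.D) ≤ b.en * v.lo2)
  | .rmi b => decide (b.man * cd ≤ cn * b.mad) && decide (b.mbn ≤ b.mbd) && reg &&
      decide (b.ca.length + 1 = d)
  | .rhi b => decide (b.mn * cd ≤ cn * b.md) && reg && decide (b.cs.length + 1 = d)
  | .pmi b => decide (b.man * cd ≤ cn * b.mad) && decide (b.mbn ≤ b.mbd) && !reg &&
      tOK v b.z (lastN 0 b.pa) (lastDn 0 b.pa)
  | .phi b => decide (b.mn * cd ≤ cn * b.md) && !reg && tOK v b.z (lastN 0 b.ps) (lastDn 0 b.ps)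

def listOK (v : Iv) (reg : Bool) (d : Nat) : Int → Int → List Brk → Bool
  | cn, cd, [] => decide (cd * v.hi2 ≤ cn * (v.D * v.D))
  | cn, cd, k :: ks => k.stepOK v reg d cn cd && listOK v reg d k.en k.ed ks

def AllCert (v : Iv) (reg : Bool) : List Brk → Prop
  | [] => True
  | k :: ks => k.Cert v reg ∧ AllCert v reg ks

/-- a sequence that stays in a bracket tends to zero -/
def Bk (lam : ℝ) (off : ℕ → ℝ) (lo hi : ℝ) : Prop :=
  (∃ n0 : ℕ, ∀ n, n0 ≤ n → lam ^ 2 * xs lam off n ∈ Set.Icc lo hi) →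
    Tendsto (xs lam off) atTop (𝓝 0)

def Bks (lam : ℝ) (off : ℕ → ℝ) : ℝ → List ℝ → Prop
  | cur, [] => lam ^ 2 ≤ cur
  | cur, nxt :: l => Bk lam off cur nxt ∧ Bks lam off nxt l

theorem Bks.get {lam : ℝ} {off : ℕ → ℝ} : ∀ {l : List ℝ} {cur : ℝ}, Bks lam off cur l →
    (∀ i < l.length, Bk lam off ((cur :: l).getD i 0) ((cur :: l).getD (i + 1) 0)) ∧
      lam ^ 2 ≤ (cur :: l).getD l.length 0
  | [], cur, h => ⟨fun i hi => absurd hi (by simp), h⟩
  | nxt :: l, cur, h => by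
    obtain ⟨h1, h2⟩ := h
    obtain ⟨h3, h4⟩ := Bks.get h2
    refine ⟨fun i hi => ?_, ?_⟩
    · cases i with
      | zero => simpa using h1
      | succ i =>
        have := h3 i (by simpa using hi)
        rw [List.getD_cons_succ, List.getD_cons_succ]
        exact this
    · rw [List.length_cons, List.getD_cons_succ]
      exact h4

theorem nonrec_of_Bks {lam : ℝ} {off : ℕ → ℝ} (F : Facts lam off) (hlam : lam ≠ 0) {l : List ℝ}
    (h : Bks lam off 0 l) : Nonreconstruction 3 lam off := by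
  obtain ⟨h1, h2⟩ := h.get
  rcases Nat.eq_zero_or_pos l.length with h0 | h0
  · exfalso
    rw [h0] at h2
    simp only [List.getD_cons_zero] at h2
    have : 0 < lam ^ 2 := by positivity
    linarith
  · exact brackets F h0 (c := fun i => ((0 : ℝ) :: l).getD i 0) (by simp) h2 h1

theorem Bk.mono {lam : ℝ} {off : ℕ → ℝ} {lo hi lo' hi' : ℝ} (h : Bk lam off lo hi)
    (h1 : lo ≤ lo') (h2 : hi' ≤ hi) : Bk lam off lo' hi' := by
  rintro ⟨n0, hn⟩
  exact h ⟨n0, fun n hn' => ⟨h1.trans (hn n hn').1, (hn n hn').2.trans h2⟩⟩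

theorem Iv.lam_le {v : Iv} {lam : ℝ} (H : v.Cons lam) {en ed : Int} (hed : 0 < ed)
    (h : ed * (v.D * v.D) ≤ en * v.lo2) (hen : 0 < en) : 1 ≤ (en : ℝ) / ed * lam ^ 2 := by
  have hD : (0 : ℝ) < v.D := by exact_mod_cast H.D
  have hed' : (0 : ℝ) < ed := by exact_mod_cast hed
  have hen' : (0 : ℝ) < en := by exact_mod_cast hen
  have h' : (ed : ℝ) * (v.D * v.D) ≤ en * v.lo2 := by exact_mod_cast h
  have h2 := mul_le_mul_of_nonneg_left H.lo2 hen'.le
  have h3 : (v.D : ℝ) ^ 2 * ed ≤ v.D ^ 2 * (en * lam ^ 2) := by nlinarith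
  have h4 := le_of_mul_le_mul_left h3 (by positivity)
  rw [div_mul_eq_mul_div, le_div_iff₀ hed']
  linarith

theorem frac_le {a b c d : Int} (hb : 0 < b) (hd : 0 < d) (h : a * d ≤ c * b) :
    (a : ℝ) / b ≤ (c : ℝ) / d := by
  have hb' : (0 : ℝ) < b := by exact_mod_cast hb
  have hd' : (0 : ℝ) < d := by exact_mod_cast hd
  rw [div_le_div_iff₀ hb' hd']
  exact_mod_cast h

/-- positivity of the denominator of the end -/
theorem Brk.ed_pos {v : Iv} {reg : Bool} {k : Brk} (h : k.Cert v reg) : 0 < k.ed := by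
  cases k with
  | lo b => exact (LoBr.rel (LoBr.Cert.ok h)).md
  | mi b => exact (MiBr.rel (MiBr.Cert.ok h)).hmbd
  | hi b => exact one_pos
  | rmi b => exact (RMi.rel (RMi.Cert.ok h)).hmbd
  | rhi b => exact one_pos
  | pmi b => exact (PMi.rel (PMi.Cert.ok h)).hmbd
  | phi b => exact one_pos

/-- one step, Poisson trees -/
theorem Brk.stepP {v : Iv} {k : Brk} (hv : v.ok = true) (hk : k.Cert v false) {cn cd : Int}
    (hcd : 0 < cd) {e : Nat} (hs : k.stepOK v false e cn cd = true) {lam d : ℝ} (hl : v.mem lam)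
    (hd : 0 ≤ d) (hdl : d * lam ^ 2 ≤ 1) :
    Bk lam (poisson d) ((cn : ℝ) / cd) ((k.en : ℝ) / k.ed) := by
  have H := Iv.cons hv hl
  have F : Facts lam (poisson d) := facts H.h0 H.h1.le (isOff_poisson hd)
  have hcd' : (0 : ℝ) < cd := by exact_mod_cast hcd
  cases k with
  | lo b =>
    simp only [Brk.stepOK, Bool.and_eq_true, decide_eq_true_eq] at hs
    obtain ⟨⟨⟨s1, s2⟩, s3⟩, s4⟩ := hs
    have hk' : b.Cert v false := hk
    have R := LoBr.rel hk'.ok
    have hf := hk'.fact hv s4 hl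
    have s1' : (0 : ℝ) ≤ cn := by exact_mod_cast s1
    exact hf.poisson H.ne H.h0 H.h1 hd hdl (Iv.lam_le H R.ed s3 R.en) F (by positivity) le_rfl
  | mi b =>
    simp only [Brk.stepOK, Bool.and_eq_true, decide_eq_true_eq] at hs
    obtain ⟨⟨s1, s2⟩, s3⟩ := hs
    have hk' : b.Cert v false := hk
    have R := MiBr.rel hk'.ok
    have hf := hk'.fact hv hl
    refine hf.poisson H.ne H.h0 H.h1.le hd hdl (Iv.lam_le H R.hed s3 R.hen) F
      (frac_le R.hmad hcd s1) le_rfl ?_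
    have hb : (0 : ℝ) < b.mbd := by exact_mod_cast R.hmbd
    show (b.mbn : ℝ) / b.mbd ≤ 1
    rw [div_le_one hb]
    exact_mod_cast s2
  | hi b =>
    simp only [Brk.stepOK, Bool.and_eq_true, decide_eq_true_eq] at hs
    obtain ⟨s1, s3⟩ := hs
    have hk' : b.Cert v false := hk
    have R := HiBr.rel hk'.ok
    have hf := hk'.fact hv hl
    have e1 : ((Brk.en (.hi b) : Int) : ℝ) / (Brk.ed (.hi b) : Int) = 1 := by
      simp [Brk.en, Brk.ed]
    rw [e1]
    refine Bk.mono (lo := (b.mn : ℝ) / b.md) (hi := 1) ?_ (frac_le R.hmd hcd s1) le_rfl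
    exact hf.poisson H.ne H.h0 H.h1.le hd hdl (Iv.lam_le H R.hed s3 R.hen) F le_rfl
  | rmi b => simp [Brk.stepOK] at hs
  | rhi b => simp [Brk.stepOK] at hs
  | pmi b =>
    simp only [Brk.stepOK, Bool.and_eq_true, decide_eq_true_eq] at hs
    obtain ⟨⟨⟨s1, s2⟩, -⟩, s4⟩ := hs
    have hk' : b.Cert v := hk
    have R := PMi.rel hk'.ok
    have hf := hk'.fact hv s4 hl
    refine hf.poisson H.ne H.h0 H.h1.le hd hdl F (frac_le R.hmad hcd s1) le_rfl ?_
    have hb : (0 : ℝ) < b.mbd := by exact_mod_cast R.hmbd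
    show (b.mbn : ℝ) / b.mbd ≤ 1
    rw [div_le_one hb]
    exact_mod_cast s2
  | phi b =>
    simp only [Brk.stepOK, Bool.and_eq_true, decide_eq_true_eq] at hs
    obtain ⟨⟨s1, -⟩, s4⟩ := hs
    have hk' : b.Cert v := hk
    have R := PHi.rel hk'.ok
    have hf := hk'.fact hv s4 hl
    have e1 : ((Brk.en (.phi b) : Int) : ℝ) / (Brk.ed (.phi b) : Int) = 1 := by
      simp [Brk.en, Brk.ed]
    rw [e1]
    refine Bk.mono (lo := (b.mn : ℝ) / b.md) (hi := 1) ?_ (frac_le R.hmd hcd s1) le_rfl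
    exact hf.poisson H.ne H.h0 H.h1.le hd hdl F le_rfl

/-- one step, regular trees -/
theorem Brk.stepR {v : Iv} {k : Brk} (hv : v.ok = true) (hk : k.Cert v true) {cn cd : Int}
    (hcd : 0 < cd) {e : Nat} (hs : k.stepOK v true e cn cd = true) {lam : ℝ} {d : ℕ}
    (he : e = 0 ∨ e = d) (hl : v.mem lam) (hdl : (d : ℝ) * lam ^ 2 ≤ 1) :
    Bk lam (regular d) ((cn : ℝ) / cd) ((k.en : ℝ) / k.ed) := by
  have H := Iv.cons hv hl
  have F : Facts lam (regular d) := facts H.h0 H.h1.le (isOff_regular d)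
  have hcd' : (0 : ℝ) < cd := by exact_mod_cast hcd
  cases k with
  | lo b =>
    simp only [Brk.stepOK, Bool.and_eq_true, decide_eq_true_eq] at hs
    obtain ⟨⟨⟨s1, s2⟩, s3⟩, s4⟩ := hs
    have hk' : b.Cert v true := hk
    have R := LoBr.rel hk'.ok
    have hf := hk'.fact hv s4 hl
    have s1' : (0 : ℝ) ≤ cn := by exact_mod_cast s1
    exact hf.regular H.ne H.h0 H.h1 hdl (Iv.lam_le H R.ed s3 R.en) F (by positivity) le_rfl
  | mi b =>
    simp only [Brk.stepOK, Bool.and_eq_true, decide_eq_true_eq] at hs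
    obtain ⟨⟨s1, s2⟩, s3⟩ := hs
    have hk' : b.Cert v true := hk
    have R := MiBr.rel hk'.ok
    have hf := hk'.fact hv hl
    refine hf.regular H.ne H.h0 H.h1.le hdl (Iv.lam_le H R.hed s3 R.hen) F
      (frac_le R.hmad hcd s1) le_rfl ?_
    have hb : (0 : ℝ) < b.mbd := by exact_mod_cast R.hmbd
    show (b.mbn : ℝ) / b.mbd ≤ 1
    rw [div_le_one hb]
    exact_mod_cast s2
  | hi b =>
    simp only [Brk.stepOK, Bool.and_eq_true, decide_eq_true_eq] at hs
    obtain ⟨s1, s3⟩ := hs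
    have hk' : b.Cert v true := hk
    have R := HiBr.rel hk'.ok
    have hf := hk'.fact hv hl
    have e1 : ((Brk.en (.hi b) : Int) : ℝ) / (Brk.ed (.hi b) : Int) = 1 := by
      simp [Brk.en, Brk.ed]
    rw [e1]
    refine Bk.mono (lo := (b.mn : ℝ) / b.md) (hi := 1) ?_ (frac_le R.hmd hcd s1) le_rfl
    exact hf.regular H.ne H.h0 H.h1.le hdl (Iv.lam_le H R.hed s3 R.hen) F le_rfl
  | rmi b =>
    simp only [Brk.stepOK, Bool.and_eq_true, decide_eq_true_eq] at hs
    obtain ⟨⟨⟨s1, s2⟩, -⟩, s4⟩ := hs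
    have hk' : b.Cert v := hk
    have R := RMi.rel hk'.ok
    have hf := hk'.fact hv hl
    refine hf.regular (by omega) H.ne H.h0 H.h1.le F (frac_le R.hmad hcd s1) le_rfl ?_
    have hb : (0 : ℝ) < b.mbd := by exact_mod_cast R.hmbd
    show (b.mbn : ℝ) / b.mbd ≤ 1
    rw [div_le_one hb]
    exact_mod_cast s2
  | rhi b =>
    simp only [Brk.stepOK, Bool.and_eq_true, decide_eq_true_eq] at hs
    obtain ⟨⟨s1, -⟩, s4⟩ := hs
    have hk' : b.Cert v := hk
    have R := RHi.rel hk'.ok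
    have hf := hk'.fact hv hl
    have e1 : ((Brk.en (.rhi b) : Int) : ℝ) / (Brk.ed (.rhi b) : Int) = 1 := by
      simp [Brk.en, Brk.ed]
    rw [e1]
    refine Bk.mono (lo := (b.mn : ℝ) / b.md) (hi := 1) ?_ (frac_le R.hmd hcd s1) le_rfl
    exact hf.regular (by omega) H.ne H.h0 H.h1.le F le_rfl
  | pmi b => simp [Brk.stepOK] at hs
  | phi b => simp [Brk.stepOK] at hs

theorem list_end {v : Iv} {lam : ℝ} (H : v.Cons lam) {cn cd : Int} (hcd : 0 < cd)
    (h : cd * v.hi2 ≤ cn * (v.D * v.D)) : lam ^ 2 ≤ (cn : ℝ) / cd := by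
  have hD : (0 : ℝ) < v.D := by exact_mod_cast H.D
  have hcd' : (0 : ℝ) < cd := by exact_mod_cast hcd
  have h' : (cd : ℝ) * v.hi2 ≤ cn * (v.D * v.D) := by exact_mod_cast h
  have h2 := mul_le_mul_of_nonneg_left H.hi2 hcd'.le
  rw [le_div_iff₀ hcd']
  have h3 : (v.D : ℝ) ^ 2 * (lam ^ 2 * cd) ≤ v.D ^ 2 * cn := by nlinarith
  exact le_of_mul_le_mul_left h3 (by positivity)

theorem bks_poisson {v : Iv} (hv : v.ok = true) {e : Nat} {lam d : ℝ} (hl : v.mem lam)
    (hd : 0 ≤ d) (hdl : d * lam ^ 2 ≤ 1) : ∀ (l : List Brk) (cn cd : Int), 0 < cd →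
    listOK v false e cn cd l = true → AllCert v false l →
    Bks lam (poisson d) ((cn : ℝ) / cd) (l.map fun k => (k.en : ℝ) / k.ed)
  | [], cn, cd, hcd, h, _ => by
    simp only [listOK, decide_eq_true_eq] at h
    exact list_end (Iv.cons hv hl) hcd h
  | k :: ks, cn, cd, hcd, h, hc => by
    rw [listOK, Bool.and_eq_true] at h
    exact ⟨Brk.stepP hv hc.1 hcd h.1 hl hd hdl,
      bks_poisson hv hl hd hdl ks k.en k.ed (Brk.ed_pos hc.1) h.2 hc.2⟩

theorem bks_regular {v : Iv} (hv : v.ok = true) {e : Nat} {lam : ℝ} {d : ℕ}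
    (he : e = 0 ∨ e = d) (hl : v.mem lam) (hdl : (d : ℝ) * lam ^ 2 ≤ 1) :
    ∀ (l : List Brk) (cn cd : Int), 0 < cd → listOK v true e cn cd l = true → AllCert v true l →
    Bks lam (regular d) ((cn : ℝ) / cd) (l.map fun k => (k.en : ℝ) / k.ed)
  | [], cn, cd, hcd, h, _ => by
    simp only [listOK, decide_eq_true_eq] at h
    exact list_end (Iv.cons hv hl) hcd h
  | k :: ks, cn, cd, hcd, h, hc => by
    rw [listOK, Bool.and_eq_true] at h
    exact ⟨Brk.stepR hv hc.1 hcd h.1 he hl hdl,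
      bks_regular hv he hl hdl ks k.en k.ed (Brk.ed_pos hc.1) h.2 hc.2⟩

/-- Poisson trees, `lam` in the interval: nonreconstruction for every `d` with `d lam² ≤ 1`. -/
theorem poisson_of_list {v : Iv} {l : List Brk} (hv : v.ok = true)
    (hl : listOK v false 0 0 1 l = true) (hc : AllCert v false l) {lam : ℝ}
    (h1 : (v.a : ℝ) ≤ v.D * lam) (h2 : v.D * lam ≤ v.b) {d : ℝ}
    (hd : 0 ≤ d) (hdl : d * lam ^ 2 ≤ 1) : Nonreconstruction 3 lam (poisson d) := by
  have hm : v.mem lam := ⟨h1, h2⟩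
  have H := Iv.cons hv hm
  have h := bks_poisson hv hm hd hdl l 0 1 one_pos hl hc
  refine nonrec_of_Bks (facts H.h0 H.h1.le (isOff_poisson hd)) H.ne
    (l := l.map fun k => (k.en : ℝ) / k.ed) ?_
  simpa using h

/-- Regular trees, `lam` in the interval: nonreconstruction for every `d` with `d lam² ≤ 1`
(only for `d = e` if `e ≠ 0`). -/
theorem regular_of_list {v : Iv} {l : List Brk} (hv : v.ok = true) {e : Nat}
    (hl : listOK v true e 0 1 l = true) (hc : AllCert v true l) {lam : ℝ}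
    (h1 : (v.a : ℝ) ≤ v.D * lam) (h2 : v.D * lam ≤ v.b) {d : ℕ} (he : e = 0 ∨ e = d)
    (hdl : (d : ℝ) * lam ^ 2 ≤ 1) : Nonreconstruction 3 lam (regular d) := by
  have hm : v.mem lam := ⟨h1, h2⟩
  have H := Iv.cons hv hm
  have h := bks_regular hv he hm hdl l 0 1 one_pos hl hc
  refine nonrec_of_Bks (facts H.h0 H.h1.le (isOff_regular d)) H.ne
    (l := l.map fun k => (k.en : ℝ) / k.ed) ?_
  simpa using h

end Vale.Agent.P154
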