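import Vale.Agent.P154.V2Leaf

/-!
The pointwise bound of the output potential.
-/

namespace Vale.Agent.P154

/-- the upper bound of `3 Q W H` -/
noncomputable def upper2 (P : Par2) (L : Leaf2) (w : V) : ℝ :=
  Ny w * pv (lN P L) (zz w) + Cy w * pv (lC P L) (zz w) + Ny w ^ 2 * pv (lNN P L) (zz w) +
    Ny w * Cy w * pv (lNC P L) (zz w) + Cy w ^ 2 * pv (lCC P L) (zz w) + pv (lZ P L) (zz w)

/-- conditions on the parameters -/
structure Par2.OK (P : Par2) : Prop where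
  hQ : 0 < P.Q
  h2 : |P.b2| ≤ P.b1
  h3 : 0 ≤ P.b3
  h5 : (0 ≤ P.b5 ∧ 0 ≤ P.d5 ∧ P.c5 ^ 2 ≤ 4 * P.b5 * P.d5) ∨ |P.c5| + |P.d5| ≤ P.b5 ∨
    (0 ≤ P.d5 ∧ P.d5 ≤ P.b5 ∧ |P.c5| ≤ P.b5 + P.d5)

/-- the conditions on the parameters, as a check -/
def Par2.okB (P : Par2) : Bool :=
  decide (0 < P.Q) && decide (|P.b2| ≤ P.b1) && decide (0 ≤ P.b3) &&
  (decide (0 ≤ P.b5 ∧ 0 ≤ P.d5 ∧ P.c5 * P.c5 ≤ 4 * P.b5 * P.d5) ||
    decide (|P.c5| + |P.d5| ≤ P.b5) ||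
    decide (0 ≤ P.d5 ∧ P.d5 ≤ P.b5 ∧ |P.c5| ≤ P.b5 + P.d5))

theorem Par2.okB_sound {P : Par2} (h : P.okB = true) : P.OK := by
  simp only [Par2.okB, Bool.and_eq_true, Bool.or_eq_true, decide_eq_true_eq] at h
  obtain ⟨⟨⟨h1, h2⟩, h3⟩, h4⟩ := h
  refine ⟨h1, h2, h3, ?_⟩
  rcases h4 with (h4 | h4) | h4
  · left
    exact ⟨h4.1, h4.2.1, by rw [pow_two]; exact h4.2.2⟩
  · right; left
    exact h4
  · right; right
    exact h4

/-- conditions at one value of `z` -/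
structure CondZ (P : Par2) (L : Leaf2) (W : Int) (z : ℝ) : Prop where
  pos : 0 ≤ 1 + z
  c2 : (W : ℝ) * (1 + z) ≤ pv L.e2 z + (1 + z) ^ 3 * pv L.l2 z
  p2 : 0 ≤ pv L.e2 z
  c3 : P.b3 ≠ 0 → (W : ℝ) * (1 + z) ≤ pv L.e3 z + (1 + z) ^ 4 * pv L.l3 z
  p3 : P.b3 ≠ 0 → 0 ≤ pv L.e3 z
  c5 : ¬(P.b5 = 0 ∧ P.c5 = 0 ∧ P.d5 = 0) →
    (W : ℝ) * (1 + z) ≤ pv L.e5 z + (1 + z) ^ 6 * pv L.l5 z
  p5 : ¬(P.b5 = 0 ∧ P.c5 = 0 ∧ P.d5 = 0) → 0 ≤ pv L.e5 z

/-- the real coefficients of the output potential -/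
noncomputable def Par2.beta (P : Par2) : P6 :=
  ![0, P.b1 / P.Q, P.b2 / P.Q, (P.b3 + P.b5) / P.Q, P.c5 / P.Q, P.d5 / P.Q]

theorem pv_mul1z (l : List Int) (z : ℝ) : pv (mul1z l) z = (1 + z) * pv l z := by
  rw [mul1z, pv_addL, pv]
  push_cast
  ring

/-! ### the constants `m2`, `m5` -/

namespace Mb

theorem imin_or (a b : Int) : imin a b = a ∨ imin a b = b := by
  unfold imin
  split
  · exact Or.inr rfl
  · exact Or.inl rfl

theorem le_imax_left (a b : Int) : a ≤ imax a b := by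
  unfold imax
  split
  · exact le_rfl
  · rename_i n h
    have h' : a - b = Int.negSucc n := h
    have : Int.negSucc n < 0 := Int.negSucc_lt_zero n
    omega

theorem le_imax_right (a b : Int) : b ≤ imax a b := by
  unfold imax
  split
  · rename_i n h
    have h' : a - b = Int.ofNat n := h
    have : 0 ≤ Int.ofNat n := Int.natCast_nonneg n
    omega
  · exact le_rfl

theorem succ_div (x : Int) (k : ℕ) (hk : 0 < k) :
    |(x : ℝ)| ≤ k * ((Int.ofNat (Nat.succ (Nat.div (Int.natAbs x) k)) : ℤ) : ℝ) := by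
  have h1 : Int.natAbs x < k * (Nat.div (Int.natAbs x) k + 1) := by
    have := Nat.lt_mul_div_succ (Int.natAbs x) hk
    exact this
  have h2 : ((Int.natAbs x : ℕ) : ℝ) ≤ (k : ℝ) * ((Nat.div (Int.natAbs x) k + 1 : ℕ) : ℝ) := by
    exact_mod_cast h1.le
  have h3 : ((Int.natAbs x : ℕ) : ℝ) = |(x : ℝ)| := by
    rw [Nat.cast_natAbs, Int.cast_abs]
  rw [h3] at h2
  have e : ((Int.ofNat (Nat.succ (Nat.div (Int.natAbs x) k)) : ℤ) : ℝ) =
      ((Nat.div (Int.natAbs x) k + 1 : ℕ) : ℝ) := by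
    norm_cast
  rw [e]
  exact h2

theorem m2o_eq (P : Par2) : ((m2o P : ℤ) : ℝ) = P.b1 + |(P.b2 : ℝ)| := by
  have : m2o P = P.b1 + |P.b2| := by
    simp only [m2o]
    have e : Int.add P.b1 (Int.ofNat P.b2.natAbs) = P.b1 + (P.b2.natAbs : ℤ) := rfl
    rw [e, Int.natCast_natAbs]
  rw [this]; push_cast; ring

theorem m5o_eq (P : Par2) : ((m5o P : ℤ) : ℝ) = P.b5 + (|(P.c5 : ℝ)| + |(P.d5 : ℝ)|) := by
  have : m5o P = P.b5 + (|P.c5| + |P.d5|) := by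
    simp only [m5o]
    have e : Int.add P.b5 (Int.ofNat (P.c5.natAbs + P.d5.natAbs)) =
      P.b5 + ((P.c5.natAbs + P.d5.natAbs : ℕ) : ℤ) := rfl
    rw [e]; push_cast; ring
  rw [this]; push_cast; ring

theorem m2s_ge (P : Par2) : (P.b1 + P.b2 : ℝ) ≤ (m2s P : ℤ) ∧
    (2 * P.b1 - P.b2 : ℝ) ≤ 8 * (m2s P : ℤ) := by
  constructor
  · have h := le_imax_left (Int.add P.b1 P.b2)
      (Int.ofNat (Nat.succ (Nat.div (Int.natAbs (Int.sub (Int.mul 2 P.b1) P.b2)) 8)))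
    have h' : ((P.b1 + P.b2 : ℤ) : ℝ) ≤ (m2s P : ℤ) := by
      exact_mod_cast h
    push_cast at h'
    exact h'
  · have h := le_imax_right (Int.add P.b1 P.b2)
      (Int.ofNat (Nat.succ (Nat.div (Int.natAbs (Int.sub (Int.mul 2 P.b1) P.b2)) 8)))
    have h' : ((Int.ofNat (Nat.succ (Nat.div (Int.natAbs (Int.sub (Int.mul 2 P.b1) P.b2)) 8)) : ℤ) :
        ℝ) ≤ (m2s P : ℤ) := by
      exact_mod_cast h
    have h2 := succ_div (Int.sub (Int.mul 2 P.b1) P.b2) 8 (by norm_num)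
    have e : ((Int.sub (Int.mul 2 P.b1) P.b2 : ℤ) : ℝ) = 2 * P.b1 - P.b2 := by
      have : Int.sub (Int.mul 2 P.b1) P.b2 = 2 * P.b1 - P.b2 := rfl
      rw [this]; push_cast; ring
    rw [e] at h2
    have h3 := le_abs_self (2 * P.b1 - P.b2 : ℝ)
    push_cast at h2 h' ⊢
    linarith

theorem m5s_ge (P : Par2) : ∃ d : ℝ, (P.d5 : ℝ) ≤ d ∧ 0 ≤ d ∧
    (P.b5 + P.c5 + d : ℝ) + |4 * P.b5 - 2 * P.c5 + d| / 48 ≤ (m5s P : ℤ) := by
  refine ⟨((imax P.d5 0 : ℤ) : ℝ), ?_, ?_, ?_⟩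
  · exact_mod_cast le_imax_left P.d5 0
  · exact_mod_cast le_imax_right P.d5 0
  · have h2 := succ_div (Int.add (Int.sub (Int.mul 4 P.b5) (Int.mul 2 P.c5)) (imax P.d5 0)) 48
      (by norm_num)
    have e : ((Int.add (Int.sub (Int.mul 4 P.b5) (Int.mul 2 P.c5)) (imax P.d5 0) : ℤ) : ℝ) =
        4 * P.b5 - 2 * P.c5 + (imax P.d5 0 : ℤ) := by
      have : Int.add (Int.sub (Int.mul 4 P.b5) (Int.mul 2 P.c5)) (imax P.d5 0) =
        4 * P.b5 - 2 * P.c5 + imax P.d5 0 := rfl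
      rw [this]; push_cast; ring
    rw [e] at h2
    have e2 : ((m5s P : ℤ) : ℝ) = (P.b5 + (P.c5 + (imax P.d5 0 : ℤ)) : ℝ) +
        ((Int.ofNat (Nat.succ (Nat.div (Int.natAbs
      (Int.add (Int.sub (Int.mul 4 P.b5) (Int.mul 2 P.c5)) (imax P.d5 0))) 48)) : ℤ) : ℝ) := by
      have : m5s P = (P.b5 + (P.c5 + imax P.d5 0)) + (Int.ofNat (Nat.succ (Nat.div (Int.natAbs
        (Int.add (Int.sub (Int.mul 4 P.b5) (Int.mul 2 P.c5)) (imax P.d5 0))) 48))) := rfl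
      rw [this]; push_cast; ring
    rw [e2]
    have h3 : |(4 * P.b5 - 2 * P.c5 + (imax P.d5 0 : ℤ) : ℝ)| / 48 ≤
        ((Int.ofNat (Nat.succ (Nat.div (Int.natAbs
      (Int.add (Int.sub (Int.mul 4 P.b5) (Int.mul 2 P.c5)) (imax P.d5 0))) 48)) : ℤ) : ℝ) := by
      rw [div_le_iff₀ (by norm_num)]
      calc _ ≤ _ := h2
        _ = _ := by push_cast; ring
    linarith

theorem m2_or (P : Par2) : m2 P = m2o P ∨ m2 P = m2s P := by
  unfold m2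
  split
  · exact imin_or _ _
  · exact Or.inl rfl

theorem m5_or (P : Par2) : m5 P = m5o P ∨ m5 P = m5s P := by
  unfold m5
  split
  · exact imin_or _ _
  · exact Or.inl rfl

theorem m5_zero {P : Par2} (h1 : P.b5 = 0) (h2 : P.c5 = 0) (h3 : P.d5 = 0) : m5 P = 0 := by
  have ho : m5o P = 0 := by simp [m5o, h1, h2, h3]
  have hs : m5s P = 1 := by
    simp only [m5s, h1, h2, h3]
    rfl
  unfold m5
  split
  · rw [ho, hs]; rfl
  · exact ho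

/-- relations between `n`, `c`, `Z` -/
structure Rel (n c Z : ℝ) : Prop where
  Z0 : 0 ≤ Z
  n0 : 0 ≤ n
  n1 : n ≤ Z ^ 2
  c1 : |c| ≤ n * Z
  c2 : c ^ 2 ≤ n ^ 3
  dt : 0 ≤ Z ^ 3 - 3 * n * Z + 2 * c

theorem Rel.half {n c Z : ℝ} (h : Rel n c Z) : -(n * Z) / 2 ≤ c := by
  rcases le_total (Z ^ 2 / 4) n with h1 | h1
  · have := h.dt
    have h2 : Z ^ 3 ≤ 4 * (n * Z) := by
      have := mul_le_mul_of_nonneg_right h1 h.Z0
      nlinarith
    linarith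
  · have h2 : c ^ 2 ≤ (n * Z / 2) ^ 2 := by
      calc c ^ 2 ≤ n ^ 3 := h.c2
        _ = n ^ 2 * n := by ring
        _ ≤ n ^ 2 * (Z ^ 2 / 4) := mul_le_mul_of_nonneg_left h1 (sq_nonneg n)
        _ = (n * Z / 2) ^ 2 := by ring
    have h3 : 0 ≤ n * Z / 2 := by have := mul_nonneg h.n0 h.Z0; linarith
    have h4 := abs_le_of_sq_le_sq h2 h3
    have := neg_abs_le c
    have h5 : |c| ≤ n * Z / 2 := abs_le_of_sq_le_sq' h2 h3 |> abs_le.2
    linarith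

theorem m2_bound {P : Par2} (hP : P.OK) {n c Z : ℝ} (h : Rel n c Z) :
    P.b1 * (n * Z) + P.b2 * c ≤ (m2 P : ℤ) * Z ^ (2 + 1) := by
  have hb2 : |(P.b2 : ℝ)| ≤ P.b1 := by exact_mod_cast hP.h2
  have hb1 : (0 : ℝ) ≤ P.b1 := (abs_nonneg _).trans hb2
  have hnZ : 0 ≤ n * Z := mul_nonneg h.n0 h.Z0
  have hZ3 : 0 ≤ Z ^ 3 := pow_nonneg h.Z0 3
  have hnZ3 : n * Z ≤ Z ^ 3 := by
    calc n * Z ≤ Z ^ 2 * Z := mul_le_mul_of_nonneg_right h.n1 h.Z0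
      _ = Z ^ 3 := by ring
  rcases m2_or P with e | e
  · rw [e, m2o_eq]
    have hbc : |(P.b2 : ℝ) * c| ≤ |(P.b2 : ℝ)| * (n * Z) := by
      rw [abs_mul]; exact mul_le_mul_of_nonneg_left h.c1 (abs_nonneg _)
    have h1 := le_abs_self ((P.b2 : ℝ) * c)
    have h2 := mul_le_mul_of_nonneg_left hnZ3 hb1
    have h3 := mul_le_mul_of_nonneg_left hnZ3 (abs_nonneg (P.b2 : ℝ))
    have e : (P.b1 + |(P.b2 : ℝ)|) * Z ^ (2 + 1) = P.b1 * Z ^ 3 + |(P.b2 : ℝ)| * Z ^ 3 := by ring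
    rw [e]; linarith
  · rw [e]
    obtain ⟨g1, g2⟩ := m2s_ge P
    rcases le_total 0 (P.b2 : ℝ) with hs | hs
    · have h1 := le_abs_self c
      have h2 : (P.b2 : ℝ) * c ≤ P.b2 * (n * Z) := mul_le_mul_of_nonneg_left (h1.trans h.c1) hs
      have h3 : (P.b1 + P.b2 : ℝ) * (n * Z) ≤ (P.b1 + P.b2) * Z ^ 3 :=
        mul_le_mul_of_nonneg_left hnZ3 (by linarith)
      have h4 := mul_le_mul_of_nonneg_right g1 hZ3
      have e3 : ((m2s P : ℤ) : ℝ) * Z ^ (2 + 1) = (m2s P : ℤ) * Z ^ 3 := by ring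
      rw [e3]
      linarith
    · -- `b2 ≤ 0`
      have hb2' : 0 ≤ (P.b1 + P.b2 : ℝ) := by
        have := neg_abs_le (P.b2 : ℝ)
        linarith
      have e3 : ((m2s P : ℤ) : ℝ) * Z ^ (2 + 1) = (m2s P : ℤ) * Z ^ 3 := by ring
      rw [e3]
      have g1' := mul_le_mul_of_nonneg_right g1 hZ3
      have g2' := mul_le_mul_of_nonneg_right g2 hZ3
      rcases le_total (Z ^ 2 / 4) n with h1 | h1
      · -- on the line
        have k1 : (P.b2 : ℝ) * c ≤ P.b2 * ((3 * (n * Z) - Z ^ 3) / 2) := by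
          have := h.dt
          exact mul_le_mul_of_nonpos_left (by linarith) hs
        -- linear in `n Z`, between `Z³ / 4` and `Z³`
        have k2 : Z ^ 3 / 4 ≤ n * Z := by
          have := mul_le_mul_of_nonneg_right h1 h.Z0
          nlinarith
        obtain ⟨x, hx⟩ : ∃ x, x = n * Z := ⟨_, rfl⟩
        rw [← hx] at k1 k2 hnZ3 ⊢
        rcases hZ3.eq_or_lt with hz | hz
        · rw [← hz] at k1 k2 hnZ3 ⊢
          have : x = 0 := by linarith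
          rw [this] at k1 ⊢
          linarith
        · obtain ⟨y, hy⟩ : ∃ y, x = y * Z ^ 3 := ⟨x / Z ^ 3, by rw [div_mul_cancel₀ _ hz.ne']⟩
          have y1 : y ≤ 1 := by
            rw [hy] at hnZ3
            by_contra hc
            rw [not_le] at hc
            nlinarith
          have y2 : 1 / 4 ≤ y := by
            rw [hy] at k2
            by_contra hc
            rw [not_le] at hc
            nlinarith
          have k3 : P.b1 * x + P.b2 * ((3 * x - Z ^ 3) / 2) =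
              (4 * y - 1) / 3 * ((P.b1 + P.b2) * Z ^ 3) +
                (1 - y) * (4 / 3) * ((2 * P.b1 - P.b2) * Z ^ 3 / 8) := by
            rw [hy]; ring
          have k4 : (4 * y - 1) / 3 * ((P.b1 + P.b2) * Z ^ 3) ≤
              (4 * y - 1) / 3 * ((m2s P : ℤ) * Z ^ 3) :=
            mul_le_mul_of_nonneg_left g1' (by linarith)
          have k5 : (1 - y) * (4 / 3) * ((2 * P.b1 - P.b2) * Z ^ 3 / 8) ≤
              (1 - y) * (4 / 3) * ((m2s P : ℤ) * Z ^ 3) :=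
            mul_le_mul_of_nonneg_left (by linarith) (by linarith)
          have k6 : (4 * y - 1) / 3 * ((m2s P : ℤ) * Z ^ 3) +
              (1 - y) * (4 / 3) * ((m2s P : ℤ) * Z ^ 3) = (m2s P : ℤ) * Z ^ 3 := by ring
          linarith
      · have k1 := h.half
        have k2 : (P.b2 : ℝ) * c ≤ P.b2 * (-(n * Z) / 2) := mul_le_mul_of_nonpos_left k1 hs
        have k3 : n * Z ≤ Z ^ 3 / 4 := by
          have := mul_le_mul_of_nonneg_right h1 h.Z0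
          nlinarith
        have k4 : (P.b1 - P.b2 / 2 : ℝ) * (n * Z) ≤ (P.b1 - P.b2 / 2) * (Z ^ 3 / 4) :=
          mul_le_mul_of_nonneg_left k3 (by linarith)
        linarith

theorem m2_nonneg {P : Par2} (hP : P.OK) : (0 : ℝ) ≤ (m2 P : ℤ) := by
  have h := m2_bound hP (n := 0) (c := 0) (Z := 1)
    ⟨by norm_num, le_rfl, by norm_num, by norm_num, by norm_num, by norm_num⟩
  simpa using h

theorem A_nonneg {P : Par2} (hP : P.OK) {d : ℝ} (hd : (P.d5 : ℝ) ≤ d) (hd0 : 0 ≤ d) :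
    0 ≤ (P.b5 + P.c5 + d : ℝ) := by
  have hc := neg_abs_le (P.c5 : ℝ)
  rcases hP.h5 with ⟨g1, g2, g3⟩ | g | ⟨g1, g2, g3⟩
  · have g1' : (0 : ℝ) ≤ P.b5 := by exact_mod_cast g1
    have g2' : (0 : ℝ) ≤ P.d5 := by exact_mod_cast g2
    have g3' : (P.c5 : ℝ) ^ 2 ≤ 4 * P.b5 * P.d5 := by exact_mod_cast g3
    have h1 : (P.c5 : ℝ) ^ 2 ≤ (P.b5 + P.d5) ^ 2 := by nlinarith [sq_nonneg ((P.b5 : ℝ) - P.d5)]
    have h2 := abs_le.1 (abs_le_of_sq_le_sq' h1 (by linarith) |> abs_le.2)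
    linarith [h2.1]
  · have g' : |(P.c5 : ℝ)| + |(P.d5 : ℝ)| ≤ P.b5 := by exact_mod_cast g
    have := abs_nonneg (P.d5 : ℝ)
    linarith
  · have g3' : |(P.c5 : ℝ)| ≤ P.b5 + P.d5 := by exact_mod_cast g3
    linarith

theorem m5_bound {P : Par2} (hP : P.OK) (hb5 : (0 : ℝ) ≤ P.b5) {n c Z : ℝ} (h : Rel n c Z) :
    P.b5 * (n * Z) ^ 2 + P.c5 * ((n * Z) * c) + P.d5 * c ^ 2 ≤ (m5 P : ℤ) * Z ^ (5 + 1) := by
  have hnZ : 0 ≤ n * Z := mul_nonneg h.n0 h.Z0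
  have hZ3 : 0 ≤ Z ^ 3 := pow_nonneg h.Z0 3
  have hnZ3 : n * Z ≤ Z ^ 3 := by
    calc n * Z ≤ Z ^ 2 * Z := mul_le_mul_of_nonneg_right h.n1 h.Z0
      _ = Z ^ 3 := by ring
  have hnZ6 : (n * Z) ^ 2 ≤ Z ^ (5 + 1) := by
    calc (n * Z) ^ 2 ≤ (Z ^ 3) ^ 2 := by gcongr
      _ = Z ^ (5 + 1) := by ring
  have hc2 : c ^ 2 ≤ (n * Z) ^ 2 := by
    rw [← sq_abs c]; have := h.c1; gcongr
  rcases m5_or P with e | e
  · rw [e, m5o_eq]
    have hcc : |(P.c5 : ℝ) * ((n * Z) * c)| ≤ |(P.c5 : ℝ)| * (n * Z) ^ 2 := by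
      rw [abs_mul, abs_mul, abs_of_nonneg hnZ]
      calc |(P.c5 : ℝ)| * (n * Z * |c|) ≤ |(P.c5 : ℝ)| * (n * Z * (n * Z)) := by
            have := h.c1; gcongr
        _ = _ := by ring
    have hdd : |(P.d5 : ℝ) * c ^ 2| ≤ |(P.d5 : ℝ)| * (n * Z) ^ 2 := by
      rw [abs_mul, abs_of_nonneg (sq_nonneg c)]
      gcongr
    have h1 := le_abs_self ((P.c5 : ℝ) * ((n * Z) * c))
    have h2 := le_abs_self ((P.d5 : ℝ) * c ^ 2)
    have h3 := mul_le_mul_of_nonneg_left hnZ6 hb5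
    have h4 := mul_le_mul_of_nonneg_left hnZ6 (abs_nonneg (P.c5 : ℝ))
    have h5 := mul_le_mul_of_nonneg_left hnZ6 (abs_nonneg (P.d5 : ℝ))
    linarith
  · rw [e]
    obtain ⟨d, hd, hd0, hM⟩ := m5s_ge P
    have hA := A_nonneg hP hd hd0
    have hhalf := h.half
    obtain ⟨X, hX⟩ : ∃ X, X = n * Z := ⟨_, rfl⟩
    obtain ⟨Y, hY⟩ : ∃ Y, Y = Z ^ 3 := ⟨_, rfl⟩
    have e6 : Z ^ (5 + 1) = Y ^ 2 := by rw [hY]; ring
    rw [e6]
    have hc1 := h.c1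
    have hdt := h.dt
    have hXc : c ≤ X := (le_abs_self c).trans (by rw [hX]; exact hc1)
    have hline : 3 * X - Y ≤ 2 * c := by
      have e7 : 3 * n * Z = 3 * X := by rw [hX]; ring
      rw [e7, ← hY] at hdt
      linarith
    rw [← hX] at hhalf hnZ hnZ3 ⊢
    rw [← hY] at hnZ3 hZ3
    -- chord
    have k1 : c ^ 2 ≤ c * X / 2 + X ^ 2 / 2 := by
      have : 0 ≤ (c + X / 2) * (X - c) := mul_nonneg (by linarith) (by linarith)
      nlinarith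
    have k2 : (P.d5 : ℝ) * c ^ 2 ≤ d * (c * X / 2 + X ^ 2 / 2) := by
      calc (P.d5 : ℝ) * c ^ 2 ≤ d * c ^ 2 := mul_le_mul_of_nonneg_right hd (sq_nonneg c)
        _ ≤ _ := mul_le_mul_of_nonneg_left k1 hd0
    obtain ⟨A, hAe⟩ : ∃ A : ℝ, A = P.b5 + P.c5 + d := ⟨_, rfl⟩
    obtain ⟨B, hBe⟩ : ∃ B : ℝ, B = (4 * P.b5 - 2 * P.c5 + d) / 4 := ⟨_, rfl⟩
    obtain ⟨w, hw⟩ : ∃ w : ℝ, w = X * (X - c) := ⟨_, rfl⟩
    have hw0 : 0 ≤ w := by rw [hw]; exact mul_nonneg hnZ (by linarith)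
    have hw1 : w ≤ X * (Y - X) / 2 := by
      rw [hw]
      have : 0 ≤ X * (2 * c - (3 * X - Y)) := mul_nonneg hnZ (by linarith)
      nlinarith
    have k3 : P.b5 * X ^ 2 + P.c5 * (X * c) + P.d5 * c ^ 2 ≤ A * X ^ 2 + 2 / 3 * (B - A) * w := by
      have : A * X ^ 2 + 2 / 3 * (B - A) * w =
          P.b5 * X ^ 2 + P.c5 * (X * c) + d * (c * X / 2 + X ^ 2 / 2) := by
        rw [hAe, hBe, hw]; ring
      rw [this]
      linarith
    have hAB : |(4 * P.b5 - 2 * P.c5 + d : ℝ)| / 48 = |B| / 12 := by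
      rw [hBe, abs_div, abs_of_pos (by norm_num : (0 : ℝ) < 4)]; ring
    rw [hAB, ← hAe] at hM
    rw [← hAe] at hA
    have hXY : 0 ≤ X * (Y - X) := mul_nonneg hnZ (by linarith)
    have k4 : X * (Y - X) ≤ Y ^ 2 / 4 := by nlinarith [sq_nonneg (2 * X - Y)]
    have k5 : X ^ 2 ≤ Y ^ 2 := pow_le_pow_left₀ hnZ hnZ3 2
    have k6 : B * w ≤ |B| * w := mul_le_mul_of_nonneg_right (le_abs_self B) hw0
    have k7 : |B| * w ≤ |B| * (Y ^ 2 / 8) :=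
      mul_le_mul_of_nonneg_left (by linarith) (abs_nonneg B)
    have k8 : A * X ^ 2 ≤ A * Y ^ 2 := mul_le_mul_of_nonneg_left k5 hA
    have k9 : 0 ≤ A * w := mul_nonneg hA hw0
    have k10 := mul_le_mul_of_nonneg_right hM (sq_nonneg Y)
    linarith

theorem m5_nonneg {P : Par2} (hP : P.OK) (hb5 : (0 : ℝ) ≤ P.b5) : (0 : ℝ) ≤ (m5 P : ℤ) := by
  have h := m5_bound hP hb5 (n := 0) (c := 0) (Z := 1)
    ⟨by norm_num, le_rfl, by norm_num, by norm_num, by norm_num, by norm_num⟩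
  simpa using h

theorem rel {w : V} (hw : Pos w) (hpos : 0 ≤ 1 + zz w) : Rel (Ny w) (Cy w) (1 + zz w) := by
  have htot : tot w = (1 + zz w) / 3 := by rw [zz]; ring
  have hNy : Nh w = Ny w / 9 := by rw [Ny]; ring
  have hCy : Ch w = Cy w / 27 := by rw [Cy]; ring
  refine ⟨hpos, by rw [Ny]; linarith [Nh_nonneg' w], ?_, ?_, ?_, ?_⟩
  · have := Nh_le_tot_sq hw
    rw [htot, hNy] at this
    nlinarith
  · have h := abs_Ch_le hw
    rw [htot, hNy, hCy, abs_div, abs_of_pos (by norm_num : (0:ℝ) < 27)] at h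
    have : |Cy w| / 27 * 27 ≤ (1 + zz w) / 3 * (Ny w / 9) * 27 :=
      mul_le_mul_of_nonneg_right h (by norm_num)
    linarith
  · have e : Ny w ^ 3 - Cy w ^ 2 =
        729 * (27 / 4) * ((w 0 - w 1) * (w 1 - w 2) * (w 2 - w 0)) ^ 2 := by
      simp only [Ny, Cy, Nh, Ch]; ring
    have : 0 ≤ 729 * (27 / 4) * ((w 0 - w 1) * (w 1 - w 2) * (w 2 - w 0)) ^ 2 := by positivity
    linarith
  · have e : (1 + zz w) ^ 3 - 3 * Ny w * (1 + zz w) + 2 * Cy w = 729 * (w 0 * w 1 * w 2) := by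
      simp only [zz, tot, Ny, Cy, Nh, Ch]; ring
    rw [e]
    have := mul_nonneg (mul_nonneg (hw 0) (hw 1)) (hw 2)
    linarith

end Mb

/-- one bracket of the potential -/
theorem bracket {W Z X m e l : ℝ} {k : ℕ} (hZ : 0 < Z) (hX : 0 ≤ X) (hXm : X ≤ m * Z ^ (k + 1))
    (he : 0 ≤ e) (hc : W * Z ≤ e + Z ^ (k + 1) * l) : W * (X / Z ^ k) ≤ X * l + m * e := by
  have h1 : W * (X / Z ^ k) = X / Z ^ (k + 1) * (W * Z) := by
    field_simp
    ring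
  have h2 : 0 ≤ X / Z ^ (k + 1) := by positivity
  have h3 : X / Z ^ (k + 1) ≤ m := by
    rw [div_le_iff₀ (by positivity)]; exact hXm
  calc W * (X / Z ^ k) = X / Z ^ (k + 1) * (W * Z) := h1
    _ ≤ X / Z ^ (k + 1) * (e + Z ^ (k + 1) * l) := mul_le_mul_of_nonneg_left hc h2
    _ = X * l + X / Z ^ (k + 1) * e := by field_simp; ring
    _ ≤ X * l + m * e := by
        have := mul_le_mul_of_nonneg_right h3 he
        linarith

theorem H_le_upper2_pos {P : Par2} (hP : P.OK) {L : Leaf2} {W : Int} {w : V}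
    (hw : Pos w) (hz : CondZ P L W (zz w)) (hpos : 0 < 1 + zz w) :
    3 * P.Q * W * H P.beta w ≤ upper2 P L w := by
  obtain ⟨-, c2, p2, c3, p3, c5, p5⟩ := hz
  have htot : tot w = (1 + zz w) / 3 := by rw [zz]; ring
  have hNy : Nh w = Ny w / 9 := by rw [Ny]; ring
  have hCy : Ch w = Cy w / 27 := by rw [Cy]; ring
  have hN0 : 0 ≤ Ny w := by rw [Ny]; linarith [Nh_nonneg' w]
  have hN1 : Ny w ≤ (1 + zz w) ^ 2 := by
    have := Nh_le_tot_sq hw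
    rw [htot, hNy] at this
    nlinarith
  have hC1 : |Cy w| ≤ Ny w * (1 + zz w) := by
    have h := abs_Ch_le hw
    rw [htot, hNy, hCy, abs_div, abs_of_pos (by norm_num : (0:ℝ) < 27)] at h
    have : |Cy w| / 27 * 27 ≤ (1 + zz w) / 3 * (Ny w / 9) * 27 :=
      mul_le_mul_of_nonneg_right h (by norm_num)
    linarith
  have hQ : (0 : ℝ) < P.Q := by exact_mod_cast hP.hQ
  have hb2 : |(P.b2 : ℝ)| ≤ P.b1 := by exact_mod_cast hP.h2
  have hb3 : (0 : ℝ) ≤ P.b3 := by exact_mod_cast hP.h3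
  set z := zz w with hzdef
  set Z := 1 + z with hZ
  set n := Ny w
  set c := Cy w
  have hb1 : (0 : ℝ) ≤ P.b1 := (abs_nonneg _).trans hb2
  -- the first bracket
  have hnZ : 0 ≤ n * Z := by positivity
  have hnZ3 : n * Z ≤ Z ^ 3 := by
    calc n * Z ≤ Z ^ 2 * Z := mul_le_mul_of_nonneg_right hN1 hpos.le
      _ = Z ^ 3 := by ring
  have hbc : |(P.b2 : ℝ) * c| ≤ |(P.b2 : ℝ)| * (n * Z) := by
    rw [abs_mul]; exact mul_le_mul_of_nonneg_left hC1 (abs_nonneg _)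
  have hX2 : 0 ≤ P.b1 * (n * Z) + P.b2 * c := by
    have h1 := neg_abs_le ((P.b2 : ℝ) * c)
    have h2 := mul_le_mul_of_nonneg_right hb2 hnZ
    linarith
  have hrel : Mb.Rel n c Z := Mb.rel hw hpos.le
  have hX2m : P.b1 * (n * Z) + P.b2 * c ≤ (m2 P : ℤ) * Z ^ (2 + 1) := Mb.m2_bound hP hrel
  have B2 := bracket (k := 2) hpos hX2 hX2m p2 c2
  -- the second bracket
  have B3 : (W : ℝ) * (P.b3 * n ^ 2 / Z ^ 3) ≤ P.b3 * n ^ 2 * pv L.l3 z + P.b3 * pv L.e3 z := by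
    by_cases h0 : P.b3 = 0
    · rw [h0]; simp
    · refine bracket (k := 3) hpos (by positivity) ?_ (p3 h0) (c3 h0)
      have : n ^ 2 ≤ Z ^ (3 + 1) := by
        calc n ^ 2 ≤ (Z ^ 2) ^ 2 := by gcongr
          _ = Z ^ (3 + 1) := by ring
      exact mul_le_mul_of_nonneg_left this hb3
  -- the third bracket
  have hc2 : c ^ 2 ≤ (n * Z) ^ 2 := by
    rw [← sq_abs c]; gcongr
  have hcc : |(P.c5 : ℝ) * ((n * Z) * c)| ≤ |(P.c5 : ℝ)| * (n * Z) ^ 2 := by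
    rw [abs_mul, abs_mul, abs_of_nonneg hnZ]
    calc |(P.c5 : ℝ)| * (n * Z * |c|) ≤ |(P.c5 : ℝ)| * (n * Z * (n * Z)) := by gcongr
      _ = _ := by ring
  have hdd : |(P.d5 : ℝ) * c ^ 2| ≤ |(P.d5 : ℝ)| * (n * Z) ^ 2 := by
    rw [abs_mul, abs_of_nonneg (sq_nonneg c)]
    gcongr
  have hX5 : 0 ≤ (P.b5 : ℝ) * (n * Z) ^ 2 + P.c5 * ((n * Z) * c) + P.d5 * c ^ 2 := by
    rcases hP.h5 with ⟨g1, g2, g3⟩ | g | ⟨g1, g2, g3⟩
    · have g1' : (0 : ℝ) ≤ P.b5 := by exact_mod_cast g1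
      have g2' : (0 : ℝ) ≤ P.d5 := by exact_mod_cast g2
      have g3' : (P.c5 : ℝ) ^ 2 ≤ 4 * P.b5 * P.d5 := by exact_mod_cast g3
      exact psd_nonneg g1' g2' g3' _ _
    · have g' : |(P.c5 : ℝ)| + |(P.d5 : ℝ)| ≤ P.b5 := by exact_mod_cast g
      have h1 := neg_abs_le ((P.c5 : ℝ) * ((n * Z) * c))
      have h2 := neg_abs_le ((P.d5 : ℝ) * c ^ 2)
      have h3 := mul_le_mul_of_nonneg_right g' (sq_nonneg (n * Z))
      nlinarith
    · have g1' : (0 : ℝ) ≤ P.d5 := by exact_mod_cast g1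
      have g2' : (P.d5 : ℝ) ≤ P.b5 := by exact_mod_cast g2
      have g3' : |(P.c5 : ℝ)| ≤ P.b5 + P.d5 := by exact_mod_cast g3
      have h1 := neg_abs_le ((P.c5 : ℝ) * ((n * Z) * c))
      rw [abs_mul, abs_mul, abs_of_nonneg hnZ] at h1
      have ha : 0 ≤ |c| := abs_nonneg c
      have h2 : 0 ≤ n * Z - |c| := sub_nonneg.2 hC1
      have h3 : |(P.c5 : ℝ)| * (n * Z * |c|) ≤ (P.b5 + P.d5) * (n * Z * |c|) :=
        mul_le_mul_of_nonneg_right g3' (by positivity)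
      have h4 : 0 ≤ (P.b5 - P.d5 : ℝ) * (n * Z * (n * Z - |c|)) :=
        mul_nonneg (sub_nonneg.2 g2') (mul_nonneg hnZ h2)
      have h5 : 0 ≤ (P.d5 : ℝ) * (n * Z - |c|) ^ 2 := mul_nonneg g1' (sq_nonneg _)
      have h6 : |c| ^ 2 = c ^ 2 := sq_abs c
      have h7 : (P.b5 : ℝ) * (n * Z) ^ 2 - (P.b5 + P.d5) * (n * Z * |c|) + P.d5 * |c| ^ 2 =
          (P.b5 - P.d5 : ℝ) * (n * Z * (n * Z - |c|)) + (P.d5 : ℝ) * (n * Z - |c|) ^ 2 := by
        ring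
      rw [h6] at h7
      linarith
  have hb5 : (0 : ℝ) ≤ P.b5 := by
    rcases hP.h5 with ⟨g1, g2, g3⟩ | g | ⟨g1, g2, g3⟩
    · exact_mod_cast g1
    · have g' : |(P.c5 : ℝ)| + |(P.d5 : ℝ)| ≤ P.b5 := by exact_mod_cast g
      have := abs_nonneg (P.c5 : ℝ)
      have := abs_nonneg (P.d5 : ℝ)
      linarith
    · have g1' : (0 : ℝ) ≤ P.d5 := by exact_mod_cast g1
      have g2' : (P.d5 : ℝ) ≤ P.b5 := by exact_mod_cast g2
      linarith
  have hnZ6 : (n * Z) ^ 2 ≤ Z ^ (5 + 1) := by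
    calc (n * Z) ^ 2 ≤ (Z ^ 3) ^ 2 := by gcongr
      _ = Z ^ (5 + 1) := by ring
  have B5 : (W : ℝ) * (((P.b5 : ℝ) * (n * Z) ^ 2 + P.c5 * ((n * Z) * c) + P.d5 * c ^ 2) / Z ^ 5) ≤
      ((P.b5 : ℝ) * (n * Z) ^ 2 + P.c5 * ((n * Z) * c) + P.d5 * c ^ 2) * pv L.l5 z +
        (m5 P : ℤ) * pv L.e5 z := by
    by_cases h0 : P.b5 = 0 ∧ P.c5 = 0 ∧ P.d5 = 0
    · rw [Mb.m5_zero h0.1 h0.2.1 h0.2.2, h0.1, h0.2.1, h0.2.2]; simp
    · exact bracket (k := 5) hpos hX5 (Mb.m5_bound hP hb5 hrel) (p5 h0) (c5 h0)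
  -- assembly
  have e1 : 3 * P.Q * W * H P.beta w = W * ((P.b1 * (n * Z) + P.b2 * c) / Z ^ 2) +
      W * (P.b3 * n ^ 2 / Z ^ 3) +
      W * (((P.b5 : ℝ) * (n * Z) ^ 2 + P.c5 * ((n * Z) * c) + P.d5 * c ^ 2) / Z ^ 5) := by
    simp only [H, Par2.beta, Matrix.cons_val_zero, Matrix.cons_val_one, Matrix.cons_val]
    rw [htot, hNy, hCy]
    field_simp
    ring
  have e2 : upper2 P L w = ((P.b1 * (n * Z) + P.b2 * c) * pv L.l2 z + (m2 P : ℤ) * pv L.e2 z) +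
      (P.b3 * n ^ 2 * pv L.l3 z + P.b3 * pv L.e3 z) +
      (((P.b5 : ℝ) * (n * Z) ^ 2 + P.c5 * ((n * Z) * c) + P.d5 * c ^ 2) * pv L.l5 z +
        (m5 P : ℤ) * pv L.e5 z) := by
    simp only [upper2, lN, lC, lNN, lNC, lCC, lZ, pv_smulL, pv_addL, pv_mul1z]
    rw [← hzdef, ← hZ]
    ring
  rw [e1, e2]
  linarith

theorem H_le_upper2 {P : Par2} (hP : P.OK) {L : Leaf2} {W : Int} {w : V}
    (hw : Pos w) (hz : CondZ P L W (zz w)) :
    3 * P.Q * W * H P.beta w ≤ upper2 P L w := by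
  rcases eq_or_lt_of_le hz.pos with h0 | h0
  · have htot : tot w = 0 := by
      have : tot w = (1 + zz w) / 3 := by rw [zz]; ring
      rw [this, ← h0]; simp
    have hw0 : ∀ i, w i = 0 := by
      have h1 := hw 0
      have h2 := hw 1
      have h3 := hw 2
      simp only [tot] at htot
      intro i
      fin_cases i
      · show w 0 = 0
        linarith
      · show w 1 = 0
        linarith
      · show w 2 = 0
        linarith
    have hN : Nh w = 0 := by simp only [Nh, hw0]; ring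
    have hC : Ch w = 0 := by simp only [Ch, hw0]; ring
    have hNy : Ny w = 0 := by rw [Ny, hN]; ring
    have hCy : Cy w = 0 := by rw [Cy, hC]; ring
    have hH : H P.beta w = 0 := by simp only [H, hN, hC, htot]; simp
    have hb2 : |(P.b2 : ℝ)| ≤ P.b1 := by exact_mod_cast hP.h2
    have hb3 : (0 : ℝ) ≤ P.b3 := by exact_mod_cast hP.h3
    have hm2 : (0 : ℝ) ≤ ((m2 P : ℤ) : ℝ) := Mb.m2_nonneg hP
    have hb5 : (0 : ℝ) ≤ P.b5 := by
      rcases hP.h5 with ⟨g1, g2, g3⟩ | g | ⟨g1, g2, g3⟩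
      · exact_mod_cast g1
      · have g' : |(P.c5 : ℝ)| + |(P.d5 : ℝ)| ≤ P.b5 := by exact_mod_cast g
        have := abs_nonneg (P.c5 : ℝ)
        have := abs_nonneg (P.d5 : ℝ)
        linarith
      · have g1' : (0 : ℝ) ≤ P.d5 := by exact_mod_cast g1
        have g2' : (P.d5 : ℝ) ≤ P.b5 := by exact_mod_cast g2
        linarith
    have hm50 : (0 : ℝ) ≤ ((m5 P : ℤ) : ℝ) := Mb.m5_nonneg hP hb5
    have t3 : 0 ≤ (P.b3 : ℝ) * pv L.e3 (zz w) := by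
      by_cases g : P.b3 = 0
      · rw [g]; simp
      · exact mul_nonneg hb3 (hz.p3 g)
    have t5 : 0 ≤ ((m5 P : ℤ) : ℝ) * pv L.e5 (zz w) := by
      by_cases g : P.b5 = 0 ∧ P.c5 = 0 ∧ P.d5 = 0
      · rw [Mb.m5_zero g.1 g.2.1 g.2.2]; simp
      · exact mul_nonneg hm50 (hz.p5 g)
    have t2 : 0 ≤ ((m2 P : ℤ) : ℝ) * pv L.e2 (zz w) := mul_nonneg hm2 hz.p2
    rw [hH]
    simp only [upper2, hNy, hCy, lZ, pv_smulL, pv_addL]
    ring_nf
    linarith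
  · exact H_le_upper2_pos hP hw hz h0

end Vale.Agent.P154
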