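import Vale.Agent.P154.V2Defs

/-!
Linearity and monotonicity of the pointwise merge inequality `PW`.
-/

namespace Vale.Agent.P154

open scoped BigOperators

namespace Cvx

theorem Hadd (p q : P6) (x : V) : H (p + q) x = H p x + H q x := by
  simp only [H, Pi.add_apply]; ring

theorem Hsmul (c : ℝ) (p : P6) (x : V) : H (c • p) x = c * H p x := by
  simp only [H, Pi.smul_apply, smul_eq_mul]; ring

theorem Hsub (p q : P6) (x : V) : H (p - q) x = H p x - H q x := by
  simp only [H, Pi.sub_apply]; ring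

theorem Hzero (x : V) : H 0 x = 0 := by
  simp [H]

theorem tot_nn {y : V} (h : Pos y) : 0 ≤ tot y :=
  add_nonneg (add_nonneg (h 0) (h 1)) (h 2)

theorem Nh_nn (y : V) : 0 ≤ Nh y := by
  unfold Nh
  nlinarith [sq_nonneg (y 0 - y 1), sq_nonneg (y 1 - y 2), sq_nonneg (y 0 - y 2)]

end Cvx

open Cvx

variable {S T : V → Prop}

/-- smaller domains -/
theorem PW_mono_dom {S' T' : V → Prop} {b U W g : P6} (h : PW S T b U W g)
    (hS : ∀ x, S' x → S x) (hT : ∀ y, T' y → T y) : PW S' T' b U W g :=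
  fun x y hx hy => h x y (hS x hx) (hT y hy)

/-- a larger `U` -/
theorem PW_mono_U {b U U' W g : P6} (h : PW S T b U W g) (hU : ∀ x, S x → H U x ≤ H U' x)
    (hT : ∀ y, T y → Pos y) : PW S T b U' W g := by
  intro x y hx hy
  have h1 := h x y hx hy
  have h2 := mul_le_mul_of_nonneg_left (hU x hx)
    (div_nonneg (tot_nn (hT y hy)) (by norm_num : (0:ℝ) ≤ 3))
  linarith

/-- a larger `W` -/
theorem PW_mono_W {b U W W' g : P6} (h : PW S T b U W g) (hW : ∀ y, T y → H W y ≤ H W' y)
    (hS : ∀ x, S x → Pos x) : PW S T b U W' g := by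
  intro x y hx hy
  have h1 := h x y hx hy
  have h2 := mul_le_mul_of_nonneg_left (hW y hy)
    (div_nonneg (tot_nn (hS x hx)) (by norm_num : (0:ℝ) ≤ 3))
  linarith

/-- a larger `g` -/
theorem PW_mono_g {b U W g g' : P6} (h : PW S T b U W g) (hg : ∀ x, S x → H g x ≤ H g' x)
    (hT : ∀ y, T y → Pos y) : PW S T b U W g' := by
  intro x y hx hy
  have h1 := h x y hx hy
  have h2 := mul_le_mul_of_nonneg_right (hg x hx)
    (div_nonneg (Nh_nn y) (tot_nn (hT y hy)))
  linarith

/-- a smaller output potential -/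
theorem PW_mono_b {b b' U W g : P6} (h : PW S T b U W g) (hb : ∀ z, Pos z → H b' z ≤ H b z)
    (hS : ∀ x, S x → Pos x) (hT : ∀ y, T y → Pos y) : PW S T b' U W g := by
  intro x y hx hy
  refine le_trans ?_ (h x y hx hy)
  refine mul_le_mul_of_nonneg_left (Finset.sum_le_sum fun σ _ => hb _ ?_) (by norm_num)
  intro i
  exact mul_nonneg (hS x hx i) (hT y hy _)

theorem PW_congr {b b' U U' W W' g g' : P6} (h : PW S T b U W g) (hb : b = b') (hU : U = U')
    (hW : W = W') (hg : g = g') : PW S T b' U' W' g' := by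
  subst hb hU hW hg
  exact h

theorem PW_zero : PW S T 0 0 0 0 := by
  intro x y _ _
  simp [Hzero]

theorem PW_add {b b' U U' W W' g g' : P6} (h : PW S T b U W g) (h' : PW S T b' U' W' g') :
    PW S T (b + b') (U + U') (W + W') (g + g') := by
  intro x y hx hy
  have h1 := h x y hx hy
  have h2 := h' x y hx hy
  simp only [Hadd, Finset.sum_add_distrib]
  refine le_trans (le_of_eq ?_) ((add_le_add h1 h2).trans (le_of_eq ?_))
  · ring
  · ring

theorem PW_smul {b U W g : P6} (h : PW S T b U W g) {c : ℝ} (hc : 0 ≤ c) :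
    PW S T (c • b) (c • U) (c • W) (c • g) := by
  intro x y hx hy
  have h1 := mul_le_mul_of_nonneg_left (h x y hx hy) hc
  simp only [Hsmul, ← Finset.mul_sum]
  refine le_trans (le_of_eq ?_) (h1.trans (le_of_eq ?_))
  · ring
  · ring

/-- nonnegative combinations of two merge inequalities -/
theorem PW_comb {b b' U U' W W' g g' : P6} (h : PW S T b U W g) (h' : PW S T b' U' W' g')
    {s t : ℝ} (hs : 0 ≤ s) (ht : 0 ≤ t) :
    PW S T (s • b + t • b') (s • U + t • U') (s • W + t • W') (s • g + t • g') :=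
  PW_add (PW_smul h hs) (PW_smul h' ht)

/-- convex combinations, the same `g` -/
theorem PW_convex {b b' U U' W W' g : P6} (h : PW S T b U W g) (h' : PW S T b' U' W' g)
    {s : ℝ} (h0 : 0 ≤ s) (h1 : s ≤ 1) :
    PW S T ((1 - s) • b + s • b') ((1 - s) • U + s • U') ((1 - s) • W + s • W') g := by
  refine PW_congr (PW_comb h h' (sub_nonneg.2 h1) h0) rfl rfl rfl ?_
  rw [← add_smul, sub_add_cancel, one_smul]

/-- convex combinations of three points, the same `g` -/
theorem PW_convex3 {b b' b'' U U' U'' W W' W'' g : P6} (h : PW S T b U W g)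
    (h' : PW S T b' U' W' g) (h'' : PW S T b'' U'' W'' g) {r s t : ℝ} (hr : 0 ≤ r) (hs : 0 ≤ s)
    (ht : 0 ≤ t) (h1 : r + s + t = 1) :
    PW S T (r • b + s • b' + t • b'') (r • U + s • U' + t • U'') (r • W + s • W' + t • W'') g := by
  refine PW_congr (PW_add (PW_comb h h' hr hs) (PW_smul h'' ht)) rfl rfl rfl ?_
  rw [← add_smul, ← add_smul, h1, one_smul]

/-- convex combinations of three points, arbitrary `g` -/
theorem PW_comb3 {b b' b'' U U' U'' W W' W'' g g' g'' : P6} (h : PW S T b U W g)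
    (h' : PW S T b' U' W' g') (h'' : PW S T b'' U'' W'' g'') {r s t : ℝ} (hr : 0 ≤ r)
    (hs : 0 ≤ s) (ht : 0 ≤ t) :
    PW S T (r • b + s • b' + t • b'') (r • U + s • U' + t • U'') (r • W + s • W' + t • W'')
      (r • g + s • g' + t • g'') :=
  PW_add (PW_comb h h' hr hs) (PW_smul h'' ht)

/-- finite nonnegative combinations -/
theorem PW_sum {ι : Type*} (A : Finset ι) {b U W g : ι → P6} {s : ι → ℝ}
    (h : ∀ i ∈ A, PW S T (b i) (U i) (W i) (g i)) (hs : ∀ i ∈ A, 0 ≤ s i) :
    PW S T (∑ i ∈ A, s i • b i) (∑ i ∈ A, s i • U i) (∑ i ∈ A, s i • W i)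
      (∑ i ∈ A, s i • g i) := by
  classical
  induction A using Finset.induction_on with
  | empty => simpa using (PW_zero (S := S) (T := T))
  | insert a A ha ih =>
    rw [Finset.sum_insert ha, Finset.sum_insert ha, Finset.sum_insert ha, Finset.sum_insert ha]
    exact PW_add (PW_smul (h a (Finset.mem_insert_self a A)) (hs a (Finset.mem_insert_self a A)))
      (ih (fun i hi => h i (Finset.mem_insert_of_mem hi))
        (fun i hi => hs i (Finset.mem_insert_of_mem hi)))

/-- A merge inequality at the two ends of an interval of values of the parameter `m`, for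
potentials that are affine in `m`, holds on the whole interval. -/
theorem PW_affine {m0 m1 : ℝ} (hm : m0 < m1) {b U W g : ℝ → P6}
    (h0 : PW S T (b m0) (U m0) (W m0) (g m0)) (h1 : PW S T (b m1) (U m1) (W m1) (g m1))
    (hb : ∀ s : ℝ, b ((1 - s) * m0 + s * m1) = (1 - s) • b m0 + s • b m1)
    (hU : ∀ s : ℝ, U ((1 - s) * m0 + s * m1) = (1 - s) • U m0 + s • U m1)
    (hW : ∀ s : ℝ, W ((1 - s) * m0 + s * m1) = (1 - s) • W m0 + s • W m1)
    (hg : ∀ s : ℝ, g ((1 - s) * m0 + s * m1) = (1 - s) • g m0 + s • g m1)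
    {m : ℝ} (hm0 : m0 ≤ m) (hm1 : m ≤ m1) : PW S T (b m) (U m) (W m) (g m) := by
  have hd : 0 < m1 - m0 := sub_pos.2 hm
  obtain ⟨s, hs⟩ : ∃ s, s = (m - m0) / (m1 - m0) := ⟨_, rfl⟩
  have e : m = (1 - s) * m0 + s * m1 := by
    rw [hs]; field_simp; ring
  have s0 : 0 ≤ s := by rw [hs]; exact div_nonneg (sub_nonneg.2 hm0) hd.le
  have s1 : s ≤ 1 := by rw [hs, div_le_one hd]; linarith
  have h := PW_comb h0 h1 (sub_nonneg.2 s1) s0
  rw [e]
  exact PW_congr h (hb s).symm (hU s).symm (hW s).symm (hg s).symm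

end Vale.Agent.P154
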