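import Vale.Agent.P154.V2Defs
import Vale.Agent.P154.Reduction2

/-!
Real valued expectations: linearity, bounds, recursion, merging of one more child.
-/

namespace Vale.Agent.P154

open scoped BigOperators ENNReal

/-! ### The functions `H p` -/

theorem H_add (p q : P6) (x : V) : H (p + q) x = H p x + H q x := by
  simp only [H, Pi.add_apply]; ring

theorem H_smul (c : ℝ) (p : P6) (x : V) : H (c • p) x = c * H p x := by
  simp only [H, Pi.smul_apply, smul_eq_mul]; ring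

theorem H_sub (p q : P6) (x : V) : H (p - q) x = H p x - H q x := by
  simp only [H, Pi.sub_apply]; ring

theorem H_neg (p : P6) (x : V) : H (-p) x = - H p x := by
  simp only [H, Pi.neg_apply]; ring

theorem H_zero (x : V) : H 0 x = 0 := by
  simp [H]

theorem H_tot (x : V) : H ![1, 0, 0, 0, 0, 0] x = tot x := by
  simp [H]

theorem HeN_eq (x : V) : H eN x = Nh x / tot x := by
  simp [H, eN]

theorem HeNN_eq (x : V) : H eNN x = Nh x ^ 2 / tot x ^ 3 := by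
  simp [H, eNN]

theorem tot_hom (t : ℝ) (x : V) : tot (fun i => t * x i) = t * tot x := by
  simp only [tot]; ring

theorem Nh_hom (t : ℝ) (x : V) : Nh (fun i => t * x i) = t ^ 2 * Nh x := by
  simp only [Nh]; ring

theorem Ch_hom (t : ℝ) (x : V) : Ch (fun i => t * x i) = t ^ 3 * Ch x := by
  simp only [Ch]; ring

theorem H_hom (t : ℝ) (p : P6) (x : V) : H p (fun i => t * x i) = t * H p x := by
  rw [H, H, tot_hom, Nh_hom, Ch_hom]
  rcases eq_or_ne t 0 with rfl | ht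
  · simp
  rcases eq_or_ne (tot x) 0 with hx | hx
  · rw [hx]; simp
  · field_simp

theorem tot_mvec (lam : ℝ) (x : V) : tot (mvec lam x) = tot x := by
  simp only [tot, mvec]; ring

theorem Nh_mvec (lam : ℝ) (x : V) : Nh (mvec lam x) = lam ^ 2 * Nh x := by
  simp only [Nh, mvec]; ring

theorem Ch_mvec (lam : ℝ) (x : V) : Ch (mvec lam x) = lam ^ 3 * Ch x := by
  simp only [Ch, mvec]; ring

theorem H_mvec (lam : ℝ) (p : P6) (x : V) : H p (mvec lam x) = H (sc lam p) x := by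
  rw [H, H, tot_mvec, Nh_mvec, Ch_mvec]
  simp only [sc, Matrix.cons_val]
  ring

theorem tot_permR (g : Equiv.Perm (Fin 3)) (x : V) : tot (perm g x) = tot x := by
  rw [tot_eq, tot_eq]
  exact Equiv.sum_comp g x

theorem Nh_eq_sum (x : V) : Nh x = (3 * ∑ i, x i ^ 2 - (∑ i, x i) ^ 2) / 2 := by
  rw [Nh, Fin.sum_univ_three, Fin.sum_univ_three]; ring

theorem Ch_eq_sum (x : V) : Ch x = (27 * ∏ i, x i - 9 * (∑ i, x i) *
    (((∑ i, x i) ^ 2 - ∑ i, x i ^ 2) / 2) + 2 * (∑ i, x i) ^ 3) / 2 := by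
  rw [Ch, Fin.sum_univ_three, Fin.sum_univ_three, Fin.prod_univ_three]; ring

theorem Nh_permR (g : Equiv.Perm (Fin 3)) (x : V) : Nh (perm g x) = Nh x := by
  rw [Nh_eq_sum, Nh_eq_sum]
  have h1 : ∑ i, perm g x i ^ 2 = ∑ i, x i ^ 2 := Equiv.sum_comp g (fun i => x i ^ 2)
  have h2 : ∑ i, perm g x i = ∑ i, x i := Equiv.sum_comp g x
  rw [h1, h2]

theorem Ch_permR (g : Equiv.Perm (Fin 3)) (x : V) : Ch (perm g x) = Ch x := by
  rw [Ch_eq_sum, Ch_eq_sum]
  have h1 : ∑ i, perm g x i ^ 2 = ∑ i, x i ^ 2 := Equiv.sum_comp g (fun i => x i ^ 2)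
  have h2 : ∑ i, perm g x i = ∑ i, x i := Equiv.sum_comp g x
  have h3 : ∏ i, perm g x i = ∏ i, x i := Equiv.prod_comp g x
  rw [h1, h2, h3]

theorem H_perm (g : Equiv.Perm (Fin 3)) (p : P6) (x : V) : H p (perm g x) = H p x := by
  rw [H, H, tot_permR, Nh_permR, Ch_permR]

theorem Ch_sq_le (x : V) : Ch x ^ 2 ≤ Nh x ^ 3 := by
  have h : Nh x ^ 3 - Ch x ^ 2 = 27 / 4 * ((x 0 - x 1) * (x 1 - x 2) * (x 2 - x 0)) ^ 2 := by
    rw [Nh, Ch]; ring
  have h2 : 0 ≤ 27 / 4 * ((x 0 - x 1) * (x 1 - x 2) * (x 2 - x 0)) ^ 2 := by positivity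
  linarith

theorem Ch_abs_le {x : V} (hx : Pos x) : |Ch x| ≤ tot x ^ 3 := by
  have ht := tot_nonneg hx
  apply abs_le_of_sq_le_sq _ (by positivity)
  calc Ch x ^ 2 ≤ Nh x ^ 3 := Ch_sq_le x
    _ ≤ (tot x ^ 2) ^ 3 := pow_le_pow_left₀ (Nh_nonneg x) (Nh_le_sq hx) 3
    _ = (tot x ^ 3) ^ 2 := by ring

theorem H_abs_le {x : V} (hx : Pos x) (p : P6) : |H p x| ≤ (∑ i, |p i|) * tot x := by
  have ht := tot_nonneg hx
  rcases ht.eq_or_lt with h0 | h0
  · rw [H, ← h0]; simp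
  have hN0 := Nh_nonneg x
  have hN := Nh_le_sq hx
  have hC := Ch_abs_le hx
  obtain ⟨T, hT⟩ : ∃ T, T = tot x := ⟨_, rfl⟩
  obtain ⟨N, hNN⟩ : ∃ N, N = Nh x := ⟨_, rfl⟩
  obtain ⟨C, hCC⟩ : ∃ C, C = Ch x := ⟨_, rfl⟩
  rw [H]
  rw [← hT] at h0 hN hC ⊢
  rw [← hNN] at hN0 hN ⊢
  rw [← hCC] at hC ⊢
  have hC0 := abs_nonneg C
  have b1 : |N / T| ≤ T := by
    rw [abs_div, abs_of_pos h0, abs_of_nonneg hN0, div_le_iff₀ h0]
    linarith [sq T]
  have b2 : |C / T ^ 2| ≤ T := by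
    rw [abs_div, abs_of_pos (by positivity : 0 < T ^ 2), div_le_iff₀ (by positivity)]
    calc |C| ≤ T ^ 3 := hC
      _ = T * T ^ 2 := by ring
  have b3 : |N ^ 2 / T ^ 3| ≤ T := by
    rw [abs_div, abs_of_pos (by positivity : 0 < T ^ 3), abs_pow, abs_of_nonneg hN0,
      div_le_iff₀ (by positivity)]
    calc N ^ 2 ≤ (T ^ 2) ^ 2 := pow_le_pow_left₀ hN0 hN 2
      _ = T * T ^ 3 := by ring
  have b4 : |N * C / T ^ 4| ≤ T := by
    rw [abs_div, abs_of_pos (by positivity : 0 < T ^ 4), abs_mul, abs_of_nonneg hN0,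
      div_le_iff₀ (by positivity)]
    calc N * |C| ≤ T ^ 2 * T ^ 3 := mul_le_mul hN hC hC0 (by positivity)
      _ = T * T ^ 4 := by ring
  have b5 : |C ^ 2 / T ^ 5| ≤ T := by
    rw [abs_div, abs_of_pos (by positivity : 0 < T ^ 5), abs_pow, div_le_iff₀ (by positivity)]
    calc |C| ^ 2 ≤ (T ^ 3) ^ 2 := pow_le_pow_left₀ hC0 hC 2
      _ = T * T ^ 5 := by ring
  have b0 : |T| ≤ T := (abs_of_pos h0).le
  have m : ∀ a b : ℝ, |b| ≤ T → |a * b| ≤ |a| * T := fun a b hb => by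
    rw [abs_mul]; exact mul_le_mul_of_nonneg_left hb (abs_nonneg a)
  have m0 := m (p 0) _ b0
  have m1 := m (p 1) _ b1
  have m2 := m (p 2) _ b2
  have m3 := m (p 3) _ b3
  have m4 := m (p 4) _ b4
  have m5 := m (p 5) _ b5
  rw [abs_le] at m0 m1 m2 m3 m4 m5
  have hs : (∑ i, |p i|) * T = |p 0| * T + |p 1| * T + |p 2| * T + |p 3| * T + |p 4| * T +
      |p 5| * T := by
    rw [Fin.sum_univ_six]; ring
  rw [hs, abs_le]
  constructor <;> linarith

/-! ### General families -/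

theorem fam_hasSum {α : Type*} {X : α → V} (hX : ∀ a, Pos (X a))
    (hs : ∑' a, ENNReal.ofReal (tot (X a) / 3) = 1) : HasSum (fun a => tot (X a) / 3) 1 := by
  have hne : ∀ a, ENNReal.ofReal (tot (X a) / 3) ≠ ⊤ := fun a => ENNReal.ofReal_ne_top
  have h1 : Summable (fun a => (ENNReal.ofReal (tot (X a) / 3)).toReal) :=
    ENNReal.summable_toReal (by rw [hs]; exact ENNReal.one_ne_top)
  have h2 : (fun a => (ENNReal.ofReal (tot (X a) / 3)).toReal) = fun a => tot (X a) / 3 := by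
    funext a
    exact ENNReal.toReal_ofReal (div_nonneg (tot_nonneg (hX a)) (by norm_num))
  have h3 := ENNReal.tsum_toReal_eq hne
  rw [hs, h2] at h3
  rw [h2] at h1
  have h4 := h1.hasSum
  rw [← h3] at h4
  simpa using h4

theorem fam_summable {α : Type*} {X : α → V} (hX : ∀ a, Pos (X a))
    (hs : HasSum (fun a => tot (X a) / 3) 1) (p : P6) : Summable (fun a => H p (X a)) := by
  refine Summable.of_norm_bounded (g := fun a => (∑ i, |p i|) * 3 * (tot (X a) / 3))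
    (hs.summable.mul_left _) fun a => ?_
  rw [Real.norm_eq_abs]
  refine (H_abs_le (hX a) p).trans (le_of_eq ?_)
  ring

theorem fam_abs_le {α : Type*} {X : α → V} (hX : ∀ a, Pos (X a))
    (hs : HasSum (fun a => tot (X a) / 3) 1) (p : P6) :
    |(1 / 3) * ∑' a, H p (X a)| ≤ ∑ i, |p i| := by
  have h1 := fam_summable hX hs p
  have h2 : |∑' a, H p (X a)| ≤ ∑' a, |H p (X a)| := by
    have := norm_tsum_le_tsum_norm (f := fun a => H p (X a)) h1.norm
    simpa [Real.norm_eq_abs] using this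
  have h3 : ∑' a, |H p (X a)| ≤ ∑' a, (∑ i, |p i|) * 3 * (tot (X a) / 3) := by
    refine h1.abs.tsum_le_tsum (fun a => ?_) (hs.summable.mul_left _)
    refine (H_abs_le (hX a) p).trans (le_of_eq ?_)
    ring
  rw [tsum_mul_left, hs.tsum_eq, mul_one] at h3
  rw [abs_mul, abs_of_pos (by norm_num : (0 : ℝ) < 1 / 3)]
  linarith

theorem fam_one {α : Type*} {X : α → V} (hs : HasSum (fun a => tot (X a) / 3) 1) :
    (1 / 3) * ∑' a, H ![1, 0, 0, 0, 0, 0] (X a) = 1 := by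
  have h2 := hs.tsum_eq
  rw [tsum_div_const] at h2
  simp only [H_tot]
  linarith

/-! ### Observations -/

theorem pos_L {lam : ℝ} (h0 : -(1 / 2) ≤ lam) (h1 : lam ≤ 1) {off : ℕ → ℝ} (hoff : IsOff off)
    (n : ℕ) (o : Obs 3 n) : Pos (L lam off n o) := fun i => L_nonneg h0 h1 hoff.nonneg n o i

theorem pos_M {lam : ℝ} (h0 : -(1 / 2) ≤ lam) (h1 : lam ≤ 1) {off : ℕ → ℝ} (hoff : IsOff off)
    (n : ℕ) (o : Obs 3 n) : Pos (mvec lam (L lam off n o)) :=
  fun i => mvec_nonneg h0 h1 (pos_L h0 h1 hoff n o) i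

theorem pos_PL {lam : ℝ} (h0 : -(1 / 2) ≤ lam) (h1 : lam ≤ 1) {off : ℕ → ℝ} (hoff : IsOff off)
    (n k : ℕ) (f : Fin k → Obs 3 n) : Pos (PL lam off n k f) :=
  fun i => PL_nonneg h0 h1 hoff.nonneg n k f i

theorem inK1_mvec (lam : ℝ) {x : V} (hx : Pos x) : InK lam 1 (mvec lam x) :=
  ⟨fun _ => x, fun _ i => hx i, by funext i; simp⟩

theorem inK1_M {lam : ℝ} (h0 : -(1 / 2) ≤ lam) (h1 : lam ≤ 1) {off : ℕ → ℝ} (hoff : IsOff off)
    (n : ℕ) (o : Obs 3 n) : InK lam 1 (mvec lam (L lam off n o)) :=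
  inK1_mvec lam (pos_L h0 h1 hoff n o)

theorem sXt {lam : ℝ} (h0 : -(1 / 2) ≤ lam) (h1 : lam ≤ 1) {off : ℕ → ℝ} (hoff : IsOff off)
    (n : ℕ) : HasSum (fun o : Obs 3 n => tot (L lam off n o) / 3) 1 :=
  fam_hasSum (pos_L h0 h1 hoff n) (tsum_tot_L h0 h1 hoff n)

theorem sMt {lam : ℝ} (h0 : -(1 / 2) ≤ lam) (h1 : lam ≤ 1) {off : ℕ → ℝ} (hoff : IsOff off)
    (n : ℕ) : HasSum (fun o : Obs 3 n => tot (mvec lam (L lam off n o)) / 3) 1 := by
  simp only [tot_mvec]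
  exact sXt h0 h1 hoff n

theorem sKt {lam : ℝ} (h0 : -(1 / 2) ≤ lam) (h1 : lam ≤ 1) {off : ℕ → ℝ} (hoff : IsOff off)
    (n k : ℕ) : HasSum (fun f : Fin k → Obs 3 n => tot (PL lam off n k f) / 3) 1 :=
  fam_hasSum (pos_PL h0 h1 hoff n k) (tsum_tot_PL h0 h1 hoff n k)

theorem sX {lam : ℝ} (h0 : -(1 / 2) ≤ lam) (h1 : lam ≤ 1) {off : ℕ → ℝ} (hoff : IsOff off)
    (n : ℕ) (p : P6) : Summable (fun o : Obs 3 n => H p (L lam off n o)) :=
  fam_summable (pos_L h0 h1 hoff n) (sXt h0 h1 hoff n) p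

theorem sM {lam : ℝ} (h0 : -(1 / 2) ≤ lam) (h1 : lam ≤ 1) {off : ℕ → ℝ} (hoff : IsOff off)
    (n : ℕ) (p : P6) : Summable (fun o : Obs 3 n => H p (mvec lam (L lam off n o))) :=
  fam_summable (pos_M h0 h1 hoff n) (sMt h0 h1 hoff n) p

theorem sK {lam : ℝ} (h0 : -(1 / 2) ≤ lam) (h1 : lam ≤ 1) {off : ℕ → ℝ} (hoff : IsOff off)
    (n k : ℕ) (p : P6) : Summable (fun f : Fin k → Obs 3 n => H p (PL lam off n k f)) :=
  fam_summable (pos_PL h0 h1 hoff n k) (sKt h0 h1 hoff n k) p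

/-! ### Linearity -/

theorem EX_add {lam : ℝ} (h0 : -(1 / 2) ≤ lam) (h1 : lam ≤ 1) {off : ℕ → ℝ} (hoff : IsOff off)
    (n : ℕ) (p q : P6) : EX lam off n (H (p + q)) = EX lam off n (H p) + EX lam off n (H q) := by
  simp only [EX, H_add]
  rw [(sX h0 h1 hoff n p).tsum_add (sX h0 h1 hoff n q)]
  ring

theorem EM_add {lam : ℝ} (h0 : -(1 / 2) ≤ lam) (h1 : lam ≤ 1) {off : ℕ → ℝ} (hoff : IsOff off)
    (n : ℕ) (p q : P6) : EM lam off n (H (p + q)) = EM lam off n (H p) + EM lam off n (H q) := by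
  simp only [EM, H_add]
  rw [(sM h0 h1 hoff n p).tsum_add (sM h0 h1 hoff n q)]
  ring

theorem EK_add {lam : ℝ} (h0 : -(1 / 2) ≤ lam) (h1 : lam ≤ 1) {off : ℕ → ℝ} (hoff : IsOff off)
    (n k : ℕ) (p q : P6) :
    EK lam off n k (H (p + q)) = EK lam off n k (H p) + EK lam off n k (H q) := by
  simp only [EK, H_add]
  rw [(sK h0 h1 hoff n k p).tsum_add (sK h0 h1 hoff n k q)]
  ring

theorem EX_smul (lam : ℝ) (off : ℕ → ℝ) (n : ℕ) (c : ℝ) (p : P6) :
    EX lam off n (H (c • p)) = c * EX lam off n (H p) := by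
  simp only [EX, H_smul]
  rw [tsum_mul_left]
  ring

theorem EM_smul (lam : ℝ) (off : ℕ → ℝ) (n : ℕ) (c : ℝ) (p : P6) :
    EM lam off n (H (c • p)) = c * EM lam off n (H p) := by
  simp only [EM, H_smul]
  rw [tsum_mul_left]
  ring

theorem EK_smul (lam : ℝ) (off : ℕ → ℝ) (n k : ℕ) (c : ℝ) (p : P6) :
    EK lam off n k (H (c • p)) = c * EK lam off n k (H p) := by
  simp only [EK, H_smul]
  rw [tsum_mul_left]
  ring

theorem EX_sub {lam : ℝ} (h0 : -(1 / 2) ≤ lam) (h1 : lam ≤ 1) {off : ℕ → ℝ} (hoff : IsOff off)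
    (n : ℕ) (p q : P6) : EX lam off n (H (p - q)) = EX lam off n (H p) - EX lam off n (H q) := by
  have e : p - q = p + (-1 : ℝ) • q := by ext i; simp; ring
  rw [e, EX_add h0 h1 hoff, EX_smul]
  ring

theorem EM_sub {lam : ℝ} (h0 : -(1 / 2) ≤ lam) (h1 : lam ≤ 1) {off : ℕ → ℝ} (hoff : IsOff off)
    (n : ℕ) (p q : P6) : EM lam off n (H (p - q)) = EM lam off n (H p) - EM lam off n (H q) := by
  have e : p - q = p + (-1 : ℝ) • q := by ext i; simp; ring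
  rw [e, EM_add h0 h1 hoff, EM_smul]
  ring

theorem EK_sub {lam : ℝ} (h0 : -(1 / 2) ≤ lam) (h1 : lam ≤ 1) {off : ℕ → ℝ} (hoff : IsOff off)
    (n k : ℕ) (p q : P6) :
    EK lam off n k (H (p - q)) = EK lam off n k (H p) - EK lam off n k (H q) := by
  have e : p - q = p + (-1 : ℝ) • q := by ext i; simp; ring
  rw [e, EK_add h0 h1 hoff, EK_smul]
  ring

theorem EX_zero (lam : ℝ) (off : ℕ → ℝ) (n : ℕ) : EX lam off n (H 0) = 0 := by
  simp [EX, H_zero]

theorem EM_zero (lam : ℝ) (off : ℕ → ℝ) (n : ℕ) : EM lam off n (H 0) = 0 := by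
  simp [EM, H_zero]

theorem EK_zero_fun (lam : ℝ) (off : ℕ → ℝ) (n k : ℕ) : EK lam off n k (H 0) = 0 := by
  simp [EK, H_zero]

/-! ### Normalisation and bounds -/

theorem EX_one {lam : ℝ} (h0 : -(1 / 2) ≤ lam) (h1 : lam ≤ 1) {off : ℕ → ℝ} (hoff : IsOff off)
    (n : ℕ) : EX lam off n (H ![1, 0, 0, 0, 0, 0]) = 1 :=
  fam_one (sXt h0 h1 hoff n)

theorem EM_one {lam : ℝ} (h0 : -(1 / 2) ≤ lam) (h1 : lam ≤ 1) {off : ℕ → ℝ} (hoff : IsOff off)
    (n : ℕ) : EM lam off n (H ![1, 0, 0, 0, 0, 0]) = 1 :=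
  fam_one (sMt h0 h1 hoff n)

theorem EK_one {lam : ℝ} (h0 : -(1 / 2) ≤ lam) (h1 : lam ≤ 1) {off : ℕ → ℝ} (hoff : IsOff off)
    (n k : ℕ) : EK lam off n k (H ![1, 0, 0, 0, 0, 0]) = 1 :=
  fam_one (sKt h0 h1 hoff n k)

theorem EX_abs_le {lam : ℝ} (h0 : -(1 / 2) ≤ lam) (h1 : lam ≤ 1) {off : ℕ → ℝ} (hoff : IsOff off)
    (n : ℕ) (p : P6) : |EX lam off n (H p)| ≤ ∑ i, |p i| :=
  fam_abs_le (pos_L h0 h1 hoff n) (sXt h0 h1 hoff n) p

theorem EM_abs_le {lam : ℝ} (h0 : -(1 / 2) ≤ lam) (h1 : lam ≤ 1) {off : ℕ → ℝ} (hoff : IsOff off)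
    (n : ℕ) (p : P6) : |EM lam off n (H p)| ≤ ∑ i, |p i| :=
  fam_abs_le (pos_M h0 h1 hoff n) (sMt h0 h1 hoff n) p

theorem EK_abs_le {lam : ℝ} (h0 : -(1 / 2) ≤ lam) (h1 : lam ≤ 1) {off : ℕ → ℝ} (hoff : IsOff off)
    (n k : ℕ) (p : P6) : |EK lam off n k (H p)| ≤ ∑ i, |p i| :=
  fam_abs_le (pos_PL h0 h1 hoff n k) (sKt h0 h1 hoff n k) p

theorem EX_mono {lam : ℝ} (h0 : -(1 / 2) ≤ lam) (h1 : lam ≤ 1) {off : ℕ → ℝ} (hoff : IsOff off)
    (n : ℕ) {p q : P6} (h : ∀ x, Pos x → H p x ≤ H q x) :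
    EX lam off n (H p) ≤ EX lam off n (H q) := by
  rw [EX, EX]
  refine mul_le_mul_of_nonneg_left ?_ (by norm_num)
  exact (sX h0 h1 hoff n p).tsum_le_tsum (fun o => h _ (pos_L h0 h1 hoff n o)) (sX h0 h1 hoff n q)

theorem EM_mono {lam : ℝ} (h0 : -(1 / 2) ≤ lam) (h1 : lam ≤ 1) {off : ℕ → ℝ} (hoff : IsOff off)
    (n : ℕ) {p q : P6} (h : ∀ x, InK lam 1 x → H p x ≤ H q x) :
    EM lam off n (H p) ≤ EM lam off n (H q) := by
  rw [EM, EM]
  refine mul_le_mul_of_nonneg_left ?_ (by norm_num)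
  exact (sM h0 h1 hoff n p).tsum_le_tsum (fun o => h _ (inK1_M h0 h1 hoff n o)) (sM h0 h1 hoff n q)

theorem EK_mono {lam : ℝ} (h0 : -(1 / 2) ≤ lam) (h1 : lam ≤ 1) {off : ℕ → ℝ} (hoff : IsOff off)
    (n k : ℕ) {p q : P6} (h : ∀ x, InK lam k x → H p x ≤ H q x) :
    EK lam off n k (H p) ≤ EK lam off n k (H q) := by
  rw [EK, EK]
  refine mul_le_mul_of_nonneg_left ?_ (by norm_num)
  exact (sK h0 h1 hoff n k p).tsum_le_tsum (fun f => h _ (inK_PL h0 h1 hoff.nonneg n k f))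
    (sK h0 h1 hoff n k q)

theorem EX_nonneg {lam : ℝ} (h0 : -(1 / 2) ≤ lam) (h1 : lam ≤ 1) {off : ℕ → ℝ} (hoff : IsOff off)
    (n : ℕ) {p : P6} (h : ∀ x, Pos x → 0 ≤ H p x) : 0 ≤ EX lam off n (H p) := by
  have := EX_mono h0 h1 hoff n (p := 0) (q := p) (fun x hx => by rw [H_zero]; exact h x hx)
  rwa [EX_zero] at this

theorem EM_nonneg {lam : ℝ} (h0 : -(1 / 2) ≤ lam) (h1 : lam ≤ 1) {off : ℕ → ℝ} (hoff : IsOff off)
    (n : ℕ) {p : P6} (h : ∀ x, InK lam 1 x → 0 ≤ H p x) : 0 ≤ EM lam off n (H p) := by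
  have := EM_mono h0 h1 hoff n (p := 0) (q := p) (fun x hx => by rw [H_zero]; exact h x hx)
  rwa [EM_zero] at this

theorem EK_nonneg {lam : ℝ} (h0 : -(1 / 2) ≤ lam) (h1 : lam ≤ 1) {off : ℕ → ℝ} (hoff : IsOff off)
    (n k : ℕ) {p : P6} (h : ∀ x, InK lam k x → 0 ≤ H p x) : 0 ≤ EK lam off n k (H p) := by
  have := EK_mono h0 h1 hoff n k (p := 0) (q := p) (fun x hx => by rw [H_zero]; exact h x hx)
  rwa [EK_zero_fun] at this

/-! ### Recursion -/

theorem EK_zero (lam : ℝ) (off : ℕ → ℝ) (n : ℕ) (p : P6) : EK lam off n 0 (H p) = p 0 := by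
  have h : ∀ f : Fin 0 → Obs 3 n, H p (PL lam off n 0 f) = 3 * p 0 := by
    intro f
    have e : PL lam off n 0 f = fun _ => 1 := by
      funext i; simp [PL]
    rw [e]
    simp only [H, tot, Nh, Ch]
    norm_num
    ring
  rw [EK, tsum_congr h, tsum_fintype]
  simp

theorem EM_eq (lam : ℝ) (off : ℕ → ℝ) (n : ℕ) (p : P6) :
    EM lam off n (H p) = EX lam off n (H (sc lam p)) := by
  simp only [EM, EX, H_mvec]

theorem EX_succ {lam : ℝ} (h0 : -(1 / 2) ≤ lam) (h1 : lam ≤ 1) {off : ℕ → ℝ} (hoff : IsOff off)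
    (n : ℕ) (p : P6) :
    HasSum (fun k => off k * EK lam off n k (H p)) (EX lam off (n + 1) (H p)) := by
  have h2 : HasSum (fun o : (Σ k : ℕ, (Fin k → Obs 3 n)) => H p (L lam off (n + 1) o))
      (∑' o : Obs 3 (n + 1), H p (L lam off (n + 1) o)) := (sX h0 h1 hoff (n + 1) p).hasSum
  have h3 : ∀ k : ℕ, HasSum (fun f : Fin k → Obs 3 n => H p (L lam off (n + 1) ⟨k, f⟩))
      (off k * ∑' f : Fin k → Obs 3 n, H p (PL lam off n k f)) := by
    intro k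
    have e : (fun f : Fin k → Obs 3 n => H p (L lam off (n + 1) ⟨k, f⟩)) =
        fun f => off k * H p (PL lam off n k f) := by
      funext f
      rw [L_succ, H_hom]
    rw [e]
    exact (sK h0 h1 hoff n k p).hasSum.mul_left _
  have h4 := (h2.sigma h3).mul_left (1 / 3)
  have e1 : (fun k => 1 / 3 * (off k * ∑' f : Fin k → Obs 3 n, H p (PL lam off n k f))) =
      fun k => off k * EK lam off n k (H p) := by
    funext k
    rw [EK]; ring
  rw [e1] at h4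
  exact h4

/-! ### One more child -/

theorem hasSum_mul_pair {α β : Type*} {a : α → ℝ} {b : β → ℝ} {A B : ℝ} (ha : HasSum a A)
    (hb : HasSum b B) : HasSum (fun p : α × β => a p.1 * b p.2) (A * B) :=
  ha.mul hb (summable_mul_of_summable_norm ha.summable.norm hb.summable.norm)

theorem PL_snoc (lam : ℝ) (off : ℕ → ℝ) (n k : ℕ) (o : Obs 3 n) (f : Fin k → Obs 3 n) :
    PL lam off n (k + 1) (Fin.snocEquiv (fun _ => Obs 3 n) (o, f)) =
      had (PL lam off n k f) (mvec lam (L lam off n o)) := by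
  funext i
  simp [PL, had, Fin.prod_univ_castSucc, Fin.snocEquiv]

theorem EK_succ_le {lam : ℝ} (h0 : -(1 / 2) ≤ lam) (h1 : lam ≤ 1) {off : ℕ → ℝ}
    (hoff : IsOff off) (n k : ℕ) {b U W g : P6} (h : PW (InK lam k) (InK lam 1) b U W g) :
    EK lam off n (k + 1) (H b) ≤ EK lam off n k (H U) + EM lam off n (H W) +
      EK lam off n k (H g) * EM lam off n (H eN) := by
  have hcard : Fintype.card (Equiv.Perm (Fin 3)) = 6 := by decide
  -- the sum over `k + 1` children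
  have hs1 : HasSum (fun p : Obs 3 n × (Fin k → Obs 3 n) =>
      H b (had (PL lam off n k p.2) (mvec lam (L lam off n p.1))))
      (∑' f : Fin (k + 1) → Obs 3 n, H b (PL lam off n (k + 1) f)) := by
    have h2 := (sK h0 h1 hoff n (k + 1) b).hasSum
    have h3 := (Fin.snocEquiv (fun _ : Fin (k + 1) => Obs 3 n)).hasSum_iff.2 h2
    convert! h3 using 1
    funext p
    obtain ⟨o, f⟩ := p
    show H b (had (PL lam off n k f) (mvec lam (L lam off n o))) =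
      H b (PL lam off n (k + 1) (Fin.snocEquiv (fun _ => Obs 3 n) (o, f)))
    rw [PL_snoc]
  -- relabelling of the last child
  have hs2 : ∀ σ : Equiv.Perm (Fin 3), HasSum (fun p : Obs 3 n × (Fin k → Obs 3 n) =>
      H b (had (PL lam off n k p.2) (perm σ (mvec lam (L lam off n p.1)))))
      (∑' f : Fin (k + 1) → Obs 3 n, H b (PL lam off n (k + 1) f)) := by
    intro σ
    have h3 := ((relab σ⁻¹ n).prodCongr (Equiv.refl (Fin k → Obs 3 n))).hasSum_iff.2 hs1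
    convert! h3 using 1
    funext p
    obtain ⟨o, f⟩ := p
    show H b (had (PL lam off n k f) (perm σ (mvec lam (L lam off n o)))) =
      H b (had (PL lam off n k f) (mvec lam (L lam off n (relab σ⁻¹ n o))))
    rw [L_relab, inv_inv, mvec_perm]
  have hs3 : HasSum (fun p : Obs 3 n × (Fin k → Obs 3 n) =>
      (1 / 6) * ∑ σ : Equiv.Perm (Fin 3),
        H b (had (PL lam off n k p.2) (perm σ (mvec lam (L lam off n p.1)))))
      (∑' f : Fin (k + 1) → Obs 3 n, H b (PL lam off n (k + 1) f)) := by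
    have h4 := (hasSum_sum (s := Finset.univ) fun σ (_ : σ ∈ Finset.univ) => hs2 σ).mul_left
      (1 / 6 : ℝ)
    rw [Finset.sum_const, Finset.card_univ, hcard, nsmul_eq_mul] at h4
    convert! h4 using 1
    push_cast
    ring
  -- the right side
  have t1 := hasSum_mul_pair (sMt h0 h1 hoff n) (sK h0 h1 hoff n k U).hasSum
  have t2 := hasSum_mul_pair (sM h0 h1 hoff n W).hasSum (sKt h0 h1 hoff n k)
  have t3 := (hasSum_mul_pair (sM h0 h1 hoff n eN).hasSum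
    (sK h0 h1 hoff n k g).hasSum).mul_left (1 / 3)
  have hle := hasSum_le (f := fun p : Obs 3 n × (Fin k → Obs 3 n) =>
      (1 / 6) * ∑ σ : Equiv.Perm (Fin 3),
        H b (had (PL lam off n k p.2) (perm σ (mvec lam (L lam off n p.1))))) (fun p => by
    have h5 := h (PL lam off n k p.2) (mvec lam (L lam off n p.1))
      (inK_PL h0 h1 hoff.nonneg n k p.2) (inK1_M h0 h1 hoff n p.1)
    refine h5.trans (le_of_eq ?_)
    show _ = tot (mvec lam (L lam off n p.1)) / 3 * H U (PL lam off n k p.2) +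
      H W (mvec lam (L lam off n p.1)) * (tot (PL lam off n k p.2) / 3) +
      1 / 3 * (H eN (mvec lam (L lam off n p.1)) * H g (PL lam off n k p.2))
    rw [HeN_eq]
    ring) hs3 ((t1.add t2).add t3)
  rw [EK, EK, EK, EM, EM]
  linarith

end Vale.Agent.P154
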