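import Vale.Agent.P154.V2Close
import Vale.Agent.P154.V2Real
import Vale.Agent.P154.V2Xs

/-! The facts used by the closing argument. -/

namespace Vale.Agent.P154

theorem facts {lam : ℝ} (h0 : -(1 / 2) ≤ lam) (h1 : lam ≤ 1) {off : ℕ → ℝ} (hoff : IsOff off) :
    Facts lam off where
  EX_add := fun n p q => EX_add h0 h1 hoff n p q
  EX_smul := fun n c p => EX_smul lam off n c p
  EX_mono := fun n _ _ h => EX_mono h0 h1 hoff n h
  EX_abs := fun n p => EX_abs_le h0 h1 hoff n p
  EX_one := fun n => EX_one h0 h1 hoff n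
  EK_add := fun n k p q => EK_add h0 h1 hoff n k p q
  EK_smul := fun n k c p => EK_smul lam off n k c p
  EK_abs := fun n k p => EK_abs_le h0 h1 hoff n k p
  EM_nonneg := fun n _ h => EM_nonneg h0 h1 hoff n h
  EK_zero := fun n p => EK_zero lam off n p
  EM_eq := fun n p => EM_eq lam off n p
  EX_succ := fun n p => EX_succ h0 h1 hoff n p
  EK_succ_le := fun n k _ _ _ _ h => EK_succ_le h0 h1 hoff n k h
  xs_anti := xs_antitone h0 h1 hoff
  xs_nonneg := fun n => xs_nonneg h0 h1 hoff n
  xs_le_one := fun n => xs_le_one h0 h1 hoff n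
  xs_sq := fun n => xs_sq_le h0 h1 hoff n
  nonreco := nonrec_of_xs h0 h1 hoff

end Vale.Agent.P154
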