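import Vale.Agent.P154.Shared
import Vale.Agent.P154.Avg

/-!
Definitions for the second reduction (potentials with a cubic term, multipliers, real valued
expectations).
-/

namespace Vale.Agent.P154

open scoped BigOperators

/-- coefficients of `1, N, C, N², N C, C²` -/
abbrev P6 := Fin 6 → ℝ

/-- the corresponding function, homogeneous of degree one -/
noncomputable def H (p : P6) (x : V) : ℝ :=
  p 0 * tot x + p 1 * (Nh x / tot x) + p 2 * (Ch x / tot x ^ 2) + p 3 * (Nh x ^ 2 / tot x ^ 3) +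
    p 4 * (Nh x * Ch x / tot x ^ 4) + p 5 * (Ch x ^ 2 / tot x ^ 5)

/-- `N` -/
def eN : P6 := ![0, 1, 0, 0, 0, 0]
/-- `N²` -/
def eNN : P6 := ![0, 0, 0, 1, 0, 0]

/-- effect of the channel on the coefficients -/
def sc (lam : ℝ) (p : P6) : P6 :=
  ![p 0, lam ^ 2 * p 1, lam ^ 3 * p 2, lam ^ 4 * p 3, lam ^ 5 * p 4, lam ^ 6 * p 5]

/-- `E Φ(X_n)`, `X_n` the posterior of the root (the measure `∑_i law i / 3`) -/
noncomputable def EX (lam : ℝ) (off : ℕ → ℝ) (n : ℕ) (Φ : V → ℝ) : ℝ :=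
  (1 / 3) * ∑' o : Obs 3 n, Φ (L lam off n o)

/-- `E Φ(V_n)`, `V_n` the message sent by one child -/
noncomputable def EM (lam : ℝ) (off : ℕ → ℝ) (n : ℕ) (Φ : V → ℝ) : ℝ :=
  (1 / 3) * ∑' o : Obs 3 n, Φ (mvec lam (L lam off n o))

/-- `E Φ` of the product of the messages of `k` children -/
noncomputable def EK (lam : ℝ) (off : ℕ → ℝ) (n k : ℕ) (Φ : V → ℝ) : ℝ :=
  (1 / 3) * ∑' f : Fin k → Obs 3 n, Φ (PL lam off n k f)

/-- pointwise merge inequality `K_β(x, y) ≤ U(x) + W(y) + g(x) N(y)` -/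
def PW (SU SV : V → Prop) (β U W g : P6) : Prop :=
  ∀ x y, SU x → SV y → (1 / 6) * ∑ σ : Equiv.Perm (Fin 3), H β (had x (perm σ y)) ≤
    tot y / 3 * H U x + tot x / 3 * H W y + (1 / 3) * (H g x * (Nh y / tot y))

/-- nonnegative vectors -/
def Pos (x : V) : Prop := ∀ i, 0 ≤ x i

/-- `x_n = E N(X_n)` -/
noncomputable def xs (lam : ℝ) (off : ℕ → ℝ) (n : ℕ) : ℝ := EX lam off n (H eN)

end Vale.Agent.P154
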