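import Vale.Agent.P154.MergeFinal
import Vale.Agent.P154.V2Defs

/-!
Checker for the final inequalities: polynomial inequalities in `s` and `x` (in the simplex).
-/

namespace Vale.Agent.P154

/-! ### values -/

/-- the six monomials `1, N, C, N², N C, C²` -/
def six {R : Type*} [CommRing R] (N C : R) : List R := [1, N, C, N ^ 2, N * C, C ^ 2]

/-- `∑_k s^k * dot row_k f` -/
noncomputable def finR : List (List Int) → ℝ → List ℝ → ℝ
  | [], _, _ => 0
  | r :: M, s, f => dot r f + s * finR M s f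

/-- row `k` = coefficients of `s^k` in front of `1, N, C, N², N C, C²` -/
noncomputable def finV (M : List (List Int)) (s : ℝ) (x : V) : ℝ := finR M s (six (Nh x) (Ch x))

/-- homogenised monomials of degree 6 -/
noncomputable def h6 (S p r : ℝ) : List ℝ :=
  [S ^ 6, nR p r * S ^ 4, cR p r * S ^ 3, nR p r ^ 2 * S ^ 2, nR p r * cR p r * S, cR p r ^ 2]

theorem h6_smul (a S p r : ℝ) : h6 (a * S) (a * p) (a * r) = (h6 S p r).map (fun t => a ^ 6 * t) := by
  have h1 : nR (a * p) (a * r) = a ^ 2 * nR p r := by rw [nR, nR]; ring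
  have h2 : cR (a * p) (a * r) = a ^ 3 * cR p r := by rw [cR, cR]; ring
  simp only [h6, List.map_cons, List.map_nil, h1, h2, List.cons.injEq, and_true]
  refine ⟨?_, ?_, ?_, ?_, ?_, ?_⟩ <;> ring

theorem h6_one (x : V) : h6 1 ((x 0 - x 1) / 2) ((x 1 - x 2) / 2) = six (Nh x) (Ch x) := by
  have h1 : nR ((x 0 - x 1) / 2) ((x 1 - x 2) / 2) = Nh x := by rw [nR, Nh]; ring
  have h2 : cR ((x 0 - x 1) / 2) ((x 1 - x 2) / 2) = Ch x := by rw [cR, Ch]; ring
  simp only [h6, six, h1, h2, one_pow, mul_one]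

theorem finR_map_smul (c : ℝ) (M : List (List Int)) (s : ℝ) (f : List ℝ) :
    finR M s (f.map (fun t => c * t)) = c * finR M s f := by
  induction M with
  | nil => simp [finR]
  | cons r M ih => rw [finR, finR, ih, dot_map_smul]; ring

/-! ### expressions -/

/-- homogenised monomials of degree 6 on a triangle, in the variables `1`, `2` -/
def tri6 (T : Tri) : List PE :=
  let S := linPE 1 T.a.S T.b.S T.c.S
  let p := linPE 1 T.a.p T.b.p T.c.p
  let r := linPE 1 T.a.r T.b.r T.c.r
  let N := nPE p r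
  let C := cPE p r
  [S.pow 6, PE.mul N (S.pow 4), PE.mul C (S.pow 3), PE.mul (PE.mul N N) (S.pow 2),
    PE.mul (PE.mul N C) S, PE.mul C C]

theorem ev_tri6 (ρ : ℕ → ℝ) (T : Tri) :
    (tri6 T).map (PE.ev ρ) = h6 (T.a.S + ρ 1 * T.b.S + ρ 2 * T.c.S)
      (T.a.p + ρ 1 * T.b.p + ρ 2 * T.c.p) (T.a.r + ρ 1 * T.b.r + ρ 2 * T.c.r) := by
  have h1 : ∀ a b c : Int, (linPE 1 a b c).ev ρ = a + ρ 1 * b + ρ 2 * c := by
    intro a b c
    simp only [linPE, PE.ev]; ring
  simp only [tri6, h6, List.map_cons, List.map_nil, PE.ev, PE.ev_pow, nPE, cPE, nR, cR, h1,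
    List.cons.injEq, and_true]
  refine ⟨?_, ?_, ?_, ?_, ?_, ?_⟩ <;> push_cast <;> ring

/-- `w^n * finR M (z/w) f` -/
def hfin (f : List PE) : List (List Int) → Nat → PE → PE → PE
  | [], _, _, _ => PE.c 0
  | r :: M, n, z, w => PE.add (PE.mul (dotPE r f) (PE.pow w n)) (PE.mul z (hfin f M (n - 1) z w))

theorem ev_hfin (ρ : ℕ → ℝ) (f : List PE) (M : List (List Int)) (n : ℕ) (z w : PE)
    (hl : M.length ≤ n + 1) (hw : w.ev ρ ≠ 0) :
    (hfin f M n z w).ev ρ = w.ev ρ ^ n * finR M (z.ev ρ / w.ev ρ) (f.map (PE.ev ρ)) := by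
  induction M generalizing n with
  | nil => simp [hfin, PE.ev, finR]
  | cons r M ih =>
    simp only [hfin, PE.ev, PE.ev_pow, finR, ev_dotPE]
    cases M with
    | nil => simp [hfin, PE.ev, finR]; ring
    | cons b bs =>
      simp only [List.length_cons] at hl
      obtain ⟨n', rfl⟩ : ∃ n', n = n' + 1 := ⟨n - 1, by omega⟩
      rw [Nat.add_sub_cancel, ih n' (by simp only [List.length_cons]; omega)]
      field_simp
      ring

/-! ### certificates -/

inductive FCert where
  | leaf
  | ss (l r : FCert)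
  | st (e : Nat) (l r : FCert)

/-- fixed data: the rows, the maximal power of `s`, the degree bound, the number of bits -/
structure FCfg where
  M : List (List Int)
  n : Nat
  Dd : Nat
  K : Nat

/-- the polynomial of a leaf: `s` between `a / D` and `b / D`, `x` in the triangle `T` -/
def leafPE (c : FCfg) (D a b : Int) (T : Tri) : PE :=
  hfin (tri6 T) c.M c.n (PE.add (PE.c a) (PE.mul (PE.c b) (PE.v 0)))
    (PE.add (PE.c D) (PE.mul (PE.c D) (PE.v 0)))

def FCert.check (c : FCfg) : FCert → Int → Int → Int → Tri → Bool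
  | .leaf, D, a, b, T => PE.check 3 c.Dd c.K (leafPE c D a b T)
  | .ss l r, D, a, b, T => l.check c (Int.add D D) (Int.add a a) (Int.add a b) T &&
      r.check c (Int.add D D) (Int.add a b) (Int.add b b) T
  | .st e l r, D, a, b, T => l.check c D a b (T.left e) && r.check c D a b (T.right e)

theorem check_ss {c : FCfg} {l r : FCert} {D a b : Int} {T : Tri}
    (h1 : l.check c (Int.add D D) (Int.add a a) (Int.add a b) T = true)
    (h2 : r.check c (Int.add D D) (Int.add a b) (Int.add b b) T = true) :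
    (FCert.ss l r).check c D a b T = true := by
  rw [FCert.check, h1, h2]; rfl

theorem check_st {c : FCfg} {e : Nat} {l r : FCert} {D a b : Int} {T : Tri}
    (h1 : l.check c D a b (T.left e) = true) (h2 : r.check c D a b (T.right e) = true) :
    (FCert.st e l r).check c D a b T = true := by
  rw [FCert.check, h1, h2]; rfl

theorem continuous_finR_f (M : List (List Int)) (s : ℝ) (f : List (ℝ → ℝ))
    (hf : ∀ g ∈ f, Continuous g) : Continuous (fun t => finR M s (f.map (fun g => g t))) := by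
  induction M with
  | nil => simp only [finR]; exact continuous_const
  | cons r M ih =>
    simp only [finR]
    exact (continuous_dot r f hf).add (continuous_const.mul ih)

theorem continuous_finR_s (M : List (List Int)) (f : List ℝ) :
    Continuous (fun s => finR M s f) := by
  induction M with
  | nil => simp only [finR]; exact continuous_const
  | cons r M ih =>
    simp only [finR]
    exact continuous_const.add (continuous_id.mul ih)

theorem h6_line (S0 p0 r0 S1 p1 r1 : ℝ) :
    ∃ f : List (ℝ → ℝ), (∀ g ∈ f, Continuous g) ∧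
      ∀ t, h6 (S0 + t * S1) (p0 + t * p1) (r0 + t * r1) = f.map (fun g => g t) := by
  refine ⟨[fun t => (S0 + t * S1) ^ 6,
    fun t => nR (p0 + t * p1) (r0 + t * r1) * (S0 + t * S1) ^ 4,
    fun t => cR (p0 + t * p1) (r0 + t * r1) * (S0 + t * S1) ^ 3,
    fun t => nR (p0 + t * p1) (r0 + t * r1) ^ 2 * (S0 + t * S1) ^ 2,
    fun t => nR (p0 + t * p1) (r0 + t * r1) * cR (p0 + t * p1) (r0 + t * r1) * (S0 + t * S1),
    fun t => cR (p0 + t * p1) (r0 + t * r1) ^ 2], ?_, ?_⟩
  · intro g hg
    simp only [List.mem_cons, List.not_mem_nil, or_false] at hg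
    rcases hg with rfl | rfl | rfl | rfl | rfl | rfl
    · fun_prop
    · simp only [nR]; fun_prop
    · simp only [cR]; fun_prop
    · simp only [nR]; fun_prop
    · simp only [nR, cR]; fun_prop
    · simp only [cR]; fun_prop
  · intro t
    rfl

theorem leaf_sound {c : FCfg} (hn : c.M.length ≤ c.n + 1) {D a b : Int} (hD : 0 < D)
    (hab : a < b) {T : Tri} (h : PE.check 3 c.Dd c.K (leafPE c D a b T) = true) {s : ℝ}
    (h1 : (a : ℝ) ≤ D * s) (h2 : D * s ≤ b) {S p r : ℝ} (hT : InTri T S p r) :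
    0 ≤ finR c.M s (h6 S p r) := by
  have hD' : (0 : ℝ) < D := by exact_mod_cast hD
  have hab' : (a : ℝ) < b := by exact_mod_cast hab
  -- interior points
  have key : ∀ s : ℝ, (a : ℝ) ≤ D * s → D * s < b → ∀ α β γ : ℝ, 0 < α → 0 ≤ β → 0 ≤ γ →
      0 ≤ finR c.M s (h6 (α * T.a.S + β * T.b.S + γ * T.c.S)
        (α * T.a.p + β * T.b.p + γ * T.c.p) (α * T.a.r + β * T.b.r + γ * T.c.r)) := by
    intro s hs1 hs2 α β γ hα hβ hγ
    obtain ⟨ρ, hρ⟩ : ∃ ρ : ℕ → ℝ, ρ = (fun n => if n = 0 then (D * s - a) / (b - D * s) else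
      if n = 1 then β / α else γ / α) := ⟨_, rfl⟩
    have hbs : 0 < b - D * s := by linarith
    have hρ0 : ∀ i, 0 ≤ ρ i := by
      intro i
      rw [hρ]
      simp only
      split
      · exact div_nonneg (by linarith) hbs.le
      · split
        · positivity
        · positivity
    have r0 : ρ 0 = (D * s - a) / (b - D * s) := by rw [hρ]; simp
    have r1 : ρ 1 = β / α := by rw [hρ]; simp
    have r2 : ρ 2 = γ / α := by rw [hρ]; simp
    have h0 := PE.nonneg_of_check h ρ hρ0
    have hz : (PE.add (PE.c a) (PE.mul (PE.c b) (PE.v 0))).ev ρ =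
        s * (D * (b - a) / (b - D * s)) := by
      simp only [PE.ev, r0]; field_simp; ring
    have hw : (PE.add (PE.c D) (PE.mul (PE.c D) (PE.v 0))).ev ρ = D * (b - a) / (b - D * s) := by
      simp only [PE.ev, r0]; field_simp; ring
    have hwpos : 0 < (D : ℝ) * (b - a) / (b - D * s) := by
      apply div_pos _ hbs
      exact mul_pos hD' (by linarith)
    rw [leafPE, ev_hfin ρ (tri6 T) c.M c.n _ _ hn (by rw [hw]; exact hwpos.ne'), hw, hz,
      mul_div_cancel_right₀ _ hwpos.ne', ev_tri6, r1, r2] at h0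
    have h3 : 0 ≤ finR c.M s (h6 (T.a.S + β / α * T.b.S + γ / α * T.c.S)
      (T.a.p + β / α * T.b.p + γ / α * T.c.p) (T.a.r + β / α * T.b.r + γ / α * T.c.r)) := by
      by_contra hneg
      rw [not_le] at hneg
      have := mul_neg_of_pos_of_neg (pow_pos hwpos c.n) hneg
      linarith
    have e1 : ∀ (a b c : ℝ), α * a + β * b + γ * c = α * (a + β / α * b + γ / α * c) := by
      intro a b c
      field_simp
    rw [e1 T.a.S T.b.S T.c.S, e1 T.a.p T.b.p T.c.p, e1 T.a.r T.b.r T.c.r, h6_smul, finR_map_smul]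
    exact mul_nonneg (by positivity) h3
  -- boundary of the triangle
  obtain ⟨α, β, γ, hα, hβ, hγ, rfl, rfl, rfl⟩ := hT
  have step1 : ∀ s : ℝ, (a : ℝ) ≤ D * s → D * s < b →
      0 ≤ finR c.M s (h6 (α * T.a.S + β * T.b.S + γ * T.c.S)
        (α * T.a.p + β * T.b.p + γ * T.c.p) (α * T.a.r + β * T.b.r + γ * T.c.r)) := by
    intro s hs1 hs2
    obtain ⟨f, hf, hft⟩ := h6_line (α * T.a.S + β * T.b.S + γ * T.c.S)
      (α * T.a.p + β * T.b.p + γ * T.c.p) (α * T.a.r + β * T.b.r + γ * T.c.r) T.a.S T.a.p T.a.r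
    have hc := continuous_finR_f c.M s f hf
    have h2 := nonneg_of_pos hc (fun t ht => by
      rw [← hft t]
      have := key s hs1 hs2 (α + t) β γ (by linarith) hβ hγ
      have e : ∀ a b c : ℝ, (α + t) * a + β * b + γ * c = α * a + β * b + γ * c + t * a := by
        intro a b c; ring
      rw [e, e, e] at this
      exact this)
    rw [← hft 0] at h2
    simpa using h2
  -- right end of the interval
  rcases h2.lt_or_eq with h2' | h2'
  · exact step1 s h1 h2'
  · have hc := (continuous_finR_s c.M (h6 (α * T.a.S + β * T.b.S + γ * T.c.S)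
        (α * T.a.p + β * T.b.p + γ * T.c.p) (α * T.a.r + β * T.b.r + γ * T.c.r))).comp
      (continuous_const.sub (continuous_id.mul continuous_const) :
        Continuous fun t : ℝ => s - t * ((b - a) / D))
    have hc2 : Filter.Tendsto (fun t : ℝ => finR c.M (s - t * ((b - a) / D))
        (h6 (α * T.a.S + β * T.b.S + γ * T.c.S)
        (α * T.a.p + β * T.b.p + γ * T.c.p) (α * T.a.r + β * T.b.r + γ * T.c.r)))
        (nhdsWithin 0 (Set.Ioi 0)) (nhds (finR c.M (s - 0 * ((b - a) / D))
        (h6 (α * T.a.S + β * T.b.S + γ * T.c.S)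
        (α * T.a.p + β * T.b.p + γ * T.c.p) (α * T.a.r + β * T.b.r + γ * T.c.r)))) :=
      (hc.tendsto 0).mono_left nhdsWithin_le_nhds
    have e0 : s - 0 * (((b : ℝ) - a) / D) = s := by ring
    rw [e0] at hc2
    refine ge_of_tendsto hc2 ?_
    have hev : ∀ᶠ t : ℝ in nhdsWithin 0 (Set.Ioi 0), t < 1 :=
      nhdsWithin_le_nhds (gt_mem_nhds one_pos)
    filter_upwards [hev, self_mem_nhdsWithin] with t ht1 ht0
    have ht0' : 0 < t := ht0
    have e1 : (D : ℝ) * (s - t * ((b - a) / D)) = b - t * (b - a) := by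
      rw [mul_sub, h2']
      field_simp
    apply step1
    · rw [e1]
      nlinarith
    · rw [e1]
      have := mul_pos ht0' (show (0 : ℝ) < b - a by linarith)
      linarith

theorem FCert.check_sound {c : FCfg} (hn : c.M.length ≤ c.n + 1) (C : FCert) {D a b : Int}
    (hD : 0 < D) (hab : a < b) {T : Tri} (h : C.check c D a b T = true) {s : ℝ}
    (h1 : (a : ℝ) ≤ D * s) (h2 : D * s ≤ b) {x : V} (hx : InTriV T x) : 0 ≤ finV c.M s x := by
  induction C generalizing D a b T with
  | leaf =>
    rw [finV, ← h6_one]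
    exact leaf_sound hn hD hab h h1 h2 hx
  | ss l r ihl ihr =>
    rw [FCert.check, Bool.and_eq_true] at h
    have e1 : Int.add D D = D + D := rfl
    have e2 : Int.add a a = a + a := rfl
    have e3 : Int.add a b = a + b := rfl
    have e4 : Int.add b b = b + b := rfl
    rw [e1, e2, e3, e4] at h
    rcases le_total (2 * (D * s)) ((a : ℝ) + b) with h3 | h3
    · refine ihl (by omega) (by omega) h.1 ?_ ?_ hx
      · push_cast; linarith
      · push_cast; linarith
    · refine ihr (by omega) (by omega) h.2 ?_ ?_ hx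
      · push_cast; linarith
      · push_cast; linarith
  | st e l r ihl ihr =>
    rw [FCert.check, Bool.and_eq_true] at h
    rcases inTri_split e hx with h3 | h3
    · exact ihl hD hab h.1 h1 h2 h3
    · exact ihr hD hab h.2 h1 h2 h3

theorem finV_perm (M : List (List Int)) (s : ℝ) (σ : Equiv.Perm (Fin 3)) (x : V) :
    finV M s (perm σ x) = finV M s x := by
  rw [finV, finV, Nh_perm, Ch_perm]

/-- the final inequality on the whole simplex -/
theorem fin_nonneg {c : FCfg} (hn : c.M.length ≤ c.n + 1) (C : FCert) {D a b : Int}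
    (hD : 0 < D) (hab : a < b) (h : C.check c D a b (baseTri 1 1) = true) (s : ℝ) (x : V)
    (h1 : (a : ℝ) ≤ D * s) (h2 : D * s ≤ b) (hx : Pos x) (ht : tot x = 1) :
    0 ≤ finV c.M s x := by
  obtain ⟨σ, hσ0, hσ1⟩ := exists_sort x
  have hs : Srt (perm σ x) := ⟨by rw [tot_perm, ht], hσ0, hσ1⟩
  have hb : InTriV (baseTri 1 1) (perm σ x) := by
    refine inTri_base one_pos one_pos hs ?_
    have : 0 ≤ perm σ x 2 := hx (σ 2)
    push_cast
    linarith
  rw [← finV_perm c.M s σ x]
  exact FCert.check_sound hn C hD hab h h1 h2 hb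

/-- `H p` on the simplex -/
theorem H_of_tot_one (p : P6) {x : V} (ht : tot x = 1) :
    H p x = p 0 + p 1 * Nh x + p 2 * Ch x + p 3 * Nh x ^ 2 + p 4 * (Nh x * Ch x) +
      p 5 * Ch x ^ 2 := by
  rw [H, ht]; ring

end Vale.Agent.P154
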