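import Vale.Agent.P154.V2Sound
import Vale.Agent.P154.V2Fin
import Vale.Agent.P154.V2Facts
import Vale.Agent.P154.V2Convex

/-!
Data of the brackets: definitions and checks (all vectors are lists of integers over a common
denominator `Q`).
-/

namespace Vale.Agent.P154

/-- the vector `l / Q` -/
noncomputable def vec (Q : Int) (l : List Int) : P6 := fun i => ((l.getD i.val 0 : Int) : ℝ) / Q

def Par2.bL (P : Par2) : List Int := [0, P.b1, P.b2, Int.add P.b3 P.b5, P.c5, P.d5]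
def Par2.uL (P : Par2) : List Int := [P.U0, P.U1, P.U2, P.U3, P.U4, P.U5]
def Par2.wL (P : Par2) : List Int := [P.W0, P.W1, P.W2, P.W3, P.W4, P.W5]
def Par2.gL (P : Par2) : List Int := [P.g0, P.g1, P.g2, P.g3, P.g4, P.g5]

/-- equality of integers, fast in the kernel -/
def ieq (a b : Int) : Bool :=
  match Int.sub a b with
  | .ofNat n => Nat.beq n 0
  | .negSucc _ => false

def leqL : List Int → List Int → Bool
  | [], [] => true
  | a :: as, b :: bs => ieq a b && leqL as bs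
  | _, _ => false

/-- `a x + b y` -/
def lcL (a : Int) (x : List Int) (b : Int) (y : List Int) : List Int :=
  [Int.add (Int.mul a (x.getD 0 0)) (Int.mul b (y.getD 0 0)),
   Int.add (Int.mul a (x.getD 1 0)) (Int.mul b (y.getD 1 0)),
   Int.add (Int.mul a (x.getD 2 0)) (Int.mul b (y.getD 2 0)),
   Int.add (Int.mul a (x.getD 3 0)) (Int.mul b (y.getD 3 0)),
   Int.add (Int.mul a (x.getD 4 0)) (Int.mul b (y.getD 4 0)),
   Int.add (Int.mul a (x.getD 5 0)) (Int.mul b (y.getD 5 0))]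

/-- rows of `s ↦ H (sc s h)` -/
def hRows (h : List Int) : List (List Int) :=
  [[h.getD 0 0], [], [0, h.getD 1 0], [0, 0, h.getD 2 0], [0, 0, 0, h.getD 3 0],
   [0, 0, 0, 0, h.getD 4 0], [0, 0, 0, 0, 0, h.getD 5 0]]

/-- Rows of `A Q (s² (P + mu N - dl - e N²) - mm - H(sc s h1) - τ s² … )`, that is
`s² (P + mu N - dl - e N²) - mm - H (sc s (h1 + τ (h0 - h1)))` times `A Q`, where
`τ = (B/A) / s²` (Poisson, `r = 0`) or `τ = (B/A) (1/s² - 1)` (regular, `r = B`). The vectors `P`,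
`h1`, `h0` and the numbers `mu`, `mm`, `dl`, `e` are multiplied by `Q`. -/
def finRows (A B r mu mm dl e : Int) (P h1 h0 : List Int) : List (List Int) :=
  let f := fun i : Nat => Int.sub (h0.getD i 0) (h1.getD i 0)
  let k := fun i : Nat => Int.sub (Int.mul r (f i)) (Int.mul A (h1.getD i 0))
  [[Int.neg (Int.mul A mm), Int.neg (Int.mul B (f 1))],
   [0, 0, Int.neg (Int.mul B (f 2))],
   [Int.mul A (Int.sub (P.getD 0 0) dl), Int.add (Int.mul A (Int.add (P.getD 1 0) mu)) (k 1),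
     Int.mul A (P.getD 2 0), Int.sub (Int.mul A (Int.sub (P.getD 3 0) e)) (Int.mul B (f 3)),
     Int.mul A (P.getD 4 0), Int.mul A (P.getD 5 0)],
   [0, 0, k 2, 0, Int.neg (Int.mul B (f 4))],
   [0, 0, 0, k 3, 0, Int.neg (Int.mul B (f 5))],
   [0, 0, 0, 0, k 4],
   [0, 0, 0, 0, 0, k 5]]

/-! ### brackets `[m_lo, ∞)`, constant potentials -/

/-- `P = c1.bL`, `P - l D = c0.bL`, `l = en/ed`, lower end `mn/md`, multiplier `-mu/Q`
(`mm = mu * mn / md`), decrease `dl/Q`; `g ≤ 0`. -/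
structure HiBr where
  c1 : Cfg2
  c0 : Cfg2
  D : List Int
  en : Int
  ed : Int
  mn : Int
  md : Int
  mu : Int
  mm : Int
  dl : Int

def pos? (a : Int) : Bool :=
  match a with
  | .ofNat n => Nat.blt 0 n
  | .negSucc _ => false

def nn? (a : Int) : Bool :=
  match a with
  | .ofNat _ => true
  | .negSucc _ => false

/-- linear relations -/
def HiBr.ok (b : HiBr) : Bool :=
  ieq b.c1.P.Q b.c0.P.Q && pos? b.c1.P.Q && pos? b.en && pos? b.ed && pos? b.mn && pos? b.md &&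
  nn? b.mu && pos? b.dl && ieq (Int.mul b.md b.mm) (Int.mul b.mn b.mu) &&
  ieq b.c1.P.W0 0 && ieq b.c0.P.W0 0 &&
  leqL (lcL b.en b.D 0 []) (lcL b.ed b.c1.P.bL (Int.neg b.ed) b.c0.P.bL) &&
  leqL (lcL b.md b.c1.P.uL b.mn b.c1.P.gL) (lcL b.md b.c1.P.bL (Int.neg b.md) b.D) &&
  leqL (lcL b.md b.c0.P.uL b.mn b.c0.P.gL) (lcL b.md b.c0.P.bL (Int.neg b.md) b.D)

/-- final inequality; multiplier `-mu`, so the term `- mm` becomes `+ mm` -/
def HiBr.fin (b : HiBr) (reg : Bool) (K : Nat) : FCfg :=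
  ⟨finRows (Int.mul 2 b.en) b.ed (if reg then b.ed else 0) (Int.neg b.mu) (Int.neg b.mm) b.dl 0
    b.c1.P.bL b.c1.P.wL b.c0.P.wL, 6, 12, K⟩

/-! ### brackets `[0, m0]`, `l = en/ed`, `m0 = mn/md`, `θ` between `tan/tad` and `tbn/tbd` -/

/-- vertices: `z` (`m = 0`), `a1`, `a0` (`θ_a`; `P` and `P - l D`), `b1`, `b0` (`θ_b`);
`L = l m0 g`; `e/Q` = slack in front of `N²` -/
structure LoBr where
  z : Cfg2
  a1 : Cfg2
  a0 : Cfg2
  b1 : Cfg2
  b0 : Cfg2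
  L : List Int
  en : Int
  ed : Int
  mn : Int
  md : Int
  tan : Int
  tad : Int
  tbn : Int
  tbd : Int
  e : Int

/-- the last three entries -/
def tail3 (l : List Int) : List Int := [0, 0, 0, l.getD 3 0, l.getD 4 0, l.getD 5 0]

def LoBr.ok (b : LoBr) : Bool :=
  let Q := b.z.P.Q
  let g := b.z.P.gL
  let one : List Int := [0, Q, 0, 0, 0, 0]
  let Ta := Int.sub (b.a1.P.b2) 0
  let Tb := Int.sub (b.b1.P.b2) 0
  pos? Q && ieq Q b.a1.P.Q && ieq Q b.a0.P.Q && ieq Q b.b1.P.Q && ieq Q b.b0.P.Q &&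
  pos? b.en && pos? b.ed && pos? b.mn && pos? b.md && pos? b.tad && pos? b.tbd && pos? b.e &&
  leqL g b.a1.P.gL && leqL g b.a0.P.gL && leqL g b.b1.P.gL && leqL g b.b0.P.gL &&
  ieq b.z.P.g0 0 && ieq b.z.P.g1 0 &&
  leqL (lcL (Int.mul b.ed b.md) b.L 0 []) (lcL (Int.mul b.en b.mn) g 0 []) &&
  ieq (Int.mul (Int.mul b.tad b.md) Ta) (Int.mul (Int.mul b.tan b.mn) b.z.P.g2) &&
  ieq (Int.mul (Int.mul b.tbd b.md) Tb) (Int.mul (Int.mul b.tbn b.mn) b.z.P.g2) &&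
  -- U = output potential
  leqL b.z.P.uL b.z.P.bL && leqL b.a1.P.uL b.a1.P.bL && leqL b.a0.P.uL b.a0.P.bL &&
  leqL b.b1.P.uL b.b1.P.bL && leqL b.b0.P.uL b.b0.P.bL &&
  -- shapes
  leqL b.z.P.bL (lcL 1 one 1 (tail3 b.z.P.bL)) && leqL b.z.P.wL (lcL 1 one 1 (tail3 b.z.P.wL)) &&
  leqL b.a1.P.bL (lcL 1 [0, Q, Ta] 1 (tail3 b.a1.P.bL)) &&
  leqL b.b1.P.bL (lcL 1 [0, Q, Tb] 1 (tail3 b.a1.P.bL)) &&
  leqL b.a0.P.bL (lcL 1 b.a1.P.bL 1 b.L) && leqL b.b0.P.bL (lcL 1 b.b1.P.bL 1 b.L) &&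
  leqL b.a1.P.wL (lcL 1 [0, Q, Ta] 1 (tail3 b.a1.P.wL)) &&
  leqL b.b1.P.wL (lcL 1 [0, Q, Tb] 1 (tail3 b.a1.P.wL)) &&
  leqL b.a0.P.wL (lcL 1 [0, Q, Int.add Ta (b.L.getD 2 0)] 1 (tail3 b.a0.P.wL)) &&
  leqL b.b0.P.wL (lcL 1 [0, Q, Int.add Tb (b.L.getD 2 0)] 1 (tail3 b.a0.P.wL))

/-- final inequality at `m = 0` -/
def LoBr.fin0 (b : LoBr) (K : Nat) : FCfg :=
  ⟨finRows (Int.mul 2 b.en) b.ed 0 0 0 0 b.e (tail3 b.z.P.bL) (tail3 b.z.P.wL) (tail3 b.z.P.wL),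
    6, 12, K⟩

/-- final inequality at `m = m0` -/
def LoBr.fin1 (b : LoBr) (reg : Bool) (K : Nat) : FCfg :=
  ⟨finRows (Int.mul 2 b.en) b.ed (if reg then b.ed else 0) 0 0 0 b.e (tail3 b.a1.P.bL)
    (tail3 b.a1.P.wL) (tail3 b.a0.P.wL), 6, 12, K⟩

/-! ### brackets `[ma, mb]`, affine potentials, the same `g` at both ends -/

structure MiBr where
  a1 : Cfg2
  a0 : Cfg2
  b1 : Cfg2
  b0 : Cfg2
  Da : List Int
  Db : List Int
  en : Int
  ed : Int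
  man : Int
  mad : Int
  mbn : Int
  mbd : Int
  mua : Int
  mma : Int
  mub : Int
  mmb : Int
  dl : Int

def MiBr.ok (b : MiBr) : Bool :=
  let Q := b.a1.P.Q
  pos? Q && ieq Q b.a0.P.Q && ieq Q b.b1.P.Q && ieq Q b.b0.P.Q &&
  pos? b.en && pos? b.ed && nn? b.man && pos? b.mad && pos? b.mbn && pos? b.mbd && pos? b.dl &&
  pos? (Int.sub (Int.mul b.mbn b.mad) (Int.mul b.man b.mbd)) && nn? (Int.sub b.mub b.mua) &&
  ieq (Int.mul b.mad b.mma) (Int.mul b.man b.mua) &&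
  ieq (Int.mul b.mbd b.mmb) (Int.mul b.mbn b.mub) &&
  ieq b.a1.P.W0 0 && ieq b.a0.P.W0 0 && ieq b.b1.P.W0 0 && ieq b.b0.P.W0 0 &&
  leqL b.a1.P.gL b.b1.P.gL && leqL b.a0.P.gL b.b0.P.gL &&
  leqL (lcL b.en b.Da 0 []) (lcL b.ed b.a1.P.bL (Int.neg b.ed) b.a0.P.bL) &&
  leqL (lcL b.en b.Db 0 []) (lcL b.ed b.b1.P.bL (Int.neg b.ed) b.b0.P.bL) &&
  leqL (lcL b.mad b.a1.P.uL b.man b.a1.P.gL) (lcL b.mad b.a1.P.bL (Int.neg b.mad) b.Da) &&
  leqL (lcL b.mad b.a0.P.uL b.man b.a0.P.gL) (lcL b.mad b.a0.P.bL (Int.neg b.mad) b.Da) &&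
  leqL (lcL b.mbd b.b1.P.uL b.mbn b.b1.P.gL) (lcL b.mbd b.b1.P.bL (Int.neg b.mbd) b.Db) &&
  leqL (lcL b.mbd b.b0.P.uL b.mbn b.b0.P.gL) (lcL b.mbd b.b0.P.bL (Int.neg b.mbd) b.Db)

/-- final inequality at the lower end -/
def MiBr.fina (b : MiBr) (reg : Bool) (K : Nat) : FCfg :=
  ⟨finRows (Int.mul 2 b.en) b.ed (if reg then b.ed else 0) b.mua b.mma b.dl 0
    b.a1.P.bL b.a1.P.wL b.a0.P.wL, 6, 12, K⟩

/-- final inequality at the upper end -/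
def MiBr.finb (b : MiBr) (reg : Bool) (K : Nat) : FCfg :=
  ⟨finRows (Int.mul 2 b.en) b.ed (if reg then b.ed else 0) b.mub b.mmb b.dl 0
    b.b1.P.bL b.b1.P.wL b.b0.P.wL, 6, 12, K⟩

/-- positivity of `H h` on messages with `|λ|` in the interval of the certificate -/
def hFin (h : List Int) (K : Nat) : FCfg := ⟨hRows h, 6, 12, K⟩

/-- positivity of `H g` on nonnegative vectors -/
def gFin (g : List Int) (K : Nat) : FCfg := ⟨[g], 0, 6, K⟩

end Vale.Agent.P154
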