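import Vale.Agent.P154.V2Brk

/-!
Data of the brackets with a chain of potentials: regular trees (one potential per child) and Poisson
trees (potentials piecewise linear in time).
-/

namespace Vale.Agent.P154

/-- coefficient `j` of the list shifted by `e` -/
def shiftD (p : List Int) (k e : Nat) : Int :=
  match Nat.ble e k with
  | true => p.getD (Nat.sub k e) 0
  | false => 0

/-- row `k` of `p(s) * H (sc s v) / s²` (`v 0 = 0`) -/
def termRow (p v : List Int) (k : Nat) : List Int :=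
  [0, Int.mul (shiftD p k 0) (v.getD 1 0), Int.mul (shiftD p k 1) (v.getD 2 0),
    Int.mul (shiftD p k 2) (v.getD 3 0), Int.mul (shiftD p k 3) (v.getD 4 0),
    Int.mul (shiftD p k 4) (v.getD 5 0)]

def subRow (x y : List Int) : List Int :=
  [Int.sub (x.getD 0 0) (y.getD 0 0), Int.sub (x.getD 1 0) (y.getD 1 0),
   Int.sub (x.getD 2 0) (y.getD 2 0), Int.sub (x.getD 3 0) (y.getD 3 0),
   Int.sub (x.getD 4 0) (y.getD 4 0), Int.sub (x.getD 5 0) (y.getD 5 0)]

def subTerms (k : Nat) : List Int → List (List Int × List Int) → List Int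
  | x, [] => x
  | x, (p, v) :: ts => subTerms k (subRow x (termRow p v k)) ts

/-- Rows of `S Q (s² (P + mu N - dl) - mm) - Q ∑ p(s) H (sc s v) / s²` (the vectors `P`, `v` and the
numbers `mu`, `mm`, `dl` are multiplied by `Q`); 9 rows, so `p` has degree at most `4`. -/
def rowsG (S mu mm dl : Int) (P : List Int) (ts : List (List Int × List Int)) : List (List Int) :=
  [subTerms 0 [Int.neg (Int.mul S mm)] ts, subTerms 1 [] ts,
   subTerms 2 [Int.mul S (Int.sub (P.getD 0 0) dl), Int.mul S (Int.add (P.getD 1 0) mu),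
     Int.mul S (P.getD 2 0), Int.mul S (P.getD 3 0), Int.mul S (P.getD 4 0),
     Int.mul S (P.getD 5 0)] ts,
   subTerms 3 [] ts, subTerms 4 [] ts, subTerms 5 [] ts, subTerms 6 [] ts, subTerms 7 [] ts,
   subTerms 8 [] ts]

/-! ### regular trees: potentials `B_1, …, B_d` -/

/-- `U = prev - (mn/md) g` -/
def linkOK (mn md : Int) (Q : Int) (prev : List Int) (c : Cfg2) : Bool :=
  ieq c.P.Q Q && ieq c.P.W0 0 &&
  leqL (lcL md c.P.uL mn c.P.gL) (lcL md prev 0 [])

/-- the links of a chain; the output potential of one merge is the input of the next one -/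
def chainOK (mn md Q : Int) : List Int → List Cfg2 → Bool
  | _, [] => true
  | prev, c :: cs => linkOK mn md Q prev c && chainOK mn md Q c.P.bL cs

def lastB : List Int → List Cfg2 → List Int
  | prev, [] => prev
  | _, c :: cs => lastB c.P.bL cs

/-- `B_1 + ∑ h_k` -/
def sumW : List Int → List Cfg2 → List Int
  | acc, [] => acc
  | acc, c :: cs => sumW (lcL 1 acc 1 c.P.wL) cs

def sameG : List Cfg2 → List Cfg2 → Bool
  | [], [] => true
  | a :: as, b :: bs => leqL a.P.gL b.P.gL && sameG as bs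
  | _, _ => false

/-- constant potentials, `g ≤ 0`, `m ≥ mn/md`; multiplier `-mu/Q`. The tree has
`cs.length + 1` children per vertex. -/
structure RHi where
  Q : Int
  B : List Int
  cs : List Cfg2
  mn : Int
  md : Int
  mu : Int
  mm : Int
  dl : Int

def RHi.ok (b : RHi) : Bool :=
  pos? b.Q && pos? b.mn && pos? b.md && nn? b.mu && pos? b.dl &&
  ieq (Int.mul b.md b.mm) (Int.mul b.mn b.mu) && ieq (b.B.getD 0 0) 0 &&
  Nat.beq b.B.length 6 && chainOK b.mn b.md b.Q b.B b.cs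

def RHi.fin (b : RHi) (K : Nat) : FCfg :=
  ⟨rowsG 1 (Int.neg b.mu) (Int.neg b.mm) b.dl (lastB b.B b.cs) [([0, 0, 0, 0, 1], sumW b.B b.cs)],
    8, 14, K⟩

/-- affine potentials on `[man/mad, mbn/mbd]`, the same `g` at both ends -/
structure RMi where
  Q : Int
  Ba : List Int
  ca : List Cfg2
  Bb : List Int
  cb : List Cfg2
  man : Int
  mad : Int
  mbn : Int
  mbd : Int
  mua : Int
  mma : Int
  mub : Int
  mmb : Int
  dl : Int

def RMi.ok (b : RMi) : Bool :=
  pos? b.Q && nn? b.man && pos? b.mad && pos? b.mbn && pos? b.mbd && pos? b.dl &&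
  pos? (Int.sub (Int.mul b.mbn b.mad) (Int.mul b.man b.mbd)) && nn? (Int.sub b.mub b.mua) &&
  ieq (Int.mul b.mad b.mma) (Int.mul b.man b.mua) &&
  ieq (Int.mul b.mbd b.mmb) (Int.mul b.mbn b.mub) &&
  ieq (b.Ba.getD 0 0) 0 && ieq (b.Bb.getD 0 0) 0 &&
  Nat.beq b.Ba.length 6 && Nat.beq b.Bb.length 6 && sameG b.ca b.cb &&
  chainOK b.man b.mad b.Q b.Ba b.ca && chainOK b.mbn b.mbd b.Q b.Bb b.cb

def RMi.fina (b : RMi) (K : Nat) : FCfg :=
  ⟨rowsG 1 b.mua b.mma b.dl (lastB b.Ba b.ca) [([0, 0, 0, 0, 1], sumW b.Ba b.ca)], 8, 14, K⟩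

def RMi.finb (b : RMi) (K : Nat) : FCfg :=
  ⟨rowsG 1 b.mub b.mmb b.dl (lastB b.Bb b.cb) [([0, 0, 0, 0, 1], sumW b.Bb b.cb)], 8, 14, K⟩

/-! ### Poisson trees: potentials piecewise linear in time -/

/-- One piece of time, at one value of `m`: `c0` at the end closer to the root (time to go `T_j`),
`c1` at the other end (time to go `T_{j+1} = n / z`), `D` the slope (times `Q`):
`P_j - P_{j+1} = (T_{j+1} - T_j) D`, `U = P - D - m g` for both. -/
structure Piece where
  c0 : Cfg2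
  c1 : Cfg2
  D : List Int
  n : Int

/-- relations of a piece that begins at time `n0 / z` -/
def pieceOK (z mn md Q n0 : Int) (p : Piece) : Bool :=
  ieq p.c0.P.Q Q && ieq p.c1.P.Q Q && ieq p.c0.P.W0 0 && ieq p.c1.P.W0 0 &&
  pos? (Int.sub p.n n0) &&
  leqL (lcL (Int.sub p.n n0) p.D 0 []) (lcL z p.c0.P.bL (Int.neg z) p.c1.P.bL) &&
  leqL (lcL md p.c0.P.uL mn p.c0.P.gL) (lcL md p.c0.P.bL (Int.neg md) p.D) &&
  leqL (lcL md p.c1.P.uL mn p.c1.P.gL) (lcL md p.c1.P.bL (Int.neg md) p.D)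

/-- consecutive pieces; `prev` = potential at the beginning -/
def piecesOK (z mn md Q : Int) : Int → List Int → List Piece → Bool
  | _, _, [] => true
  | n0, prev, p :: ps =>
    pieceOK z mn md Q n0 p && leqL p.c0.P.bL prev && piecesOK z mn md Q p.n p.c1.P.bL ps

/-- the terms of `2 z² (n_J - n_{J-1}) s² ∫_0^{1/s²} H (sc s h_τ) dτ`, where `n_{J-1} / z` and
`n_J / z` are the last two nodes; `dn = n_J - n_{J-1}` -/
def pieceTerms (z dn : Int) : Int → List Piece → List (List Int × List Int)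
  | _, [] => []
  | n0, [p] =>
    let a := Int.mul 2 (Int.mul z dn)
    -- `(1 - T s²) s²` in front of `h_a`, `(1 - T s²)²` in front of `h_b - h_a`, `T = n0 / z`
    [([0, 0, Int.mul a z, 0, Int.neg (Int.mul a n0)], p.c0.P.wL),
     ([Int.mul z (Int.mul z z), 0, Int.neg (Int.mul 2 (Int.mul (Int.mul z z) n0)), 0,
        Int.mul z (Int.mul n0 n0)], lcL 1 p.c1.P.wL (-1) p.c0.P.wL)]
  | n0, p :: ps =>
    ([0, 0, 0, 0, Int.mul (Int.mul z dn) (Int.sub p.n n0)], lcL 1 p.c0.P.wL 1 p.c1.P.wL) ::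
      pieceTerms z dn p.n ps

/-- the last two nodes -/
def lastDn : Int → List Piece → Int
  | _, [] => 1
  | n0, [p] => Int.sub p.n n0
  | _, p :: ps => lastDn p.n ps

def lastN : Int → List Piece → Int
  | n0, [] => n0
  | _, p :: ps => lastN p.n ps

def samePG : List Piece → List Piece → Bool
  | [], [] => true
  | a :: as, b :: bs => leqL a.c0.P.gL b.c0.P.gL && leqL a.c1.P.gL b.c1.P.gL &&
      ieq a.n b.n && samePG as bs
  | _, _ => false

/-- final rows at one value of `m` -/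
def pieceRows (z mu mm dl : Int) (P : List Int) (ps : List Piece) : List (List Int) :=
  let dn := lastDn 0 ps
  rowsG (Int.mul 2 (Int.mul (Int.mul z z) dn)) mu mm dl P (pieceTerms z dn 0 ps)

/-- constant potentials, `g ≤ 0` -/
structure PHi where
  Q : Int
  z : Int
  P : List Int
  ps : List Piece
  mn : Int
  md : Int
  mu : Int
  mm : Int
  dl : Int

def PHi.ok (b : PHi) : Bool :=
  pos? b.Q && pos? b.z && pos? b.mn && pos? b.md && nn? b.mu && pos? b.dl &&
  ieq (Int.mul b.md b.mm) (Int.mul b.mn b.mu) && ieq (b.P.getD 0 0) 0 &&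
  Nat.beq b.P.length 6 && Nat.blt 0 b.ps.length && piecesOK b.z b.mn b.md b.Q 0 b.P b.ps

def PHi.fin (b : PHi) (K : Nat) : FCfg :=
  ⟨pieceRows b.z (Int.neg b.mu) (Int.neg b.mm) b.dl b.P b.ps, 8, 14, K⟩

/-- affine potentials on `[man/mad, mbn/mbd]`, the same `g` at both ends -/
structure PMi where
  Q : Int
  z : Int
  Pa : List Int
  pa : List Piece
  Pb : List Int
  pb : List Piece
  man : Int
  mad : Int
  mbn : Int
  mbd : Int
  mua : Int
  mma : Int
  mub : Int
  mmb : Int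
  dl : Int

def PMi.ok (b : PMi) : Bool :=
  pos? b.Q && pos? b.z && nn? b.man && pos? b.mad && pos? b.mbn && pos? b.mbd && pos? b.dl &&
  pos? (Int.sub (Int.mul b.mbn b.mad) (Int.mul b.man b.mbd)) && nn? (Int.sub b.mub b.mua) &&
  ieq (Int.mul b.mad b.mma) (Int.mul b.man b.mua) &&
  ieq (Int.mul b.mbd b.mmb) (Int.mul b.mbn b.mub) &&
  ieq (b.Pa.getD 0 0) 0 && ieq (b.Pb.getD 0 0) 0 &&
  Nat.beq b.Pa.length 6 && Nat.beq b.Pb.length 6 && Nat.blt 0 b.pa.length && samePG b.pa b.pb &&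
  piecesOK b.z b.man b.mad b.Q 0 b.Pa b.pa && piecesOK b.z b.mbn b.mbd b.Q 0 b.Pb b.pb

def PMi.fina (b : PMi) (K : Nat) : FCfg :=
  ⟨pieceRows b.z b.mua b.mma b.dl b.Pa b.pa, 8, 14, K⟩

def PMi.finb (b : PMi) (K : Nat) : FCfg :=
  ⟨pieceRows b.z b.mub b.mmb b.dl b.Pb b.pb, 8, 14, K⟩

end Vale.Agent.P154
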