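import Vale.Agent.P154.V2RowsG

/-!
Brackets with a chain of potentials, regular trees.
-/

namespace Vale.Agent.P154

open Filter Topology
open scoped BigOperators

/-- one child -/
theorem EK_one_child (lam : ℝ) (off : ℕ → ℝ) (n : ℕ) (Φ : V → ℝ) :
    EK lam off n 1 Φ = EM lam off n Φ := by
  rw [EK, EM]
  congr 1
  rw [← (Equiv.funUnique (Fin 1) (Obs 3 n)).symm.tsum_eq]
  refine tsum_congr fun o => ?_
  congr 1
  funext i
  simp [PL]

/-- links: `(β, h, g)` -/
abbrev Lk := P6 × P6 × P6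

/-- the merge inequalities of a chain -/
def RChain (lam m : ℝ) : P6 → List Lk → Prop
  | _, [] => True
  | prev, c :: cs => PW Pos (InK lam 1) c.1 (prev - m • c.2.2) c.2.1 c.2.2 ∧
      RChain lam m c.1 cs

def rlast : P6 → List Lk → P6
  | prev, [] => prev
  | _, c :: cs => rlast c.1 cs

noncomputable def rsum : P6 → List Lk → P6
  | acc, [] => acc
  | acc, c :: cs => rsum (acc + c.2.1) cs

theorem chain_step {lam : ℝ} {off : ℕ → ℝ} (F : Facts lam off) (h0 : -(1 / 2) ≤ lam)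
    (h1 : lam ≤ 1) {n : ℕ} {m : ℝ} (hm : m = lam ^ 2 * xs lam off n) (cs : List Lk) (B acc : P6)
    (h : RChain lam m B cs) (k : ℕ) :
    EK lam off n (k + cs.length) (H (rlast B cs)) + EM lam off n (H acc) ≤
      EK lam off n k (H B) + EM lam off n (H (rsum acc cs)) := by
  induction cs generalizing B acc k with
  | nil => simp [rlast, rsum]
  | cons c cs ih =>
    have h2 := ih c.1 (acc + c.2.1) h.2 (k + 1)
    have e : c.1 - (c.1 - B) - m • c.2.2 = B - m • c.2.2 := by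
      rw [sub_sub_cancel]
    have h3 := Facts.step1 F h0 h1 n (P := c.1) (D := c.1 - B) hm (by rw [e]; exact h.1) k
    rw [F.EK_sub, F.EM_add] at *
    rw [List.length_cons, rlast, rsum, show k + (cs.length + 1) = k + 1 + cs.length by ring]
    linarith

/-- the closing argument for a chain of potentials -/
theorem chain_regular {lam : ℝ} {d : ℕ} (hlam : lam ≠ 0) (h0 : -(1 / 2) ≤ lam) (h1 : lam ≤ 1)
    (F : Facts lam (regular d)) {mlo mhi delta : ℝ} (hdel : 0 < delta) {B : ℝ → P6}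
    {cs : ℝ → List Lk} (hlen : ∀ m ∈ Set.Icc mlo mhi, (cs m).length + 1 = d)
    (hcont : ContinuousOn (fun m => rlast (B m) (cs m)) (Set.Icc mlo mhi))
    (hchain : ∀ m ∈ Set.Icc mlo mhi, RChain lam m (B m) (cs m))
    (hcl : ∀ m ∈ Set.Icc mlo mhi, ∃ mu : ℝ, ∀ x, Pos x → H (sc lam (rsum (B m) (cs m))) x ≤
      H (rlast (B m) (cs m)) x + mu * (H eN x - (m / lam ^ 2) * tot x) - delta * m ^ 2 * tot x)
    (hm : ∃ n0 : ℕ, ∀ n, n0 ≤ n → lam ^ 2 * xs lam (regular d) n ∈ Set.Icc mlo mhi) :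
    Tendsto (xs lam (regular d)) atTop (𝓝 0) := by
  obtain ⟨n0, hm⟩ := hm
  refine F.xs_tendsto hlam hdel hcont hm fun n hn => ?_
  obtain ⟨m, hmdef⟩ : ∃ m : ℝ, m = lam ^ 2 * xs lam (regular d) n := ⟨_, rfl⟩
  have hmm := hm n hn
  rw [← hmdef] at hmm ⊢
  have s := chain_step F h0 h1 hmdef (cs m) (B m) (B m) (hchain m hmm) 1
  rw [EK_one_child] at s
  rw [show 1 + (cs m).length = d by rw [← hlen m hmm]; ring] at s
  have hsum : EX lam (regular d) (n + 1) (H (rlast (B m) (cs m))) =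
      EK lam (regular d) n d (H (rlast (B m) (cs m))) := by
    rw [← (F.EX_succ n _).tsum_eq, tsum_eq_single d]
    · simp [regular]
    · intro k hk; simp [regular, hk]
  rw [hsum]
  obtain ⟨mu, hmu⟩ := hcl m hmm
  have e2 := F.EX_mono n (sc lam (rsum (B m) (cs m)))
    (rlast (B m) (cs m) + mu • (eN - (m / lam ^ 2) • ![1, 0, 0, 0, 0, 0]) -
      (delta * m ^ 2) • ![1, 0, 0, 0, 0, 0]) (by
      intro x hx
      rw [H_sub, H_add, H_smul, H_sub, H_smul, H_tot, H_smul, H_tot]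
      exact hmu x hx)
  rw [← F.EM_eq, F.EX_sub, F.EX_add, F.EX_smul, F.EX_sub, F.EX_smul, F.EX_one, F.EX_smul,
    F.EX_one] at e2
  have hl2 : lam ^ 2 ≠ 0 := pow_ne_zero 2 hlam
  have e3 : m / lam ^ 2 = xs lam (regular d) n := by
    rw [hmdef]; field_simp
  rw [e3] at e2
  have hx : EX lam (regular d) n (H eN) = xs lam (regular d) n := rfl
  rw [hx] at e2
  linarith

/-! ### the integer data -/

noncomputable def Cfg2.lk (c : Cfg2) : Lk := (c.P.beta, c.P.Wr, c.P.gr)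

theorem link_rel {mn md Q : Int} {prev : List Int} {c : Cfg2} (h : linkOK mn md Q prev c = true) :
    c.P.Q = Q ∧ c.P.W0 = 0 ∧
      (md : ℝ) • c.P.Ur + (mn : ℝ) • c.P.gr = (md : ℝ) • vec Q prev := by
  simp only [linkOK, Bool.and_eq_true] at h
  obtain ⟨⟨h1, h2⟩, h3⟩ := h
  have q := ieq_sound h1
  refine ⟨q, ieq_sound h2, ?_⟩
  have e := congrArg (vec Q) (leqL_sound h3)
  rw [vec_lcL, vec_lcL, vec_nil] at e
  rw [Par2.Ur_eq, Par2.gr_eq, q, e]
  simp

theorem lastB_vec {mn md Q : Int} (cs : List Cfg2) (prev : List Int)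
    (h : chainOK mn md Q prev cs = true) :
    vec Q (lastB prev cs) = rlast (vec Q prev) (cs.map Cfg2.lk) := by
  induction cs generalizing prev with
  | nil => rfl
  | cons c cs ih =>
    rw [chainOK, Bool.and_eq_true] at h
    rw [lastB, List.map_cons, rlast, ih _ h.2]
    obtain ⟨q, -, -⟩ := link_rel h.1
    have e : vec Q c.P.bL = c.lk.1 := by
      show _ = c.P.beta
      rw [Par2.beta_eq, q]
    rw [e]

theorem sumW_vec {mn md Q : Int} (cs : List Cfg2) (prev acc : List Int)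
    (h : chainOK mn md Q prev cs = true) :
    vec Q (sumW acc cs) = rsum (vec Q acc) (cs.map Cfg2.lk) := by
  induction cs generalizing prev acc with
  | nil => rfl
  | cons c cs ih =>
    rw [chainOK, Bool.and_eq_true] at h
    rw [sumW, List.map_cons, rsum, ih _ _ h.2]
    obtain ⟨q, -, -⟩ := link_rel h.1
    have e : vec Q (lcL 1 acc 1 c.P.wL) = vec Q acc + c.lk.2.1 := by
      rw [vec_lcL]
      show _ = _ + c.P.Wr
      rw [Par2.Wr_eq, q]
      simp
    rw [e]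

theorem sumW_zero {mn md Q : Int} (cs : List Cfg2) (prev acc : List Int)
    (h : chainOK mn md Q prev cs = true) (ha : acc.getD 0 0 = 0) :
    (sumW acc cs).getD 0 0 = 0 := by
  induction cs generalizing prev acc with
  | nil => exact ha
  | cons c cs ih =>
    rw [chainOK, Bool.and_eq_true] at h
    rw [sumW]
    refine ih _ _ h.2 ?_
    obtain ⟨-, w, -⟩ := link_rel h.1
    have e1 : ∀ a b : Int, Int.add a b = a + b := fun _ _ => rfl
    have e2 : ∀ a b : Int, Int.mul a b = a * b := fun _ _ => rfl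
    simp only [lcL, List.getD_cons_zero, e1, e2, ha, Par2.wL, w]
    norm_num

/-! ### constant potentials -/

structure RHi.Rel (b : RHi) : Prop where
  hQ : 0 < b.Q
  hmn : 0 < b.mn
  hmd : 0 < b.md
  hmu : 0 ≤ b.mu
  hdl : 0 < b.dl
  hmm : b.md * b.mm = b.mn * b.mu
  B0 : b.B.getD 0 0 = 0
  chain : chainOK b.mn b.md b.Q b.B b.cs = true

theorem RHi.rel {b : RHi} (h : b.ok = true) : b.Rel := by
  simp only [RHi.ok, Bool.and_eq_true] at h
  obtain ⟨⟨⟨⟨⟨⟨⟨⟨h1, h2⟩, h3⟩, h4⟩, h5⟩, h6⟩, h7⟩, -⟩, h9⟩ := h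
  exact ⟨pos?_sound h1, pos?_sound h2, pos?_sound h3, nn?_sound h4, pos?_sound h5, ieq_sound h6,
    ieq_sound h7, h9⟩

/-- the certified facts -/
structure RHi.Fact (b : RHi) (lam : ℝ) : Prop where
  ok : b.ok = true
  pw : ∀ c ∈ b.cs, PW Pos (InK lam 1) c.P.beta c.P.Ur c.P.Wr c.P.gr
  g : ∀ c ∈ b.cs, ∀ x, Pos x → H c.P.gr x ≤ 0
  fin : ∀ x, Pos x → H (sc lam (vec b.Q (sumW b.B b.cs))) x ≤
    H (vec b.Q (lastB b.B b.cs)) x - (b.mu / b.Q : ℝ) * H eN x +
      (b.mm / b.Q : ℝ) / lam ^ 2 * tot x - (b.dl / b.Q : ℝ) * tot x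

/-- the final inequality with one term -/
theorem fin_one {Q mu mm dl : Int} {P W : List Int} {K : ℕ} {C : FCert} {D a b : Int}
    (hQ : 0 < Q) (hD : 0 < D) (hab : a < b)
    (hC : C.check ⟨rowsG 1 mu mm dl P [([0, 0, 0, 0, 1], W)], 8, 14, K⟩ D a b (baseTri 1 1) = true)
    {lam : ℝ} (hlam : lam ≠ 0) (ha : (a : ℝ) ≤ D * lam) (hb : D * lam ≤ b)
    (hW : W.getD 0 0 = 0) {x : V} (hx : Pos x) :
    H (sc lam (vec Q W)) x ≤ H (vec Q P) x + (mu / Q : ℝ) * H eN x -
      (mm / Q : ℝ) / lam ^ 2 * tot x - (dl / Q : ℝ) * tot x := by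
  have h := finalG hQ one_pos hD hab hC hlam ha hb (by
    intro t ht
    rw [List.mem_singleton] at ht
    subst ht
    exact ⟨by simp, hW⟩) hx
  have e : 1 / (((1 : Int) : ℝ) * lam ^ 4) * H (termSum Q lam [([0, 0, 0, 0, 1], W)]) x =
      H (sc lam (vec Q W)) x := by
    rw [termSum, termSum, H_add, H_smul, H_zero]
    have : pl [0, 0, 0, 0, 1] lam = lam ^ 4 := by simp [pl]
    rw [this]
    have hl4 : lam ^ 4 ≠ 0 := pow_ne_zero 4 hlam
    push_cast
    field_simp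
    ring
  rwa [e] at h

/-- from the checks to the facts -/
theorem RHi.fact {b : RHi} (hok : b.ok = true) {lam : ℝ} (hlam : lam ≠ 0)
    (hpw : ∀ c ∈ b.cs, PW Pos (InK lam 1) c.P.beta c.P.Ur c.P.Wr c.P.gr)
    (hg : ∀ c ∈ b.cs, ∀ x, Pos x → H c.P.gr x ≤ 0)
    {K : ℕ} {C : FCert} {D a d : Int} (hD : 0 < D) (had : a < d)
    (hfin : C.check (b.fin K) D a d (baseTri 1 1) = true)
    (ha : (a : ℝ) ≤ D * lam) (hd : D * lam ≤ d) : b.Fact lam := by
  have R := RHi.rel hok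
  refine ⟨hok, hpw, hg, fun x hx => ?_⟩
  have h := fin_one R.hQ hD had hfin hlam ha hd (sumW_zero _ _ _ R.chain R.B0) hx
  rw [neg_cast, neg_cast] at h
  refine h.trans (le_of_eq ?_)
  ring

/-- the sign of `g` from a certificate -/
theorem g_nonpos {P : Par2} (hQ : 0 < P.Q) {K : ℕ} {C : FCert}
    (hC : C.check (gFin (P.gL.map Int.neg) K) 1 0 1 (baseTri 1 1) = true) :
    ∀ x, Pos x → H P.gr x ≤ 0 := by
  intro x hx
  have h := gpos hQ (by simp [Par2.gL]) hC hx
  rw [vec_neg, H_neg, ← Par2.gr_eq] at h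
  linarith

theorem hi_chain {lam : ℝ} (h0 : -(1 / 2) ≤ lam) (h1 : lam ≤ 1) {mn md Q : Int} (hmd : 0 < md)
    {m : ℝ} (hm : (mn : ℝ) / md ≤ m) (cs : List Cfg2) (prev : List Int)
    (h : chainOK mn md Q prev cs = true)
    (hpw : ∀ c ∈ cs, PW Pos (InK lam 1) c.P.beta c.P.Ur c.P.Wr c.P.gr)
    (hg : ∀ c ∈ cs, ∀ x, Pos x → H c.P.gr x ≤ 0) :
    RChain lam m (vec Q prev) (cs.map Cfg2.lk) := by
  induction cs generalizing prev with
  | nil => trivial
  | cons c cs ih =>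
    rw [chainOK, Bool.and_eq_true] at h
    obtain ⟨q, -, r⟩ := link_rel h.1
    have hmd' : (0 : ℝ) < md := by exact_mod_cast hmd
    refine ⟨?_, ?_⟩
    · show PW Pos (InK lam 1) c.P.beta (vec Q prev - m • c.P.gr) c.P.Wr c.P.gr
      refine PW_mono_U (hpw c List.mem_cons_self) (fun x hx => ?_)
        (fun y hy => Facts.inK_pos h0 h1 hy)
      have u : c.P.Ur = vec Q prev - ((mn : ℝ) / md) • c.P.gr := by
        funext i
        have e := congrFun r i
        simp only [Pi.smul_apply, Pi.sub_apply, Pi.add_apply, smul_eq_mul] at e ⊢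
        field_simp
        linarith
      rw [u, H_sub, H_sub, H_smul, H_smul]
      have := mul_le_mul_of_nonpos_right hm (hg c List.mem_cons_self x hx)
      linarith
    · have e : c.lk.1 = vec Q c.P.bL := by
        show c.P.beta = _
        rw [Par2.beta_eq, q]
      show RChain lam m c.lk.1 (cs.map Cfg2.lk)
      rw [e]
      exact ih _ h.2 (fun c hc => hpw c (List.mem_cons_of_mem _ hc))
        (fun c hc => hg c (List.mem_cons_of_mem _ hc))

/-- Regular tree with `cs.length + 1` children: the sequence cannot stay in the bracket unless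
it tends to zero. -/
theorem RHi.Fact.regular {b : RHi} {lam : ℝ} {d : ℕ} (hd : b.cs.length + 1 = d) (hlam : lam ≠ 0)
    (h0 : -(1 / 2) ≤ lam) (h1 : lam ≤ 1) (hf : b.Fact lam) (F : Facts lam (regular d)) {mhi : ℝ}
    (hmhi : mhi ≤ 1) (hm : ∃ n0 : ℕ, ∀ n, n0 ≤ n →
      lam ^ 2 * xs lam (regular d) n ∈ Set.Icc ((b.mn : ℝ) / b.md) mhi) :
    Tendsto (xs lam (regular d)) atTop (𝓝 0) := by
  have R := RHi.rel hf.ok
  have hQ : (0 : ℝ) < b.Q := by exact_mod_cast R.hQ
  have hmn : (0 : ℝ) < b.mn := by exact_mod_cast R.hmn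
  have hmd : (0 : ℝ) < b.md := by exact_mod_cast R.hmd
  have hmu : (0 : ℝ) ≤ b.mu := by exact_mod_cast R.hmu
  have hdl : (0 : ℝ) < b.dl := by exact_mod_cast R.hdl
  have hmm : (b.md : ℝ) * b.mm = b.mn * b.mu := by exact_mod_cast R.hmm
  have hl2 : 0 < lam ^ 2 := by positivity
  refine chain_regular hlam h0 h1 F (mlo := (b.mn : ℝ) / b.md) (mhi := mhi)
    (delta := (b.dl : ℝ) / b.Q) (by positivity) (B := fun _ => vec b.Q b.B)
    (cs := fun _ => b.cs.map Cfg2.lk) (fun m _ => by rw [List.length_map]; exact hd)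
    continuousOn_const
    (fun m hm => hi_chain h0 h1 R.hmd hm.1 b.cs b.B R.chain hf.pw hf.g) (fun m hm' => ?_) hm
  refine ⟨-(b.mu / b.Q : ℝ), fun x hx => ?_⟩
  rw [← sumW_vec b.cs b.B b.B R.chain, ← lastB_vec b.cs b.B R.chain]
  refine (hf.fin x hx).trans ?_
  have ht : 0 ≤ tot x := Cvx.tot_nn hx
  have hm0 : 0 ≤ m := le_trans (by positivity) hm'.1
  have i2 := dl_sq (show 0 ≤ (b.dl / b.Q : ℝ) by positivity) hm0 (hm'.2.trans hmhi) ht
  have i1 : (b.mm / b.Q : ℝ) / lam ^ 2 * tot x ≤ (b.mu / b.Q : ℝ) * (m / lam ^ 2) * tot x := by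
    refine mul_le_mul_of_nonneg_right ?_ ht
    have e1 : (b.mm : ℝ) = b.mu * (b.mn / b.md) := by
      field_simp
      linarith
    rw [e1]
    have e2 : (b.mu : ℝ) * (b.mn / b.md) / b.Q / lam ^ 2 =
        (b.mu / b.Q) * ((b.mn / b.md) / lam ^ 2) := by ring
    rw [e2]
    exact mul_le_mul_of_nonneg_left (div_le_div_of_nonneg_right hm'.1 hl2.le) (by positivity)
  linarith

end Vale.Agent.P154
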