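import Vale.Agent.P154.KS

/-!
Weights for the merge steps: from the two families of step inequalities to a bound on
`E e(K)` for `K` Poisson, and on `e d` for the `d`-ary tree.
-/

namespace Vale.Agent.P154

open scoped BigOperators
open Filter Topology

namespace W

/-- `r`-interpolated step inequality, telescoped: the regular tree. -/
theorem regular_le {e D : ℕ → ℝ} {l H0 H1 : ℝ} (he : e 0 = 0) (hD : D 0 = 0) (hl : 0 < l)
    (h1 : ∀ k, e (k + 1) ≤ e k - D k + H1)
    (h0 : ∀ k, e (k + 1) - l * D (k + 1) ≤ e k - l * D k - D k + H0)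
    (d : ℕ) (hd : (d : ℝ) - 1 ≤ l) :
    e d ≤ d * H1 + d * (d - 1) / (2 * l) * (H0 - H1) := by
  have key : ∀ k : ℕ, k ≤ d → e k - (d - k) * D k ≤
      k * H1 + ((k : ℝ) * (d - 1) - k * (k - 1) / 2) / l * (H0 - H1) := by
    intro k
    induction k with
    | zero => intro _; simp [he, hD]
    | succ k ih =>
      intro hk
      have ih' := ih (by omega)
      have hkd : (k : ℝ) + 1 ≤ d := by exact_mod_cast hk
      set r : ℝ := (d : ℝ) - 1 - k with hr
      have hr0 : 0 ≤ r := by rw [hr]; linarith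
      have hrl : r ≤ l := by
        have : (0 : ℝ) ≤ k := Nat.cast_nonneg k
        rw [hr]; linarith
      have a1 := h1 k
      have a0 := h0 k
      have c1 : 0 ≤ 1 - r / l := by
        rw [sub_nonneg, div_le_one hl]; exact hrl
      have c0 : 0 ≤ r / l := div_nonneg hr0 hl.le
      have b1 := mul_le_mul_of_nonneg_left a1 c1
      have b0 := mul_le_mul_of_nonneg_left a0 c0
      have hrl' : r / l * l = r := div_mul_cancel₀ r hl.ne'
      have e1 : e (k + 1) - r * D (k + 1) ≤ e k - (r + 1) * D k + H1 + r / l * (H0 - H1) := by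
        have x1 : (1 - r / l) * e (k + 1) + r / l * (e (k + 1) - l * D (k + 1)) =
            e (k + 1) - r * D (k + 1) := by
          calc _ = e (k + 1) - (r / l * l) * D (k + 1) := by ring
            _ = _ := by rw [hrl']
        have x2 : (1 - r / l) * (e k - D k + H1) + r / l * (e k - l * D k - D k + H0) =
            e k - (r + 1) * D k + H1 + r / l * (H0 - H1) := by
          calc _ = e k - (r / l * l + 1) * D k + H1 + r / l * (H0 - H1) := by ring
            _ = _ := by rw [hrl']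
        linarith
      have e2 : e (k + 1) - ((d : ℝ) - ((k + 1 : ℕ) : ℝ)) * D (k + 1) =
          e (k + 1) - r * D (k + 1) := by rw [hr]; push_cast; ring
      have e3 : e k - (r + 1) * D k = e k - ((d : ℝ) - k) * D k := by rw [hr]; ring
      rw [e2]
      have e4 : (((k + 1 : ℕ) : ℝ)) * H1 +
          ((((k + 1 : ℕ) : ℝ)) * (d - 1) - (((k + 1 : ℕ) : ℝ)) * ((((k + 1 : ℕ) : ℝ)) - 1) / 2) / l
            * (H0 - H1) =
          (k * H1 + ((k : ℝ) * (d - 1) - k * (k - 1) / 2) / l * (H0 - H1)) +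
            (H1 + r / l * (H0 - H1)) := by
        rw [hr]; push_cast; field_simp; ring
      rw [e4]
      linarith
  have := key d le_rfl
  have h2 : e d - ((d : ℝ) - d) * D d = e d := by ring
  rw [h2] at this
  refine this.trans_eq ?_
  field_simp
  ring

/-- tails of the Poisson weights -/
noncomputable def Q (d : ℝ) (n : ℕ) : ℝ := ∑' k, poisson d (k + n)

variable {d : ℝ}

theorem p_nonneg (hd : 0 ≤ d) (k : ℕ) : 0 ≤ poisson d k := by
  rw [poisson]; positivity

theorem summ (hd : 0 ≤ d) : Summable (poisson d) := (isOff_poisson hd).sum.summable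

theorem summ' (hd : 0 ≤ d) (n : ℕ) : Summable fun k => poisson d (k + n) :=
  (summable_nat_add_iff n).2 (summ hd)

theorem p_succ (k : ℕ) : ((k : ℝ) + 1) * poisson d (k + 1) = d * poisson d k := by
  simp only [poisson, Nat.factorial_succ]
  have : ((k.factorial : ℕ) : ℝ) ≠ 0 := by exact_mod_cast Nat.factorial_ne_zero k
  have h : ((k : ℝ) + 1) ≠ 0 := by positivity
  push_cast
  field_simp
  ring

theorem Q_zero (hd : 0 ≤ d) : Q d 0 = 1 := by
  have := (isOff_poisson hd).sum.tsum_eq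
  simpa [Q] using this

theorem Q_nonneg (hd : 0 ≤ d) (n : ℕ) : 0 ≤ Q d n := tsum_nonneg fun _ => p_nonneg hd _

theorem Q_succ (hd : 0 ≤ d) (n : ℕ) : Q d n = poisson d n + Q d (n + 1) := by
  unfold Q
  rw [(summ' hd n).tsum_eq_zero_add]
  simp only [zero_add]
  congr 1
  refine tsum_congr fun k => ?_
  rw [show k + 1 + n = k + (n + 1) by ring]

theorem Q_le (hd : 0 ≤ d) (n : ℕ) : ((n : ℝ) + 1) * Q d (n + 1) ≤ d * Q d n := by
  unfold Q
  rw [← tsum_mul_left, ← tsum_mul_left]
  refine Summable.tsum_le_tsum (fun k => ?_) ((summ' hd (n + 1)).mul_left _)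
    ((summ' hd n).mul_left _)
  have h := p_succ (d := d) (k + n)
  rw [show k + (n + 1) = k + n + 1 by ring]
  refine le_trans ?_ h.le
  refine mul_le_mul_of_nonneg_right ?_ (p_nonneg hd _)
  push_cast
  have : (0 : ℝ) ≤ k := Nat.cast_nonneg k
  linarith

theorem Q_tendsto (_hd : 0 ≤ d) : Tendsto (Q d) atTop (𝓝 0) :=
  tendsto_sum_nat_add (poisson d)

/-- `n Q_n → 0` (shifted) -/
theorem nQ_tendsto (hd : 0 ≤ d) : Tendsto (fun n : ℕ => ((n : ℝ) + 1) * Q d (n + 1)) atTop (𝓝 0) := by
  refine squeeze_zero (fun n => ?_) (fun n => Q_le hd n) ?_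
  · have := Q_nonneg hd (n + 1); positivity
  · simpa using (Q_tendsto hd).const_mul d

theorem nnQ_tendsto (hd : 0 ≤ d) :
    Tendsto (fun n : ℕ => ((n : ℝ) + 1) * (((n : ℝ) + 2) * Q d (n + 2))) atTop (𝓝 0) := by
  refine squeeze_zero (fun n => ?_) (g := fun n : ℕ => d * (((n : ℝ) + 1) * Q d (n + 1)))
    (fun n => ?_) ?_
  · have := Q_nonneg hd (n + 2); positivity
  · have h := Q_le hd (n + 1)
    have h' : ((n : ℝ) + 2) * Q d (n + 2) ≤ d * Q d (n + 1) := by
      have e1 : (((n + 1 : ℕ) : ℝ) + 1) = (n : ℝ) + 2 := by push_cast; ring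
      rw [e1] at h
      exact h
    calc ((n : ℝ) + 1) * (((n : ℝ) + 2) * Q d (n + 2)) ≤ ((n : ℝ) + 1) * (d * Q d (n + 1)) :=
          mul_le_mul_of_nonneg_left h' (by positivity)
      _ = _ := by ring
  · simpa using (nQ_tendsto hd).const_mul d

/-- `R_n = E (K - n)^+`, `R_n = d Q_n - n Q_{n+1}` -/
noncomputable def R (d : ℝ) (n : ℕ) : ℝ := d * Q d n - n * Q d (n + 1)

theorem R_succ (hd : 0 ≤ d) (n : ℕ) : R d n = R d (n + 1) + Q d (n + 1) := by
  have a := Q_succ hd n
  have b := Q_succ hd (n + 1)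
  have c := p_succ (d := d) n
  have b' : poisson d (n + 1) = Q d (n + 1) - Q d (n + 1 + 1) := by linarith
  have a' : poisson d n = Q d n - Q d (n + 1) := by linarith
  rw [b', a'] at c
  unfold R
  push_cast
  nlinarith [c]

theorem R_zero (hd : 0 ≤ d) : R d 0 = d := by simp [R, Q_zero hd]

theorem R_tendsto (hd : 0 ≤ d) : Tendsto (R d) atTop (𝓝 0) := by
  have h1 := (Q_tendsto hd).const_mul d
  have h2 := nQ_tendsto hd
  have h3 := (tendsto_add_atTop_iff_nat 1).2 (Q_tendsto hd)
  have h4 : Tendsto (fun n : ℕ => d * Q d n - (((n : ℝ) + 1) * Q d (n + 1) - Q d (n + 1))) atTop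
      (𝓝 (d * 0 - (0 - 0))) := h1.sub (h2.sub h3)
  simp only [mul_zero, sub_zero] at h4
  refine h4.congr fun n => ?_
  unfold R; ring

theorem R_nonneg (hd : 0 ≤ d) (n : ℕ) : 0 ≤ R d n := by
  have h := Q_le hd n
  have h2 := Q_nonneg hd (n + 1)
  unfold R
  linarith

theorem nR_tendsto (hd : 0 ≤ d) : Tendsto (fun n : ℕ => (n : ℝ) * R d n) atTop (𝓝 0) := by
  rw [← tendsto_add_atTop_iff_nat 1]
  -- (n+1) R (n+1) = d (n+1) Q(n+1) - (n+1)(n+1) Q (n+2)
  have h1 := (nQ_tendsto hd).const_mul d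
  have h2 := nnQ_tendsto hd
  have h3 := (tendsto_add_atTop_iff_nat 1).2 (nQ_tendsto hd)
  -- (n+1)(n+1) Q(n+2) = (n+1)(n+2) Q(n+2) - (n+1) Q(n+2)
  have h5 : Tendsto (fun n : ℕ => ((n : ℝ) + 1) * Q d (n + 2)) atTop (𝓝 0) := by
    refine squeeze_zero (fun n => ?_) (fun n => ?_) h3
    · have := Q_nonneg hd (n + 2); positivity
    · have := Q_nonneg hd (n + 2)
      show ((n : ℝ) + 1) * Q d (n + 2) ≤ (((n + 1 : ℕ) : ℝ) + 1) * Q d (n + 1 + 1)
      push_cast
      nlinarith
  have h4 := h1.sub (h2.sub h5)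
  simp only [mul_zero, sub_zero] at h4
  refine h4.congr fun n => ?_
  unfold R; push_cast; ring_nf

/-- `Z_n = E [(K-n)(K-n-1)/2]^+`-/
noncomputable def Z (d : ℝ) (n : ℕ) : ℝ := ((d - n) * R d n + n * Q d (n + 1)) / 2

theorem Z_succ (hd : 0 ≤ d) (n : ℕ) : Z d n = Z d (n + 1) + R d (n + 1) := by
  have a := R_succ hd n
  have b : R d (n + 1) = d * Q d (n + 1) - ((n : ℝ) + 1) * Q d (n + 1 + 1) := by
    unfold R; push_cast; ring
  unfold Z
  push_cast
  have e : (d - n) * R d n = (d - n) * (R d (n + 1) + Q d (n + 1)) := by rw [a]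
  rw [e]
  linarith

theorem Z_zero (hd : 0 ≤ d) : Z d 0 = d ^ 2 / 2 := by
  simp [Z, R_zero hd]; ring

theorem Z_tendsto (hd : 0 ≤ d) : Tendsto (Z d) atTop (𝓝 0) := by
  have h1 := (R_tendsto hd).const_mul d
  have h2 := nR_tendsto hd
  have h3 := nQ_tendsto hd
  have h4 := (tendsto_add_atTop_iff_nat 1).2 (Q_tendsto hd)
  have h5 := ((h1.sub h2).add (h3.sub h4)).div_const 2
  simp only [mul_zero, sub_zero, add_zero, zero_div] at h5
  refine h5.congr fun n => ?_
  unfold Z; ring

theorem sum_Q (hd : 0 ≤ d) (n : ℕ) : ∑ k ∈ Finset.range n, Q d (k + 1) = d - R d n := by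
  induction n with
  | zero => simp [R_zero hd]
  | succ n ih => rw [Finset.sum_range_succ, ih, R_succ hd n]; ring

theorem sum_R (hd : 0 ≤ d) (n : ℕ) : ∑ k ∈ Finset.range n, R d (k + 1) = d ^ 2 / 2 - Z d n := by
  induction n with
  | zero => simp [Z_zero hd]
  | succ n ih => rw [Finset.sum_range_succ, ih, Z_succ hd n]; ring

/-- the Poisson tree -/
theorem poisson_le {e D : ℕ → ℝ} {l H0 H1 Be BD : ℝ} (he : e 0 = 0) (hD : D 0 = 0) (hl : 0 < l)
    (hbe : ∀ k, |e k| ≤ Be) (hbD : ∀ k, |D k| ≤ BD)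
    (h1 : ∀ k, e (k + 1) ≤ e k - D k + H1)
    (h0 : ∀ k, e (k + 1) - l * D (k + 1) ≤ e k - l * D k - D k + H0)
    {d : ℝ} (hd : 0 ≤ d) (hdl : d ≤ l) :
    ∑' k, poisson d k * e k ≤ d * (H1 + d / (2 * l) * (H0 - H1)) := by
  have key : ∀ n : ℕ, ∑ k ∈ Finset.range n, poisson d k * e k + Q d n * e n - R d n * D n ≤
      (d - R d n) * H1 + (d ^ 2 / 2 - Z d n) / l * (H0 - H1) := by
    intro n
    induction n with
    | zero => simp [he, hD, R_zero hd, Z_zero hd]
    | succ n ih =>
      rw [Finset.sum_range_succ]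
      set w0 : ℝ := R d (n + 1) / l with hw0
      set w1 : ℝ := Q d (n + 1) - w0 with hw1
      have c0 : 0 ≤ w0 := div_nonneg (R_nonneg hd _) hl.le
      have hRQ : R d (n + 1) ≤ l * Q d (n + 1) := by
        have hq := Q_nonneg hd (n + 1)
        have hq2 := Q_nonneg hd (n + 1 + 1)
        have : R d (n + 1) ≤ d * Q d (n + 1) := by
          unfold R
          have : 0 ≤ ((n + 1 : ℕ) : ℝ) * Q d (n + 1 + 1) := by positivity
          linarith
        refine this.trans ?_
        exact mul_le_mul_of_nonneg_right hdl hq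
      have c1 : 0 ≤ w1 := by
        rw [hw1, sub_nonneg, hw0, div_le_iff₀ hl]
        linarith
      have hw0l : w0 * l = R d (n + 1) := div_mul_cancel₀ _ hl.ne'
      have b1 := mul_le_mul_of_nonneg_left (h1 n) c1
      have b0 := mul_le_mul_of_nonneg_left (h0 n) c0
      have q := Q_succ hd n
      have r := R_succ hd n
      have z := Z_succ hd n
      have hsum : w1 + w0 = Q d (n + 1) := by rw [hw1]; ring
      have e1 : Q d (n + 1) * e (n + 1) - R d (n + 1) * D (n + 1) ≤
          Q d (n + 1) * e n - R d (n + 1) * D n - Q d (n + 1) * D n + w1 * H1 + w0 * H0 := by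
        have x1 : w1 * e (n + 1) + w0 * (e (n + 1) - l * D (n + 1)) =
            Q d (n + 1) * e (n + 1) - R d (n + 1) * D (n + 1) := by
          calc _ = (w1 + w0) * e (n + 1) - (w0 * l) * D (n + 1) := by ring
            _ = _ := by rw [hsum, hw0l]
        have x2 : w1 * (e n - D n + H1) + w0 * (e n - l * D n - D n + H0) =
            Q d (n + 1) * e n - R d (n + 1) * D n - Q d (n + 1) * D n + w1 * H1 + w0 * H0 := by
          calc _ = (w1 + w0) * e n - (w0 * l) * D n - (w1 + w0) * D n + w1 * H1 + w0 * H0 := by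
                ring
            _ = _ := by rw [hsum, hw0l]
        linarith
      have e2 : (d - R d (n + 1)) * H1 + (d ^ 2 / 2 - Z d (n + 1)) / l * (H0 - H1) =
          (d - R d n) * H1 + (d ^ 2 / 2 - Z d n) / l * (H0 - H1) + (w1 * H1 + w0 * H0) := by
        rw [r, z, hw1, hw0]
        field_simp
        ring
      rw [e2]
      have e3 : Q d n * e n - R d n * D n =
          poisson d n * e n + (Q d (n + 1) * e n - R d (n + 1) * D n - Q d (n + 1) * D n) := by
        rw [q, r]; ring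
      linarith
  -- pass to the limit
  have hsumm : Summable fun k => poisson d k * e k := by
    refine Summable.of_norm_bounded ((summ hd).mul_right Be) fun k => ?_
    rw [Real.norm_eq_abs, abs_mul, abs_of_nonneg (p_nonneg hd k)]
    exact mul_le_mul_of_nonneg_left (hbe k) (p_nonneg hd k)
  have t1 := hsumm.hasSum.tendsto_sum_nat
  have t2 : Tendsto (fun n => Q d n * e n) atTop (𝓝 0) := by
    refine squeeze_zero_norm (a := fun n => Q d n * Be) (fun n => ?_) ?_
    · rw [Real.norm_eq_abs, abs_mul, abs_of_nonneg (Q_nonneg hd n)]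
      exact mul_le_mul_of_nonneg_left (hbe n) (Q_nonneg hd n)
    · simpa using (Q_tendsto hd).mul_const Be
  have t3 : Tendsto (fun n => R d n * D n) atTop (𝓝 0) := by
    refine squeeze_zero_norm (a := fun n => R d n * BD) (fun n => ?_) ?_
    · rw [Real.norm_eq_abs, abs_mul, abs_of_nonneg (R_nonneg hd n)]
      exact mul_le_mul_of_nonneg_left (hbD n) (R_nonneg hd n)
    · simpa using (R_tendsto hd).mul_const BD
  have t4 := (t1.add t2).sub t3
  have t5 : Tendsto (fun n => (d - R d n) * H1 + (d ^ 2 / 2 - Z d n) / l * (H0 - H1)) atTop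
      (𝓝 ((d - 0) * H1 + (d ^ 2 / 2 - 0) / l * (H0 - H1))) :=
    (((tendsto_const_nhds.sub (R_tendsto hd)).mul_const H1).add
      (((tendsto_const_nhds.sub (Z_tendsto hd)).div_const l).mul_const (H0 - H1)))
  have := le_of_tendsto_of_tendsto' t4 t5 key
  simp only [add_zero, sub_zero] at this
  refine this.trans_eq ?_
  field_simp

end W

end Vale.Agent.P154
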