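import Vale.Agent.P154.V2Defs
import Vale.Agent.P154.V2Weights

/-!
Closing the second reduction: from the pointwise inequalities on brackets `[mlo, mhi]` of the value
`m = E N(V)` to nonreconstruction.
-/

namespace Vale.Agent.P154

open scoped BigOperators
open Filter Topology

/-- The facts about the expectations `EX`, `EM`, `EK` that the closing argument uses. -/
structure Facts (lam : ℝ) (off : ℕ → ℝ) : Prop where
  EX_add : ∀ (n : ℕ) (p q : P6),
    EX lam off n (H (p + q)) = EX lam off n (H p) + EX lam off n (H q)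
  EX_smul : ∀ (n : ℕ) (c : ℝ) (p : P6), EX lam off n (H (c • p)) = c * EX lam off n (H p)
  EX_mono : ∀ (n : ℕ) (p q : P6), (∀ x, Pos x → H p x ≤ H q x) →
    EX lam off n (H p) ≤ EX lam off n (H q)
  EX_abs : ∀ (n : ℕ) (p : P6), |EX lam off n (H p)| ≤ ∑ i, |p i|
  EX_one : ∀ n : ℕ, EX lam off n (H ![1, 0, 0, 0, 0, 0]) = 1
  EK_add : ∀ (n k : ℕ) (p q : P6),
    EK lam off n k (H (p + q)) = EK lam off n k (H p) + EK lam off n k (H q)
  EK_smul : ∀ (n k : ℕ) (c : ℝ) (p : P6), EK lam off n k (H (c • p)) = c * EK lam off n k (H p)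
  EK_abs : ∀ (n k : ℕ) (p : P6), |EK lam off n k (H p)| ≤ ∑ i, |p i|
  EM_nonneg : ∀ (n : ℕ) (p : P6), (∀ x, InK lam 1 x → 0 ≤ H p x) → 0 ≤ EM lam off n (H p)
  EK_zero : ∀ (n : ℕ) (p : P6), EK lam off n 0 (H p) = p 0
  EM_eq : ∀ (n : ℕ) (p : P6), EM lam off n (H p) = EX lam off n (H (sc lam p))
  EX_succ : ∀ (n : ℕ) (p : P6),
    HasSum (fun k => off k * EK lam off n k (H p)) (EX lam off (n + 1) (H p))
  EK_succ_le : ∀ (n k : ℕ) (b U W g : P6), PW (InK lam k) (InK lam 1) b U W g →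
    EK lam off n (k + 1) (H b) ≤
      EK lam off n k (H U) + EM lam off n (H W) + EK lam off n k (H g) * EM lam off n (H eN)
  xs_anti : Antitone (xs lam off)
  xs_nonneg : ∀ n, 0 ≤ xs lam off n
  xs_le_one : ∀ n, xs lam off n ≤ 1
  xs_sq : ∀ n, xs lam off n ^ 2 ≤ EX lam off n (H eNN)
  nonreco : Tendsto (xs lam off) atTop (𝓝 0) → Nonreconstruction 3 lam off

namespace Facts

variable {lam : ℝ} {off : ℕ → ℝ}

theorem EX_sub (F : Facts lam off) (n : ℕ) (p q : P6) :
    EX lam off n (H (p - q)) = EX lam off n (H p) - EX lam off n (H q) := by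
  have := F.EX_add n (p - q) q
  rw [sub_add_cancel] at this
  linarith

theorem EK_sub (F : Facts lam off) (n k : ℕ) (p q : P6) :
    EK lam off n k (H (p - q)) = EK lam off n k (H p) - EK lam off n k (H q) := by
  have := F.EK_add n k (p - q) q
  rw [sub_add_cancel] at this
  linarith

theorem sc_add (p q : P6) : sc lam (p + q) = sc lam p + sc lam q := by
  funext i
  fin_cases i <;> simp [sc] <;> ring

theorem sc_smul (c : ℝ) (p : P6) : sc lam (c • p) = c • sc lam p := by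
  funext i
  fin_cases i <;> simp [sc] <;> ring

theorem EM_add (F : Facts lam off) (n : ℕ) (p q : P6) :
    EM lam off n (H (p + q)) = EM lam off n (H p) + EM lam off n (H q) := by
  rw [F.EM_eq, F.EM_eq, F.EM_eq, sc_add, F.EX_add]

theorem EM_smul (F : Facts lam off) (n : ℕ) (c : ℝ) (p : P6) :
    EM lam off n (H (c • p)) = c * EM lam off n (H p) := by
  rw [F.EM_eq, F.EM_eq, sc_smul, F.EX_smul]

theorem EM_eN (F : Facts lam off) (n : ℕ) : EM lam off n (H eN) = lam ^ 2 * xs lam off n := by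
  rw [F.EM_eq]
  have : sc lam eN = (lam ^ 2) • eN := by
    funext i
    fin_cases i <;> simp [sc, eN]
  rw [this, F.EX_smul]; rfl

/-- If the potential `P m_n` decreases by at least `delta * m_n²` for all large `n`, then
`x_n → 0`.  `P` is continuous on the closed bracket which contains all large `m_n`. -/
theorem xs_tendsto (F : Facts lam off) (hlam : lam ≠ 0) {mlo mhi delta : ℝ} (hdel : 0 < delta)
    {P : ℝ → P6}
    (hP : ContinuousOn P (Set.Icc mlo mhi)) {n0 : ℕ}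
    (hm : ∀ n, n0 ≤ n → lam ^ 2 * xs lam off n ∈ Set.Icc mlo mhi)
    (hstep : ∀ n, n0 ≤ n → EX lam off (n + 1) (H (P (lam ^ 2 * xs lam off n))) ≤
      EX lam off n (H (P (lam ^ 2 * xs lam off n))) - delta * (lam ^ 2 * xs lam off n) ^ 2) :
    Tendsto (xs lam off) atTop (𝓝 0) := by
  have hbdd : BddBelow (Set.range (xs lam off)) := ⟨0, by rintro _ ⟨n, rfl⟩; exact F.xs_nonneg n⟩
  have hlim := tendsto_atTop_ciInf F.xs_anti hbdd
  set x : ℝ := ⨅ n, xs lam off n with hx
  have hx0 : 0 ≤ x := le_ciInf F.xs_nonneg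
  have hxle : ∀ n, x ≤ xs lam off n := fun n => ciInf_le hbdd n
  rcases hx0.eq_or_lt with h | hpos
  · rw [← h] at hlim; exact hlim
  exfalso
  have hlm : Tendsto (fun n => lam ^ 2 * xs lam off n) atTop (𝓝 (lam ^ 2 * x)) :=
    hlim.const_mul _
  have hxm : lam ^ 2 * x ∈ Set.Icc mlo mhi :=
    isClosed_Icc.mem_of_tendsto hlm (eventually_atTop.2 ⟨n0, hm⟩)
  have hPl : Tendsto (fun n => P (lam ^ 2 * xs lam off n)) atTop (𝓝 (P (lam ^ 2 * x))) := by
    refine (hP _ hxm).tendsto.comp ?_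
    exact tendsto_nhdsWithin_iff.2 ⟨hlm, eventually_atTop.2 ⟨n0, hm⟩⟩
  set Q : P6 := P (lam ^ 2 * x) with hQ
  have hdiff : Tendsto (fun n => ∑ i, |(P (lam ^ 2 * xs lam off n) - Q) i|) atTop (𝓝 0) := by
    have h1 : Tendsto (fun n => P (lam ^ 2 * xs lam off n) - Q) atTop (𝓝 (Q - Q)) :=
      hPl.sub_const Q
    rw [sub_self] at h1
    have h2 : Tendsto (fun n => ∑ i : Fin 6, |(P (lam ^ 2 * xs lam off n) - Q) i|) atTop
        (𝓝 (∑ i : Fin 6, |(0 : P6) i|)) := by
      refine tendsto_finsetSum _ fun i _ => ?_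
      exact ((tendsto_pi_nhds.1 h1) i).abs
    simpa using h2
  set eta : ℝ := delta * (lam ^ 2 * x) ^ 2 with heta
  have heta0 : 0 < eta := by positivity
  obtain ⟨n1, hn1⟩ := eventually_atTop.1 (hdiff.eventually (gt_mem_nhds (show 0 < eta / 4 by
    positivity)))
  set N : ℕ := max n0 n1 with hN
  have hdec : ∀ n, N ≤ n → EX lam off (n + 1) (H Q) ≤ EX lam off n (H Q) - eta / 2 := by
    intro n hn
    have s1 := hstep n ((le_max_left _ _).trans hn)
    have s2 := hn1 n ((le_max_right _ _).trans hn)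
    set R : P6 := P (lam ^ 2 * xs lam off n) with hR
    have e1 : EX lam off (n + 1) (H Q) = EX lam off (n + 1) (H R) -
        EX lam off (n + 1) (H (R - Q)) := by rw [F.EX_sub]; ring
    have e2 : EX lam off n (H R) = EX lam off n (H Q) + EX lam off n (H (R - Q)) := by
      rw [F.EX_sub]; ring
    have b1 := (abs_le.1 (F.EX_abs (n + 1) (R - Q))).1
    have b2 := (abs_le.1 (F.EX_abs n (R - Q))).2
    have b3 : eta ≤ delta * (lam ^ 2 * xs lam off n) ^ 2 := by
      rw [heta]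
      refine mul_le_mul_of_nonneg_left ?_ hdel.le
      exact pow_le_pow_left₀ (by positivity)
        (mul_le_mul_of_nonneg_left (hxle n) (sq_nonneg lam)) 2
    linarith
  have hdec' : ∀ k : ℕ, EX lam off (N + k) (H Q) ≤ EX lam off N (H Q) - k * (eta / 2) := by
    intro k
    induction k with
    | zero => simp
    | succ k ih =>
      have := hdec (N + k) (Nat.le_add_right _ _)
      rw [show N + (k + 1) = N + k + 1 by ring]
      push_cast
      linarith
  obtain ⟨k, hk⟩ := exists_nat_gt ((2 * ∑ i, |Q i|) / (eta / 2))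
  have c1 := hdec' k
  have c2 := (abs_le.1 (F.EX_abs (N + k) Q)).1
  have c3 := (abs_le.1 (F.EX_abs N Q)).2
  rw [div_lt_iff₀ (by positivity)] at hk
  linarith

theorem inK_pos {lam : ℝ} (h0 : -(1/2) ≤ lam) (h1 : lam ≤ 1) {k : ℕ} {x : V}
    (hx : InK lam k x) : Pos x := fun i => inK_nonneg h0 h1 hx i

/-- the step inequalities of type 1 -/
theorem step1 (F : Facts lam off) (h0 : -(1/2) ≤ lam) (h1 : lam ≤ 1) (n : ℕ) {P D h g : P6} {m : ℝ}
    (hm : m = lam ^ 2 * xs lam off n)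
    (hPW : PW Pos (InK lam 1) P (P - D - m • g) h g) (k : ℕ) :
    EK lam off n (k + 1) (H P) ≤ EK lam off n k (H P) - EK lam off n k (H D) +
      EM lam off n (H h) := by
  have := F.EK_succ_le n k P (P - D - m • g) h g
    (fun x y hx hy => hPW x y (inK_pos h0 h1 hx) hy)
  rw [F.EM_eN, ← hm, F.EK_sub, F.EK_sub, F.EK_smul] at this
  linarith

/-- the hypotheses on a bracket, at one value of `m` -/
structure Br (lam l tau delta m : ℝ) (P D h1 h0 g1 g0 : P6) : Prop where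
  P0 : P 0 = 0
  D0 : D 0 = 0
  w1 : PW Pos (InK lam 1) P (P - D - m • g1) h1 g1
  w0 : PW Pos (InK lam 1) (P - l • D) (P - l • D - D - m • g0) h0 g0
  n1 : ∀ x, InK lam 1 x → 0 ≤ H h1 x
  n0 : ∀ x, InK lam 1 x → 0 ≤ H h0 x
  cl : ∃ mu : ℝ, ∀ x, Pos x → (1 / lam ^ 2) * H (sc lam (h1 + tau • (h0 - h1))) x ≤
    H P x + mu * (H eN x - (m / lam ^ 2) * tot x) - delta * m ^ 2 * tot x

theorem H_add (p q : P6) (x : V) : H (p + q) x = H p x + H q x := by
  simp only [H, Pi.add_apply]; ring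

theorem H_smul' (c : ℝ) (p : P6) (x : V) : H (c • p) x = c * H p x := by
  simp only [H, Pi.smul_apply, smul_eq_mul]; ring

theorem H_sub (p q : P6) (x : V) : H (p - q) x = H p x - H q x := by
  simp only [H, Pi.sub_apply]; ring

theorem H_one (x : V) : H ![1, 0, 0, 0, 0, 0] x = tot x := by
  simp [H]

/-- the closing inequality, integrated -/
theorem close (F : Facts lam off) (hlam : lam ≠ 0) (n : ℕ) {l tau delta m : ℝ}
    (hm : m = lam ^ 2 * xs lam off n) {P D p1 p0 g1 g0 : P6}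
    (B : Br lam l tau delta m P D p1 p0 g1 g0) :
    (1 / lam ^ 2) * (EM lam off n (H p1) + tau * (EM lam off n (H p0) - EM lam off n (H p1))) ≤
      EX lam off n (H P) - delta * m ^ 2 := by
  obtain ⟨mu, hmu⟩ := B.cl
  have hl2 : lam ^ 2 ≠ 0 := pow_ne_zero 2 hlam
  have e1 : (1 / lam ^ 2) * (EM lam off n (H p1) + tau * (EM lam off n (H p0) -
      EM lam off n (H p1))) =
      EX lam off n (H ((1 / lam ^ 2) • sc lam (p1 + tau • (p0 - p1)))) := by
    rw [F.EX_smul, ← F.EM_eq, F.EM_add, F.EM_smul]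
    have : EM lam off n (H (p0 - p1)) = EM lam off n (H p0) - EM lam off n (H p1) := by
      have := F.EM_add n (p0 - p1) p1
      rw [sub_add_cancel] at this
      linarith
    rw [this]
  rw [e1]
  have e2 := F.EX_mono n ((1 / lam ^ 2) • sc lam (p1 + tau • (p0 - p1)))
    (P + mu • (eN - (m / lam ^ 2) • ![1, 0, 0, 0, 0, 0]) -
      (delta * m ^ 2) • ![1, 0, 0, 0, 0, 0]) (by
      intro x hx
      rw [H_smul', H_sub, H_add, H_smul', H_sub, H_smul', H_one, H_smul', H_one]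
      exact hmu x hx)
  refine e2.trans_eq ?_
  rw [F.EX_sub, F.EX_add, F.EX_smul, F.EX_sub, F.EX_smul, F.EX_one, F.EX_smul, F.EX_one]
  have : m / lam ^ 2 = xs lam off n := by
    rw [hm]; field_simp
  rw [this]
  have hx : EX lam off n (H eN) = xs lam off n := rfl
  rw [hx]
  ring

end Facts

/-- bracket theorem, Poisson tree -/
theorem bracket_poisson {lam d : ℝ} (hlam : lam ≠ 0) (h0 : -(1/2) ≤ lam) (h1 : lam ≤ 1)
    (hd : 0 ≤ d) (hdl : d * lam ^ 2 ≤ 1) (F : Facts lam (poisson d))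
    {mlo mhi l delta : ℝ} (hl : d ≤ l) (hl' : d + 1 / lam ^ 2 ≤ 2 * l) (hdel : 0 < delta)
    {P D p1 p0 g1 g0 : ℝ → P6} (hP : ContinuousOn P (Set.Icc mlo mhi))
    (hB : ∀ m ∈ Set.Icc mlo mhi, Facts.Br lam l (1 / (2 * l * lam ^ 2)) delta m (P m) (D m)
      (p1 m) (p0 m) (g1 m) (g0 m))
    {n0 : ℕ} (hm : ∀ n, n0 ≤ n → lam ^ 2 * xs lam (poisson d) n ∈ Set.Icc mlo mhi) :
    Tendsto (xs lam (poisson d)) atTop (𝓝 0) := by
  have hl2 : 0 < lam ^ 2 := by positivity
  have hlpos : 0 < l := by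
    have : 0 < 1 / lam ^ 2 := by positivity
    linarith
  refine F.xs_tendsto hlam hdel hP hm fun n hn => ?_
  set m : ℝ := lam ^ 2 * xs lam (poisson d) n with hmdef
  have B := hB m (hm n hn)
  have c := F.close hlam n hmdef B
  refine le_trans ?_ c
  set E1 := EM lam (poisson d) n (H (p1 m)) with hE1
  set E0 := EM lam (poisson d) n (H (p0 m)) with hE0
  have hE1n : 0 ≤ E1 := F.EM_nonneg n _ B.n1
  have hE0n : 0 ≤ E0 := F.EM_nonneg n _ B.n0
  have s1 := F.step1 h0 h1 n hmdef B.w1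
  have s0 : ∀ k, EK lam (poisson d) n (k + 1) (H (P m)) -
      l * EK lam (poisson d) n (k + 1) (H (D m)) ≤ EK lam (poisson d) n k (H (P m)) -
      l * EK lam (poisson d) n k (H (D m)) - EK lam (poisson d) n k (H (D m)) + E0 := by
    intro k
    have := F.step1 h0 h1 n hmdef B.w0 k
    rw [F.EK_sub, F.EK_sub, F.EK_smul, F.EK_smul] at this
    exact this
  have w := W.poisson_le (e := fun k => EK lam (poisson d) n k (H (P m)))
    (D := fun k => EK lam (poisson d) n k (H (D m))) (l := l) (H0 := E0) (H1 := E1)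
    (by simp [F.EK_zero, B.P0]) (by simp [F.EK_zero, B.D0]) hlpos
    (fun k => F.EK_abs n k (P m)) (fun k => F.EK_abs n k (D m)) s1 s0 hd hl
  rw [(F.EX_succ n (P m)).tsum_eq] at w
  refine w.trans ?_
  -- `d hbar_d ≤ t hbar_t`, `t = 1 / lam ^ 2`
  set t : ℝ := 1 / lam ^ 2 with ht
  have htd : d ≤ t := by
    rw [ht, le_div_iff₀ hl2]; exact hdl
  have e1 : 1 / (2 * l * lam ^ 2) = t / (2 * l) := by
    rw [ht]; field_simp
  rw [e1]
  have e2 : t * (E1 + t / (2 * l) * (E0 - E1)) - d * (E1 + d / (2 * l) * (E0 - E1)) =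
      (t - d) * (1 - (t + d) / (2 * l)) * E1 + (t - d) * (t + d) / (2 * l) * E0 := by
    field_simp; ring
  have e3 : 0 ≤ 1 - (t + d) / (2 * l) := by
    rw [sub_nonneg, div_le_one (by positivity)]; linarith
  have e4 : 0 ≤ (t - d) * (1 - (t + d) / (2 * l)) * E1 :=
    mul_nonneg (mul_nonneg (sub_nonneg.2 htd) e3) hE1n
  have e5 : 0 ≤ (t - d) * (t + d) / (2 * l) * E0 :=
    mul_nonneg (div_nonneg (mul_nonneg (sub_nonneg.2 htd) (by linarith)) (by positivity)) hE0n
  linarith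

/-- bracket theorem, regular tree -/
theorem bracket_regular {lam : ℝ} {d : ℕ} (hlam : lam ≠ 0) (h0 : -(1/2) ≤ lam) (h1 : lam ≤ 1)
    (hdl : (d : ℝ) * lam ^ 2 ≤ 1) (F : Facts lam (regular d))
    {mlo mhi l delta : ℝ} (hlpos : 0 < l) (hl : (d : ℝ) - 1 ≤ l)
    (hl' : (d : ℝ) + 1 / lam ^ 2 - 1 ≤ 2 * l)
    (hdel : 0 < delta) {P D p1 p0 g1 g0 : ℝ → P6} (hP : ContinuousOn P (Set.Icc mlo mhi))
    (hB : ∀ m ∈ Set.Icc mlo mhi, Facts.Br lam l ((1 / lam ^ 2 - 1) / (2 * l)) delta m (P m) (D m)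
      (p1 m) (p0 m) (g1 m) (g0 m))
    {n0 : ℕ} (hm : ∀ n, n0 ≤ n → lam ^ 2 * xs lam (regular d) n ∈ Set.Icc mlo mhi) :
    Tendsto (xs lam (regular d)) atTop (𝓝 0) := by
  have hl2 : 0 < lam ^ 2 := by positivity
  refine F.xs_tendsto hlam hdel hP hm fun n hn => ?_
  set m : ℝ := lam ^ 2 * xs lam (regular d) n with hmdef
  have B := hB m (hm n hn)
  have c := F.close hlam n hmdef B
  refine le_trans ?_ c
  set E1 := EM lam (regular d) n (H (p1 m)) with hE1
  set E0 := EM lam (regular d) n (H (p0 m)) with hE0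
  have hE1n : 0 ≤ E1 := F.EM_nonneg n _ B.n1
  have hE0n : 0 ≤ E0 := F.EM_nonneg n _ B.n0
  have s1 := F.step1 h0 h1 n hmdef B.w1
  have s0 : ∀ k, EK lam (regular d) n (k + 1) (H (P m)) -
      l * EK lam (regular d) n (k + 1) (H (D m)) ≤ EK lam (regular d) n k (H (P m)) -
      l * EK lam (regular d) n k (H (D m)) - EK lam (regular d) n k (H (D m)) + E0 := by
    intro k
    have := F.step1 h0 h1 n hmdef B.w0 k
    rw [F.EK_sub, F.EK_sub, F.EK_smul, F.EK_smul] at this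
    exact this
  have w := W.regular_le (e := fun k => EK lam (regular d) n k (H (P m)))
    (D := fun k => EK lam (regular d) n k (H (D m))) (l := l) (H0 := E0) (H1 := E1)
    (by simp [F.EK_zero, B.P0]) (by simp [F.EK_zero, B.D0]) hlpos s1 s0 d hl
  have hsum : EX lam (regular d) (n + 1) (H (P m)) = EK lam (regular d) n d (H (P m)) := by
    rw [← (F.EX_succ n (P m)).tsum_eq, tsum_eq_single d]
    · simp [regular]
    · intro k hk; simp [regular, hk]
  rw [hsum]
  refine w.trans ?_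
  set t : ℝ := 1 / lam ^ 2 with ht
  have htd : (d : ℝ) ≤ t := by
    rw [ht, le_div_iff₀ hl2]; exact hdl
  have ht1 : 1 ≤ t := by
    rw [ht, le_div_iff₀ hl2, one_mul]
    nlinarith
  have e2 : t * (E1 + (t - 1) / (2 * l) * (E0 - E1)) - (d * E1 + d * (d - 1) / (2 * l) *
      (E0 - E1)) =
      (t - d) * (1 - (t + d - 1) / (2 * l)) * E1 + (t * (t - 1) - d * (d - 1)) / (2 * l) * E0 := by
    field_simp; ring
  have e3 : 0 ≤ 1 - (t + d - 1) / (2 * l) := by
    rw [sub_nonneg, div_le_one (by positivity)]; linarith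
  have e4 : 0 ≤ (t - d) * (1 - (t + d - 1) / (2 * l)) * E1 :=
    mul_nonneg (mul_nonneg (sub_nonneg.2 htd) e3) hE1n
  have e6 : 0 ≤ t * (t - 1) - d * ((d : ℝ) - 1) := by
    rcases Nat.eq_zero_or_pos d with h | h
    · subst h; simp; nlinarith
    · have : (1 : ℝ) ≤ d := by exact_mod_cast h
      nlinarith
  have e5 : 0 ≤ (t * (t - 1) - d * ((d : ℝ) - 1)) / (2 * l) * E0 :=
    mul_nonneg (div_nonneg e6 (by positivity)) hE0n
  linarith

/-- finitely many brackets `[c i, c (i+1)]`, `i < N`, covering `[0, lam ^ 2]`. -/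
theorem brackets {lam : ℝ} {off : ℕ → ℝ} (F : Facts lam off) {N : ℕ} (hN : 0 < N) {c : ℕ → ℝ}
    (hc0 : c 0 ≤ 0) (hcN : lam ^ 2 ≤ c N)
    (hbr : ∀ i < N, (∃ n0 : ℕ, ∀ n, n0 ≤ n → lam ^ 2 * xs lam off n ∈ Set.Icc (c i) (c (i + 1))) →
      Tendsto (xs lam off) atTop (𝓝 0)) :
    Nonreconstruction 3 lam off := by
  refine F.nonreco ?_
  have hbdd : BddBelow (Set.range (xs lam off)) := ⟨0, by rintro _ ⟨n, rfl⟩; exact F.xs_nonneg n⟩
  have hlim := tendsto_atTop_ciInf F.xs_anti hbdd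
  set x : ℝ := ⨅ n, xs lam off n with hx
  have hx0 : 0 ≤ x := le_ciInf F.xs_nonneg
  have hxle : ∀ n, x ≤ xs lam off n := fun n => ciInf_le hbdd n
  have hlm : Tendsto (fun n => lam ^ 2 * xs lam off n) atTop (𝓝 (lam ^ 2 * x)) :=
    hlim.const_mul _
  have hsq : 0 ≤ lam ^ 2 := sq_nonneg lam
  -- everything is at most `c N`
  have hle : ∀ n, lam ^ 2 * xs lam off n ≤ c N := fun n =>
    le_trans (by nlinarith [F.xs_le_one n]) hcN
  -- pick the largest `i ≤ N` with `c i ≤ lam ^ 2 * x`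
  by_cases hex : ∃ i < N, c i ≤ lam ^ 2 * x ∧ (lam ^ 2 * x < c (i + 1) ∨ i + 1 = N)
  · obtain ⟨i, hi, hlo, hhi⟩ := hex
    refine hbr i hi ?_
    rcases hhi with hhi | hhi
    · obtain ⟨n0, hn0⟩ := eventually_atTop.1 (hlm.eventually (gt_mem_nhds hhi))
      exact ⟨n0, fun n hn => ⟨hlo.trans (mul_le_mul_of_nonneg_left (hxle n) hsq),
        (hn0 n hn).le⟩⟩
    · refine ⟨0, fun n _ => ⟨hlo.trans (mul_le_mul_of_nonneg_left (hxle n) hsq), ?_⟩⟩
      rw [hhi]; exact hle n
  · exfalso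
    push Not at hex
    have hall : ∀ i < N, c i ≤ lam ^ 2 * x := by
      intro i
      induction i with
      | zero => intro _; exact hc0.trans (by positivity)
      | succ i ih =>
        intro hi
        exact (hex i (by omega) (ih (by omega))).1
    obtain ⟨M, rfl⟩ : ∃ M, N = M + 1 := ⟨N - 1, by omega⟩
    exact (hex M (by omega) (hall M (by omega))).2 rfl

end Vale.Agent.P154
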