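import Vale.Agent.P154.V2Low

/-!
The corner `lam → 1` of the Poisson model: brackets `[0, y (1 - lam)]` and `[y (1 - lam), 1]`.
The potentials satisfy `W = β`, so the final inequalities are divisible by `1 - lam`.
-/

namespace Vale.Agent.P154

open scoped BigOperators
open Filter Topology

/-! ### rows -/

/-- rows of `Q (H T - s⁻² H (sc s T)) / (1 - s) - e N²`, `T` with three zeros in front -/
def rowsA (T : List Int) (e : Int) : List (List Int) :=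
  [[0, 0, 0, Int.sub (T.getD 3 0) e, T.getD 4 0, T.getD 5 0],
   [0, 0, 0, T.getD 3 0, T.getD 4 0, T.getD 5 0],
   [0, 0, 0, 0, T.getD 4 0, T.getD 5 0],
   [0, 0, 0, 0, 0, T.getD 5 0]]

/-- the same with `T + y (1 - s) / (2 s²) G` inside `sc s`, `y = yn / yd`, times `2 yd` -/
def rowsB (T G : List Int) (e yn yd : Int) : List (List Int) :=
  let A := Int.mul 2 yd
  let t := fun i : Nat => Int.mul A (T.getD i 0)
  let g := fun i : Nat => Int.mul yn (G.getD i 0)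
  [[0, 0, 0, Int.sub (Int.sub (t 3) (Int.mul A e)) (g 3), t 4, t 5],
   [0, 0, 0, t 3, Int.sub (t 4) (g 4), t 5],
   [0, 0, 0, 0, t 4, Int.sub (t 5) (g 5)],
   [0, 0, 0, 0, 0, t 5]]

/-- the same for general vectors, with `- mu N`, times `2 yd s²` -/
def rowsC (B G : List Int) (mu yn yd : Int) : List (List Int) :=
  let A := Int.mul 2 yd
  let t := fun i : Nat => Int.mul A (B.getD i 0)
  let g := fun i : Nat => Int.mul yn (G.getD i 0)
  [[0, Int.neg (g 1)],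
   [0, 0, Int.neg (g 2)],
   [0, Int.neg (Int.mul A mu), t 2, Int.sub (t 3) (g 3), t 4, t 5],
   [0, 0, 0, t 3, Int.sub (t 4) (g 4), t 5],
   [0, 0, 0, 0, t 4, Int.sub (t 5) (g 5)],
   [0, 0, 0, 0, 0, t 5]]

namespace Cor

theorem iadd (a b : Int) : Int.add a b = a + b := rfl
theorem isub (a b : Int) : Int.sub a b = a - b := rfl
theorem imul (a b : Int) : Int.mul a b = a * b := rfl
theorem ineg (a : Int) : Int.neg a = -a := rfl

theorem finV_rowsA {Q e : Int} (T : List Int) (hQ : (Q : ℝ) ≠ 0) {s : ℝ} (hs : s ≠ 0) {x : V}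
    (hx : tot x = 1) : (1 - s) * finV (rowsA T e) s x = Q *
      (H (vec Q (tail3 T)) x - (1 / s ^ 2) * H (sc s (vec Q (tail3 T))) x -
        (1 - s) * (e / Q : ℝ) * H eNN x) := by
  rw [H_of_tot_one _ hx, H_of_tot_one _ hx, H_of_tot_one _ hx]
  simp only [sc, vec_apply, Matrix.cons_val_zero, Matrix.cons_val_one, Matrix.cons_val, finV,
    rowsA, tail3, finR, six, dot, eNN, isub, val0, val1, val2, val3, val4, val5,
    List.getD_cons_zero, List.getD_cons_succ]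
  push_cast
  field_simp
  ring

theorem finV_rowsB {Q e yn yd : Int} (T G : List Int) (hQ : (Q : ℝ) ≠ 0) (hyd : (yd : ℝ) ≠ 0)
    {s : ℝ} (hs : s ≠ 0) {x : V} (hx : tot x = 1) :
    (1 - s) * finV (rowsB T G e yn yd) s x = 2 * yd * Q *
      (H (vec Q (tail3 T)) x - (1 / s ^ 2) * H (sc s (vec Q (tail3 T) +
        ((yn / yd : ℝ) * (1 - s) / (2 * s ^ 2)) • vec Q (tail3 G))) x -
        (1 - s) * (e / Q : ℝ) * H eNN x) := by
  rw [H_of_tot_one _ hx, H_of_tot_one _ hx, H_of_tot_one _ hx]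
  simp only [sc, vec_apply, Matrix.cons_val_zero, Matrix.cons_val_one, Matrix.cons_val, finV,
    rowsB, tail3, finR, six, dot, eNN, isub, imul, val0, val1, val2, val3, val4, val5,
    List.getD_cons_zero, List.getD_cons_succ, Pi.add_apply, Pi.smul_apply, smul_eq_mul]
  push_cast
  field_simp
  ring

theorem finV_rowsC {Q mu yn yd : Int} (B G : List Int) (hQ : (Q : ℝ) ≠ 0) (hyd : (yd : ℝ) ≠ 0)
    (hB : B.getD 0 0 = 0) (hG : G.getD 0 0 = 0) {s : ℝ} (hs : s ≠ 0) {x : V} (hx : tot x = 1) :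
    (1 - s) * finV (rowsC B G mu yn yd) s x = 2 * yd * Q * s ^ 2 *
      (H (vec Q B) x - (1 / s ^ 2) * H (sc s (vec Q B +
        ((yn / yd : ℝ) * (1 - s) / (2 * s ^ 2)) • vec Q G)) x -
        (1 - s) * (mu / Q : ℝ) * H eN x) := by
  rw [H_of_tot_one _ hx, H_of_tot_one _ hx, H_of_tot_one _ hx]
  simp only [sc, vec_apply, Matrix.cons_val_zero, Matrix.cons_val_one, Matrix.cons_val, finV,
    rowsC, finR, six, dot, eN, isub, imul, ineg, val0, val1, val2, val3, val4, val5,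
    Pi.add_apply, Pi.smul_apply, smul_eq_mul, hB, hG]
  push_cast
  field_simp
  ring

variable {D a : Int} {lam : ℝ}

theorem closeA {Q e : Int} {T : List Int} {K : ℕ} {C : FCert} (hQ : 0 < Q) (hD : 0 < D)
    (haD : a < D) (hC : C.check ⟨rowsA T e, 6, 12, K⟩ D a D (baseTri 1 1) = true)
    (hlam : 0 < lam) (h1 : lam < 1) (ha : (a : ℝ) ≤ D * lam) {x : V} (hx : Pos x) :
    (1 / lam ^ 2) * H (sc lam (vec Q (tail3 T))) x ≤
      H (vec Q (tail3 T)) x - (e / Q * (1 - lam) : ℝ) * H eNN x := by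
  have hQ' : (0 : ℝ) < Q := by exact_mod_cast hQ
  have hD' : (0 : ℝ) < D := by exact_mod_cast hD
  have h2 : 0 < 1 - lam := by linarith
  have key := H_nonneg_of_simplex (p := vec Q (tail3 T) -
    (1 / lam ^ 2) • sc lam (vec Q (tail3 T)) - ((1 - lam) * (e / Q : ℝ)) • eNN)
    (fun z hz ht => by
      have h := fin_nonneg (c := ⟨rowsA T e, 6, 12, K⟩)
        (by simp [rowsA]) C hD haD hC lam z ha (by nlinarith) hz ht
      have h3 := mul_nonneg h2.le h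
      rw [finV_rowsA T hQ'.ne' hlam.ne' ht] at h3
      have h4 := nonneg_of_mul_nonneg_right h3 hQ'
      simp only [H_sub, H_smul]
      exact h4) hx
  simp only [H_sub, H_smul] at key
  linarith

theorem closeB {Q e yn yd : Int} {T G : List Int} {K : ℕ} {C : FCert} (hQ : 0 < Q)
    (hyd : 0 < yd) (hD : 0 < D) (haD : a < D)
    (hC : C.check ⟨rowsB T G e yn yd, 6, 12, K⟩ D a D (baseTri 1 1) = true)
    (hlam : 0 < lam) (h1 : lam < 1) (ha : (a : ℝ) ≤ D * lam) {x : V} (hx : Pos x) :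
    (1 / lam ^ 2) * H (sc lam (vec Q (tail3 T) +
        ((yn / yd : ℝ) * (1 - lam) / (2 * lam ^ 2)) • vec Q (tail3 G))) x ≤
      H (vec Q (tail3 T)) x - (e / Q * (1 - lam) : ℝ) * H eNN x := by
  have hQ' : (0 : ℝ) < Q := by exact_mod_cast hQ
  have hyd' : (0 : ℝ) < yd := by exact_mod_cast hyd
  have hD' : (0 : ℝ) < D := by exact_mod_cast hD
  have h2 : 0 < 1 - lam := by linarith
  have key := H_nonneg_of_simplex (p := vec Q (tail3 T) -
    (1 / lam ^ 2) • sc lam (vec Q (tail3 T) +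
        ((yn / yd : ℝ) * (1 - lam) / (2 * lam ^ 2)) • vec Q (tail3 G)) -
      ((1 - lam) * (e / Q : ℝ)) • eNN)
    (fun z hz ht => by
      have h := fin_nonneg (c := ⟨rowsB T G e yn yd, 6, 12, K⟩)
        (by simp [rowsB]) C hD haD hC lam z ha (by nlinarith) hz ht
      have h3 := mul_nonneg h2.le h
      rw [finV_rowsB T G hQ'.ne' hyd'.ne' hlam.ne' ht] at h3
      have h4 := nonneg_of_mul_nonneg_right h3 (by positivity)
      simp only [H_sub, H_smul]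
      exact h4) hx
  simp only [H_sub, H_smul] at key
  linarith

theorem closeC {Q mu yn yd : Int} {B G : List Int} {K : ℕ} {C : FCert} (hQ : 0 < Q)
    (hyd : 0 < yd) (hD : 0 < D) (haD : a < D) (hB : B.getD 0 0 = 0) (hG : G.getD 0 0 = 0)
    (hC : C.check ⟨rowsC B G mu yn yd, 6, 12, K⟩ D a D (baseTri 1 1) = true)
    (hlam : 0 < lam) (h1 : lam < 1) (ha : (a : ℝ) ≤ D * lam) {x : V} (hx : Pos x) :
    (1 / lam ^ 2) * H (sc lam (vec Q B +
        ((yn / yd : ℝ) * (1 - lam) / (2 * lam ^ 2)) • vec Q G)) x ≤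
      H (vec Q B) x - (mu / Q * (1 - lam) : ℝ) * H eN x := by
  have hQ' : (0 : ℝ) < Q := by exact_mod_cast hQ
  have hyd' : (0 : ℝ) < yd := by exact_mod_cast hyd
  have hD' : (0 : ℝ) < D := by exact_mod_cast hD
  have h2 : 0 < 1 - lam := by linarith
  have key := H_nonneg_of_simplex (p := vec Q B -
    (1 / lam ^ 2) • sc lam (vec Q B +
        ((yn / yd : ℝ) * (1 - lam) / (2 * lam ^ 2)) • vec Q G) -
      ((1 - lam) * (mu / Q : ℝ)) • eN)
    (fun z hz ht => by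
      have h := fin_nonneg (c := ⟨rowsC B G mu yn yd, 6, 12, K⟩)
        (by simp [rowsC]) C hD haD hC lam z ha (by nlinarith) hz ht
      have h3 := mul_nonneg h2.le h
      rw [finV_rowsC B G hQ'.ne' hyd'.ne' hB hG hlam.ne' ht] at h3
      have h4 := nonneg_of_mul_nonneg_right h3 (by positivity)
      simp only [H_sub, H_smul]
      exact h4) hx
  simp only [H_sub, H_smul] at key
  linarith

end Cor

open Cor Low

/-! ### the low bracket -/

/-- linear relations of a corner bracket `[0, y (1 - lam)]`, `lam ∈ [a/D, 1)`, `y = yn / yd`,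
`m0 = y (1 - a/D)` -/
def LoBr.cok (b : LoBr) (D a yn yd : Int) : Bool :=
  b.ok && leqL b.z.P.wL b.z.P.bL && leqL b.a1.P.wL b.a1.P.bL && leqL b.a0.P.wL b.a0.P.bL &&
  leqL b.b1.P.wL b.b1.P.bL && leqL b.b0.P.wL b.b0.P.bL && decide (0 < a) && decide (a < D) &&
  decide (0 < yn) && decide (0 < yd) && decide (b.mn * (yd * D) = b.md * (yn * (D - a))) &&
  decide (b.tan * (2 * (D - a)) ≤ D * b.tad) &&
  decide (D * D * b.tbd ≤ b.tbn * (2 * (a * (D - a)))) && ieq b.z.P.g1 0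

theorem Wr_of_leqL {P : Par2} (h : leqL P.wL P.bL = true) : P.Wr = P.beta := by
  rw [Par2.Wr_eq, Par2.beta_eq, leqL_sound h]

/-- the certified facts -/
structure LoBr.CFact (b : LoBr) (D a yn yd : Int) (lam : ℝ) : Prop where
  ok : b.cok D a yn yd = true
  pz : PW Pos (InK lam 1) b.z.P.beta b.z.P.Ur b.z.P.Wr b.z.P.gr
  pa1 : PW Pos (InK lam 1) b.a1.P.beta b.a1.P.Ur b.a1.P.Wr b.a1.P.gr
  pa0 : PW Pos (InK lam 1) b.a0.P.beta b.a0.P.Ur b.a0.P.Wr b.a0.P.gr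
  pb1 : PW Pos (InK lam 1) b.b1.P.beta b.b1.P.Ur b.b1.P.Wr b.b1.P.gr
  pb0 : PW Pos (InK lam 1) b.b0.P.beta b.b0.P.Ur b.b0.P.Wr b.b0.P.gr
  nz : ∀ x, InK lam 1 x → 0 ≤ H b.z.P.Wr x
  na1 : ∀ x, InK lam 1 x → 0 ≤ H b.a1.P.Wr x
  na0 : ∀ x, InK lam 1 x → 0 ≤ H b.a0.P.Wr x
  nb1 : ∀ x, InK lam 1 x → 0 ≤ H b.b1.P.Wr x
  nb0 : ∀ x, InK lam 1 x → 0 ≤ H b.b0.P.Wr x
  f0 : ∀ x, Pos x → (1 / lam ^ 2) * H (sc lam (vec b.z.P.Q (tail3 b.z.P.bL))) x ≤
    H (vec b.z.P.Q (tail3 b.z.P.bL)) x - (b.e / b.z.P.Q * (1 - lam) : ℝ) * H eNN x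
  f1 : ∀ x, Pos x → (1 / lam ^ 2) * H (sc lam (vec b.z.P.Q (tail3 b.a1.P.bL) +
      ((yn / yd : ℝ) * (1 - lam) / (2 * lam ^ 2)) • vec b.z.P.Q (tail3 b.z.P.gL))) x ≤
    H (vec b.z.P.Q (tail3 b.a1.P.bL)) x - (b.e / b.z.P.Q * (1 - lam) : ℝ) * H eNN x

theorem gr_split (P : Par2) (h0 : P.gr 0 = 0) (h1 : P.gr 1 = 0) :
    P.gr = P.gr 2 • eC + vec P.Q (tail3 P.gL) := by
  funext i
  fin_cases i
  · simpa [eC, vec, tail3] using h0
  · simpa [eC, vec, tail3] using h1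
  · simp [eC, vec, tail3]
  · simp [eC, vec, tail3, Par2.gr, Par2.gL]
  · simp [eC, vec, tail3, Par2.gr, Par2.gL]
  · simp [eC, vec, tail3, Par2.gr, Par2.gL]

/-- the final inequality at `m = y (1 - lam)` -/
theorem corner_fin {lam y gC e : ℝ} (hlam : 0 < lam) {T G : P6}
    (f1 : ∀ x, Pos x → (1 / lam ^ 2) * H (sc lam (T + (y * (1 - lam) / (2 * lam ^ 2)) • G)) x ≤
      H T x - e * H eNN x) (x : V) (hx : Pos x) :
    (1 / lam ^ 2) * H (sc lam ((eN + (y * gC / (2 * lam)) • eC + T) +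
      (y * (1 - lam) / (2 * lam ^ 2)) • (gC • eC + G))) x ≤
      H (eN + (y * gC / (2 * lam)) • eC + T) x - e * H eNN x := by
  have hl : lam ≠ 0 := hlam.ne'
  have e1 : (eN + (y * gC / (2 * lam)) • eC + T) +
      (y * (1 - lam) / (2 * lam ^ 2)) • (gC • eC + G) =
      eN + (y * gC / (2 * lam ^ 2)) • eC + (T + (y * (1 - lam) / (2 * lam ^ 2)) • G) := by
    funext i
    simp only [Pi.add_apply, Pi.smul_apply, smul_eq_mul]
    field_simp
    ring
  have e2 : sc lam eN = (lam ^ 2) • eN := by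
    funext i
    fin_cases i <;> simp [sc, eN]
  have e3 : sc lam eC = (lam ^ 3) • eC := by
    funext i
    fin_cases i <;> simp [sc, eC]
  rw [e1, Facts.sc_add, Facts.sc_add, Facts.sc_smul, e2, e3]
  simp only [Cvx.Hadd, Cvx.Hsmul]
  have h := f1 x hx
  have e4 : 1 / lam ^ 2 * (lam ^ 2 * H eN x + y * gC / (2 * lam ^ 2) * (lam ^ 3 * H eC x) +
      H (sc lam (T + (y * (1 - lam) / (2 * lam ^ 2)) • G)) x) =
      H eN x + y * gC / (2 * lam) * H eC x +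
        1 / lam ^ 2 * H (sc lam (T + (y * (1 - lam) / (2 * lam ^ 2)) • G)) x := by
    field_simp
  rw [e4]
  linarith

theorem theta_bounds {D a lam ta tb : ℝ} (ha0 : 0 < a) (haD : a < D) (ha : a ≤ D * lam)
    (h1 : lam < 1) (hlam : 0 < lam) (ht : ta * (2 * (D - a)) ≤ D)
    (hb : D * D ≤ tb * (2 * (a * (D - a)))) :
    ta ≤ D / (2 * lam * (D - a)) ∧ D / (2 * lam * (D - a)) ≤ tb := by
  have hD : 0 < D := ha0.trans haD
  have hDa : 0 < D - a := by linarith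
  have hp : 0 < 2 * lam * (D - a) := by positivity
  constructor
  · rw [le_div_iff₀ hp]
    have e : ta * (2 * lam * (D - a)) = (ta * (2 * (D - a))) * lam := by ring
    rw [e]
    have h2 : ta * (2 * (D - a)) * lam ≤ D * lam := mul_le_mul_of_nonneg_right ht hlam.le
    have h3 : D * lam ≤ D * 1 := mul_le_mul_of_nonneg_left h1.le hD.le
    linarith
  · rw [div_le_iff₀ hp]
    have htb : 0 < tb := by
      have h3 : 0 < tb * (2 * (a * (D - a))) := lt_of_lt_of_le (mul_pos hD hD) hb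
      exact (pos_iff_pos_of_mul_pos h3).2 (by positivity)
    have h3 : tb * (2 * (a * (D - a))) ≤ tb * (2 * ((D * lam) * (D - a))) := by
      have h4 : a * (D - a) ≤ (D * lam) * (D - a) := mul_le_mul_of_nonneg_right ha hDa.le
      exact mul_le_mul_of_nonneg_left (by linarith) htb.le
    have h4 : D * D ≤ D * (tb * (2 * lam * (D - a))) := by
      have e : D * (tb * (2 * lam * (D - a))) = tb * (2 * ((D * lam) * (D - a))) := by ring
      rw [e]
      exact hb.trans h3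
    exact le_of_mul_le_mul_left h4 hD

/-- the interpolated vertices -/
theorem corner_mid {lam l y gC mm ta tb q r : ℝ} {g T A1 A0 B1 B0 : P6} (hl : lam ≠ 0)
    (r0 : 0 ≤ r) (r1 : r ≤ 1) (hr : ((1 - r) * ta + r * tb) * mm = y / (2 * lam))
    (q0 : 0 ≤ q) (q1 : q ≤ 1) (hqm : q * mm = y * (1 - lam))
    (pa1 : PW Pos (InK lam 1) A1 A1 A1 g) (pa0 : PW Pos (InK lam 1) A0 A0 A0 g)
    (pb1 : PW Pos (InK lam 1) B1 B1 B1 g) (pb0 : PW Pos (InK lam 1) B0 B0 B0 g)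
    (na1 : ∀ x, InK lam 1 x → 0 ≤ H A1 x) (na0 : ∀ x, InK lam 1 x → 0 ≤ H A0 x)
    (nb1 : ∀ x, InK lam 1 x → 0 ≤ H B1 x) (nb0 : ∀ x, InK lam 1 x → 0 ≤ H B0 x)
    (ba1 : A1 = eN + (ta * (mm * gC)) • eC + T) (bb1 : B1 = eN + (tb * (mm * gC)) • eC + T)
    (ba0 : A0 = A1 + (l * mm) • g) (bb0 : B0 = B1 + (l * mm) • g) {P1 P0 : P6}
    (hP1 : P1 = eN + (y * gC / (2 * lam)) • eC + T)
    (hP0 : P0 = P1 + (l * (y * (1 - lam))) • g) :
    PW Pos (InK lam 1) P1 P1 P1 g ∧ PW Pos (InK lam 1) P0 P0 P0 g ∧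
      (∀ x, InK lam 1 x → 0 ≤ H P1 x) ∧ (∀ x, InK lam 1 x → 0 ≤ H P0 x) := by
  have e1 : (1 - r) • A1 + r • B1 = P1 := by
    rw [ba1, bb1, mix, hP1]
    congr 3
    have : (1 - r) * (ta * (mm * gC)) + r * (tb * (mm * gC)) =
      (((1 - r) * ta + r * tb) * mm) * gC := by ring
    rw [this, hr]
    ring
  have e0 : (1 - r) • A0 + r • B0 = P1 + (l * mm) • g := by
    rw [← e1, ba0, bb0]
    funext i
    simp only [Pi.add_apply, Pi.smul_apply, smul_eq_mul]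
    ring
  have c1 := PW_convex pa1 pb1 r0 r1
  have c0 := PW_convex pa0 pb0 r0 r1
  rw [e1] at c1
  rw [e0] at c0
  have n1 : ∀ x, InK lam 1 x → 0 ≤ H P1 x := by
    intro x hx
    rw [← e1, Cvx.Hadd, Cvx.Hsmul, Cvx.Hsmul]
    exact add_nonneg (mul_nonneg (sub_nonneg.2 r1) (na1 x hx)) (mul_nonneg r0 (nb1 x hx))
  have n0 : ∀ x, InK lam 1 x → 0 ≤ H (P1 + (l * mm) • g) x := by
    intro x hx
    rw [← e0, Cvx.Hadd, Cvx.Hsmul, Cvx.Hsmul]
    exact add_nonneg (mul_nonneg (sub_nonneg.2 r1) (na0 x hx)) (mul_nonneg r0 (nb0 x hx))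
  have e : (1 - q) • P1 + q • (P1 + (l * mm) • g) = P0 := by
    rw [hP0, ← hqm]
    funext i
    simp only [Pi.add_apply, Pi.smul_apply, smul_eq_mul]
    ring
  have cs := PW_convex c1 c0 q0 q1
  rw [e] at cs
  refine ⟨c1, cs, n1, fun x hx => ?_⟩
  rw [← e, Cvx.Hadd, Cvx.Hsmul, Cvx.Hsmul]
  exact add_nonneg (mul_nonneg (sub_nonneg.2 q1) (n1 x hx)) (mul_nonneg q0 (n0 x hx))

/-- the low bracket in abstract form -/
theorem corner_low {lam l y gC e : ℝ} {g T G Pz P1 P0 : P6}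
    (hlam : 0 < lam) (h1 : lam < 1) (hl0 : 0 < l) (hy0 : 0 < y) (he : 0 ≤ e)
    (pz : PW Pos (InK lam 1) Pz Pz Pz g) (p1 : PW Pos (InK lam 1) P1 P1 P1 g)
    (p0 : PW Pos (InK lam 1) P0 P0 P0 g) (nz : ∀ x, InK lam 1 x → 0 ≤ H Pz x)
    (n1 : ∀ x, InK lam 1 x → 0 ≤ H P1 x) (n0 : ∀ x, InK lam 1 x → 0 ≤ H P0 x)
    (hP1 : P1 = eN + (y * gC / (2 * lam)) • eC + T)
    (hP0 : P0 = P1 + (l * (y * (1 - lam))) • g) (hg : g = gC • eC + G)
    (z0 : Pz 0 = 0) (t0 : T 0 = 0) (g0 : g 0 = 0)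
    (f0 : ∀ x, Pos x → (1 / lam ^ 2) * H (sc lam Pz) x ≤ H Pz x - e * H eNN x)
    (f1 : ∀ x, Pos x → (1 / lam ^ 2) * H (sc lam (T + (y * (1 - lam) / (2 * lam ^ 2)) • G)) x ≤
      H T x - e * H eNN x) {m : ℝ} (hm : m ∈ Set.Icc (0 : ℝ) (y * (1 - lam))) :
    Facts.Br lam l (1 / (2 * l * lam ^ 2)) e m
      ((1 - m / (y * (1 - lam))) • Pz + (m / (y * (1 - lam))) • P1) (-(m • g))
      ((1 - m / (y * (1 - lam))) • Pz + (m / (y * (1 - lam))) • P1)
      ((1 - m / (y * (1 - lam))) • Pz + (m / (y * (1 - lam))) • P0) g g := by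
  have h1l : 0 < 1 - lam := by linarith
  have hm0 : 0 < y * (1 - lam) := by positivity
  have hk : 1 / (2 * l * lam ^ 2) * (l * (y * (1 - lam))) = y * (1 - lam) / (2 * lam ^ 2) := by
    field_simp
  have hl2 : lam ^ 2 ≤ 1 := by nlinarith
  have e5 : P1 + (1 / (2 * l * lam ^ 2)) • (P0 - P1) =
      P1 + (y * (1 - lam) / (2 * lam ^ 2)) • g := by
    rw [← hk, hP0]
    funext i
    simp only [Pi.add_apply, Pi.smul_apply, Pi.sub_apply, smul_eq_mul]
    ring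
  have z1 : P1 0 = 0 := by
    rw [hP1]
    simp [eN, eC, t0]
  refine core hlam.ne' hl2 hm0 he hP0 pz p1 p0 z0 z1 g0 nz n1 n0 f0 (fun x hx => ?_) hm
  rw [e5, hP1, hg]
  exact corner_fin hlam f1 x hx

theorem LoBr.CFact.bracket {b : LoBr} {D a yn yd : Int} {lam : ℝ}
    (hf : b.CFact D a yn yd lam) (ha : (a : ℝ) ≤ D * lam) (h1 : lam < 1) :
    ∃ P Dd p1 p0 g1 g0 : ℝ → P6, ContinuousOn P (Set.Icc 0 ((yn / yd : ℝ) * (1 - lam))) ∧
      ∀ m ∈ Set.Icc (0 : ℝ) ((yn / yd : ℝ) * (1 - lam)), Facts.Br lam (b.en / b.ed)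
        (1 / (2 * (b.en / b.ed) * lam ^ 2)) (b.e / b.z.P.Q * (1 - lam)) m
        (P m) (Dd m) (p1 m) (p0 m) (g1 m) (g0 m) := by
  have hok := hf.ok
  simp only [LoBr.cok, Bool.and_eq_true, decide_eq_true_eq] at hok
  obtain ⟨⟨⟨⟨⟨⟨⟨⟨⟨⟨⟨⟨⟨k0, k1⟩, k2⟩, k3⟩, k4⟩, k5⟩, k6⟩, k7⟩, k8⟩, k9⟩, k10⟩, k11⟩, k12⟩, k13⟩ := hok
  have R := LoBr.rel k0
  have hQ : (0 : ℝ) < b.z.P.Q := by exact_mod_cast R.hQ
  have he : (0 : ℝ) < b.e := by exact_mod_cast R.e
  have hmn : (0 : ℝ) < b.mn := by exact_mod_cast R.mn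
  have hmd : (0 : ℝ) < b.md := by exact_mod_cast R.md
  have hen : (0 : ℝ) < b.en := by exact_mod_cast R.en
  have hed : (0 : ℝ) < b.ed := by exact_mod_cast R.ed
  have htad : (0 : ℝ) < b.tad := by exact_mod_cast R.tad
  have htbd : (0 : ℝ) < b.tbd := by exact_mod_cast R.tbd
  have ha0 : (0 : ℝ) < a := by exact_mod_cast k6
  have haD : (a : ℝ) < D := by exact_mod_cast k7
  have hD : (0 : ℝ) < D := ha0.trans haD
  have hyn : (0 : ℝ) < yn := by exact_mod_cast k8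
  have hyd : (0 : ℝ) < yd := by exact_mod_cast k9
  have r10 : (b.mn : ℝ) * (yd * D) = b.md * (yn * (D - a)) := by exact_mod_cast k10
  have r11 : (b.tan : ℝ) * (2 * (D - a)) ≤ D * b.tad := by exact_mod_cast k11
  have r12 : (D : ℝ) * D * b.tbd ≤ b.tbn * (2 * (a * (D - a))) := by exact_mod_cast k12
  have hlam : 0 < lam := by
    have : 0 < D * lam := lt_of_lt_of_le ha0 ha
    exact (pos_iff_pos_of_mul_pos this).1 hD
  have hDa : (0 : ℝ) < D - a := by linarith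
  have h1l : 0 < 1 - lam := by linarith
  have hmy : (b.mn / b.md : ℝ) = (yn / yd : ℝ) * ((D - a) / D) := by
    field_simp
    linarith
  obtain ⟨t1, t2⟩ := theta_bounds (D := D) (a := a) (lam := lam) (ta := b.tan / b.tad)
    (tb := b.tbn / b.tbd) ha0 haD ha h1 hlam (by
      rw [div_mul_eq_mul_div, div_le_iff₀ htad]
      exact r11) (by
      rw [div_mul_eq_mul_div, le_div_iff₀ htbd]
      exact r12)
  obtain ⟨r, r0, r1, hr⟩ := exists_r t1 t2
  have hthm : ((1 - r) * (b.tan / b.tad : ℝ) + r * (b.tbn / b.tbd : ℝ)) * (b.mn / b.md : ℝ) =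
      (yn / yd : ℝ) / (2 * lam) := by
    rw [← hr, hmy]
    field_simp
  have q0 : 0 ≤ (1 - lam) * D / (D - a) := by positivity
  have q1 : (1 - lam) * D / (D - a) ≤ 1 := by
    rw [div_le_one hDa]
    linarith
  have hqm : (1 - lam) * D / (D - a) * (b.mn / b.md : ℝ) = (yn / yd : ℝ) * (1 - lam) := by
    rw [hmy]
    field_simp
  have pz := hf.pz
  have pa1 := hf.pa1
  have pa0 := hf.pa0
  have pb1 := hf.pb1
  have pb0 := hf.pb0
  have nz := hf.nz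
  have na1 := hf.na1
  have na0 := hf.na0
  have nb1 := hf.nb1
  have nb0 := hf.nb0
  rw [R.uz, Wr_of_leqL k1] at pz
  rw [R.ua1, R.ga1, Wr_of_leqL k2] at pa1
  rw [R.ua0, R.ga0, Wr_of_leqL k3] at pa0
  rw [R.ub1, R.gb1, Wr_of_leqL k4] at pb1
  rw [R.ub0, R.gb0, Wr_of_leqL k5] at pb0
  rw [Wr_of_leqL k1] at nz
  rw [Wr_of_leqL k2] at na1
  rw [Wr_of_leqL k3] at na0
  rw [Wr_of_leqL k4] at nb1
  rw [Wr_of_leqL k5] at nb0
  have g1 : b.z.P.gr 1 = 0 := by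
    have := ieq_sound k13
    simp [Par2.gr, this]
  have M := corner_mid (P1 := eN + ((yn / yd : ℝ) * b.z.P.gr 2 / (2 * lam)) • eC +
      vec b.z.P.Q (tail3 b.a1.P.bL))
    (P0 := eN + ((yn / yd : ℝ) * b.z.P.gr 2 / (2 * lam)) • eC +
      vec b.z.P.Q (tail3 b.a1.P.bL) +
      ((b.en / b.ed : ℝ) * ((yn / yd : ℝ) * (1 - lam))) • b.z.P.gr)
    hlam.ne' r0 r1 hthm q0 q1 hqm pa1 pa0 pb1 pb0 na1 na0 nb1 nb0 R.ba1 R.bb1 R.ba0
    R.bb0 rfl rfl
  obtain ⟨p1, p0, n1, n0⟩ := M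
  have he' : (0 : ℝ) ≤ b.e / b.z.P.Q * (1 - lam) := by positivity
  have f0 : ∀ x, Pos x → (1 / lam ^ 2) * H (sc lam b.z.P.beta) x ≤
      H b.z.P.beta x - (b.e / b.z.P.Q * (1 - lam) : ℝ) * H eNN x := by
    intro x hx
    have h := hf.f0 x hx
    have e2 : sc lam eN = (lam ^ 2) • eN := by
      funext i
      fin_cases i <;> simp [sc, eN]
    rw [R.bz, Facts.sc_add, e2, Cvx.Hadd, Cvx.Hadd, Cvx.Hsmul, mul_add]
    have e3 : 1 / lam ^ 2 * (lam ^ 2 * H eN x) = H eN x := by field_simp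
    rw [e3]
    linarith
  have t0 : vec b.z.P.Q (tail3 b.a1.P.bL) 0 = 0 := by simp [vec, tail3]
  have z0 : b.z.P.beta 0 = 0 := by simp [Par2.beta]
  have hen0 : (0 : ℝ) < b.en / b.ed := by positivity
  have hy0 : (0 : ℝ) < yn / yd := by positivity
  have hg := gr_split b.z.P R.g0 g1
  exact ⟨_, _, _, _, _, _, Continuous.continuousOn (by fun_prop), fun m hm =>
    corner_low hlam h1 hen0 hy0 he' pz p1 p0 nz n1 n0 rfl rfl hg z0 t0 R.g0 f0 hf.f1 hm⟩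

/-! ### the high bracket -/

/-- linear relations of a corner bracket `[y (1 - lam), 1]`; `mn/md = y (1 - a/D)` -/
def HiBr.cok (b : HiBr) (D a yn yd : Int) : Bool :=
  b.ok && leqL b.c1.P.wL b.c1.P.bL && leqL b.c0.P.wL b.c0.P.bL &&
  leqL b.c1.P.uL b.c1.P.bL && leqL b.c0.P.uL b.c0.P.bL && leqL b.c0.P.gL b.c1.P.gL &&
  leqL (lcL b.md b.D 0 []) (lcL (Int.neg b.mn) b.c1.P.gL 0 []) &&
  decide (0 < a) && decide (a < D) &&
  decide (0 < yn) && decide (0 < yd) && decide (b.mn * (yd * D) = b.md * (yn * (D - a))) &&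
  decide (0 < b.mu) && ieq b.c1.P.g0 0

theorem hi_end {A N t m L mu : ℝ} (h3 : m ^ 2 ≤ m / L) (h4 : 0 ≤ mu) (ht : 0 ≤ t) :
    A - mu * N ≤ A + -mu * (N - m / L * t) - mu * m ^ 2 * t := by
  have h5 := mul_le_mul_of_nonneg_right (mul_le_mul_of_nonneg_left h3 h4) ht
  nlinarith

structure HiBr.CFact (b : HiBr) (D a yn yd : Int) (lam : ℝ) : Prop where
  ok : b.cok D a yn yd = true
  pw1 : PW Pos (InK lam 1) b.c1.P.beta b.c1.P.Ur b.c1.P.Wr b.c1.P.gr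
  pw0 : PW Pos (InK lam 1) b.c0.P.beta b.c0.P.Ur b.c0.P.Wr b.c0.P.gr
  g1 : ∀ x, Pos x → H b.c1.P.gr x ≤ 0
  n1 : ∀ x, InK lam 1 x → 0 ≤ H b.c1.P.Wr x
  n0 : ∀ x, InK lam 1 x → 0 ≤ H b.c0.P.Wr x
  fin : ∀ x, Pos x → (1 / lam ^ 2) * H (sc lam (vec b.c1.P.Q b.c1.P.bL +
      ((yn / yd : ℝ) * (1 - lam) / (2 * lam ^ 2)) • vec b.c1.P.Q b.c1.P.gL)) x ≤
    H (vec b.c1.P.Q b.c1.P.bL) x - (b.mu / b.c1.P.Q * (1 - lam) : ℝ) * H eN x

theorem HiBr.CFact.br {b : HiBr} {D a yn yd : Int} {lam : ℝ}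
    (hf : b.CFact D a yn yd lam) (ha : (a : ℝ) ≤ D * lam) (h1 : lam < 1) {m : ℝ}
    (hm : (yn / yd : ℝ) * (1 - lam) ≤ m) (hm1 : m ≤ 1) :
    Facts.Br lam (b.en / b.ed) (1 / (2 * (b.en / b.ed) * lam ^ 2))
      (b.mu / b.c1.P.Q * (1 - lam)) m b.c1.P.beta
      (-(((yn / yd : ℝ) * (1 - lam)) • b.c1.P.gr)) b.c1.P.beta
      (b.c1.P.beta + ((b.en / b.ed : ℝ) * ((yn / yd : ℝ) * (1 - lam))) • b.c1.P.gr)
      b.c1.P.gr b.c1.P.gr := by
  have hok := hf.ok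
  simp only [HiBr.cok, Bool.and_eq_true, decide_eq_true_eq] at hok
  obtain ⟨⟨⟨⟨⟨⟨⟨⟨⟨⟨⟨⟨⟨k0, k1⟩, k2⟩, k3⟩, k4⟩, k5⟩, k6⟩, k7⟩, k8⟩, k9⟩, k10⟩, k11⟩, k12⟩, k13⟩ := hok
  have R := HiBr.rel k0
  have hQ : (0 : ℝ) < b.c1.P.Q := by exact_mod_cast R.hQ
  have hen : (0 : ℝ) < b.en := by exact_mod_cast R.hen
  have hed : (0 : ℝ) < b.ed := by exact_mod_cast R.hed
  have hmn : (0 : ℝ) < b.mn := by exact_mod_cast R.hmn
  have hmd : (0 : ℝ) < b.md := by exact_mod_cast R.hmd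
  have ha0 : (0 : ℝ) < a := by exact_mod_cast k7
  have haD : (a : ℝ) < D := by exact_mod_cast k8
  have hD : (0 : ℝ) < D := ha0.trans haD
  have hyn : (0 : ℝ) < yn := by exact_mod_cast k9
  have hyd : (0 : ℝ) < yd := by exact_mod_cast k10
  have hmu : (0 : ℝ) < b.mu := by exact_mod_cast k12
  have r10 : (b.mn : ℝ) * (yd * D) = b.md * (yn * (D - a)) := by exact_mod_cast k11
  have hlam : 0 < lam := by
    have : 0 < D * lam := lt_of_lt_of_le ha0 ha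
    exact (pos_iff_pos_of_mul_pos this).1 hD
  have hDa : (0 : ℝ) < D - a := by linarith
  have h1l : 0 < 1 - lam := by linarith
  have hl2 : lam ^ 2 ≤ 1 := by nlinarith
  obtain ⟨l, hl⟩ : ∃ l : ℝ, l = b.en / b.ed := ⟨_, rfl⟩
  obtain ⟨mm, hmm⟩ : ∃ mm : ℝ, mm = b.mn / b.md := ⟨_, rfl⟩
  obtain ⟨y, hy⟩ : ∃ y : ℝ, y = yn / yd := ⟨_, rfl⟩
  have hl0 : 0 < l := by rw [hl]; positivity
  have hy0 : 0 < y := by rw [hy]; positivity
  have hmy : mm = y * ((D - a) / D) := by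
    rw [hmm, hy]
    field_simp
    linarith
  have u1 : b.c1.P.Ur = b.c1.P.beta := by rw [Par2.Ur_eq, Par2.beta_eq, leqL_sound k3]
  have u0 : b.c0.P.Ur = b.c0.P.beta := by rw [Par2.Ur_eq, Par2.beta_eq, leqL_sound k4]
  have eg : b.c0.P.gr = b.c1.P.gr := by
    rw [Par2.gr_eq, Par2.gr_eq, leqL_sound k5, R.hQ0]
  have eD : vec b.c1.P.Q b.D = -(mm • b.c1.P.gr) := by
    have h := congrArg (vec b.c1.P.Q) (leqL_sound k6)
    rw [vec_lcL, vec_lcL, vec_nil, smul_zero, add_zero, add_zero, ← Par2.gr_eq, neg_cast] at h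
    funext i
    have h2 := congrFun h i
    simp only [Pi.smul_apply, smul_eq_mul, Pi.neg_apply] at h2 ⊢
    rw [hmm]
    field_simp
    linarith
  have e0 : b.c0.P.beta = b.c1.P.beta + (l * mm) • b.c1.P.gr := by
    have h := R.rD
    rw [eD] at h
    funext i
    have h2 := congrFun h i
    simp only [Pi.smul_apply, smul_eq_mul, Pi.neg_apply, Pi.sub_apply, Pi.add_apply] at h2 ⊢
    rw [hl]
    field_simp
    linarith
  have pw1 := hf.pw1
  have pw0 := hf.pw0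
  rw [u1, Wr_of_leqL k1] at pw1
  rw [u0, Wr_of_leqL k2, eg] at pw0
  have n1 := hf.n1
  have n0 := hf.n0
  rw [Wr_of_leqL k1] at n1
  rw [Wr_of_leqL k2] at n0
  obtain ⟨q, hq⟩ : ∃ q : ℝ, q = (1 - lam) * D / (D - a) := ⟨_, rfl⟩
  have q0 : 0 ≤ q := by rw [hq]; positivity
  have q1 : q ≤ 1 := by
    rw [hq, div_le_one hDa]
    linarith
  have hqm : q * mm = y * (1 - lam) := by
    rw [hq, hmy]
    field_simp
  have cs := PW_convex pw1 pw0 q0 q1
  have ePs : (1 - q) • b.c1.P.beta + q • b.c0.P.beta =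
      b.c1.P.beta + (l * (y * (1 - lam))) • b.c1.P.gr := by
    rw [e0, ← hqm]
    funext i
    simp only [Pi.add_apply, Pi.smul_apply, smul_eq_mul]
    ring
  rw [ePs] at cs
  have hT : ∀ z, InK lam 1 z → Pos z := fun z hz => Facts.inK_pos (by linarith) h1.le hz
  rw [← hl, ← hy]
  rw [← hy] at hm
  have hm0 : 0 < y * (1 - lam) := by positivity
  refine ⟨?_, ?_, ?_, ?_, n1, ?_, ⟨-(b.mu / b.c1.P.Q * (1 - lam) : ℝ), ?_⟩⟩
  · simp [Par2.beta]
  · have : b.c1.P.gr 0 = 0 := by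
      have := ieq_sound k13
      simp [Par2.gr, this]
    simp [this]
  · refine PW_mono_U pw1 (fun x hx => ?_) hT
    have e : b.c1.P.beta - -((y * (1 - lam)) • b.c1.P.gr) - m • b.c1.P.gr =
        b.c1.P.beta + (-(m - y * (1 - lam))) • b.c1.P.gr := by
      funext i
      simp only [Pi.add_apply, Pi.smul_apply, Pi.sub_apply, Pi.neg_apply, smul_eq_mul]
      ring
    rw [e, H_add, H_smul]
    have := mul_nonneg_of_nonpos_of_nonpos (neg_nonpos.2 (sub_nonneg.2 hm)) (hf.g1 x hx)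
    linarith
  · have eP : b.c1.P.beta - l • (-((y * (1 - lam)) • b.c1.P.gr)) =
        b.c1.P.beta + (l * (y * (1 - lam))) • b.c1.P.gr := by
      funext i
      simp only [Pi.add_apply, Pi.smul_apply, Pi.sub_apply, Pi.neg_apply, smul_eq_mul]
      ring
    rw [eP]
    refine PW_mono_U cs (fun x hx => ?_) hT
    have e : b.c1.P.beta + (l * (y * (1 - lam))) • b.c1.P.gr -
        -((y * (1 - lam)) • b.c1.P.gr) - m • b.c1.P.gr =
        b.c1.P.beta + (l * (y * (1 - lam))) • b.c1.P.gr +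
          (-(m - y * (1 - lam))) • b.c1.P.gr := by
      funext i
      simp only [Pi.add_apply, Pi.smul_apply, Pi.sub_apply, Pi.neg_apply, smul_eq_mul]
      ring
    rw [e, H_add _ ((-(m - y * (1 - lam))) • b.c1.P.gr), H_smul]
    have := mul_nonneg_of_nonpos_of_nonpos (neg_nonpos.2 (sub_nonneg.2 hm)) (hf.g1 x hx)
    linarith
  · intro x hx
    rw [← ePs, H_add, H_smul, H_smul]
    exact add_nonneg (mul_nonneg (sub_nonneg.2 q1) (n1 x hx)) (mul_nonneg q0 (n0 x hx))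
  · intro x hx
    have hk : 1 / (2 * l * lam ^ 2) * (l * (y * (1 - lam))) =
        y * (1 - lam) / (2 * lam ^ 2) := by
      field_simp
    have e5 : b.c1.P.beta + (1 / (2 * l * lam ^ 2)) •
        (b.c1.P.beta + (l * (y * (1 - lam))) • b.c1.P.gr - b.c1.P.beta) =
        vec b.c1.P.Q b.c1.P.bL + (y * (1 - lam) / (2 * lam ^ 2)) • vec b.c1.P.Q b.c1.P.gL := by
      rw [← hk, Par2.beta_eq, Par2.gr_eq]
      funext i
      simp only [Pi.add_apply, Pi.smul_apply, Pi.sub_apply, smul_eq_mul]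
      ring
    rw [e5]
    have f := hf.fin x hx
    rw [← hy] at f
    refine f.trans ?_
    rw [← Par2.beta_eq]
    have ht : 0 ≤ tot x := Cvx.tot_nn hx
    have hmpos : 0 < m := lt_of_lt_of_le hm0 hm
    have hl2' : 0 < lam ^ 2 := by positivity
    have h3 : m ^ 2 ≤ m / lam ^ 2 := by
      rw [le_div_iff₀ hl2']
      have h5 : m ^ 2 ≤ m := by nlinarith
      have h6 : 0 ≤ m ^ 2 := sq_nonneg m
      nlinarith
    have h4 : 0 ≤ (b.mu / b.c1.P.Q * (1 - lam) : ℝ) := by positivity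
    exact hi_end h3 h4 ht
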