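import Vale.Agent.P154.V2Corner
import Vale.Agent.P154.V2Asm

/-!
The corner `lam → 1` of the Poisson model: from certificates to nonreconstruction.
-/

namespace Vale.Agent.P154

open Filter Topology
open Cor Low

/-- a merge inequality has a certificate for all `lam ∈ [0, 1]` -/
def CPW (c : Cfg2) : Prop :=
  c.good = true ∧ ∃ C : Cert2, C.check c (baseTri 1 1) (baseTri 1 1) = true

/-- a polynomial inequality has a certificate for `a ≤ D lam ≤ D` -/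
def CFin (D a : Int) (f : Nat → FCfg) : Prop :=
  ∃ (K : Nat) (C : FCert), C.check (f K) D a D (baseTri 1 1) = true

theorem CPW.pw {c : Cfg2} (h : CPW c) {lam : ℝ} (h0 : 0 ≤ lam) (h1 : lam ≤ 1) :
    PW Pos (InK lam 1) c.P.beta c.P.Ur c.P.Wr c.P.gr := by
  obtain ⟨hg, C, hC⟩ := h
  obtain ⟨hP, hW, hZ⟩ := Cfg2.good_sound hg
  exact Cert2.pw_pos hP hW hZ C (k := 1) (d := 1) one_pos one_pos hC h0 h1 (by simpa using h1)

def corA (T : List Int) (e : Int) (K : Nat) : FCfg := ⟨rowsA T e, 6, 12, K⟩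
def corB (T G : List Int) (e yn yd : Int) (K : Nat) : FCfg := ⟨rowsB T G e yn yd, 6, 12, K⟩
def corC (T G : List Int) (mu yn yd : Int) (K : Nat) : FCfg := ⟨rowsC T G mu yn yd, 6, 12, K⟩

structure LoBr.CCert (b : LoBr) (D a yn yd : Int) : Prop where
  ok : b.cok D a yn yd = true
  pz : CPW b.z
  pa1 : CPW b.a1
  pa0 : CPW b.a0
  pb1 : CPW b.b1
  pb0 : CPW b.b0
  wz : CFin D a (hFin b.z.P.wL)
  wa1 : CFin D a (hFin b.a1.P.wL)
  wa0 : CFin D a (hFin b.a0.P.wL)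
  wb1 : CFin D a (hFin b.b1.P.wL)
  wb0 : CFin D a (hFin b.b0.P.wL)
  fin0 : CFin D a (corA b.z.P.bL b.e)
  fin1 : CFin D a (corB b.a1.P.bL b.z.P.gL b.e yn yd)

structure HiBr.CCert (b : HiBr) (D a yn yd : Int) : Prop where
  ok : b.cok D a yn yd = true
  p1 : CPW b.c1
  p0 : CPW b.c0
  w1 : CFin D a (hFin b.c1.P.wL)
  w0 : CFin D a (hFin b.c0.P.wL)
  g1 : GCert b.c1
  fin : CFin D a (corC b.c1.P.bL b.c1.P.gL b.mu yn yd)

theorem CFin.nonneg {D a : Int} {Q : Int} {h : List Int} (hc : CFin D a (hFin h)) (hQ : 0 < Q)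
    (ha0 : 0 < a) (haD : a < D) {lam : ℝ} (ha : (a : ℝ) ≤ D * lam) (h1 : lam < 1) {x : V}
    (hx : InK lam 1 x) : 0 ≤ H (vec Q h) x := by
  obtain ⟨K, C, hC⟩ := hc
  have hD : (0 : ℝ) < D := by exact_mod_cast ha0.trans haD
  exact hpos hQ (ha0.trans haD) haD hC ha (by nlinarith) hx

theorem LoBr.CCert.fact {b : LoBr} {D a yn yd : Int} (h : b.CCert D a yn yd) {lam : ℝ}
    (ha : (a : ℝ) ≤ D * lam) (h1 : lam < 1) : b.CFact D a yn yd lam := by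
  have hok := h.ok
  simp only [LoBr.cok, Bool.and_eq_true, decide_eq_true_eq] at hok
  obtain ⟨⟨⟨⟨⟨⟨⟨⟨⟨⟨⟨⟨⟨k0, -⟩, -⟩, -⟩, -⟩, -⟩, k6⟩, k7⟩, -⟩, k9⟩, -⟩, -⟩, -⟩, -⟩ := hok
  have hQ : 0 < b.z.P.Q := (LoBr.rel k0).hQ
  have hD : 0 < D := k6.trans k7
  have hlam : 0 < lam := by
    have ha0 : (0 : ℝ) < a := by exact_mod_cast k6
    have hD' : (0 : ℝ) < D := by exact_mod_cast hD
    have : 0 < D * lam := lt_of_lt_of_le ha0 ha
    exact (pos_iff_pos_of_mul_pos this).1 hD'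
  obtain ⟨K0, C0, e0⟩ := h.fin0
  obtain ⟨K1, C1, e1⟩ := h.fin1
  refine ⟨h.ok, h.pz.pw hlam.le h1.le, h.pa1.pw hlam.le h1.le, h.pa0.pw hlam.le h1.le,
    h.pb1.pw hlam.le h1.le, h.pb0.pw hlam.le h1.le, ?_, ?_, ?_, ?_, ?_, ?_, ?_⟩
  · intro x hx
    rw [Par2.Wr_eq]
    exact h.wz.nonneg (Cfg2.good_sound h.pz.1).1.hQ k6 k7 ha h1 hx
  · intro x hx
    rw [Par2.Wr_eq]
    exact h.wa1.nonneg (Cfg2.good_sound h.pa1.1).1.hQ k6 k7 ha h1 hx
  · intro x hx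
    rw [Par2.Wr_eq]
    exact h.wa0.nonneg (Cfg2.good_sound h.pa0.1).1.hQ k6 k7 ha h1 hx
  · intro x hx
    rw [Par2.Wr_eq]
    exact h.wb1.nonneg (Cfg2.good_sound h.pb1.1).1.hQ k6 k7 ha h1 hx
  · intro x hx
    rw [Par2.Wr_eq]
    exact h.wb0.nonneg (Cfg2.good_sound h.pb0.1).1.hQ k6 k7 ha h1 hx
  · intro x hx
    exact closeA hQ hD k7 e0 hlam h1 ha hx
  · intro x hx
    exact closeB hQ k9 hD k7 e1 hlam h1 ha hx

theorem HiBr.CCert.fact {b : HiBr} {D a yn yd : Int} (h : b.CCert D a yn yd) {lam : ℝ}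
    (ha : (a : ℝ) ≤ D * lam) (h1 : lam < 1) : b.CFact D a yn yd lam := by
  have hok := h.ok
  simp only [HiBr.cok, Bool.and_eq_true, decide_eq_true_eq] at hok
  obtain ⟨⟨⟨⟨⟨⟨⟨⟨⟨⟨⟨⟨⟨k0, -⟩, -⟩, -⟩, -⟩, -⟩, -⟩, k7⟩, k8⟩, -⟩, k10⟩, -⟩, -⟩, k13⟩ := hok
  have hQ : 0 < b.c1.P.Q := (HiBr.rel k0).hQ
  have hD : 0 < D := k7.trans k8
  have hlam : 0 < lam := by
    have ha0 : (0 : ℝ) < a := by exact_mod_cast k7
    have hD' : (0 : ℝ) < D := by exact_mod_cast hD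
    have : 0 < D * lam := lt_of_lt_of_le ha0 ha
    exact (pos_iff_pos_of_mul_pos this).1 hD'
  obtain ⟨K0, C0, e0⟩ := h.fin
  refine ⟨h.ok, h.p1.pw hlam.le h1.le, h.p0.pw hlam.le h1.le, h.g1.nonpos hQ, ?_, ?_, ?_⟩
  · intro x hx
    rw [Par2.Wr_eq]
    exact h.w1.nonneg (Cfg2.good_sound h.p1.1).1.hQ k7 k8 ha h1 hx
  · intro x hx
    rw [Par2.Wr_eq]
    exact h.w0.nonneg (Cfg2.good_sound h.p0.1).1.hQ k7 k8 ha h1 hx
  · intro x hx
    have hb : b.c1.P.bL.getD 0 0 = 0 := rfl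
    have hg : b.c1.P.gL.getD 0 0 = 0 := ieq_sound k13
    exact closeC hQ k10 hD k8 hb hg e0 hlam h1 ha hx

/-- Poisson trees, `a/D ≤ lam < 1`: nonreconstruction for every `d` with `d lam² ≤ 1`. -/
theorem corner_poisson {bl : LoBr} {bh : HiBr} {D a yn yd : Int} (hl : bl.CCert D a yn yd)
    (hh : bh.CCert D a yn yd) (el : bl.ed * (D * D) ≤ bl.en * (a * a))
    (eh : bh.ed * (D * D) ≤ bh.en * (a * a)) {lam : ℝ} (ha : (a : ℝ) ≤ D * lam) (h1 : lam < 1)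
    {d : ℝ} (hd : 0 ≤ d) (hdl : d * lam ^ 2 ≤ 1) : Nonreconstruction 3 lam (poisson d) := by
  have fl := hl.fact ha h1
  have fh := hh.fact ha h1
  have hok := hl.ok
  simp only [LoBr.cok, Bool.and_eq_true, decide_eq_true_eq] at hok
  obtain ⟨⟨⟨⟨⟨⟨⟨⟨⟨⟨⟨⟨⟨k0, -⟩, -⟩, -⟩, -⟩, -⟩, k6⟩, k7⟩, k8⟩, k9⟩, -⟩, -⟩, -⟩, -⟩ := hok
  have hok' := hh.ok
  simp only [HiBr.cok, Bool.and_eq_true, decide_eq_true_eq] at hok'
  obtain ⟨⟨⟨⟨⟨⟨⟨⟨⟨⟨⟨⟨⟨j0, -⟩, -⟩, -⟩, -⟩, -⟩, -⟩, -⟩, -⟩, -⟩, -⟩, -⟩, j12⟩, -⟩ := hok'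
  have R := LoBr.rel k0
  have S := HiBr.rel j0
  have ha0 : (0 : ℝ) < a := by exact_mod_cast k6
  have haD : (a : ℝ) < D := by exact_mod_cast k7
  have hD : (0 : ℝ) < D := ha0.trans haD
  have hlam : 0 < lam := by
    have : 0 < D * lam := lt_of_lt_of_le ha0 ha
    exact (pos_iff_pos_of_mul_pos this).1 hD
  have hl2 : 0 < lam ^ 2 := by positivity
  have h1l : 0 < 1 - lam := by linarith
  have hyn : (0 : ℝ) < yn := by exact_mod_cast k8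
  have hyd : (0 : ℝ) < yd := by exact_mod_cast k9
  have h0 : -(1 / 2) ≤ lam := by linarith
  have F : Facts lam (poisson d) := facts h0 h1.le (isOff_poisson hd)
  have hsq : (a : ℝ) * a ≤ (D * lam) * (D * lam) := mul_self_le_mul_self ha0.le ha
  have hdi : d ≤ 1 / lam ^ 2 := by
    rw [le_div_iff₀ hl2]; exact hdl
  have key : ∀ en ed : Int, 0 < en → 0 < ed → ed * (D * D) ≤ en * (a * a) →
      1 / lam ^ 2 ≤ (en : ℝ) / ed := by
    intro en ed hen hed he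
    have hen' : (0 : ℝ) < en := by exact_mod_cast hen
    have hed' : (0 : ℝ) < ed := by exact_mod_cast hed
    have he' : (ed : ℝ) * (D * D) ≤ en * (a * a) := by exact_mod_cast he
    have h2 := mul_le_mul_of_nonneg_left hsq hen'.le
    have h3 : (D : ℝ) * D * ed ≤ D * D * (en * lam ^ 2) := by linarith
    have h4 := le_of_mul_le_mul_left h3 (by positivity)
    rw [div_le_div_iff₀ hl2 hed']
    linarith
  have kl := key _ _ R.en R.ed el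
  have kh := key _ _ S.hen S.hed eh
  refine nonrec_of_Bks F hlam.ne' (l := [(yn / yd : ℝ) * (1 - lam), 1]) ⟨?_, ?_, ?_⟩
  · rintro ⟨n0, hn⟩
    obtain ⟨P, Dd, p1, p0, g1, g0, hc, hB⟩ := fl.bracket ha h1
    have hQ : (0 : ℝ) < bl.z.P.Q := by exact_mod_cast R.hQ
    have he : (0 : ℝ) < bl.e := by exact_mod_cast R.e
    exact bracket_poisson hlam.ne' h0 h1.le hd hdl F (hdi.trans kl) (by linarith)
      (by positivity) hc hB hn
  · rintro ⟨n0, hn⟩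
    have hQ : (0 : ℝ) < bh.c1.P.Q := by exact_mod_cast S.hQ
    have hmu : (0 : ℝ) < bh.mu := by exact_mod_cast j12
    refine bracket_poisson hlam.ne' h0 h1.le hd hdl F (mlo := (yn / yd : ℝ) * (1 - lam))
      (mhi := 1) (l := (bh.en : ℝ) / bh.ed) (delta := (bh.mu / bh.c1.P.Q * (1 - lam) : ℝ))
      (hdi.trans kh) (by linarith) (by positivity) (P := fun _ => bh.c1.P.beta)
      (D := fun _ => -(((yn / yd : ℝ) * (1 - lam)) • bh.c1.P.gr))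
      (p1 := fun _ => bh.c1.P.beta)
      (p0 := fun _ => bh.c1.P.beta + ((bh.en / bh.ed : ℝ) * ((yn / yd : ℝ) * (1 - lam))) •
        bh.c1.P.gr)
      (g1 := fun _ => bh.c1.P.gr) (g0 := fun _ => bh.c1.P.gr) continuousOn_const
      (fun m hm => fh.br ha h1 hm.1 hm.2) hn
  · show lam ^ 2 ≤ 1
    nlinarith

end Vale.Agent.P154
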