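import Vale.Agent.P154.V2Bound
import Vale.Agent.P154.V2Check

/-!
Soundness of the fast univariate checks.
-/

namespace Vale.Agent.P154

/-! ### primitives -/

theorem fcN_eq (n : Nat) (f : Nat → Bool) : fcN n f = f n := by
  cases n <;> rfl

theorem fcZ_eq (z : Int) (f : Int → Bool) : fcZ z f = f z := by
  cases z with
  | ofNat n => exact fcN_eq n (fun n => f (Int.ofNat n))
  | negSucc n => exact fcN_eq n (fun n => f (Int.negSucc n))

theorem fcP_sound {z : Int} {f : Nat → Bool} (h : fcP z f = true) :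
    ∃ n : ℕ, z = (n : ℤ) ∧ f n = true := by
  cases z with
  | ofNat n => exact ⟨n, rfl, by rw [← h]; exact (fcN_eq n f).symm⟩
  | negSucc n => exact absurd h (by simp [fcP])

theorem fcLN_eq (l : List Nat) (f : List Nat → Bool) : fcLN l f = f l := by
  induction l generalizing f with
  | nil => rfl
  | cons a as ih =>
    have : fcLN (a :: as) f = fcN a (fun a => fcLN as (fun as => f (a :: as))) := rfl
    rw [this, fcN_eq, ih]

theorem fcLZ_eq (l : List Int) (f : List Int → Bool) : fcLZ l f = f l := by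
  induction l generalizing f with
  | nil => rfl
  | cons a as ih =>
    have : fcLZ (a :: as) f = fcZ a (fun a => fcLZ as (fun as => f (a :: as))) := rfl
    rw [this, fcZ_eq, ih]

theorem fcPt_eq (a : Pt) (f : Pt → Bool) : fcPt a f = f a := by
  rw [fcPt, fcZ_eq, fcZ_eq, fcZ_eq]

theorem fcTri_eq (U : Tri) (f : Tri → Bool) : fcTri U f = f U := by
  rw [fcTri, fcPt_eq, fcPt_eq, fcPt_eq]

theorem band_eq (x y : Bool) : band x y = (x && y) := by cases x <;> rfl

theorem bor_eq (x y : Bool) : bor x y = (x || y) := by cases x <;> rfl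

theorem addF_eq (a b : List Int) : addF a b = addL a b := by
  induction a generalizing b with
  | nil => cases b <;> rfl
  | cons x xs ih =>
    cases b with
    | nil => rfl
    | cons y ys =>
      have : addF (x :: xs) (y :: ys) = Int.add x y :: addF xs ys := rfl
      rw [this, ih]; rfl

theorem smulF_eq (c : Int) (a : List Int) : smulF c a = smulL c a := by
  induction a with
  | nil => rfl
  | cons x xs ih =>
    have : smulF c (x :: xs) = Int.mul c x :: smulF c xs := rfl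
    rw [this, ih]; rfl

theorem absF_nil : absF [] = 0 := rfl

theorem absF_cons (x : Int) (xs : List Int) : absF (x :: xs) = x.natAbs + absF xs := rfl

theorem absF_addL (a b : List Int) : absF (addL a b) ≤ absF a + absF b := by
  induction a generalizing b with
  | nil => simp [addL, absF_nil]
  | cons x xs ih =>
    cases b with
    | nil => simp [addL, absF_nil]
    | cons y ys =>
      rw [addL, absF_cons, absF_cons, absF_cons]
      have h1 : (Int.add x y).natAbs ≤ x.natAbs + y.natAbs := Int.natAbs_add_le x y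
      have h2 := ih ys
      omega

/-! ### Horner's rule -/

theorem horN_cons (A MOD g : Nat) (l : List Nat) :
    horN A MOD (g :: l) = (g + A * horN A MOD l) % MOD := rfl

theorem zipG_cons (MOD : Nat) (f : Int) (F : List Int) (p : Nat) (P : List Nat) :
    zipG MOD (f :: F) (p :: P) = (toMod MOD f * p % MOD) :: zipG MOD F P := rfl

/-- `B ^ k, ..., B ^ 0` -/
def powL (B : Nat) : Nat → List Nat
  | 0 => [1]
  | k + 1 => B ^ (k + 1) :: powL B k

theorem powB_eq (B : Nat) : powB B = powL B 11 := by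
  simp only [powB, powL]
  rw [pow_one]
  rfl

theorem hor_cast {MOD : ℕ} (hM : 0 < MOD) (w : Nat → ℤ) {A B : PE} {a b : ℕ}
    (ha : (a : ℤ) ≡ A.evZ w [ZMOD MOD]) (hb : (b : ℤ) = B.evZ w) (F : List Int) (k : ℕ)
    (hk : F.length ≤ k + 1) :
    ((horN a MOD (zipG MOD F (powL b k)) : ℕ) : ℤ) ≡ (hpv F k A B).evZ w [ZMOD MOD] := by
  induction F generalizing k with
  | nil =>
    have : zipG MOD [] (powL b k) = [] := rfl
    rw [this]
    exact Int.ModEq.refl _
  | cons f fs ih =>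
    have hpow : ∀ n : ℕ, ((b ^ n : ℕ) : ℤ) = (PE.pow B n).evZ w := by
      intro n
      rw [Kron.evZ_eq, PE.ev_pow, ← Kron.evZ_eq, ← hb]
      push_cast
      rfl
    obtain ⟨P', hP'⟩ : ∃ P', powL b k = b ^ k :: P' ∧ (∀ k', k = k' + 1 → P' = powL b k') := by
      cases k with
      | zero => exact ⟨[], by simp [powL], fun k' hk' => by omega⟩
      | succ k => exact ⟨powL b k, rfl, fun k' hk' => by rw [show k = k' by omega]⟩
    obtain ⟨hP1, hP2⟩ := hP'
    rw [hP1, zipG_cons, horN_cons]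
    have h1 : ((toMod MOD f * b ^ k % MOD : ℕ) : ℤ) ≡ f * (PE.pow B k).evZ w [ZMOD MOD] := by
      rw [← hpow]
      push_cast
      exact (Int.mod_modEq _ _).trans ((toMod_cast hM f).mul_right _)
    have h2 : ((horN a MOD (zipG MOD fs P') : ℕ) : ℤ) ≡ (hpv fs (k - 1) A B).evZ w [ZMOD MOD] := by
      cases k with
      | zero =>
        have : fs = [] := by
          cases fs with
          | nil => rfl
          | cons _ _ => simp at hk
        subst this
        exact Int.ModEq.refl _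
      | succ k =>
        rw [hP2 k rfl]
        exact ih k (by simpa using hk)
    have h3 : (((toMod MOD f * b ^ k % MOD + a * horN a MOD (zipG MOD fs P')) % MOD : ℕ) : ℤ) ≡
        ((toMod MOD f * b ^ k % MOD : ℕ) : ℤ) + a * ((horN a MOD (zipG MOD fs P') : ℕ) : ℤ)
        [ZMOD MOD] := by
      push_cast
      exact Int.mod_modEq _ _
    refine h3.trans ?_
    have h4 : (hpv (f :: fs) k A B).evZ w = f * (PE.pow B k).evZ w +
        A.evZ w * (hpv fs (k - 1) A B).evZ w := rfl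
    rw [h4]
    exact h1.add (ha.mul h2)

theorem deg_pow (i : ℕ) (B : PE) (n : ℕ) : (PE.pow B n).deg i = n * B.deg i := by
  induction n with
  | zero => simp [PE.pow, PE.deg]
  | succ n ih => rw [PE.pow, PE.deg, ih]; ring

theorem l1_pow (B : PE) (n : ℕ) : (PE.pow B n).l1 = B.l1 ^ n := by
  induction n with
  | zero => simp [PE.pow, PE.l1]
  | succ n ih => rw [PE.pow, PE.l1, ih]; ring

theorem vars_pow (m : ℕ) (B : PE) (n : ℕ) (h : B.vars m = true) : (PE.pow B n).vars m = true := by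
  induction n with
  | zero => simp [PE.pow, PE.vars]
  | succ n ih => rw [PE.pow, PE.vars, ih, h]; rfl

theorem hpv_deg {A B : PE} (hA : A.deg 0 ≤ 1) (hB : B.deg 0 ≤ 1) (F : List Int) (k : ℕ)
    (hk : F.length ≤ k) : (hpv F k A B).deg 0 ≤ k := by
  induction F generalizing k with
  | nil => simp [hpv, PE.deg]
  | cons f fs ih =>
    simp only [List.length_cons] at hk
    have h1 := ih (k - 1) (by omega)
    simp only [hpv, PE.deg, deg_pow]
    refine max_le ?_ ?_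
    · have := Nat.mul_le_mul_left k hB
      omega
    · omega

theorem hpv_vars {A B : PE} (hA : A.vars 1 = true) (hB : B.vars 1 = true) (F : List Int) (k : ℕ) :
    (hpv F k A B).vars 1 = true := by
  induction F generalizing k with
  | nil => simp [hpv, PE.vars]
  | cons f fs ih =>
    simp only [hpv, PE.vars, vars_pow 1 B k hB, hA, ih (k - 1)]
    rfl

theorem hpv_l1 {A B : PE} {q : ℕ} (hA : A.l1 ≤ q) (hB : B.l1 ≤ q) (hq : 1 ≤ q) (F : List Int)
    (k : ℕ) (hk : F.length ≤ k + 1) : (hpv F k A B).l1 ≤ q ^ k * absF F := by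
  induction F generalizing k with
  | nil => simp [hpv, PE.l1]
  | cons f fs ih =>
    simp only [List.length_cons] at hk
    simp only [hpv, PE.l1, l1_pow, absF_cons]
    have h1 : f.natAbs * B.l1 ^ k ≤ q ^ k * f.natAbs := by
      rw [mul_comm]
      exact Nat.mul_le_mul_right _ (Nat.pow_le_pow_left hB k)
    have h2 : A.l1 * (hpv fs (k - 1) A B).l1 ≤ q ^ k * absF fs := by
      rcases Nat.eq_zero_or_pos k with rfl | hkp
      · have : fs = [] := by
          cases fs with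
          | nil => rfl
          | cons _ _ => simp at hk
        subst this
        simp [hpv, PE.l1]
      · have h3 := ih (k - 1) (by omega)
        calc A.l1 * (hpv fs (k - 1) A B).l1 ≤ q * (q ^ (k - 1) * absF fs) :=
              Nat.mul_le_mul hA h3
          _ = q ^ k * absF fs := by
              rw [← mul_assoc, ← pow_succ']
              congr 2
              omega
    rw [mul_add]
    exact add_le_add h1 h2

/-- closure of a half open interval -/
theorem pv_continuous (l : List Int) : Continuous (pv l) := by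
  induction l with
  | nil => exact continuous_const
  | cons a as ih =>
    have : pv (a :: as) = fun z => (a : ℝ) + z * pv as z := by funext z; rfl
    rw [this]
    fun_prop

theorem pv_nonneg_of_Ico {l : List Int} {a b : ℝ} (hab : a < b)
    (h : ∀ z, a ≤ z → z < b → 0 ≤ pv l z) {z : ℝ} (h1 : a ≤ z) (h2 : z ≤ b) : 0 ≤ pv l z := by
  have hc : IsClosed {z : ℝ | 0 ≤ pv l z} := isClosed_le continuous_const (pv_continuous l)
  have hs : Set.Ico a b ⊆ {z : ℝ | 0 ≤ pv l z} := fun z hz => h z hz.1 hz.2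
  have := hc.closure_subset_iff.2 hs
  rw [closure_Ico hab.ne] at this
  exact this ⟨h1, h2⟩

/-- one interval -/
theorem chk_sound {F : List Int} {Zd K a b : ℕ} (hK : 0 < K) (hZ : 0 < Zd)
    (hF : F.length ≤ 11) (hb3 : b ≤ 3 * Zd)
    (hBM : Zd * (2 ^ K + 1) ≤ 2 ^ (12 * K))
    (hl : (4 * Zd) ^ 11 * absF F + 1 ≤ 2 ^ (K - 1))
    (h : chk (2 ^ K) (2 ^ (12 * K) - Zd * (2 ^ K + 1)) (2 ^ (12 * K)) (halfMask 12 K)
      (zipG (2 ^ (12 * K)) F (powB (Zd * (2 ^ K + 1)))) a b = true) {z : ℝ}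
    (h1 : (a : ℝ) ≤ Zd * (1 + z)) (h2 : Zd * (1 + z) ≤ b) : 0 ≤ pv F z := by
  rw [chk, band_eq, Bool.and_eq_true, fcN_eq, fcN_eq] at h
  obtain ⟨hab, hm⟩ := h
  have hab' : a < b := Nat.le_of_ble_eq_true hab
  have hZ' : (0 : ℝ) < Zd := by exact_mod_cast hZ
  set MOD : ℕ := 2 ^ (12 * K) with hMOD
  have hM : 0 < MOD := by positivity
  set B : ℕ := Zd * (2 ^ K + 1) with hB
  obtain ⟨A', hA'⟩ : ∃ A' : PE, A' = PE.add (PE.c ((a : ℤ) - Zd)) (PE.mul (PE.c ((b : ℤ) - Zd))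
    (PE.v 0)) := ⟨_, rfl⟩
  obtain ⟨B', hB'⟩ : ∃ B' : PE, B' = PE.mul (PE.c (Zd : ℤ)) (PE.add (PE.c 1) (PE.v 0)) := ⟨_, rfl⟩
  set w : ℕ → ℤ := fun i => Int.ofNat (2 ^ (K * (11 + 1) ^ i)) with hw
  have hw0 : w 0 = 2 ^ K := by
    simp only [hw, pow_zero, mul_one]
    rw [Int.ofNat_eq_natCast]; push_cast; rfl
  have hAe : A'.evZ w = ((a : ℤ) - Zd) + ((b : ℤ) - Zd) * 2 ^ K := by
    rw [hA', Kron.evZ_eq]
    simp only [PE.ev, hw0]
    push_cast
    ring
  have hBe : ((B : ℕ) : ℤ) = B'.evZ w := by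
    rw [hB', Kron.evZ_eq]
    simp only [PE.ev, hw0, hB]
    push_cast
    ring
  have ha : ((Nat.add (Nat.add a (Nat.mul b (2 ^ K))) (MOD - B) : ℕ) : ℤ) ≡ A'.evZ w
      [ZMOD MOD] := by
    have e : Nat.add (Nat.add a (Nat.mul b (2 ^ K))) (MOD - B) = a + b * 2 ^ K + (MOD - B) := rfl
    rw [e, hAe]
    have e2 : (((a + b * 2 ^ K + (MOD - B) : ℕ)) : ℤ) =
        (((a : ℤ) - Zd) + ((b : ℤ) - Zd) * 2 ^ K) + MOD := by
      rw [Nat.cast_add, Nat.cast_sub hBM]
      rw [hB]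
      push_cast
      ring
    rw [e2]
    simp [Int.ModEq]
  have hcast := hor_cast hM w ha hBe F 11 (by omega)
  rw [← powB_eq] at hcast
  set e : PE := hpv F 11 A' B' with he
  have hZ3 : (a : ℤ) ≤ 3 * Zd ∧ (b : ℤ) ≤ 3 * Zd := by
    constructor
    · have : a ≤ 3 * Zd := by omega
      exact_mod_cast this
    · exact_mod_cast hb3
  have hside : e.side 1 11 K = true := by
    rw [PE.side, Bool.and_eq_true, Bool.and_eq_true, Bool.and_eq_true, decide_eq_true_iff]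
    refine ⟨⟨⟨hK, ?_⟩, Nat.ble_eq_true_of_le ?_⟩, ?_⟩
    · exact hpv_vars (by rw [hA']; simp [PE.vars]) (by rw [hB']; simp [PE.vars]) F 11
    · refine le_trans ?_ hl
      have hl1 : A'.l1 ≤ 4 * Zd := by
        rw [hA']
        simp only [PE.l1]
        omega
      have hl2 : B'.l1 ≤ 4 * Zd := by
        rw [hB']
        simp only [PE.l1]
        have : (1 : ℤ).natAbs = 1 := rfl
        rw [this, Int.natAbs_natCast]
        omega
      have := hpv_l1 hl1 hl2 (by omega) F 11 (by omega)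
      rw [← he] at this
      omega
    · rw [List.all_eq_true]
      intro i hi
      rw [List.mem_range] at hi
      have : i = 0 := by omega
      subst this
      apply Nat.ble_eq_true_of_le
      exact hpv_deg (by rw [hA']; simp [PE.deg]) (by rw [hB']; simp [PE.deg]) F 11 hF
  have hmask : halfMask ((11 + 1) ^ 1) K = halfMask 12 K := by norm_num
  have hpk : e.packed 11 K = e.evZ w := rfl
  obtain ⟨S, hpa, hlt⟩ : ∃ S : ℕ, e.packed 11 K + (halfMask 12 K : ℤ) = (S : ℤ) ∧ S < MOD := by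
    refine ⟨∑ i ∈ Finset.range ((11 + 1) ^ 1), Kron.dg 11 K e i * (2 ^ K) ^ i, ?_, ?_⟩
    rotate_left
    · have := Kron.sum_digits_lt (2 ^ K) ((11 + 1) ^ 1) _ (fun i _ => Kron.dg_lt hside i)
      rw [← pow_mul] at this
      rw [hMOD, mul_comm 12 K]
      exact this
    · rw [← hmask]
      exact Kron.packed_add hside
  have hn : ((Nat.mod (Nat.add (horN (Nat.add (Nat.add a (Nat.mul b (2 ^ K))) (MOD - B)) MOD
      (zipG MOD F (powB B))) (halfMask 12 K)) MOD : ℕ) : ℤ) =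
      e.packed 11 K + (halfMask ((11 + 1) ^ 1) K : ℤ) := by
    have e1 : ∀ x y : ℕ, Nat.mod (Nat.add x y) MOD = (x + y) % MOD := fun _ _ => rfl
    rw [e1]
    push_cast
    have h5 := (hcast.add_right (halfMask 12 K : ℤ))
    have h6 : ((horN (Nat.add (Nat.add a (Nat.mul b (2 ^ K))) (MOD - B)) MOD
      (zipG MOD F (powB B)) : ℕ) + (halfMask 12 K : ℕ) : ℤ) % (MOD : ℤ) =
      ((hpv F 11 A' B').evZ w + (halfMask 12 K : ℤ)) % (MOD : ℤ) := h5
    rw [h6, ← he, ← hpk, hpa]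
    exact_mod_cast Nat.mod_eq_of_lt hlt
  have hland := Nat.eq_of_beq_eq_true hm
  rw [← hmask] at hland
  have key := Kron.nonneg_of_land hside (by rw [hmask]; exact hn) (by rw [hmask] at hland ⊢; exact hland)
  -- now the real statement
  have hpos : ∀ y : ℝ, (a : ℝ) / Zd - 1 ≤ y → y < (b : ℝ) / Zd - 1 → 0 ≤ pv F y := by
    intro y hy1 hy2
    have g1 : (a : ℝ) ≤ Zd * (1 + y) := by
      have : (a : ℝ) / Zd ≤ 1 + y := by linarith
      rw [div_le_iff₀ hZ'] at this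
      linarith
    have g2 : Zd * (1 + y) < (b : ℝ) := by
      have : 1 + y < (b : ℝ) / Zd := by linarith
      rw [lt_div_iff₀ hZ'] at this
      linarith
    set D : ℝ := b - Zd * (1 + y) with hD
    have hD0 : 0 < D := by rw [hD]; linarith
    set t : ℝ := (Zd * (1 + y) - a) / D with ht
    have ht0 : 0 ≤ t := div_nonneg (by linarith) hD0.le
    have k0 := key (fun _ => t) (fun _ => ht0)
    have hBv : B'.ev (fun _ => t) = Zd * (1 + t) := by
      rw [hB']; simp only [PE.ev]; push_cast; ring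
    have hAv : A'.ev (fun _ => t) = ((a : ℝ) - Zd) + (b - Zd) * t := by
      rw [hA']; simp only [PE.ev]; push_cast; ring
    have hBne : B'.ev (fun _ => t) ≠ 0 := by rw [hBv]; positivity
    have hev := ev_hpv (fun _ => t) F 11 A' B' (by omega) hBne
    have hz : A'.ev (fun _ => t) / B'.ev (fun _ => t) = y := by
      rw [hAv, hBv, div_eq_iff (by positivity)]
      have hDt : D * t = Zd * (1 + y) - a := by
        rw [ht]; field_simp
      have : D ≠ 0 := hD0.ne'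
      have h7 : (b : ℝ) = D + Zd * (1 + y) := by rw [hD]; ring
      rw [h7]
      linear_combination hDt
    rw [he, hev, hz, hBv] at k0
    by_contra hneg
    rw [not_le] at hneg
    have : (Zd * (1 + t) : ℝ) ^ 11 * pv F y < 0 := mul_neg_of_pos_of_neg (by positivity) hneg
    linarith
  refine pv_nonneg_of_Ico (a := (a : ℝ) / Zd - 1) (b := (b : ℝ) / Zd - 1) ?_ hpos ?_ ?_
  · have : (a : ℝ) / Zd < b / Zd := by
      apply div_lt_div_of_pos_right _ hZ'
      exact_mod_cast hab'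
    linarith
  · have : (a : ℝ) / Zd ≤ 1 + z := by
      rw [div_le_iff₀ hZ']; linarith
    linarith
  · have : 1 + z ≤ (b : ℝ) / Zd := by
      rw [le_div_iff₀ hZ']; linarith
    linarith

/-- the constants of the univariate checks -/
structure UC (K Zd : ℕ) : Prop where
  hK : 0 < K
  hZ : 0 < Zd
  hBM : Zd * (2 ^ K + 1) ≤ 2 ^ (12 * K)

/-- `chk` with the constants filled in -/
def chkC (K Zd : ℕ) (F : List Int) (a b : ℕ) : Bool :=
  chk (2 ^ K) (2 ^ (12 * K) - Zd * (2 ^ K + 1)) (2 ^ (12 * K)) (halfMask 12 K)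
    (zipG (2 ^ (12 * K)) F (powB (Zd * (2 ^ K + 1)))) a b

def posOnC (K Zd : ℕ) (F : List Int) (lo : ℕ) (bs : List ℕ) (hi : ℕ) : Bool :=
  posOn (2 ^ K) (2 ^ (12 * K) - Zd * (2 ^ K + 1)) (2 ^ (12 * K)) (halfMask 12 K)
    (zipG (2 ^ (12 * K)) F (powB (Zd * (2 ^ K + 1)))) lo bs hi

theorem chk_lt {T C MOD h : ℕ} {G : List ℕ} {a b : ℕ} (H : chk T C MOD h G a b = true) :
    a < b := by
  rw [chk, band_eq, Bool.and_eq_true] at H
  exact Nat.le_of_ble_eq_true H.1

theorem posOn_lt {T C MOD h : ℕ} {G : List ℕ} (bs : List ℕ) {a hi : ℕ}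
    (H : posOn T C MOD h G a bs hi = true) : a < hi := by
  induction bs generalizing a with
  | nil => exact chk_lt H
  | cons b bs ih =>
    have e : posOn T C MOD h G a (b :: bs) hi =
        band (chk T C MOD h G a b) (posOn T C MOD h G b bs hi) := rfl
    rw [e, band_eq, Bool.and_eq_true] at H
    exact (chk_lt H.1).trans (ih H.2)

theorem posOn_sound {F : List Int} {Zd K hi : ℕ} (hU : UC K Zd) (hF : F.length ≤ 11)
    (hl : (4 * Zd) ^ 11 * absF F + 1 ≤ 2 ^ (K - 1)) (hb3 : hi ≤ 3 * Zd) (bs : List ℕ) {a : ℕ}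
    (h : posOnC K Zd F a bs hi = true) {z : ℝ}
    (h1 : (a : ℝ) ≤ Zd * (1 + z)) (h2 : Zd * (1 + z) ≤ hi) : 0 ≤ pv F z := by
  induction bs generalizing a with
  | nil => exact chk_sound hU.hK hU.hZ hF hb3 hU.hBM hl h h1 h2
  | cons b bs ih =>
    have e : posOnC K Zd F a (b :: bs) hi = band (chkC K Zd F a b) (posOnC K Zd F b bs hi) := rfl
    rw [e, band_eq, Bool.and_eq_true] at h
    rcases le_total (Zd * (1 + z)) (b : ℝ) with h3 | h3
    · exact chk_sound hU.hK hU.hZ hF ((posOn_lt bs h.2).le.trans hb3) hU.hBM hl h.1 h1 h3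
    · exact ih h.2 h3

theorem posSegs_sound {F : List Int} {Zd K : ℕ} (hU : UC K Zd) (hF : F.length ≤ 11)
    (hl : (4 * Zd) ^ 11 * absF F + 1 ≤ 2 ^ (K - 1)) (sel : Seg2 → List Nat) (ss : List Seg2)
    (hb3 : ∀ s ∈ ss, s.hi ≤ 3 * Zd)
    (h : posSegs (2 ^ K) (2 ^ (12 * K) - Zd * (2 ^ K + 1)) (2 ^ (12 * K)) (halfMask 12 K)
      (zipG (2 ^ (12 * K)) F (powB (Zd * (2 ^ K + 1)))) sel ss = true) {s : Seg2} (hs : s ∈ ss)
    {z : ℝ} (h1 : (s.lo : ℝ) ≤ Zd * (1 + z)) (h2 : Zd * (1 + z) ≤ s.hi) : 0 ≤ pv F z := by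
  induction ss with
  | nil => simp at hs
  | cons t ts ih =>
    have e : posSegs (2 ^ K) (2 ^ (12 * K) - Zd * (2 ^ K + 1)) (2 ^ (12 * K)) (halfMask 12 K)
        (zipG (2 ^ (12 * K)) F (powB (Zd * (2 ^ K + 1)))) sel (t :: ts) =
        band (posOnC K Zd F t.lo (sel t) t.hi) (posSegs (2 ^ K) (2 ^ (12 * K) - Zd * (2 ^ K + 1))
        (2 ^ (12 * K)) (halfMask 12 K)
        (zipG (2 ^ (12 * K)) F (powB (Zd * (2 ^ K + 1)))) sel ts) := rfl
    rw [e, band_eq, Bool.and_eq_true] at h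
    rcases List.mem_cons.1 hs with rfl | h'
    · exact posOn_sound hU hF hl (hb3 _ (by simp)) _ h.1 h1 h2
    · exact ih (fun s hs => hb3 s (by simp [hs])) h.2 h'

/-- `(1 + z) ^ n l(z)` -/
def mulz : ℕ → List Int → List Int
  | 0, l => l
  | n + 1, l => mulz n (addL l (0 :: l))

theorem mulzF_eq (n : ℕ) (l : List Int) (f : List Int → Bool) : mulzF n l f = f (mulz n l) := by
  induction n generalizing l with
  | zero => rfl
  | succ n ih =>
    have : mulzF (n + 1) l f = fcLZ (addF l (0 :: l)) (fun l => mulzF n l f) := rfl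
    rw [this, fcLZ_eq, ih, addF_eq]
    rfl

theorem pv_mulz (n : ℕ) (l : List Int) (z : ℝ) : pv (mulz n l) z = (1 + z) ^ n * pv l z := by
  induction n generalizing l with
  | zero => simp [mulz]
  | succ n ih =>
    rw [mulz, ih]
    have : addL l (0 :: l) = mul1z l := rfl
    rw [this, pv_mul1z, pow_succ]
    ring

theorem length_addL' : ∀ a b : List Int, (addL a b).length = max a.length b.length
  | [], b => by simp [addL]
  | a :: as, [] => by simp [addL]
  | a :: as, b :: bs => by simp [addL, length_addL' as bs]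

theorem length_mulz (n : ℕ) (l : List Int) : (mulz n l).length = l.length + n := by
  induction n generalizing l with
  | zero => simp [mulz]
  | succ n ih =>
    rw [mulz, ih, length_addL', List.length_cons]
    omega

theorem absF_mulz (n : ℕ) (l : List Int) : absF (mulz n l) ≤ 2 ^ n * absF l := by
  induction n generalizing l with
  | zero => simp [mulz]
  | succ n ih =>
    rw [mulz]
    refine (ih _).trans ?_
    have h1 := absF_addL l (0 :: l)
    rw [absF_cons] at h1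
    have h2 : (0 : ℤ).natAbs = 0 := rfl
    rw [h2] at h1
    calc 2 ^ n * absF (addL l (0 :: l)) ≤ 2 ^ n * (absF l + (0 + absF l)) :=
          Nat.mul_le_mul_left _ h1
      _ = 2 ^ (n + 1) * absF l := by ring

theorem partOK_sound {l e : List Int} {k : ℕ} {W : Int} {Zd K : ℕ} (hU : UC K Zd)
    {sel : Seg2 → List Nat} {ss : List Seg2} (hb3 : ∀ s ∈ ss, s.hi ≤ 3 * Zd)
    (hlk : l.length + (k + 1) ≤ 11) (he : e.length ≤ 11)
    (h : partOK l e k W K (2 ^ (12 * K)) (halfMask 12 K) (2 ^ K) (Zd * (2 ^ K + 1))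
      (2 ^ (12 * K) - Zd * (2 ^ K + 1)) ((4 * Zd) ^ 11) (powB (Zd * (2 ^ K + 1))) sel ss = true)
    {s : Seg2} (hs : s ∈ ss) {z : ℝ} (h1 : (s.lo : ℝ) ≤ Zd * (1 + z))
    (h2 : Zd * (1 + z) ≤ s.hi) :
    (W : ℝ) * (1 + z) ≤ pv e z + (1 + z) ^ (k + 1) * pv l z ∧ 0 ≤ pv e z := by
  rw [partOK, band_eq, band_eq, Bool.and_eq_true, Bool.and_eq_true, mulzF_eq, fcLZ_eq,
    fcLN_eq, addF_eq, addF_eq] at h
  obtain ⟨hb, hF, hE⟩ := h
  have hb' : (4 * Zd) ^ 11 * (absF e + (2 ^ (k + 1) * absF l + 2 * W.natAbs)) + 1 ≤ 2 ^ (K - 1) :=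
    Nat.le_of_ble_eq_true hb
  have mono : ∀ n, n ≤ absF e + (2 ^ (k + 1) * absF l + 2 * W.natAbs) →
      (4 * Zd) ^ 11 * n + 1 ≤ 2 ^ (K - 1) := by
    intro n hn
    exact (Nat.add_le_add_right (Nat.mul_le_mul_left _ hn) 1).trans hb'
  constructor
  · have key := posSegs_sound hU (F := addL e (addL (mulz (Nat.succ k) l) [Int.neg W, Int.neg W]))
      (by
        rw [length_addL', length_addL', length_mulz]
        simp only [List.length_cons, List.length_nil]
        omega)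
      (mono _ (by
        refine (absF_addL _ _).trans (Nat.add_le_add_left ((absF_addL _ _).trans ?_) _)
        refine add_le_add (absF_mulz _ _) ?_
        rw [absF_cons, absF_cons, absF_nil]
        have : (Int.neg W).natAbs = W.natAbs := Int.natAbs_neg W
        omega)) sel ss hb3 hF hs h1 h2
    rw [pv_addL, pv_addL, pv_mulz] at key
    have e1 : pv [Int.neg W, Int.neg W] z = -(W * (1 + z)) := by
      have : Int.neg W = -W := rfl
      rw [this]
      simp only [pv]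
      push_cast
      ring
    rw [e1] at key
    have e2 : (Nat.succ k) = k + 1 := rfl
    rw [e2] at key
    linarith
  · cases e with
    | nil => simp [pv]
    | cons a as =>
      have e1 : fcLN (zipG (2 ^ (12 * K)) (a :: as) (powB (Zd * (2 ^ K + 1))))
        (fun G => posSegs (2 ^ K) (2 ^ (12 * K) - Zd * (2 ^ K + 1)) (2 ^ (12 * K)) (halfMask 12 K)
          G sel ss) = true := hE
      rw [fcLN_eq] at e1
      exact posSegs_sound hU he (mono _ (by omega)) sel ss hb3 e1 hs h1 h2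

theorem hiOK_mem {Z3 : ℕ} {ss : List Seg2} (h : hiOK Z3 ss = true) : ∀ s ∈ ss, s.hi ≤ Z3 := by
  induction ss with
  | nil => simp
  | cons t ts ih =>
    have e : hiOK Z3 (t :: ts) = band (Nat.ble t.hi Z3) (hiOK Z3 ts) := rfl
    rw [e, band_eq, Bool.and_eq_true] at h
    intro s hs
    rcases List.mem_cons.1 hs with rfl | h'
    · exact Nat.le_of_ble_eq_true h.1
    · exact ih h.2 s h'

theorem lenOK_spec {L : Leaf2} (h : lenOK L = true) :
    (L.l2.length ≤ 8 ∧ L.l3.length ≤ 7 ∧ L.l5.length ≤ 5) ∧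
    (L.e2.length ≤ 6 ∧ L.e3.length ≤ 6 ∧ L.e5.length ≤ 6) := by
  simp only [lenOK, band_eq, Bool.and_eq_true, Nat.ble_eq] at h
  tauto

theorem segsOK_sound {P : Par2} {L : Leaf2} {W : Int} {Zd K : ℕ} (hL : lenOK L = true)
    (hZ : 0 < Zd) (h : segsOK P L W Zd K = true) {s : Seg2} (hs : s ∈ L.segs) {z : ℝ}
    (h1 : (s.lo : ℝ) ≤ Zd * (1 + z)) (h2 : Zd * (1 + z) ≤ s.hi) : CondZ P L W z := by
  obtain ⟨⟨n2, n3, n5⟩, m2, m3, m5⟩ := lenOK_spec hL
  rw [segsOK] at h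
  simp only [fcN_eq, fcLN_eq, band_eq, Bool.and_eq_true] at h
  obtain ⟨⟨hBM, hhi⟩, k2, k3, k5⟩ := h
  have hb3 := hiOK_mem hhi
  have hBM' : Zd * (2 ^ K + 1) ≤ 2 ^ (12 * K) := Nat.le_of_ble_eq_true hBM
  have hK : 0 < K := by
    rcases Nat.eq_zero_or_pos K with rfl | h0
    · simp at hBM'
      omega
    · exact h0
  have hU : UC K Zd := ⟨hK, hZ, hBM'⟩
  have hpos : 0 ≤ 1 + z := by
    have hZ' : (0 : ℝ) < Zd := by exact_mod_cast hZ
    have h0 : (0 : ℝ) ≤ s.lo := Nat.cast_nonneg _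
    by_contra hneg
    rw [not_le] at hneg
    have : Zd * (1 + z) < 0 := mul_neg_of_pos_of_neg hZ' hneg
    linarith
  have s2 := partOK_sound hU hb3 (by omega) (by omega) k2 hs h1 h2
  refine ⟨hpos, s2.1, s2.2, ?_, ?_, ?_, ?_⟩
  · intro h0
    rw [if_neg h0] at k3
    exact (partOK_sound hU hb3 (by omega) (by omega) k3 hs h1 h2).1
  · intro h0
    rw [if_neg h0] at k3
    exact (partOK_sound hU hb3 (by omega) (by omega) k3 hs h1 h2).2
  · intro h0
    rw [if_neg h0] at k5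
    exact (partOK_sound hU hb3 (by omega) (by omega) k5 hs h1 h2).1
  · intro h0
    rw [if_neg h0] at k5
    exact (partOK_sound hU hb3 (by omega) (by omega) k5 hs h1 h2).2

/-! ### the ranges of `z` -/

theorem ptF_sound {a : Pt} {f : Nat → Nat → Nat → Nat → Bool} (h : ptF a f = true) :
    ∃ S x y z : ℕ, a.S = S ∧ a.S + (4 * a.p + 2 * a.r) = x ∧ a.S + (2 * a.r - 2 * a.p) = y ∧
      a.S - (2 * a.p + 4 * a.r) = z ∧ f S x y z = true := by
  rw [ptF] at h
  obtain ⟨S, hS, h⟩ := fcP_sound h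
  obtain ⟨x, hx, h⟩ := fcP_sound h
  obtain ⟨y, hy, h⟩ := fcP_sound h
  obtain ⟨z, hz, h⟩ := fcP_sound h
  exact ⟨S, x, y, z, hS, hx, hy, hz, h⟩

theorem in1_sound {lo hi D q : ℕ} (h : in1 lo hi D q = true) : lo * D ≤ q ∧ q ≤ hi * D := by
  rw [in1, fcN_eq, band_eq, Bool.and_eq_true] at h
  exact ⟨Nat.le_of_ble_eq_true h.1, Nat.le_of_ble_eq_true h.2⟩

/-- a value in a range -/
def InR (s : Seg2) (D q : ℕ) : Prop := s.lo * D ≤ q ∧ q ≤ s.hi * D

theorem any9_sound {D1 D2 D3 D4 D5 D6 D7 D8 D9 q1 q2 q3 q4 q5 q6 q7 q8 q9 : ℕ} {ss : List Seg2}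
    (h : any9 D1 D2 D3 D4 D5 D6 D7 D8 D9 q1 q2 q3 q4 q5 q6 q7 q8 q9 ss = true) :
    ∃ s ∈ ss, InR s D1 q1 ∧ InR s D2 q2 ∧ InR s D3 q3 ∧ InR s D4 q4 ∧ InR s D5 q5 ∧
      InR s D6 q6 ∧ InR s D7 q7 ∧ InR s D8 q8 ∧ InR s D9 q9 := by
  induction ss with
  | nil => exact absurd h (by simp [any9])
  | cons t ts ih =>
    have e : any9 D1 D2 D3 D4 D5 D6 D7 D8 D9 q1 q2 q3 q4 q5 q6 q7 q8 q9 (t :: ts) = bor
      (band (in1 t.lo t.hi D1 q1) (band (in1 t.lo t.hi D2 q2) (band (in1 t.lo t.hi D3 q3)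
      (band (in1 t.lo t.hi D4 q4) (band (in1 t.lo t.hi D5 q5) (band (in1 t.lo t.hi D6 q6)
      (band (in1 t.lo t.hi D7 q7) (band (in1 t.lo t.hi D8 q8) (in1 t.lo t.hi D9 q9)))))))))
      (any9 D1 D2 D3 D4 D5 D6 D7 D8 D9 q1 q2 q3 q4 q5 q6 q7 q8 q9 ts) := rfl
    rw [e, bor_eq, Bool.or_eq_true] at h
    rcases h with h | h
    · simp only [band_eq, Bool.and_eq_true] at h
      obtain ⟨h1, h2, h3, h4, h5, h6, h7, h8, h9⟩ := h
      exact ⟨t, by simp, in1_sound h1, in1_sound h2, in1_sound h3, in1_sound h4, in1_sound h5,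
        in1_sound h6, in1_sound h7, in1_sound h8, in1_sound h9⟩
    · obtain ⟨s, hs, h'⟩ := ih h
      exact ⟨s, by simp [hs], h'⟩

theorem comb9 {s : Seg2} {α β γ α' β' γ' : ℝ} (hα : 0 ≤ α) (hβ : 0 ≤ β) (hγ : 0 ≤ γ)
    (hα' : 0 ≤ α') (hβ' : 0 ≤ β') (hγ' : 0 ≤ γ') {Sa Sb Sc Ta Tb Tc : ℕ}
    (hS : α * Sa + β * Sb + γ * Sc = 1) (hT : α' * Ta + β' * Tb + γ' * Tc = 1)
    {q1 q2 q3 q4 q5 q6 q7 q8 q9 : ℕ}
    (h1 : InR s (3 * (Sa * Ta)) q1) (h2 : InR s (3 * (Sa * Tb)) q2) (h3 : InR s (3 * (Sa * Tc)) q3)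
    (h4 : InR s (3 * (Sb * Ta)) q4) (h5 : InR s (3 * (Sb * Tb)) q5) (h6 : InR s (3 * (Sb * Tc)) q6)
    (h7 : InR s (3 * (Sc * Ta)) q7) (h8 : InR s (3 * (Sc * Tb)) q8) (h9 : InR s (3 * (Sc * Tc)) q9)
    {v : ℝ} (hv : 3 * v = α * α' * q1 + α * β' * q2 + α * γ' * q3 + β * α' * q4 + β * β' * q5 +
      β * γ' * q6 + γ * α' * q7 + γ * β' * q8 + γ * γ' * q9) : (s.lo : ℝ) ≤ v ∧ v ≤ s.hi := by
  have cst : ∀ {D q : ℕ}, InR s D q → (s.lo : ℝ) * D ≤ q ∧ (q : ℝ) ≤ s.hi * D := by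
    intro D q h
    exact ⟨by exact_mod_cast h.1, by exact_mod_cast h.2⟩
  have c1 := cst h1
  have c2 := cst h2
  have c3 := cst h3
  have c4 := cst h4
  have c5 := cst h5
  have c6 := cst h6
  have c7 := cst h7
  have c8 := cst h8
  have c9 := cst h9
  push_cast at c1 c2 c3 c4 c5 c6 c7 c8 c9
  have hST : (α * Sa + β * Sb + γ * Sc) * (α' * Ta + β' * Tb + γ' * Tc) = 1 := by
    rw [hS, hT]; ring
  constructor
  · have s1 := mul_le_mul_of_nonneg_left c1.1 (mul_nonneg hα hα')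
    have s2 := mul_le_mul_of_nonneg_left c2.1 (mul_nonneg hα hβ')
    have s3 := mul_le_mul_of_nonneg_left c3.1 (mul_nonneg hα hγ')
    have s4 := mul_le_mul_of_nonneg_left c4.1 (mul_nonneg hβ hα')
    have s5 := mul_le_mul_of_nonneg_left c5.1 (mul_nonneg hβ hβ')
    have s6 := mul_le_mul_of_nonneg_left c6.1 (mul_nonneg hβ hγ')
    have s7 := mul_le_mul_of_nonneg_left c7.1 (mul_nonneg hγ hα')
    have s8 := mul_le_mul_of_nonneg_left c8.1 (mul_nonneg hγ hβ')
    have s9 := mul_le_mul_of_nonneg_left c9.1 (mul_nonneg hγ hγ')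
    have e : 3 * (s.lo : ℝ) * ((α * Sa + β * Sb + γ * Sc) * (α' * Ta + β' * Tb + γ' * Tc)) ≤
        3 * v := by
      rw [hv]
      linear_combination s1 + s2 + s3 + s4 + s5 + s6 + s7 + s8 + s9
    rw [hST] at e
    linarith
  · have s1 := mul_le_mul_of_nonneg_left c1.2 (mul_nonneg hα hα')
    have s2 := mul_le_mul_of_nonneg_left c2.2 (mul_nonneg hα hβ')
    have s3 := mul_le_mul_of_nonneg_left c3.2 (mul_nonneg hα hγ')
    have s4 := mul_le_mul_of_nonneg_left c4.2 (mul_nonneg hβ hα')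
    have s5 := mul_le_mul_of_nonneg_left c5.2 (mul_nonneg hβ hβ')
    have s6 := mul_le_mul_of_nonneg_left c6.2 (mul_nonneg hβ hγ')
    have s7 := mul_le_mul_of_nonneg_left c7.2 (mul_nonneg hγ hα')
    have s8 := mul_le_mul_of_nonneg_left c8.2 (mul_nonneg hγ hβ')
    have s9 := mul_le_mul_of_nonneg_left c9.2 (mul_nonneg hγ hγ')
    have e : 3 * v ≤
        3 * (s.hi : ℝ) * ((α * Sa + β * Sb + γ * Sc) * (α' * Ta + β' * Tb + γ' * Tc)) := by
      rw [hv]
      linear_combination s1 + s2 + s3 + s4 + s5 + s6 + s7 + s8 + s9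
    rw [hST] at e
    linarith

/-- coordinates of a point of a triangle -/
theorem coord {A : Tri} {x : V} (hx : tot x = 1) (hU : InTriV A x)
    {Sa a0 a1 a2 Sb b0 b1 b2 Sc c0 c1 c2 : ℕ}
    (ha : A.a.S = Sa ∧ A.a.S + (4 * A.a.p + 2 * A.a.r) = a0 ∧
      A.a.S + (2 * A.a.r - 2 * A.a.p) = a1 ∧ A.a.S - (2 * A.a.p + 4 * A.a.r) = a2)
    (hb : A.b.S = Sb ∧ A.b.S + (4 * A.b.p + 2 * A.b.r) = b0 ∧
      A.b.S + (2 * A.b.r - 2 * A.b.p) = b1 ∧ A.b.S - (2 * A.b.p + 4 * A.b.r) = b2)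
    (hc : A.c.S = Sc ∧ A.c.S + (4 * A.c.p + 2 * A.c.r) = c0 ∧
      A.c.S + (2 * A.c.r - 2 * A.c.p) = c1 ∧ A.c.S - (2 * A.c.p + 4 * A.c.r) = c2) :
    ∃ α β γ : ℝ, 0 ≤ α ∧ 0 ≤ β ∧ 0 ≤ γ ∧ α * Sa + β * Sb + γ * Sc = 1 ∧
      x 0 = (α * a0 + β * b0 + γ * c0) / 3 ∧ x 1 = (α * a1 + β * b1 + γ * c1) / 3 ∧
      x 2 = (α * a2 + β * b2 + γ * c2) / 3 := by
  obtain ⟨α, β, γ, hα, hβ, hγ, h1, h2, h3⟩ := hU
  simp only [tot] at hx
  have cast : ∀ {u : Pt} {S x y z : ℕ}, (u.S = S ∧ u.S + (4 * u.p + 2 * u.r) = x ∧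
      u.S + (2 * u.r - 2 * u.p) = y ∧ u.S - (2 * u.p + 4 * u.r) = z) →
      ((S : ℝ) = u.S ∧ (x : ℝ) = u.S + (4 * u.p + 2 * u.r) ∧
      (y : ℝ) = u.S + (2 * u.r - 2 * u.p) ∧ (z : ℝ) = u.S - (2 * u.p + 4 * u.r)) := by
    rintro u S x y z ⟨g1, g2, g3, g4⟩
    exact ⟨by exact_mod_cast g1.symm, by exact_mod_cast g2.symm, by exact_mod_cast g3.symm,
      by exact_mod_cast g4.symm⟩
  obtain ⟨i1, i2, i3, i4⟩ := cast ha
  obtain ⟨j1, j2, j3, j4⟩ := cast hb
  obtain ⟨k1, k2, k3, k4⟩ := cast hc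
  refine ⟨α, β, γ, hα, hβ, hγ, ?_, ?_, ?_, ?_⟩
  · rw [i1, j1, k1]; exact h1.symm
  · rw [i2, j2, k2]; linarith
  · rw [i3, j3, k3]; linarith
  · rw [i4, j4, k4]; linarith

/-- the conditions hold at the six values of `z` -/
theorem allSeg_sound {P : Par2} {L : Leaf2} {W : Int} {Zd K : ℕ} (hL : lenOK L = true)
    (hZ : 0 < Zd) {A B : Tri} (hss : segsOK P L W Zd K = true)
    (h : allSeg Zd A B L.segs = true) {x y : V} (hx : tot x = 1) (hy : tot y = 1)
    (hU : InTriV A x) (hV : InTriV B y) :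
    CondZ P L W (zz (had x ![y 0, y 1, y 2])) ∧ CondZ P L W (zz (had x ![y 1, y 2, y 0])) ∧
    CondZ P L W (zz (had x ![y 2, y 0, y 1])) ∧ CondZ P L W (zz (had x ![y 0, y 2, y 1])) ∧
    CondZ P L W (zz (had x ![y 1, y 0, y 2])) ∧ CondZ P L W (zz (had x ![y 2, y 1, y 0])) := by
  rw [allSeg] at h
  obtain ⟨Sa, a0, a1, a2, ha1, ha2, ha3, ha4, h⟩ := ptF_sound h
  obtain ⟨Sb, b0, b1, b2, hb1, hb2, hb3, hb4, h⟩ := ptF_sound h
  obtain ⟨Sc, c0, c1, c2, hc1, hc2, hc3, hc4, h⟩ := ptF_sound h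
  obtain ⟨Ta, x0, x1, x2, hx1, hx2, hx3, hx4, h⟩ := ptF_sound h
  obtain ⟨Tb, y0, y1, y2, hy1, hy2, hy3, hy4, h⟩ := ptF_sound h
  obtain ⟨Tc, z0, z1, z2, hz1, hz2, hz3, hz4, h⟩ := ptF_sound h
  simp only [fcN_eq, band_eq, Bool.and_eq_true] at h
  obtain ⟨k1, k2, k3, k4, k5, k6⟩ := h
  obtain ⟨α, β, γ, hα, hβ, hγ, hS, e0, e1, e2⟩ := coord hx hU ⟨ha1, ha2, ha3, ha4⟩
    ⟨hb1, hb2, hb3, hb4⟩ ⟨hc1, hc2, hc3, hc4⟩
  obtain ⟨α', β', γ', hα', hβ', hγ', hT, f0, f1, f2⟩ := coord hy hV ⟨hx1, hx2, hx3, hx4⟩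
    ⟨hy1, hy2, hy3, hy4⟩ ⟨hz1, hz2, hz3, hz4⟩
  refine ⟨?_, ?_, ?_, ?_, ?_, ?_⟩
  · obtain ⟨s, hs, g1, g2, g3, g4, g5, g6, g7, g8, g9⟩ := any9_sound k1
    have key := comb9 (v := Zd * (1 + zz (had x ![y 0, y 1, y 2]))) hα hβ hγ hα' hβ' hγ' hS hT
      g1 g2 g3 g4 g5 g6 g7 g8 g9 (by
        simp only [zz, tot, had, qf, Matrix.cons_val_zero, Matrix.cons_val_one, Matrix.cons_val,
          e0, e1, e2, f0, f1, f2, Nat.mul_eq, Nat.add_eq]
        push_cast
        ring)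
    exact segsOK_sound hL hZ hss hs key.1 key.2
  · obtain ⟨s, hs, g1, g2, g3, g4, g5, g6, g7, g8, g9⟩ := any9_sound k2
    have key := comb9 (v := Zd * (1 + zz (had x ![y 1, y 2, y 0]))) hα hβ hγ hα' hβ' hγ' hS hT
      g1 g2 g3 g4 g5 g6 g7 g8 g9 (by
        simp only [zz, tot, had, qf, Matrix.cons_val_zero, Matrix.cons_val_one, Matrix.cons_val,
          e0, e1, e2, f0, f1, f2, Nat.mul_eq, Nat.add_eq]
        push_cast
        ring)
    exact segsOK_sound hL hZ hss hs key.1 key.2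
  · obtain ⟨s, hs, g1, g2, g3, g4, g5, g6, g7, g8, g9⟩ := any9_sound k3
    have key := comb9 (v := Zd * (1 + zz (had x ![y 2, y 0, y 1]))) hα hβ hγ hα' hβ' hγ' hS hT
      g1 g2 g3 g4 g5 g6 g7 g8 g9 (by
        simp only [zz, tot, had, qf, Matrix.cons_val_zero, Matrix.cons_val_one, Matrix.cons_val,
          e0, e1, e2, f0, f1, f2, Nat.mul_eq, Nat.add_eq]
        push_cast
        ring)
    exact segsOK_sound hL hZ hss hs key.1 key.2
  · obtain ⟨s, hs, g1, g2, g3, g4, g5, g6, g7, g8, g9⟩ := any9_sound k4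
    have key := comb9 (v := Zd * (1 + zz (had x ![y 0, y 2, y 1]))) hα hβ hγ hα' hβ' hγ' hS hT
      g1 g2 g3 g4 g5 g6 g7 g8 g9 (by
        simp only [zz, tot, had, qf, Matrix.cons_val_zero, Matrix.cons_val_one, Matrix.cons_val,
          e0, e1, e2, f0, f1, f2, Nat.mul_eq, Nat.add_eq]
        push_cast
        ring)
    exact segsOK_sound hL hZ hss hs key.1 key.2
  · obtain ⟨s, hs, g1, g2, g3, g4, g5, g6, g7, g8, g9⟩ := any9_sound k5
    have key := comb9 (v := Zd * (1 + zz (had x ![y 1, y 0, y 2]))) hα hβ hγ hα' hβ' hγ' hS hT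
      g1 g2 g3 g4 g5 g6 g7 g8 g9 (by
        simp only [zz, tot, had, qf, Matrix.cons_val_zero, Matrix.cons_val_one, Matrix.cons_val,
          e0, e1, e2, f0, f1, f2, Nat.mul_eq, Nat.add_eq]
        push_cast
        ring)
    exact segsOK_sound hL hZ hss hs key.1 key.2
  · obtain ⟨s, hs, g1, g2, g3, g4, g5, g6, g7, g8, g9⟩ := any9_sound k6
    have key := comb9 (v := Zd * (1 + zz (had x ![y 2, y 1, y 0]))) hα hβ hγ hα' hβ' hγ' hS hT
      g1 g2 g3 g4 g5 g6 g7 g8 g9 (by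
        simp only [zz, tot, had, qf, Matrix.cons_val_zero, Matrix.cons_val_one, Matrix.cons_val,
          e0, e1, e2, f0, f1, f2, Nat.mul_eq, Nat.add_eq]
        push_cast
        ring)
    exact segsOK_sound hL hZ hss hs key.1 key.2

end Vale.Agent.P154
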