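import Vale.Agent.P154.V2Rows

/-!
Brackets `[m_lo, 1]` with constant potentials.
-/

namespace Vale.Agent.P154

open Filter Topology

/-- `1/(2 l lam²)` (Poisson), `(1/lam² - 1)/(2 l)` (regular) -/
noncomputable def tauOf (reg : Bool) (lam l : ℝ) : ℝ :=
  if reg then (1 / lam ^ 2 - 1) / (2 * l) else 1 / (2 * l * lam ^ 2)

theorem tauOf_true (lam l : ℝ) : tauOf true lam l = (1 / lam ^ 2 - 1) / (2 * l) := by
  simp [tauOf]

theorem tauOf_false (lam l : ℝ) : tauOf false lam l = 1 / (2 * l * lam ^ 2) := by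
  simp [tauOf]

theorem tauOf_eq (reg : Bool) {lam : ℝ} (hlam : lam ≠ 0) {en ed : Int} (hn : 0 < en)
    (hd : 0 < ed) : ((Int.mul 2 en : Int) : ℝ) * lam ^ 2 * tauOf reg lam ((en : ℝ) / ed) =
      (ed : ℝ) - ((if reg then ed else 0 : Int) : ℝ) * lam ^ 2 := by
  have hn' : (0 : ℝ) < en := by exact_mod_cast hn
  have hd' : (0 : ℝ) < ed := by exact_mod_cast hd
  have e : ((Int.mul 2 en : Int) : ℝ) = 2 * en := by
    have : Int.mul 2 en = 2 * en := rfl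
    rw [this]
    push_cast
    ring
  rw [e]
  cases reg with
  | true =>
    rw [tauOf_true, if_pos rfl]
    field_simp
  | false =>
    rw [tauOf_false, if_neg (by simp)]
    push_cast
    field_simp
    ring

/-- the integer relations of a bracket -/
structure HiBr.Rel (b : HiBr) : Prop where
  hQ : 0 < b.c1.P.Q
  hQ0 : b.c1.P.Q = b.c0.P.Q
  hen : 0 < b.en
  hed : 0 < b.ed
  hmn : 0 < b.mn
  hmd : 0 < b.md
  hmu : 0 ≤ b.mu
  hdl : 0 < b.dl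
  hmm : b.md * b.mm = b.mn * b.mu
  w1 : b.c1.P.W0 = 0
  w0 : b.c0.P.W0 = 0
  rD : (b.en : ℝ) • vec b.c1.P.Q b.D = (b.ed : ℝ) • b.c1.P.beta - (b.ed : ℝ) • b.c0.P.beta
  r1 : (b.md : ℝ) • b.c1.P.Ur + (b.mn : ℝ) • b.c1.P.gr =
    (b.md : ℝ) • b.c1.P.beta - (b.md : ℝ) • vec b.c1.P.Q b.D
  r0 : (b.md : ℝ) • b.c0.P.Ur + (b.mn : ℝ) • b.c0.P.gr =
    (b.md : ℝ) • b.c0.P.beta - (b.md : ℝ) • vec b.c1.P.Q b.D

theorem neg_cast (a : Int) : ((Int.neg a : Int) : ℝ) = -a := by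
  have : Int.neg a = -a := rfl
  rw [this]
  push_cast
  rfl

theorem HiBr.rel {b : HiBr} (h : b.ok = true) : b.Rel := by
  simp only [HiBr.ok, Bool.and_eq_true] at h
  obtain ⟨⟨⟨⟨⟨⟨⟨⟨⟨⟨⟨⟨⟨h1, h2⟩, h3⟩, h4⟩, h5⟩, h6⟩, h7⟩, h8⟩, h9⟩, h10⟩, h11⟩, h12⟩, h13⟩, h14⟩ := h
  have q := ieq_sound h1
  have z0 : ∀ v : P6, ((0 : Int) : ℝ) • v = 0 := by intro v; simp
  refine ⟨pos?_sound h2, q, pos?_sound h3, pos?_sound h4, pos?_sound h5, pos?_sound h6,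
    nn?_sound h7, pos?_sound h8, ieq_sound h9, ieq_sound h10, ieq_sound h11, ?_, ?_, ?_⟩
  · have e := congrArg (vec b.c1.P.Q) (leqL_sound h12)
    rw [vec_lcL, vec_lcL, vec_nil, z0, add_zero, neg_cast, neg_smul, ← sub_eq_add_neg,
      ← Par2.beta_eq] at e
    rw [e, Par2.beta_eq b.c0.P, q]
  · have e := congrArg (vec b.c1.P.Q) (leqL_sound h13)
    rw [vec_lcL, vec_lcL, neg_cast, neg_smul, ← sub_eq_add_neg,
      ← Par2.beta_eq, ← Par2.Ur_eq, ← Par2.gr_eq] at e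
    exact e
  · have e := congrArg (vec b.c1.P.Q) (leqL_sound h14)
    rw [vec_lcL, vec_lcL, neg_cast, neg_smul, ← sub_eq_add_neg] at e
    rw [Par2.Ur_eq, Par2.gr_eq, Par2.beta_eq, ← q]
    exact e

/-- the facts certified for a bracket at one value of `lam` -/
structure HiBr.Fact (b : HiBr) (reg : Bool) (lam : ℝ) : Prop where
  ok : b.ok = true
  pw1 : PW Pos (InK lam 1) b.c1.P.beta b.c1.P.Ur b.c1.P.Wr b.c1.P.gr
  pw0 : PW Pos (InK lam 1) b.c0.P.beta b.c0.P.Ur b.c0.P.Wr b.c0.P.gr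
  g1 : ∀ x, Pos x → H b.c1.P.gr x ≤ 0
  g0 : ∀ x, Pos x → H b.c0.P.gr x ≤ 0
  n1 : ∀ x, InK lam 1 x → 0 ≤ H b.c1.P.Wr x
  n0 : ∀ x, InK lam 1 x → 0 ≤ H b.c0.P.Wr x
  fin : ∀ x, Pos x → (1 / lam ^ 2) * H (sc lam (b.c1.P.Wr +
      tauOf reg lam ((b.en : ℝ) / b.ed) • (b.c0.P.Wr - b.c1.P.Wr))) x ≤
    H b.c1.P.beta x - (b.mu / b.c1.P.Q : ℝ) * H eN x +
      (b.mm / b.c1.P.Q : ℝ) / lam ^ 2 * tot x - (b.dl / b.c1.P.Q : ℝ) * tot x

/-- from the checks to the facts -/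
theorem HiBr.fact {b : HiBr} (hok : b.ok = true) {reg : Bool} {lam : ℝ} (hlam : lam ≠ 0)
    (hpw1 : PW Pos (InK lam 1) b.c1.P.beta b.c1.P.Ur b.c1.P.Wr b.c1.P.gr)
    (hpw0 : PW Pos (InK lam 1) b.c0.P.beta b.c0.P.Ur b.c0.P.Wr b.c0.P.gr)
    {K1 K2 K3 K4 K5 : ℕ} {C1 C2 C3 C4 C5 : FCert} {D a d : Int} (hD : 0 < D) (had : a < d)
    (hg1 : C1.check (gFin (b.c1.P.gL.map Int.neg) K1) 1 0 1 (baseTri 1 1) = true)
    (hg0 : C2.check (gFin (b.c0.P.gL.map Int.neg) K2) 1 0 1 (baseTri 1 1) = true)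
    (hw1 : C3.check (hFin b.c1.P.wL K3) D a d (baseTri 1 1) = true)
    (hw0 : C4.check (hFin b.c0.P.wL K4) D a d (baseTri 1 1) = true)
    (hfin : C5.check (b.fin reg K5) D a d (baseTri 1 1) = true)
    (ha : (a : ℝ) ≤ D * lam) (hd : D * lam ≤ d) : b.Fact reg lam := by
  have R := HiBr.rel hok
  have hQ := R.hQ
  have hQ0 : 0 < b.c0.P.Q := by rw [← R.hQ0]; exact hQ
  refine ⟨hok, hpw1, hpw0, ?_, ?_, ?_, ?_, ?_⟩
  · intro x hx
    have h := gpos hQ (by simp [Par2.gL]) hg1 hx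
    rw [vec_neg, H_neg, ← Par2.gr_eq] at h
    linarith
  · intro x hx
    have h := gpos hQ0 (by simp [Par2.gL]) hg0 hx
    rw [vec_neg, H_neg, ← Par2.gr_eq] at h
    linarith
  · intro x hx
    rw [Par2.Wr_eq]
    exact hpos hQ hD had hw1 ha hd hx
  · intro x hx
    rw [Par2.Wr_eq]
    exact hpos hQ0 hD had hw0 ha hd hx
  · intro x hx
    have h := final (A := Int.mul 2 b.en) (B := b.ed) (r := if reg then b.ed else 0) hQ
      (by have : Int.mul 2 b.en = 2 * b.en := rfl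
          rw [this]; have := R.hen; omega) hD had hfin hlam ha hd
      (tauOf_eq reg hlam R.hen R.hed)
      (by simpa [Par2.wL] using R.w1) (by simpa [Par2.wL] using R.w0) hx
    rw [neg_cast, neg_cast, ← Par2.beta_eq, ← Par2.Wr_eq] at h
    rw [Par2.Wr_eq b.c0.P, ← R.hQ0]
    refine h.trans (le_of_eq ?_)
    push_cast
    ring

/-- the hypotheses of the bracket theorems -/
theorem HiBr.Fact.br {b : HiBr} {reg : Bool} {lam : ℝ} (hlam : lam ≠ 0) (h0 : -(1 / 2) ≤ lam)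
    (h1 : lam ≤ 1) (hf : b.Fact reg lam) {m : ℝ} (hm : (b.mn : ℝ) / b.md ≤ m) (hm1 : m ≤ 1) :
    Facts.Br lam ((b.en : ℝ) / b.ed) (tauOf reg lam ((b.en : ℝ) / b.ed))
      ((b.dl : ℝ) / b.c1.P.Q) m b.c1.P.beta (vec b.c1.P.Q b.D) b.c1.P.Wr b.c0.P.Wr
      b.c1.P.gr b.c0.P.gr := by
  have R := HiBr.rel hf.ok
  have hQ : (0 : ℝ) < b.c1.P.Q := by exact_mod_cast R.hQ
  have hen : (0 : ℝ) < b.en := by exact_mod_cast R.hen
  have hed : (0 : ℝ) < b.ed := by exact_mod_cast R.hed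
  have hmn : (0 : ℝ) < b.mn := by exact_mod_cast R.hmn
  have hmd : (0 : ℝ) < b.md := by exact_mod_cast R.hmd
  have hmu : (0 : ℝ) ≤ b.mu := by exact_mod_cast R.hmu
  have hdl : (0 : ℝ) < b.dl := by exact_mod_cast R.hdl
  have hmm : (b.md : ℝ) * b.mm = b.mn * b.mu := by exact_mod_cast R.hmm
  have hm0 : 0 < m := lt_of_lt_of_le (by positivity) hm
  have hl2 : 0 < lam ^ 2 := by positivity
  -- the relations, pointwise
  have c0 : b.c1.P.beta - ((b.en : ℝ) / b.ed) • vec b.c1.P.Q b.D = b.c0.P.beta := by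
    funext i
    have e := congrFun R.rD i
    simp only [Pi.smul_apply, Pi.sub_apply, smul_eq_mul] at e ⊢
    field_simp
    linarith
  have u1 : ∀ x, H b.c1.P.Ur x =
      H (b.c1.P.beta - vec b.c1.P.Q b.D - ((b.mn : ℝ) / b.md) • b.c1.P.gr) x := by
    intro x
    congr 1
    funext i
    have e := congrFun R.r1 i
    simp only [Pi.smul_apply, Pi.sub_apply, Pi.add_apply, smul_eq_mul] at e ⊢
    field_simp
    linarith
  have u0 : ∀ x, H b.c0.P.Ur x =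
      H (b.c0.P.beta - vec b.c1.P.Q b.D - ((b.mn : ℝ) / b.md) • b.c0.P.gr) x := by
    intro x
    congr 1
    funext i
    have e := congrFun R.r0 i
    simp only [Pi.smul_apply, Pi.sub_apply, Pi.add_apply, smul_eq_mul] at e ⊢
    field_simp
    linarith
  have hT : ∀ y, InK lam 1 y → Pos y := fun y hy => Facts.inK_pos h0 h1 hy
  refine ⟨?_, ?_, ?_, ?_, hf.n1, hf.n0, ⟨-(b.mu / b.c1.P.Q : ℝ), ?_⟩⟩
  · simp [Par2.beta]
  · have e := congrFun R.rD 0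
    simp only [Pi.smul_apply, Pi.sub_apply, smul_eq_mul, Par2.beta, Matrix.cons_val_zero,
      mul_zero, sub_zero] at e
    exact (mul_eq_zero.1 e).resolve_left hen.ne'
  · refine PW_mono_U hf.pw1 (fun x hx => ?_) hT
    rw [u1 x, H_sub, H_sub _ (m • _), H_smul, H_smul]
    have := mul_le_mul_of_nonpos_right hm (hf.g1 x hx)
    linarith
  · rw [c0]
    refine PW_mono_U hf.pw0 (fun x hx => ?_) hT
    rw [u0 x, H_sub, H_sub _ (m • _), H_smul, H_smul]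
    have := mul_le_mul_of_nonpos_right hm (hf.g0 x hx)
    linarith
  · intro x hx
    refine (hf.fin x hx).trans ?_
    have ht : 0 ≤ tot x := Cvx.tot_nn hx
    have i1 : (b.mm / b.c1.P.Q : ℝ) / lam ^ 2 * tot x ≤
        (b.mu / b.c1.P.Q : ℝ) * (m / lam ^ 2) * tot x := by
      refine mul_le_mul_of_nonneg_right ?_ ht
      have e1 : (b.mm : ℝ) = b.mu * (b.mn / b.md) := by
        field_simp
        linarith
      rw [e1]
      have e2 : (b.mu : ℝ) * (b.mn / b.md) / b.c1.P.Q / lam ^ 2 =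
          (b.mu / b.c1.P.Q) * ((b.mn / b.md) / lam ^ 2) := by ring
      rw [e2]
      exact mul_le_mul_of_nonneg_left (div_le_div_of_nonneg_right hm hl2.le) (by positivity)
    have i2 : (b.dl / b.c1.P.Q : ℝ) * m ^ 2 * tot x ≤ (b.dl / b.c1.P.Q : ℝ) * tot x := by
      refine mul_le_mul_of_nonneg_right ?_ ht
      have : m ^ 2 ≤ 1 := pow_le_one₀ hm0.le hm1
      have h3 : 0 ≤ (b.dl / b.c1.P.Q : ℝ) := by positivity
      nlinarith
    nlinarith [i1, i2]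

/-- Poisson tree: the sequence cannot stay in the bracket unless it tends to zero. -/
theorem HiBr.Fact.poisson {b : HiBr} {lam d : ℝ} (hlam : lam ≠ 0) (h0 : -(1 / 2) ≤ lam)
    (h1 : lam ≤ 1) (hf : b.Fact false lam) (hd : 0 ≤ d) (hdl : d * lam ^ 2 ≤ 1)
    (hl : 1 ≤ (b.en : ℝ) / b.ed * lam ^ 2) (F : Facts lam (poisson d)) {mhi : ℝ} (hmhi : mhi ≤ 1)
    (hm : ∃ n0 : ℕ, ∀ n, n0 ≤ n →
      lam ^ 2 * xs lam (poisson d) n ∈ Set.Icc ((b.mn : ℝ) / b.md) mhi) :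
    Tendsto (xs lam (poisson d)) atTop (𝓝 0) := by
  have R := HiBr.rel hf.ok
  have hQ : (0 : ℝ) < b.c1.P.Q := by exact_mod_cast R.hQ
  have hdl' : (0 : ℝ) < b.dl := by exact_mod_cast R.hdl
  have hl2 : 0 < lam ^ 2 := by positivity
  obtain ⟨n0, hn0⟩ := hm
  have hinv : 1 / lam ^ 2 ≤ (b.en : ℝ) / b.ed := by
    rw [div_le_iff₀ hl2]; exact hl
  have hdi : d ≤ 1 / lam ^ 2 := by
    rw [le_div_iff₀ hl2]; exact hdl
  refine bracket_poisson hlam h0 h1 hd hdl F (mlo := (b.mn : ℝ) / b.md) (mhi := mhi)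
    (l := (b.en : ℝ) / b.ed) (delta := (b.dl : ℝ) / b.c1.P.Q) (hdi.trans hinv) (by linarith)
    (by positivity) (P := fun _ => b.c1.P.beta) (D := fun _ => vec b.c1.P.Q b.D)
    (p1 := fun _ => b.c1.P.Wr) (p0 := fun _ => b.c0.P.Wr) (g1 := fun _ => b.c1.P.gr)
    (g0 := fun _ => b.c0.P.gr) continuousOn_const (fun m hm => ?_) hn0
  have := hf.br hlam h0 h1 hm.1 (hm.2.trans hmhi)
  rwa [tauOf_false] at this

/-- Regular tree: the sequence cannot stay in the bracket unless it tends to zero. -/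
theorem HiBr.Fact.regular {b : HiBr} {lam : ℝ} {d : ℕ} (hlam : lam ≠ 0) (h0 : -(1 / 2) ≤ lam)
    (h1 : lam ≤ 1) (hf : b.Fact true lam) (hdl : (d : ℝ) * lam ^ 2 ≤ 1)
    (hl : 1 ≤ (b.en : ℝ) / b.ed * lam ^ 2) (F : Facts lam (regular d)) {mhi : ℝ} (hmhi : mhi ≤ 1)
    (hm : ∃ n0 : ℕ, ∀ n, n0 ≤ n →
      lam ^ 2 * xs lam (regular d) n ∈ Set.Icc ((b.mn : ℝ) / b.md) mhi) :
    Tendsto (xs lam (regular d)) atTop (𝓝 0) := by
  have R := HiBr.rel hf.ok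
  have hQ : (0 : ℝ) < b.c1.P.Q := by exact_mod_cast R.hQ
  have hen : (0 : ℝ) < b.en := by exact_mod_cast R.hen
  have hed : (0 : ℝ) < b.ed := by exact_mod_cast R.hed
  have hdl' : (0 : ℝ) < b.dl := by exact_mod_cast R.hdl
  have hl2 : 0 < lam ^ 2 := by positivity
  obtain ⟨n0, hn0⟩ := hm
  have hinv : 1 / lam ^ 2 ≤ (b.en : ℝ) / b.ed := by
    rw [div_le_iff₀ hl2]; exact hl
  have hdi : (d : ℝ) ≤ 1 / lam ^ 2 := by
    rw [le_div_iff₀ hl2]; exact hdl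
  refine bracket_regular hlam h0 h1 hdl F (mlo := (b.mn : ℝ) / b.md) (mhi := mhi)
    (l := (b.en : ℝ) / b.ed) (delta := (b.dl : ℝ) / b.c1.P.Q) (by positivity) (by linarith)
    (by linarith) (by positivity) (P := fun _ => b.c1.P.beta) (D := fun _ => vec b.c1.P.Q b.D)
    (p1 := fun _ => b.c1.P.Wr) (p0 := fun _ => b.c0.P.Wr) (g1 := fun _ => b.c1.P.gr)
    (g0 := fun _ => b.c0.P.gr) continuousOn_const (fun m hm => ?_) hn0
  have := hf.br hlam h0 h1 hm.1 (hm.2.trans hmhi)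
  rwa [tauOf_true] at this

end Vale.Agent.P154
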