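import Vale.Agent.P154.V2Tab
import Vale.Agent.P154.V2Defs
import Vale.Agent.P154.MergeFinal
import Vale.Agent.P154.Neg

/-!
Leaf certificates for the merge inequality with cubic terms and multipliers.
-/

namespace Vale.Agent.P154

/-- Parameters of a merge inequality, divided by `Q`: output potential
`b1 N + b2 C + (b3 + b5) N² + c5 N C + d5 C²`, and the coefficient lists (of `1, N, C, N², N C, C²`)
of `U`, `W`, `g`. -/
structure Par2 where
  Q : Int
  b1 : Int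
  b2 : Int
  b3 : Int
  b5 : Int
  c5 : Int
  d5 : Int
  U0 : Int
  U1 : Int
  U2 : Int
  U3 : Int
  U4 : Int
  U5 : Int
  W0 : Int
  W1 : Int
  W2 : Int
  W3 : Int
  W4 : Int
  W5 : Int
  g0 : Int
  g1 : Int
  g2 : Int
  g3 : Int
  g4 : Int
  g5 : Int

/-- `2 W (U(u) + W(v) + g(u) N(v))` -/
def base2 (P : Par2) (W : Int) : List (List Int) :=
  let w := Int.mul 2 W
  [[Int.mul w (Int.add P.U0 P.W0), Int.mul w P.U1, Int.mul w P.U3, 0, 0, 0, Int.mul w P.U2,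
      Int.mul w P.U4, 0, 0, Int.mul w P.U5],
   [Int.mul w (Int.add P.W1 P.g0), Int.mul w P.g1, Int.mul w P.g3, 0, 0, 0, Int.mul w P.g2,
      Int.mul w P.g4, 0, 0, Int.mul w P.g5],
   [Int.mul w P.W3], [], [], [], [Int.mul w P.W2], [Int.mul w P.W4], [], [], [Int.mul w P.W5]]

/-- multiplication by `1 + z` -/
def mul1z (l : List Int) : List Int := addL l (0 :: l)

/-- A range `lo ≤ Zd (1 + z) ≤ hi` with interior subdivision points for the three parts. -/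
structure Seg2 where
  lo : Nat
  hi : Nat
  b2 : List Nat
  b3 : List Nat
  b5 : List Nat

/-- certificate data of a leaf -/
structure Leaf2 where
  l2 : List Int
  e2 : List Int
  l3 : List Int
  e3 : List Int
  l5 : List Int
  e5 : List Int
  segs : List Seg2

/-- coefficient lists multiplying `N, C, N², N C, C², 1` in the upper bound -/
def lN (P : Par2) (L : Leaf2) : List Int := smulL P.b1 (mul1z L.l2)
def lC (P : Par2) (L : Leaf2) : List Int := smulL P.b2 L.l2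
def lNN (P : Par2) (L : Leaf2) : List Int :=
  addL (smulL P.b3 L.l3) (smulL P.b5 (mul1z (mul1z L.l5)))
def lNC (P : Par2) (L : Leaf2) : List Int := smulL P.c5 (mul1z L.l5)
def lCC (P : Par2) (L : Leaf2) : List Int := smulL P.d5 L.l5

/-- The sharper bounds below are used when `1009` divides `Q`. -/
def sharp (P : Par2) : Bool := Nat.beq (Nat.mod (Int.natAbs P.Q) 1009) 0

/-- minimum, decided by the sign of the difference -/
def imin (a b : Int) : Int :=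
  match Int.sub a b with
  | .ofNat _ => b
  | .negSucc _ => a

/-- maximum, decided by the sign of the difference -/
def imax (a b : Int) : Int :=
  match Int.sub a b with
  | .ofNat _ => a
  | .negSucc _ => b

/-- simple upper bounds of the parts of the potential on probability vectors -/
def m2o (P : Par2) : Int := Int.add P.b1 (Int.ofNat P.b2.natAbs)
def m5o (P : Par2) : Int := Int.add P.b5 (Int.ofNat (P.c5.natAbs + P.d5.natAbs))

/-- at least `b1 + b2` and `(2 b1 - b2) / 8` -/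
def m2s (P : Par2) : Int :=
  imax (Int.add P.b1 P.b2)
    (Int.ofNat (Nat.succ (Nat.div (Int.natAbs (Int.sub (Int.mul 2 P.b1) P.b2)) 8)))

/-- at least `A + B / 12`, `A` and `B` = values of `b5 + c5 r + max d5 0 r²` at `1` and `-1/2` -/
def m5s (P : Par2) : Int :=
  Int.add (Int.add P.b5 (Int.add P.c5 (imax P.d5 0)))
    (Int.ofNat (Nat.succ (Nat.div (Int.natAbs
      (Int.add (Int.sub (Int.mul 4 P.b5) (Int.mul 2 P.c5)) (imax P.d5 0))) 48)))

/-- upper bounds of the three parts of the potential on probability vectors -/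
def m2 (P : Par2) : Int :=
  match sharp P with
  | true => imin (m2o P) (m2s P)
  | false => m2o P
def m5 (P : Par2) : Int :=
  match sharp P with
  | true => imin (m5o P) (m5s P)
  | false => m5o P

def lZ (P : Par2) (L : Leaf2) : List Int :=
  addL (smulL (m2 P) L.e2) (addL (smulL P.b3 L.e3) (smulL (m5 P) L.e5))

/-- matrix of `2 W (U + W + g N) Q - upper bound` -/
def leafM2 (P : Par2) (W : Int) (L : Leaf2) : List (List Int) :=
  addM (base2 P W) (smulM (-1) (addM (lin (lN P L) tabN) (addM (lin (lC P L) tabC1)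
    (addM (lin (lNN P L) tabB) (addM (lin (lNC P L) tabC) (addM (lin (lCC P L) tabD)
      (lin (lZ P L) tabZ)))))))

/-! ### kernel friendly primitives -/

/-- evaluate `n` first -/
def fcN (n : Nat) (f : Nat → Bool) : Bool :=
  @Nat.rec (fun _ => Bool) (f 0) (fun m _ => f (Nat.succ m)) n

/-- evaluate `z` first -/
def fcZ (z : Int) (f : Int → Bool) : Bool :=
  @Int.casesOn (fun _ => Bool) z (fun n => fcN n (fun n => f (Int.ofNat n)))
    (fun n => fcN n (fun n => f (Int.negSucc n)))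

/-- evaluate the nonnegative number `z` first -/
def fcP (z : Int) (f : Nat → Bool) : Bool :=
  @Int.casesOn (fun _ => Bool) z (fun n => fcN n f) (fun _ => false)

def fcLN (l : List Nat) (f : List Nat → Bool) : Bool :=
  @List.rec Nat (fun _ => (List Nat → Bool) → Bool) (fun f => f [])
    (fun a _ ih f => fcN a (fun a => ih (fun as => f (a :: as)))) l f

def fcLZ (l : List Int) (f : List Int → Bool) : Bool :=
  @List.rec Int (fun _ => (List Int → Bool) → Bool) (fun f => f [])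
    (fun a _ ih f => fcZ a (fun a => ih (fun as => f (a :: as)))) l f

def band (x y : Bool) : Bool := @Bool.rec (fun _ => Bool) false y x

def bor (x y : Bool) : Bool := @Bool.rec (fun _ => Bool) y true x

/-- `addL` -/
def addF (a b : List Int) : List Int :=
  @List.rec Int (fun _ => List Int → List Int) (fun b => b)
    (fun x as ih b => @List.rec Int (fun _ => List Int) (x :: as)
      (fun y ys _ => Int.add x y :: ih ys) b) a b

/-- `smulL` -/
def smulF (c : Int) (a : List Int) : List Int :=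
  @List.rec Int (fun _ => List Int) [] (fun x _ ih => Int.mul c x :: ih) a

/-- sum of the absolute values -/
def absF (a : List Int) : Nat :=
  @List.rec Int (fun _ => Nat) 0 (fun x _ ih => Nat.add (Int.natAbs x) ih) a

/-! ### univariate conditions -/

/-- Horner's rule modulo `MOD` -/
def horN (A MOD : Nat) (l : List Nat) : Nat :=
  @List.rec Nat (fun _ => Nat) 0 (fun g _ r => Nat.mod (Nat.add g (Nat.mul A r)) MOD) l

/-- products with the powers of `B`, modulo `MOD` -/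
def zipG (MOD : Nat) (F : List Int) (P : List Nat) : List Nat :=
  @List.rec Int (fun _ => List Nat → List Nat) (fun _ => [])
    (fun f _ ih P => @List.rec Nat (fun _ => List Nat) []
      (fun p ps _ => Nat.mod (Nat.mul (toMod MOD f) p) MOD :: ih ps) P) F P

/-- powers `B ^ 11, ..., B ^ 0` -/
def powB (B : Nat) : List Nat :=
  [Nat.pow B 11, Nat.pow B 10, Nat.pow B 9, Nat.pow B 8, Nat.pow B 7, Nat.pow B 6, Nat.pow B 5,
    Nat.pow B 4, Nat.pow B 3, Nat.pow B 2, B, 1]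

/-- nonnegativity on the interval `[a, b]` (in the variable `Zd (1 + z)`) -/
def chk (T C MOD h : Nat) (G : List Nat) (a b : Nat) : Bool :=
  band (Nat.ble (Nat.succ a) b)
    (fcN (Nat.add (Nat.add a (Nat.mul b T)) C) (fun A =>
      fcN (Nat.mod (Nat.add (horN A MOD G) h) MOD) (fun r => Nat.beq (Nat.land r h) h)))

def posOn (T C MOD h : Nat) (G : List Nat) (lo : Nat) (bs : List Nat) (hi : Nat) : Bool :=
  @List.rec Nat (fun _ => Nat → Bool) (fun a => chk T C MOD h G a hi)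
    (fun b _ ih a => band (chk T C MOD h G a b) (ih b)) bs lo

/-- all ranges, for one part -/
def posSegs (T C MOD h : Nat) (G : List Nat) (sel : Seg2 → List Nat) (ss : List Seg2) : Bool :=
  @List.rec Seg2 (fun _ => Bool) true
    (fun s _ ih => band (posOn T C MOD h G s.lo (sel s) s.hi) ih) ss

/-- `(1 + z)^n l(z)`, evaluated -/
def mulzF (n : Nat) (l : List Int) (f : List Int → Bool) : Bool :=
  @Nat.rec (fun _ => List Int → Bool) f
    (fun _ ih l => fcLZ (addF l (0 :: l)) ih) n l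

/-- one part: `e(z) + (1+z)^(k+1) l(z) ≥ W (1+z)` and `e(z) ≥ 0` on all ranges -/
def partOK (l e : List Int) (k : Nat) (W : Int) (K MOD h T B C Zm : Nat) (PB : List Nat)
    (sel : Seg2 → List Nat) (ss : List Seg2) : Bool :=
  band (Nat.ble (Nat.succ (Nat.mul Zm (Nat.add (absF e) (Nat.add
      (Nat.mul (Nat.pow 2 (Nat.succ k)) (absF l)) (Nat.mul 2 (Int.natAbs W))))))
      (Nat.pow 2 (Nat.sub K 1)))
  (band (mulzF (Nat.succ k) l (fun l =>
      fcLZ (addF e (addF l [Int.neg W, Int.neg W])) (fun F =>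
        fcLN (zipG MOD F PB) (fun G => posSegs T C MOD h G sel ss))))
    (@List.rec Int (fun _ => Bool) true
      (fun _ _ _ => fcLN (zipG MOD e PB) (fun G => posSegs T C MOD h G sel ss)) e))

/-- all ranges lie in `[0, 3 Zd]` -/
def hiOK (Z3 : Nat) (ss : List Seg2) : Bool :=
  @List.rec Seg2 (fun _ => Bool) true (fun s _ ih => band (Nat.ble s.hi Z3) ih) ss

/-- the three parts; a part that is absent is not checked -/
def segsOK (P : Par2) (L : Leaf2) (W : Int) (Zd : Nat) (K : Nat) : Bool :=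
  fcN (Nat.pow 2 K) fun T =>
  fcN (Nat.pow 2 (Nat.mul 12 K)) fun MOD =>
  fcN (halfMask 12 K) fun h =>
  fcN (Nat.mul Zd (Nat.succ T)) fun B =>
  fcN (Nat.sub MOD B) fun C =>
  fcN (Nat.pow (Nat.mul 4 Zd) 11) fun Zm =>
  fcLN (powB B) fun PB =>
  band (band (Nat.ble B MOD) (hiOK (Nat.mul 3 Zd) L.segs))
  (band (partOK L.l2 L.e2 2 W K MOD h T B C Zm PB Seg2.b2 L.segs)
  (band (if P.b3 = 0 then true else partOK L.l3 L.e3 3 W K MOD h T B C Zm PB Seg2.b3 L.segs)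
    (if P.b5 = 0 ∧ P.c5 = 0 ∧ P.d5 = 0 then true else
      partOK L.l5 L.e5 5 W K MOD h T B C Zm PB Seg2.b5 L.segs)))

/-! ### ranges of z -/

/-- the numbers `S` and `3 S x_i` of a point -/
def ptF (a : Pt) (f : Nat → Nat → Nat → Nat → Bool) : Bool :=
  fcP a.S fun S =>
  fcP (Int.add a.S (Int.add (Int.mul 4 a.p) (Int.mul 2 a.r))) fun x =>
  fcP (Int.add a.S (Int.sub (Int.mul 2 a.r) (Int.mul 2 a.p))) fun y =>
  fcP (Int.sub a.S (Int.add (Int.mul 2 a.p) (Int.mul 4 a.r))) fun z =>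
  f S x y z

/-- `lo ≤ q / D ≤ hi` -/
def in1 (lo hi D q : Nat) : Bool :=
  fcN q fun q => band (Nat.ble (Nat.mul lo D) q) (Nat.ble q (Nat.mul hi D))

/-- `Zd (x0 y0 + x1 y1 + x2 y2)` -/
def qf (Zd x0 x1 x2 y0 y1 y2 : Nat) : Nat :=
  Nat.mul Zd (Nat.add (Nat.add (Nat.mul x0 y0) (Nat.mul x1 y1)) (Nat.mul x2 y2))

/-- one of the ranges contains all nine values -/
def any9 (D1 D2 D3 D4 D5 D6 D7 D8 D9 q1 q2 q3 q4 q5 q6 q7 q8 q9 : Nat) (ss : List Seg2) : Bool :=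
  @List.rec Seg2 (fun _ => Bool) false
    (fun s _ ih => bor
      (band (in1 s.lo s.hi D1 q1) (band (in1 s.lo s.hi D2 q2) (band (in1 s.lo s.hi D3 q3)
      (band (in1 s.lo s.hi D4 q4) (band (in1 s.lo s.hi D5 q5) (band (in1 s.lo s.hi D6 q6)
      (band (in1 s.lo s.hi D7 q7) (band (in1 s.lo s.hi D8 q8) (in1 s.lo s.hi D9 q9)))))))))
      ih) ss

def allSeg (Zd : Nat) (U V : Tri) (ss : List Seg2) : Bool :=
  ptF U.a fun Sa a0 a1 a2 => ptF U.b fun Sb b0 b1 b2 => ptF U.c fun Sc c0 c1 c2 =>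
  ptF V.a fun Ta x0 x1 x2 => ptF V.b fun Tb y0 y1 y2 => ptF V.c fun Tc z0 z1 z2 =>
  fcN (Nat.mul 3 (Nat.mul Sa Ta)) fun D1 =>
  fcN (Nat.mul 3 (Nat.mul Sa Tb)) fun D2 =>
  fcN (Nat.mul 3 (Nat.mul Sa Tc)) fun D3 =>
  fcN (Nat.mul 3 (Nat.mul Sb Ta)) fun D4 =>
  fcN (Nat.mul 3 (Nat.mul Sb Tb)) fun D5 =>
  fcN (Nat.mul 3 (Nat.mul Sb Tc)) fun D6 =>
  fcN (Nat.mul 3 (Nat.mul Sc Ta)) fun D7 =>
  fcN (Nat.mul 3 (Nat.mul Sc Tb)) fun D8 =>
  fcN (Nat.mul 3 (Nat.mul Sc Tc)) fun D9 =>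
  band (any9 D1 D2 D3 D4 D5 D6 D7 D8 D9
    (qf Zd a0 a1 a2 x0 x1 x2) (qf Zd a0 a1 a2 y0 y1 y2) (qf Zd a0 a1 a2 z0 z1 z2)
    (qf Zd b0 b1 b2 x0 x1 x2) (qf Zd b0 b1 b2 y0 y1 y2) (qf Zd b0 b1 b2 z0 z1 z2)
    (qf Zd c0 c1 c2 x0 x1 x2) (qf Zd c0 c1 c2 y0 y1 y2) (qf Zd c0 c1 c2 z0 z1 z2) ss)
  (band (any9 D1 D2 D3 D4 D5 D6 D7 D8 D9
    (qf Zd a0 a1 a2 x1 x2 x0) (qf Zd a0 a1 a2 y1 y2 y0) (qf Zd a0 a1 a2 z1 z2 z0)
    (qf Zd b0 b1 b2 x1 x2 x0) (qf Zd b0 b1 b2 y1 y2 y0) (qf Zd b0 b1 b2 z1 z2 z0)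
    (qf Zd c0 c1 c2 x1 x2 x0) (qf Zd c0 c1 c2 y1 y2 y0) (qf Zd c0 c1 c2 z1 z2 z0) ss)
  (band (any9 D1 D2 D3 D4 D5 D6 D7 D8 D9
    (qf Zd a0 a1 a2 x2 x0 x1) (qf Zd a0 a1 a2 y2 y0 y1) (qf Zd a0 a1 a2 z2 z0 z1)
    (qf Zd b0 b1 b2 x2 x0 x1) (qf Zd b0 b1 b2 y2 y0 y1) (qf Zd b0 b1 b2 z2 z0 z1)
    (qf Zd c0 c1 c2 x2 x0 x1) (qf Zd c0 c1 c2 y2 y0 y1) (qf Zd c0 c1 c2 z2 z0 z1) ss)
  (band (any9 D1 D2 D3 D4 D5 D6 D7 D8 D9
    (qf Zd a0 a1 a2 x0 x2 x1) (qf Zd a0 a1 a2 y0 y2 y1) (qf Zd a0 a1 a2 z0 z2 z1)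
    (qf Zd b0 b1 b2 x0 x2 x1) (qf Zd b0 b1 b2 y0 y2 y1) (qf Zd b0 b1 b2 z0 z2 z1)
    (qf Zd c0 c1 c2 x0 x2 x1) (qf Zd c0 c1 c2 y0 y2 y1) (qf Zd c0 c1 c2 z0 z2 z1) ss)
  (band (any9 D1 D2 D3 D4 D5 D6 D7 D8 D9
    (qf Zd a0 a1 a2 x1 x0 x2) (qf Zd a0 a1 a2 y1 y0 y2) (qf Zd a0 a1 a2 z1 z0 z2)
    (qf Zd b0 b1 b2 x1 x0 x2) (qf Zd b0 b1 b2 y1 y0 y2) (qf Zd b0 b1 b2 z1 z0 z2)
    (qf Zd c0 c1 c2 x1 x0 x2) (qf Zd c0 c1 c2 y1 y0 y2) (qf Zd c0 c1 c2 z1 z0 z2) ss)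
  (any9 D1 D2 D3 D4 D5 D6 D7 D8 D9
    (qf Zd a0 a1 a2 x2 x1 x0) (qf Zd a0 a1 a2 y2 y1 y0) (qf Zd a0 a1 a2 z2 z1 z0)
    (qf Zd b0 b1 b2 x2 x1 x0) (qf Zd b0 b1 b2 y2 y1 y0) (qf Zd b0 b1 b2 z2 z1 z0)
    (qf Zd c0 c1 c2 x2 x1 x0) (qf Zd c0 c1 c2 y2 y1 y0) (qf Zd c0 c1 c2 z2 z1 z0) ss)))))

/-! ### the positivity of the remainder -/

/-- `c + ∑ (digit at shift s of v_r) * b_r` -/
def acc14 (B s : Nat) (v0 v1 v2 v3 v4 v5 v6 v7 v8 v9 v10 v11 v12 v13 : Nat)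
    (b0 b1 b2 b3 b4 b5 b6 b7 b8 b9 b10 b11 b12 b13 c : Nat) : Nat :=
  Nat.add (Nat.add (Nat.add (Nat.add (Nat.add (Nat.add (Nat.add (Nat.add (Nat.add (Nat.add (Nat.add (Nat.add (Nat.add (Nat.add c (Nat.mul (Nat.mod (Nat.shiftRight v0 s) B) b0))
    (Nat.mul (Nat.mod (Nat.shiftRight v1 s) B) b1))
    (Nat.mul (Nat.mod (Nat.shiftRight v2 s) B) b2))
    (Nat.mul (Nat.mod (Nat.shiftRight v3 s) B) b3))
    (Nat.mul (Nat.mod (Nat.shiftRight v4 s) B) b4))
    (Nat.mul (Nat.mod (Nat.shiftRight v5 s) B) b5))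
    (Nat.mul (Nat.mod (Nat.shiftRight v6 s) B) b6))
    (Nat.mul (Nat.mod (Nat.shiftRight v7 s) B) b7))
    (Nat.mul (Nat.mod (Nat.shiftRight v8 s) B) b8))
    (Nat.mul (Nat.mod (Nat.shiftRight v9 s) B) b9))
    (Nat.mul (Nat.mod (Nat.shiftRight v10 s) B) b10))
    (Nat.mul (Nat.mod (Nat.shiftRight v11 s) B) b11))
    (Nat.mul (Nat.mod (Nat.shiftRight v12 s) B) b12))
    (Nat.mul (Nat.mod (Nat.shiftRight v13 s) B) b13)

/-- `c + ∑ (entry at shift s + 128 c of M) * u_c` -/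
def row14 (B M s : Nat) (u0 u1 u2 u3 u4 u5 u6 u7 u8 u9 u10 u11 u12 u13 c : Nat) : Nat :=
  Nat.add (Nat.add (Nat.add (Nat.add (Nat.add (Nat.add (Nat.add (Nat.add (Nat.add (Nat.add (Nat.add (Nat.add (Nat.add (Nat.add c (Nat.mul (Nat.mod (Nat.shiftRight M s) B) u0))
    (Nat.mul (Nat.mod (Nat.shiftRight M (Nat.add s 128)) B) u1))
    (Nat.mul (Nat.mod (Nat.shiftRight M (Nat.add s 256)) B) u2))
    (Nat.mul (Nat.mod (Nat.shiftRight M (Nat.add s 384)) B) u3))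
    (Nat.mul (Nat.mod (Nat.shiftRight M (Nat.add s 512)) B) u4))
    (Nat.mul (Nat.mod (Nat.shiftRight M (Nat.add s 640)) B) u5))
    (Nat.mul (Nat.mod (Nat.shiftRight M (Nat.add s 768)) B) u6))
    (Nat.mul (Nat.mod (Nat.shiftRight M (Nat.add s 896)) B) u7))
    (Nat.mul (Nat.mod (Nat.shiftRight M (Nat.add s 1024)) B) u8))
    (Nat.mul (Nat.mod (Nat.shiftRight M (Nat.add s 1152)) B) u9))
    (Nat.mul (Nat.mod (Nat.shiftRight M (Nat.add s 1280)) B) u10))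
    (Nat.mul (Nat.mod (Nat.shiftRight M (Nat.add s 1408)) B) u11))
    (Nat.mul (Nat.mod (Nat.shiftRight M (Nat.add s 1536)) B) u12))
    (Nat.mul (Nat.mod (Nat.shiftRight M (Nat.add s 1664)) B) u13)

/-- packed value of a row -/
def packR (r : List Int) : Int :=
  @List.rec Int (fun _ => Int) 0 (fun a _ ih => Int.add a (Int.mul (Int.ofNat (Nat.pow 2 128)) ih)) r

/-- packed value of a matrix -/
def packM (M : List (List Int)) : Int :=
  @List.rec (List Int) (fun _ => Int) 0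
    (fun r _ ih => Int.add (packR r) (Int.mul (Int.ofNat (Nat.pow 2 1792)) ih)) M

/-- `∑ l_m T_m` -/
def dotP (l T : List Int) : Int :=
  @List.rec Int (fun _ => List Int → Int) (fun _ => 0)
    (fun a _ ih T => @List.rec Int (fun _ => Int) 0
      (fun t ts _ => Int.add (Int.mul a t) (ih ts)) T) l T

end Vale.Agent.P154
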