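import Vale.Agent.P154.V2Asm

/-!
Brackets that are valid for all `lam` in `[lam0, 1)` (Poisson trees).
-/

namespace Vale.Agent.P154

open Filter Topology
open Low

namespace Lim

/-! ### soundness -/

theorem tau_half {lam : ℝ} (h : 0 < lam) : 1 / (2 * (1 / lam ^ 2) * lam ^ 2) = 1 / 2 := by
  have : lam ≠ 0 := h.ne'
  field_simp

/-- the region of small `x_n` -/
theorem low {lam d : ℝ} (hl0 : 0 < lam) (hl1 : lam < 1) (hd : 0 ≤ d) (hdl : d * lam ^ 2 ≤ 1)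
    (F : Facts lam (poisson d)) {t1 e : ℝ} (ht1 : 0 < t1) (he : 0 < e) {g V0 V1 V2 : P6}
    (hV2 : V2 = V1 + ((1 - lam) * t1 / lam) • g)
    (p0 : PW Pos (InK lam 1) V0 V0 V0 g) (p1 : PW Pos (InK lam 1) V1 V1 V1 g)
    (p2 : PW Pos (InK lam 1) V2 V2 V2 g)
    (z0 : V0 0 = 0) (z1 : V1 0 = 0) (g0 : g 0 = 0)
    (n0 : ∀ x, InK lam 1 x → 0 ≤ H V0 x) (n1 : ∀ x, InK lam 1 x → 0 ≤ H V1 x)
    (n2 : ∀ x, InK lam 1 x → 0 ≤ H V2 x)
    (f0 : ∀ x, Pos x → (1 / lam ^ 2) * H (sc lam V0) x ≤ H V0 x - e * (1 - lam) * H eNN x)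
    (f1 : ∀ x, Pos x → (1 / lam ^ 2) * H (sc lam (V1 + (1 / 2 : ℝ) • (V2 - V1))) x ≤
      H V1 x - e * (1 - lam) * H eNN x)
    (hm : ∃ n0 : ℕ, ∀ n, n0 ≤ n → lam ^ 2 * xs lam (poisson d) n ∈
      Set.Icc 0 (lam * (1 - lam) * t1)) :
    Tendsto (xs lam (poisson d)) atTop (𝓝 0) := by
  have hl2 : 0 < lam ^ 2 := by positivity
  have h1l : 0 < 1 - lam := by linarith
  obtain ⟨m0, hm0e⟩ : ∃ m0, m0 = lam * (1 - lam) * t1 := ⟨_, rfl⟩
  have hm0 : 0 < m0 := by rw [hm0e]; positivity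
  have he' : 0 < e * (1 - lam) := mul_pos he h1l
  rw [← hm0e] at hm
  obtain ⟨k, hk⟩ := hm
  have hdi : d ≤ 1 / lam ^ 2 := by
    rw [le_div_iff₀ hl2]; exact hdl
  have hP : V2 = V1 + ((1 / lam ^ 2) * m0) • g := by
    rw [hV2, hm0e]
    congr 2
    field_simp
  refine bracket_poisson (l := 1 / lam ^ 2) (delta := e * (1 - lam)) (mlo := 0) (mhi := m0)
    (P := fun m => (1 - m / m0) • V0 + (m / m0) • V1) (D := fun m => -(m • g))
    (p1 := fun m => (1 - m / m0) • V0 + (m / m0) • V1)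
    (p0 := fun m => (1 - m / m0) • V0 + (m / m0) • V2) (g1 := fun _ => g) (g0 := fun _ => g)
    hl0.ne' (by linarith) hl1.le hd hdl F hdi (by linarith) he' ?_ (fun m hm => ?_) hk
  · refine Continuous.continuousOn ?_
    fun_prop
  · rw [tau_half hl0]
    exact core hl0.ne' (by nlinarith) hm0 he'.le hP p0 p1 p2 z0 z1 g0 n0 n1 n2 f0 f1 hm

/-- the region of large `x_n` -/
theorem high {lam d : ℝ} (hl0 : 0 < lam) (hl1 : lam ≤ 1) (hd : 0 ≤ d) (hdl : d * lam ^ 2 ≤ 1)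
    (F : Facts lam (poisson d)) {m1 e : ℝ} (hm1 : 0 < m1) (he : 0 < e) {g B B' : P6}
    (hB' : B' = B + ((1 / lam ^ 2) * m1) • g)
    (p : PW Pos (InK lam 1) B B B g) (p' : PW Pos (InK lam 1) B' B' B' g)
    (zB : B 0 = 0) (g0 : g 0 = 0) (gn : ∀ x, Pos x → H g x ≤ 0)
    (n : ∀ x, InK lam 1 x → 0 ≤ H B x) (n' : ∀ x, InK lam 1 x → 0 ≤ H B' x)
    (f : ∀ x, Pos x → (1 / lam ^ 2) * H (sc lam (B + (1 / 2 : ℝ) • (B' - B))) x ≤
      H B x - e * H eN x)
    (hm : ∀ k, m1 ≤ lam ^ 2 * xs lam (poisson d) k) :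
    Tendsto (xs lam (poisson d)) atTop (𝓝 0) := by
  have hl2 : 0 < lam ^ 2 := by positivity
  have hl21 : lam ^ 2 ≤ 1 := by nlinarith
  have hdi : d ≤ 1 / lam ^ 2 := by
    rw [le_div_iff₀ hl2]; exact hdl
  have hT : ∀ y, InK lam 1 y → Pos y := fun y hy => inK_nonneg (by linarith) hl1 hy
  refine bracket_poisson (l := 1 / lam ^ 2) (delta := e) (mlo := m1) (mhi := 1)
    (P := fun _ => B) (D := fun _ => -(m1 • g)) (p1 := fun _ => B) (p0 := fun _ => B')
    (g1 := fun _ => g) (g0 := fun _ => g) (n0 := 0)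
    hl0.ne' (by linarith) hl1 hd hdl F hdi (by linarith) he continuousOn_const
    (fun m hm => ?_) (fun k _ => ⟨hm k, ?_⟩)
  · rw [tau_half hl0]
    obtain ⟨ha, hb⟩ := hm
    have key : ∀ x, Pos x → 0 ≤ (m1 - m) * H g x := fun x hx =>
      mul_nonneg_of_nonpos_of_nonpos (by linarith) (gn x hx)
    have eB : B - (1 / lam ^ 2) • (-(m1 • g)) = B' := by
      rw [hB']
      funext i
      simp only [Pi.add_apply, Pi.smul_apply, Pi.sub_apply, Pi.neg_apply, smul_eq_mul]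
      ring
    refine ⟨zB, by simp [g0], ?_, ?_, n, n', ?_⟩
    · refine PW_mono_U p (fun x hx => ?_) hT
      have e1 : H (B - -(m1 • g) - m • g) x = H B x + (m1 - m) * H g x := by
        rw [show B - -(m1 • g) - m • g = B + (m1 - m) • g by
          funext i
          simp only [Pi.add_apply, Pi.smul_apply, Pi.sub_apply, Pi.neg_apply, smul_eq_mul]
          ring]
        rw [Cvx.Hadd, Cvx.Hsmul]
      rw [e1]
      have := key x hx
      linarith
    · rw [eB]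
      refine PW_mono_U p' (fun x hx => ?_) hT
      have e1 : H (B' - -(m1 • g) - m • g) x = H B' x + (m1 - m) * H g x := by
        rw [show B' - -(m1 • g) - m • g = B' + (m1 - m) • g by
          funext i
          simp only [Pi.add_apply, Pi.smul_apply, Pi.sub_apply, Pi.neg_apply, smul_eq_mul]
          ring]
        rw [Cvx.Hadd, Cvx.Hsmul]
      rw [e1]
      have := key x hx
      linarith
    · refine ⟨-e, fun x hx => ?_⟩
      have h1 := f x hx
      have ht : 0 ≤ tot x := Cvx.tot_nn hx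
      have hm0 : 0 < m := by linarith
      have h2 : m ≤ m / lam ^ 2 := by
        rw [le_div_iff₀ hl2]
        nlinarith
      have h3 : m ^ 2 ≤ m / lam ^ 2 := by nlinarith
      have h4 := mul_le_mul_of_nonneg_left h3 he.le
      have h5 := mul_le_mul_of_nonneg_right h4 ht
      linarith
  · have h1 := F.xs_le_one k
    have h2 := F.xs_nonneg k
    nlinarith

/-! ### the final rows -/

def rowsL0 (td e x3 x4 x5 : Int) : List (List Int) :=
  let c := Int.mul 2 td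
  [[0, 0, 0, Int.mul c (Int.sub x3 e), Int.mul c x4, Int.mul c x5],
   [0, 0, 0, Int.mul c x3, Int.mul c x4, Int.mul c x5],
   [0, 0, 0, 0, Int.mul c x4, Int.mul c x5], [0, 0, 0, 0, 0, Int.mul c x5]]

def rowsL1 (tn td e x3 x4 x5 g3 g4 g5 : Int) : List (List Int) :=
  let c := Int.mul 2 td
  [[0, 0, 0, Int.mul c (Int.sub x3 e), Int.mul c x4, Int.mul c x5],
   [0, 0, 0, Int.sub (Int.mul c x3) (Int.mul tn g3), Int.mul c x4, Int.mul c x5],
   [0, 0, 0, 0, Int.sub (Int.mul c x4) (Int.mul tn g4), Int.mul c x5],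
   [0, 0, 0, 0, 0, Int.sub (Int.mul c x5) (Int.mul tn g5)]]

def rowsH (hn hd e z2 z3 z4 z5 g1 g2 g3 g4 g5 : Int) : List (List Int) :=
  let c := Int.mul 2 hd
  [[0, Int.neg (Int.mul hn g1)], [0, 0, Int.neg (Int.mul hn g2)],
   [0, Int.neg (Int.mul c e), Int.mul c z2, Int.sub (Int.mul c z3) (Int.mul hn g3),
     Int.mul c z4, Int.mul c z5],
   [0, 0, 0, Int.mul c z3, Int.sub (Int.mul c z4) (Int.mul hn g4), Int.mul c z5],
   [0, 0, 0, 0, Int.mul c z4, Int.sub (Int.mul c z5) (Int.mul hn g5)],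
   [0, 0, 0, 0, 0, Int.mul c z5]]

theorem finV_L0 (Q td e x3 x4 x5 : Int) (hQ : (Q : ℝ) ≠ 0) {s : ℝ} (hs : s ≠ 0) {x : V}
    (hx : tot x = 1) :
    (1 - s) * finV (rowsL0 td e x3 x4 x5) s x = 2 * td * Q *
      (H (vec Q [0, Q, 0, x3, x4, x5]) x - (e / Q : ℝ) * (1 - s) * H eNN x -
        (1 / s ^ 2) * H (sc s (vec Q [0, Q, 0, x3, x4, x5])) x) := by
  have e1 : ∀ a b : Int, Int.sub a b = a - b := fun _ _ => rfl
  have e2 : ∀ a b : Int, Int.mul a b = a * b := fun _ _ => rfl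
  rw [H_of_tot_one _ hx, H_of_tot_one _ hx, H_of_tot_one _ hx]
  simp only [sc, vec_apply, Matrix.cons_val_zero, Matrix.cons_val_one, Matrix.cons_val, finV,
    rowsL0, finR, six, dot, eNN, e1, e2, val0, val1, val2, val3, val4, val5,
    List.getD_cons_zero, List.getD_cons_succ]
  push_cast
  field_simp
  ring

theorem finV_L1 (Q tn td e x2 x3 x4 x5 g2 g3 g4 g5 : Int) (hQ : (Q : ℝ) ≠ 0)
    (htd : (td : ℝ) ≠ 0) (h2 : (2 * td * x2 : ℝ) = tn * g2) {s : ℝ} (hs : s ≠ 0) {x : V}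
    (hx : tot x = 1) :
    (1 - s) * finV (rowsL1 tn td e x3 x4 x5 g3 g4 g5) s x = 2 * td * Q *
      (H (vec Q [0, Q, x2, x3, x4, x5]) x - (e / Q : ℝ) * (1 - s) * H eNN x -
        (1 / s ^ 2) * H (sc s (vec Q [0, Q, x2, x3, x4, x5] + (1 / 2 : ℝ) •
          (((1 - s) * (tn / td : ℝ) / s) • vec Q [0, 0, g2, g3, g4, g5]))) x) := by
  have e1 : ∀ a b : Int, Int.sub a b = a - b := fun _ _ => rfl
  have e2 : ∀ a b : Int, Int.mul a b = a * b := fun _ _ => rfl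
  have hx2 : (x2 : ℝ) = tn * g2 / (2 * td) := by
    rw [eq_div_iff (by positivity)]; linarith
  rw [H_of_tot_one _ hx, H_of_tot_one _ hx, H_of_tot_one _ hx]
  simp only [sc, vec_apply, Matrix.cons_val_zero, Matrix.cons_val_one, Matrix.cons_val, finV,
    rowsL1, finR, six, dot, eNN, e1, e2, val0, val1, val2, val3, val4, val5,
    List.getD_cons_zero, List.getD_cons_succ, Pi.add_apply, Pi.smul_apply, smul_eq_mul, hx2]
  push_cast
  field_simp
  ring

theorem finV_H (Q hn hd e z1 z2 z3 z4 z5 g1 g2 g3 g4 g5 : Int) (hQ : (Q : ℝ) ≠ 0)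
    (hhd : (hd : ℝ) ≠ 0) {s : ℝ} (hs : s ≠ 0) {x : V} (hx : tot x = 1) :
    (1 - s) * finV (rowsH hn hd e z2 z3 z4 z5 g1 g2 g3 g4 g5) s x = 2 * hd * Q * s ^ 2 *
      (H (vec Q [0, z1, z2, z3, z4, z5]) x - (e / Q : ℝ) * (1 - s) * H eN x -
        (1 / s ^ 2) * H (sc s (vec Q [0, z1, z2, z3, z4, z5] + (1 / 2 : ℝ) •
          (((1 / s ^ 2) * ((hn / hd : ℝ) * (1 - s))) • vec Q [0, g1, g2, g3, g4, g5]))) x) := by
  have e1 : ∀ a b : Int, Int.sub a b = a - b := fun _ _ => rfl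
  have e2 : ∀ a b : Int, Int.mul a b = a * b := fun _ _ => rfl
  have e4 : ∀ a : Int, Int.neg a = -a := fun _ => rfl
  rw [H_of_tot_one _ hx, H_of_tot_one _ hx, H_of_tot_one _ hx]
  simp only [sc, vec_apply, Matrix.cons_val_zero, Matrix.cons_val_one, Matrix.cons_val, finV,
    rowsH, finR, six, dot, eN, e1, e2, e4, val0, val1, val2, val3, val4, val5,
    List.getD_cons_zero, List.getD_cons_succ, Pi.add_apply, Pi.smul_apply, smul_eq_mul]
  push_cast
  field_simp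
  ring

end Lim

end Vale.Agent.P154
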