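import Vale.Agent.P154.V2Lim

/-!
Data of the limit brackets, and the theorem for Poisson trees with `lam` in `[lam0, 1)`.
-/

namespace Vale.Agent.P154

open Filter Topology
open Low

/-- `v0, v1, v2`: potentials `N + ...`, `N + (g2 t1 / 2) C + ...` and `v1 + t1 r0 g`,
`t1 = tn/td`, `r0 = (1 - lam0)/lam0`, `lam0 = an/ad`. `u0, u1`: `β` and `β + s0 k`,
`s0 = (hn/hd)(1 - lam0)/lam0²`. -/
structure LimBr where
  v0 : Cfg2
  v1 : Cfg2
  v2 : Cfg2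
  u0 : Cfg2
  u1 : Cfg2
  an : Int
  ad : Int
  tn : Int
  td : Int
  hn : Int
  hd : Int
  e : Int
  eh : Int
  x3 : Int
  x4 : Int
  x5 : Int
  y2 : Int
  y3 : Int
  y4 : Int
  y5 : Int
  g2 : Int
  g3 : Int
  g4 : Int
  g5 : Int
  z1 : Int
  z2 : Int
  z3 : Int
  z4 : Int
  z5 : Int
  k1 : Int
  k2 : Int
  k3 : Int
  k4 : Int
  k5 : Int

/-- output potential = `U` = `W` -/
def Cfg2.Same (c : Cfg2) : Prop := c.P.uL = c.P.bL ∧ c.P.wL = c.P.bL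

/-- linear relations -/
structure LimBr.OK (b : LimBr) : Prop where
  an : 0 < b.an
  ad : b.an < b.ad
  tn : 0 < b.tn
  td : 0 < b.td
  hn : 0 < b.hn
  hd : 0 < b.hd
  e : 0 < b.e
  eh : 0 < b.eh
  th : b.hn * b.ad * b.td ≤ b.hd * b.an * b.tn
  q1 : b.v1.P.Q = b.v0.P.Q
  q2 : b.v2.P.Q = b.v0.P.Q
  q3 : b.u1.P.Q = b.u0.P.Q
  s0 : b.v0.Same
  s1 : b.v1.Same
  s2 : b.v2.Same
  s3 : b.u0.Same
  s4 : b.u1.Same
  b0 : b.v0.P.bL = [0, b.v0.P.Q, 0, b.x3, b.x4, b.x5]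
  b1 : b.v1.P.bL = [0, b.v0.P.Q, b.y2, b.y3, b.y4, b.y5]
  g0 : b.v0.P.gL = [0, 0, b.g2, b.g3, b.g4, b.g5]
  g1 : b.v1.P.gL = [0, 0, b.g2, b.g3, b.g4, b.g5]
  g2 : b.v2.P.gL = [0, 0, b.g2, b.g3, b.g4, b.g5]
  y2 : 2 * b.td * b.y2 = b.tn * b.g2
  b2 : lcL (b.td * b.an) b.v2.P.bL 0 [] =
    lcL (b.td * b.an) b.v1.P.bL (b.tn * (b.ad - b.an)) b.v0.P.gL
  b3 : b.u0.P.bL = [0, b.z1, b.z2, b.z3, b.z4, b.z5]
  g3 : b.u0.P.gL = [0, b.k1, b.k2, b.k3, b.k4, b.k5]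
  g4 : b.u1.P.gL = b.u0.P.gL
  b4 : lcL (b.hd * b.an * b.an) b.u1.P.bL 0 [] =
    lcL (b.hd * b.an * b.an) b.u0.P.bL (b.hn * (b.ad - b.an) * b.ad) b.u0.P.gL

/-- a merge inequality has a certificate on the whole simplex -/
def PWC (c : Cfg2) : Prop :=
  c.good = true ∧ ∃ C : Cert2, C.check c (baseTri 1 1) (baseTri 1 1) = true

/-- a polynomial inequality has a certificate on `[a/D, 1]` -/
def FinC (D a : Int) (f : Nat → FCfg) : Prop :=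
  ∃ (K : Nat) (C : FCert), C.check (f K) D a D (baseTri 1 1) = true

structure LimBr.Cert (b : LimBr) : Prop where
  ok : b.OK
  p0 : PWC b.v0
  p1 : PWC b.v1
  p2 : PWC b.v2
  p3 : PWC b.u0
  p4 : PWC b.u1
  w0 : FinC b.ad b.an (hFin b.v0.P.bL)
  w1 : FinC b.ad b.an (hFin b.v1.P.bL)
  w2 : FinC b.ad b.an (hFin b.v2.P.bL)
  w3 : FinC b.ad b.an (hFin b.u0.P.bL)
  w4 : FinC b.ad b.an (hFin b.u1.P.bL)
  f0 : FinC b.ad b.an fun K => ⟨Lim.rowsL0 b.td b.e b.x3 b.x4 b.x5, 3, 12, K⟩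
  f1 : FinC b.ad b.an fun K =>
    ⟨Lim.rowsL1 b.tn b.td b.e b.y3 b.y4 b.y5 b.g3 b.g4 b.g5, 3, 12, K⟩
  fh : FinC b.ad b.an fun K => ⟨Lim.rowsH b.hn b.hd b.eh b.z2 b.z3 b.z4 b.z5 b.k1 b.k2 b.k3 b.k4
    b.k5, 5, 12, K⟩
  gh : GCert b.u0

namespace Lim

theorem pwc {c : Cfg2} (h : PWC c) (hs : c.Same) {lam : ℝ} (h0 : 0 ≤ lam) (h1 : lam ≤ 1) :
    0 < c.P.Q ∧ PW Pos (InK lam 1) (vec c.P.Q c.P.bL) (vec c.P.Q c.P.bL) (vec c.P.Q c.P.bL)
      (vec c.P.Q c.P.gL) := by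
  obtain ⟨hg, C, hC⟩ := h
  obtain ⟨hP, hW, hZ⟩ := Cfg2.good_sound hg
  refine ⟨hP.hQ, ?_⟩
  have := Cert2.pw_pos hP hW hZ C one_pos one_pos hC h0 h1 (by push_cast; linarith)
  rwa [Par2.beta_eq, Par2.Ur_eq, Par2.Wr_eq, Par2.gr_eq, hs.1, hs.2] at this

theorem fin_nn {D a : Int} {f : Nat → FCfg} (hD : 0 < D) (hab : a < D) (h : FinC D a f)
    (hn : ∀ K, (f K).M.length ≤ (f K).n + 1) {M : List (List Int)} (hM : ∀ K, (f K).M = M)
    {lam : ℝ} (h0 : (a : ℝ) ≤ D * lam) (h1 : lam ≤ 1) {x : V} (hx : Pos x) (ht : tot x = 1) :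
    0 ≤ finV M lam x := by
  obtain ⟨K, C, hC⟩ := h
  have hD' : (0 : ℝ) < D := by exact_mod_cast hD
  have := fin_nonneg (hn K) C hD hab hC lam x h0 (by nlinarith) hx ht
  rwa [hM K] at this

theorem hnn {D a : Int} {Q : Int} (hQ : 0 < Q) {l : List Int} (hD : 0 < D) (hab : a < D)
    (h : FinC D a (hFin l)) {lam : ℝ} (h0 : (a : ℝ) ≤ D * lam) (h1 : lam ≤ 1) {x : V}
    (hx : InK lam 1 x) : 0 ≤ H (vec Q l) x := by
  obtain ⟨K, C, hC⟩ := h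
  have hD' : (0 : ℝ) < D := by exact_mod_cast hD
  exact hpos hQ hD hab hC h0 (by nlinarith) hx

end Lim

open Lim in
/-- Poisson trees with `lam0 ≤ lam < 1`. -/
theorem LimBr.Cert.nonrec {b : LimBr} (h : b.Cert) {lam d : ℝ}
    (ha : (b.an : ℝ) ≤ b.ad * lam) (hl1 : lam < 1) (hd : 0 ≤ d) (hdl : d * lam ^ 2 ≤ 1) :
    Nonreconstruction 3 lam (poisson d) := by
  have R := h.ok
  have had : 0 < b.ad := R.an.trans R.ad
  have had' : (0 : ℝ) < b.ad := by exact_mod_cast had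
  have han' : (0 : ℝ) < b.an := by exact_mod_cast R.an
  have hl0 : 0 < lam := by
    have : 0 < b.ad * lam := lt_of_lt_of_le han' ha
    exact (pos_iff_pos_of_mul_pos this).1 had'
  have h1l : 0 < 1 - lam := by linarith
  have hl2 : 0 < lam ^ 2 := by positivity
  have F := facts (by linarith) hl1.le (isOff_poisson hd)
  have hadn : (b.an : ℝ) < b.ad := by exact_mod_cast R.ad
  have htn : (0 : ℝ) < b.tn := by exact_mod_cast R.tn
  have htd : (0 : ℝ) < b.td := by exact_mod_cast R.td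
  have hhn : (0 : ℝ) < b.hn := by exact_mod_cast R.hn
  have hhd : (0 : ℝ) < b.hd := by exact_mod_cast R.hd
  have hee : (0 : ℝ) < b.e := by exact_mod_cast R.e
  have heh : (0 : ℝ) < b.eh := by exact_mod_cast R.eh
  obtain ⟨Q0, P0⟩ := pwc h.p0 R.s0 hl0.le hl1.le
  obtain ⟨-, P1⟩ := pwc h.p1 R.s1 hl0.le hl1.le
  obtain ⟨-, P2⟩ := pwc h.p2 R.s2 hl0.le hl1.le
  obtain ⟨Q3, P3⟩ := pwc h.p3 R.s3 hl0.le hl1.le
  obtain ⟨-, P4⟩ := pwc h.p4 R.s4 hl0.le hl1.le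
  have W0 := fun x hx => hnn (x := x) Q0 had R.ad h.w0 ha hl1.le hx
  have W1 := fun x hx => hnn (x := x) Q0 had R.ad h.w1 ha hl1.le hx
  have W2 := fun x hx => hnn (x := x) Q0 had R.ad h.w2 ha hl1.le hx
  have W3 := fun x hx => hnn (x := x) Q3 had R.ad h.w3 ha hl1.le hx
  have W4 := fun x hx => hnn (x := x) Q3 had R.ad h.w4 ha hl1.le hx
  rw [R.q1] at P1
  rw [R.q2] at P2
  rw [R.q3] at P4
  rw [R.g0] at P0
  rw [R.g1] at P1
  rw [R.g2] at P2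
  rw [R.g4] at P4
  have Q0' : (0 : ℝ) < b.v0.P.Q := by exact_mod_cast Q0
  have Q3' : (0 : ℝ) < b.u0.P.Q := by exact_mod_cast Q3
  have B2 := R.b2
  rw [R.g0] at B2
  obtain ⟨Q, hQe⟩ : ∃ Q, Q = b.v0.P.Q := ⟨_, rfl⟩
  obtain ⟨T, hTe⟩ : ∃ T, T = b.u0.P.Q := ⟨_, rfl⟩
  rw [← hQe] at P0 P1 P2 W0 W1 W2 Q0 Q0'
  rw [← hTe] at P3 P4 W3 W4 Q3 Q3'
  obtain ⟨V0, hV0⟩ : ∃ V0, V0 = vec Q b.v0.P.bL := ⟨_, rfl⟩
  obtain ⟨V1, hV1⟩ : ∃ V1, V1 = vec Q b.v1.P.bL := ⟨_, rfl⟩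
  obtain ⟨V2, hV2⟩ : ∃ V2, V2 = vec Q b.v2.P.bL := ⟨_, rfl⟩
  obtain ⟨G, hG⟩ : ∃ G, G = vec Q [0, 0, b.g2, b.g3, b.g4, b.g5] := ⟨_, rfl⟩
  obtain ⟨A0, hA0⟩ : ∃ A0, A0 = vec T b.u0.P.bL := ⟨_, rfl⟩
  obtain ⟨A1, hA1⟩ : ∃ A1, A1 = vec T b.u1.P.bL := ⟨_, rfl⟩
  obtain ⟨K, hK⟩ : ∃ K, K = vec T b.u0.P.gL := ⟨_, rfl⟩
  -- the combinations
  have hV2' : V2 = V1 + ((b.tn / b.td : ℝ) * ((b.ad - b.an) / b.an)) • G := by
    have h1 := congrArg (vec Q) B2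
    rw [vec_lcL, vec_lcL, vec_nil, smul_zero, add_zero, ← hV2, ← hV1, ← hG] at h1
    funext i
    have h2 := congrFun h1 i
    simp only [Pi.smul_apply, Pi.add_apply, smul_eq_mul] at h2 ⊢
    push_cast at h2
    field_simp
    linarith
  have hA1' : A1 = A0 + ((b.hn / b.hd : ℝ) * ((b.ad - b.an) * b.ad / b.an ^ 2)) • K := by
    have h1 := congrArg (vec T) R.b4
    rw [vec_lcL, vec_lcL, vec_nil, smul_zero, add_zero, ← hA1, ← hA0, ← hK] at h1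
    funext i
    have h2 := congrFun h1 i
    simp only [Pi.smul_apply, Pi.add_apply, smul_eq_mul] at h2 ⊢
    push_cast at h2
    field_simp
    linarith
  obtain ⟨t1, ht1e⟩ : ∃ t1 : ℝ, t1 = b.tn / b.td := ⟨_, rfl⟩
  obtain ⟨th, hthe⟩ : ∃ th : ℝ, th = b.hn / b.hd := ⟨_, rfl⟩
  have ht1 : 0 < t1 := by rw [ht1e]; positivity
  have hth : 0 < th := by rw [hthe]; positivity
  rw [← ht1e] at hV2'
  rw [← hthe] at hA1'
  -- the parameter of the lower region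
  obtain ⟨ρ, hρ⟩ : ∃ ρ : ℝ, ρ = (1 - lam) / lam * (b.an / (b.ad - b.an)) := ⟨_, rfl⟩
  have hadn' : (0 : ℝ) < b.ad - b.an := by linarith
  have ρ0 : 0 ≤ ρ := by rw [hρ]; positivity
  have ρ1 : ρ ≤ 1 := by
    rw [hρ, div_mul_div_comm, div_le_one (by positivity)]
    nlinarith
  have hX : V1 + ((1 - lam) * t1 / lam) • G = (1 - ρ) • V1 + ρ • V2 := by
    rw [hV2', hρ]
    funext i
    simp only [Pi.smul_apply, Pi.add_apply, smul_eq_mul]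
    field_simp
    ring
  -- the parameter of the upper region
  obtain ⟨σ, hσ⟩ : ∃ σ : ℝ, σ = (1 - lam) / lam ^ 2 * (b.an ^ 2 / ((b.ad - b.an) * b.ad)) :=
    ⟨_, rfl⟩
  have σ0 : 0 ≤ σ := by rw [hσ]; positivity
  have σ1 : σ ≤ 1 := by
    rw [hσ, div_mul_div_comm, div_le_one (by positivity)]
    have e1 : (1 - lam) * b.an ^ 2 ≤ lam * (b.ad - b.an) * b.an := by nlinarith
    have e2 : lam * (b.ad - b.an) * b.an ≤ lam * (b.ad - b.an) * (b.ad * lam) :=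
      mul_le_mul_of_nonneg_left ha (by positivity)
    calc (1 - lam) * (b.an : ℝ) ^ 2 ≤ _ := e1
      _ ≤ _ := e2
      _ = _ := by ring
  have hY : A0 + ((1 / lam ^ 2) * (th * (1 - lam))) • K = (1 - σ) • A0 + σ • A1 := by
    rw [hA1', hσ]
    funext i
    simp only [Pi.smul_apply, Pi.add_apply, smul_eq_mul]
    field_simp
    ring
  -- merge inequalities
  rw [← hV0, ← hG] at P0
  rw [← hV1, ← hG] at P1
  rw [← hV2, ← hG] at P2
  rw [← hA0, ← hK] at P3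
  rw [← hA1, ← hK] at P4
  rw [← hV0] at W0
  rw [← hV1] at W1
  rw [← hV2] at W2
  rw [← hA0] at W3
  rw [← hA1] at W4
  have PX := PW_convex P1 P2 ρ0 ρ1
  rw [← hX] at PX
  have PY := PW_convex P3 P4 σ0 σ1
  rw [← hY] at PY
  have WX : ∀ x, InK lam 1 x → 0 ≤ H (V1 + ((1 - lam) * t1 / lam) • G) x := by
    intro x hx
    rw [hX, Cvx.Hadd, Cvx.Hsmul, Cvx.Hsmul]
    exact add_nonneg (mul_nonneg (sub_nonneg.2 ρ1) (W1 x hx)) (mul_nonneg ρ0 (W2 x hx))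
  have WY : ∀ x, InK lam 1 x → 0 ≤ H (A0 + ((1 / lam ^ 2) * (th * (1 - lam))) • K) x := by
    intro x hx
    rw [hY, Cvx.Hadd, Cvx.Hsmul, Cvx.Hsmul]
    exact add_nonneg (mul_nonneg (sub_nonneg.2 σ1) (W3 x hx)) (mul_nonneg σ0 (W4 x hx))
  -- final inequalities
  have hQ1 : (Q : ℝ) ≠ 0 := Q0'.ne'
  have hT1 : (T : ℝ) ≠ 0 := Q3'.ne'
  have f0 : ∀ x, Pos x → (1 / lam ^ 2) * H (sc lam V0) x ≤
      H V0 x - (b.e / Q : ℝ) * (1 - lam) * H eNN x := by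
    intro x hx
    have key := H_nonneg_of_simplex (p := V0 - ((b.e / Q : ℝ) * (1 - lam)) • eNN -
        (1 / lam ^ 2) • sc lam V0) (fun z hz ht => by
      have h1 := fin_nn (M := rowsL0 b.td b.e b.x3 b.x4 b.x5) had R.ad h.f0
        (fun K => by simp [rowsL0]) (fun K => rfl) ha hl1.le hz ht
      have h2 := mul_nonneg h1l.le h1
      rw [finV_L0 Q b.td b.e b.x3 b.x4 b.x5 hQ1 hl0.ne' ht] at h2
      have h3 := nonneg_of_mul_nonneg_right h2 (by positivity)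
      rw [hQe, ← R.b0, ← hQe, ← hV0] at h3
      rw [Cvx.Hsub, Cvx.Hsub, Cvx.Hsmul, Cvx.Hsmul]
      exact h3) hx
    rw [Cvx.Hsub, Cvx.Hsub, Cvx.Hsmul, Cvx.Hsmul] at key
    linarith
  have f1 : ∀ x, Pos x → (1 / lam ^ 2) * H (sc lam (V1 + (1 / 2 : ℝ) •
      ((V1 + ((1 - lam) * t1 / lam) • G) - V1))) x ≤
      H V1 x - (b.e / Q : ℝ) * (1 - lam) * H eNN x := by
    rw [add_sub_cancel_left]
    intro x hx
    have key := H_nonneg_of_simplex (p := V1 - ((b.e / Q : ℝ) * (1 - lam)) • eNN -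
        (1 / lam ^ 2) • sc lam (V1 + (1 / 2 : ℝ) • (((1 - lam) * t1 / lam) • G)))
        (fun z hz ht => by
      have h1 := fin_nn (M := rowsL1 b.tn b.td b.e b.y3 b.y4 b.y5 b.g3 b.g4 b.g5) had R.ad h.f1
        (fun K => by simp [rowsL1]) (fun K => rfl) ha hl1.le hz ht
      have h2 := mul_nonneg h1l.le h1
      rw [finV_L1 Q b.tn b.td b.e b.y2 b.y3 b.y4 b.y5 b.g2 b.g3 b.g4 b.g5 hQ1 htd.ne'
        (by exact_mod_cast R.y2) hl0.ne' ht] at h2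
      have h3 := nonneg_of_mul_nonneg_right h2 (by positivity)
      rw [← hG, ← ht1e] at h3
      rw [hQe, ← R.b1, ← hQe, ← hV1] at h3
      rw [Cvx.Hsub, Cvx.Hsub, Cvx.Hsmul, Cvx.Hsmul]
      exact h3) hx
    rw [Cvx.Hsub, Cvx.Hsub, Cvx.Hsmul, Cvx.Hsmul] at key
    linarith
  have fh : ∀ x, Pos x → (1 / lam ^ 2) * H (sc lam (A0 + (1 / 2 : ℝ) •
      ((A0 + ((1 / lam ^ 2) * (th * (1 - lam))) • K) - A0))) x ≤
      H A0 x - ((b.eh / T : ℝ) * (1 - lam)) * H eN x := by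
    rw [add_sub_cancel_left]
    intro x hx
    have key := H_nonneg_of_simplex (p := A0 - ((b.eh / T : ℝ) * (1 - lam)) • eN -
        (1 / lam ^ 2) • sc lam (A0 + (1 / 2 : ℝ) • (((1 / lam ^ 2) * (th * (1 - lam))) • K)))
        (fun z hz ht => by
      have h1 := fin_nn (M := rowsH b.hn b.hd b.eh b.z2 b.z3 b.z4 b.z5 b.k1 b.k2 b.k3 b.k4 b.k5)
        had R.ad h.fh (fun K => by simp [rowsH]) (fun K => rfl) ha hl1.le hz ht
      have h2 := mul_nonneg h1l.le h1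
      rw [finV_H T b.hn b.hd b.eh b.z1 b.z2 b.z3 b.z4 b.z5 b.k1 b.k2 b.k3 b.k4 b.k5 hT1 hhd.ne'
        hl0.ne' ht] at h2
      have h3 := nonneg_of_mul_nonneg_right h2 (by positivity)
      rw [← R.g3, ← hK, ← hthe] at h3
      rw [← R.b3, ← hA0] at h3
      rw [Cvx.Hsub, Cvx.Hsub, Cvx.Hsmul, Cvx.Hsmul]
      exact h3) hx
    rw [Cvx.Hsub, Cvx.Hsub, Cvx.Hsmul, Cvx.Hsmul] at key
    linarith
  -- zero coefficients
  have zV0 : V0 0 = 0 := by rw [hV0, R.b0]; simp [vec]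
  have zV1 : V1 0 = 0 := by rw [hV1, R.b1]; simp [vec]
  have zG : G 0 = 0 := by rw [hG]; simp [vec]
  have zA : A0 0 = 0 := by rw [hA0, R.b3]; simp [vec]
  have zK : K 0 = 0 := by rw [hK, R.g3]; simp [vec]
  have gn : ∀ x, Pos x → H K x ≤ 0 := by
    intro x hx
    have h1 := GCert.nonpos (c := b.u0) (by rw [← hTe]; exact Q3) h.gh x hx
    rw [Par2.gr_eq, ← hTe, ← hK] at h1
    exact h1
  -- the two regions
  refine F.nonreco ?_
  by_cases hc : ∃ n, lam ^ 2 * xs lam (poisson d) n < th * (1 - lam)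
  · obtain ⟨n0, hn0⟩ := hc
    refine Lim.low hl0 hl1 hd hdl F ht1 (div_pos hee Q0') rfl P0 P1 PX zV0 zV1 zG W0 W1 WX f0 f1
      ⟨n0, fun n hn => ⟨mul_nonneg hl2.le (F.xs_nonneg n), ?_⟩⟩
    have h1 := F.xs_anti hn
    have h2 := mul_le_mul_of_nonneg_left h1 hl2.le
    have h3 : th * (1 - lam) ≤ lam * (1 - lam) * t1 := by
      have h4 : th ≤ lam * t1 := by
        rw [hthe, ht1e, div_le_iff₀ hhd]
        have h5 : (b.hn * b.ad * b.td : ℝ) ≤ b.hd * b.an * b.tn := by exact_mod_cast R.th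
        have h6 : (b.hd * b.an * b.tn : ℝ) ≤ b.hd * (b.ad * lam) * b.tn := by gcongr
        have h7 : (b.hn : ℝ) * b.td ≤ b.hd * lam * b.tn := by
          have : (b.hn * b.td : ℝ) * b.ad ≤ (b.hd * lam * b.tn) * b.ad := by
            calc (b.hn * b.td : ℝ) * b.ad = b.hn * b.ad * b.td := by ring
              _ ≤ _ := h5.trans h6
              _ = _ := by ring
          exact le_of_mul_le_mul_right this had'
        have h8 : lam * (b.tn / b.td : ℝ) * b.hd = (b.hd * lam * b.tn) / b.td := by ring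
        rw [h8, le_div_iff₀ htd]
        exact h7
      calc th * (1 - lam) ≤ lam * t1 * (1 - lam) := mul_le_mul_of_nonneg_right h4 h1l.le
        _ = _ := by ring
    linarith
  · push Not at hc
    exact Lim.high hl0 hl1.le hd hdl F (by positivity) (mul_pos (div_pos heh Q3') h1l) rfl P3 PY zA zK
      gn W3 WY fh hc

/-- `g ≤ - (c/Q) N` has a certificate -/
def GCertN (c : Cfg2) (a : Int) : Prop :=
  ∃ (K : Nat) (C : FCert), C.check (gFin (lcL (-1) c.P.gL (-1) [0, a, 0, 0, 0, 0]) K) 1 0 1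
    (baseTri 1 1) = true

open Lim in
/-- Poisson trees with `lam = 1`. -/
theorem LimBr.Cert.nonrec_one {b : LimBr} (h : b.Cert) {a : Int} (ha : 0 < a)
    (hg : GCertN b.u0 a) {d : ℝ} (hd : 0 ≤ d) (hdl : d ≤ 1) :
    Nonreconstruction 3 1 (poisson d) := by
  have R := h.ok
  have had : 0 < b.ad := R.an.trans R.ad
  have had' : (0 : ℝ) < b.ad := by exact_mod_cast had
  have han' : (0 : ℝ) < b.an := by exact_mod_cast R.an
  have hadn : (b.an : ℝ) < b.ad := by exact_mod_cast R.ad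
  have hhn : (0 : ℝ) < b.hn := by exact_mod_cast R.hn
  have hhd : (0 : ℝ) < b.hd := by exact_mod_cast R.hd
  have ha' : (0 : ℝ) < a := by exact_mod_cast ha
  have F := facts (by norm_num) le_rfl (isOff_poisson hd)
  obtain ⟨Q3, P3⟩ := pwc h.p3 R.s3 zero_le_one le_rfl
  obtain ⟨-, P4⟩ := pwc h.p4 R.s4 zero_le_one le_rfl
  have W3 := fun x hx => hnn (x := x) Q3 had R.ad h.w3 (lam := 1) (by linarith) le_rfl hx
  have W4 := fun x hx => hnn (x := x) Q3 had R.ad h.w4 (lam := 1) (by linarith) le_rfl hx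
  rw [R.q3] at P4
  rw [R.g4] at P4
  have Q3' : (0 : ℝ) < b.u0.P.Q := by exact_mod_cast Q3
  obtain ⟨T, hTe⟩ : ∃ T, T = b.u0.P.Q := ⟨_, rfl⟩
  rw [← hTe] at P3 P4 W3 W4 Q3 Q3'
  obtain ⟨A0, hA0⟩ : ∃ A0, A0 = vec T b.u0.P.bL := ⟨_, rfl⟩
  obtain ⟨A1, hA1⟩ : ∃ A1, A1 = vec T b.u1.P.bL := ⟨_, rfl⟩
  obtain ⟨K, hK⟩ : ∃ K, K = vec T b.u0.P.gL := ⟨_, rfl⟩
  obtain ⟨s0, hs0⟩ : ∃ s0 : ℝ, s0 = (b.hn / b.hd : ℝ) * ((b.ad - b.an) * b.ad / b.an ^ 2) :=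
    ⟨_, rfl⟩
  have hs0p : 0 < s0 := by
    have : (0 : ℝ) < b.ad - b.an := by linarith
    rw [hs0]; positivity
  have hA1' : A1 = A0 + s0 • K := by
    have h1 := congrArg (vec T) R.b4
    rw [vec_lcL, vec_lcL, vec_nil, smul_zero, add_zero, ← hA1, ← hA0, ← hK] at h1
    rw [hs0]
    funext i
    have h2 := congrFun h1 i
    simp only [Pi.smul_apply, Pi.add_apply, smul_eq_mul] at h2 ⊢
    push_cast at h2
    field_simp
    linarith
  rw [← hA0, ← hK] at P3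
  rw [← hA1, ← hK] at P4
  rw [← hA0] at W3
  rw [← hA1] at W4
  have zA : A0 0 = 0 := by rw [hA0, R.b3]; simp [vec]
  have zK : K 0 = 0 := by rw [hK, R.g3]; simp [vec]
  have hT1 : (T : ℝ) ≠ 0 := Q3'.ne'
  have gc : ∀ x, Pos x → H K x ≤ -((a / T : ℝ) * H eN x) := by
    intro x hx
    obtain ⟨k, C, hC⟩ := hg
    have h1 := gpos Q3 (by simp [lcL]) hC hx
    rw [vec_lcL] at h1
    have e1 : vec T [0, a, 0, 0, 0, 0] = (a / T : ℝ) • eN := by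
      funext i
      fin_cases i <;> simp [vec, eN]
    rw [e1, ← hK, Cvx.Hadd, Cvx.Hsmul, Cvx.Hsmul, Cvx.Hsmul] at h1
    push_cast at h1
    linarith
  have hN : ∀ x, Pos x → 0 ≤ H eN x := by
    intro x hx
    rw [H_eN]
    exact div_nonneg (Cvx.Nh_nn x) (Cvx.tot_nn hx)
  have gn : ∀ x, Pos x → H K x ≤ 0 := by
    intro x hx
    have h1 := gc x hx
    have h2 := mul_nonneg (div_nonneg ha'.le Q3'.le) (hN x hx)
    linarith
  have sc1 : ∀ p : P6, sc 1 p = p := by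
    intro p
    funext i
    fin_cases i <;> simp [sc]
  refine F.nonreco ?_
  by_cases hc : ∃ m1 : ℝ, 0 < m1 ∧ m1 ≤ s0 ∧ ∀ k, m1 ≤ xs 1 (poisson d) k
  · obtain ⟨m1, hm1, hm1s, hk⟩ := hc
    obtain ⟨ρ, hρ⟩ : ∃ ρ : ℝ, ρ = m1 / s0 := ⟨_, rfl⟩
    have ρ0 : 0 ≤ ρ := by rw [hρ]; positivity
    have ρ1 : ρ ≤ 1 := by rw [hρ, div_le_one hs0p]; exact hm1s
    have hY : A0 + ((1 / (1 : ℝ) ^ 2) * m1) • K = (1 - ρ) • A0 + ρ • A1 := by
      rw [hA1', hρ]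
      funext i
      simp only [Pi.smul_apply, Pi.add_apply, smul_eq_mul]
      field_simp
      ring
    have PY := PW_convex P3 P4 ρ0 ρ1
    rw [← hY] at PY
    have WY : ∀ x, InK 1 1 x → 0 ≤ H (A0 + ((1 / (1 : ℝ) ^ 2) * m1) • K) x := by
      intro x hx
      rw [hY, Cvx.Hadd, Cvx.Hsmul, Cvx.Hsmul]
      exact add_nonneg (mul_nonneg (sub_nonneg.2 ρ1) (W3 x hx)) (mul_nonneg ρ0 (W4 x hx))
    refine Lim.high one_pos le_rfl hd (by simpa using hdl) F hm1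
      (mul_pos (half_pos hm1) (div_pos ha' Q3')) rfl P3 PY zA zK gn W3 WY (fun x hx => ?_)
      (fun k => by rw [one_pow, one_mul]; exact hk k)
    rw [add_sub_cancel_left, sc1, Cvx.Hadd, Cvx.Hsmul, Cvx.Hsmul]
    have h1 := mul_le_mul_of_nonneg_left (gc x hx) (half_pos hm1).le
    norm_num
    linarith
  · push Not at hc
    rw [Metric.tendsto_atTop]
    intro ε hε
    obtain ⟨k, hk⟩ := hc (min ε s0) (lt_min hε hs0p) (min_le_right _ _)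
    refine ⟨k, fun n hn => ?_⟩
    have h1 := F.xs_anti hn
    have h2 := F.xs_nonneg n
    rw [Real.dist_eq, sub_zero, abs_of_nonneg h2]
    exact lt_of_le_of_lt h1 (lt_of_lt_of_le hk (min_le_left _ _))

end Vale.Agent.P154
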