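import Vale.Agent.P154.V2High

/-!
Soundness of the brackets `[0, m0]`.
-/

namespace Vale.Agent.P154

open scoped BigOperators
open Filter Topology

namespace Low

/-- `C` -/
def eC : P6 := ![0, 0, 1, 0, 0, 0]

theorem H_neg (p : P6) (x : V) : H (-p) x = -H p x := by
  have := Cvx.Hsmul (-1) p x
  rw [neg_one_smul] at this
  linarith

/-- completing the square -/
theorem square {e m L : ℝ} (he : 0 ≤ e) (hL : 0 < L) (hL1 : L ≤ 1) (hm : 0 ≤ m) {x : V}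
    (hx : Pos x) :
    -(e * H eNN x) ≤ (-2 * e * (m / L)) * (H eN x - (m / L) * tot x) - e * m ^ 2 * tot x := by
  have ht : 0 ≤ tot x := Cvx.tot_nn hx
  rcases ht.eq_or_lt with h0 | h0
  · simp only [H, eNN, eN, ← h0]
    simp
  · obtain ⟨u, hu⟩ : ∃ u, u = Nh x / tot x ^ 2 := ⟨_, rfl⟩
    have e1 : H eN x = tot x * u := by
      rw [hu]
      simp only [H, eN, Matrix.cons_val_zero, Matrix.cons_val_one, Matrix.cons_val]
      field_simp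
      ring
    have e2 : H eNN x = tot x * u ^ 2 := by
      rw [hu]
      simp only [H, eNN, Matrix.cons_val_zero, Matrix.cons_val_one, Matrix.cons_val]
      field_simp
      ring
    rw [e1, e2]
    obtain ⟨k, hk⟩ : ∃ k, k = m / L := ⟨_, rfl⟩
    rw [← hk]
    have hmk : m ≤ k := by
      rw [hk, le_div_iff₀ hL]
      nlinarith
    have h3 : m ^ 2 ≤ k ^ 2 := pow_le_pow_left₀ hm hmk 2
    have h4 : 0 ≤ tot x * e * ((u - k) ^ 2 + (k ^ 2 - m ^ 2)) :=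
      mul_nonneg (mul_nonneg ht he) (add_nonneg (sq_nonneg _) (sub_nonneg.2 h3))
    nlinarith

theorem core {lam l tau m0 e : ℝ} (hlam : lam ≠ 0) (hl1 : lam ^ 2 ≤ 1) (hm0 : 0 < m0)
    (he : 0 ≤ e) {g Pz Wz P1 W1 P0 W0 : P6} (hP : P0 = P1 + (l * m0) • g)
    (pz : PW Pos (InK lam 1) Pz Pz Wz g) (p1 : PW Pos (InK lam 1) P1 P1 W1 g)
    (p0 : PW Pos (InK lam 1) P0 P0 W0 g) (z0 : Pz 0 = 0) (z1 : P1 0 = 0) (g0 : g 0 = 0)
    (nz : ∀ x, InK lam 1 x → 0 ≤ H Wz x) (n1 : ∀ x, InK lam 1 x → 0 ≤ H W1 x)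
    (n0 : ∀ x, InK lam 1 x → 0 ≤ H W0 x)
    (f0 : ∀ x, Pos x → (1 / lam ^ 2) * H (sc lam Wz) x ≤ H Pz x - e * H eNN x)
    (f1 : ∀ x, Pos x → (1 / lam ^ 2) * H (sc lam (W1 + tau • (W0 - W1))) x ≤
      H P1 x - e * H eNN x)
    {m : ℝ} (hm : m ∈ Set.Icc 0 m0) :
    Facts.Br lam l tau e m ((1 - m / m0) • Pz + (m / m0) • P1) (-(m • g))
      ((1 - m / m0) • Wz + (m / m0) • W1) ((1 - m / m0) • Wz + (m / m0) • W0) g g := by
  obtain ⟨t, ht⟩ : ∃ t, t = m / m0 := ⟨_, rfl⟩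
  have htm : m = t * m0 := by rw [ht]; field_simp
  have t0 : 0 ≤ t := by rw [ht]; exact div_nonneg hm.1 hm0.le
  have t1 : t ≤ 1 := by rw [ht, div_le_one hm0]; exact hm.2
  rw [← ht]
  have hl2 : 0 < lam ^ 2 := by positivity
  refine ⟨?_, ?_, ?_, ?_, ?_, ?_, ?_⟩
  · simp [z0, z1]
  · simp [g0]
  · refine PW_congr (PW_convex pz p1 t0 t1) rfl ?_ rfl rfl
    simp
  · have h := PW_convex pz p0 t0 t1
    have e1 : (1 - t) • Pz + t • P0 = (1 - t) • Pz + t • P1 - l • (-(m • g)) := by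
      rw [hP, htm]
      funext i
      simp only [Pi.add_apply, Pi.smul_apply, Pi.sub_apply, Pi.neg_apply, smul_eq_mul]
      ring
    refine PW_congr h e1 ?_ rfl rfl
    rw [e1]
    simp
  · intro x hx
    rw [Cvx.Hadd, Cvx.Hsmul, Cvx.Hsmul]
    exact add_nonneg (mul_nonneg (sub_nonneg.2 t1) (nz x hx)) (mul_nonneg t0 (n1 x hx))
  · intro x hx
    rw [Cvx.Hadd, Cvx.Hsmul, Cvx.Hsmul]
    exact add_nonneg (mul_nonneg (sub_nonneg.2 t1) (nz x hx)) (mul_nonneg t0 (n0 x hx))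
  · refine ⟨-2 * e * (m / lam ^ 2), fun x hx => ?_⟩
    have e1 : (1 - t) • Wz + t • W1 + tau • ((1 - t) • Wz + t • W0 - ((1 - t) • Wz + t • W1)) =
        (1 - t) • Wz + t • (W1 + tau • (W0 - W1)) := by
      funext i
      simp only [Pi.add_apply, Pi.smul_apply, Pi.sub_apply, smul_eq_mul]
      ring
    rw [e1, Facts.sc_add, Facts.sc_smul, Facts.sc_smul, Cvx.Hadd, Cvx.Hsmul, Cvx.Hsmul,
      Cvx.Hadd, Cvx.Hsmul, Cvx.Hsmul]
    have a0 := mul_le_mul_of_nonneg_left (f0 x hx) (sub_nonneg.2 t1)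
    have a1 := mul_le_mul_of_nonneg_left (f1 x hx) t0
    have sq := square he hl2 hl1 hm.1 hx
    linarith

/-- the final inequality at `m0`, interpolated in `theta` -/
theorem fin1_mix {lam l tau theta m0 e gC : ℝ} (hlam : lam ≠ 0)
    (hth : lam * (theta + tau * l) = theta) {T1 T10 T11 : P6}
    (f1 : ∀ x, Pos x → (1 / lam ^ 2) * H (sc lam (T10 + tau • (T11 - T10))) x ≤
      H T1 x - e * H eNN x) (x : V) (hx : Pos x) :
    (1 / lam ^ 2) * H (sc lam ((eN + (theta * (m0 * gC)) • eC + T10) +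
      tau • ((eN + ((theta + l) * (m0 * gC)) • eC + T11) -
        (eN + (theta * (m0 * gC)) • eC + T10)))) x ≤
      H (eN + (theta * (m0 * gC)) • eC + T1) x - e * H eNN x := by
  have e1 : (eN + (theta * (m0 * gC)) • eC + T10) +
      tau • ((eN + ((theta + l) * (m0 * gC)) • eC + T11) -
        (eN + (theta * (m0 * gC)) • eC + T10)) =
      eN + ((theta + tau * l) * (m0 * gC)) • eC + (T10 + tau • (T11 - T10)) := by
    funext i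
    simp only [Pi.add_apply, Pi.smul_apply, Pi.sub_apply, smul_eq_mul]
    ring
  have e2 : sc lam eN = (lam ^ 2) • eN := by
    funext i
    fin_cases i <;> simp [sc, eN]
  have e3 : sc lam eC = (lam ^ 3) • eC := by
    funext i
    fin_cases i <;> simp [sc, eC]
  rw [e1, Facts.sc_add, Facts.sc_add, Facts.sc_smul, e2, e3]
  simp only [Cvx.Hadd, Cvx.Hsmul]
  have h := f1 x hx
  have e4 : 1 / lam ^ 2 * (lam ^ 2 * H eN x + (theta + tau * l) * (m0 * gC) *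
      (lam ^ 3 * H eC x) + H (sc lam (T10 + tau • (T11 - T10))) x) =
      H eN x + (lam * (theta + tau * l)) * (m0 * gC) * H eC x +
        1 / lam ^ 2 * H (sc lam (T10 + tau • (T11 - T10))) x := by
    field_simp
  rw [e4, hth]
  linarith

/-- interpolation between two vectors that differ only in the coefficient of `C` -/
theorem mix (r A B : ℝ) (X : P6) :
    (1 - r) • (eN + A • eC + X) + r • (eN + B • eC + X) = eN + ((1 - r) * A + r * B) • eC + X := by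
  funext i
  simp only [Pi.add_apply, Pi.smul_apply, smul_eq_mul]
  ring

theorem exists_r {a b t : ℝ} (h1 : a ≤ t) (h2 : t ≤ b) :
    ∃ r, 0 ≤ r ∧ r ≤ 1 ∧ t = (1 - r) * a + r * b := by
  rcases (h1.trans h2).eq_or_lt with h | h
  · exact ⟨0, le_rfl, zero_le_one, by linarith⟩
  · refine ⟨(t - a) / (b - a), div_nonneg (by linarith) (by linarith), ?_, ?_⟩
    · rw [div_le_one (by linarith)]; linarith
    · have : b - a ≠ 0 := by linarith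
      field_simp
      ring

theorem vec_head {Q : Int} (hQ : (Q : ℝ) ≠ 0) (T : Int) (l : List Int) :
    vec Q (lcL 1 [0, Q, T] 1 l) = eN + (T / Q : ℝ) • eC + vec Q l := by
  rw [vec_lcL]
  congr 1
  · funext i
    fin_cases i <;> simp [vec, eN, eC, hQ]
  · simp

theorem vec_head6 {Q : Int} (hQ : (Q : ℝ) ≠ 0) (l : List Int) :
    vec Q (lcL 1 [0, Q, 0, 0, 0, 0] 1 l) = eN + vec Q l := by
  rw [vec_lcL]
  congr 1
  · funext i
    fin_cases i <;> simp [vec, eN, hQ]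
  · simp

theorem vec_add1 (Q : Int) (x y : List Int) : vec Q (lcL 1 x 1 y) = vec Q x + vec Q y := by
  rw [vec_lcL]; simp

end Low

open Low

/-- the linear relations of a bracket `[0, m0]` -/
structure LoBr.Rel (b : LoBr) : Prop where
  hQ : 0 < b.z.P.Q
  en : 0 < b.en
  ed : 0 < b.ed
  mn : 0 < b.mn
  md : 0 < b.md
  tad : 0 < b.tad
  tbd : 0 < b.tbd
  e : 0 < b.e
  ga1 : b.a1.P.gr = b.z.P.gr
  ga0 : b.a0.P.gr = b.z.P.gr
  gb1 : b.b1.P.gr = b.z.P.gr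
  gb0 : b.b0.P.gr = b.z.P.gr
  g0 : b.z.P.gr 0 = 0
  uz : b.z.P.Ur = b.z.P.beta
  ua1 : b.a1.P.Ur = b.a1.P.beta
  ua0 : b.a0.P.Ur = b.a0.P.beta
  ub1 : b.b1.P.Ur = b.b1.P.beta
  ub0 : b.b0.P.Ur = b.b0.P.beta
  bz : b.z.P.beta = eN + vec b.z.P.Q (tail3 b.z.P.bL)
  wz : b.z.P.Wr = eN + vec b.z.P.Q (tail3 b.z.P.wL)
  ba1 : b.a1.P.beta = eN + ((b.tan / b.tad : ℝ) * ((b.mn / b.md : ℝ) * b.z.P.gr 2)) • eC +
    vec b.z.P.Q (tail3 b.a1.P.bL)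
  bb1 : b.b1.P.beta = eN + ((b.tbn / b.tbd : ℝ) * ((b.mn / b.md : ℝ) * b.z.P.gr 2)) • eC +
    vec b.z.P.Q (tail3 b.a1.P.bL)
  ba0 : b.a0.P.beta = b.a1.P.beta + ((b.en / b.ed : ℝ) * (b.mn / b.md)) • b.z.P.gr
  bb0 : b.b0.P.beta = b.b1.P.beta + ((b.en / b.ed : ℝ) * (b.mn / b.md)) • b.z.P.gr
  wa1 : b.a1.P.Wr = eN + ((b.tan / b.tad : ℝ) * ((b.mn / b.md : ℝ) * b.z.P.gr 2)) • eC +
    vec b.z.P.Q (tail3 b.a1.P.wL)
  wb1 : b.b1.P.Wr = eN + ((b.tbn / b.tbd : ℝ) * ((b.mn / b.md : ℝ) * b.z.P.gr 2)) • eC +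
    vec b.z.P.Q (tail3 b.a1.P.wL)
  wa0 : b.a0.P.Wr = eN + ((b.tan / b.tad + b.en / b.ed : ℝ) *
    ((b.mn / b.md : ℝ) * b.z.P.gr 2)) • eC + vec b.z.P.Q (tail3 b.a0.P.wL)
  wb0 : b.b0.P.Wr = eN + ((b.tbn / b.tbd + b.en / b.ed : ℝ) *
    ((b.mn / b.md : ℝ) * b.z.P.gr 2)) • eC + vec b.z.P.Q (tail3 b.a0.P.wL)

theorem LoBr.rel {b : LoBr} (h : b.ok = true) : b.Rel := by
  simp only [LoBr.ok, Bool.and_eq_true] at h
  obtain ⟨⟨⟨⟨⟨⟨⟨⟨⟨⟨⟨⟨⟨⟨⟨⟨⟨⟨⟨⟨⟨⟨⟨⟨⟨⟨⟨⟨⟨⟨⟨⟨⟨⟨⟨k1, k2⟩, k3⟩, k4⟩, k5⟩, k6⟩, k7⟩, k8⟩, k9⟩, k10⟩,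
    k11⟩, k12⟩, k13⟩, k14⟩, k15⟩, k16⟩, k17⟩, k18⟩, k19⟩, k20⟩, k21⟩, k22⟩, k23⟩, k24⟩, k25⟩, k26⟩,
    k27⟩, k28⟩, k29⟩, k30⟩, k31⟩, k32⟩, k33⟩, k34⟩, k35⟩, k36⟩ := h
  have q1 := pos?_sound k1
  have q2 := ieq_sound k2
  have q3 := ieq_sound k3
  have q4 := ieq_sound k4
  have q5 := ieq_sound k5
  have q6 := pos?_sound k6
  have q7 := pos?_sound k7
  have q8 := pos?_sound k8
  have q9 := pos?_sound k9
  have q10 := pos?_sound k10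
  have q11 := pos?_sound k11
  have q12 := pos?_sound k12
  have q13 := leqL_sound k13
  have q14 := leqL_sound k14
  have q15 := leqL_sound k15
  have q16 := leqL_sound k16
  have q17 := ieq_sound k17
  have q18 := ieq_sound k18
  have q19 := leqL_sound k19
  have q20 := ieq_sound k20
  have q21 := ieq_sound k21
  have q22 := leqL_sound k22
  have q23 := leqL_sound k23
  have q24 := leqL_sound k24
  have q25 := leqL_sound k25
  have q26 := leqL_sound k26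
  have q27 := leqL_sound k27
  have q28 := leqL_sound k28
  have q29 := leqL_sound k29
  have q30 := leqL_sound k30
  have q31 := leqL_sound k31
  have q32 := leqL_sound k32
  have q33 := leqL_sound k33
  have q34 := leqL_sound k34
  have q35 := leqL_sound k35
  have q36 := leqL_sound k36
  clear k1 k2 k3 k4 k5 k6 k7 k8 k9 k10 k11 k12 k13 k14 k15 k16 k17 k18 k19 k20 k21 k22 k23 k24 k25
    k26 k27 k28 k29 k30 k31 k32 k33 k34 k35 k36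
  have e1 : ∀ a b : Int, Int.add a b = a + b := fun _ _ => rfl
  have e2 : ∀ a b : Int, Int.mul a b = a * b := fun _ _ => rfl
  have e3 : ∀ a : Int, Int.sub a 0 = a := fun a => by
    show a - 0 = a
    ring
  simp only [e1, e2, e3] at q19 q20 q21 q29 q30 q33 q34 q35 q36
  have hQ : (b.z.P.Q : ℝ) ≠ 0 := by
    have : (0 : ℝ) < b.z.P.Q := by exact_mod_cast q1
    exact this.ne'
  have hed : (0 : ℝ) < b.ed := by exact_mod_cast q7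
  have hmd : (0 : ℝ) < b.md := by exact_mod_cast q9
  have htad : (0 : ℝ) < b.tad := by exact_mod_cast q10
  have htbd : (0 : ℝ) < b.tbd := by exact_mod_cast q11
  have hg2 : b.z.P.gr 2 = (b.z.P.g2 : ℝ) / b.z.P.Q := by
    simp [Par2.gr]
  have rTa : (b.a1.P.b2 / b.z.P.Q : ℝ) =
      (b.tan / b.tad : ℝ) * ((b.mn / b.md : ℝ) * b.z.P.gr 2) := by
    have : (b.tad * b.md * b.a1.P.b2 : ℝ) = b.tan * b.mn * b.z.P.g2 := by exact_mod_cast q20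
    rw [hg2]
    field_simp
    linarith
  have rTb : (b.b1.P.b2 / b.z.P.Q : ℝ) =
      (b.tbn / b.tbd : ℝ) * ((b.mn / b.md : ℝ) * b.z.P.gr 2) := by
    have : (b.tbd * b.md * b.b1.P.b2 : ℝ) = b.tbn * b.mn * b.z.P.g2 := by exact_mod_cast q21
    rw [hg2]
    field_simp
    linarith
  have rL : vec b.z.P.Q b.L = ((b.en / b.ed : ℝ) * (b.mn / b.md)) • b.z.P.gr := by
    have h1 := congrArg (vec b.z.P.Q) q19
    rw [vec_lcL, vec_lcL, vec_nil, smul_zero, add_zero, add_zero, ← Par2.gr_eq] at h1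
    funext i
    have h2 := congrFun h1 i
    simp only [Pi.smul_apply, smul_eq_mul] at h2 ⊢
    push_cast at h2
    field_simp
    linarith
  have rL2 : (b.L.getD 2 0 : ℝ) / b.z.P.Q =
      (b.en / b.ed : ℝ) * ((b.mn / b.md : ℝ) * b.z.P.gr 2) := by
    have h1 := congrFun rL 2
    rw [vec_apply, val2] at h1
    rw [h1]
    simp only [Pi.smul_apply, smul_eq_mul]
    ring
  refine ⟨q1, q6, q7, q8, q9, q10, q11, q12, ?_, ?_, ?_, ?_, ?_, ?_, ?_, ?_, ?_, ?_, ?_, ?_, ?_, ?_,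
    ?_, ?_, ?_, ?_, ?_, ?_⟩
  · rw [Par2.gr_eq, Par2.gr_eq, ← q13, ← q2]
  · rw [Par2.gr_eq, Par2.gr_eq, ← q14, ← q3]
  · rw [Par2.gr_eq, Par2.gr_eq, ← q15, ← q4]
  · rw [Par2.gr_eq, Par2.gr_eq, ← q16, ← q5]
  · simp [Par2.gr, q17]
  · rw [Par2.Ur_eq, Par2.beta_eq, q22]
  · rw [Par2.Ur_eq, Par2.beta_eq, q23]
  · rw [Par2.Ur_eq, Par2.beta_eq, q24]
  · rw [Par2.Ur_eq, Par2.beta_eq, q25]
  · rw [Par2.Ur_eq, Par2.beta_eq, q26]
  · rw [Par2.beta_eq]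
    conv_lhs => rw [q27]
    rw [vec_head6 hQ]
  · rw [Par2.Wr_eq]
    conv_lhs => rw [q28]
    rw [vec_head6 hQ]
  · rw [Par2.beta_eq, ← q2, ← rTa]
    conv_lhs => rw [q29]
    rw [vec_head hQ]
  · rw [Par2.beta_eq, ← q4, ← rTb]
    conv_lhs => rw [q30]
    rw [vec_head hQ]
  · rw [Par2.beta_eq, Par2.beta_eq, ← q3, ← q2, ← rL]
    conv_lhs => rw [q31]
    rw [vec_add1]
  · rw [Par2.beta_eq, Par2.beta_eq, ← q5, ← q4, ← rL]
    conv_lhs => rw [q32]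
    rw [vec_add1]
  · rw [Par2.Wr_eq, ← q2, ← rTa]
    conv_lhs => rw [q33]
    rw [vec_head hQ]
  · rw [Par2.Wr_eq, ← q4, ← rTb]
    conv_lhs => rw [q34]
    rw [vec_head hQ]
  · rw [Par2.Wr_eq, ← q3, add_mul, ← rTa, ← rL2]
    conv_lhs => rw [q35]
    rw [vec_head hQ]
    push_cast
    rw [add_div]
  · rw [Par2.Wr_eq, ← q5, add_mul, ← rTb, ← rL2]
    conv_lhs => rw [q36]
    rw [vec_head hQ]
    push_cast
    rw [add_div]

/-- Soundness of a bracket `[0, m0]`, for general `tau` and `theta`. -/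
theorem LoBr.bracket {b : LoBr} (hb : b.ok = true) {lam tau theta : ℝ} (hlam : lam ≠ 0)
    (hl1 : lam ^ 2 ≤ 1) (hth : lam * (theta + tau * (b.en / b.ed)) = theta)
    (hta : (b.tan / b.tad : ℝ) ≤ theta) (htb : theta ≤ b.tbn / b.tbd)
    (pz : PW Pos (InK lam 1) b.z.P.beta b.z.P.Ur b.z.P.Wr b.z.P.gr)
    (pa1 : PW Pos (InK lam 1) b.a1.P.beta b.a1.P.Ur b.a1.P.Wr b.a1.P.gr)
    (pa0 : PW Pos (InK lam 1) b.a0.P.beta b.a0.P.Ur b.a0.P.Wr b.a0.P.gr)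
    (pb1 : PW Pos (InK lam 1) b.b1.P.beta b.b1.P.Ur b.b1.P.Wr b.b1.P.gr)
    (pb0 : PW Pos (InK lam 1) b.b0.P.beta b.b0.P.Ur b.b0.P.Wr b.b0.P.gr)
    (nz : ∀ x, InK lam 1 x → 0 ≤ H b.z.P.Wr x)
    (na1 : ∀ x, InK lam 1 x → 0 ≤ H b.a1.P.Wr x) (na0 : ∀ x, InK lam 1 x → 0 ≤ H b.a0.P.Wr x)
    (nb1 : ∀ x, InK lam 1 x → 0 ≤ H b.b1.P.Wr x) (nb0 : ∀ x, InK lam 1 x → 0 ≤ H b.b0.P.Wr x)
    (f0 : ∀ x, Pos x → (1 / lam ^ 2) * H (sc lam (vec b.z.P.Q (tail3 b.z.P.wL))) x ≤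
      H (vec b.z.P.Q (tail3 b.z.P.bL)) x - (b.e / b.z.P.Q : ℝ) * H eNN x)
    (f1 : ∀ x, Pos x → (1 / lam ^ 2) * H (sc lam (vec b.z.P.Q (tail3 b.a1.P.wL) +
      tau • (vec b.z.P.Q (tail3 b.a0.P.wL) - vec b.z.P.Q (tail3 b.a1.P.wL)))) x ≤
      H (vec b.z.P.Q (tail3 b.a1.P.bL)) x - (b.e / b.z.P.Q : ℝ) * H eNN x) :
    ∃ P D p1 p0 g1 g0 : ℝ → P6, ContinuousOn P (Set.Icc 0 (b.mn / b.md)) ∧
      ∀ m ∈ Set.Icc (0 : ℝ) (b.mn / b.md), Facts.Br lam (b.en / b.ed) tau (b.e / b.z.P.Q) m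
        (P m) (D m) (p1 m) (p0 m) (g1 m) (g0 m) := by
  have R := LoBr.rel hb
  have hQ : (0 : ℝ) < b.z.P.Q := by exact_mod_cast R.hQ
  have he : (0 : ℝ) < b.e := by exact_mod_cast R.e
  have hmn : (0 : ℝ) < b.mn := by exact_mod_cast R.mn
  have hmd : (0 : ℝ) < b.md := by exact_mod_cast R.md
  have hm0 : (0 : ℝ) < b.mn / b.md := div_pos hmn hmd
  obtain ⟨r, r0, r1, hr⟩ := exists_r hta htb
  rw [R.uz] at pz
  rw [R.ua1, R.ga1] at pa1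
  rw [R.ua0, R.ga0] at pa0
  rw [R.ub1, R.gb1] at pb1
  rw [R.ub0, R.gb0] at pb0
  have c1 := PW_convex pa1 pb1 r0 r1
  have c0 := PW_convex pa0 pb0 r0 r1
  obtain ⟨l, hl⟩ : ∃ l : ℝ, l = b.en / b.ed := ⟨_, rfl⟩
  obtain ⟨m0, hm0'⟩ : ∃ m0 : ℝ, m0 = b.mn / b.md := ⟨_, rfl⟩
  obtain ⟨ta, hta'⟩ : ∃ ta : ℝ, ta = b.tan / b.tad := ⟨_, rfl⟩
  obtain ⟨tb, htb'⟩ : ∃ tb : ℝ, tb = b.tbn / b.tbd := ⟨_, rfl⟩
  obtain ⟨gC, hgC⟩ : ∃ gC : ℝ, gC = b.z.P.gr 2 := ⟨_, rfl⟩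
  have ba1 := R.ba1
  have bb1 := R.bb1
  have ba0 := R.ba0
  have bb0 := R.bb0
  have wa1 := R.wa1
  have wb1 := R.wb1
  have wa0 := R.wa0
  have wb0 := R.wb0
  rw [← hl] at hth
  rw [← hta', ← htb'] at hr
  rw [← hm0'] at hm0
  rw [← hm0', ← hta', ← hgC] at ba1 wa1
  rw [← hm0', ← htb', ← hgC] at bb1 wb1
  rw [← hm0', ← hl] at ba0 bb0
  rw [← hm0', ← hl, ← hta', ← hgC] at wa0
  rw [← hm0', ← hl, ← htb', ← hgC] at wb0
  rw [← hm0', ← hl]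
  -- the vertices
  have eP1 : (1 - r) • b.a1.P.beta + r • b.b1.P.beta =
      eN + (theta * (m0 * gC)) • eC + vec b.z.P.Q (tail3 b.a1.P.bL) := by
    rw [ba1, bb1, mix, hr]
    congr 3
    ring
  have eW1 : (1 - r) • b.a1.P.Wr + r • b.b1.P.Wr =
      eN + (theta * (m0 * gC)) • eC + vec b.z.P.Q (tail3 b.a1.P.wL) := by
    rw [wa1, wb1, mix, hr]
    congr 3
    ring
  have eW0 : (1 - r) • b.a0.P.Wr + r • b.b0.P.Wr =
      eN + ((theta + l) * (m0 * gC)) • eC + vec b.z.P.Q (tail3 b.a0.P.wL) := by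
    rw [wa0, wb0, mix, hr]
    congr 3
    ring
  have eP0 : (1 - r) • b.a0.P.beta + r • b.b0.P.beta =
      ((1 - r) • b.a1.P.beta + r • b.b1.P.beta) + (l * m0) • b.z.P.gr := by
    rw [ba0, bb0]
    funext i
    simp only [Pi.add_apply, Pi.smul_apply, smul_eq_mul]
    ring
  refine ⟨fun m => (1 - m / m0) • b.z.P.beta +
      (m / m0) • ((1 - r) • b.a1.P.beta + r • b.b1.P.beta), fun m => -(m • b.z.P.gr),
    fun m => (1 - m / m0) • b.z.P.Wr + (m / m0) • ((1 - r) • b.a1.P.Wr + r • b.b1.P.Wr),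
    fun m => (1 - m / m0) • b.z.P.Wr + (m / m0) • ((1 - r) • b.a0.P.Wr + r • b.b0.P.Wr),
    fun _ => b.z.P.gr, fun _ => b.z.P.gr, ?_, fun m hm => ?_⟩
  · refine Continuous.continuousOn ?_
    fun_prop
  · refine core hlam hl1 hm0 (div_pos he hQ).le eP0 pz c1 c0 ?_ ?_ R.g0 nz ?_ ?_ ?_ ?_ hm
    · simp [Par2.beta]
    · simp [Par2.beta]
    · intro x hx
      rw [Cvx.Hadd, Cvx.Hsmul, Cvx.Hsmul]
      exact add_nonneg (mul_nonneg (sub_nonneg.2 r1) (na1 x hx)) (mul_nonneg r0 (nb1 x hx))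
    · intro x hx
      rw [Cvx.Hadd, Cvx.Hsmul, Cvx.Hsmul]
      exact add_nonneg (mul_nonneg (sub_nonneg.2 r1) (na0 x hx)) (mul_nonneg r0 (nb0 x hx))
    · intro x hx
      have h := f0 x hx
      have e2 : sc lam eN = (lam ^ 2) • eN := by
        funext i
        fin_cases i <;> simp [sc, eN]
      rw [R.wz, R.bz, Facts.sc_add, e2, Cvx.Hadd, Cvx.Hadd, Cvx.Hsmul, mul_add]
      have e3 : 1 / lam ^ 2 * (lam ^ 2 * H eN x) = H eN x := by field_simp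
      rw [e3]
      linarith
    · intro x hx
      rw [eW1, eW0, eP1]
      exact fin1_mix hlam hth f1 x hx

/-! ### the two models -/

/-- `(1 + lam)/(2 lam)` (regular), `1/(2 lam (1 - lam))` (Poisson) -/
noncomputable def thetaOf (reg : Bool) (lam : ℝ) : ℝ :=
  if reg then (1 + lam) / (2 * lam) else 1 / (2 * lam * (1 - lam))

theorem thetaOf_true (lam : ℝ) : thetaOf true lam = (1 + lam) / (2 * lam) := by
  simp [thetaOf]

theorem thetaOf_false (lam : ℝ) : thetaOf false lam = 1 / (2 * lam * (1 - lam)) := by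
  simp [thetaOf]

theorem thetaOf_eq (reg : Bool) {lam l : ℝ} (hlam : lam ≠ 0) (h1 : lam < 1) (hl : l ≠ 0) :
    lam * (thetaOf reg lam + tauOf reg lam l * l) = thetaOf reg lam := by
  have h2 : 1 - lam ≠ 0 := by linarith
  cases reg with
  | true =>
    rw [thetaOf_true, tauOf_true]
    field_simp
    ring
  | false =>
    rw [thetaOf_false, tauOf_false]
    field_simp
    ring

/-- the facts certified for a bracket `[0, m0]` at one value of `lam` -/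
structure LoBr.Fact (b : LoBr) (reg : Bool) (lam : ℝ) : Prop where
  ok : b.ok = true
  ta : (b.tan / b.tad : ℝ) ≤ thetaOf reg lam
  tb : thetaOf reg lam ≤ b.tbn / b.tbd
  pz : PW Pos (InK lam 1) b.z.P.beta b.z.P.Ur b.z.P.Wr b.z.P.gr
  pa1 : PW Pos (InK lam 1) b.a1.P.beta b.a1.P.Ur b.a1.P.Wr b.a1.P.gr
  pa0 : PW Pos (InK lam 1) b.a0.P.beta b.a0.P.Ur b.a0.P.Wr b.a0.P.gr
  pb1 : PW Pos (InK lam 1) b.b1.P.beta b.b1.P.Ur b.b1.P.Wr b.b1.P.gr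
  pb0 : PW Pos (InK lam 1) b.b0.P.beta b.b0.P.Ur b.b0.P.Wr b.b0.P.gr
  nz : ∀ x, InK lam 1 x → 0 ≤ H b.z.P.Wr x
  na1 : ∀ x, InK lam 1 x → 0 ≤ H b.a1.P.Wr x
  na0 : ∀ x, InK lam 1 x → 0 ≤ H b.a0.P.Wr x
  nb1 : ∀ x, InK lam 1 x → 0 ≤ H b.b1.P.Wr x
  nb0 : ∀ x, InK lam 1 x → 0 ≤ H b.b0.P.Wr x
  f0 : ∀ x, Pos x → (1 / lam ^ 2) * H (sc lam (vec b.z.P.Q (tail3 b.z.P.wL))) x ≤
    H (vec b.z.P.Q (tail3 b.z.P.bL)) x - (b.e / b.z.P.Q : ℝ) * H eNN x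
  f1 : ∀ x, Pos x → (1 / lam ^ 2) * H (sc lam (vec b.z.P.Q (tail3 b.a1.P.wL) +
    tauOf reg lam ((b.en : ℝ) / b.ed) • (vec b.z.P.Q (tail3 b.a0.P.wL) -
      vec b.z.P.Q (tail3 b.a1.P.wL)))) x ≤
    H (vec b.z.P.Q (tail3 b.a1.P.bL)) x - (b.e / b.z.P.Q : ℝ) * H eNN x

/-- from the checks to the facts -/
theorem LoBr.fact {b : LoBr} (hok : b.ok = true) {reg : Bool} {lam : ℝ} (hlam : lam ≠ 0)
    (hta : (b.tan / b.tad : ℝ) ≤ thetaOf reg lam) (htb : thetaOf reg lam ≤ b.tbn / b.tbd)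
    (pz : PW Pos (InK lam 1) b.z.P.beta b.z.P.Ur b.z.P.Wr b.z.P.gr)
    (pa1 : PW Pos (InK lam 1) b.a1.P.beta b.a1.P.Ur b.a1.P.Wr b.a1.P.gr)
    (pa0 : PW Pos (InK lam 1) b.a0.P.beta b.a0.P.Ur b.a0.P.Wr b.a0.P.gr)
    (pb1 : PW Pos (InK lam 1) b.b1.P.beta b.b1.P.Ur b.b1.P.Wr b.b1.P.gr)
    (pb0 : PW Pos (InK lam 1) b.b0.P.beta b.b0.P.Ur b.b0.P.Wr b.b0.P.gr)
    {K0 K1 K2 K3 K4 K5 K6 : ℕ} {C0 C1 C2 C3 C4 C5 C6 : FCert} {D a d : Int} (hD : 0 < D)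
    (had : a < d)
    (hwz : C2.check (hFin b.z.P.wL K2) D a d (baseTri 1 1) = true)
    (hwa1 : C3.check (hFin b.a1.P.wL K3) D a d (baseTri 1 1) = true)
    (hwa0 : C4.check (hFin b.a0.P.wL K4) D a d (baseTri 1 1) = true)
    (hwb1 : C5.check (hFin b.b1.P.wL K5) D a d (baseTri 1 1) = true)
    (hwb0 : C6.check (hFin b.b0.P.wL K6) D a d (baseTri 1 1) = true)
    (hf0 : C0.check (b.fin0 K0) D a d (baseTri 1 1) = true)
    (hf1 : C1.check (b.fin1 reg K1) D a d (baseTri 1 1) = true)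
    (ha : (a : ℝ) ≤ D * lam) (hd : D * lam ≤ d) : b.Fact reg lam := by
  have h := hok
  simp only [LoBr.ok, Bool.and_eq_true] at h
  obtain ⟨⟨⟨⟨⟨⟨⟨⟨⟨⟨⟨⟨⟨⟨⟨⟨⟨⟨⟨⟨⟨⟨⟨⟨⟨⟨⟨⟨⟨⟨⟨⟨⟨⟨⟨k1, k2⟩, k3⟩, k4⟩, k5⟩, -⟩, -⟩, -⟩, -⟩, -⟩,
    -⟩, -⟩, -⟩, -⟩, -⟩, -⟩, -⟩, -⟩, -⟩, -⟩, -⟩, -⟩, -⟩, -⟩, -⟩, -⟩,
    -⟩, -⟩, -⟩, -⟩, -⟩, -⟩, -⟩, -⟩, -⟩, -⟩ := h
  have R := LoBr.rel hok
  have hQ := R.hQ
  have Qa1 : 0 < b.a1.P.Q := by rw [← ieq_sound k2]; exact hQ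
  have Qa0 : 0 < b.a0.P.Q := by rw [← ieq_sound k3]; exact hQ
  have Qb1 : 0 < b.b1.P.Q := by rw [← ieq_sound k4]; exact hQ
  have Qb0 : 0 < b.b0.P.Q := by rw [← ieq_sound k5]; exact hQ
  have hA : 0 < Int.mul 2 b.en := by
    have e : Int.mul 2 b.en = 2 * b.en := rfl
    rw [e]; have := R.en; omega
  refine ⟨hok, hta, htb, pz, pa1, pa0, pb1, pb0, ?_, ?_, ?_, ?_, ?_, ?_, ?_⟩
  · intro x hx
    rw [Par2.Wr_eq]
    exact hpos hQ hD had hwz ha hd hx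
  · intro x hx
    rw [Par2.Wr_eq]
    exact hpos Qa1 hD had hwa1 ha hd hx
  · intro x hx
    rw [Par2.Wr_eq]
    exact hpos Qa0 hD had hwa0 ha hd hx
  · intro x hx
    rw [Par2.Wr_eq]
    exact hpos Qb1 hD had hwb1 ha hd hx
  · intro x hx
    rw [Par2.Wr_eq]
    exact hpos Qb0 hD had hwb0 ha hd hx
  · intro x hx
    have ht := tauOf_eq false hlam R.en R.ed
    rw [if_neg (by simp)] at ht
    have h := final hQ hA hD had hf0 hlam ha hd ht (by simp [tail3]) (by simp [tail3]) hx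
    rw [sub_self, smul_zero, add_zero] at h
    simpa using h
  · intro x hx
    have h := final hQ hA hD had hf1 hlam ha hd (tauOf_eq reg hlam R.en R.ed)
      (by simp [tail3]) (by simp [tail3]) hx
    simpa using h

theorem LoBr.Fact.bracket {b : LoBr} {reg : Bool} {lam : ℝ} (hf : b.Fact reg lam)
    (hlam : lam ≠ 0) (h0 : -(1 / 2) ≤ lam) (h1 : lam < 1) :
    ∃ P D p1 p0 g1 g0 : ℝ → P6, ContinuousOn P (Set.Icc 0 (b.mn / b.md)) ∧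
      ∀ m ∈ Set.Icc (0 : ℝ) (b.mn / b.md), Facts.Br lam (b.en / b.ed)
        (tauOf reg lam ((b.en : ℝ) / b.ed)) (b.e / b.z.P.Q) m
        (P m) (D m) (p1 m) (p0 m) (g1 m) (g0 m) := by
  have R := LoBr.rel hf.ok
  have hen : (0 : ℝ) < b.en := by exact_mod_cast R.en
  have hed : (0 : ℝ) < b.ed := by exact_mod_cast R.ed
  refine LoBr.bracket hf.ok hlam ?_ (thetaOf_eq reg hlam h1 (by positivity)) hf.ta hf.tb hf.pz
    hf.pa1 hf.pa0 hf.pb1 hf.pb0 hf.nz hf.na1 hf.na0 hf.nb1 hf.nb0 hf.f0 hf.f1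
  nlinarith

/-- Poisson tree: if the sequence is eventually in the bracket `[0, m0]`, it tends to zero. -/
theorem LoBr.Fact.poisson {b : LoBr} {lam d : ℝ} (hlam : lam ≠ 0) (h0 : -(1 / 2) ≤ lam)
    (h1 : lam < 1) (hf : b.Fact false lam) (hd : 0 ≤ d) (hdl : d * lam ^ 2 ≤ 1)
    (hl : 1 ≤ (b.en : ℝ) / b.ed * lam ^ 2) (F : Facts lam (poisson d)) {mlo mhi : ℝ}
    (hlo : 0 ≤ mlo) (hmhi : mhi ≤ (b.mn : ℝ) / b.md)
    (hm : ∃ n0 : ℕ, ∀ n, n0 ≤ n → lam ^ 2 * xs lam (poisson d) n ∈ Set.Icc mlo mhi) :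
    Tendsto (xs lam (poisson d)) atTop (𝓝 0) := by
  have R := LoBr.rel hf.ok
  have hQ : (0 : ℝ) < b.z.P.Q := by exact_mod_cast R.hQ
  have he : (0 : ℝ) < b.e := by exact_mod_cast R.e
  have hl2 : 0 < lam ^ 2 := by positivity
  obtain ⟨n0, hn0⟩ := hm
  have hinv : 1 / lam ^ 2 ≤ (b.en : ℝ) / b.ed := by
    rw [div_le_iff₀ hl2]; exact hl
  have hdi : d ≤ 1 / lam ^ 2 := by
    rw [le_div_iff₀ hl2]; exact hdl
  obtain ⟨P, D, p1, p0, g1, g0, hc, hB⟩ := hf.bracket hlam h0 h1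
  rw [tauOf_false] at hB
  exact bracket_poisson hlam h0 h1.le hd hdl F (hdi.trans hinv) (by linarith)
    (by positivity) hc hB
    (fun n hn => ⟨hlo.trans (hn0 n hn).1, (hn0 n hn).2.trans hmhi⟩)

/-- Regular tree: if the sequence is eventually in the bracket `[0, m0]`, it tends to zero. -/
theorem LoBr.Fact.regular {b : LoBr} {lam : ℝ} {d : ℕ} (hlam : lam ≠ 0) (h0 : -(1 / 2) ≤ lam)
    (h1 : lam < 1) (hf : b.Fact true lam) (hdl : (d : ℝ) * lam ^ 2 ≤ 1)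
    (hl : 1 ≤ (b.en : ℝ) / b.ed * lam ^ 2) (F : Facts lam (regular d)) {mlo mhi : ℝ}
    (hlo : 0 ≤ mlo) (hmhi : mhi ≤ (b.mn : ℝ) / b.md)
    (hm : ∃ n0 : ℕ, ∀ n, n0 ≤ n → lam ^ 2 * xs lam (regular d) n ∈ Set.Icc mlo mhi) :
    Tendsto (xs lam (regular d)) atTop (𝓝 0) := by
  have R := LoBr.rel hf.ok
  have hQ : (0 : ℝ) < b.z.P.Q := by exact_mod_cast R.hQ
  have hen : (0 : ℝ) < b.en := by exact_mod_cast R.en
  have hed : (0 : ℝ) < b.ed := by exact_mod_cast R.ed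
  have he : (0 : ℝ) < b.e := by exact_mod_cast R.e
  have hl2 : 0 < lam ^ 2 := by positivity
  obtain ⟨n0, hn0⟩ := hm
  have hinv : 1 / lam ^ 2 ≤ (b.en : ℝ) / b.ed := by
    rw [div_le_iff₀ hl2]; exact hl
  have hdi : (d : ℝ) ≤ 1 / lam ^ 2 := by
    rw [le_div_iff₀ hl2]; exact hdl
  obtain ⟨P, D, p1, p0, g1, g0, hc, hB⟩ := hf.bracket hlam h0 h1
  rw [tauOf_true] at hB
  exact bracket_regular hlam h0 h1.le hdl F (by positivity) (by linarith) (by linarith)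
    (by positivity) hc hB
    (fun n hn => ⟨hlo.trans (hn0 n hn).1, (hn0 n hn).2.trans hmhi⟩)

end Vale.Agent.P154
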