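import Vale.Agent.P154.V2High

/-!
Brackets `[m_a, m_b]` with potentials that are affine in `m`.
-/

namespace Vale.Agent.P154

open Filter Topology

/-- the integer relations of a bracket -/
structure MiBr.Rel (b : MiBr) : Prop where
  hQ : 0 < b.a1.P.Q
  qa : b.a1.P.Q = b.a0.P.Q
  qb1 : b.a1.P.Q = b.b1.P.Q
  qb0 : b.a1.P.Q = b.b0.P.Q
  hen : 0 < b.en
  hed : 0 < b.ed
  hman : 0 ≤ b.man
  hmad : 0 < b.mad
  hmbn : 0 < b.mbn
  hmbd : 0 < b.mbd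
  hdl : 0 < b.dl
  hab : b.man * b.mbd < b.mbn * b.mad
  hmu : b.mua ≤ b.mub
  hmma : b.mad * b.mma = b.man * b.mua
  hmmb : b.mbd * b.mmb = b.mbn * b.mub
  wa1 : b.a1.P.W0 = 0
  wa0 : b.a0.P.W0 = 0
  wb1 : b.b1.P.W0 = 0
  wb0 : b.b0.P.W0 = 0
  g1 : b.b1.P.gr = b.a1.P.gr
  g0 : b.b0.P.gr = b.a0.P.gr
  rDa : (b.en : ℝ) • vec b.a1.P.Q b.Da = (b.ed : ℝ) • b.a1.P.beta - (b.ed : ℝ) • b.a0.P.beta
  rDb : (b.en : ℝ) • vec b.a1.P.Q b.Db = (b.ed : ℝ) • b.b1.P.beta - (b.ed : ℝ) • b.b0.P.beta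
  ra1 : (b.mad : ℝ) • b.a1.P.Ur + (b.man : ℝ) • b.a1.P.gr =
    (b.mad : ℝ) • b.a1.P.beta - (b.mad : ℝ) • vec b.a1.P.Q b.Da
  ra0 : (b.mad : ℝ) • b.a0.P.Ur + (b.man : ℝ) • b.a0.P.gr =
    (b.mad : ℝ) • b.a0.P.beta - (b.mad : ℝ) • vec b.a1.P.Q b.Da
  rb1 : (b.mbd : ℝ) • b.b1.P.Ur + (b.mbn : ℝ) • b.a1.P.gr =
    (b.mbd : ℝ) • b.b1.P.beta - (b.mbd : ℝ) • vec b.a1.P.Q b.Db
  rb0 : (b.mbd : ℝ) • b.b0.P.Ur + (b.mbn : ℝ) • b.a0.P.gr =
    (b.mbd : ℝ) • b.b0.P.beta - (b.mbd : ℝ) • vec b.a1.P.Q b.Db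

theorem MiBr.rel {b : MiBr} (h : b.ok = true) : b.Rel := by
  simp only [MiBr.ok, Bool.and_eq_true] at h
  obtain ⟨⟨⟨⟨⟨⟨⟨⟨⟨⟨⟨⟨⟨⟨⟨⟨⟨⟨⟨⟨⟨⟨⟨⟨⟨⟨h1, h2⟩, h3⟩, h4⟩, h5⟩, h6⟩, h7⟩, h8⟩, h9⟩, h10⟩, h11⟩, h12⟩,
    h13⟩, h14⟩, h15⟩, h16⟩, h17⟩, h18⟩, h19⟩, h20⟩, h21⟩, h22⟩, h23⟩, h24⟩, h25⟩, h26⟩, h27⟩ := h
  have q1 := ieq_sound h2
  have q2 := ieq_sound h3
  have q3 := ieq_sound h4
  have z0 : ∀ v : P6, ((0 : Int) : ℝ) • v = 0 := by intro v; simp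
  have i12 := pos?_sound h12
  have e12 : Int.sub (Int.mul b.mbn b.mad) (Int.mul b.man b.mbd) =
    b.mbn * b.mad - b.man * b.mbd := rfl
  rw [e12] at i12
  have i13 := nn?_sound h13
  have e13 : Int.sub b.mub b.mua = b.mub - b.mua := rfl
  rw [e13] at i13
  have g1 : b.b1.P.gr = b.a1.P.gr := by
    rw [Par2.gr_eq, Par2.gr_eq, leqL_sound h20, q2]
  have g0 : b.b0.P.gr = b.a0.P.gr := by
    rw [Par2.gr_eq, Par2.gr_eq, leqL_sound h21, ← q1, q3]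
  refine ⟨pos?_sound h1, q1, q2, q3, pos?_sound h5, pos?_sound h6,
    nn?_sound h7, pos?_sound h8, pos?_sound h9, pos?_sound h10, pos?_sound h11, by linarith,
    by linarith, ieq_sound h14, ieq_sound h15, ieq_sound h16, ieq_sound h17, ieq_sound h18,
    ieq_sound h19, g1, g0, ?_, ?_, ?_, ?_, ?_, ?_⟩
  · have e := congrArg (vec b.a1.P.Q) (leqL_sound h22)
    rw [vec_lcL, vec_lcL, vec_nil, z0, add_zero, neg_cast, neg_smul, ← sub_eq_add_neg,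
      ← Par2.beta_eq] at e
    rw [e, Par2.beta_eq b.a0.P, q1]
  · have e := congrArg (vec b.a1.P.Q) (leqL_sound h23)
    rw [vec_lcL, vec_lcL, vec_nil, z0, add_zero, neg_cast, neg_smul, ← sub_eq_add_neg] at e
    rw [e, Par2.beta_eq b.b1.P, Par2.beta_eq b.b0.P, ← q2, ← q3]
  · have e := congrArg (vec b.a1.P.Q) (leqL_sound h24)
    rw [vec_lcL, vec_lcL, neg_cast, neg_smul, ← sub_eq_add_neg,
      ← Par2.beta_eq, ← Par2.Ur_eq, ← Par2.gr_eq] at e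
    exact e
  · have e := congrArg (vec b.a1.P.Q) (leqL_sound h25)
    rw [vec_lcL, vec_lcL, neg_cast, neg_smul, ← sub_eq_add_neg] at e
    rw [Par2.Ur_eq, Par2.gr_eq, Par2.beta_eq, ← q1]
    exact e
  · have e := congrArg (vec b.a1.P.Q) (leqL_sound h26)
    rw [vec_lcL, vec_lcL, neg_cast, neg_smul, ← sub_eq_add_neg] at e
    rw [← g1, Par2.Ur_eq, Par2.gr_eq, Par2.beta_eq, ← q2]
    exact e
  · have e := congrArg (vec b.a1.P.Q) (leqL_sound h27)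
    rw [vec_lcL, vec_lcL, neg_cast, neg_smul, ← sub_eq_add_neg] at e
    rw [← g0, Par2.Ur_eq, Par2.gr_eq, Par2.beta_eq, ← q3]
    exact e

/-- the facts certified for a bracket at one value of `lam` -/
structure MiBr.Fact (b : MiBr) (reg : Bool) (lam : ℝ) : Prop where
  ok : b.ok = true
  pwa1 : PW Pos (InK lam 1) b.a1.P.beta b.a1.P.Ur b.a1.P.Wr b.a1.P.gr
  pwa0 : PW Pos (InK lam 1) b.a0.P.beta b.a0.P.Ur b.a0.P.Wr b.a0.P.gr
  pwb1 : PW Pos (InK lam 1) b.b1.P.beta b.b1.P.Ur b.b1.P.Wr b.b1.P.gr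
  pwb0 : PW Pos (InK lam 1) b.b0.P.beta b.b0.P.Ur b.b0.P.Wr b.b0.P.gr
  na1 : ∀ x, InK lam 1 x → 0 ≤ H b.a1.P.Wr x
  na0 : ∀ x, InK lam 1 x → 0 ≤ H b.a0.P.Wr x
  nb1 : ∀ x, InK lam 1 x → 0 ≤ H b.b1.P.Wr x
  nb0 : ∀ x, InK lam 1 x → 0 ≤ H b.b0.P.Wr x
  fina : ∀ x, Pos x → (1 / lam ^ 2) * H (sc lam (b.a1.P.Wr +
      tauOf reg lam ((b.en : ℝ) / b.ed) • (b.a0.P.Wr - b.a1.P.Wr))) x ≤
    H b.a1.P.beta x + (b.mua / b.a1.P.Q : ℝ) * H eN x -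
      (b.mma / b.a1.P.Q : ℝ) / lam ^ 2 * tot x - (b.dl / b.a1.P.Q : ℝ) * tot x
  finb : ∀ x, Pos x → (1 / lam ^ 2) * H (sc lam (b.b1.P.Wr +
      tauOf reg lam ((b.en : ℝ) / b.ed) • (b.b0.P.Wr - b.b1.P.Wr))) x ≤
    H b.b1.P.beta x + (b.mub / b.a1.P.Q : ℝ) * H eN x -
      (b.mmb / b.a1.P.Q : ℝ) / lam ^ 2 * tot x - (b.dl / b.a1.P.Q : ℝ) * tot x

/-- from the checks to the facts -/
theorem MiBr.fact {b : MiBr} (hok : b.ok = true) {reg : Bool} {lam : ℝ} (hlam : lam ≠ 0)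
    (hpwa1 : PW Pos (InK lam 1) b.a1.P.beta b.a1.P.Ur b.a1.P.Wr b.a1.P.gr)
    (hpwa0 : PW Pos (InK lam 1) b.a0.P.beta b.a0.P.Ur b.a0.P.Wr b.a0.P.gr)
    (hpwb1 : PW Pos (InK lam 1) b.b1.P.beta b.b1.P.Ur b.b1.P.Wr b.b1.P.gr)
    (hpwb0 : PW Pos (InK lam 1) b.b0.P.beta b.b0.P.Ur b.b0.P.Wr b.b0.P.gr)
    {K1 K2 K3 K4 K5 K6 : ℕ} {C1 C2 C3 C4 C5 C6 : FCert} {D a d : Int} (hD : 0 < D) (had : a < d)
    (hwa1 : C1.check (hFin b.a1.P.wL K1) D a d (baseTri 1 1) = true)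
    (hwa0 : C2.check (hFin b.a0.P.wL K2) D a d (baseTri 1 1) = true)
    (hwb1 : C3.check (hFin b.b1.P.wL K3) D a d (baseTri 1 1) = true)
    (hwb0 : C4.check (hFin b.b0.P.wL K4) D a d (baseTri 1 1) = true)
    (hfina : C5.check (b.fina reg K5) D a d (baseTri 1 1) = true)
    (hfinb : C6.check (b.finb reg K6) D a d (baseTri 1 1) = true)
    (ha : (a : ℝ) ≤ D * lam) (hd : D * lam ≤ d) : b.Fact reg lam := by
  have R := MiBr.rel hok
  have hQ := R.hQ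
  have hQa : 0 < b.a0.P.Q := by rw [← R.qa]; exact hQ
  have hQb1 : 0 < b.b1.P.Q := by rw [← R.qb1]; exact hQ
  have hQb0 : 0 < b.b0.P.Q := by rw [← R.qb0]; exact hQ
  have hA : 0 < Int.mul 2 b.en := by
    have : Int.mul 2 b.en = 2 * b.en := rfl
    rw [this]; have := R.hen; omega
  refine ⟨hok, hpwa1, hpwa0, hpwb1, hpwb0, ?_, ?_, ?_, ?_, ?_, ?_⟩
  · intro x hx
    rw [Par2.Wr_eq]
    exact hpos hQ hD had hwa1 ha hd hx
  · intro x hx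
    rw [Par2.Wr_eq]
    exact hpos hQa hD had hwa0 ha hd hx
  · intro x hx
    rw [Par2.Wr_eq]
    exact hpos hQb1 hD had hwb1 ha hd hx
  · intro x hx
    rw [Par2.Wr_eq]
    exact hpos hQb0 hD had hwb0 ha hd hx
  · intro x hx
    have h := final (A := Int.mul 2 b.en) (B := b.ed) (r := if reg then b.ed else 0) hQ hA
      hD had hfina hlam ha hd (tauOf_eq reg hlam R.hen R.hed)
      (by simpa [Par2.wL] using R.wa1) (by simpa [Par2.wL] using R.wa0) hx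
    rw [← Par2.beta_eq, ← Par2.Wr_eq] at h
    rw [Par2.Wr_eq b.a0.P, ← R.qa]
    refine h.trans (le_of_eq ?_)
    push_cast
    ring
  · intro x hx
    have h := final (A := Int.mul 2 b.en) (B := b.ed) (r := if reg then b.ed else 0) hQ hA
      hD had hfinb hlam ha hd (tauOf_eq reg hlam R.hen R.hed)
      (by simpa [Par2.wL] using R.wb1) (by simpa [Par2.wL] using R.wb0) hx
    rw [Par2.Wr_eq b.b1.P, Par2.Wr_eq b.b0.P, Par2.beta_eq b.b1.P, ← R.qb1, ← R.qb0]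
    refine h.trans (le_of_eq ?_)
    push_cast
    ring

/-- position of `m` in the bracket -/
noncomputable def MiBr.pos (b : MiBr) (m : ℝ) : ℝ :=
  (m - (b.man : ℝ) / b.mad) / ((b.mbn : ℝ) / b.mbd - (b.man : ℝ) / b.mad)

/-- interpolation -/
noncomputable def mix (t : ℝ) (p q : P6) : P6 := (1 - t) • p + t • q

theorem H_mix (t : ℝ) (p q : P6) (x : V) : H (mix t p q) x = (1 - t) * H p x + t * H q x := by
  rw [mix, H_add, H_smul, H_smul]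

theorem mix_apply (t : ℝ) (p q : P6) (i : Fin 6) : mix t p q i = (1 - t) * p i + t * q i := rfl

theorem mid_arith {t A B L m ma mb N S Pa Pb La Lb dl : ℝ} {lam : ℝ}
    (fa : (1 - t) * ((1 / lam ^ 2) * La) ≤ (1 - t) * (Pa + A * N - ma * A * L * S - dl * S))
    (fb : t * ((1 / lam ^ 2) * Lb) ≤ t * (Pb + B * N - mb * B * L * S - dl * S))
    (i1 : ((1 - t) * A + t * B) * (m / lam ^ 2) * S ≤
      ((1 - t) * (ma * A * L) + t * (mb * B * L)) * S) (i2 : dl * m ^ 2 * S ≤ dl * S) :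
    (1 / lam ^ 2) * ((1 - t) * La + t * Lb) ≤ (1 - t) * Pa + t * Pb +
      ((1 - t) * A + t * B) * (N - m / lam ^ 2 * S) - dl * m ^ 2 * S := by
  generalize 1 / lam ^ 2 = u at *
  generalize m / lam ^ 2 = v at *
  linarith

theorem dl_sq {dl m S : ℝ} (hdl : 0 ≤ dl) (hm0 : 0 ≤ m) (hm1 : m ≤ 1) (hS : 0 ≤ S) :
    dl * m ^ 2 * S ≤ dl * S := by
  refine mul_le_mul_of_nonneg_right ?_ hS
  have : m ^ 2 ≤ 1 := pow_le_one₀ hm0 hm1
  nlinarith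

theorem mid_mul {t a b ma mb Q u S m : ℝ} (hQ : 0 < Q) (hu : 0 < u) (t0 : 0 ≤ t) (t1 : t ≤ 1)
    (hab : a ≤ b) (hm' : ma ≤ mb) (hm : m = (1 - t) * ma + t * mb) (hS : 0 ≤ S) :
    ((1 - t) * (a / Q) + t * (b / Q)) * (m / u) * S ≤
      ((1 - t) * (ma * (a / Q) * (1 / u)) + t * (mb * (b / Q) * (1 / u))) * S := by
  refine mul_le_mul_of_nonneg_right ?_ hS
  have h3 : (1 - t) * (ma * (a / Q) * (1 / u)) + t * (mb * (b / Q) * (1 / u)) -
      ((1 - t) * (a / Q) + t * (b / Q)) * (m / u) =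
      t * (1 - t) * (b - a) * (mb - ma) / Q / u := by
    rw [hm]; field_simp; ring
  have h4 : 0 ≤ t * (1 - t) * (b - a) * (mb - ma) / Q / u := by
    have h5 := sub_nonneg.2 hab
    have h6 := sub_nonneg.2 t1
    have h7 := sub_nonneg.2 hm'
    positivity
  linarith

theorem sc_mix (lam T t : ℝ) (p q p' q' : P6) (x : V) :
    H (sc lam (mix t p q + T • (mix t p' q' - mix t p q))) x =
      (1 - t) * H (sc lam (p + T • (p' - p))) x + t * H (sc lam (q + T • (q' - q))) x := by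
  rw [← H_mix]
  congr 1
  funext i
  fin_cases i <;> simp [sc, mix] <;> ring

/-- `m` as a convex combination of the ends -/
theorem MiBr.pos_spec {b : MiBr} (R : b.Rel) {m : ℝ} (hma : (b.man : ℝ) / b.mad ≤ m)
    (hmb : m ≤ (b.mbn : ℝ) / b.mbd) : 0 ≤ b.pos m ∧ b.pos m ≤ 1 ∧
      (b.man : ℝ) / b.mad ≤ (b.mbn : ℝ) / b.mbd ∧
      m = (1 - b.pos m) * ((b.man : ℝ) / b.mad) + b.pos m * ((b.mbn : ℝ) / b.mbd) := by
  have hmad : (0 : ℝ) < b.mad := by exact_mod_cast R.hmad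
  have hmbd : (0 : ℝ) < b.mbd := by exact_mod_cast R.hmbd
  have hab : (b.man : ℝ) * b.mbd < b.mbn * b.mad := by exact_mod_cast R.hab
  have hlt : (b.man : ℝ) / b.mad < (b.mbn : ℝ) / b.mbd := by
    rw [div_lt_div_iff₀ hmad hmbd]; exact hab
  rw [MiBr.pos]
  generalize (b.man : ℝ) / b.mad = ma at *
  generalize (b.mbn : ℝ) / b.mbd = mb at *
  have hd : 0 < mb - ma := sub_pos.2 hlt
  refine ⟨div_nonneg (sub_nonneg.2 hma) hd.le, ?_, hlt.le, ?_⟩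
  · rw [div_le_one hd]; linarith
  · field_simp; ring

/-- the closing inequality -/
theorem MiBr.Fact.cl {b : MiBr} {reg : Bool} {lam : ℝ} (hlam : lam ≠ 0) (hf : b.Fact reg lam)
    {m : ℝ} (hma : (b.man : ℝ) / b.mad ≤ m) (hmb : m ≤ (b.mbn : ℝ) / b.mbd) (hm1 : m ≤ 1)
    {x : V} (hx : Pos x) :
    (1 / lam ^ 2) * H (sc lam (mix (b.pos m) b.a1.P.Wr b.b1.P.Wr +
      tauOf reg lam ((b.en : ℝ) / b.ed) • (mix (b.pos m) b.a0.P.Wr b.b0.P.Wr -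
        mix (b.pos m) b.a1.P.Wr b.b1.P.Wr))) x ≤
    H (mix (b.pos m) b.a1.P.beta b.b1.P.beta) x +
      ((1 - b.pos m) * (b.mua / b.a1.P.Q) + b.pos m * (b.mub / b.a1.P.Q)) *
        (H eN x - (m / lam ^ 2) * tot x) - (b.dl / b.a1.P.Q : ℝ) * m ^ 2 * tot x := by
  have R := MiBr.rel hf.ok
  have hQ : (0 : ℝ) < b.a1.P.Q := by exact_mod_cast R.hQ
  have hman : (0 : ℝ) ≤ b.man := by exact_mod_cast R.hman
  have hmad : (0 : ℝ) < b.mad := by exact_mod_cast R.hmad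
  have hmbd : (0 : ℝ) < b.mbd := by exact_mod_cast R.hmbd
  have hdl : (0 : ℝ) < b.dl := by exact_mod_cast R.hdl
  have hmu : (b.mua : ℝ) ≤ b.mub := by exact_mod_cast R.hmu
  have hmma : (b.mad : ℝ) * b.mma = b.man * b.mua := by exact_mod_cast R.hmma
  have hmmb : (b.mbd : ℝ) * b.mmb = b.mbn * b.mub := by exact_mod_cast R.hmmb
  obtain ⟨t0, t1, hlt, hm⟩ := MiBr.pos_spec R hma hmb
  have hm0 : 0 ≤ m := le_trans (by positivity) hma
  have hl2 : 0 < lam ^ 2 := by positivity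
  have htx : 0 ≤ tot x := Cvx.tot_nn hx
  have fa := mul_le_mul_of_nonneg_left (hf.fina x hx) (sub_nonneg.2 t1)
  have fb := mul_le_mul_of_nonneg_left (hf.finb x hx) t0
  have e1 : (b.mma : ℝ) = (b.man : ℝ) / b.mad * b.mua := by
    field_simp; linarith
  have e2 : (b.mmb : ℝ) = (b.mbn : ℝ) / b.mbd * b.mub := by
    field_simp; linarith
  have i1 := mid_mul hQ hl2 t0 t1 hmu hlt hm htx
  have i2 := dl_sq (show 0 ≤ (b.dl / b.a1.P.Q : ℝ) by positivity) hm0 hm1 htx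
  rw [sc_mix, H_mix]
  rw [e1] at fa
  rw [e2] at fb
  refine mid_arith (L := 1 / lam ^ 2) (fa.trans (le_of_eq ?_)) (fb.trans (le_of_eq ?_)) i1 i2
  · ring
  · ring

/-- the hypotheses of the bracket theorems -/
theorem MiBr.Fact.br {b : MiBr} {reg : Bool} {lam : ℝ} (hlam : lam ≠ 0) (hf : b.Fact reg lam)
    {m : ℝ} (hma : (b.man : ℝ) / b.mad ≤ m) (hmb : m ≤ (b.mbn : ℝ) / b.mbd) (hm1 : m ≤ 1) :
    Facts.Br lam ((b.en : ℝ) / b.ed) (tauOf reg lam ((b.en : ℝ) / b.ed))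
      ((b.dl : ℝ) / b.a1.P.Q) m (mix (b.pos m) b.a1.P.beta b.b1.P.beta)
      (mix (b.pos m) (vec b.a1.P.Q b.Da) (vec b.a1.P.Q b.Db))
      (mix (b.pos m) b.a1.P.Wr b.b1.P.Wr) (mix (b.pos m) b.a0.P.Wr b.b0.P.Wr)
      b.a1.P.gr b.a0.P.gr := by
  have R := MiBr.rel hf.ok
  have hen : (0 : ℝ) < b.en := by exact_mod_cast R.hen
  have hed : (0 : ℝ) < b.ed := by exact_mod_cast R.hed
  have hmad : (0 : ℝ) < b.mad := by exact_mod_cast R.hmad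
  have hmbd : (0 : ℝ) < b.mbd := by exact_mod_cast R.hmbd
  obtain ⟨t0, t1, hlt, hm⟩ := MiBr.pos_spec R hma hmb
  obtain ⟨ma, hma'⟩ : ∃ ma : ℝ, ma = (b.man : ℝ) / b.mad := ⟨_, rfl⟩
  obtain ⟨mb, hmb'⟩ : ∃ mb : ℝ, mb = (b.mbn : ℝ) / b.mbd := ⟨_, rfl⟩
  rw [← hma', ← hmb'] at hm
  have hman' : (b.man : ℝ) = b.mad * ma := by rw [hma']; field_simp
  have hmbn' : (b.mbn : ℝ) = b.mbd * mb := by rw [hmb']; field_simp
  -- coordinates
  have eDa : ∀ i, vec b.a1.P.Q b.Da i = (b.ed : ℝ) / b.en * (b.a1.P.beta i - b.a0.P.beta i) := by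
    intro i
    have e := congrFun R.rDa i
    simp only [Pi.smul_apply, Pi.sub_apply, smul_eq_mul] at e
    field_simp
    linarith
  have eDb : ∀ i, vec b.a1.P.Q b.Db i = (b.ed : ℝ) / b.en * (b.b1.P.beta i - b.b0.P.beta i) := by
    intro i
    have e := congrFun R.rDb i
    simp only [Pi.smul_apply, Pi.sub_apply, smul_eq_mul] at e
    field_simp
    linarith
  have eUa1 : ∀ i, b.a1.P.Ur i = b.a1.P.beta i - vec b.a1.P.Q b.Da i - ma * b.a1.P.gr i := by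
    intro i
    have e := congrFun R.ra1 i
    simp only [Pi.smul_apply, Pi.sub_apply, Pi.add_apply, smul_eq_mul, hman'] at e
    apply mul_left_cancel₀ hmad.ne'
    linarith
  have eUa0 : ∀ i, b.a0.P.Ur i = b.a0.P.beta i - vec b.a1.P.Q b.Da i - ma * b.a0.P.gr i := by
    intro i
    have e := congrFun R.ra0 i
    simp only [Pi.smul_apply, Pi.sub_apply, Pi.add_apply, smul_eq_mul, hman'] at e
    apply mul_left_cancel₀ hmad.ne'
    linarith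
  have eUb1 : ∀ i, b.b1.P.Ur i = b.b1.P.beta i - vec b.a1.P.Q b.Db i - mb * b.a1.P.gr i := by
    intro i
    have e := congrFun R.rb1 i
    simp only [Pi.smul_apply, Pi.sub_apply, Pi.add_apply, smul_eq_mul, hmbn'] at e
    apply mul_left_cancel₀ hmbd.ne'
    linarith
  have eUb0 : ∀ i, b.b0.P.Ur i = b.b0.P.beta i - vec b.a1.P.Q b.Db i - mb * b.a0.P.gr i := by
    intro i
    have e := congrFun R.rb0 i
    simp only [Pi.smul_apply, Pi.sub_apply, Pi.add_apply, smul_eq_mul, hmbn'] at e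
    apply mul_left_cancel₀ hmbd.ne'
    linarith
  have pb1 := hf.pwb1
  rw [R.g1] at pb1
  have pb0 := hf.pwb0
  rw [R.g0] at pb0
  refine ⟨?_, ?_, ?_, ?_, ?_, ?_, ⟨_, fun x hx => MiBr.Fact.cl hlam hf hma hmb hm1 hx⟩⟩
  · simp [Par2.beta, mix]
  · rw [mix_apply, eDa, eDb]
    simp [Par2.beta]
  · refine PW_congr (PW_convex hf.pwa1 pb1 t0 t1) rfl ?_ rfl rfl
    funext i
    simp only [Pi.sub_apply, Pi.add_apply, Pi.smul_apply, smul_eq_mul, mix, eUa1, eUb1]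
    clear t0 t1
    generalize b.pos m = t at *
    rw [hm]
    ring
  · refine PW_congr (PW_convex hf.pwa0 pb0 t0 t1) ?_ ?_ rfl rfl
    · funext i
      simp only [Pi.sub_apply, Pi.add_apply, Pi.smul_apply, smul_eq_mul, mix, eDa, eDb]
      field_simp
      ring
    · funext i
      simp only [Pi.sub_apply, Pi.add_apply, Pi.smul_apply, smul_eq_mul, mix, eUa0, eUb0, eDa,
        eDb]
      clear t0 t1
      generalize b.pos m = t at *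
      rw [hm]
      field_simp
      ring
  · intro x hx
    rw [H_mix]
    exact add_nonneg (mul_nonneg (sub_nonneg.2 t1) (hf.na1 x hx)) (mul_nonneg t0 (hf.nb1 x hx))
  · intro x hx
    rw [H_mix]
    exact add_nonneg (mul_nonneg (sub_nonneg.2 t1) (hf.na0 x hx)) (mul_nonneg t0 (hf.nb0 x hx))

theorem MiBr.continuous_P (b : MiBr) :
    Continuous fun m => mix (b.pos m) b.a1.P.beta b.b1.P.beta := by
  have h : Continuous b.pos := by
    unfold MiBr.pos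
    fun_prop
  unfold mix
  exact ((continuous_const.sub h).smul continuous_const).add (h.smul continuous_const)

/-- Poisson tree: the sequence cannot stay in the bracket unless it tends to zero. -/
theorem MiBr.Fact.poisson {b : MiBr} {lam d : ℝ} (hlam : lam ≠ 0) (h0 : -(1 / 2) ≤ lam)
    (h1 : lam ≤ 1) (hf : b.Fact false lam) (hd : 0 ≤ d) (hdl : d * lam ^ 2 ≤ 1)
    (hl : 1 ≤ (b.en : ℝ) / b.ed * lam ^ 2) (F : Facts lam (poisson d)) {mlo mhi : ℝ}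
    (hmlo : (b.man : ℝ) / b.mad ≤ mlo) (hmhi : mhi ≤ (b.mbn : ℝ) / b.mbd) (hmhi1 : mhi ≤ 1)
    (hm : ∃ n0 : ℕ, ∀ n, n0 ≤ n → lam ^ 2 * xs lam (poisson d) n ∈ Set.Icc mlo mhi) :
    Tendsto (xs lam (poisson d)) atTop (𝓝 0) := by
  have R := MiBr.rel hf.ok
  have hQ : (0 : ℝ) < b.a1.P.Q := by exact_mod_cast R.hQ
  have hdl' : (0 : ℝ) < b.dl := by exact_mod_cast R.hdl
  have hl2 : 0 < lam ^ 2 := by positivity
  obtain ⟨n0, hn0⟩ := hm
  have hinv : 1 / lam ^ 2 ≤ (b.en : ℝ) / b.ed := by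
    rw [div_le_iff₀ hl2]; exact hl
  have hdi : d ≤ 1 / lam ^ 2 := by
    rw [le_div_iff₀ hl2]; exact hdl
  refine bracket_poisson hlam h0 h1 hd hdl F (mlo := mlo) (mhi := mhi)
    (l := (b.en : ℝ) / b.ed) (delta := (b.dl : ℝ) / b.a1.P.Q) (hdi.trans hinv) (by linarith)
    (by positivity) (P := fun m => mix (b.pos m) b.a1.P.beta b.b1.P.beta)
    (D := fun m => mix (b.pos m) (vec b.a1.P.Q b.Da) (vec b.a1.P.Q b.Db))
    (p1 := fun m => mix (b.pos m) b.a1.P.Wr b.b1.P.Wr)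
    (p0 := fun m => mix (b.pos m) b.a0.P.Wr b.b0.P.Wr) (g1 := fun _ => b.a1.P.gr)
    (g0 := fun _ => b.a0.P.gr) b.continuous_P.continuousOn (fun m hm => ?_) hn0
  have := hf.br hlam (hmlo.trans hm.1) (hm.2.trans hmhi) (hm.2.trans hmhi1)
  rwa [tauOf_false] at this

/-- Regular tree: the sequence cannot stay in the bracket unless it tends to zero. -/
theorem MiBr.Fact.regular {b : MiBr} {lam : ℝ} {d : ℕ} (hlam : lam ≠ 0) (h0 : -(1 / 2) ≤ lam)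
    (h1 : lam ≤ 1) (hf : b.Fact true lam) (hdl : (d : ℝ) * lam ^ 2 ≤ 1)
    (hl : 1 ≤ (b.en : ℝ) / b.ed * lam ^ 2) (F : Facts lam (regular d)) {mlo mhi : ℝ}
    (hmlo : (b.man : ℝ) / b.mad ≤ mlo) (hmhi : mhi ≤ (b.mbn : ℝ) / b.mbd) (hmhi1 : mhi ≤ 1)
    (hm : ∃ n0 : ℕ, ∀ n, n0 ≤ n → lam ^ 2 * xs lam (regular d) n ∈ Set.Icc mlo mhi) :
    Tendsto (xs lam (regular d)) atTop (𝓝 0) := by
  have R := MiBr.rel hf.ok
  have hQ : (0 : ℝ) < b.a1.P.Q := by exact_mod_cast R.hQ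
  have hen : (0 : ℝ) < b.en := by exact_mod_cast R.hen
  have hed : (0 : ℝ) < b.ed := by exact_mod_cast R.hed
  have hdl' : (0 : ℝ) < b.dl := by exact_mod_cast R.hdl
  have hl2 : 0 < lam ^ 2 := by positivity
  obtain ⟨n0, hn0⟩ := hm
  have hinv : 1 / lam ^ 2 ≤ (b.en : ℝ) / b.ed := by
    rw [div_le_iff₀ hl2]; exact hl
  have hdi : (d : ℝ) ≤ 1 / lam ^ 2 := by
    rw [le_div_iff₀ hl2]; exact hdl
  refine bracket_regular hlam h0 h1 hdl F (mlo := mlo) (mhi := mhi)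
    (l := (b.en : ℝ) / b.ed) (delta := (b.dl : ℝ) / b.a1.P.Q) (by positivity) (by linarith)
    (by linarith) (by positivity) (P := fun m => mix (b.pos m) b.a1.P.beta b.b1.P.beta)
    (D := fun m => mix (b.pos m) (vec b.a1.P.Q b.Da) (vec b.a1.P.Q b.Db))
    (p1 := fun m => mix (b.pos m) b.a1.P.Wr b.b1.P.Wr)
    (p0 := fun m => mix (b.pos m) b.a0.P.Wr b.b0.P.Wr) (g1 := fun _ => b.a1.P.gr)
    (g0 := fun _ => b.a0.P.gr) b.continuous_P.continuousOn (fun m hm => ?_) hn0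
  have := hf.br hlam (hmlo.trans hm.1) (hm.2.trans hmhi) (hm.2.trans hmhi1)
  rwa [tauOf_true] at this

end Vale.Agent.P154
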