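import Vale.Agent.P154.V2Brk2
import Vale.Agent.P154.V2Mid

/-!
The rows of the final inequalities of the chains.
-/

namespace Vale.Agent.P154

/-- the polynomial with the first five coefficients of `p` -/
noncomputable def pl (p : List Int) (s : ℝ) : ℝ :=
  (p.getD 0 0 : Int) + s * (p.getD 1 0 : Int) + s ^ 2 * (p.getD 2 0 : Int) +
    s ^ 3 * (p.getD 3 0 : Int) + s ^ 4 * (p.getD 4 0 : Int)

/-- `∑ p(s) H (sc s v)` -/
noncomputable def termSum (Q : Int) (s : ℝ) : List (List Int × List Int) → P6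
  | [] => 0
  | t :: ts => pl t.1 s • sc s (vec Q t.2) + termSum Q s ts

theorem dot_six (x : List Int) (N C : ℝ) : dot x (six N C) = (x.getD 0 0 : Int) +
    (x.getD 1 0 : Int) * N + (x.getD 2 0 : Int) * C + (x.getD 3 0 : Int) * N ^ 2 +
    (x.getD 4 0 : Int) * (N * C) + (x.getD 5 0 : Int) * C ^ 2 := by
  match x with
  | [] => simp [dot]
  | [a] => simp [dot, six]
  | [a, b] => simp [dot, six]
  | [a, b, c] => simp [dot, six, add_assoc]
  | [a, b, c, d] => simp [dot, six, add_assoc]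
  | [a, b, c, d, e] => simp [dot, six, add_assoc]
  | [a, b, c, d, e, f] => simp [dot, six, add_assoc]
  | a :: b :: c :: d :: e :: f :: g :: l => simp [dot, six, add_assoc]

theorem dot_subRow (x y : List Int) (N C : ℝ) :
    dot (subRow x y) (six N C) = dot x (six N C) - dot y (six N C) := by
  have e1 : ∀ a b : Int, Int.sub a b = a - b := fun _ _ => rfl
  rw [dot_six, dot_six, dot_six]
  simp only [subRow, e1, List.getD_cons_zero, List.getD_cons_succ]
  push_cast
  ring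

/-- value of the term of row `k` -/
noncomputable def tv (t : List Int × List Int) (k : Nat) (N C : ℝ) : ℝ :=
  dot (termRow t.1 t.2 k) (six N C)

noncomputable def tvs (ts : List (List Int × List Int)) (k : Nat) (N C : ℝ) : ℝ :=
  (ts.map fun t => tv t k N C).sum

theorem dot_subTerms (k : Nat) (ts : List (List Int × List Int)) (x : List Int) (N C : ℝ) :
    dot (subTerms k x ts) (six N C) = dot x (six N C) - tvs ts k N C := by
  induction ts generalizing x with
  | nil => simp [subTerms, tvs]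
  | cons t ts ih =>
    rw [subTerms, ih, dot_subRow]
    simp only [tvs, List.map_cons, List.sum_cons, tv]
    ring

theorem dot_termRow (p v : List Int) (k : Nat) (N C : ℝ) :
    dot (termRow p v k) (six N C) = (shiftD p k 0 : Int) * (v.getD 1 0 : Int) * N +
      (shiftD p k 1 : Int) * (v.getD 2 0 : Int) * C +
      (shiftD p k 2 : Int) * (v.getD 3 0 : Int) * N ^ 2 +
      (shiftD p k 3 : Int) * (v.getD 4 0 : Int) * (N * C) +
      (shiftD p k 4 : Int) * (v.getD 5 0 : Int) * C ^ 2 := by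
  have e2 : ∀ a b : Int, Int.mul a b = a * b := fun _ _ => rfl
  rw [dot_six]
  simp only [termRow, e2, List.getD_cons_zero, List.getD_cons_succ]
  push_cast
  ring

theorem getD_big {p : List Int} (h : p.length ≤ 5) {k : Nat} (hk : 5 ≤ k) : p.getD k 0 = 0 := by
  rw [List.getD_eq_getElem?_getD, List.getElem?_eq_none (h.trans hk)]
  rfl

/-- one term -/
theorem term_rows {Q : Int} (hQ : (Q : ℝ) ≠ 0) {s : ℝ} (hs : s ≠ 0) {p v : List Int}
    (hp : p.length ≤ 5) (hv : v.getD 0 0 = 0) {x : V} (hx : tot x = 1) :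
    tv (p, v) 0 (Nh x) (Ch x) + s * (tv (p, v) 1 (Nh x) (Ch x) +
      s * (tv (p, v) 2 (Nh x) (Ch x) + s * (tv (p, v) 3 (Nh x) (Ch x) +
      s * (tv (p, v) 4 (Nh x) (Ch x) + s * (tv (p, v) 5 (Nh x) (Ch x) +
      s * (tv (p, v) 6 (Nh x) (Ch x) + s * (tv (p, v) 7 (Nh x) (Ch x) +
      s * (tv (p, v) 8 (Nh x) (Ch x)))))))))
      = Q / s ^ 2 * (pl p s * H (sc s (vec Q v)) x) := by
  rw [H_of_tot_one _ hx]
  simp only [tv, dot_termRow]
  have h5 := getD_big hp (k := 5) le_rfl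
  have h6 := getD_big hp (k := 6) (by norm_num)
  have h7 := getD_big hp (k := 7) (by norm_num)
  have h8 := getD_big hp (k := 8) (by norm_num)
  have s00 : shiftD p 0 0 = p.getD 0 0 := rfl
  have s01 : shiftD p 0 1 = 0 := rfl
  have s02 : shiftD p 0 2 = 0 := rfl
  have s03 : shiftD p 0 3 = 0 := rfl
  have s04 : shiftD p 0 4 = 0 := rfl
  have s10 : shiftD p 1 0 = p.getD 1 0 := rfl
  have s11 : shiftD p 1 1 = p.getD 0 0 := rfl
  have s12 : shiftD p 1 2 = 0 := rfl
  have s13 : shiftD p 1 3 = 0 := rfl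
  have s14 : shiftD p 1 4 = 0 := rfl
  have s20 : shiftD p 2 0 = p.getD 2 0 := rfl
  have s21 : shiftD p 2 1 = p.getD 1 0 := rfl
  have s22 : shiftD p 2 2 = p.getD 0 0 := rfl
  have s23 : shiftD p 2 3 = 0 := rfl
  have s24 : shiftD p 2 4 = 0 := rfl
  have s30 : shiftD p 3 0 = p.getD 3 0 := rfl
  have s31 : shiftD p 3 1 = p.getD 2 0 := rfl
  have s32 : shiftD p 3 2 = p.getD 1 0 := rfl
  have s33 : shiftD p 3 3 = p.getD 0 0 := rfl
  have s34 : shiftD p 3 4 = 0 := rfl
  have s40 : shiftD p 4 0 = p.getD 4 0 := rfl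
  have s41 : shiftD p 4 1 = p.getD 3 0 := rfl
  have s42 : shiftD p 4 2 = p.getD 2 0 := rfl
  have s43 : shiftD p 4 3 = p.getD 1 0 := rfl
  have s44 : shiftD p 4 4 = p.getD 0 0 := rfl
  have s50 : shiftD p 5 0 = p.getD 5 0 := rfl
  have s51 : shiftD p 5 1 = p.getD 4 0 := rfl
  have s52 : shiftD p 5 2 = p.getD 3 0 := rfl
  have s53 : shiftD p 5 3 = p.getD 2 0 := rfl
  have s54 : shiftD p 5 4 = p.getD 1 0 := rfl
  have s60 : shiftD p 6 0 = p.getD 6 0 := rfl
  have s61 : shiftD p 6 1 = p.getD 5 0 := rfl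
  have s62 : shiftD p 6 2 = p.getD 4 0 := rfl
  have s63 : shiftD p 6 3 = p.getD 3 0 := rfl
  have s64 : shiftD p 6 4 = p.getD 2 0 := rfl
  have s70 : shiftD p 7 0 = p.getD 7 0 := rfl
  have s71 : shiftD p 7 1 = p.getD 6 0 := rfl
  have s72 : shiftD p 7 2 = p.getD 5 0 := rfl
  have s73 : shiftD p 7 3 = p.getD 4 0 := rfl
  have s74 : shiftD p 7 4 = p.getD 3 0 := rfl
  have s80 : shiftD p 8 0 = p.getD 8 0 := rfl
  have s81 : shiftD p 8 1 = p.getD 7 0 := rfl
  have s82 : shiftD p 8 2 = p.getD 6 0 := rfl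
  have s83 : shiftD p 8 3 = p.getD 5 0 := rfl
  have s84 : shiftD p 8 4 = p.getD 4 0 := rfl
  rw [s00, s01, s02, s03, s04, s10, s11, s12, s13, s14, s20, s21, s22, s23, s24, s30, s31, s32,
    s33, s34, s40, s41, s42, s43, s44, s50, s51, s52, s53, s54, s60, s61, s62, s63, s64, s70, s71,
    s72, s73, s74, s80, s81, s82, s83, s84, h5, h6, h7, h8]
  simp only [sc, vec_apply, Matrix.cons_val_zero, Matrix.cons_val_one, Matrix.cons_val, pl,
    val0, val1, val2, val3, val4, val5, hv]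
  generalize ((p.getD 0 0 : Int) : ℝ) = p0
  generalize ((p.getD 1 0 : Int) : ℝ) = p1
  generalize ((p.getD 2 0 : Int) : ℝ) = p2
  generalize ((p.getD 3 0 : Int) : ℝ) = p3
  generalize ((p.getD 4 0 : Int) : ℝ) = p4
  generalize ((v.getD 1 0 : Int) : ℝ) = v1
  generalize ((v.getD 2 0 : Int) : ℝ) = v2
  generalize ((v.getD 3 0 : Int) : ℝ) = v3
  generalize ((v.getD 4 0 : Int) : ℝ) = v4
  generalize ((v.getD 5 0 : Int) : ℝ) = v5
  generalize Nh x = N
  generalize Ch x = C
  push_cast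
  field_simp
  ring

/-- all terms -/
theorem terms_rows {Q : Int} (hQ : (Q : ℝ) ≠ 0) {s : ℝ} (hs : s ≠ 0)
    {ts : List (List Int × List Int)} (hts : ∀ t ∈ ts, t.1.length ≤ 5 ∧ t.2.getD 0 0 = 0) {x : V}
    (hx : tot x = 1) :
    tvs ts 0 (Nh x) (Ch x) + s * (tvs ts 1 (Nh x) (Ch x) +
      s * (tvs ts 2 (Nh x) (Ch x) + s * (tvs ts 3 (Nh x) (Ch x) +
      s * (tvs ts 4 (Nh x) (Ch x) + s * (tvs ts 5 (Nh x) (Ch x) +
      s * (tvs ts 6 (Nh x) (Ch x) + s * (tvs ts 7 (Nh x) (Ch x) +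
      s * (tvs ts 8 (Nh x) (Ch x)))))))))
      = Q / s ^ 2 * H (termSum Q s ts) x := by
  induction ts with
  | nil => simp [tvs, termSum, H_zero]
  | cons t ts ih =>
    have h1 := ih fun t ht => hts t (List.mem_cons_of_mem _ ht)
    have h2 := hts t List.mem_cons_self
    have h3 := term_rows hQ hs (p := t.1) (v := t.2) h2.1 h2.2 hx
    have h4 : ∀ k, tvs (t :: ts) k (Nh x) (Ch x) =
        tv (t.1, t.2) k (Nh x) (Ch x) + tvs ts k (Nh x) (Ch x) := by
      intro k
      simp only [tvs, List.map_cons, List.sum_cons]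
    have h5 : (Q : ℝ) / s ^ 2 * H (termSum Q s (t :: ts)) x =
        Q / s ^ 2 * (pl t.1 s * H (sc s (vec Q t.2)) x) + Q / s ^ 2 * H (termSum Q s ts) x := by
      rw [termSum, H_add, H_smul]
      ring
    rw [h5, ← h1, ← h3]
    simp only [h4]
    ring

theorem finV_rowsG {Q S mu mm dl : Int} (P : List Int) {ts : List (List Int × List Int)}
    (hQ : (Q : ℝ) ≠ 0) {s : ℝ} (hs : s ≠ 0)
    (hts : ∀ t ∈ ts, t.1.length ≤ 5 ∧ t.2.getD 0 0 = 0) {x : V} (hx : tot x = 1) :
    finV (rowsG S mu mm dl P ts) s x = Q * (S * (s ^ 2 * (H (vec Q P) x +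
      (mu / Q : ℝ) * H eN x - (dl / Q : ℝ) * tot x) - (mm / Q : ℝ) * tot x) -
        1 / s ^ 2 * H (termSum Q s ts) x) := by
  have e1 : ∀ a b : Int, Int.sub a b = a - b := fun _ _ => rfl
  have e2 : ∀ a b : Int, Int.mul a b = a * b := fun _ _ => rfl
  have e3 : ∀ a b : Int, Int.add a b = a + b := fun _ _ => rfl
  have e4 : ∀ a : Int, Int.neg a = -a := fun _ => rfl
  have h := terms_rows hQ hs hts hx
  have h' : Q * (1 / s ^ 2 * H (termSum Q s ts) x) = Q / s ^ 2 * H (termSum Q s ts) x := by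
    ring
  rw [mul_sub, h', ← h, H_of_tot_one (vec Q P) hx, H_of_tot_one eN hx, hx]
  simp only [finV, rowsG, finR, dot_subTerms]
  generalize tvs ts 0 (Nh x) (Ch x) = t0
  generalize tvs ts 1 (Nh x) (Ch x) = t1
  generalize tvs ts 2 (Nh x) (Ch x) = t2
  generalize tvs ts 3 (Nh x) (Ch x) = t3
  generalize tvs ts 4 (Nh x) (Ch x) = t4
  generalize tvs ts 5 (Nh x) (Ch x) = t5
  generalize tvs ts 6 (Nh x) (Ch x) = t6
  generalize tvs ts 7 (Nh x) (Ch x) = t7
  generalize tvs ts 8 (Nh x) (Ch x) = t8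
  simp only [dot_six, List.getD_cons_zero, List.getD_cons_succ,
    List.getD_nil, e1, e2, e3, e4, vec_apply, val0, val1, val2, val3, val4, val5, eN,
    Matrix.cons_val_zero, Matrix.cons_val_one, Matrix.cons_val]
  generalize Nh x = N
  generalize Ch x = C
  push_cast
  field_simp
  ring

/-- The final inequality of a chain. -/
theorem finalG {Q S mu mm dl : Int} {P : List Int} {ts : List (List Int × List Int)} {K : ℕ}
    {C : FCert} {D a b : Int} (hQ : 0 < Q) (hS : 0 < S) (hD : 0 < D) (hab : a < b)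
    (hC : C.check ⟨rowsG S mu mm dl P ts, 8, 14, K⟩ D a b (baseTri 1 1) = true)
    {lam : ℝ} (hlam : lam ≠ 0) (ha : (a : ℝ) ≤ D * lam) (hb : D * lam ≤ b)
    (hts : ∀ t ∈ ts, t.1.length ≤ 5 ∧ t.2.getD 0 0 = 0) {x : V} (hx : Pos x) :
    1 / (S * lam ^ 4) * H (termSum Q lam ts) x ≤
      H (vec Q P) x + (mu / Q : ℝ) * H eN x - (mm / Q : ℝ) / lam ^ 2 * tot x -
        (dl / Q : ℝ) * tot x := by
  have hQ' : (0 : ℝ) < Q := by exact_mod_cast hQ
  have hS' : (0 : ℝ) < S := by exact_mod_cast hS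
  have hl2 : 0 < lam ^ 2 := by positivity
  have hl4 : 0 < lam ^ 4 := by positivity
  have key := H_nonneg_of_simplex (p := vec Q P + (mu / Q : ℝ) • eN -
    ((mm / Q : ℝ) / lam ^ 2) • ![1, 0, 0, 0, 0, 0] - (dl / Q : ℝ) • ![1, 0, 0, 0, 0, 0] -
    (1 / (S * lam ^ 4)) • termSum Q lam ts)
    (fun z hz ht => by
      have h := fin_nonneg (c := ⟨rowsG S mu mm dl P ts, 8, 14, K⟩)
        (by simp [rowsG]) C hD hab hC lam z ha hb hz ht
      rw [finV_rowsG P hQ'.ne' hlam hts ht] at h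
      have h2 := nonneg_of_mul_nonneg_right h hQ'
      simp only [H_add, H_sub, H_smul, H_tot]
      have h3 : S * (lam ^ 2 * (H (vec Q P) z + (mu / Q : ℝ) * H eN z -
          (dl / Q : ℝ) * tot z) - (mm / Q : ℝ) * tot z) - 1 / lam ^ 2 * H (termSum Q lam ts) z =
          (S * lam ^ 2) * (H (vec Q P) z + (mu / Q : ℝ) * H eN z -
            (mm / Q : ℝ) / lam ^ 2 * tot z - (dl / Q : ℝ) * tot z -
            1 / (S * lam ^ 4) * H (termSum Q lam ts) z) := by
        generalize H (termSum Q lam ts) z = A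
        generalize H (vec Q P) z = B
        generalize H eN z = E
        field_simp
        ring
      rw [h3] at h2
      exact nonneg_of_mul_nonneg_right h2 (by positivity)) hx
  simp only [H_add, H_sub, H_smul, H_tot] at key
  linarith

end Vale.Agent.P154
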