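import Vale.Agent.P154.V2PChain
import Vale.Agent.P154.V2RowsG

/-!
Brackets with chains of potentials for Poisson trees.
-/

namespace Vale.Agent.P154

open Filter Topology

namespace PCh

/-- the real pieces; the first one begins at the time `n0 / z` -/
noncomputable def toR (Q z : Int) : Int → List Piece → List RPc
  | _, [] => []
  | n0, p :: ps => ⟨p.c0.P.beta, p.c1.P.beta, vec Q p.D, p.c0.P.Wr, p.c1.P.Wr, p.c0.P.gr,
      p.c1.P.gr, ((p.n : ℝ) - n0) / z⟩ :: toR Q z p.n ps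

end PCh

/-- facts of a piece, certified at one value of `lam` -/
structure PcFact (lam : ℝ) (p : Piece) : Prop where
  pw0 : PW Pos (InK lam 1) p.c0.P.beta p.c0.P.Ur p.c0.P.Wr p.c0.P.gr
  pw1 : PW Pos (InK lam 1) p.c1.P.beta p.c1.P.Ur p.c1.P.Wr p.c1.P.gr
  n0 : ∀ x, InK lam 1 x → 0 ≤ H p.c0.P.Wr x
  n1 : ∀ x, InK lam 1 x → 0 ≤ H p.c1.P.Wr x

theorem PcFact.of {lam : ℝ} {p : Piece} (hQ0 : 0 < p.c0.P.Q) (hQ1 : 0 < p.c1.P.Q)
    (pw0 : PW Pos (InK lam 1) p.c0.P.beta p.c0.P.Ur p.c0.P.Wr p.c0.P.gr)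
    (pw1 : PW Pos (InK lam 1) p.c1.P.beta p.c1.P.Ur p.c1.P.Wr p.c1.P.gr)
    {K0 K1 : ℕ} {C0 C1 : FCert} {D a d : Int} (hD : 0 < D) (had : a < d)
    (h0 : C0.check (hFin p.c0.P.wL K0) D a d (baseTri 1 1) = true)
    (h1 : C1.check (hFin p.c1.P.wL K1) D a d (baseTri 1 1) = true)
    (ha : (a : ℝ) ≤ D * lam) (hd : D * lam ≤ d) : PcFact lam p :=
  ⟨pw0, pw1, fun x hx => by rw [Par2.Wr_eq]; exact hpos hQ0 hD had h0 ha hd hx,
    fun x hx => by rw [Par2.Wr_eq]; exact hpos hQ1 hD had h1 ha hd hx⟩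

namespace PCh

/-- the relations of a piece -/
structure PRel (z mn md Q n0 : Int) (p : Piece) : Prop where
  q0 : p.c0.P.Q = Q
  q1 : p.c1.P.Q = Q
  w0 : p.c0.P.W0 = 0
  w1 : p.c1.P.W0 = 0
  hn : n0 < p.n
  rD : ((p.n : ℝ) - n0) • vec Q p.D = (z : ℝ) • p.c0.P.beta - (z : ℝ) • p.c1.P.beta
  r0 : (md : ℝ) • p.c0.P.Ur + (mn : ℝ) • p.c0.P.gr =
    (md : ℝ) • p.c0.P.beta - (md : ℝ) • vec Q p.D
  r1 : (md : ℝ) • p.c1.P.Ur + (mn : ℝ) • p.c1.P.gr =
    (md : ℝ) • p.c1.P.beta - (md : ℝ) • vec Q p.D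

theorem pieceRel {z mn md Q n0 : Int} {p : Piece} (h : pieceOK z mn md Q n0 p = true) :
    PRel z mn md Q n0 p := by
  simp only [pieceOK, Bool.and_eq_true] at h
  obtain ⟨⟨⟨⟨⟨⟨⟨h1, h2⟩, h3⟩, h4⟩, h5⟩, h6⟩, h7⟩, h8⟩ := h
  have q0 := ieq_sound h1
  have q1 := ieq_sound h2
  have z0 : ∀ v : P6, ((0 : Int) : ℝ) • v = 0 := by intro v; simp
  have e5 : Int.sub p.n n0 = p.n - n0 := rfl
  have hn := pos?_sound h5
  rw [e5] at hn h6
  refine ⟨q0, q1, ieq_sound h3, ieq_sound h4, by omega, ?_, ?_, ?_⟩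
  · have e := congrArg (vec Q) (leqL_sound h6)
    rw [vec_lcL, vec_lcL, vec_nil, z0, add_zero, neg_cast, neg_smul, ← sub_eq_add_neg] at e
    rw [Par2.beta_eq, Par2.beta_eq, q0, q1, ← e]
    push_cast
    rfl
  · have e := congrArg (vec Q) (leqL_sound h7)
    rw [vec_lcL, vec_lcL, neg_cast, neg_smul, ← sub_eq_add_neg] at e
    rw [Par2.Ur_eq, Par2.gr_eq, Par2.beta_eq, q0]
    exact e
  · have e := congrArg (vec Q) (leqL_sound h8)
    rw [vec_lcL, vec_lcL, neg_cast, neg_smul, ← sub_eq_add_neg] at e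
    rw [Par2.Ur_eq, Par2.gr_eq, Par2.beta_eq, q1]
    exact e

theorem PRel.ok {z mn md Q n0 : Int} {p : Piece} (R : PRel z mn md Q n0 p) (hz : 0 < z)
    (hmd : 0 < md) {lam : ℝ} (hf : PcFact lam p) :
    RPc.OK lam ((mn : ℝ) / md) ⟨p.c0.P.beta, p.c1.P.beta, vec Q p.D, p.c0.P.Wr, p.c1.P.Wr,
      p.c0.P.gr, p.c1.P.gr, ((p.n : ℝ) - n0) / z⟩ := by
  have hz' : (0 : ℝ) < z := by exact_mod_cast hz
  have hmd' : (0 : ℝ) < md := by exact_mod_cast hmd
  have hn : (n0 : ℝ) < p.n := by exact_mod_cast R.hn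
  refine ⟨div_pos (by linarith) hz', ?_, ?_, ?_, ?_, ?_, hf.n0, hf.n1⟩
  · simp [Par2.beta]
  · simp [Par2.beta]
  · funext i
    have e := congrFun R.rD i
    simp only [Pi.smul_apply, Pi.sub_apply, smul_eq_mul] at e ⊢
    field_simp
    linarith
  · refine PW_congr hf.pw0 rfl ?_ rfl rfl
    funext i
    have e := congrFun R.r0 i
    simp only [Pi.smul_apply, Pi.sub_apply, Pi.add_apply, smul_eq_mul] at e ⊢
    field_simp
    linarith
  · refine PW_congr hf.pw1 rfl ?_ rfl rfl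
    funext i
    have e := congrFun R.r1 i
    simp only [Pi.smul_apply, Pi.sub_apply, Pi.add_apply, smul_eq_mul] at e ⊢
    field_simp
    linarith

theorem ch_of {z mn md Q : Int} (hz : 0 < z) (hmd : 0 < md) {lam : ℝ} :
    ∀ (ps : List Piece) (n0 : Int) (prev : List Int), piecesOK z mn md Q n0 prev ps = true →
      (∀ p ∈ ps, PcFact lam p) → Ch lam ((mn : ℝ) / md) (vec Q prev) (toR Q z n0 ps)
  | [], _, _, _, _ => trivial
  | p :: ps, n0, prev, h, hf => by
    simp only [piecesOK, Bool.and_eq_true] at h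
    obtain ⟨⟨h1, h2⟩, h3⟩ := h
    have R := pieceRel h1
    have ih := ch_of hz hmd ps p.n p.c1.P.bL h3 fun x hx => hf x (List.mem_cons_of_mem _ hx)
    refine ⟨?_, R.ok hz hmd (hf p List.mem_cons_self), ?_⟩
    · show p.c0.P.beta = vec Q prev
      rw [Par2.beta_eq, R.q0, leqL_sound h2]
    · show Ch lam ((mn : ℝ) / md) p.c1.P.beta (toR Q z p.n ps)
      rw [Par2.beta_eq, R.q1]
      exact ih

theorem inLast_of {Q z : Int} (hz : 0 < z) {x : ℝ} : ∀ (ps : List Piece) (n0 : Int), ps ≠ [] →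
    ((lastN n0 ps : ℝ) - lastDn n0 ps - n0) / z ≤ x → x ≤ ((lastN n0 ps : ℝ) - n0) / z →
      InLast (toR Q z n0 ps) x
  | [], _, h, _, _ => absurd rfl h
  | [p], n0, _, h1, h2 => by
    have e : lastDn n0 [p] = p.n - n0 := rfl
    have e' : lastN n0 [p] = p.n := rfl
    rw [e, e'] at h1
    rw [e'] at h2
    refine ⟨?_, h2⟩
    refine le_trans (le_of_eq ?_) h1
    push_cast
    ring
  | p :: q :: ps, n0, _, h1, h2 => by
    have hz' : (0 : ℝ) < z := by exact_mod_cast hz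
    have e : lastDn n0 (p :: q :: ps) = lastDn p.n (q :: ps) := rfl
    have e' : lastN n0 (p :: q :: ps) = lastN p.n (q :: ps) := rfl
    rw [e, e'] at h1
    rw [e'] at h2
    show InLast (toR Q z p.n (q :: ps)) (x - ((p.n : ℝ) - n0) / z)
    refine inLast_of hz (x := x - ((p.n : ℝ) - n0) / z) (q :: ps) p.n (by simp) ?_ ?_
    · rw [div_le_iff₀ hz'] at h1 ⊢
      rw [sub_mul, div_mul_cancel₀ _ hz'.ne']
      linarith
    · rw [le_div_iff₀ hz'] at h2 ⊢
      rw [sub_mul, div_mul_cancel₀ _ hz'.ne']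
      linarith

/-- the last difference is positive -/
theorem lastDn_pos {z mn md Q : Int} : ∀ (ps : List Piece) (n0 : Int) (prev : List Int),
    piecesOK z mn md Q n0 prev ps = true → 0 < lastDn n0 ps
  | [], _, _, _ => one_pos
  | [p], n0, prev, h => by
    simp only [piecesOK, Bool.and_eq_true] at h
    have R := pieceRel h.1.1
    have e : lastDn n0 [p] = p.n - n0 := rfl
    rw [e]
    have := R.hn
    omega
  | p :: q :: ps, n0, prev, h => by
    have e : lastDn n0 (p :: q :: ps) = lastDn p.n (q :: ps) := rfl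
    rw [e]
    rw [piecesOK, Bool.and_eq_true] at h
    exact lastDn_pos (q :: ps) p.n p.c1.P.bL h.2

theorem terms_ok {z mn md Q dn : Int} : ∀ (ps : List Piece) (n0 : Int) (prev : List Int),
    piecesOK z mn md Q n0 prev ps = true →
      ∀ t ∈ pieceTerms z dn n0 ps, t.1.length ≤ 5 ∧ t.2.getD 0 0 = 0
  | [], _, _, _ => by
    intro t ht
    simp [pieceTerms] at ht
  | [p], n0, prev, h => by
    simp only [piecesOK, Bool.and_eq_true] at h
    have R := pieceRel h.1.1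
    intro t ht
    simp only [pieceTerms, List.mem_cons, List.not_mem_nil, or_false] at ht
    rcases ht with rfl | rfl
    · refine ⟨by simp, ?_⟩
      simpa [Par2.wL] using R.w0
    · refine ⟨by simp, ?_⟩
      simp [lcL, Par2.wL, R.w0, R.w1]
  | p :: q :: ps, n0, prev, h => by
    rw [piecesOK, Bool.and_eq_true, Bool.and_eq_true] at h
    have R := pieceRel h.1.1
    intro t ht
    rw [pieceTerms, List.mem_cons] at ht
    rcases ht with rfl | ht
    · refine ⟨by simp, ?_⟩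
      simp [lcL, Par2.wL, R.w0, R.w1]
    · exact terms_ok (q :: ps) p.n p.c1.P.bL h.2 t ht
    · simp

theorem termSum_pieces {z mn md Q : Int} (hz : 0 < z) {s : ℝ} (hs : s ≠ 0) :
    ∀ (ps : List Piece) (n0 : Int) (prev : List Int), ps ≠ [] →
      piecesOK z mn md Q n0 prev ps = true →
      termSum Q s (pieceTerms z (lastDn n0 ps) n0 ps) =
        (2 * (z : ℝ) ^ 2 * (lastDn n0 ps : ℝ) * s ^ 4) •
          sc s (J (toR Q z n0 ps) (1 / s ^ 2 - (n0 : ℝ) / z))
  | [], _, _, h, _ => absurd rfl h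
  | [p], n0, prev, _, h => by
    simp only [piecesOK, Bool.and_eq_true] at h
    have R := pieceRel h.1.1
    have hz' : (0 : ℝ) < z := by exact_mod_cast hz
    have hn : (n0 : ℝ) < p.n := by exact_mod_cast R.hn
    have hn' : (p.n : ℝ) - n0 ≠ 0 := by linarith
    have e2 : ∀ a b : Int, Int.mul a b = a * b := fun _ _ => rfl
    have e4 : ∀ a : Int, Int.neg a = -a := fun _ => rfl
    have f0 : vec Q p.c0.P.wL = p.c0.P.Wr := by rw [Par2.Wr_eq, R.q0]
    have f1 : vec Q p.c1.P.wL = p.c1.P.Wr := by rw [Par2.Wr_eq, R.q1]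
    have e : lastDn n0 [p] = p.n - n0 := rfl
    rw [e]
    simp only [pieceTerms, termSum, toR, J, pl, vec_lcL, f0, f1, List.getD_cons_zero,
      List.getD_cons_succ, e2, e4]
    funext i
    have key : ∀ W0 W1 : P6, (2 * (z : ℝ) ^ 2 * ((p.n : ℝ) - n0) * s ^ 4) •
        sc s ((1 / s ^ 2 - (n0 : ℝ) / z) • W0 + ((1 / s ^ 2 - (n0 : ℝ) / z) ^ 2 /
          (2 * (((p.n : ℝ) - n0) / z))) • (W1 - W0)) =
        (2 * (z : ℝ) ^ 2 * ((p.n : ℝ) - n0) * s ^ 2 - 2 * z * ((p.n : ℝ) - n0) * n0 * s ^ 4) •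
          sc s W0 + ((z : ℝ) ^ 3 - 2 * z ^ 2 * n0 * s ^ 2 + z * n0 ^ 2 * s ^ 4) •
            sc s (W1 - W0) := by
      intro W0 W1
      rw [Facts.sc_add, Facts.sc_smul, Facts.sc_smul, smul_add, smul_smul, smul_smul]
      congr 2
      · field_simp
      · field_simp
        ring
    push_cast
    rw [key]
    have e5 : ((1 : Int) : ℝ) • p.c1.P.Wr + ((-1 : Int) : ℝ) • p.c0.P.Wr =
        p.c1.P.Wr - p.c0.P.Wr := by
      push_cast
      rw [one_smul, neg_smul, one_smul, sub_eq_add_neg]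
    push_cast at e5
    rw [e5]
    simp only [Pi.add_apply, Pi.smul_apply, smul_eq_mul, Pi.zero_apply]
    ring
  | p :: q :: ps, n0, prev, _, h => by
    rw [piecesOK, Bool.and_eq_true, Bool.and_eq_true] at h
    have R := pieceRel h.1.1
    have hz' : (0 : ℝ) < z := by exact_mod_cast hz
    have e2 : ∀ a b : Int, Int.mul a b = a * b := fun _ _ => rfl
    have e3 : ∀ a b : Int, Int.sub a b = a - b := fun _ _ => rfl
    have f0 : vec Q p.c0.P.wL = p.c0.P.Wr := by rw [Par2.Wr_eq, R.q0]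
    have f1 : vec Q p.c1.P.wL = p.c1.P.Wr := by rw [Par2.Wr_eq, R.q1]
    have ih := termSum_pieces (Q := Q) hz hs (q :: ps) p.n p.c1.P.bL (by simp) h.2
    have e : lastDn n0 (p :: q :: ps) = lastDn p.n (q :: ps) := rfl
    have ex : 1 / s ^ 2 - (n0 : ℝ) / z - ((p.n : ℝ) - n0) / z = 1 / s ^ 2 - (p.n : ℝ) / z := by
      field_simp
      ring
    rw [e]
    generalize lastDn p.n (q :: ps) = dn at *
    have eJ : J (toR Q z n0 (p :: q :: ps)) (1 / s ^ 2 - (n0 : ℝ) / z) =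
        ((((p.n : ℝ) - n0) / z) / 2) • (p.c0.P.Wr + p.c1.P.Wr) +
          J (toR Q z p.n (q :: ps)) (1 / s ^ 2 - (p.n : ℝ) / z) := by
      rw [← ex]
      rfl
    have et : pieceTerms z dn n0 (p :: q :: ps) =
        ([0, 0, 0, 0, Int.mul (Int.mul z dn) (Int.sub p.n n0)], lcL 1 p.c0.P.wL 1 p.c1.P.wL) ::
          pieceTerms z dn p.n (q :: ps) := rfl
    rw [eJ, et, termSum, ih, Facts.sc_add, smul_add, Facts.sc_smul, smul_smul]
    congr 1
    simp only [pl, vec_lcL, f0, f1, List.getD_cons_zero, List.getD_cons_succ, e2, e3]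
    have e5 : ((1 : Int) : ℝ) • p.c0.P.Wr + ((1 : Int) : ℝ) • p.c1.P.Wr =
        p.c0.P.Wr + p.c1.P.Wr := by
      push_cast
      rw [one_smul, one_smul]
    rw [e5]
    congr 1
    push_cast
    field_simp
    ring

/-- the final inequality of a chain of pieces -/
theorem final_pieces {z mn md Q mu mm dl : Int} {P : List Int} {ps : List Piece}
    (hz : 0 < z) (hQ : 0 < Q) (hne : ps ≠ []) (hok : piecesOK z mn md Q 0 P ps = true) {K : ℕ}
    {C : FCert} {D a b : Int} (hD : 0 < D) (hab : a < b)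
    (hC : C.check ⟨pieceRows z mu mm dl P ps, 8, 14, K⟩ D a b (baseTri 1 1) = true)
    {lam : ℝ} (hlam : lam ≠ 0) (ha : (a : ℝ) ≤ D * lam) (hb : D * lam ≤ b) {x : V}
    (hx : Pos x) :
    H (sc lam (J (toR Q z 0 ps) (1 / lam ^ 2))) x ≤
      H (vec Q P) x + (mu / Q : ℝ) * H eN x - (mm / Q : ℝ) / lam ^ 2 * tot x -
        (dl / Q : ℝ) * tot x := by
  have hdn := lastDn_pos ps 0 P hok
  have hS : 0 < Int.mul 2 (Int.mul (Int.mul z z) (lastDn 0 ps)) := by
    have e : Int.mul 2 (Int.mul (Int.mul z z) (lastDn 0 ps)) = 2 * (z * z * lastDn 0 ps) := rfl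
    rw [e]
    positivity
  have h := finalG (P := P) (ts := pieceTerms z (lastDn 0 ps) 0 ps) hQ hS hD hab hC hlam ha hb
    (terms_ok ps 0 P hok) hx
  refine le_trans (le_of_eq ?_) h
  rw [termSum_pieces hz hlam ps 0 P hne hok, H_smul]
  have e : ((Int.mul 2 (Int.mul (Int.mul z z) (lastDn 0 ps)) : Int) : ℝ) =
      2 * (z : ℝ) ^ 2 * (lastDn 0 ps : ℝ) := by
    have e : Int.mul 2 (Int.mul (Int.mul z z) (lastDn 0 ps)) = 2 * (z * z * lastDn 0 ps) := rfl
    rw [e]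
    push_cast
    ring
  have hz' : (0 : ℝ) < z := by exact_mod_cast hz
  have hdn' : (0 : ℝ) < (lastDn 0 ps : ℝ) := by exact_mod_cast hdn
  rw [e, Int.cast_zero, zero_div, sub_zero]
  generalize H (sc lam (J (toR Q z 0 ps) (1 / lam ^ 2))) x = A
  field_simp

/-! ### larger `m`, interpolation in `m` -/

theorem RPc.OK.mono {lam m m' : ℝ} {p : RPc} (h0 : -(1 / 2) ≤ lam) (h1 : lam ≤ 1)
    (ok : p.OK lam m) (g0 : ∀ x, Pos x → H p.g0 x ≤ 0) (g1 : ∀ x, Pos x → H p.g1 x ≤ 0)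
    (hm : m ≤ m') : p.OK lam m' := by
  have hT : ∀ y, InK lam 1 y → Pos y := fun y hy => Facts.inK_pos h0 h1 hy
  refine ⟨ok.L, ok.z0, ok.z1, ok.rel, ?_, ?_, ok.n0, ok.n1⟩
  · refine PW_mono_U ok.w0 (fun x hx => ?_) hT
    rw [H_sub, H_sub _ (m' • _), H_smul, H_smul]
    have := mul_le_mul_of_nonpos_right hm (g0 x hx)
    linarith
  · refine PW_mono_U ok.w1 (fun x hx => ?_) hT
    rw [H_sub, H_sub _ (m' • _), H_smul, H_smul]
    have := mul_le_mul_of_nonpos_right hm (g1 x hx)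
    linarith

theorem Ch.mono {lam m m' : ℝ} (h0 : -(1 / 2) ≤ lam) (h1 : lam ≤ 1) (hm : m ≤ m') :
    ∀ (ps : List RPc) (P : P6), Ch lam m P ps →
      (∀ p ∈ ps, (∀ x, Pos x → H p.g0 x ≤ 0) ∧ ∀ x, Pos x → H p.g1 x ≤ 0) → Ch lam m' P ps
  | [], _, _, _ => trivial
  | p :: ps, P, h, hg => by
    obtain ⟨e, ok, h'⟩ := h
    obtain ⟨g0, g1⟩ := hg p List.mem_cons_self
    exact ⟨e, ok.mono h0 h1 g0 g1 hm, Ch.mono h0 h1 hm ps p.P1 h' fun x hx =>
      hg x (List.mem_cons_of_mem _ hx)⟩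

/-- the same multipliers and lengths -/
structure Same (a b : RPc) : Prop where
  g0 : a.g0 = b.g0
  g1 : a.g1 = b.g1
  L : a.L = b.L

/-- interpolation between two pieces -/
noncomputable def mixR (t : ℝ) (a b : RPc) : RPc :=
  ⟨mix t a.P0 b.P0, mix t a.P1 b.P1, mix t a.D b.D, mix t a.W0 b.W0, mix t a.W1 b.W1, a.g0, a.g1,
    a.L⟩

theorem mixR_ok {lam ma mb t m : ℝ} {a b : RPc} (oa : a.OK lam ma) (ob : b.OK lam mb)
    (hs : Same a b) (t0 : 0 ≤ t) (t1 : t ≤ 1) (hm : m = (1 - t) * ma + t * mb) :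
    (mixR t a b).OK lam m := by
  have wb0 := ob.w0
  have wb1 := ob.w1
  rw [← hs.g0] at wb0
  rw [← hs.g1] at wb1
  refine ⟨oa.L, ?_, ?_, ?_, ?_, ?_, ?_, ?_⟩
  · show (mix t a.P0 b.P0) 0 = 0
    rw [mix_apply, oa.z0, ob.z0]; ring
  · show (mix t a.P1 b.P1) 0 = 0
    rw [mix_apply, oa.z1, ob.z1]; ring
  · show mix t a.P1 b.P1 = mix t a.P0 b.P0 - a.L • mix t a.D b.D
    rw [oa.rel, ob.rel, ← hs.L]
    funext i
    simp only [mix_apply, Pi.sub_apply, Pi.smul_apply, smul_eq_mul]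
    ring
  · refine PW_congr (PW_convex oa.w0 wb0 t0 t1) rfl ?_ rfl rfl
    funext i
    simp only [mixR, mix, Pi.sub_apply, Pi.add_apply, Pi.smul_apply, smul_eq_mul]
    rw [hm]
    ring
  · refine PW_congr (PW_convex oa.w1 wb1 t0 t1) rfl ?_ rfl rfl
    funext i
    simp only [mixR, mix, Pi.sub_apply, Pi.add_apply, Pi.smul_apply, smul_eq_mul]
    rw [hm]
    ring
  · intro x hx
    show 0 ≤ H (mix t a.W0 b.W0) x
    rw [H_mix]
    exact add_nonneg (mul_nonneg (sub_nonneg.2 t1) (oa.n0 x hx)) (mul_nonneg t0 (ob.n0 x hx))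
  · intro x hx
    show 0 ≤ H (mix t a.W1 b.W1) x
    rw [H_mix]
    exact add_nonneg (mul_nonneg (sub_nonneg.2 t1) (oa.n1 x hx)) (mul_nonneg t0 (ob.n1 x hx))

/-- interpolation between two lists of pieces -/
noncomputable def mixL (t : ℝ) : List RPc → List RPc → List RPc
  | a :: as, b :: bs => mixR t a b :: mixL t as bs
  | _, _ => []

/-- the same multipliers and lengths -/
def SameL : List RPc → List RPc → Prop
  | [], [] => True
  | a :: as, b :: bs => Same a b ∧ SameL as bs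
  | _, _ => False

theorem ch_mix {lam ma mb t m : ℝ} (t0 : 0 ≤ t) (t1 : t ≤ 1) (hm : m = (1 - t) * ma + t * mb) :
    ∀ (as bs : List RPc) (Pa Pb : P6), SameL as bs → Ch lam ma Pa as → Ch lam mb Pb bs →
      Ch lam m (mix t Pa Pb) (mixL t as bs)
  | [], [], _, _, _, _, _ => trivial
  | a :: as, b :: bs, Pa, Pb, hs, ha, hb => by
    obtain ⟨s1, s2⟩ := hs
    obtain ⟨ea, oa, ha'⟩ := ha
    obtain ⟨eb, ob, hb'⟩ := hb
    refine ⟨?_, mixR_ok oa ob s1 t0 t1 hm, ch_mix t0 t1 hm as bs a.P1 b.P1 s2 ha' hb'⟩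
    rw [← ea, ← eb]
    rfl
  | [], _ :: _, _, _, hs, _, _ => absurd hs not_false
  | _ :: _, [], _, _, hs, _, _ => absurd hs not_false

theorem J_mix (t : ℝ) : ∀ (as bs : List RPc) (x : ℝ), SameL as bs →
    J (mixL t as bs) x = mix t (J as x) (J bs x)
  | [], [], x, _ => by
    simp [J, mixL, mix]
  | [a], [b], x, hs => by
    show x • mix t a.W0 b.W0 + (x ^ 2 / (2 * a.L)) • (mix t a.W1 b.W1 - mix t a.W0 b.W0) =
      mix t (x • a.W0 + (x ^ 2 / (2 * a.L)) • (a.W1 - a.W0))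
        (x • b.W0 + (x ^ 2 / (2 * b.L)) • (b.W1 - b.W0))
    rw [← hs.1.L]
    funext i
    simp only [mix, Pi.sub_apply, Pi.add_apply, Pi.smul_apply, smul_eq_mul]
    ring
  | a :: a' :: as, b :: b' :: bs, x, hs => by
    have ih := J_mix t (a' :: as) (b' :: bs) (x - a.L) hs.2
    show (a.L / 2) • (mix t a.W0 b.W0 + mix t a.W1 b.W1) +
      J (mixL t (a' :: as) (b' :: bs)) (x - a.L) =
        mix t ((a.L / 2) • (a.W0 + a.W1) + J (a' :: as) (x - a.L))
          ((b.L / 2) • (b.W0 + b.W1) + J (b' :: bs) (x - b.L))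
    rw [ih, ← hs.1.L]
    funext i
    simp only [mix, Pi.add_apply, Pi.smul_apply, smul_eq_mul]
    ring
  | [], _ :: _, _, hs => absurd hs not_false
  | _ :: _, [], _, hs => absurd hs not_false
  | [_], _ :: _ :: _, _, hs => absurd hs.2 not_false
  | _ :: _ :: _, [_], _, hs => absurd hs.2 not_false

theorem inLast_mix (t : ℝ) : ∀ (as bs : List RPc) (x : ℝ), SameL as bs → InLast as x →
    InLast (mixL t as bs) x
  | [], _, _, _, h => absurd h not_false
  | [a], [b], x, _, h => h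
  | a :: a' :: as, b :: b' :: bs, x, hs, h => inLast_mix t (a' :: as) (b' :: bs) (x - a.L) hs.2 h
  | _ :: _, [], _, hs, _ => absurd hs not_false
  | [_], _ :: _ :: _, _, hs, _ => absurd hs.2 not_false
  | _ :: _ :: _, [_], _, hs, _ => absurd hs.2 not_false

theorem sameL_of {z Q mna mda mnb mdb : Int} : ∀ (as bs : List Piece) (n0 : Int)
    (pa pb : List Int), samePG as bs = true → piecesOK z mna mda Q n0 pa as = true →
      piecesOK z mnb mdb Q n0 pb bs = true → SameL (toR Q z n0 as) (toR Q z n0 bs)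
  | [], [], _, _, _, _, _, _ => trivial
  | a :: as, b :: bs, n0, pa, pb, hs, ha, hb => by
    simp only [samePG, Bool.and_eq_true] at hs
    simp only [piecesOK, Bool.and_eq_true] at ha hb
    obtain ⟨⟨⟨s1, s2⟩, s3⟩, s4⟩ := hs
    have Ra := pieceRel ha.1.1
    have Rb := pieceRel hb.1.1
    have en := ieq_sound s3
    refine ⟨⟨?_, ?_, ?_⟩, ?_⟩
    · show a.c0.P.gr = b.c0.P.gr
      rw [Par2.gr_eq, Par2.gr_eq, Ra.q0, Rb.q0, leqL_sound s1]
    · show a.c1.P.gr = b.c1.P.gr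
      rw [Par2.gr_eq, Par2.gr_eq, Ra.q1, Rb.q1, leqL_sound s2]
    · show ((a.n : ℝ) - n0) / z = ((b.n : ℝ) - n0) / z
      rw [en]
    · show SameL (toR Q z a.n as) (toR Q z b.n bs)
      rw [en]
      have ha2 := ha.2
      rw [en] at ha2
      exact sameL_of as bs b.n _ _ s4 ha2 hb.2
  | [], _ :: _, _, _, _, hs, _, _ => absurd hs (by simp [samePG])
  | _ :: _, [], _, _, _, hs, _, _ => absurd hs (by simp [samePG])

theorem lastN_same : ∀ (as bs : List Piece) (n0 : Int), samePG as bs = true →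
    lastN n0 as = lastN n0 bs ∧ lastDn n0 as = lastDn n0 bs
  | [], [], _, _ => ⟨rfl, rfl⟩
  | [a], [b], n0, hs => by
    simp only [samePG, Bool.and_eq_true] at hs
    have en := ieq_sound hs.1.2
    exact ⟨en, congrArg (fun n => Int.sub n n0) en⟩
  | a :: a' :: as, b :: b' :: bs, n0, hs => by
    rw [samePG, Bool.and_eq_true, Bool.and_eq_true] at hs
    have en := ieq_sound hs.1.2
    have ih := lastN_same (a' :: as) (b' :: bs) b.n hs.2
    have e1 : lastN n0 (a :: a' :: as) = lastN a.n (a' :: as) := rfl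
    have e2 : lastN n0 (b :: b' :: bs) = lastN b.n (b' :: bs) := rfl
    have e3 : lastDn n0 (a :: a' :: as) = lastDn a.n (a' :: as) := rfl
    have e4 : lastDn n0 (b :: b' :: bs) = lastDn b.n (b' :: bs) := rfl
    rw [e1, e2, e3, e4, en]
    exact ih
  | [], _ :: _, _, hs => absurd hs (by simp [samePG])
  | _ :: _, [], _, hs => absurd hs (by simp [samePG])
  | [_], _ :: _ :: _, _, hs => absurd hs (by simp [samePG])
  | _ :: _ :: _, [_], _, hs => absurd hs (by simp [samePG])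

end PCh

end Vale.Agent.P154
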