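import Vale.Agent.P154.V2Mid

/-!
Poisson trees: potentials which are piecewise linear in time.
-/

namespace Vale.Agent.P154

open scoped BigOperators
open Filter Topology

namespace PCh

/-! ### Poisson averages of bounded sequences -/

/-- `∑ s^k / k! a_k` -/
noncomputable def ef (a : ℕ → ℝ) (s : ℝ) : ℝ := ∑' k : ℕ, s ^ k / (k.factorial : ℝ) * a k

/-- Poisson average -/
noncomputable def pg (a : ℕ → ℝ) (s : ℝ) : ℝ := Real.exp (-s) * ef a s

theorem summable_ef {a : ℕ → ℝ} {M : ℝ} (ha : ∀ k, |a k| ≤ M) (s : ℝ) :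
    Summable fun k : ℕ => s ^ k / (k.factorial : ℝ) * a k := by
  have h := (Real.summable_pow_div_factorial |s|).mul_right M
  refine Summable.of_norm_bounded h fun k => ?_
  rw [Real.norm_eq_abs, abs_mul, abs_div, abs_pow, Nat.abs_cast]
  exact mul_le_mul_of_nonneg_left (ha k) (by positivity)

theorem hasDerivAt_ef {a : ℕ → ℝ} {M : ℝ} (ha : ∀ k, |a k| ≤ M) (s : ℝ) :
    HasDerivAt (ef a) (ef (fun k => a (k + 1)) s) s := by
  have hM : 0 ≤ M := (abs_nonneg _).trans (ha 0)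
  obtain ⟨R, hR⟩ : ∃ R : ℝ, R = |s| + 1 := ⟨_, rfl⟩
  have hR0 : 0 < R := by rw [hR]; positivity
  have hu : Summable fun k : ℕ => (k : ℝ) * R ^ (k - 1) / (k.factorial : ℝ) * M := by
    rw [← summable_nat_add_iff 1]
    refine ((Real.summable_pow_div_factorial R).mul_right M).congr fun k => ?_
    rw [Nat.factorial_succ, Nat.add_sub_cancel]
    push_cast
    have : (k : ℝ) + 1 ≠ 0 := by positivity
    have : (k.factorial : ℝ) ≠ 0 := by positivity
    field_simp
  have hs : s ∈ Metric.ball (0 : ℝ) R := by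
    rw [Metric.mem_ball, dist_zero_right, Real.norm_eq_abs, hR]
    linarith
  have key := hasDerivAt_tsum_of_isPreconnected (g := fun (k : ℕ) (y : ℝ) =>
      y ^ k / (k.factorial : ℝ) * a k) (g' := fun (k : ℕ) (y : ℝ) =>
      (k : ℝ) * y ^ (k - 1) / (k.factorial : ℝ) * a k) hu Metric.isOpen_ball
    (convex_ball (0 : ℝ) R).isPreconnected (fun k y _ => ?_) (fun k y hy => ?_) hs
    (summable_ef ha s) hs
  · have e : ∑' k : ℕ, (k : ℝ) * s ^ (k - 1) / (k.factorial : ℝ) * a k =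
        ef (fun k => a (k + 1)) s := by
      have hsum : Summable fun k : ℕ => (k : ℝ) * s ^ (k - 1) / (k.factorial : ℝ) * a k := by
        refine Summable.of_norm_bounded hu fun k => ?_
        rw [Real.norm_eq_abs, abs_mul, abs_div, abs_mul, abs_pow, Nat.abs_cast, Nat.abs_cast]
        have h1 : |s| ≤ R := by rw [hR]; linarith
        have := ha k
        gcongr
      rw [hsum.tsum_eq_zero_add]
      simp only [Nat.cast_zero, zero_mul, zero_div, zero_add, ef]
      refine tsum_congr fun k => ?_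
      rw [Nat.factorial_succ, Nat.add_sub_cancel]
      push_cast
      have : (k : ℝ) + 1 ≠ 0 := by positivity
      have : (k.factorial : ℝ) ≠ 0 := by positivity
      field_simp
    rw [← e]
    exact key
  · exact ((hasDerivAt_pow k y).div_const _).mul_const _
  · rw [Metric.mem_ball, dist_zero_right, Real.norm_eq_abs] at hy
    rw [Real.norm_eq_abs, abs_mul, abs_div, abs_mul, abs_pow, Nat.abs_cast, Nat.abs_cast]
    have := ha k
    gcongr

theorem hasDerivAt_pg {a : ℕ → ℝ} {M : ℝ} (ha : ∀ k, |a k| ≤ M) (s : ℝ) :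
    HasDerivAt (pg a) (pg (fun k => a (k + 1)) s - pg a s) s := by
  have h1 : HasDerivAt (fun y : ℝ => Real.exp (-y)) (Real.exp (-s) * (-1)) s :=
    (hasDerivAt_neg s).exp
  have h2 := h1.mul (hasDerivAt_ef ha s)
  have e : pg (fun k => a (k + 1)) s - pg a s = Real.exp (-s) * (-1) * ef a s +
      Real.exp (-s) * ef (fun k => a (k + 1)) s := by
    rw [pg, pg]; ring
  rw [e]
  exact h2

theorem pg_zero (a : ℕ → ℝ) : pg a 0 = a 0 := by
  rw [pg, ef, tsum_eq_single 0]
  · simp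
  · intro k hk
    simp [hk]

theorem pg_mono {a b : ℕ → ℝ} {M N : ℝ} (ha : ∀ k, |a k| ≤ M) (hb : ∀ k, |b k| ≤ N)
    (h : ∀ k, a k ≤ b k) {s : ℝ} (hs : 0 ≤ s) : pg a s ≤ pg b s := by
  refine mul_le_mul_of_nonneg_left ?_ (Real.exp_pos _).le
  exact (summable_ef ha s).tsum_le_tsum
    (fun k => mul_le_mul_of_nonneg_left (h k) (by positivity)) (summable_ef hb s)

theorem pg_add {a b : ℕ → ℝ} {M N : ℝ} (ha : ∀ k, |a k| ≤ M) (hb : ∀ k, |b k| ≤ N) (s : ℝ) :
    pg (fun k => a k + b k) s = pg a s + pg b s := by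
  rw [pg, pg, pg, ← mul_add]
  congr 1
  rw [ef, ef, ef, ← (summable_ef ha s).tsum_add (summable_ef hb s)]
  exact tsum_congr fun k => by ring

theorem pg_smul (a : ℕ → ℝ) (c s : ℝ) : pg (fun k => c * a k) s = c * pg a s := by
  rw [pg, pg, mul_left_comm]
  congr 1
  rw [ef, ef, ← tsum_mul_left]
  exact tsum_congr fun k => by ring

theorem pg_const (c s : ℝ) : pg (fun _ => c) s = c := by
  rw [pg, ef, tsum_mul_right]
  have h : ∑' k : ℕ, s ^ k / (k.factorial : ℝ) = Real.exp s := by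
    rw [Real.exp_eq_exp_ℝ, NormedSpace.exp_eq_tsum_div]
  rw [h, ← mul_assoc, ← Real.exp_add, neg_add_cancel, Real.exp_zero, one_mul]

theorem pg_poisson (a : ℕ → ℝ) (s : ℝ) : ∑' k, poisson s k * a k = pg a s := by
  rw [pg, ef, ← tsum_mul_left]
  exact tsum_congr fun k => by rw [poisson]; ring

/-! ### one piece -/

theorem piece_le {a δ : ℕ → ℝ} {Ma Md : ℝ} (ha : ∀ k, |a k| ≤ Ma) (hδ : ∀ k, |δ k| ≤ Md)
    {L w0 w1 : ℝ} (hL : 0 < L) (h0 : ∀ k, a (k + 1) ≤ a k - δ k + w0)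
    (h1 : ∀ k, a (k + 1) - L * δ (k + 1) ≤ a k - L * δ k - δ k + w1)
    {σ x : ℝ} (hx : 0 ≤ x) (hx1 : x ≤ L) (hσ : x ≤ σ) :
    pg a σ ≤ pg (fun k => a k - x * δ k) (σ - x) + x * w0 + x ^ 2 / (2 * L) * (w1 - w0) := by
  obtain ⟨B, hB⟩ : ∃ B : ℝ → ℝ, B = fun y => pg a (σ - y) - y * pg δ (σ - y) + y * w0 +
    y ^ 2 / (2 * L) * (w1 - w0) := ⟨_, rfl⟩
  have hd : ∀ y, HasDerivAt B (-(pg (fun k => a (k + 1)) (σ - y) - pg a (σ - y)) -
      (pg δ (σ - y) - y * (pg (fun k => δ (k + 1)) (σ - y) - pg δ (σ - y))) + w0 +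
      y / L * (w1 - w0)) y := by
    intro y
    have hs : HasDerivAt (fun y : ℝ => σ - y) (-1) y := by
      simpa using (hasDerivAt_id y).const_sub σ
    have d1 : HasDerivAt (fun y => pg a (σ - y))
        ((pg (fun k => a (k + 1)) (σ - y) - pg a (σ - y)) * (-1)) y :=
      HasDerivAt.comp (h₂ := pg a) y (hasDerivAt_pg ha (σ - y)) hs
    have d2 : HasDerivAt (fun y => pg δ (σ - y))
        ((pg (fun k => δ (k + 1)) (σ - y) - pg δ (σ - y)) * (-1)) y :=
      HasDerivAt.comp (h₂ := pg δ) y (hasDerivAt_pg hδ (σ - y)) hs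
    have d3 := (hasDerivAt_id y).mul d2
    have d4 := (hasDerivAt_id y).mul_const w0
    have d5 := ((hasDerivAt_pow 2 y).div_const (2 * L)).mul_const (w1 - w0)
    have h := ((d1.sub d3).add d4).add d5
    rw [hB]
    refine h.congr_deriv ?_
    simp only [id]
    have : L ≠ 0 := hL.ne'
    field_simp
    ring
  have hmono : MonotoneOn B (Set.Icc 0 x) := by
    refine monotoneOn_of_deriv_nonneg (convex_Icc 0 x)
      (fun y _ => (hd y).continuousAt.continuousWithinAt)
      (fun y _ => (hd y).differentiableAt.differentiableWithinAt) fun y hy => ?_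
    rw [interior_Icc] at hy
    rw [(hd y).deriv]
    have hs0 : 0 ≤ σ - y := by linarith [hy.2]
    have t0 : 0 ≤ y / L := div_nonneg hy.1.le hL.le
    have t1 : y / L ≤ 1 := by rw [div_le_one hL]; linarith [hy.2]
    -- the pointwise inequality
    have hpt : ∀ k, a (k + 1) + (-y) * δ (k + 1) ≤
        (a k + (-y - 1) * δ k) + (w0 + y / L * (w1 - w0)) := by
      intro k
      have b0 := mul_le_mul_of_nonneg_left (h0 k) (sub_nonneg.2 t1)
      have b1 := mul_le_mul_of_nonneg_left (h1 k) t0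
      have e1 : (1 - y / L) * a (k + 1) + y / L * (a (k + 1) - L * δ (k + 1)) =
          a (k + 1) + (-y) * δ (k + 1) := by field_simp; ring
      have e2 : (1 - y / L) * (a k - δ k + w0) + y / L * (a k - L * δ k - δ k + w1) =
          (a k + (-y - 1) * δ k) + (w0 + y / L * (w1 - w0)) := by field_simp; ring
      linarith
    have bs : ∀ (c : ℝ) (k : ℕ), |c * δ k| ≤ |c| * Md := fun c k => by
      rw [abs_mul]; exact mul_le_mul_of_nonneg_left (hδ k) (abs_nonneg c)
    have key := pg_mono (a := fun k => a (k + 1) + (-y) * δ (k + 1))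
      (b := fun k => (a k + (-y - 1) * δ k) + (w0 + y / L * (w1 - w0)))
      (M := Ma + |-y| * Md) (N := (Ma + |-y - 1| * Md) + |w0 + y / L * (w1 - w0)|)
      (fun k => (abs_add_le _ _).trans (add_le_add (ha _) (bs _ _)))
      (fun k => (abs_add_le _ _).trans (add_le_add
        ((abs_add_le _ _).trans (add_le_add (ha _) (bs _ _))) le_rfl)) hpt hs0
    rw [pg_add (M := Ma) (N := |-y| * Md) (fun k => ha _) (fun k => bs _ _),
      pg_add (M := Ma + |-y - 1| * Md) (N := |w0 + y / L * (w1 - w0)|)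
        (fun k => (abs_add_le _ _).trans (add_le_add (ha _) (bs _ _))) (fun _ => le_rfl),
      pg_add (M := Ma) (N := |-y - 1| * Md) (fun k => ha _) (fun k => bs _ _), pg_const,
      pg_smul (fun k => δ (k + 1)), pg_smul δ] at key
    linarith
  have h := hmono (Set.left_mem_Icc.2 hx) (Set.right_mem_Icc.2 hx) hx
  rw [hB] at h
  simp only [sub_zero, zero_mul, add_zero] at h
  have e : pg (fun k => a k - x * δ k) (σ - x) = pg a (σ - x) - x * pg δ (σ - x) := by
    have : (fun k => a k - x * δ k) = fun k => a k + (-x) * δ k := by funext k; ring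
    rw [this, pg_add (M := Ma) (N := |-x| * Md) ha (fun k => by
      rw [abs_mul]; exact mul_le_mul_of_nonneg_left (hδ k) (abs_nonneg _)), pg_smul]
    ring
  rw [e]
  have z : (0 : ℝ) ^ 2 / (2 * L) * (w1 - w0) = 0 := by ring
  rw [z, add_zero] at h
  linarith

/-! ### chains of pieces at one value of `m` -/

/-- a piece of time: potentials at the end closer to the root (`P0`) and at the other end (`P1`),
slope `D`, length `L` -/
structure RPc where
  P0 : P6
  P1 : P6
  D : P6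
  W0 : P6
  W1 : P6
  g0 : P6
  g1 : P6
  L : ℝ

/-- the facts of a piece -/
structure RPc.OK (lam m : ℝ) (p : RPc) : Prop where
  L : 0 < p.L
  z0 : p.P0 0 = 0
  z1 : p.P1 0 = 0
  rel : p.P1 = p.P0 - p.L • p.D
  w0 : PW Pos (InK lam 1) p.P0 (p.P0 - p.D - m • p.g0) p.W0 p.g0
  w1 : PW Pos (InK lam 1) p.P1 (p.P1 - p.D - m • p.g1) p.W1 p.g1
  n0 : ∀ x, InK lam 1 x → 0 ≤ H p.W0 x
  n1 : ∀ x, InK lam 1 x → 0 ≤ H p.W1 x

/-- consecutive pieces, beginning with the potential `P` -/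
def Ch (lam m : ℝ) : P6 → List RPc → Prop
  | _, [] => True
  | P, p :: ps => p.P0 = P ∧ p.OK lam m ∧ Ch lam m p.P1 ps

/-- the integral of the vectors `W` up to the time `x`, which is in the last piece -/
noncomputable def J : List RPc → ℝ → P6
  | [], _ => 0
  | [p], x => x • p.W0 + (x ^ 2 / (2 * p.L)) • (p.W1 - p.W0)
  | p :: q :: ps, x => (p.L / 2) • (p.W0 + p.W1) + J (q :: ps) (x - p.L)

/-- the time `x` is in the last piece -/
def InLast : List RPc → ℝ → Prop
  | [], _ => False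
  | [p], x => 0 ≤ x ∧ x ≤ p.L
  | p :: q :: ps, x => InLast (q :: ps) (x - p.L)

section

variable {lam m : ℝ} {off : ℕ → ℝ}

theorem EM_sub (F : Facts lam off) (n : ℕ) (p q : P6) :
    EM lam off n (H (p - q)) = EM lam off n (H p) - EM lam off n (H q) := by
  have := F.EM_add n (p - q) q
  rw [sub_add_cancel] at this
  linarith

theorem part_nonneg {x L w0 w1 : ℝ} (hL : 0 < L) (h0 : 0 ≤ w0) (h1 : 0 ≤ w1) (hx : 0 ≤ x)
    (hx1 : x ≤ L) : 0 ≤ x * w0 + x ^ 2 / (2 * L) * (w1 - w0) := by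
  have e : x * w0 + x ^ 2 / (2 * L) * (w1 - w0) =
      x * ((1 - x / (2 * L)) * w0 + x / (2 * L) * w1) := by
    field_simp
    ring
  have h2 : x / (2 * L) ≤ 1 := by
    rw [div_le_one (by positivity)]; linarith
  rw [e]
  exact mul_nonneg hx (add_nonneg (mul_nonneg (sub_nonneg.2 h2) h0)
    (mul_nonneg (by positivity) h1))

theorem part_mono {c x L w0 w1 : ℝ} (hL : 0 < L) (h0 : 0 ≤ w0) (h1 : 0 ≤ w1) (hc : 0 ≤ c)
    (hcx : c ≤ x) (hx1 : x ≤ L) :
    c * w0 + c ^ 2 / (2 * L) * (w1 - w0) ≤ x * w0 + x ^ 2 / (2 * L) * (w1 - w0) := by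
  have e : x * w0 + x ^ 2 / (2 * L) * (w1 - w0) - (c * w0 + c ^ 2 / (2 * L) * (w1 - w0)) =
      (x - c) * ((1 - (x + c) / (2 * L)) * w0 + (x + c) / (2 * L) * w1) := by
    field_simp
    ring
  have h2 : (x + c) / (2 * L) ≤ 1 := by
    rw [div_le_one (by positivity)]; linarith
  have h3 : 0 ≤ (x + c) / (2 * L) := div_nonneg (by linarith) (by linarith)
  have h4 : 0 ≤ (x - c) * ((1 - (x + c) / (2 * L)) * w0 + (x + c) / (2 * L) * w1) :=
    mul_nonneg (sub_nonneg.2 hcx) (add_nonneg (mul_nonneg (sub_nonneg.2 h2) h0)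
      (mul_nonneg h3 h1))
  linarith

theorem EM_J_nonneg (F : Facts lam off) (n : ℕ) : ∀ (ps : List RPc) (P : P6), Ch lam m P ps →
    ∀ x, InLast ps x → 0 ≤ EM lam off n (H (J ps x))
  | [], _, _, _, h => absurd h not_false
  | [p], _, h, x, hx => by
    obtain ⟨-, ok, -⟩ := h
    rw [J, F.EM_add, F.EM_smul, F.EM_smul, EM_sub F]
    exact part_nonneg ok.L (F.EM_nonneg n _ ok.n0) (F.EM_nonneg n _ ok.n1) hx.1 hx.2
  | p :: q :: ps, _, h, x, hx => by
    obtain ⟨-, ok, h'⟩ := h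
    have ih := EM_J_nonneg F n (q :: ps) p.P1 h' (x - p.L) hx
    rw [J, F.EM_add, F.EM_smul, F.EM_add]
    have hL := ok.L
    have a0 := F.EM_nonneg n _ ok.n0
    have a1 := F.EM_nonneg n _ ok.n1
    have : 0 ≤ p.L / 2 * (EM lam off n (H p.W0) + EM lam off n (H p.W1)) := by positivity
    linarith

/-- one piece, for expectations -/
theorem pg_step (F : Facts lam off) (h0 : -(1 / 2) ≤ lam) (h1 : lam ≤ 1) (n : ℕ)
    (hm : m = lam ^ 2 * xs lam off n) {p : RPc} (ok : p.OK lam m) {c x : ℝ} (hx : 0 ≤ x)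
    (hx1 : x ≤ p.L) (hc : x ≤ c) :
    pg (fun k => EK lam off n k (H p.P0)) c ≤
      pg (fun k => EK lam off n k (H p.P0) - x * EK lam off n k (H p.D)) (c - x) +
        x * EM lam off n (H p.W0) +
          x ^ 2 / (2 * p.L) * (EM lam off n (H p.W1) - EM lam off n (H p.W0)) := by
  have e1 : ∀ k, EK lam off n k (H p.P1) =
      EK lam off n k (H p.P0) - p.L * EK lam off n k (H p.D) := by
    intro k
    rw [ok.rel, F.EK_sub, F.EK_smul]
  have s0 := F.step1 h0 h1 n hm ok.w0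
  have s1 := F.step1 h0 h1 n hm ok.w1
  simp only [e1] at s1
  exact piece_le (Ma := ∑ i, |p.P0 i|) (Md := ∑ i, |p.D i|) (fun k => F.EK_abs n k p.P0)
    (fun k => F.EK_abs n k p.D) ok.L s0 s1 hx hx1 hc

theorem RPc.OK.D0 {p : RPc} (ok : p.OK lam m) : p.D 0 = 0 := by
  have e := congrFun ok.rel 0
  simp only [Pi.sub_apply, Pi.smul_apply, smul_eq_mul, ok.z0, ok.z1] at e
  have hL := ok.L
  have : p.L * p.D 0 = 0 := by linarith
  exact (mul_eq_zero.1 this).resolve_left hL.ne'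

theorem chain_le (F : Facts lam off) (h0 : -(1 / 2) ≤ lam) (h1 : lam ≤ 1) (n : ℕ)
    (hm : m = lam ^ 2 * xs lam off n) : ∀ (ps : List RPc) (P : P6), Ch lam m P ps →
    ∀ c x, 0 ≤ c → c ≤ x → InLast ps x →
      pg (fun k => EK lam off n k (H P)) c ≤ EM lam off n (H (J ps x))
  | [], _, _, _, _, _, _, h => absurd h not_false
  | [p], P, h, c, x, hc, hcx, hx => by
    obtain ⟨rfl, ok, -⟩ := h
    have key := pg_step F h0 h1 n hm ok hc (hcx.trans hx.2) le_rfl
    rw [sub_self, pg_zero, F.EK_zero, F.EK_zero, ok.z0, ok.D0, mul_zero, sub_zero, zero_add] at key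
    rw [J, F.EM_add, F.EM_smul, F.EM_smul, EM_sub F]
    exact key.trans (part_mono ok.L (F.EM_nonneg n _ ok.n0) (F.EM_nonneg n _ ok.n1) hc hcx hx.2)
  | p :: q :: ps, P, h, c, x, hc, hcx, hx => by
    obtain ⟨rfl, ok, h'⟩ := h
    have hL := ok.L
    have a0 := F.EM_nonneg n _ ok.n0
    have a1 := F.EM_nonneg n _ ok.n1
    rw [J, F.EM_add, F.EM_smul, F.EM_add]
    have e2 : p.L * EM lam off n (H p.W0) +
        p.L ^ 2 / (2 * p.L) * (EM lam off n (H p.W1) - EM lam off n (H p.W0)) =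
        p.L / 2 * (EM lam off n (H p.W0) + EM lam off n (H p.W1)) := by
      field_simp
      ring
    rcases le_total c p.L with hcL | hcL
    · have key := pg_step F h0 h1 n hm ok hc hcL le_rfl
      rw [sub_self, pg_zero, F.EK_zero, F.EK_zero, ok.z0, ok.D0, mul_zero, sub_zero, zero_add]
        at key
      have k2 := part_mono hL a0 a1 hc hcL le_rfl
      have k3 := EM_J_nonneg F n (q :: ps) p.P1 h' (x - p.L) hx
      linarith
    · have key := pg_step F h0 h1 n hm ok hL.le le_rfl hcL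
      have e1 : (fun k => EK lam off n k (H p.P0) - p.L * EK lam off n k (H p.D)) =
          fun k => EK lam off n k (H p.P1) := by
        funext k
        rw [ok.rel, F.EK_sub, F.EK_smul]
      rw [e1] at key
      have ih := chain_le F h0 h1 n hm (q :: ps) p.P1 h' (c - p.L) (x - p.L) (by linarith)
        (by linarith) hx
      linarith

end

/-- the hypotheses on a bracket, at one value of `m` -/
structure BrP (lam m delta : ℝ) (P : P6) (ps : List RPc) : Prop where
  ch : Ch lam m P ps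
  last : InLast ps (1 / lam ^ 2)
  cl : ∃ mu : ℝ, ∀ x, Pos x → H (sc lam (J ps (1 / lam ^ 2))) x ≤
    H P x + mu * (H eN x - (m / lam ^ 2) * tot x) - delta * m ^ 2 * tot x

/-- bracket theorem, Poisson tree, chains -/
theorem bracket_chain {lam d : ℝ} (hlam : lam ≠ 0) (h0 : -(1 / 2) ≤ lam) (h1 : lam ≤ 1)
    (hd : 0 ≤ d) (hdl : d * lam ^ 2 ≤ 1) (F : Facts lam (poisson d)) {mlo mhi delta : ℝ}
    (hdel : 0 < delta) {P : ℝ → P6} {ps : ℝ → List RPc}
    (hP : ContinuousOn P (Set.Icc mlo mhi))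
    (hB : ∀ m ∈ Set.Icc mlo mhi, BrP lam m delta (P m) (ps m)) {n0 : ℕ}
    (hm : ∀ n, n0 ≤ n → lam ^ 2 * xs lam (poisson d) n ∈ Set.Icc mlo mhi) :
    Tendsto (xs lam (poisson d)) atTop (𝓝 0) := by
  have hl2 : 0 < lam ^ 2 := by positivity
  refine F.xs_tendsto hlam hdel hP hm fun n hn => ?_
  obtain ⟨m, hmdef⟩ : ∃ m, m = lam ^ 2 * xs lam (poisson d) n := ⟨_, rfl⟩
  rw [← hmdef]
  have B := hB m (by rw [hmdef]; exact hm n hn)
  obtain ⟨mu, hmu⟩ := B.cl
  have hdt : d ≤ 1 / lam ^ 2 := by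
    rw [le_div_iff₀ hl2]; exact hdl
  have c := chain_le F h0 h1 n hmdef (ps m) (P m) B.ch d (1 / lam ^ 2) hd hdt B.last
  rw [← pg_poisson, (F.EX_succ n (P m)).tsum_eq, F.EM_eq] at c
  refine c.trans ?_
  have e2 := F.EX_mono n (sc lam (J (ps m) (1 / lam ^ 2)))
    (P m + mu • (eN - (m / lam ^ 2) • ![1, 0, 0, 0, 0, 0]) -
      (delta * m ^ 2) • ![1, 0, 0, 0, 0, 0]) (by
      intro x hx
      rw [Facts.H_sub, Facts.H_add, Facts.H_smul', Facts.H_sub, Facts.H_smul', Facts.H_one,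
        Facts.H_smul', Facts.H_one]
      exact hmu x hx)
  refine e2.trans_eq ?_
  rw [F.EX_sub, F.EX_add, F.EX_smul, F.EX_sub, F.EX_smul, F.EX_one, F.EX_smul, F.EX_one]
  have : m / lam ^ 2 = xs lam (poisson d) n := by
    rw [hmdef]; field_simp
  rw [this]
  have hx : EX lam (poisson d) n (H eN) = xs lam (poisson d) n := rfl
  rw [hx]
  ring

end PCh

end Vale.Agent.P154
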