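import Vale.Agent.P154.V2Asm

/-!
Poisson trees: brackets that end below `lam ^ 2`, when one `xs` is already known to be small.
-/

namespace Vale.Agent.P154

open Filter Topology

/-- finitely many brackets `[c i, c (i+1)]`, `i < N`, and one value `lam ^ 2 * xs n1 ≤ c N`. -/
theorem brackets_part {lam : ℝ} {off : ℕ → ℝ} (F : Facts lam off) {N : ℕ} (hN : 0 < N)
    {c : ℕ → ℝ} (hc0 : c 0 ≤ 0) {n1 : ℕ} (hcN : lam ^ 2 * xs lam off n1 ≤ c N)
    (hbr : ∀ i < N, (∃ n0 : ℕ, ∀ n, n0 ≤ n → lam ^ 2 * xs lam off n ∈ Set.Icc (c i) (c (i + 1))) →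
      Tendsto (xs lam off) atTop (𝓝 0)) :
    Nonreconstruction 3 lam off := by
  refine F.nonreco ?_
  have hbdd : BddBelow (Set.range (xs lam off)) := ⟨0, by rintro _ ⟨n, rfl⟩; exact F.xs_nonneg n⟩
  have hlim := tendsto_atTop_ciInf F.xs_anti hbdd
  set x : ℝ := ⨅ n, xs lam off n with hx
  have hx0 : 0 ≤ x := le_ciInf F.xs_nonneg
  have hxle : ∀ n, x ≤ xs lam off n := fun n => ciInf_le hbdd n
  have hlm : Tendsto (fun n => lam ^ 2 * xs lam off n) atTop (𝓝 (lam ^ 2 * x)) :=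
    hlim.const_mul _
  have hsq : 0 ≤ lam ^ 2 := sq_nonneg lam
  have hle : ∀ n, n1 ≤ n → lam ^ 2 * xs lam off n ≤ c N := fun n hn =>
    le_trans (mul_le_mul_of_nonneg_left (F.xs_anti hn) hsq) hcN
  by_cases hex : ∃ i < N, c i ≤ lam ^ 2 * x ∧ (lam ^ 2 * x < c (i + 1) ∨ i + 1 = N)
  · obtain ⟨i, hi, hlo, hhi⟩ := hex
    refine hbr i hi ?_
    rcases hhi with hhi | hhi
    · obtain ⟨n0, hn0⟩ := eventually_atTop.1 (hlm.eventually (gt_mem_nhds hhi))
      exact ⟨n0, fun n hn => ⟨hlo.trans (mul_le_mul_of_nonneg_left (hxle n) hsq),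
        (hn0 n hn).le⟩⟩
    · refine ⟨n1, fun n hn => ⟨hlo.trans (mul_le_mul_of_nonneg_left (hxle n) hsq), ?_⟩⟩
      rw [hhi]; exact hle n hn
  · exfalso
    push Not at hex
    have hall : ∀ i < N, c i ≤ lam ^ 2 * x := by
      intro i
      induction i with
      | zero => intro _; exact hc0.trans (by positivity)
      | succ i ih =>
        intro hi
        exact (hex i (by omega) (ih (by omega))).1
    obtain ⟨M, rfl⟩ : ∃ M, N = M + 1 := ⟨N - 1, by omega⟩
    exact (hex M (by omega) (hall M (by omega))).2 rfl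

/-- a chain of brackets from `cur` to at least `top` -/
def Bkt (lam : ℝ) (off : ℕ → ℝ) (top : ℝ) : ℝ → List ℝ → Prop
  | cur, [] => top ≤ cur
  | cur, nxt :: l => Bk lam off cur nxt ∧ Bkt lam off top nxt l

theorem Bkt.get {lam : ℝ} {off : ℕ → ℝ} {top : ℝ} : ∀ {l : List ℝ} {cur : ℝ},
    Bkt lam off top cur l →
    (∀ i < l.length, Bk lam off ((cur :: l).getD i 0) ((cur :: l).getD (i + 1) 0)) ∧
      top ≤ (cur :: l).getD l.length 0
  | [], cur, h => ⟨fun i hi => absurd hi (by simp), h⟩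
  | nxt :: l, cur, h => by
    obtain ⟨h1, h2⟩ := h
    obtain ⟨h3, h4⟩ := Bkt.get h2
    refine ⟨fun i hi => ?_, ?_⟩
    · cases i with
      | zero => simpa using h1
      | succ i =>
        have := h3 i (by simpa using hi)
        rw [List.getD_cons_succ, List.getD_cons_succ]
        exact this
    · rw [List.length_cons, List.getD_cons_succ]
      exact h4

theorem nonrec_of_Bkt {lam : ℝ} {off : ℕ → ℝ} (F : Facts lam off) {l : List ℝ} {top : ℝ}
    (hl : l ≠ []) (h : Bkt lam off top 0 l) {n1 : ℕ} (h1 : lam ^ 2 * xs lam off n1 ≤ top) :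
    Nonreconstruction 3 lam off := by
  obtain ⟨h2, h3⟩ := h.get
  exact brackets_part F (List.length_pos_iff.2 hl) (c := fun i => ((0 : ℝ) :: l).getD i 0)
    (by simp) (h1.trans h3) h2

/-- like `listOK`; the end of the last bracket is at least `lam ^ 2 * tn / td` -/
def listOKp (v : Iv) (tn td : Int) : Int → Int → List Brk → Bool
  | cn, cd, [] => decide (tn * v.hi2 * cd ≤ cn * (v.D * v.D) * td)
  | cn, cd, k :: ks => k.stepOK v false 0 cn cd && listOKp v tn td k.en k.ed ks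

theorem bkt_poisson {v : Iv} (hv : v.ok = true) {tn td : Int} (htn : 0 ≤ tn) (htd : 0 < td)
    {lam d : ℝ} (hl : v.mem lam) (hd : 0 ≤ d) (hdl : d * lam ^ 2 ≤ 1) :
    ∀ (l : List Brk) (cn cd : Int), 0 < cd →
    listOKp v tn td cn cd l = true → AllCert v false l →
    Bkt lam (poisson d) (lam ^ 2 * ((tn : ℝ) / td)) ((cn : ℝ) / cd)
      (l.map fun k => (k.en : ℝ) / k.ed)
  | [], cn, cd, hcd, h, _ => by
    simp only [listOKp, decide_eq_true_eq] at h
    have H := Iv.cons hv hl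
    have hD : (0 : ℝ) < v.D := by exact_mod_cast H.D
    have hcd' : (0 : ℝ) < cd := by exact_mod_cast hcd
    have htd' : (0 : ℝ) < td := by exact_mod_cast htd
    have htn' : (0 : ℝ) ≤ tn := by exact_mod_cast htn
    have h' : (tn : ℝ) * v.hi2 * cd ≤ cn * (v.D * v.D) * td := by exact_mod_cast h
    show lam ^ 2 * ((tn : ℝ) / td) ≤ (cn : ℝ) / cd
    rw [le_div_iff₀ hcd', ← mul_div_assoc, div_mul_eq_mul_div, div_le_iff₀ htd']
    have h2 := mul_le_mul_of_nonneg_left H.hi2 (mul_nonneg htn' hcd'.le)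
    have h3 : (v.D : ℝ) ^ 2 * (lam ^ 2 * tn * cd) ≤ v.D ^ 2 * (cn * td) := by nlinarith
    exact le_of_mul_le_mul_left h3 (by positivity)
  | k :: ks, cn, cd, hcd, h, hc => by
    rw [listOKp, Bool.and_eq_true] at h
    exact ⟨Brk.stepP hv hc.1 hcd h.1 hl hd hdl,
      bkt_poisson hv htn htd hl hd hdl ks k.en k.ed (Brk.ed_pos hc.1) h.2 hc.2⟩

/-- Poisson trees, `lam` in the interval, one `xs` at most `tn / td`. -/
theorem poisson_of_part {v : Iv} {l : List Brk} (hv : v.ok = true) {tn td : Int}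
    (ht : (decide (0 ≤ tn) && decide (0 < td) && !l.isEmpty && listOKp v tn td 0 1 l) = true)
    (hc : AllCert v false l) {lam : ℝ}
    (h1 : (v.a : ℝ) ≤ v.D * lam) (h2 : v.D * lam ≤ v.b) {d : ℝ}
    (hd : 0 ≤ d) (hdl : d * lam ^ 2 ≤ 1) {N : ℕ} (hN : xs lam (poisson d) N ≤ (tn : ℝ) / td) :
    Nonreconstruction 3 lam (poisson d) := by
  rw [Bool.and_eq_true, Bool.and_eq_true, Bool.and_eq_true, decide_eq_true_eq,
    decide_eq_true_eq] at ht
  obtain ⟨⟨⟨htn, htd⟩, hne⟩, hl⟩ := ht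
  have hm : v.mem lam := ⟨h1, h2⟩
  have H := Iv.cons hv hm
  have h := bkt_poisson hv htn htd hm hd hdl l 0 1 one_pos hl hc
  refine nonrec_of_Bkt (facts H.h0 H.h1.le (isOff_poisson hd))
    (l := l.map fun k => (k.en : ℝ) / k.ed) (top := lam ^ 2 * ((tn : ℝ) / td)) ?_
    (by simpa using h) (n1 := N) (mul_le_mul_of_nonneg_left hN (sq_nonneg lam))
  intro h0
  rw [List.map_eq_nil_iff] at h0
  subst h0
  simp at hne

end Vale.Agent.P154
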