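import Vale.Agent.P154.V2Brk

/-!
Soundness of the integer checks of the brackets.
-/

namespace Vale.Agent.P154

/-! ### integers -/

theorem ieq_sound {a b : Int} (h : ieq a b = true) : a = b := by
  have e : Int.sub a b = a - b := rfl
  rw [ieq, e] at h
  cases hc : a - b with
  | ofNat n =>
    rw [hc] at h
    have hn : n = 0 := Nat.eq_of_beq_eq_true h
    subst hn
    have : a - b = 0 := hc
    omega
  | negSucc n =>
    rw [hc] at h
    exact absurd h (by simp)

theorem pos?_sound {a : Int} (h : pos? a = true) : 0 < a := by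
  cases a with
  | ofNat n =>
    have hn : Nat.blt 0 n = true := h
    rw [Nat.blt_eq] at hn
    exact Int.ofNat_lt.2 hn
  | negSucc n => exact absurd h (by simp [pos?])

theorem nn?_sound {a : Int} (h : nn? a = true) : 0 ≤ a := by
  cases a with
  | ofNat n => exact Int.natCast_nonneg n
  | negSucc n => exact absurd h (by simp [nn?])

theorem leqL_sound : ∀ {a b : List Int}, leqL a b = true → a = b
  | [], [], _ => rfl
  | a :: as, b :: bs, h => by
    rw [leqL, Bool.and_eq_true] at h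
    rw [ieq_sound h.1, leqL_sound h.2]
  | [], _ :: _, h => absurd h (by simp [leqL])
  | _ :: _, [], h => absurd h (by simp [leqL])

/-! ### vectors -/

theorem vec_apply (Q : Int) (l : List Int) (i : Fin 6) :
    vec Q l i = ((l.getD i.val 0 : Int) : ℝ) / Q := rfl

theorem val0 : ((0 : Fin 6) : ℕ) = 0 := rfl
theorem val1 : ((1 : Fin 6) : ℕ) = 1 := rfl
theorem val2 : ((2 : Fin 6) : ℕ) = 2 := rfl
theorem val3 : ((3 : Fin 6) : ℕ) = 3 := rfl
theorem val4 : ((4 : Fin 6) : ℕ) = 4 := rfl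
theorem val5 : ((5 : Fin 6) : ℕ) = 5 := rfl

theorem vec_lcL (Q a b : Int) (x y : List Int) :
    vec Q (lcL a x b y) = (a : ℝ) • vec Q x + (b : ℝ) • vec Q y := by
  have e1 : ∀ a b : Int, Int.add a b = a + b := fun _ _ => rfl
  have e2 : ∀ a b : Int, Int.mul a b = a * b := fun _ _ => rfl
  funext i
  simp only [Pi.add_apply, Pi.smul_apply, smul_eq_mul, vec_apply]
  fin_cases i <;> simp only [lcL, e1, e2, List.getD_cons_zero, List.getD_cons_succ] <;>
    push_cast <;> ring

theorem vec_nil (Q : Int) : vec Q [] = 0 := by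
  funext i
  rw [vec_apply]
  simp

theorem vec_neg (Q : Int) (l : List Int) : vec Q (l.map Int.neg) = - vec Q l := by
  funext i
  rw [Pi.neg_apply, vec_apply, vec_apply]
  have e : (l.map Int.neg).getD i.val 0 = Int.neg (l.getD i.val 0) := by
    rw [List.getD_eq_getElem?_getD, List.getD_eq_getElem?_getD, List.getElem?_map]
    cases l[i.val]? with
    | none => rfl
    | some a => rfl
  rw [e]
  have e2 : ∀ a : Int, Int.neg a = -a := fun _ => rfl
  rw [e2]
  push_cast
  ring

theorem Par2.beta_eq (P : Par2) : P.beta = vec P.Q P.bL := by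
  have e1 : (Int.add P.b3 P.b5) = P.b3 + P.b5 := rfl
  funext i
  rw [vec_apply, Par2.bL, e1]
  fin_cases i <;> simp [Par2.beta]

theorem Par2.Ur_eq (P : Par2) : P.Ur = vec P.Q P.uL := by
  funext i
  rw [vec_apply]
  fin_cases i <;> simp [Par2.Ur, Par2.uL]

theorem Par2.Wr_eq (P : Par2) : P.Wr = vec P.Q P.wL := by
  funext i
  rw [vec_apply]
  fin_cases i <;> simp [Par2.Wr, Par2.wL]

theorem Par2.gr_eq (P : Par2) : P.gr = vec P.Q P.gL := by
  funext i
  rw [vec_apply]
  fin_cases i <;> simp [Par2.gr, Par2.gL]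

/-! ### homogeneity -/

/-- nonnegativity on the simplex suffices -/
theorem H_nonneg_of_simplex {p : P6} (h : ∀ x, Pos x → tot x = 1 → 0 ≤ H p x) {x : V}
    (hx : Pos x) : 0 ≤ H p x := by
  have ht : 0 ≤ tot x := Cvx.tot_nn hx
  rcases ht.eq_or_lt with h0 | h0
  · have e0 : x = fun _ => 0 := by
      have h1 := hx 0
      have h2 := hx 1
      have h3 := hx 2
      have h4 : x 0 + x 1 + x 2 = 0 := h0.symm
      funext i
      fin_cases i
      · show x 0 = 0; linarith
      · show x 1 = 0; linarith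
      · show x 2 = 0; linarith
    rw [e0, H_of_zero]
  · have e0 : x = fun i => tot x * ((tot x)⁻¹ * x i) := by
      funext i
      field_simp
    have hx' : Pos (fun i => (tot x)⁻¹ * x i) := fun i => mul_nonneg (inv_nonneg.2 ht) (hx i)
    have ht' : tot (fun i => (tot x)⁻¹ * x i) = 1 := by
      rw [tot_hom, inv_mul_cancel₀ h0.ne']
    rw [e0, H_hom]
    exact mul_nonneg ht (h _ hx' ht')

theorem inK_one {lam : ℝ} {x : V} (hx : InK lam 1 x) : ∃ y : V, Pos y ∧ x = mvec lam y := by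
  obtain ⟨z, hz, rfl⟩ := hx
  refine ⟨z 0, hz 0, ?_⟩
  funext i
  simp

/-! ### the certificates -/

theorem finV_hRows (Q : Int) (hQ : (Q : ℝ) ≠ 0) (h : List Int) (s : ℝ) {x : V}
    (hx : tot x = 1) : finV (hRows h) s x = Q * H (sc s (vec Q h)) x := by
  rw [H_of_tot_one _ hx]
  simp only [sc, vec_apply, Matrix.cons_val_zero, Matrix.cons_val_one, Matrix.cons_val, finV,
    hRows, finR, six, dot, val0, val1, val2, val3, val4, val5]
  push_cast
  field_simp
  ring

/-- positivity on messages -/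
theorem hpos {Q : Int} (hQ : 0 < Q) {h : List Int} {K : ℕ} {C : FCert} {D a b : Int}
    (hD : 0 < D) (hab : a < b) (hC : C.check (hFin h K) D a b (baseTri 1 1) = true) {lam : ℝ}
    (h1 : (a : ℝ) ≤ D * lam) (h2 : D * lam ≤ b) {x : V} (hx : InK lam 1 x) :
    0 ≤ H (vec Q h) x := by
  obtain ⟨y, hy, rfl⟩ := inK_one hx
  rw [H_mvec]
  refine H_nonneg_of_simplex (fun z hz ht => ?_) hy
  have hQ' : (0 : ℝ) < Q := by exact_mod_cast hQ
  have h0 := fin_nonneg (c := hFin h K) (by simp [hFin, hRows]) C hD hab hC lam z h1 h2 hz ht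
  have e : (hFin h K).M = hRows h := rfl
  rw [e, finV_hRows Q hQ'.ne' h lam ht] at h0
  exact nonneg_of_mul_nonneg_right h0 hQ'

theorem finV_one (Q : Int) (hQ : (Q : ℝ) ≠ 0) (g : List Int) (hg : g.length ≤ 6) {x : V}
    (hx : tot x = 1) : finV [g] 0 x = Q * H (vec Q g) x := by
  rw [H_of_tot_one _ hx]
  match g, hg with
  | [], _ => simp [vec_nil, finV, finR, dot]
  | [a], _ =>
    simp only [vec_apply, finV, finR, six, dot]; norm_num; field_simp
  | [a, b], _ =>
    simp only [vec_apply, finV, finR, six, dot]; norm_num; field_simp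
  | [a, b, c], _ =>
    simp only [vec_apply, finV, finR, six, dot]; norm_num; field_simp; ring
  | [a, b, c, d], _ =>
    simp only [vec_apply, finV, finR, six, dot]; norm_num; field_simp; ring
  | [a, b, c, d, e], _ =>
    simp only [vec_apply, finV, finR, six, dot]; norm_num; field_simp; ring
  | [a, b, c, d, e, f], _ =>
    simp only [vec_apply, finV, finR, six, dot]; norm_num; field_simp; ring
  | _ :: _ :: _ :: _ :: _ :: _ :: _ :: _, h => exact absurd h (by simp)

/-- positivity on nonnegative vectors -/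
theorem gpos {Q : Int} (hQ : 0 < Q) {g : List Int} (hg : g.length ≤ 6) {K : ℕ} {C : FCert}
    (hC : C.check (gFin g K) 1 0 1 (baseTri 1 1) = true) {x : V} (hx : Pos x) :
    0 ≤ H (vec Q g) x := by
  refine H_nonneg_of_simplex (fun z hz ht => ?_) hx
  have hQ' : (0 : ℝ) < Q := by exact_mod_cast hQ
  have h0 := fin_nonneg (c := gFin g K) (by simp [gFin]) C one_pos one_pos hC 0 z
    (by simp) (by simp) hz ht
  have e : (gFin g K).M = [g] := rfl
  rw [e, finV_one Q hQ'.ne' g hg ht] at h0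
  exact nonneg_of_mul_nonneg_right h0 hQ'

/-- the rows of the final inequality -/
theorem finV_finRows {Q A B r mu mm dl e : Int} (P h1 h0 : List Int)
    (hQ : (Q : ℝ) ≠ 0) (hA : (A : ℝ) ≠ 0) {s tau : ℝ} (hs : s ≠ 0)
    (htau : (A : ℝ) * s ^ 2 * tau = B - r * s ^ 2) (hh1 : h1.getD 0 0 = 0)
    (hh0 : h0.getD 0 0 = 0) {x : V} (hx : tot x = 1) :
    finV (finRows A B r mu mm dl e P h1 h0) s x = A * Q * s ^ 2 *
      (H (vec Q P) x + (mu / Q : ℝ) * H eN x - (mm / Q : ℝ) / s ^ 2 * tot x -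
        (dl / Q : ℝ) * tot x - (e / Q : ℝ) * H eNN x -
        (1 / s ^ 2) * H (sc s (vec Q h1 + tau • (vec Q h0 - vec Q h1))) x) := by
  have e1 : ∀ a b : Int, Int.sub a b = a - b := fun _ _ => rfl
  have e2 : ∀ a b : Int, Int.mul a b = a * b := fun _ _ => rfl
  have e3 : ∀ a b : Int, Int.add a b = a + b := fun _ _ => rfl
  have e4 : ∀ a : Int, Int.neg a = -a := fun _ => rfl
  have ht : tau = (B - r * s ^ 2) / (A * s ^ 2) := by
    rw [eq_div_iff (by positivity)]
    linarith
  rw [H_of_tot_one _ hx, H_of_tot_one _ hx, H_of_tot_one _ hx, H_of_tot_one _ hx, hx]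
  simp only [sc, vec_apply, Matrix.cons_val_zero, Matrix.cons_val_one, Matrix.cons_val, finV,
    finRows, finR, six, dot, eN, eNN, Pi.add_apply, Pi.smul_apply, Pi.sub_apply, smul_eq_mul,
    e1, e2, e3, e4, hh1, hh0, val0, val1, val2, val3, val4, val5, ht]
  push_cast
  field_simp
  ring

/-- The final inequality. `tau = (B/A)/lam²` for `r = 0`, `tau = (B/A)(1/lam² - 1)` for `r = B`. -/
theorem final {Q A B r mu mm dl e : Int} {P h1 h0 : List Int} {K : ℕ} {C : FCert} {D a b : Int}
    (hQ : 0 < Q) (hA : 0 < A) (hD : 0 < D) (hab : a < b)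
    (hC : C.check ⟨finRows A B r mu mm dl e P h1 h0, 6, 12, K⟩ D a b (baseTri 1 1) = true)
    {lam tau : ℝ} (hlam : lam ≠ 0) (ha : (a : ℝ) ≤ D * lam) (hb : D * lam ≤ b)
    (htau : (A : ℝ) * lam ^ 2 * tau = B - r * lam ^ 2)
    (hh1 : h1.getD 0 0 = 0) (hh0 : h0.getD 0 0 = 0) {x : V} (hx : Pos x) :
    (1 / lam ^ 2) * H (sc lam (vec Q h1 + tau • (vec Q h0 - vec Q h1))) x ≤
      H (vec Q P) x + (mu / Q : ℝ) * H eN x - (mm / Q : ℝ) / lam ^ 2 * tot x -
        (dl / Q : ℝ) * tot x - (e / Q : ℝ) * H eNN x := by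
  have hQ' : (0 : ℝ) < Q := by exact_mod_cast hQ
  have hA' : (0 : ℝ) < A := by exact_mod_cast hA
  have hl2 : 0 < lam ^ 2 := by positivity
  have key := H_nonneg_of_simplex (p := vec Q P + (mu / Q : ℝ) • eN -
    ((mm / Q : ℝ) / lam ^ 2) • ![1, 0, 0, 0, 0, 0] - (dl / Q : ℝ) • ![1, 0, 0, 0, 0, 0] -
    (e / Q : ℝ) • eNN - (1 / lam ^ 2) • sc lam (vec Q h1 + tau • (vec Q h0 - vec Q h1)))
    (fun z hz ht => by
      have h := fin_nonneg (c := ⟨finRows A B r mu mm dl e P h1 h0, 6, 12, K⟩)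
        (by simp [finRows]) C hD hab hC lam z ha hb hz ht
      rw [finV_finRows P h1 h0 hQ'.ne' hA'.ne' hlam htau hh1 hh0 ht] at h
      have h2 := nonneg_of_mul_nonneg_right h (by positivity)
      simp only [H_add, H_sub, H_smul, H_tot]
      exact h2) hx
  simp only [H_add, H_sub, H_smul, H_tot] at key
  linarith

end Vale.Agent.P154
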