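import Vale.Agent.P154.V2Two
import Vale.Agent.P154.V2Real

/-!
# Soundness of the second kind of certificates
-/

namespace Vale.Agent.P154

open scoped BigOperators

/-! ### the matrix of a leaf -/

theorem length_addL : ∀ a b : List Int, (addL a b).length = max a.length b.length
  | [], b => by simp [addL]
  | a :: as, [] => by simp [addL]
  | a :: as, b :: bs => by simp [addL, length_addL as bs]

theorem length_mul1z (l : List Int) : (mul1z l).length = l.length + 1 := by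
  rw [mul1z, length_addL, List.length_cons]
  omega

/-- value of a polynomial with integer coefficients -/
noncomputable def polZ (a0 a1 a2 a3 a4 a5 : Int) (x : V) : ℝ :=
  a0 + a1 * Nh x + a2 * Ch x + a3 * Nh x ^ 2 + a4 * (Nh x * Ch x) + a5 * Ch x ^ 2

theorem mdot_base2 (P : Par2) (W : Int) (x y : V) :
    mdot (base2 P W) (monL (Nh x) (Ch x)) (monL (Nh y) (Ch y)) =
      2 * W * (polZ P.U0 P.U1 P.U2 P.U3 P.U4 P.U5 x + polZ P.W0 P.W1 P.W2 P.W3 P.W4 P.W5 y +
        polZ P.g0 P.g1 P.g2 P.g3 P.g4 P.g5 x * Nh y) := by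
  have e : ∀ a b : Int, Int.mul a b = a * b := fun _ _ => rfl
  have e' : ∀ a b : Int, Int.add a b = a + b := fun _ _ => rfl
  simp only [base2, monL, mons, List.map_cons, List.map_nil, mdot, dot, e, e', polZ]
  push_cast
  ring

theorem lin_table {x y : V} (hx : tot x = 1) (hy : tot y = 1) (i j : ℕ)
    (Ts : List (List (List Int))) (h : allId i j 0 Ts = true) (l : List Int)
    (hl : l.length ≤ Ts.length) :
    mdot (lin l Ts) (monL (Nh x) (Ch x)) (monL (Nh y) (Ch y)) =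
      (1 / 3) * sum6 (fun v => Ny (had x v) ^ i * Cy (had x v) ^ j * pv l (zz (had x v))) y := by
  rw [table_sum x y _ l Ts 0 (tabOK_of_allId i j x y hx hy Ts 0 h) hl]
  congr 1
  apply sum6_congr
  intro v
  rw [pow_zero, one_mul]

theorem mdot_leafM2 (P : Par2) (W : Int) {L : Leaf2} (hL : lenOK L = true) {x y : V}
    (hx : tot x = 1) (hy : tot y = 1) :
    mdot (leafM2 P W L) (monL (Nh x) (Ch x)) (monL (Nh y) (Ch y)) =
      2 * W * (polZ P.U0 P.U1 P.U2 P.U3 P.U4 P.U5 x + polZ P.W0 P.W1 P.W2 P.W3 P.W4 P.W5 y +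
        polZ P.g0 P.g1 P.g2 P.g3 P.g4 P.g5 x * Nh y) -
      (1 / 3) * sum6 (fun v => upper2 P L (had x v)) y := by
  obtain ⟨⟨h2, h3, h5⟩, e2, e3, e5⟩ := lenOK_spec hL
  rw [leafM2, mdot_addM, mdot_base2, mdot_smulM, mdot_addM, mdot_addM, mdot_addM, mdot_addM,
    mdot_addM,
    lin_table hx hy 1 0 tabN idN (lN P L)
      (by rw [lN, smulL_length, length_mul1z]; simp only [tabN, List.length_cons, List.length_nil]; omega),
    lin_table hx hy 0 1 tabC1 idC1 (lC P L)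
      (by rw [lC, smulL_length]; simp only [tabC1, List.length_cons, List.length_nil]; omega),
    lin_table hx hy 2 0 tabB idB (lNN P L)
      (by
        rw [lNN, length_addL, smulL_length, smulL_length, length_mul1z, length_mul1z]
        simp only [tabB, List.length_cons, List.length_nil]; omega),
    lin_table hx hy 1 1 tabC idC (lNC P L)
      (by
        rw [lNC, smulL_length, length_mul1z]
        simp only [tabC, List.length_cons, List.length_nil]; omega),
    lin_table hx hy 0 2 tabD idD (lCC P L)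
      (by rw [lCC, smulL_length]; simp only [tabD, List.length_cons, List.length_nil]; omega),
    lin_table hx hy 0 0 tabZ idZ (lZ P L)
      (by
        rw [lZ, length_addL, length_addL, smulL_length, smulL_length, smulL_length]
        simp only [tabZ, List.length_cons, List.length_nil]; omega)]
  simp only [sum6, upper2]
  push_cast
  ring


/-! ### the merge inequality at a pair -/

/-- coefficients of `U` -/
noncomputable def Par2.Ur (P : Par2) : P6 :=
  ![P.U0 / P.Q, P.U1 / P.Q, P.U2 / P.Q, P.U3 / P.Q, P.U4 / P.Q, P.U5 / P.Q]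
/-- coefficients of `W` -/
noncomputable def Par2.Wr (P : Par2) : P6 :=
  ![P.W0 / P.Q, P.W1 / P.Q, P.W2 / P.Q, P.W3 / P.Q, P.W4 / P.Q, P.W5 / P.Q]
/-- coefficients of `g` -/
noncomputable def Par2.gr (P : Par2) : P6 :=
  ![P.g0 / P.Q, P.g1 / P.Q, P.g2 / P.Q, P.g3 / P.Q, P.g4 / P.Q, P.g5 / P.Q]

theorem H_tot_one (Q a0 a1 a2 a3 a4 a5 : Int) {x : V} (hx : tot x = 1) :
    H ![(a0 : ℝ) / Q, a1 / Q, a2 / Q, a3 / Q, a4 / Q, a5 / Q] x = polZ a0 a1 a2 a3 a4 a5 x / Q := by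
  simp only [H, hx, polZ, Matrix.cons_val_zero, Matrix.cons_val_one, Matrix.cons_val]
  ring

/-- the merge inequality at a pair of points of total mass one -/
def MergeAt2 (P : Par2) (x y : V) : Prop :=
  (1 / 6) * sum6 (fun v => H P.beta (had x v)) y ≤
    (1 / 3) * H P.Ur x + (1 / 3) * H P.Wr y + (1 / 3) * (H P.gr x * Nh y)

theorem sum6_mono {f g : V → ℝ} {y : V}
    (h0 : f ![y 0, y 1, y 2] ≤ g ![y 0, y 1, y 2]) (h1 : f ![y 1, y 2, y 0] ≤ g ![y 1, y 2, y 0])
    (h2 : f ![y 2, y 0, y 1] ≤ g ![y 2, y 0, y 1]) (h3 : f ![y 0, y 2, y 1] ≤ g ![y 0, y 2, y 1])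
    (h4 : f ![y 1, y 0, y 2] ≤ g ![y 1, y 0, y 2]) (h5 : f ![y 2, y 1, y 0] ≤ g ![y 2, y 1, y 0]) :
    sum6 f y ≤ sum6 g y := by
  simp only [sum6]
  linarith

theorem pos_had3 {x : V} (hx : Pos x) {a b c : ℝ} (ha : 0 ≤ a) (hb : 0 ≤ b) (hc : 0 ≤ c) :
    Pos (had x ![a, b, c]) := by
  intro i
  fin_cases i
  · exact mul_nonneg (hx 0) ha
  · exact mul_nonneg (hx 1) hb
  · exact mul_nonneg (hx 2) hc

theorem leafOK2_sound {c : Cfg2} (hP : c.P.OK) (hW : 0 < c.W) (hZ : 0 < c.Zd) {L : Leaf2}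
    {A B : Tri} (h : leafOK2 c L A B = true) {x y : V} (hx0 : Pos x) (hy0 : Pos y) (hx : Srt x)
    (hy : Srt y) (hxU : InTriV A x) (hyV : InTriV B y) : MergeAt2 c.P x y := by
  simp only [leafOK2, fcTri_eq, band_eq, Bool.and_eq_true] at h
  obtain ⟨hlen, hall, hseg, htwo⟩ := h
  have hR := leafTwo_nonneg htwo hxU hyV
  rw [hm_one x, hm_one y, mdot_leafM2 c.P c.W hlen hx.tot hy.tot] at hR
  obtain ⟨z0, z1, z2, z3, z4, z5⟩ := allSeg_sound hlen hZ hseg hall hx.tot hy.tot hxU hyV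
  have hW' : (0 : ℝ) < c.W := by exact_mod_cast hW
  have hQ : (0 : ℝ) < c.P.Q := by exact_mod_cast hP.hQ
  have key : sum6 (fun v => 3 * c.P.Q * c.W * H c.P.beta (had x v)) y ≤
      sum6 (fun v => upper2 c.P L (had x v)) y :=
    sum6_mono (H_le_upper2 hP (pos_had3 hx0 (hy0 0) (hy0 1) (hy0 2)) z0)
      (H_le_upper2 hP (pos_had3 hx0 (hy0 1) (hy0 2) (hy0 0)) z1)
      (H_le_upper2 hP (pos_had3 hx0 (hy0 2) (hy0 0) (hy0 1)) z2)
      (H_le_upper2 hP (pos_had3 hx0 (hy0 0) (hy0 2) (hy0 1)) z3)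
      (H_le_upper2 hP (pos_had3 hx0 (hy0 1) (hy0 0) (hy0 2)) z4)
      (H_le_upper2 hP (pos_had3 hx0 (hy0 2) (hy0 1) (hy0 0)) z5)
  rw [sum6_smul] at key
  rw [MergeAt2, Par2.Ur, Par2.Wr, Par2.gr, H_tot_one _ _ _ _ _ _ _ hx.tot,
    H_tot_one _ _ _ _ _ _ _ hy.tot, H_tot_one _ _ _ _ _ _ _ hx.tot]
  set S := sum6 (fun v => H c.P.beta (had x v)) y
  set u := polZ c.P.U0 c.P.U1 c.P.U2 c.P.U3 c.P.U4 c.P.U5 x
  set w := polZ c.P.W0 c.P.W1 c.P.W2 c.P.W3 c.P.W4 c.P.W5 y
  set g := polZ c.P.g0 c.P.g1 c.P.g2 c.P.g3 c.P.g4 c.P.g5 x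
  have h1 : 3 * c.P.Q * c.W * S ≤ 6 * c.W * (u + w + g * Nh y) := by linarith
  have h2 : c.P.Q * S ≤ 2 * (u + w + g * Nh y) := by
    have h3 : (3 * (c.W : ℝ)) * (c.P.Q * S) ≤ (3 * (c.W : ℝ)) * (2 * (u + w + g * Nh y)) := by
      linarith
    exact le_of_mul_le_mul_left h3 (by positivity)
  have e : 1 / 3 * (u / c.P.Q) + 1 / 3 * (w / c.P.Q) + 1 / 3 * (g / c.P.Q * Nh y) =
      (u + w + g * Nh y) / (3 * c.P.Q) := by
    field_simp
  rw [e, le_div_iff₀ (by positivity)]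
  linarith

theorem check2_su {c : Cfg2} {e : Nat} {l r : Cert2} {U V : Tri}
    (h1 : l.check c (U.left e) V = true) (h2 : r.check c (U.right e) V = true) :
    (Cert2.su e l r).check c U V = true := by
  rw [Cert2.check, fcTri_eq, fcTri_eq, h1, h2]; rfl

theorem check2_sv {c : Cfg2} {e : Nat} {l r : Cert2} {U V : Tri}
    (h1 : l.check c U (V.left e) = true) (h2 : r.check c U (V.right e) = true) :
    (Cert2.sv e l r).check c U V = true := by
  rw [Cert2.check, fcTri_eq, fcTri_eq, h1, h2]; rfl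

theorem Cert2.check_sound {c : Cfg2} (hP : c.P.OK) (hW : 0 < c.W) (hZ : 0 < c.Zd) (C : Cert2)
    {A B : Tri} (h : C.check c A B = true) {x y : V} (hx0 : Pos x) (hy0 : Pos y) (hx : Srt x)
    (hy : Srt y) (hxU : InTriV A x) (hyV : InTriV B y) : MergeAt2 c.P x y := by
  induction C generalizing A B with
  | leaf L => exact leafOK2_sound hP hW hZ h hx0 hy0 hx hy hxU hyV
  | su e l r ihl ihr =>
    rw [Cert2.check, band_eq, Bool.and_eq_true, fcTri_eq, fcTri_eq] at h
    rcases inTri_split e hxU with h1 | h1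
    · exact ihl h.1 h1 hyV
    · exact ihr h.2 h1 hyV
  | sv e l r ihl ihr =>
    rw [Cert2.check, band_eq, Bool.and_eq_true, fcTri_eq, fcTri_eq] at h
    rcases inTri_split e hyV with h1 | h1
    · exact ihl h.1 hxU h1
    · exact ihr h.2 hxU h1

/-! ### arbitrary nonnegative vectors -/

/-- the sum over the permutations -/
noncomputable def SH (p : P6) (x y : V) : ℝ := ∑ g : Equiv.Perm (Fin 3), H p (had x (perm g y))

theorem SH_perm_left (p : P6) (σ : Equiv.Perm (Fin 3)) (x y : V) :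
    SH p (perm σ x) y = SH p x y := by
  have h : ∀ g : Equiv.Perm (Fin 3), H p (had (perm σ x) (perm g y)) =
      H p (had x (perm (g * σ⁻¹) y)) := by
    intro g
    rw [← H_perm σ p (had x (perm (g * σ⁻¹) y))]
    congr 1
    funext i
    simp [had, perm]
  rw [SH, Finset.sum_congr rfl (fun g _ => h g), SH]
  exact Equiv.sum_comp (Equiv.mulRight σ⁻¹) (fun g => H p (had x (perm g y)))

theorem SH_perm_right (p : P6) (τ : Equiv.Perm (Fin 3)) (x y : V) :
    SH p x (perm τ y) = SH p x y := by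
  have h : ∀ g : Equiv.Perm (Fin 3), H p (had x (perm g (perm τ y))) =
      H p (had x (perm (τ * g) y)) := by
    intro g
    congr 1
  rw [SH, Finset.sum_congr rfl (fun g _ => h g), SH]
  exact Equiv.sum_comp (Equiv.mulLeft τ) (fun g => H p (had x (perm g y)))

theorem SH_smul (p : P6) (s t : ℝ) (x y : V) :
    SH p (fun i => s * x i) (fun i => t * y i) = s * t * SH p x y := by
  rw [SH, SH, Finset.mul_sum]
  refine Finset.sum_congr rfl fun g _ => ?_
  rw [← H_hom (s * t)]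
  congr 1
  funext i
  simp only [had, perm]
  ring

theorem H_of_zero (p : P6) : H p (fun _ => 0) = 0 := by
  simp [H, tot, Nh, Ch]

theorem Cert2.pw {c : Cfg2} (hP : c.P.OK) (hW : 0 < c.W) (hZ : 0 < c.Zd) (C : Cert2) {TV : Tri}
    (h : C.check c (baseTri 1 1) TV = true) {SV : V → Prop}
    (hV : ∀ y, SV y → Pos y ∧ InDom TV y) : PW Pos SV c.P.beta c.P.Ur c.P.Wr c.P.gr := by
  intro x y hx0 hy
  obtain ⟨hy0, hyD⟩ := hV y hy
  have hxD : InDom (baseTri 1 1) x := inDom_full hx0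
  have htx : 0 ≤ tot x := by simp only [tot]; linarith [hx0 0, hx0 1, hx0 2]
  have hty : 0 ≤ tot y := by simp only [tot]; linarith [hy0 0, hy0 1, hy0 2]
  rcases eq_or_lt_of_le htx with h0 | htx'
  · have hx' := eq_zero_of_tot_eq hx0 h0.symm
    have e : ∀ g : Equiv.Perm (Fin 3), had x (perm g y) = fun _ => 0 := by
      intro g; rw [hx']; funext i; simp [had]
    simp only [e, ← h0]
    rw [hx']
    simp [H_of_zero]
  rcases eq_or_lt_of_le hty with h0 | hty'
  · have hy' := eq_zero_of_tot_eq hy0 h0.symm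
    have e : ∀ g : Equiv.Perm (Fin 3), had x (perm g y) = fun _ => 0 := by
      intro g; rw [hy']; funext i; simp [had, perm]
    simp only [e, ← h0]
    rw [hy']
    simp [H_of_zero]
  -- sort
  obtain ⟨σ, hσ0, hσ1⟩ := exists_sort x
  obtain ⟨τ, hτ0, hτ1⟩ := exists_sort y
  obtain ⟨x', hx'⟩ : ∃ x' : V, x' = fun i => (tot x)⁻¹ * perm σ x i := ⟨_, rfl⟩
  obtain ⟨y', hy'⟩ : ∃ y' : V, y' = fun i => (tot y)⁻¹ * perm τ y i := ⟨_, rfl⟩
  have hix : 0 < (tot x)⁻¹ := inv_pos.2 htx'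
  have hiy : 0 < (tot y)⁻¹ := inv_pos.2 hty'
  have totx' : tot x' = 1 := by
    have : tot x' = (tot x)⁻¹ * tot (perm σ x) := by rw [hx']; simp only [tot]; ring
    rw [this, tot_perm, inv_mul_cancel₀ htx'.ne']
  have toty' : tot y' = 1 := by
    have : tot y' = (tot y)⁻¹ * tot (perm τ y) := by rw [hy']; simp only [tot]; ring
    rw [this, tot_perm, inv_mul_cancel₀ hty'.ne']
  have sx : Srt x' := ⟨totx', by rw [hx']; exact mul_le_mul_of_nonneg_left hσ0 hix.le,
    by rw [hx']; exact mul_le_mul_of_nonneg_left hσ1 hix.le⟩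
  have sy : Srt y' := ⟨toty', by rw [hy']; exact mul_le_mul_of_nonneg_left hτ0 hiy.le,
    by rw [hy']; exact mul_le_mul_of_nonneg_left hτ1 hiy.le⟩
  have px : Pos x' := by
    intro i; rw [hx']; exact mul_nonneg hix.le (hx0 _)
  have py : Pos y' := by
    intro i; rw [hy']; exact mul_nonneg hiy.le (hy0 _)
  have bx : InTriV (baseTri 1 1) x' := by
    rw [hx']; rw [hx'] at sx
    exact hxD htx' σ sx
  have by' : InTriV TV y' := by
    rw [hy']; rw [hy'] at sy
    exact hyD hty' τ sy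
  have key := Cert2.check_sound hP hW hZ C h px py sx sy bx by'
  rw [MergeAt2, ← sum_perm_eq (fun v => H c.P.beta (had x' v)) y'] at key
  have e1 : x = fun i => tot x * perm σ⁻¹ x' i := by
    funext i
    simp only [perm, hx']
    rw [show σ (σ⁻¹ i) = i from σ.apply_symm_apply i]
    field_simp
  have e2 : y = fun i => tot y * perm τ⁻¹ y' i := by
    funext i
    simp only [perm, hy']
    rw [show τ (τ⁻¹ i) = i from τ.apply_symm_apply i]
    field_simp
  have e3 : ∀ p : P6, SH p x y = tot x * tot y * SH p x' y' := by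
    intro p
    conv_lhs => rw [e1, e2]
    rw [SH_smul, SH_perm_left, SH_perm_right]
  have e4 : ∀ p : P6, H p x = tot x * H p x' := by
    intro p
    conv_lhs => rw [e1]
    rw [H_hom, H_perm]
  have e5 : ∀ p : P6, H p y = tot y * H p y' := by
    intro p
    conv_lhs => rw [e2]
    rw [H_hom, H_perm]
  have e6 := e3 c.P.beta
  rw [SH, SH] at e6
  have e7 : Nh y / tot y = tot y * Nh y' := by
    have : Nh y = tot y ^ 2 * Nh y' := by
      conv_lhs => rw [e2]
      rw [Nh_hom, Nh_perm]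
    rw [this]
    field_simp
  rw [e6, e7, e4 c.P.Ur, e4 c.P.gr, e5 c.P.Wr]
  have h2 := mul_le_mul_of_nonneg_left key (show 0 ≤ tot x * tot y by positivity)
  linarith

/-! ### messages -/

theorem inDom_pos {lam : ℝ} {k d : Int} (hk : 0 < k) (hd : 0 < d) (h0 : 0 ≤ lam)
    (hkd : lam * d ≤ k) {x : V} (hx : InK lam 1 x) : InDom (baseTri k d) x := by
  obtain ⟨z, hz, rfl⟩ := hx
  intro h σ hs
  refine inTri_base hk hd hs ?_
  have hd' : (0 : ℝ) < d := by exact_mod_cast hd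
  have e : (fun i => ∏ c : Fin 1, mvec lam (z c) i) = mvec lam (z 0) := by
    funext i; simp
  rw [e] at h ⊢
  have ht : tot (mvec lam (z 0)) = tot (z 0) := by simp only [tot, mvec]; ring
  rw [ht] at h ⊢
  have h2 : (1 - lam) / 3 * tot (z 0) ≤ mvec lam (z 0) (σ 2) := by
    rw [mvec]
    have : 0 ≤ lam * z 0 (σ 2) := mul_nonneg h0 (hz 0 (σ 2))
    linarith
  have h3 : (1 - lam) / 3 ≤ (tot (z 0))⁻¹ * mvec lam (z 0) (σ 2) := by
    rw [inv_mul_eq_div, le_div_iff₀ h]; exact h2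
  show (d : ℝ) - k ≤ 3 * (d : ℝ) * ((tot (z 0))⁻¹ * mvec lam (z 0) (σ 2))
  calc (d : ℝ) - k ≤ d - lam * d := by linarith
    _ = 3 * (d : ℝ) * ((1 - lam) / 3) := by ring
    _ ≤ 3 * (d : ℝ) * ((tot (z 0))⁻¹ * mvec lam (z 0) (σ 2)) :=
        mul_le_mul_of_nonneg_left h3 (by positivity)

/-- ferromagnetic messages -/
theorem Cert2.pw_pos {c : Cfg2} (hP : c.P.OK) (hW : 0 < c.W) (hZ : 0 < c.Zd) (C : Cert2)
    {k d : Int} (hk : 0 < k) (hd : 0 < d) (h : C.check c (baseTri 1 1) (baseTri k d) = true)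
    {lam : ℝ} (h0 : 0 ≤ lam) (h1 : lam ≤ 1) (hkd : lam * d ≤ k) :
    PW Pos (InK lam 1) c.P.beta c.P.Ur c.P.Wr c.P.gr :=
  Cert2.pw hP hW hZ C h fun _ hy =>
    ⟨inK_nonneg (by linarith) h1 hy, inDom_pos hk hd h0 hkd hy⟩

/-- antiferromagnetic messages -/
theorem Cert2.pw_neg {c : Cfg2} (hP : c.P.OK) (hW : 0 < c.W) (hZ : 0 < c.Zd) (C : Cert2)
    {k d : Int} (hk : 0 < k) (hd : 0 < d) (h : C.check c (baseTri 1 1) (baseTriN k d) = true)
    {lam : ℝ} (h0 : -(1 / 2) ≤ lam) (h1 : lam ≤ 0) (hkd : -lam * d ≤ k) :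
    PW Pos (InK lam 1) c.P.beta c.P.Ur c.P.Wr c.P.gr :=
  Cert2.pw hP hW hZ C h fun _ hy =>
    ⟨inK_nonneg h0 (by linarith) hy, inDom_neg hk hd h1 hkd hy⟩

end Vale.Agent.P154
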