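import Vale.Agent.P154.V2Fast

/-!
Soundness of the packed two-level check.
-/

namespace Vale.Agent.P154

open Finset

/-! ### packed matrices -/

theorem packR_cons (a : Int) (r : List Int) : packR (a :: r) = a + 2 ^ 128 * packR r := by
  have h : packR (a :: r) = Int.add a (Int.mul (Int.ofNat (Nat.pow 2 128)) (packR r)) := rfl
  have h2 : (Int.ofNat (Nat.pow 2 128)) = 2 ^ 128 := by decide
  rw [h, h2]
  rfl

theorem packM_cons (r : List Int) (M : List (List Int)) :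
    packM (r :: M) = packR r + 2 ^ 1792 * packM M := by
  have h : packM (r :: M) = Int.add (packR r) (Int.mul (Int.ofNat (Nat.pow 2 1792)) (packM M)) :=
    rfl
  have h2 : (Int.ofNat (Nat.pow 2 1792)) = 2 ^ 1792 := by decide +kernel
  rw [h, h2]
  rfl

theorem packR_nil : packR [] = 0 := rfl

theorem packM_nil : packM [] = 0 := rfl

theorem packR_addL (a b : List Int) : packR (addL a b) = packR a + packR b := by
  induction a generalizing b with
  | nil => simp [addL, packR_nil]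
  | cons x xs ih =>
    cases b with
    | nil => simp [addL, packR_nil]
    | cons y ys =>
      rw [addL, packR_cons, packR_cons, packR_cons, ih]
      have : Int.add x y = x + y := rfl
      rw [this]
      ring

theorem packR_smulL (c : Int) (a : List Int) : packR (smulL c a) = c * packR a := by
  induction a with
  | nil => simp [smulL, packR_nil]
  | cons x xs ih =>
    rw [smulL, packR_cons, packR_cons, ih]
    have : Int.mul c x = c * x := rfl
    rw [this]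
    ring

theorem packM_addM (A B : List (List Int)) : packM (addM A B) = packM A + packM B := by
  induction A generalizing B with
  | nil => simp [addM, packM_nil]
  | cons x xs ih =>
    cases B with
    | nil => simp [addM, packM_nil]
    | cons y ys =>
      rw [addM, packM_cons, packM_cons, packM_cons, ih, packR_addL]
      ring

theorem packM_smulM (c : Int) (A : List (List Int)) : packM (smulM c A) = c * packM A := by
  induction A with
  | nil => simp [smulM, packM_nil]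
  | cons x xs ih =>
    rw [smulM, packM_cons, packM_cons, ih, packR_smulL]
    ring

theorem packM_lin (l : List Int) (Ts : List (List (List Int))) :
    packM (lin l Ts) = dotP l (Ts.map packM) := by
  induction l generalizing Ts with
  | nil => rfl
  | cons c cs ih =>
    cases Ts with
    | nil => rfl
    | cons T Ts =>
      rw [lin, packM_addM, packM_smulM, ih]
      rfl

theorem tpN_eq : tpN = tabN.map packM := by decide +kernel
theorem tpC1_eq : tpC1 = tabC1.map packM := by decide +kernel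
theorem tpB_eq : tpB = tabB.map packM := by decide +kernel
theorem tpC_eq : tpC = tabC.map packM := by decide +kernel
theorem tpD_eq : tpD = tabD.map packM := by decide +kernel
theorem tpZ_eq : tpZ = tabZ.map packM := by decide +kernel

/-! ### shapes and bounds -/

/-- at most 14 rows of length at most 14, entries at most `b` -/
structure Shp (M : List (List Int)) (b : ℕ) : Prop where
  len : M.length ≤ 14
  row : ∀ r ∈ M, r.length ≤ 14
  bd : ∀ r ∈ M, ∀ x ∈ r, x.natAbs ≤ b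

theorem mem_addL {a b : List Int} {p q : ℕ} (ha : ∀ x ∈ a, x.natAbs ≤ p)
    (hb : ∀ x ∈ b, x.natAbs ≤ q) : ∀ x ∈ addL a b, x.natAbs ≤ p + q := by
  induction a generalizing b with
  | nil => intro x hx; have := hb x (by simpa [addL] using hx); omega
  | cons y ys ih =>
    cases b with
    | nil => intro x hx; have := ha x (by simpa [addL] using hx); omega
    | cons z zs =>
      intro x hx
      rw [addL] at hx
      rcases List.mem_cons.1 hx with rfl | h'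
      · have h1 := ha y (by simp)
        have h2 := hb z (by simp)
        have h3 : (Int.add y z).natAbs ≤ y.natAbs + z.natAbs := Int.natAbs_add_le y z
        omega
      · exact ih (fun x hx => ha x (by simp [hx])) (fun x hx => hb x (by simp [hx])) x h'

theorem mem_smulL {a : List Int} {p : ℕ} (c : Int) (ha : ∀ x ∈ a, x.natAbs ≤ p) :
    ∀ x ∈ smulL c a, x.natAbs ≤ c.natAbs * p := by
  induction a with
  | nil => intro x hx; simp [smulL] at hx
  | cons y ys ih =>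
    intro x hx
    rw [smulL] at hx
    rcases List.mem_cons.1 hx with rfl | h'
    · have h1 := ha y (by simp)
      have h3 : (Int.mul c y).natAbs = c.natAbs * y.natAbs := Int.natAbs_mul c y
      rw [h3]
      exact Nat.mul_le_mul_left _ h1
    · exact ih (fun x hx => ha x (by simp [hx])) x h'

theorem length_smulL (c : Int) (a : List Int) : (smulL c a).length = a.length := by
  induction a with
  | nil => rfl
  | cons x xs ih => rw [smulL, List.length_cons, List.length_cons, ih]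

theorem Shp.add {A B : List (List Int)} {p q : ℕ} (hA : Shp A p) (hB : Shp B q) :
    Shp (addM A B) (p + q) := by
  have len : ∀ A B : List (List Int), (addM A B).length = max A.length B.length := by
    intro A
    induction A with
    | nil => intro B; simp [addM]
    | cons x xs ih =>
      intro B
      cases B with
      | nil => simp [addM]
      | cons y ys => simp [addM, ih]
  have rows : ∀ A B : List (List Int), (∀ r ∈ A, r.length ≤ 14) → (∀ r ∈ B, r.length ≤ 14) →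
      (∀ r ∈ A, ∀ x ∈ r, x.natAbs ≤ p) → (∀ r ∈ B, ∀ x ∈ r, x.natAbs ≤ q) →
      ∀ r ∈ addM A B, r.length ≤ 14 ∧ ∀ x ∈ r, x.natAbs ≤ p + q := by
    intro A
    induction A with
    | nil =>
      intro B _ h2 _ h4 r hr
      rw [addM] at hr
      exact ⟨h2 r hr, fun x hx => (h4 r hr x hx).trans (Nat.le_add_left _ _)⟩
    | cons a as ih =>
      intro B
      cases B with
      | nil =>
        intro h1 _ h3 _ r hr
        have hr' : r ∈ a :: as := by simpa [addM] using hr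
        exact ⟨h1 r hr', fun x hx => (h3 r hr' x hx).trans (Nat.le_add_right _ _)⟩
      | cons b bs =>
        intro h1 h2 h3 h4 r hr
        rw [addM] at hr
        rcases List.mem_cons.1 hr with rfl | h'
        · refine ⟨?_, mem_addL (h3 a (by simp)) (h4 b (by simp))⟩
          rw [length_addL']
          exact max_le (h1 a (by simp)) (h2 b (by simp))
        · exact ih bs (fun r hr => h1 r (by simp [hr])) (fun r hr => h2 r (by simp [hr]))
            (fun r hr => h3 r (by simp [hr])) (fun r hr => h4 r (by simp [hr])) r h'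
  refine ⟨?_, fun r hr => (rows A B hA.row hB.row hA.bd hB.bd r hr).1,
    fun r hr => (rows A B hA.row hB.row hA.bd hB.bd r hr).2⟩
  rw [len]
  exact max_le hA.len hB.len

theorem Shp.smul {A : List (List Int)} {p : ℕ} (c : Int) (hA : Shp A p) :
    Shp (smulM c A) (c.natAbs * p) := by
  obtain ⟨h1, h2, h3⟩ := hA
  have e : ∀ A : List (List Int), smulM c A = A.map (smulL c) := by
    intro A
    induction A with
    | nil => rfl
    | cons x xs ih => rw [smulM, List.map_cons, ih]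
  rw [e]
  refine ⟨by simpa using h1, ?_, ?_⟩
  · intro r hr
    obtain ⟨r', hr', rfl⟩ := List.mem_map.1 hr
    rw [length_smulL]
    exact h2 r' hr'
  · intro r hr
    obtain ⟨r', hr', rfl⟩ := List.mem_map.1 hr
    exact mem_smulL c (h3 r' hr')

theorem Shp.mono {A : List (List Int)} {p q : ℕ} (hA : Shp A p) (h : p ≤ q) : Shp A q :=
  ⟨hA.len, hA.row, fun r hr x hx => (hA.bd r hr x hx).trans h⟩

theorem Shp.lin {Ts : List (List (List Int))} {t : ℕ} (hT : ∀ T ∈ Ts, Shp T t) (l : List Int) :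
    Shp (lin l Ts) (t * absF l) := by
  induction l generalizing Ts with
  | nil => exact ⟨by simp [Vale.Agent.P154.lin], by simp [Vale.Agent.P154.lin],
      by simp [Vale.Agent.P154.lin]⟩
  | cons c cs ih =>
    cases Ts with
    | nil => exact ⟨by simp [Vale.Agent.P154.lin], by simp [Vale.Agent.P154.lin],
        by simp [Vale.Agent.P154.lin]⟩
    | cons T Ts =>
      rw [Vale.Agent.P154.lin]
      refine ((Shp.smul c (hT T (by simp))).add (ih (fun T hT' => hT T (by simp [hT'])))).mono ?_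
      rw [absF_cons]
      exact le_of_eq (by ring)

def shpB (t : Nat) (T : List (List Int)) : Bool :=
  Nat.ble T.length 14 && T.all (fun r => Nat.ble r.length 14 && r.all (fun x => Nat.ble x.natAbs t))

theorem shp_of {t : ℕ} {Ts : List (List (List Int))} (h : Ts.all (shpB t) = true) :
    ∀ T ∈ Ts, Shp T t := by
  intro T hT
  rw [List.all_eq_true] at h
  have h1 := h T hT
  rw [shpB, Bool.and_eq_true, List.all_eq_true] at h1
  refine ⟨Nat.le_of_ble_eq_true h1.1, fun r hr => ?_, fun r hr x hx => ?_⟩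
  · have := h1.2 r hr
    rw [Bool.and_eq_true] at this
    exact Nat.le_of_ble_eq_true this.1
  · have := h1.2 r hr
    rw [Bool.and_eq_true, List.all_eq_true] at this
    exact Nat.le_of_ble_eq_true (this.2 x hx)

theorem shpN : ∀ T ∈ tabN, Shp T 1024 := shp_of (by decide +kernel)
theorem shpC1 : ∀ T ∈ tabC1, Shp T 1024 := shp_of (by decide +kernel)
theorem shpB' : ∀ T ∈ tabB, Shp T 1024 := shp_of (by decide +kernel)
theorem shpC : ∀ T ∈ tabC, Shp T 1024 := shp_of (by decide +kernel)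
theorem shpD : ∀ T ∈ tabD, Shp T 1024 := shp_of (by decide +kernel)
theorem shpZ : ∀ T ∈ tabZ, Shp T 1024 := shp_of (by decide +kernel)

theorem absF_mem {l : List Int} {x : Int} (hx : x ∈ l) : x.natAbs ≤ absF l := by
  induction l with
  | nil => simp at hx
  | cons y ys ih =>
    rw [absF_cons]
    rcases List.mem_cons.1 hx with rfl | h'
    · omega
    · have := ih h'
      omega

theorem absM_cons (r : List Int) (M : List (List Int)) : absM (r :: M) = absF r + absM M := rfl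

theorem absM_mem {M : List (List Int)} {r : List Int} (hr : r ∈ M) : absF r ≤ absM M := by
  induction M with
  | nil => simp at hr
  | cons y ys ih =>
    rw [absM_cons]
    rcases List.mem_cons.1 hr with rfl | h'
    · omega
    · have := ih h'
      omega

theorem shp_base2 (P : Par2) (W : Int) : Shp (base2 P W) (absM (base2 P W)) := by
  refine ⟨by simp [base2], ?_, fun r hr x hx => (absF_mem hx).trans (absM_mem hr)⟩
  intro r hr
  simp only [base2, List.mem_cons, List.not_mem_nil, or_false] at hr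
  rcases hr with rfl | rfl | rfl | rfl | rfl | rfl | rfl | rfl | rfl | rfl | rfl <;> simp

/-! ### digits of a packed matrix -/

/-- entry of a matrix -/
def ent (M : List (List Int)) (r c : ℕ) : Int := (M.getD r []).getD c 0

theorem packR_sum (r : List Int) (n : ℕ) (h : r.length ≤ n) :
    packR r = ∑ c ∈ range n, r.getD c 0 * (2 ^ 128) ^ c := by
  induction r generalizing n with
  | nil => simp [packR_nil]
  | cons a as ih =>
    obtain ⟨m, rfl⟩ : ∃ m, n = m + 1 := ⟨n - 1, by simp at h; omega⟩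
    rw [packR_cons, Finset.sum_range_succ', ih m (by simpa using h), Finset.mul_sum]
    simp only [List.getD_cons_succ, List.getD_cons_zero, pow_zero, mul_one]
    rw [add_comm]
    congr 1
    refine Finset.sum_congr rfl fun c _ => ?_
    ring

theorem packM_sum (M : List (List Int)) (n : ℕ) (h : M.length ≤ n) :
    packM M = ∑ r ∈ range n, packR (M.getD r []) * (2 ^ 1792) ^ r := by
  induction M generalizing n with
  | nil => simp [packM_nil, packR_nil]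
  | cons a as ih =>
    obtain ⟨m, rfl⟩ : ∃ m, n = m + 1 := ⟨n - 1, by simp at h; omega⟩
    rw [packM_cons, Finset.sum_range_succ', ih m (by simpa using h), Finset.mul_sum]
    simp only [List.getD_cons_succ, List.getD_cons_zero, pow_zero, mul_one]
    rw [add_comm]
    congr 1
    refine Finset.sum_congr rfl fun c _ => ?_
    ring

theorem ent_bd {M : List (List Int)} {b : ℕ} (hM : Shp M b) (r c : ℕ) :
    (ent M r c).natAbs ≤ b := by
  rw [ent]
  rcases lt_or_ge r M.length with hr | hr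
  · rcases lt_or_ge c (M.getD r []).length with hc | hc
    · have h1 : (M.getD r []) ∈ M := by
        rw [List.getD_eq_getElem _ _ hr]
        exact List.getElem_mem hr
      have h2 : (M.getD r []).getD c 0 ∈ M.getD r [] := by
        rw [List.getD_eq_getElem _ _ hc]
        exact List.getElem_mem hc
      exact hM.bd _ h1 _ h2
    · rw [List.getD_eq_default _ _ hc]
      simp
  · rw [List.getD_eq_default _ _ hr]
    simp

theorem row_len {M : List (List Int)} {b : ℕ} (hM : Shp M b) (r : ℕ) :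
    (M.getD r []).length ≤ 14 := by
  rcases lt_or_ge r M.length with hr | hr
  · apply hM.row
    rw [List.getD_eq_getElem _ _ hr]
    exact List.getElem_mem hr
  · rw [List.getD_eq_default _ _ hr]
    simp

theorem digit_row {M : List (List Int)} {b : ℕ} (hM : Shp M b) (hb : b < 2 ^ 127) (r : ℕ) :
    ∃ N : ℕ, (N : ℤ) = packR (M.getD r []) + (halfMask 14 128 : ℕ) ∧ N < 2 ^ 1792 ∧
      ∀ c < 14, ((N / (2 ^ 128) ^ c % 2 ^ 128 : ℕ) : ℤ) = ent M r c + 2 ^ 127 := by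
  obtain ⟨d, hd⟩ : ∃ d : ℕ → ℕ, ∀ c, (d c : ℤ) = ent M r c + 2 ^ 127 := by
    refine ⟨fun c => (ent M r c + 2 ^ 127).toNat, fun c => ?_⟩
    rw [Int.toNat_of_nonneg]
    have h1 := ent_bd hM r c
    have h2 : (b : ℤ) < 2 ^ 127 := by exact_mod_cast hb
    omega
  have hdl : ∀ c < 14, d c < 2 ^ 128 := by
    intro c _
    have h1 := ent_bd hM r c
    have h3 := hd c
    have h2 : (b : ℤ) < 2 ^ 127 := by exact_mod_cast hb
    have : (d c : ℤ) < 2 ^ 128 := by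
      have e : (2 : ℤ) ^ 128 = 2 ^ 127 + 2 ^ 127 := by norm_num
      rw [e]
      omega
    exact_mod_cast this
  refine ⟨∑ c ∈ range 14, d c * (2 ^ 128) ^ c, ?_, ?_, ?_⟩
  · rw [packR_sum _ 14 (row_len hM r), Kron.halfMask_eq 14 128 (by norm_num)]
    push_cast
    rw [← Finset.sum_add_distrib]
    refine Finset.sum_congr rfl fun c _ => ?_
    rw [hd c, ent]
    ring
  · have := Kron.sum_digits_lt (2 ^ 128) 14 d hdl
    rw [← pow_mul] at this
    exact this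
  · intro c hc
    rw [Kron.digit_extract (2 ^ 128) c 14 d hdl hc, hd]

theorem half196 : halfMask 196 128 = ∑ r ∈ range 14, halfMask 14 128 * (2 ^ 1792) ^ r := by
  decide +kernel

theorem digit_mat {M : List (List Int)} {b : ℕ} (hM : Shp M b) (hb : b < 2 ^ 127) {MN : ℕ}
    (hMN : (MN : ℤ) = packM M + (halfMask 196 128 : ℕ)) {r c : ℕ} (hr : r < 14) (hc : c < 14) :
    ((MN / 2 ^ (1792 * r + 128 * c) % 2 ^ 128 : ℕ) : ℤ) = ent M r c + 2 ^ 127 := by
  choose N hN using digit_row hM hb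
  have e : MN = ∑ r ∈ range 14, N r * (2 ^ 1792) ^ r := by
    have : (MN : ℤ) = ((∑ r ∈ range 14, N r * (2 ^ 1792) ^ r : ℕ) : ℤ) := by
      rw [hMN, half196, packM_sum M 14 hM.len]
      push_cast
      rw [← Finset.sum_add_distrib]
      refine Finset.sum_congr rfl fun r _ => ?_
      rw [(hN r).1]
      ring
    exact_mod_cast this
  have h1 : MN / (2 ^ 1792) ^ r % 2 ^ 1792 = N r := by
    rw [e]
    exact Kron.digit_extract (2 ^ 1792) r 14 N (fun i _ => (hN i).2.1) hr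
  have h2 := (hN r).2.2 c hc
  rw [← h1, ← pow_mul, ← pow_mul] at h2
  have h3 : MN / 2 ^ (1792 * r) % 2 ^ 1792 / 2 ^ (128 * c) % 2 ^ 128 =
      MN / 2 ^ (1792 * r + 128 * c) % 2 ^ 128 := by
    have e1 : (2 : ℕ) ^ 1792 = 2 ^ (128 * c) * 2 ^ (1792 - 128 * c) := by
      rw [← pow_add]; congr 1; omega
    rw [e1, Nat.mod_mul_right_div_self, Nat.div_div_eq_div_mul, ← pow_add]
    apply Nat.mod_mod_of_dvd
    apply pow_dvd_pow
    omega
  rw [h3] at h2
  exact h2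

/-! ### padding -/

theorem dot_sum (a : List Int) (f : List ℝ) :
    dot a f = ∑ c ∈ range f.length, ((a.getD c 0 : Int) : ℝ) * f.getD c 0 := by
  induction a generalizing f with
  | nil => simp [dot]
  | cons x xs ih =>
    cases f with
    | nil => simp [dot]
    | cons y ys =>
      rw [dot, ih, List.length_cons, Finset.sum_range_succ']
      simp only [List.getD_cons_succ, List.getD_cons_zero]
      ring

theorem mdot_sum (M : List (List Int)) (f g : List ℝ) :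
    mdot M f g = ∑ r ∈ range g.length, g.getD r 0 * dot (M.getD r []) f := by
  induction M generalizing g with
  | nil => simp [mdot, dot]
  | cons x xs ih =>
    cases g with
    | nil => simp [mdot]
    | cons y ys =>
      rw [mdot, ih, List.length_cons, Finset.sum_range_succ']
      simp only [List.getD_cons_succ, List.getD_cons_zero]
      ring

/-- the padded matrix -/
def padM (M : List (List Int)) : List (List Int) :=
  (List.range 14).map (fun r => (List.range 14).map (fun c => ent M r c))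

theorem getD_map_range {α : Type*} (f : ℕ → α) (d : α) {n i : ℕ} (h : i < n) :
    ((List.range n).map f).getD i d = f i := by
  rw [List.getD_eq_getElem _ _ (by simpa using h)]
  simp

theorem mdot_padM (M : List (List Int)) (f g : List ℝ) (hf : f.length ≤ 14) (hg : g.length ≤ 14) :
    mdot (padM M) f g = mdot M f g := by
  rw [mdot_sum, mdot_sum]
  refine Finset.sum_congr rfl fun r hr => ?_
  rw [Finset.mem_range] at hr
  rw [dot_sum, dot_sum]
  congr 1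
  refine Finset.sum_congr rfl fun c hc => ?_
  rw [Finset.mem_range] at hc
  rw [padM, getD_map_range _ _ (by omega), getD_map_range _ _ (by omega), ent]

theorem dotN_le {r : List Int} {b : ℕ} (h : ∀ x ∈ r, x.natAbs ≤ b) (l : List ℕ) :
    dotN r l ≤ b * l.sum := by
  induction r generalizing l with
  | nil => simp [dotN]
  | cons x xs ih =>
    cases l with
    | nil => simp [dotN]
    | cons y ys =>
      rw [dotN, List.sum_cons, mul_add]
      exact add_le_add (Nat.mul_le_mul_right _ (h x (by simp)))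
        (ih (fun x hx => h x (by simp [hx])) ys)

theorem mdotN_le {M : List (List Int)} {b : ℕ} (h : ∀ r ∈ M, ∀ x ∈ r, x.natAbs ≤ b)
    (l m : List ℕ) : mdotN M l m ≤ b * (l.sum * m.sum) := by
  induction M generalizing m with
  | nil => simp [mdotN]
  | cons x xs ih =>
    cases m with
    | nil => simp [mdotN]
    | cons y ys =>
      rw [mdotN, List.sum_cons]
      have h1 := dotN_le (h x (by simp)) l
      have h2 := ih (fun r hr => h r (by simp [hr])) ys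
      calc y * dotN x l + mdotN xs l ys ≤ y * (b * l.sum) + b * (l.sum * ys.sum) :=
            add_le_add (Nat.mul_le_mul_left _ h1) h2
        _ = b * (l.sum * (y + ys.sum)) := by ring

/-! ### accumulation -/

/-- the accumulated value modulo `MOD` -/
theorem acc_cast' {MOD : ℕ} (B s : ℕ) (ns : List ℕ) {bs : List ℕ} {zs : List ℤ}
    (hbz : List.Forall₂ (fun (b : ℕ) (z : ℤ) => (b : ℤ) ≡ z [ZMOD MOD]) bs zs) (c : ℕ) :
    ((acc B s ns bs c : ℕ) : ℤ) ≡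
      c + dotZ (ns.map (fun n => ((n / 2 ^ s % B : ℕ) : ℤ))) zs [ZMOD MOD] := by
  induction hbz generalizing ns c with
  | nil =>
    have : acc B s ns [] c = c := by
      cases ns <;> rfl
    rw [this]
    cases ns <;> simp [dotZ, Int.ModEq]
  | @cons b z bs zs h _ ih =>
    cases ns with
    | nil => simp [acc, dotZ, Int.ModEq]
    | cons n ns =>
      rw [acc]
      refine (ih ns _).trans ?_
      rw [List.map_cons, dotZ]
      have h1 : ((Nat.add c (Nat.mul (Nat.mod (Nat.shiftRight n s) B) b) : ℕ) : ℤ)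
          = c + ((n / 2 ^ s % B : ℕ) : ℤ) * (b : ℕ) := by
        have h2 : Nat.shiftRight n s = n / 2 ^ s := Nat.shiftRight_eq_div_pow n s
        rw [h2]
        have h3 : Nat.add c (Nat.mul (Nat.mod (n / 2 ^ s) B) b)
          = c + (n / 2 ^ s % B) * b := rfl
        rw [h3]; push_cast; ring
      rw [h1]
      have h4 : ((n / 2 ^ s % B : ℕ) : ℤ) * (b : ℕ) ≡
          ((n / 2 ^ s % B : ℕ) : ℤ) * z [ZMOD MOD] := h.mul_left _
      have h5 : Int.add (Int.mul ((n / 2 ^ s % B : ℕ) : ℤ) z)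
          (dotZ (ns.map (fun n => ((n / 2 ^ s % B : ℕ) : ℤ))) zs) =
          ((n / 2 ^ s % B : ℕ) : ℤ) * z +
          (dotZ (ns.map (fun n => ((n / 2 ^ s % B : ℕ) : ℤ))) zs) := rfl
      rw [h5]
      have h6 := (h4.add_left c).add_right
        (dotZ (ns.map (fun n => ((n / 2 ^ s % B : ℕ) : ℤ))) zs)
      rw [← add_assoc]
      exact h6

theorem acc14_eq (Q s : ℕ) (v0 v1 v2 v3 v4 v5 v6 v7 v8 v9 v10 v11 v12 v13
    b0 b1 b2 b3 b4 b5 b6 b7 b8 b9 b10 b11 b12 b13 c : ℕ) :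
    acc14 Q s v0 v1 v2 v3 v4 v5 v6 v7 v8 v9 v10 v11 v12 v13
      b0 b1 b2 b3 b4 b5 b6 b7 b8 b9 b10 b11 b12 b13 c =
    acc Q s [v0, v1, v2, v3, v4, v5, v6, v7, v8, v9, v10, v11, v12, v13]
      [b0, b1, b2, b3, b4, b5, b6, b7, b8, b9, b10, b11, b12, b13] c := rfl

theorem slotsOK_of {K B MOD h : ℕ} {vs Bs : List ℕ} {cst : ℕ} {js : List ℕ}
    (H : ∀ j ∈ js, Nat.land (acc B (K * j) vs Bs cst % MOD) h = h) :
    slotsOK K B MOD h vs Bs cst js = true := by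
  induction js with
  | nil => rfl
  | cons a as ih =>
    rw [slotsOK, Bool.and_eq_true]
    refine ⟨?_, ih (fun j hj => H j (by simp [hj]))⟩
    rw [Nat.beq_eq]
    exact H a (by simp)

/-! ### the monomials -/

/-- the value of a monomial list -/
def monV (N C S : ℤ) : List ℤ :=
  [N ^ 0 * C ^ 0 * S ^ 10, N ^ 1 * C ^ 0 * S ^ 8, N ^ 2 * C ^ 0 * S ^ 6, N ^ 3 * C ^ 0 * S ^ 4, N ^ 4 * C ^ 0 * S ^ 2, N ^ 5 * C ^ 0 * S ^ 0, N ^ 0 * C ^ 1 * S ^ 7, N ^ 1 * C ^ 1 * S ^ 5, N ^ 2 * C ^ 1 * S ^ 3, N ^ 3 * C ^ 1 * S ^ 1, N ^ 0 * C ^ 2 * S ^ 4, N ^ 1 * C ^ 2 * S ^ 2, N ^ 2 * C ^ 2 * S ^ 0, N ^ 0 * C ^ 3 * S ^ 1]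

theorem monF_sound {X Y : ℤ} {t : Tri}
    {f : Int → Int → Int → Int → Int → Int → Int → Int → Int → Int → Int → Int → Int → Int →
      Bool} (h : monF X Y t f = true) {S p r : ℤ}
    (hS : S = t.a.S + (t.b.S * X + t.c.S * Y)) (hp : p = t.a.p + (t.b.p * X + t.c.p * Y))
    (hr : r = t.a.r + (t.b.r * X + t.c.r * Y)) :
    ∃ m0 m1 m2 m3 m4 m5 m6 m7 m8 m9 m10 m11 m12 m13 : ℤ,
      [m0, m1, m2, m3, m4, m5, m6, m7, m8, m9, m10, m11, m12, m13] =
        monV (4 * (p * p + p * r + r * r)) (4 * ((p + p + r) * (p - r) * (p + (r + r)))) S ∧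
      f m0 m1 m2 m3 m4 m5 m6 m7 m8 m9 m10 m11 m12 m13 = true := by
  simp only [monF, fcZ_eq] at h
  have e1 : lin3 X Y t.a.S t.b.S t.c.S = S := hS.symm
  have e2 : lin3 X Y t.a.p t.b.p t.c.p = p := hp.symm
  have e3 : lin3 X Y t.a.r t.b.r t.c.r = r := hr.symm
  rw [e1, e2, e3] at h
  have em : ∀ a b : ℤ, Int.mul a b = a * b := fun _ _ => rfl
  have ea : ∀ a b : ℤ, Int.add a b = a + b := fun _ _ => rfl
  have es : ∀ a b : ℤ, Int.sub a b = a - b := fun _ _ => rfl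
  simp only [em, ea, es] at h
  refine ⟨_, _, _, _, _, _, _, _, _, _, _, _, _, _, ?_, h⟩
  simp only [monV, List.cons.injEq, and_true]
  refine ⟨?_, ?_, ?_, ?_, ?_, ?_, ?_, ?_, ?_, ?_, ?_, ?_, ?_, ?_⟩ <;> ring

theorem packed_triMon (K : ℕ) (t : Tri) {S p r : ℤ}
    (hS : S = t.a.S + (t.b.S * 2 ^ K + t.c.S * 2 ^ (11 * K)))
    (hp : p = t.a.p + (t.b.p * 2 ^ K + t.c.p * 2 ^ (11 * K)))
    (hr : r = t.a.r + (t.b.r * 2 ^ K + t.c.r * 2 ^ (11 * K))) :
    packL 10 K (triMon t) =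
      monV (4 * (p * p + p * r + r * r)) (4 * ((p + p + r) * (p - r) * (p + (r + r)))) S := by
  rw [packL_eq, triMon, List.map_map]
  have w0 : (Int.ofNat (2 ^ (K * (10 + 1) ^ 0)) : ℤ) = 2 ^ K := by
    rw [Int.ofNat_eq_natCast, pow_zero, mul_one]; push_cast; rfl
  have w1 : (Int.ofNat (2 ^ (K * (10 + 1) ^ (0 + 1))) : ℤ) = 2 ^ (11 * K) := by
    rw [Int.ofNat_eq_natCast, zero_add, pow_one, mul_comm]; push_cast; rfl
  have key : ∀ e : ℕ × ℕ, (PE.packed 10 K ∘ fun e : ℕ × ℕ => PE.mul (PE.mul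
      ((nPE (linPE 0 t.a.p t.b.p t.c.p) (linPE 0 t.a.r t.b.r t.c.r)).pow e.1)
      ((cPE (linPE 0 t.a.p t.b.p t.c.p) (linPE 0 t.a.r t.b.r t.c.r)).pow e.2))
      ((linPE 0 t.a.S t.b.S t.c.S).pow (10 - 2 * e.1 - 3 * e.2))) e =
      (4 * (p * p + p * r + r * r)) ^ e.1 * (4 * ((p + p + r) * (p - r) * (p + (r + r)))) ^ e.2 *
      S ^ (10 - 2 * e.1 - 3 * e.2) := by
    intro e
    simp only [Function.comp, PE.packed, Kron.evZ_eq, PE.ev, PE.ev_pow, nPE, cPE, linPE, w0, w1]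
    have i4 : ((4 : ℤ) : ℤ) = 4 := rfl
    simp only [Int.cast_id]
    rw [← hS, ← hp, ← hr]
  rw [List.map_congr_left (fun e _ => key e)]
  rfl

theorem l1_triMon (t : Tri) {S p r : ℕ}
    (hS : S = t.a.S.natAbs + (t.b.S.natAbs + t.c.S.natAbs))
    (hp : p = t.a.p.natAbs + (t.b.p.natAbs + t.c.p.natAbs))
    (hr : r = t.a.r.natAbs + (t.b.r.natAbs + t.c.r.natAbs)) :
    l1L (triMon t) = mons.map (fun e => (4 * (p * p + p * r + r * r)) ^ e.1 *
      (4 * ((p + p + r) * (p + r) * (p + (r + r)))) ^ e.2 * S ^ (10 - 2 * e.1 - 3 * e.2)) := by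
  have e0 : ∀ es : List PE, l1L es = es.map PE.l1 := by
    intro es
    induction es with
    | nil => rfl
    | cons a as ih => rw [l1L, List.map_cons, ih]
  have n4 : (4 : ℤ).natAbs = 4 := rfl
  rw [e0, triMon, List.map_map]
  refine List.map_congr_left fun e _ => ?_
  simp only [Function.comp, PE.l1, l1_pow, nPE, cPE, linPE, mul_one, n4, hS, hp, hr]

theorem sumL_sound {t : Tri} {f : ℕ → Bool} (h : sumL t f = true) :
    f (l1L (triMon t)).sum = true := by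
  simp only [sumL, fcN_eq] at h
  obtain ⟨S, hS⟩ : ∃ S, S = Nat.add t.a.S.natAbs (Nat.add t.b.S.natAbs t.c.S.natAbs) := ⟨_, rfl⟩
  obtain ⟨p, hp⟩ : ∃ p, p = Nat.add t.a.p.natAbs (Nat.add t.b.p.natAbs t.c.p.natAbs) := ⟨_, rfl⟩
  obtain ⟨r, hr⟩ : ∃ r, r = Nat.add t.a.r.natAbs (Nat.add t.b.r.natAbs t.c.r.natAbs) := ⟨_, rfl⟩
  rw [← hS, ← hp, ← hr] at h
  rw [l1_triMon t hS hp hr]
  obtain ⟨N, hN⟩ : ∃ N, N = 4 * (p * p + p * r + r * r) := ⟨_, rfl⟩
  obtain ⟨C, hC⟩ : ∃ C, C = 4 * ((p + p + r) * (p + r) * (p + (r + r))) := ⟨_, rfl⟩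
  have hN' : Nat.mul 4 (Nat.add (Nat.add (Nat.mul p p) (Nat.mul p r)) (Nat.mul r r)) = N :=
    hN.symm
  have hC' : Nat.mul 4 (Nat.mul (Nat.mul (Nat.add (Nat.add p p) r) (Nat.add p r))
    (Nat.add p (Nat.add r r))) = C := hC.symm
  rw [hN', hC'] at h
  rw [← hN, ← hC]
  have key : (mons.map (fun e => N ^ e.1 * C ^ e.2 * S ^ (10 - 2 * e.1 - 3 * e.2))).sum =
      Nat.add (Nat.add (Nat.add (Nat.add (Nat.add (Nat.add (Nat.add (Nat.add (Nat.add (Nat.add (Nat.add (Nat.add (Nat.add (Nat.mul (Nat.mul (Nat.pow N 0) (Nat.pow C 0)) (Nat.pow S 10)) (Nat.mul (Nat.mul (Nat.pow N 1) (Nat.pow C 0)) (Nat.pow S 8))) (Nat.mul (Nat.mul (Nat.pow N 2) (Nat.pow C 0)) (Nat.pow S 6))) (Nat.mul (Nat.mul (Nat.pow N 3) (Nat.pow C 0)) (Nat.pow S 4))) (Nat.mul (Nat.mul (Nat.pow N 4) (Nat.pow C 0)) (Nat.pow S 2))) (Nat.mul (Nat.mul (Nat.pow N 5) (Nat.pow C 0)) (Nat.pow S 0))) (Nat.mul (Nat.mul (Nat.pow N 0) (Nat.pow C 1)) (Nat.pow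 S 7))) (Nat.mul (Nat.mul (Nat.pow N 1) (Nat.pow C 1)) (Nat.pow S 5))) (Nat.mul (Nat.mul (Nat.pow N 2) (Nat.pow C 1)) (Nat.pow S 3))) (Nat.mul (Nat.mul (Nat.pow N 3) (Nat.pow C 1)) (Nat.pow S 1))) (Nat.mul (Nat.mul (Nat.pow N 0) (Nat.pow C 2)) (Nat.pow S 4))) (Nat.mul (Nat.mul (Nat.pow N 1) (Nat.pow C 2)) (Nat.pow S 2))) (Nat.mul (Nat.mul (Nat.pow N 2) (Nat.pow C 2)) (Nat.pow S 0))) (Nat.mul (Nat.mul (Nat.pow N 0) (Nat.pow C 3)) (Nat.pow S 1)) := by
    simp only [mons, List.map_cons, List.map_nil, List.sum_cons, List.sum_nil, Nat.add_eq,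
      Nat.mul_eq, Nat.pow_eq, Nat.reduceMul, Nat.reduceSub]
    ring
  rw [key]
  exact h

theorem degOK_triMon (t : Tri) : degOK 10 (triMon t) = true := by
  simp only [triMon, mons, List.map_cons, List.map_nil, degOK, Bool.and_eq_true, Nat.ble_eq]
  refine ⟨⟨?_, ?_⟩, ⟨?_, ?_⟩, ⟨?_, ?_⟩, ⟨?_, ?_⟩, ⟨?_, ?_⟩, ⟨?_, ?_⟩, ⟨?_, ?_⟩, ⟨?_, ?_⟩,
    ⟨?_, ?_⟩, ⟨?_, ?_⟩, ⟨?_, ?_⟩, ⟨?_, ?_⟩, ⟨?_, ?_⟩, ⟨?_, ?_⟩, trivial⟩ <;>
  simp [PE.vars, PE.tdeg, PE.pow, nPE, cPE, linPE]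

theorem l1OK_of {K : ℕ} {es : List PE} (h : (l1L es).sum + 1 ≤ 2 ^ (K - 1)) :
    l1OK K es = true := by
  induction es with
  | nil => rfl
  | cons e es ih =>
    rw [l1L, List.sum_cons] at h
    rw [l1OK, Bool.and_eq_true, Nat.ble_eq]
    exact ⟨by omega, ih (by omega)⟩

/-! ### the rows -/

theorem row14_eq (Q M s : ℕ) (u0 u1 u2 u3 u4 u5 u6 u7 u8 u9 u10 u11 u12 u13 c : ℕ) :
    row14 Q M s u0 u1 u2 u3 u4 u5 u6 u7 u8 u9 u10 u11 u12 u13 c =
      c + M / 2 ^ (s + 0) % Q * u0 + M / 2 ^ (s + 128) % Q * u1 + M / 2 ^ (s + 256) % Q * u2 + M / 2 ^ (s + 384) % Q * u3 + M / 2 ^ (s + 512) % Q * u4 + M / 2 ^ (s + 640) % Q * u5 + M / 2 ^ (s + 768) % Q * u6 + M / 2 ^ (s + 896) % Q * u7 + M / 2 ^ (s + 1024) % Q * u8 + M / 2 ^ (s + 1152) % Q * u9 + M / 2 ^ (s + 1280) % Q * u10 + M / 2 ^ (s + 1408) % Q * u11 + M / 2 ^ (s + 1536) % Q * u12 + M / 2 ^ (s + 1664) % Q * u13 := by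
  have hs : ∀ a b : ℕ, Nat.shiftRight a b = a / 2 ^ b := Nat.shiftRight_eq_div_pow
  simp only [row14, hs, Nat.add_eq, Nat.mul_eq, add_zero]
  rfl

theorem range14_map {α : Type*} (f : ℕ → α) : (List.range 14).map f =
    [f 0, f 1, f 2, f 3, f 4, f 5, f 6, f 7, f 8, f 9, f 10, f 11, f 12, f 13] := rfl

theorem row_cast {MOD : ℕ} (hM : 0 < MOD) {M : List (List Int)} {Bd MN : ℕ} (hS : Shp M Bd)
    (hb : Bd < 2 ^ 127) (hMN : (MN : ℤ) = packM M + (halfMask 196 128 : ℕ))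
    (m0 m1 m2 m3 m4 m5 m6 m7 m8 m9 m10 m11 m12 m13 : ℤ) (r : ℕ) (hr : r < 14) :
    ((Nat.mod (row14 (2 ^ 128) MN (1792 * r) (toMod MOD m0) (toMod MOD m1) (toMod MOD m2) (toMod MOD m3) (toMod MOD m4) (toMod MOD m5) (toMod MOD m6) (toMod MOD m7) (toMod MOD m8) (toMod MOD m9) (toMod MOD m10) (toMod MOD m11) (toMod MOD m12) (toMod MOD m13)
      (Nat.sub MOD (Nat.mod (Nat.mul (Nat.pow 2 127) (Nat.add (Nat.add (Nat.add (Nat.add (Nat.add (Nat.add (Nat.add (Nat.add (Nat.add (Nat.add (Nat.add (Nat.add (Nat.add (toMod MOD m0) (toMod MOD m1)) (toMod MOD m2)) (toMod MOD m3)) (toMod MOD m4)) (toMod MOD m5)) (toMod MOD m6)) (toMod MOD m7)) (toMod MOD m8)) (toMod MOD m9)) (toMod MOD m10)) (toMod MOD m11)) (toMod MOD m12)) (toMod MOD m13))) MOD))) MOD : ℕ) : ℤ) ≡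
      dotZ ((List.range 14).map (fun c => ent M r c))
        [m0, m1, m2, m3, m4, m5, m6, m7, m8, m9, m10, m11, m12, m13] [ZMOD MOD] := by
  have hd : ∀ c, c < 14 → ((MN / 2 ^ (1792 * r + 128 * c) % 2 ^ 128 : ℕ) : ℤ) =
      ent M r c + 2 ^ 127 := fun c hc => digit_mat hS hb hMN hr hc
  rw [row14_eq]
  generalize hc1 : Nat.sub MOD (Nat.mod (Nat.mul (Nat.pow 2 127) (Nat.add (Nat.add (Nat.add (Nat.add (Nat.add (Nat.add (Nat.add (Nat.add (Nat.add (Nat.add (Nat.add (Nat.add (Nat.add (toMod MOD m0) (toMod MOD m1)) (toMod MOD m2)) (toMod MOD m3)) (toMod MOD m4)) (toMod MOD m5)) (toMod MOD m6)) (toMod MOD m7)) (toMod MOD m8)) (toMod MOD m9)) (toMod MOD m10)) (toMod MOD m11)) (toMod MOD m12)) (toMod MOD m13))) MOD) = c1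
  have hc : ((c1 : ℕ) : ℤ) ≡ -(2 ^ 127 * (m0 + m1 + m2 + m3 + m4 + m5 + m6 + m7 + m8 + m9 + m10 + m11 + m12 + m13)) [ZMOD MOD] := by
    rw [← hc1]
    have e0 : ∀ x : ℕ, Nat.sub MOD (Nat.mod x MOD) = MOD - x % MOD := fun _ => rfl
    rw [e0, Nat.cast_sub (Nat.mod_lt _ hM).le]
    have h1 : ((Nat.mul (Nat.pow 2 127) (Nat.add (Nat.add (Nat.add (Nat.add (Nat.add (Nat.add (Nat.add (Nat.add (Nat.add (Nat.add (Nat.add (Nat.add (Nat.add (toMod MOD m0) (toMod MOD m1)) (toMod MOD m2)) (toMod MOD m3)) (toMod MOD m4)) (toMod MOD m5)) (toMod MOD m6)) (toMod MOD m7)) (toMod MOD m8)) (toMod MOD m9)) (toMod MOD m10)) (toMod MOD m11)) (toMod MOD m12)) (toMod MOD m13)) : ℕ) : ℤ) ≡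
      2 ^ 127 * (m0 + m1 + m2 + m3 + m4 + m5 + m6 + m7 + m8 + m9 + m10 + m11 + m12 + m13) [ZMOD MOD] := by
      have e1 : ∀ a b : ℕ, Nat.add a b = a + b := fun _ _ => rfl
      have e2 : ∀ a b : ℕ, Nat.mul a b = a * b := fun _ _ => rfl
      have e3 : ∀ a b : ℕ, Nat.pow a b = a ^ b := fun _ _ => rfl
      simp only [e1, e2, e3]
      push_cast
      refine Int.ModEq.mul_left _ ?_
      exact (((((((((((((toMod_cast hM m0).add
        (toMod_cast hM m1)).add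
        (toMod_cast hM m2)).add
        (toMod_cast hM m3)).add
        (toMod_cast hM m4)).add
        (toMod_cast hM m5)).add
        (toMod_cast hM m6)).add
        (toMod_cast hM m7)).add
        (toMod_cast hM m8)).add
        (toMod_cast hM m9)).add
        (toMod_cast hM m10)).add
        (toMod_cast hM m11)).add
        (toMod_cast hM m12)).add
        (toMod_cast hM m13)
    push_cast
    have h2 := (Int.mod_modEq ((Nat.mul (Nat.pow 2 127) (Nat.add (Nat.add (Nat.add (Nat.add (Nat.add (Nat.add (Nat.add (Nat.add (Nat.add (Nat.add (Nat.add (Nat.add (Nat.add (toMod MOD m0) (toMod MOD m1)) (toMod MOD m2)) (toMod MOD m3)) (toMod MOD m4)) (toMod MOD m5)) (toMod MOD m6)) (toMod MOD m7)) (toMod MOD m8)) (toMod MOD m9)) (toMod MOD m10)) (toMod MOD m11)) (toMod MOD m12)) (toMod MOD m13)) : ℕ) : ℤ) MOD).trans h1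
    have h3 := (Int.ModEq.refl (n := (MOD : ℤ)) (MOD : ℤ)).sub h2
    refine h3.trans ?_
    have h4 : ∀ x : ℤ, (MOD : ℤ) - x ≡ -x [ZMOD MOD] := by
      intro x
      rw [show (MOD : ℤ) - x = -x + MOD by ring]
      simp [Int.ModEq]
    exact h4 _
  have h0 : ∀ x : ℕ, ((Nat.mod x MOD : ℕ) : ℤ) ≡ (x : ℤ) [ZMOD MOD] := by
    intro x
    have : Nat.mod x MOD = x % MOD := rfl
    rw [this]
    push_cast
    exact Int.mod_modEq _ _
  refine (h0 _).trans ?_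
  obtain ⟨d0, hd0⟩ : ∃ d, d = MN / 2 ^ (1792 * r + 0) % 2 ^ 128 := ⟨_, rfl⟩
  have g0 : (d0 : ℤ) = ent M r 0 + 2 ^ 127 := by rw [hd0]; exact hd 0 (by norm_num)
  rw [← hd0]
  have k0 : (d0 : ℤ) * ((toMod MOD m0 : ℕ) : ℤ) ≡ (ent M r 0 + 2 ^ 127) * m0 [ZMOD MOD] := by
    rw [g0]; exact (toMod_cast hM m0).mul_left _
  obtain ⟨d1, hd1⟩ : ∃ d, d = MN / 2 ^ (1792 * r + 128) % 2 ^ 128 := ⟨_, rfl⟩
  have g1 : (d1 : ℤ) = ent M r 1 + 2 ^ 127 := by rw [hd1]; exact hd 1 (by norm_num)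
  rw [← hd1]
  have k1 : (d1 : ℤ) * ((toMod MOD m1 : ℕ) : ℤ) ≡ (ent M r 1 + 2 ^ 127) * m1 [ZMOD MOD] := by
    rw [g1]; exact (toMod_cast hM m1).mul_left _
  obtain ⟨d2, hd2⟩ : ∃ d, d = MN / 2 ^ (1792 * r + 256) % 2 ^ 128 := ⟨_, rfl⟩
  have g2 : (d2 : ℤ) = ent M r 2 + 2 ^ 127 := by rw [hd2]; exact hd 2 (by norm_num)
  rw [← hd2]
  have k2 : (d2 : ℤ) * ((toMod MOD m2 : ℕ) : ℤ) ≡ (ent M r 2 + 2 ^ 127) * m2 [ZMOD MOD] := by
    rw [g2]; exact (toMod_cast hM m2).mul_left _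
  obtain ⟨d3, hd3⟩ : ∃ d, d = MN / 2 ^ (1792 * r + 384) % 2 ^ 128 := ⟨_, rfl⟩
  have g3 : (d3 : ℤ) = ent M r 3 + 2 ^ 127 := by rw [hd3]; exact hd 3 (by norm_num)
  rw [← hd3]
  have k3 : (d3 : ℤ) * ((toMod MOD m3 : ℕ) : ℤ) ≡ (ent M r 3 + 2 ^ 127) * m3 [ZMOD MOD] := by
    rw [g3]; exact (toMod_cast hM m3).mul_left _
  obtain ⟨d4, hd4⟩ : ∃ d, d = MN / 2 ^ (1792 * r + 512) % 2 ^ 128 := ⟨_, rfl⟩
  have g4 : (d4 : ℤ) = ent M r 4 + 2 ^ 127 := by rw [hd4]; exact hd 4 (by norm_num)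
  rw [← hd4]
  have k4 : (d4 : ℤ) * ((toMod MOD m4 : ℕ) : ℤ) ≡ (ent M r 4 + 2 ^ 127) * m4 [ZMOD MOD] := by
    rw [g4]; exact (toMod_cast hM m4).mul_left _
  obtain ⟨d5, hd5⟩ : ∃ d, d = MN / 2 ^ (1792 * r + 640) % 2 ^ 128 := ⟨_, rfl⟩
  have g5 : (d5 : ℤ) = ent M r 5 + 2 ^ 127 := by rw [hd5]; exact hd 5 (by norm_num)
  rw [← hd5]
  have k5 : (d5 : ℤ) * ((toMod MOD m5 : ℕ) : ℤ) ≡ (ent M r 5 + 2 ^ 127) * m5 [ZMOD MOD] := by
    rw [g5]; exact (toMod_cast hM m5).mul_left _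
  obtain ⟨d6, hd6⟩ : ∃ d, d = MN / 2 ^ (1792 * r + 768) % 2 ^ 128 := ⟨_, rfl⟩
  have g6 : (d6 : ℤ) = ent M r 6 + 2 ^ 127 := by rw [hd6]; exact hd 6 (by norm_num)
  rw [← hd6]
  have k6 : (d6 : ℤ) * ((toMod MOD m6 : ℕ) : ℤ) ≡ (ent M r 6 + 2 ^ 127) * m6 [ZMOD MOD] := by
    rw [g6]; exact (toMod_cast hM m6).mul_left _
  obtain ⟨d7, hd7⟩ : ∃ d, d = MN / 2 ^ (1792 * r + 896) % 2 ^ 128 := ⟨_, rfl⟩
  have g7 : (d7 : ℤ) = ent M r 7 + 2 ^ 127 := by rw [hd7]; exact hd 7 (by norm_num)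
  rw [← hd7]
  have k7 : (d7 : ℤ) * ((toMod MOD m7 : ℕ) : ℤ) ≡ (ent M r 7 + 2 ^ 127) * m7 [ZMOD MOD] := by
    rw [g7]; exact (toMod_cast hM m7).mul_left _
  obtain ⟨d8, hd8⟩ : ∃ d, d = MN / 2 ^ (1792 * r + 1024) % 2 ^ 128 := ⟨_, rfl⟩
  have g8 : (d8 : ℤ) = ent M r 8 + 2 ^ 127 := by rw [hd8]; exact hd 8 (by norm_num)
  rw [← hd8]
  have k8 : (d8 : ℤ) * ((toMod MOD m8 : ℕ) : ℤ) ≡ (ent M r 8 + 2 ^ 127) * m8 [ZMOD MOD] := by
    rw [g8]; exact (toMod_cast hM m8).mul_left _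
  obtain ⟨d9, hd9⟩ : ∃ d, d = MN / 2 ^ (1792 * r + 1152) % 2 ^ 128 := ⟨_, rfl⟩
  have g9 : (d9 : ℤ) = ent M r 9 + 2 ^ 127 := by rw [hd9]; exact hd 9 (by norm_num)
  rw [← hd9]
  have k9 : (d9 : ℤ) * ((toMod MOD m9 : ℕ) : ℤ) ≡ (ent M r 9 + 2 ^ 127) * m9 [ZMOD MOD] := by
    rw [g9]; exact (toMod_cast hM m9).mul_left _
  obtain ⟨d10, hd10⟩ : ∃ d, d = MN / 2 ^ (1792 * r + 1280) % 2 ^ 128 := ⟨_, rfl⟩
  have g10 : (d10 : ℤ) = ent M r 10 + 2 ^ 127 := by rw [hd10]; exact hd 10 (by norm_num)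
  rw [← hd10]
  have k10 : (d10 : ℤ) * ((toMod MOD m10 : ℕ) : ℤ) ≡ (ent M r 10 + 2 ^ 127) * m10 [ZMOD MOD] := by
    rw [g10]; exact (toMod_cast hM m10).mul_left _
  obtain ⟨d11, hd11⟩ : ∃ d, d = MN / 2 ^ (1792 * r + 1408) % 2 ^ 128 := ⟨_, rfl⟩
  have g11 : (d11 : ℤ) = ent M r 11 + 2 ^ 127 := by rw [hd11]; exact hd 11 (by norm_num)
  rw [← hd11]
  have k11 : (d11 : ℤ) * ((toMod MOD m11 : ℕ) : ℤ) ≡ (ent M r 11 + 2 ^ 127) * m11 [ZMOD MOD] := by
    rw [g11]; exact (toMod_cast hM m11).mul_left _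
  obtain ⟨d12, hd12⟩ : ∃ d, d = MN / 2 ^ (1792 * r + 1536) % 2 ^ 128 := ⟨_, rfl⟩
  have g12 : (d12 : ℤ) = ent M r 12 + 2 ^ 127 := by rw [hd12]; exact hd 12 (by norm_num)
  rw [← hd12]
  have k12 : (d12 : ℤ) * ((toMod MOD m12 : ℕ) : ℤ) ≡ (ent M r 12 + 2 ^ 127) * m12 [ZMOD MOD] := by
    rw [g12]; exact (toMod_cast hM m12).mul_left _
  obtain ⟨d13, hd13⟩ : ∃ d, d = MN / 2 ^ (1792 * r + 1664) % 2 ^ 128 := ⟨_, rfl⟩
  have g13 : (d13 : ℤ) = ent M r 13 + 2 ^ 127 := by rw [hd13]; exact hd 13 (by norm_num)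
  rw [← hd13]
  have k13 : (d13 : ℤ) * ((toMod MOD m13 : ℕ) : ℤ) ≡ (ent M r 13 + 2 ^ 127) * m13 [ZMOD MOD] := by
    rw [g13]; exact (toMod_cast hM m13).mul_left _
  clear hd hd0 hd1 hd2 hd3 hd4 hd5 hd6 hd7 hd8 hd9 hd10 hd11 hd12 hd13
  simp only [Nat.cast_add, Nat.cast_mul]
  refine (((((((((((((((hc).add k0).add k1).add k2).add k3).add k4).add k5).add k6).add k7).add k8).add k9).add k10).add k11).add k12).add k13).trans ?_
  rw [range14_map, dotZ_eq]
  simp only [dot, Int.cast_id]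
  exact congrArg (fun x : ℤ => x % (MOD : ℤ)) (by ring)

theorem slotsF_mem {K Q MOD h : ℕ} {v0 v1 v2 v3 v4 v5 v6 v7 v8 v9 v10 v11 v12 v13
    b0 b1 b2 b3 b4 b5 b6 b7 b8 b9 b10 b11 b12 b13 c : ℕ} {js : List ℕ}
    (H : slotsF K Q MOD h v0 v1 v2 v3 v4 v5 v6 v7 v8 v9 v10 v11 v12 v13
      b0 b1 b2 b3 b4 b5 b6 b7 b8 b9 b10 b11 b12 b13 c js = true) :
    ∀ j ∈ js, Nat.land (acc Q (K * j) [v0, v1, v2, v3, v4, v5, v6, v7, v8, v9, v10, v11, v12, v13]
      [b0, b1, b2, b3, b4, b5, b6, b7, b8, b9, b10, b11, b12, b13] c % MOD) h = h := by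
  induction js with
  | nil => simp
  | cons a as ih =>
    have e : slotsF K Q MOD h v0 v1 v2 v3 v4 v5 v6 v7 v8 v9 v10 v11 v12 v13
      b0 b1 b2 b3 b4 b5 b6 b7 b8 b9 b10 b11 b12 b13 c (a :: as) =
      band (fcN (Nat.mul K a) fun s =>
      fcN (Nat.mod (acc14 Q s v0 v1 v2 v3 v4 v5 v6 v7 v8 v9 v10 v11 v12 v13
        b0 b1 b2 b3 b4 b5 b6 b7 b8 b9 b10 b11 b12 b13 c) MOD) fun r =>
      Nat.beq (Nat.land r h) h) (slotsF K Q MOD h v0 v1 v2 v3 v4 v5 v6 v7 v8 v9 v10 v11 v12 v13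
      b0 b1 b2 b3 b4 b5 b6 b7 b8 b9 b10 b11 b12 b13 c as) := rfl
    rw [e, band_eq, Bool.and_eq_true, fcN_eq, fcN_eq, Nat.beq_eq] at H
    intro j hj
    rcases List.mem_cons.1 hj with rfl | h2
    · exact H.1
    · exact ih H.2 j h2

theorem slotL_eq : slotList 10 = slotL := by decide +kernel

theorem packN_eq (D K h : ℕ) (es : List PE) :
    packN D K h es = (packL D K es).map (fun z => (Int.add z (Int.ofNat h)).toNat) := by
  induction es with
  | nil => rfl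
  | cons e es ih => rw [packN, packL, List.map_cons, ih]

theorem packM_padM {M : List (List Int)} : True := trivial

/-- soundness of the packed check -/
theorem fastTwo_sound {K Bd : ℕ} {M : List (List Int)} (hS : Shp M Bd) {U V : Tri}
    (H : fastTwo K Bd (packM M) U V = true) :
    twoLevel 10 K (padM M) (triMon U) (triMon V) = true := by
  rw [fastTwo] at H
  simp only [band_eq, Bool.and_eq_true] at H
  obtain ⟨hK, hBd, H⟩ := H
  replace H := sumL_sound H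
  replace H := sumL_sound H
  simp only [band_eq, Bool.and_eq_true, fcN_eq] at H
  obtain ⟨hl, hlv, H⟩ := H
  have hK' : 1 ≤ K := Nat.le_of_ble_eq_true hK
  have hBd' : Bd < 2 ^ 127 := Nat.le_of_ble_eq_true hBd
  have hl' : (Bd + 1) * ((l1L (triMon U)).sum * (l1L (triMon V)).sum) + 1 ≤ 2 ^ (K - 1) :=
    Nat.le_of_ble_eq_true hl
  have hlv' : (l1L (triMon V)).sum + 1 ≤ 2 ^ (K - 1) := Nat.le_of_ble_eq_true hlv
  obtain ⟨MN, hMN, H⟩ := fcP_sound H
  have hMN' : (MN : ℤ) = packM M + (halfMask 196 128 : ℕ) := hMN.symm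
  have hB : (Int.ofNat (Nat.pow 2 K)) = (2 : ℤ) ^ K := by
    have : (Int.ofNat (Nat.pow 2 K)) = ((2 ^ K : ℕ) : ℤ) := rfl
    rw [this]; push_cast; rfl
  have hY : (Int.ofNat (Nat.pow 2 (Nat.mul 11 K))) = (2 : ℤ) ^ (11 * K) := by
    have : (Int.ofNat (Nat.pow 2 (Nat.mul 11 K))) = ((2 ^ (11 * K) : ℕ) : ℤ) := rfl
    rw [this]; push_cast; rfl
  rw [hB, hY] at H
  obtain ⟨m0, m1, m2, m3, m4, m5, m6, m7, m8, m9, m10, m11, m12, m13, hm, H⟩ := monF_sound H rfl rfl rfl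
  rw [← packed_triMon K U rfl rfl rfl] at hm
  obtain ⟨n0, n1, n2, n3, n4, n5, n6, n7, n8, n9, n10, n11, n12, n13, hn, H⟩ := monF_sound H rfl rfl rfl
  rw [← packed_triMon K V rfl rfl rfl] at hn
  obtain ⟨v0, hv0, H⟩ := fcP_sound H
  obtain ⟨v1, hv1, H⟩ := fcP_sound H
  obtain ⟨v2, hv2, H⟩ := fcP_sound H
  obtain ⟨v3, hv3, H⟩ := fcP_sound H
  obtain ⟨v4, hv4, H⟩ := fcP_sound H
  obtain ⟨v5, hv5, H⟩ := fcP_sound H
  obtain ⟨v6, hv6, H⟩ := fcP_sound H
  obtain ⟨v7, hv7, H⟩ := fcP_sound H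
  obtain ⟨v8, hv8, H⟩ := fcP_sound H
  obtain ⟨v9, hv9, H⟩ := fcP_sound H
  obtain ⟨v10, hv10, H⟩ := fcP_sound H
  obtain ⟨v11, hv11, H⟩ := fcP_sound H
  obtain ⟨v12, hv12, H⟩ := fcP_sound H
  obtain ⟨v13, hv13, H⟩ := fcP_sound H
  have hslots := slotsF_mem H
  clear H
  obtain ⟨MOD, hMOD⟩ : ∃ MOD : ℕ, MOD = Nat.pow 2 (Nat.mul 121 K) := ⟨_, rfl⟩
  rw [← hMOD] at hslots
  have hM : 0 < MOD := by
    rw [hMOD]
    show 0 < 2 ^ (121 * K)
    positivity
  obtain ⟨b0, hb0⟩ : ∃ b, b = Nat.mod (row14 (Nat.pow 2 128) MN 0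
    (toMod MOD m0) (toMod MOD m1) (toMod MOD m2) (toMod MOD m3) (toMod MOD m4) (toMod MOD m5) (toMod MOD m6) (toMod MOD m7) (toMod MOD m8) (toMod MOD m9) (toMod MOD m10) (toMod MOD m11) (toMod MOD m12) (toMod MOD m13)
    (Nat.sub MOD (Nat.mod (Nat.mul (Nat.pow 2 127) (Nat.add (Nat.add (Nat.add (Nat.add (Nat.add (Nat.add (Nat.add (Nat.add (Nat.add (Nat.add (Nat.add (Nat.add (Nat.add (toMod MOD m0) (toMod MOD m1)) (toMod MOD m2)) (toMod MOD m3)) (toMod MOD m4)) (toMod MOD m5)) (toMod MOD m6)) (toMod MOD m7)) (toMod MOD m8)) (toMod MOD m9)) (toMod MOD m10)) (toMod MOD m11)) (toMod MOD m12)) (toMod MOD m13))) MOD))) MOD := ⟨_, rfl⟩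
  rw [← hb0] at hslots
  have q0 : (b0 : ℤ) ≡ dotZ ((List.range 14).map (fun c => ent M 0 c))
      [m0, m1, m2, m3, m4, m5, m6, m7, m8, m9, m10, m11, m12, m13] [ZMOD MOD] := by
    rw [hb0]
    exact row_cast hM hS hBd' hMN' m0 m1 m2 m3 m4 m5 m6 m7 m8 m9 m10 m11 m12 m13 0 (by norm_num)
  obtain ⟨b1, hb1⟩ : ∃ b, b = Nat.mod (row14 (Nat.pow 2 128) MN 1792
    (toMod MOD m0) (toMod MOD m1) (toMod MOD m2) (toMod MOD m3) (toMod MOD m4) (toMod MOD m5) (toMod MOD m6) (toMod MOD m7) (toMod MOD m8) (toMod MOD m9) (toMod MOD m10) (toMod MOD m11) (toMod MOD m12) (toMod MOD m13)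
    (Nat.sub MOD (Nat.mod (Nat.mul (Nat.pow 2 127) (Nat.add (Nat.add (Nat.add (Nat.add (Nat.add (Nat.add (Nat.add (Nat.add (Nat.add (Nat.add (Nat.add (Nat.add (Nat.add (toMod MOD m0) (toMod MOD m1)) (toMod MOD m2)) (toMod MOD m3)) (toMod MOD m4)) (toMod MOD m5)) (toMod MOD m6)) (toMod MOD m7)) (toMod MOD m8)) (toMod MOD m9)) (toMod MOD m10)) (toMod MOD m11)) (toMod MOD m12)) (toMod MOD m13))) MOD))) MOD := ⟨_, rfl⟩
  rw [← hb1] at hslots
  have q1 : (b1 : ℤ) ≡ dotZ ((List.range 14).map (fun c => ent M 1 c))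
      [m0, m1, m2, m3, m4, m5, m6, m7, m8, m9, m10, m11, m12, m13] [ZMOD MOD] := by
    rw [hb1]
    exact row_cast hM hS hBd' hMN' m0 m1 m2 m3 m4 m5 m6 m7 m8 m9 m10 m11 m12 m13 1 (by norm_num)
  obtain ⟨b2, hb2⟩ : ∃ b, b = Nat.mod (row14 (Nat.pow 2 128) MN 3584
    (toMod MOD m0) (toMod MOD m1) (toMod MOD m2) (toMod MOD m3) (toMod MOD m4) (toMod MOD m5) (toMod MOD m6) (toMod MOD m7) (toMod MOD m8) (toMod MOD m9) (toMod MOD m10) (toMod MOD m11) (toMod MOD m12) (toMod MOD m13)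
    (Nat.sub MOD (Nat.mod (Nat.mul (Nat.pow 2 127) (Nat.add (Nat.add (Nat.add (Nat.add (Nat.add (Nat.add (Nat.add (Nat.add (Nat.add (Nat.add (Nat.add (Nat.add (Nat.add (toMod MOD m0) (toMod MOD m1)) (toMod MOD m2)) (toMod MOD m3)) (toMod MOD m4)) (toMod MOD m5)) (toMod MOD m6)) (toMod MOD m7)) (toMod MOD m8)) (toMod MOD m9)) (toMod MOD m10)) (toMod MOD m11)) (toMod MOD m12)) (toMod MOD m13))) MOD))) MOD := ⟨_, rfl⟩
  rw [← hb2] at hslots
  have q2 : (b2 : ℤ) ≡ dotZ ((List.range 14).map (fun c => ent M 2 c))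
      [m0, m1, m2, m3, m4, m5, m6, m7, m8, m9, m10, m11, m12, m13] [ZMOD MOD] := by
    rw [hb2]
    exact row_cast hM hS hBd' hMN' m0 m1 m2 m3 m4 m5 m6 m7 m8 m9 m10 m11 m12 m13 2 (by norm_num)
  obtain ⟨b3, hb3⟩ : ∃ b, b = Nat.mod (row14 (Nat.pow 2 128) MN 5376
    (toMod MOD m0) (toMod MOD m1) (toMod MOD m2) (toMod MOD m3) (toMod MOD m4) (toMod MOD m5) (toMod MOD m6) (toMod MOD m7) (toMod MOD m8) (toMod MOD m9) (toMod MOD m10) (toMod MOD m11) (toMod MOD m12) (toMod MOD m13)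
    (Nat.sub MOD (Nat.mod (Nat.mul (Nat.pow 2 127) (Nat.add (Nat.add (Nat.add (Nat.add (Nat.add (Nat.add (Nat.add (Nat.add (Nat.add (Nat.add (Nat.add (Nat.add (Nat.add (toMod MOD m0) (toMod MOD m1)) (toMod MOD m2)) (toMod MOD m3)) (toMod MOD m4)) (toMod MOD m5)) (toMod MOD m6)) (toMod MOD m7)) (toMod MOD m8)) (toMod MOD m9)) (toMod MOD m10)) (toMod MOD m11)) (toMod MOD m12)) (toMod MOD m13))) MOD))) MOD := ⟨_, rfl⟩
  rw [← hb3] at hslots
  have q3 : (b3 : ℤ) ≡ dotZ ((List.range 14).map (fun c => ent M 3 c))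
      [m0, m1, m2, m3, m4, m5, m6, m7, m8, m9, m10, m11, m12, m13] [ZMOD MOD] := by
    rw [hb3]
    exact row_cast hM hS hBd' hMN' m0 m1 m2 m3 m4 m5 m6 m7 m8 m9 m10 m11 m12 m13 3 (by norm_num)
  obtain ⟨b4, hb4⟩ : ∃ b, b = Nat.mod (row14 (Nat.pow 2 128) MN 7168
    (toMod MOD m0) (toMod MOD m1) (toMod MOD m2) (toMod MOD m3) (toMod MOD m4) (toMod MOD m5) (toMod MOD m6) (toMod MOD m7) (toMod MOD m8) (toMod MOD m9) (toMod MOD m10) (toMod MOD m11) (toMod MOD m12) (toMod MOD m13)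
    (Nat.sub MOD (Nat.mod (Nat.mul (Nat.pow 2 127) (Nat.add (Nat.add (Nat.add (Nat.add (Nat.add (Nat.add (Nat.add (Nat.add (Nat.add (Nat.add (Nat.add (Nat.add (Nat.add (toMod MOD m0) (toMod MOD m1)) (toMod MOD m2)) (toMod MOD m3)) (toMod MOD m4)) (toMod MOD m5)) (toMod MOD m6)) (toMod MOD m7)) (toMod MOD m8)) (toMod MOD m9)) (toMod MOD m10)) (toMod MOD m11)) (toMod MOD m12)) (toMod MOD m13))) MOD))) MOD := ⟨_, rfl⟩
  rw [← hb4] at hslots
  have q4 : (b4 : ℤ) ≡ dotZ ((List.range 14).map (fun c => ent M 4 c))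
      [m0, m1, m2, m3, m4, m5, m6, m7, m8, m9, m10, m11, m12, m13] [ZMOD MOD] := by
    rw [hb4]
    exact row_cast hM hS hBd' hMN' m0 m1 m2 m3 m4 m5 m6 m7 m8 m9 m10 m11 m12 m13 4 (by norm_num)
  obtain ⟨b5, hb5⟩ : ∃ b, b = Nat.mod (row14 (Nat.pow 2 128) MN 8960
    (toMod MOD m0) (toMod MOD m1) (toMod MOD m2) (toMod MOD m3) (toMod MOD m4) (toMod MOD m5) (toMod MOD m6) (toMod MOD m7) (toMod MOD m8) (toMod MOD m9) (toMod MOD m10) (toMod MOD m11) (toMod MOD m12) (toMod MOD m13)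
    (Nat.sub MOD (Nat.mod (Nat.mul (Nat.pow 2 127) (Nat.add (Nat.add (Nat.add (Nat.add (Nat.add (Nat.add (Nat.add (Nat.add (Nat.add (Nat.add (Nat.add (Nat.add (Nat.add (toMod MOD m0) (toMod MOD m1)) (toMod MOD m2)) (toMod MOD m3)) (toMod MOD m4)) (toMod MOD m5)) (toMod MOD m6)) (toMod MOD m7)) (toMod MOD m8)) (toMod MOD m9)) (toMod MOD m10)) (toMod MOD m11)) (toMod MOD m12)) (toMod MOD m13))) MOD))) MOD := ⟨_, rfl⟩
  rw [← hb5] at hslots
  have q5 : (b5 : ℤ) ≡ dotZ ((List.range 14).map (fun c => ent M 5 c))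
      [m0, m1, m2, m3, m4, m5, m6, m7, m8, m9, m10, m11, m12, m13] [ZMOD MOD] := by
    rw [hb5]
    exact row_cast hM hS hBd' hMN' m0 m1 m2 m3 m4 m5 m6 m7 m8 m9 m10 m11 m12 m13 5 (by norm_num)
  obtain ⟨b6, hb6⟩ : ∃ b, b = Nat.mod (row14 (Nat.pow 2 128) MN 10752
    (toMod MOD m0) (toMod MOD m1) (toMod MOD m2) (toMod MOD m3) (toMod MOD m4) (toMod MOD m5) (toMod MOD m6) (toMod MOD m7) (toMod MOD m8) (toMod MOD m9) (toMod MOD m10) (toMod MOD m11) (toMod MOD m12) (toMod MOD m13)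
    (Nat.sub MOD (Nat.mod (Nat.mul (Nat.pow 2 127) (Nat.add (Nat.add (Nat.add (Nat.add (Nat.add (Nat.add (Nat.add (Nat.add (Nat.add (Nat.add (Nat.add (Nat.add (Nat.add (toMod MOD m0) (toMod MOD m1)) (toMod MOD m2)) (toMod MOD m3)) (toMod MOD m4)) (toMod MOD m5)) (toMod MOD m6)) (toMod MOD m7)) (toMod MOD m8)) (toMod MOD m9)) (toMod MOD m10)) (toMod MOD m11)) (toMod MOD m12)) (toMod MOD m13))) MOD))) MOD := ⟨_, rfl⟩
  rw [← hb6] at hslots
  have q6 : (b6 : ℤ) ≡ dotZ ((List.range 14).map (fun c => ent M 6 c))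
      [m0, m1, m2, m3, m4, m5, m6, m7, m8, m9, m10, m11, m12, m13] [ZMOD MOD] := by
    rw [hb6]
    exact row_cast hM hS hBd' hMN' m0 m1 m2 m3 m4 m5 m6 m7 m8 m9 m10 m11 m12 m13 6 (by norm_num)
  obtain ⟨b7, hb7⟩ : ∃ b, b = Nat.mod (row14 (Nat.pow 2 128) MN 12544
    (toMod MOD m0) (toMod MOD m1) (toMod MOD m2) (toMod MOD m3) (toMod MOD m4) (toMod MOD m5) (toMod MOD m6) (toMod MOD m7) (toMod MOD m8) (toMod MOD m9) (toMod MOD m10) (toMod MOD m11) (toMod MOD m12) (toMod MOD m13)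
    (Nat.sub MOD (Nat.mod (Nat.mul (Nat.pow 2 127) (Nat.add (Nat.add (Nat.add (Nat.add (Nat.add (Nat.add (Nat.add (Nat.add (Nat.add (Nat.add (Nat.add (Nat.add (Nat.add (toMod MOD m0) (toMod MOD m1)) (toMod MOD m2)) (toMod MOD m3)) (toMod MOD m4)) (toMod MOD m5)) (toMod MOD m6)) (toMod MOD m7)) (toMod MOD m8)) (toMod MOD m9)) (toMod MOD m10)) (toMod MOD m11)) (toMod MOD m12)) (toMod MOD m13))) MOD))) MOD := ⟨_, rfl⟩
  rw [← hb7] at hslots
  have q7 : (b7 : ℤ) ≡ dotZ ((List.range 14).map (fun c => ent M 7 c))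
      [m0, m1, m2, m3, m4, m5, m6, m7, m8, m9, m10, m11, m12, m13] [ZMOD MOD] := by
    rw [hb7]
    exact row_cast hM hS hBd' hMN' m0 m1 m2 m3 m4 m5 m6 m7 m8 m9 m10 m11 m12 m13 7 (by norm_num)
  obtain ⟨b8, hb8⟩ : ∃ b, b = Nat.mod (row14 (Nat.pow 2 128) MN 14336
    (toMod MOD m0) (toMod MOD m1) (toMod MOD m2) (toMod MOD m3) (toMod MOD m4) (toMod MOD m5) (toMod MOD m6) (toMod MOD m7) (toMod MOD m8) (toMod MOD m9) (toMod MOD m10) (toMod MOD m11) (toMod MOD m12) (toMod MOD m13)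
    (Nat.sub MOD (Nat.mod (Nat.mul (Nat.pow 2 127) (Nat.add (Nat.add (Nat.add (Nat.add (Nat.add (Nat.add (Nat.add (Nat.add (Nat.add (Nat.add (Nat.add (Nat.add (Nat.add (toMod MOD m0) (toMod MOD m1)) (toMod MOD m2)) (toMod MOD m3)) (toMod MOD m4)) (toMod MOD m5)) (toMod MOD m6)) (toMod MOD m7)) (toMod MOD m8)) (toMod MOD m9)) (toMod MOD m10)) (toMod MOD m11)) (toMod MOD m12)) (toMod MOD m13))) MOD))) MOD := ⟨_, rfl⟩
  rw [← hb8] at hslots
  have q8 : (b8 : ℤ) ≡ dotZ ((List.range 14).map (fun c => ent M 8 c))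
      [m0, m1, m2, m3, m4, m5, m6, m7, m8, m9, m10, m11, m12, m13] [ZMOD MOD] := by
    rw [hb8]
    exact row_cast hM hS hBd' hMN' m0 m1 m2 m3 m4 m5 m6 m7 m8 m9 m10 m11 m12 m13 8 (by norm_num)
  obtain ⟨b9, hb9⟩ : ∃ b, b = Nat.mod (row14 (Nat.pow 2 128) MN 16128
    (toMod MOD m0) (toMod MOD m1) (toMod MOD m2) (toMod MOD m3) (toMod MOD m4) (toMod MOD m5) (toMod MOD m6) (toMod MOD m7) (toMod MOD m8) (toMod MOD m9) (toMod MOD m10) (toMod MOD m11) (toMod MOD m12) (toMod MOD m13)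
    (Nat.sub MOD (Nat.mod (Nat.mul (Nat.pow 2 127) (Nat.add (Nat.add (Nat.add (Nat.add (Nat.add (Nat.add (Nat.add (Nat.add (Nat.add (Nat.add (Nat.add (Nat.add (Nat.add (toMod MOD m0) (toMod MOD m1)) (toMod MOD m2)) (toMod MOD m3)) (toMod MOD m4)) (toMod MOD m5)) (toMod MOD m6)) (toMod MOD m7)) (toMod MOD m8)) (toMod MOD m9)) (toMod MOD m10)) (toMod MOD m11)) (toMod MOD m12)) (toMod MOD m13))) MOD))) MOD := ⟨_, rfl⟩
  rw [← hb9] at hslots
  have q9 : (b9 : ℤ) ≡ dotZ ((List.range 14).map (fun c => ent M 9 c))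
      [m0, m1, m2, m3, m4, m5, m6, m7, m8, m9, m10, m11, m12, m13] [ZMOD MOD] := by
    rw [hb9]
    exact row_cast hM hS hBd' hMN' m0 m1 m2 m3 m4 m5 m6 m7 m8 m9 m10 m11 m12 m13 9 (by norm_num)
  obtain ⟨b10, hb10⟩ : ∃ b, b = Nat.mod (row14 (Nat.pow 2 128) MN 17920
    (toMod MOD m0) (toMod MOD m1) (toMod MOD m2) (toMod MOD m3) (toMod MOD m4) (toMod MOD m5) (toMod MOD m6) (toMod MOD m7) (toMod MOD m8) (toMod MOD m9) (toMod MOD m10) (toMod MOD m11) (toMod MOD m12) (toMod MOD m13)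
    (Nat.sub MOD (Nat.mod (Nat.mul (Nat.pow 2 127) (Nat.add (Nat.add (Nat.add (Nat.add (Nat.add (Nat.add (Nat.add (Nat.add (Nat.add (Nat.add (Nat.add (Nat.add (Nat.add (toMod MOD m0) (toMod MOD m1)) (toMod MOD m2)) (toMod MOD m3)) (toMod MOD m4)) (toMod MOD m5)) (toMod MOD m6)) (toMod MOD m7)) (toMod MOD m8)) (toMod MOD m9)) (toMod MOD m10)) (toMod MOD m11)) (toMod MOD m12)) (toMod MOD m13))) MOD))) MOD := ⟨_, rfl⟩
  rw [← hb10] at hslots
  have q10 : (b10 : ℤ) ≡ dotZ ((List.range 14).map (fun c => ent M 10 c))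
      [m0, m1, m2, m3, m4, m5, m6, m7, m8, m9, m10, m11, m12, m13] [ZMOD MOD] := by
    rw [hb10]
    exact row_cast hM hS hBd' hMN' m0 m1 m2 m3 m4 m5 m6 m7 m8 m9 m10 m11 m12 m13 10 (by norm_num)
  obtain ⟨b11, hb11⟩ : ∃ b, b = Nat.mod (row14 (Nat.pow 2 128) MN 19712
    (toMod MOD m0) (toMod MOD m1) (toMod MOD m2) (toMod MOD m3) (toMod MOD m4) (toMod MOD m5) (toMod MOD m6) (toMod MOD m7) (toMod MOD m8) (toMod MOD m9) (toMod MOD m10) (toMod MOD m11) (toMod MOD m12) (toMod MOD m13)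
    (Nat.sub MOD (Nat.mod (Nat.mul (Nat.pow 2 127) (Nat.add (Nat.add (Nat.add (Nat.add (Nat.add (Nat.add (Nat.add (Nat.add (Nat.add (Nat.add (Nat.add (Nat.add (Nat.add (toMod MOD m0) (toMod MOD m1)) (toMod MOD m2)) (toMod MOD m3)) (toMod MOD m4)) (toMod MOD m5)) (toMod MOD m6)) (toMod MOD m7)) (toMod MOD m8)) (toMod MOD m9)) (toMod MOD m10)) (toMod MOD m11)) (toMod MOD m12)) (toMod MOD m13))) MOD))) MOD := ⟨_, rfl⟩
  rw [← hb11] at hslots
  have q11 : (b11 : ℤ) ≡ dotZ ((List.range 14).map (fun c => ent M 11 c))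
      [m0, m1, m2, m3, m4, m5, m6, m7, m8, m9, m10, m11, m12, m13] [ZMOD MOD] := by
    rw [hb11]
    exact row_cast hM hS hBd' hMN' m0 m1 m2 m3 m4 m5 m6 m7 m8 m9 m10 m11 m12 m13 11 (by norm_num)
  obtain ⟨b12, hb12⟩ : ∃ b, b = Nat.mod (row14 (Nat.pow 2 128) MN 21504
    (toMod MOD m0) (toMod MOD m1) (toMod MOD m2) (toMod MOD m3) (toMod MOD m4) (toMod MOD m5) (toMod MOD m6) (toMod MOD m7) (toMod MOD m8) (toMod MOD m9) (toMod MOD m10) (toMod MOD m11) (toMod MOD m12) (toMod MOD m13)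
    (Nat.sub MOD (Nat.mod (Nat.mul (Nat.pow 2 127) (Nat.add (Nat.add (Nat.add (Nat.add (Nat.add (Nat.add (Nat.add (Nat.add (Nat.add (Nat.add (Nat.add (Nat.add (Nat.add (toMod MOD m0) (toMod MOD m1)) (toMod MOD m2)) (toMod MOD m3)) (toMod MOD m4)) (toMod MOD m5)) (toMod MOD m6)) (toMod MOD m7)) (toMod MOD m8)) (toMod MOD m9)) (toMod MOD m10)) (toMod MOD m11)) (toMod MOD m12)) (toMod MOD m13))) MOD))) MOD := ⟨_, rfl⟩
  rw [← hb12] at hslots
  have q12 : (b12 : ℤ) ≡ dotZ ((List.range 14).map (fun c => ent M 12 c))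
      [m0, m1, m2, m3, m4, m5, m6, m7, m8, m9, m10, m11, m12, m13] [ZMOD MOD] := by
    rw [hb12]
    exact row_cast hM hS hBd' hMN' m0 m1 m2 m3 m4 m5 m6 m7 m8 m9 m10 m11 m12 m13 12 (by norm_num)
  obtain ⟨b13, hb13⟩ : ∃ b, b = Nat.mod (row14 (Nat.pow 2 128) MN 23296
    (toMod MOD m0) (toMod MOD m1) (toMod MOD m2) (toMod MOD m3) (toMod MOD m4) (toMod MOD m5) (toMod MOD m6) (toMod MOD m7) (toMod MOD m8) (toMod MOD m9) (toMod MOD m10) (toMod MOD m11) (toMod MOD m12) (toMod MOD m13)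
    (Nat.sub MOD (Nat.mod (Nat.mul (Nat.pow 2 127) (Nat.add (Nat.add (Nat.add (Nat.add (Nat.add (Nat.add (Nat.add (Nat.add (Nat.add (Nat.add (Nat.add (Nat.add (Nat.add (toMod MOD m0) (toMod MOD m1)) (toMod MOD m2)) (toMod MOD m3)) (toMod MOD m4)) (toMod MOD m5)) (toMod MOD m6)) (toMod MOD m7)) (toMod MOD m8)) (toMod MOD m9)) (toMod MOD m10)) (toMod MOD m11)) (toMod MOD m12)) (toMod MOD m13))) MOD))) MOD := ⟨_, rfl⟩
  rw [← hb13] at hslots
  have q13 : (b13 : ℤ) ≡ dotZ ((List.range 14).map (fun c => ent M 13 c))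
      [m0, m1, m2, m3, m4, m5, m6, m7, m8, m9, m10, m11, m12, m13] [ZMOD MOD] := by
    rw [hb13]
    exact row_cast hM hS hBd' hMN' m0 m1 m2 m3 m4 m5 m6 m7 m8 m9 m10 m11 m12 m13 13 (by norm_num)
  clear hb0 hb1 hb2 hb3 hb4 hb5 hb6 hb7 hb8 hb9 hb10 hb11 hb12 hb13
  -- the check of the old form
  simp only [twoLevel, force_eq, forceLZ_eq, forceLN_eq, forceM_eq, Bool.and_eq_true]
  have hbd : ∀ r ∈ padM M, ∀ x ∈ r, x.natAbs ≤ Bd := by
    intro r hr x hx
    rw [padM, List.mem_map] at hr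
    obtain ⟨i, _, rfl⟩ := hr
    rw [List.mem_map] at hx
    obtain ⟨j, _, rfl⟩ := hx
    exact ent_bd hS i j
  refine ⟨⟨⟨⟨⟨?_, degOK_triMon U⟩, degOK_triMon V⟩, l1OK_of hlv'⟩, ?_⟩, ?_, ?_⟩
  · exact Nat.ble_eq_true_of_le hK'
  · exact Nat.ble_eq_true_of_le (le_of_eq (by simp [padM, triMon, mons]))
  · apply Nat.ble_eq_true_of_le
    refine le_trans ?_ hl'
    have := mdotN_le hbd (l1L (triMon U)) (l1L (triMon V))
    have h2 : Bd * ((l1L (triMon U)).sum * (l1L (triMon V)).sum) ≤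
      (Bd + 1) * ((l1L (triMon U)).sum * (l1L (triMon V)).sum) :=
      Nat.mul_le_mul_right _ (Nat.le_succ _)
    omega
  · have e121 : (10 + 1) ^ 2 = 121 := by norm_num
    rw [slotL_eq, e121]
    have eMOD : 2 ^ (K * 121) = MOD := by
      rw [hMOD, mul_comm]; rfl
    rw [eMOD]
    refine slotsOK_of fun j hj => ?_
    have hj' := hslots j hj
    have ev : packN 10 K (halfMask 121 K) (triMon V) =
        [v0, v1, v2, v3, v4, v5, v6, v7, v8, v9, v10, v11, v12, v13] := by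
      rw [packN_eq, ← hn]
      have t : ∀ {z : ℤ} {v : ℕ}, z.add (Int.ofNat (halfMask 121 K)) = (v : ℤ) →
          (Int.add z (Int.ofNat (halfMask 121 K))).toNat = v := by
        intro z v hz
        rw [hz, Int.toNat_natCast]
      simp only [List.map_cons, List.map_nil, t hv0, t hv1, t hv2, t hv3, t hv4, t hv5, t hv6, t hv7, t hv8, t hv9, t hv10, t hv11, t hv12, t hv13]
    rw [ev, ← hm]
    have ez : rowsZ [m0, m1, m2, m3, m4, m5, m6, m7, m8, m9, m10, m11, m12, m13] (padM M) =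
        [dotZ ((List.range 14).map (fun c => ent M 0 c)) [m0, m1, m2, m3, m4, m5, m6, m7, m8, m9, m10, m11, m12, m13], dotZ ((List.range 14).map (fun c => ent M 1 c)) [m0, m1, m2, m3, m4, m5, m6, m7, m8, m9, m10, m11, m12, m13], dotZ ((List.range 14).map (fun c => ent M 2 c)) [m0, m1, m2, m3, m4, m5, m6, m7, m8, m9, m10, m11, m12, m13], dotZ ((List.range 14).map (fun c => ent M 3 c)) [m0, m1, m2, m3, m4, m5, m6, m7, m8, m9, m10, m11, m12, m13], dotZ ((List.range 14).map (fun c => ent M 4 c)) [m0, m1, m2, m3, m4, m5, m6, m7, m8, m9, m10, m11, m12, m13], dotZ ((List.range 14).map (fun c => ent M 5 c)) [m0, m1, m2, m3, m4, m5, m6, m7, m8, m9, m10, m11, m12, m13], dotZ ((List.range 14).map (fun c => ent M 6 c)) [m0, m1, m2, m3, m4, m5, m6, m7, m8, m9, m10, m11, m12, m13], dotZ ((List.range 14).map (fun c => ent M 7 c)) [m0, m1, m2, m3, m4, m5, m6, m7, m8, m9, m10, m11, m12, m13], dotZ ((List.range 14).map (fun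 c => ent M 8 c)) [m0, m1, m2, m3, m4, m5, m6, m7, m8, m9, m10, m11, m12, m13], dotZ ((List.range 14).map (fun c => ent M 9 c)) [m0, m1, m2, m3, m4, m5, m6, m7, m8, m9, m10, m11, m12, m13], dotZ ((List.range 14).map (fun c => ent M 10 c)) [m0, m1, m2, m3, m4, m5, m6, m7, m8, m9, m10, m11, m12, m13], dotZ ((List.range 14).map (fun c => ent M 11 c)) [m0, m1, m2, m3, m4, m5, m6, m7, m8, m9, m10, m11, m12, m13], dotZ ((List.range 14).map (fun c => ent M 12 c)) [m0, m1, m2, m3, m4, m5, m6, m7, m8, m9, m10, m11, m12, m13], dotZ ((List.range 14).map (fun c => ent M 13 c)) [m0, m1, m2, m3, m4, m5, m6, m7, m8, m9, m10, m11, m12, m13]] := rfl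
    rw [ez]
    obtain ⟨z0, hz0⟩ : ∃ z, z = dotZ ((List.range 14).map (fun c => ent M 0 c))
      [m0, m1, m2, m3, m4, m5, m6, m7, m8, m9, m10, m11, m12, m13] := ⟨_, rfl⟩
    rw [← hz0] at q0 ⊢
    obtain ⟨z1, hz1⟩ : ∃ z, z = dotZ ((List.range 14).map (fun c => ent M 1 c))
      [m0, m1, m2, m3, m4, m5, m6, m7, m8, m9, m10, m11, m12, m13] := ⟨_, rfl⟩
    rw [← hz1] at q1 ⊢
    obtain ⟨z2, hz2⟩ : ∃ z, z = dotZ ((List.range 14).map (fun c => ent M 2 c))
      [m0, m1, m2, m3, m4, m5, m6, m7, m8, m9, m10, m11, m12, m13] := ⟨_, rfl⟩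
    rw [← hz2] at q2 ⊢
    obtain ⟨z3, hz3⟩ : ∃ z, z = dotZ ((List.range 14).map (fun c => ent M 3 c))
      [m0, m1, m2, m3, m4, m5, m6, m7, m8, m9, m10, m11, m12, m13] := ⟨_, rfl⟩
    rw [← hz3] at q3 ⊢
    obtain ⟨z4, hz4⟩ : ∃ z, z = dotZ ((List.range 14).map (fun c => ent M 4 c))
      [m0, m1, m2, m3, m4, m5, m6, m7, m8, m9, m10, m11, m12, m13] := ⟨_, rfl⟩
    rw [← hz4] at q4 ⊢
    obtain ⟨z5, hz5⟩ : ∃ z, z = dotZ ((List.range 14).map (fun c => ent M 5 c))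
      [m0, m1, m2, m3, m4, m5, m6, m7, m8, m9, m10, m11, m12, m13] := ⟨_, rfl⟩
    rw [← hz5] at q5 ⊢
    obtain ⟨z6, hz6⟩ : ∃ z, z = dotZ ((List.range 14).map (fun c => ent M 6 c))
      [m0, m1, m2, m3, m4, m5, m6, m7, m8, m9, m10, m11, m12, m13] := ⟨_, rfl⟩
    rw [← hz6] at q6 ⊢
    obtain ⟨z7, hz7⟩ : ∃ z, z = dotZ ((List.range 14).map (fun c => ent M 7 c))
      [m0, m1, m2, m3, m4, m5, m6, m7, m8, m9, m10, m11, m12, m13] := ⟨_, rfl⟩
    rw [← hz7] at q7 ⊢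
    obtain ⟨z8, hz8⟩ : ∃ z, z = dotZ ((List.range 14).map (fun c => ent M 8 c))
      [m0, m1, m2, m3, m4, m5, m6, m7, m8, m9, m10, m11, m12, m13] := ⟨_, rfl⟩
    rw [← hz8] at q8 ⊢
    obtain ⟨z9, hz9⟩ : ∃ z, z = dotZ ((List.range 14).map (fun c => ent M 9 c))
      [m0, m1, m2, m3, m4, m5, m6, m7, m8, m9, m10, m11, m12, m13] := ⟨_, rfl⟩
    rw [← hz9] at q9 ⊢
    obtain ⟨z10, hz10⟩ : ∃ z, z = dotZ ((List.range 14).map (fun c => ent M 10 c))
      [m0, m1, m2, m3, m4, m5, m6, m7, m8, m9, m10, m11, m12, m13] := ⟨_, rfl⟩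
    rw [← hz10] at q10 ⊢
    obtain ⟨z11, hz11⟩ : ∃ z, z = dotZ ((List.range 14).map (fun c => ent M 11 c))
      [m0, m1, m2, m3, m4, m5, m6, m7, m8, m9, m10, m11, m12, m13] := ⟨_, rfl⟩
    rw [← hz11] at q11 ⊢
    obtain ⟨z12, hz12⟩ : ∃ z, z = dotZ ((List.range 14).map (fun c => ent M 12 c))
      [m0, m1, m2, m3, m4, m5, m6, m7, m8, m9, m10, m11, m12, m13] := ⟨_, rfl⟩
    rw [← hz12] at q12 ⊢
    obtain ⟨z13, hz13⟩ : ∃ z, z = dotZ ((List.range 14).map (fun c => ent M 13 c))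
      [m0, m1, m2, m3, m4, m5, m6, m7, m8, m9, m10, m11, m12, m13] := ⟨_, rfl⟩
    rw [← hz13] at q13 ⊢
    clear hz0 hz1 hz2 hz3 hz4 hz5 hz6 hz7 hz8 hz9 hz10 hz11 hz12 hz13
    obtain ⟨c2, hc2⟩ : ∃ c2, c2 = Nat.add (halfMask 121 K) (Nat.sub MOD (Nat.mod
      (Nat.mul (Nat.pow 2 (Nat.sub K 1)) (Nat.add (Nat.add (Nat.add (Nat.add (Nat.add (Nat.add (Nat.add (Nat.add (Nat.add (Nat.add (Nat.add (Nat.add (Nat.add b0 b1) b2) b3) b4) b5) b6) b7) b8) b9) b10) b11) b12) b13)) MOD)) := ⟨_, rfl⟩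
    rw [← hc2] at hj'
    obtain ⟨cst, hcst⟩ : ∃ cst, cst = toMod MOD (Int.sub (Int.ofNat (halfMask 121 K))
      (Int.mul (Int.ofNat (2 ^ (K - 1))) (sumZ [z0, z1, z2, z3, z4, z5, z6, z7, z8, z9, z10, z11, z12, z13]))) := ⟨_, rfl⟩
    rw [← hcst]
    have hcc : (c2 : ℤ) ≡ cst [ZMOD MOD] := by
      rw [hcst]
      refine Int.ModEq.trans ?_ (toMod_cast hM _).symm
      rw [hc2]
      have e0 : ∀ x y : ℕ, Nat.add y (Nat.sub MOD (Nat.mod x MOD)) = y + (MOD - x % MOD) :=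
        fun _ _ => rfl
      rw [e0, Nat.cast_add, Nat.cast_sub (Nat.mod_lt _ hM).le]
      have e1 : ∀ a b : ℤ, Int.sub a b = a - b := fun _ _ => rfl
      have e2 : ∀ a b : ℤ, Int.mul a b = a * b := fun _ _ => rfl
      rw [e1, e2, sub_eq_add_neg (Int.ofNat (halfMask 121 K))]
      refine Int.ModEq.add_left _ ?_
      have h1 : ((Nat.mul (Nat.pow 2 (Nat.sub K 1)) (Nat.add (Nat.add (Nat.add (Nat.add (Nat.add (Nat.add (Nat.add (Nat.add (Nat.add (Nat.add (Nat.add (Nat.add (Nat.add b0 b1) b2) b3) b4) b5) b6) b7) b8) b9) b10) b11) b12) b13) : ℕ) : ℤ) ≡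
          (Int.ofNat (2 ^ (K - 1))) * sumZ [z0, z1, z2, z3, z4, z5, z6, z7, z8, z9, z10, z11, z12, z13] [ZMOD MOD] := by
        have f1 : ∀ a b : ℕ, Nat.add a b = a + b := fun _ _ => rfl
        have f2 : ∀ a b : ℕ, Nat.mul a b = a * b := fun _ _ => rfl
        have f3 : Nat.pow 2 (Nat.sub K 1) = 2 ^ (K - 1) := rfl
        rw [f2, f3]
        simp only [f1]
        rw [Nat.cast_mul]
        have f4 : (Int.ofNat (2 ^ (K - 1))) = ((2 ^ (K - 1) : ℕ) : ℤ) := rfl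
        rw [f4]
        refine Int.ModEq.mul_left _ ?_
        rw [sumZ_eq]
        simp only [Nat.cast_add, List.sum_cons, List.sum_nil]
        refine ((((((((((((((q0).add q1).add q2).add q3).add q4).add q5).add q6).add q7).add q8).add q9).add q10).add q11).add q12).add q13).trans ?_
        exact congrArg (fun x : ℤ => x % (MOD : ℤ)) (by ring)
      have h2 := (Int.mod_modEq ((Nat.mul (Nat.pow 2 (Nat.sub K 1)) (Nat.add (Nat.add (Nat.add (Nat.add (Nat.add (Nat.add (Nat.add (Nat.add (Nat.add (Nat.add (Nat.add (Nat.add (Nat.add b0 b1) b2) b3) b4) b5) b6) b7) b8) b9) b10) b11) b12) b13) : ℕ) : ℤ)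
        MOD).trans h1
      have h3 := (Int.ModEq.refl (n := (MOD : ℤ)) (MOD : ℤ)).sub h2
      rw [← Int.natCast_mod] at h3
      refine h3.trans ?_
      have h4 : ∀ x : ℤ, (MOD : ℤ) - x ≡ -x [ZMOD MOD] := by
        intro x
        rw [show (MOD : ℤ) - x = -x + MOD by ring]
        simp [Int.ModEq]
      exact h4 _
    have hq : List.Forall₂ (fun (b : ℕ) (z : ℤ) => (b : ℤ) ≡ z [ZMOD MOD])
        [b0, b1, b2, b3, b4, b5, b6, b7, b8, b9, b10, b11, b12, b13] [z0, z1, z2, z3, z4, z5, z6, z7, z8, z9, z10, z11, z12, z13] := by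
      refine List.Forall₂.cons q0 ?_; refine List.Forall₂.cons q1 ?_; refine List.Forall₂.cons q2 ?_; refine List.Forall₂.cons q3 ?_; refine List.Forall₂.cons q4 ?_; refine List.Forall₂.cons q5 ?_; refine List.Forall₂.cons q6 ?_; refine List.Forall₂.cons q7 ?_; refine List.Forall₂.cons q8 ?_; refine List.Forall₂.cons q9 ?_; refine List.Forall₂.cons q10 ?_; refine List.Forall₂.cons q11 ?_; refine List.Forall₂.cons q12 ?_; refine List.Forall₂.cons q13 ?_; exact List.Forall₂.nil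
    have hq' : ∀ l : List ℤ, List.Forall₂ (fun (b : ℕ) (z : ℤ) => (b : ℤ) ≡ z [ZMOD MOD])
        (toModL MOD l) l := by
      intro l
      induction l with
      | nil => exact List.Forall₂.nil
      | cons a as ih => exact List.Forall₂.cons (toMod_cast hM a) ih
    have a1 := acc_cast' (2 ^ K) (K * j) [v0, v1, v2, v3, v4, v5, v6, v7, v8, v9, v10, v11, v12, v13] hq c2
    have a2 := acc_cast' (2 ^ K) (K * j) [v0, v1, v2, v3, v4, v5, v6, v7, v8, v9, v10, v11, v12, v13] (hq' [z0, z1, z2, z3, z4, z5, z6, z7, z8, z9, z10, z11, z12, z13]) cst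
    have a3 := (a1.trans (hcc.add_right _)).trans a2.symm
    have a4 := Int.natCast_modEq_iff.1 a3
    have a5 : acc (2 ^ K) (K * j) [v0, v1, v2, v3, v4, v5, v6, v7, v8, v9, v10, v11, v12, v13] [b0, b1, b2, b3, b4, b5, b6, b7, b8, b9, b10, b11, b12, b13] c2 % MOD =
      acc (2 ^ K) (K * j) [v0, v1, v2, v3, v4, v5, v6, v7, v8, v9, v10, v11, v12, v13] (toModL MOD [z0, z1, z2, z3, z4, z5, z6, z7, z8, z9, z10, z11, z12, z13]) cst % MOD := a4
    rw [← a5]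
    exact hj'

theorem mul1zF_eq (l : List Int) : mul1zF l = mul1z l := addF_eq l (0 :: l)

/-- soundness of the positivity check of a leaf -/
theorem leafTwo_sound {P : Par2} {W : Int} {K : ℕ} {L : Leaf2} {U V : Tri}
    (h : leafTwo P W K L U V = true) :
    twoLevel 10 K (padM (leafM2 P W L)) (triMon U) (triMon V) = true := by
  simp only [leafTwo, fcLZ_eq, fcZ_eq, fcN_eq, mul1zF_eq, smulF_eq, addF_eq] at h
  have e1 : smulL P.b1 (mul1z L.l2) = lN P L := rfl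
  have e2 : smulL P.b2 L.l2 = lC P L := rfl
  have e3 : addL (smulL P.b3 L.l3) (smulL P.b5 (mul1z (mul1z L.l5))) = lNN P L := rfl
  have e4 : smulL P.c5 (mul1z L.l5) = lNC P L := rfl
  have e5 : smulL P.d5 L.l5 = lCC P L := rfl
  have e6 : addL (smulL (m2 P) L.e2) (addL (smulL P.b3 L.e3) (smulL (m5 P) L.e5)) = lZ P L := rfl
  rw [e1, e2, e3, e4, e5, e6] at h
  have hMP : Int.sub (packM (base2 P W)) (Int.add (dotP (lN P L) tpN) (Int.add (dotP (lC P L) tpC1)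
      (Int.add (dotP (lNN P L) tpB) (Int.add (dotP (lNC P L) tpC) (Int.add (dotP (lCC P L) tpD)
      (dotP (lZ P L) tpZ)))))) = packM (leafM2 P W L) := by
    rw [leafM2, packM_addM, packM_smulM, packM_addM, packM_addM, packM_addM, packM_addM,
      packM_addM, packM_lin, packM_lin, packM_lin, packM_lin, packM_lin, packM_lin, ← tpN_eq,
      ← tpC1_eq, ← tpB_eq, ← tpC_eq, ← tpD_eq, ← tpZ_eq]
    have i1 : ∀ a b : ℤ, Int.sub a b = a - b := fun _ _ => rfl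
    have i2 : ∀ a b : ℤ, Int.add a b = a + b := fun _ _ => rfl
    simp only [i1, i2]
    ring
  rw [hMP] at h
  refine fastTwo_sound ?_ h
  have g1 := Shp.lin shpN (lN P L)
  have g2 := Shp.lin shpC1 (lC P L)
  have g3 := Shp.lin shpB' (lNN P L)
  have g4 := Shp.lin shpC (lNC P L)
  have g5 := Shp.lin shpD (lCC P L)
  have g6 := Shp.lin shpZ (lZ P L)
  refine ((shp_base2 P W).add (Shp.smul (-1)
    (g1.add (g2.add (g3.add (g4.add (g5.add g6))))))).mono (le_of_eq ?_)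
  have n1 : (-1 : ℤ).natAbs = 1 := rfl
  rw [n1]
  simp only [Nat.add_eq, Nat.mul_eq]
  ring

theorem hm_length (S p r : ℝ) : (hm S p r).length = 14 := by
  simp [hm, mons]

/-- nonnegativity of the remainder on the triangles -/
theorem leafTwo_nonneg {P : Par2} {W : Int} {K : ℕ} {L : Leaf2} {U V : Tri}
    (h : leafTwo P W K L U V = true) {S p r S' p' r' : ℝ} (hU : InTri U S p r)
    (hV : InTri V S' p' r') : 0 ≤ mdot (leafM2 P W L) (hm S p r) (hm S' p' r') := by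
  rw [← mdot_padM _ _ _ (hm_length S p r).le (hm_length S' p' r').le]
  exact leaf_nonneg (leafTwo_sound h) hU hV

end Vale.Agent.P154
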