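import Vale.Agent.P154.V5Blk

/-!
The generations of the Poisson tree: values of the functions evaluated by the kernel.
-/

namespace Vale.Agent.P154.DE


/-- Horner scheme, on lists -/
noncomputable def horL (X K den C D ka XO : Nat) (M : List Nat) : List Nat → List Nat → List Nat
  | [], r => r
  | a :: as, r => horL X K den C D ka XO M as
      (fix D (digs X den K ((C - a) * dot M r + a * ka * XO)))

theorem horB_eq (X k den C D ka XO : Nat) (M : Bk) : ∀ (as : List Nat) (r : Bk) (f : Bk → Bool),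
    ∃ r' : Bk, r'.toL = horL X (11 * k) den C D ka XO M.toL as r.toL ∧
      horB X (X ^ 11) k den C D ka XO M as r f = f r'
  | [], r, f => ⟨r, rfl, rfl⟩
  | a :: as, r, f => by
    have e : horB X (X ^ 11) k den C D ka XO M (a :: as) r f =
        ev (Nat.add (Nat.mul (Nat.sub C a) (dotB r M)) (Nat.mul (Nat.mul a ka) XO)) fun N =>
      unB X (X ^ 11) den k N fun r0 => fixB D r0 fun r1 =>
        horB X (X ^ 11) k den C D ka XO M as r1 f := rfl
    rw [e, ev_eq, unB_eq, fixB_eq]
    obtain ⟨r', h1, h2⟩ := horB_eq X k den C D ka XO M as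
      (fixD D (unD X (X ^ 11) den k ((C - a) * dotB r M + a * ka * XO))) f
    refine ⟨r', ?_, h2⟩
    rw [h1, fixD_eq, unD_eq, dotB_eq]
    rfl

/-- one generation, on lists -/
noncomputable def genL (X K1 K den1 den C D1 D ka XO : Nat) (T : List (List Nat)) (S : List Nat)
    (as r0 w : List Nat) : List Nat :=
  horL X K den C D ka XO (matL (fix D1 (digs X den1 K1 (dot S w))) T) as r0

theorem genB_eq (X k1 k den1 den C D1 D ka XO : Nat) (T : Tb) (S : Bk)
    (as : List Nat) (r0 w : Bk) (f : Bk → Bool) :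
    ∃ r' : Bk, r'.toL = genL X (11 * k1) (11 * k) den1 den C D1 D ka XO T.toL S.toL as r0.toL
        w.toL ∧ genB X (X ^ 11) k1 k den1 den C D1 D ka XO T S as r0 w f = f r' := by
  rw [genB, ev_eq, unB_eq, fixB_eq, matB_eq]
  obtain ⟨r', h1, h2⟩ := horB_eq X k den C D ka XO
    (matD (fixD D1 (unD X (X ^ 11) den1 k1 (dotB w S))) T) as r0 f
  refine ⟨r', ?_, h2⟩
  rw [h1, matD_eq, fixD_eq, unD_eq, dotB_eq]
  rfl

noncomputable def iterL' (X K1 K den1 den C D1 D ka XO : Nat) (T : List (List Nat))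
    (S : List Nat) (as r0 : List Nat) : Nat → List Nat → List Nat
  | 0, w => w
  | j + 1, w => iterL' X K1 K den1 den C D1 D ka XO T S as r0 j
      (genL X K1 K den1 den C D1 D ka XO T S as r0 w)

theorem iterB_eq (X k1 k den1 den C D1 D ka XO : Nat) (T : Tb) (S : Bk)
    (as : List Nat) (r0 : Bk) : ∀ (j : Nat) (w : Bk) (f : Bk → Bool),
    ∃ w' : Bk, w'.toL = iterL' X (11 * k1) (11 * k) den1 den C D1 D ka XO T.toL S.toL as r0.toL
        j w.toL ∧ iterB X (X ^ 11) k1 k den1 den C D1 D ka XO T S as r0 j w f = f w'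
  | 0, w, f => ⟨w, rfl, rfl⟩
  | j + 1, w, f => by
    have e : iterB X (X ^ 11) k1 k den1 den C D1 D ka XO T S as r0 (j + 1) w f =
        genB X (X ^ 11) k1 k den1 den C D1 D ka XO T S as r0 w fun w' =>
          iterB X (X ^ 11) k1 k den1 den C D1 D ka XO T S as r0 j w' f := rfl
    obtain ⟨r', h1, h2⟩ := genB_eq X k1 k den1 den C D1 D ka XO T S as r0 w fun w' =>
          iterB X (X ^ 11) k1 k den1 den C D1 D ka XO T S as r0 j w' f
    obtain ⟨w', h3, h4⟩ := iterB_eq X k1 k den1 den C D1 D ka XO T S as r0 j r' f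
    refine ⟨w', ?_, ?_⟩
    · rw [h3, h1]; rfl
    · rw [e, h2, h4]

theorem leqN_sound' : ∀ {l m : List ℕ}, leqNL l m = true → l = m
  | [], [], _ => rfl
  | [], b :: m, h => by
    have : leqNL [] (b :: m) = false := rfl
    rw [this] at h; exact absurd h (by simp)
  | a :: l, [], h => by
    have : leqNL (a :: l) [] = false := rfl
    rw [this] at h; exact absurd h (by simp)
  | a :: l, b :: m, h => by
    have e : leqNL (a :: l) (b :: m) =
        Bool.rec (motive := fun _ => Bool) false (leqNL l m) (Nat.beq a b) := rfl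
    rw [e] at h
    cases hb : Nat.beq a b with
    | false => rw [hb] at h; exact absurd h (by simp)
    | true =>
      rw [hb] at h
      rw [Nat.eq_of_beq_eq_true hb, leqN_sound' h]

theorem segB_sound {n B k1 k r s den1 den C D1 D ka o n1 : Nat} {l g : A3} {as : List Nat}
    {r0 : Bk} {j : Nat} {w w' : Bk}
    (h : segB n B k1 k r s den1 den C D1 D ka o n1 l g as r0 j w w' = true) :
    w'.toL = iterL' (2 ^ B) (11 * k1) (11 * k) den1 den C D1 D ka ((2 ^ B) ^ o)
      (tabL n B l.toL g.toL) (msgL n1 B r s g.toL) as r0.toL j w.toL := by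
  rw [segB, ev_eq, ev_eq, ev_eq, tabB_eq, msgB_eq] at h
  obtain ⟨v, h1, h2⟩ := iterB_eq (2 ^ B) k1 k den1 den C D1 D ka ((2 ^ B) ^ o) (tabD n B l g)
    (msgD n1 B r s g) as r0 j w (fun v => leqB v w')
  have h3 : leqB v w' = true := h2.symm.trans h
  rw [← tabD_eq, ← msgD_eq, ← h1]
  exact (leqN_sound' h3).symm

end Vale.Agent.P154.DE
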