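import Vale.Agent.P154.DEBase
import Vale.Agent.P154.V5Run

/-!
Density evolution for Poisson trees: reduction of packed vectors, products with the message law.
-/

namespace Vale.Agent.P154.DE

open scoped BigOperators ENNReal
open Finset

/-! ### reduction of packed vectors to weights -/

theorem red_main {n D den e X K K' : ℕ} (hX : den * D + e < X) (hK' : K = K' + 1) {N : ℕ}
    {c : ℕ → ℕ} (e1 : N = ∑ j ∈ range K, c j * X ^ j) (e2 : ∑ j ∈ range K, c j ≤ den * D) :
    fix D (digs X den K (N + e)) =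
      (D - ((List.range K').map fun j => c (j + 1) / den).sum) ::
        (List.range K').map (fun j => c (j + 1) / den) := by
  have hX0 : 0 < X := by omega
  obtain ⟨c', hc'⟩ : ∃ c' : ℕ → ℕ, c' = fun j => if j = 0 then c 0 + e else c j := ⟨_, rfl⟩
  have c0 : c' 0 = c 0 + e := by simp [hc']
  have cs : ∀ j, c' (j + 1) = c (j + 1) := fun j => by simp [hc']
  have e4 : N + e = ∑ j ∈ range K, c' j * X ^ j := by
    rw [e1, hK', sum_range_succ', sum_range_succ', c0]
    simp only [cs]
    ring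
  have hc : ∀ j < K, c' j < X := by
    intro j hj
    have h1 := Finset.single_le_sum (f := c) (fun i _ => Nat.zero_le _) (Finset.mem_range.2 hj)
    have h2 := h1.trans e2
    cases j with
    | zero => rw [c0]; omega
    | succ j => rw [cs]; omega
  rw [e4, digs_eq hX0 den K c' hc, hK', List.range_succ_eq_map, List.map_cons, List.map_map]
  have e5 : (fun j => c' j / den) ∘ Nat.succ = fun j => c (j + 1) / den := by
    funext j
    exact congrArg (· / den) (cs j)
  rw [e5]
  show (D - lsum _) :: _ = _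
  rw [lsum_eq]

theorem red_sound {n D den e X K : ℕ} (hn : 0 < n) (hden : 0 < den) {g : L3}
    (hg : GridList n g) (hK : K = (n + 1) * (n + 2) / 2) (hX : den * D + e < X) {N : ℕ}
    {P : (V → ℝ) → ℝ}
    (h : ∀ Φ, Sub Φ → Sym Φ → R X K (phi n g Φ) N (den * D) (P Φ)) :
    (fix D (digs X den K (N + e))).sum = D ∧ (fix D (digs X den K (N + e))).length = len g ∧
    ∀ Φ, Sub Φ → Sym Φ →
      P Φ ≤ den / (6 * n) * sw (fix D (digs X den K (N + e))) g (fun x y z => Φ (vv x y z)) := by
  have hn' : (0 : ℝ) < n := by exact_mod_cast hn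
  have hK1 : ∃ K', K = K' + 1 := by
    refine ⟨K - 1, ?_⟩
    have : 0 < (n + 1) * (n + 2) / 2 := by
      have := pos_lt (n := n) (c := 0) (b := 0) (Nat.zero_le _) le_rfl
      omega
    omega
  obtain ⟨K', hK'⟩ := hK1
  have hlen : len g = K := by rw [hg.len, hK]
  have dm : ∀ c : ℕ, (c : ℝ) = den * (c / den : ℕ) + (c % den : ℕ) := by
    intro c
    exact_mod_cast (Nat.div_add_mod c den).symm
  have hle : ∀ c : ℕ → ℕ, (∑ j ∈ range K, c j ≤ den * D) →
      ((List.range K').map fun j => c (j + 1) / den).sum ≤ D := by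
    intro c hc
    rw [sum_map_range]
    have h1 : den * ∑ j ∈ range K', c (j + 1) / den ≤ ∑ j ∈ range K, c j := by
      rw [hK', sum_range_succ', mul_sum]
      refine (Finset.sum_le_sum fun j _ => Nat.mul_div_le (c (j + 1)) den).trans ?_
      omega
    exact Nat.le_of_mul_le_mul_left (h1.trans hc) hden
  refine ⟨?_, ?_, ?_⟩
  · obtain ⟨c, h1, h2, -⟩ := h (fun _ => 0) sub_zerof (fun _ _ => rfl)
    rw [red_main (n := n) hX hK' h1 h2, List.sum_cons]
    have := hle c h2
    omega
  · obtain ⟨c, h1, h2, -⟩ := h (fun _ => 0) sub_zerof (fun _ _ => rfl)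
    rw [red_main (n := n) hX hK' h1 h2, hlen]
    simp [hK']
  · intro Φ hΦ hs
    obtain ⟨c, h0, h1, h3⟩ := h Φ hΦ hs
    refine h3.trans ?_
    have h2 := red_main (n := n) hX hK' h0 h1
    have h4 := hle c h1
    set w' : ℕ → ℕ := fun j => if j = 0 then D - ((List.range K').map fun j => c (j + 1) / den).sum
      else c j / den with hw'
    have h5 : fix D (digs X den K (N + e)) = (List.range K).map w' := by
      rw [h2, hK', List.range_succ_eq_map, List.map_cons, List.map_map]
      congr 1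
    rw [h5, sw_map _ K g w' hlen]
    have e6 : ∑ j ∈ range K, (w' j : ℝ) * Φ (vv (atom g j).1 (atom g j).2.1 (atom g j).2.2) =
        6 * n * ∑ j ∈ range K, (w' j : ℝ) * phi n g Φ j := by
      rw [mul_sum]
      refine sum_congr rfl fun j _ => ?_
      rw [phi]
      field_simp
    rw [e6]
    have e7 : (den : ℝ) / (6 * n) * (6 * n * ∑ j ∈ range K, (w' j : ℝ) * phi n g Φ j) =
        den * ∑ j ∈ range K, (w' j : ℝ) * phi n g Φ j := by
      field_simp
    rw [e7]
    -- compare
    rw [hK', sum_range_succ', sum_range_succ', mul_add]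
    have w0 : (w' 0 : ℝ) = D - ∑ j ∈ range K', ((c (j + 1) / den : ℕ) : ℝ) := by
      have : w' 0 = D - ((List.range K').map fun j => c (j + 1) / den).sum := by simp [hw']
      rw [this, Nat.cast_sub h4, sum_map_range]
      push_cast
      rfl
    have wj : ∀ j, w' (j + 1) = c (j + 1) / den := fun j => by simp [hw']
    have hphi : ∀ j ∈ range K', phi n g Φ (j + 1) ≤ phi n g Φ 0 := by
      intro j hj
      refine phi_le hn hg hΦ hs ?_
      have := Finset.mem_range.1 hj
      omega
    have t1 : ∀ j ∈ range K', (c (j + 1) : ℝ) * phi n g Φ (j + 1) ≤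
        den * ((w' (j + 1) : ℝ) * phi n g Φ (j + 1)) +
          ((c (j + 1) : ℝ) - den * ((c (j + 1) / den : ℕ) : ℝ)) * phi n g Φ 0 := by
      intro j hj
      have hr : (c (j + 1) : ℝ) - den * ((c (j + 1) / den : ℕ) : ℝ) = (c (j + 1) % den : ℕ) := by
        have := dm (c (j + 1))
        linarith
      rw [wj, hr]
      have hr0 : (0 : ℝ) ≤ (c (j + 1) % den : ℕ) := Nat.cast_nonneg _
      have := mul_le_mul_of_nonneg_left (hphi j hj) hr0
      have e := dm (c (j + 1))
      calc (c (j + 1) : ℝ) * phi n g Φ (j + 1)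
          = (den * (c (j + 1) / den : ℕ) + (c (j + 1) % den : ℕ)) * phi n g Φ (j + 1) := by
            rw [← e]
        _ ≤ _ := by nlinarith
    have t2 : ∑ j ∈ range K', (c (j + 1) : ℝ) * phi n g Φ (j + 1) ≤
        den * ∑ j ∈ range K', (w' (j + 1) : ℝ) * phi n g Φ (j + 1) +
          (∑ j ∈ range K', (c (j + 1) : ℝ) -
            den * ∑ j ∈ range K', ((c (j + 1) / den : ℕ) : ℝ)) * phi n g Φ 0 := by
      refine (Finset.sum_le_sum t1).trans (le_of_eq ?_)
      rw [Finset.sum_add_distrib, ← Finset.sum_mul, Finset.sum_sub_distrib, Finset.mul_sum,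
        Finset.mul_sum]
    have t3 : (∑ j ∈ range K', (c (j + 1) : ℝ)) + c 0 ≤ den * D := by
      have : (∑ j ∈ range K', c (j + 1)) + c 0 ≤ den * D := by
        rw [← sum_range_succ', ← hK']; exact h1
      exact_mod_cast this
    have p0 : 0 ≤ phi n g Φ 0 := div_nonneg (hΦ.nn _ (vv_pos _ _ _)) (by positivity)
    rw [w0]
    have t4 := mul_le_mul_of_nonneg_right t3 p0
    nlinarith [t2, t4]

/-! ### rows -/

noncomputable def rowsU (n B x y z : Nat) (l : L3) : List Nat :=
  L3.rec (motive := fun _ => List Nat) []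
    (fun u v w _ ih => List.cons (row n B x y z u v w) ih) l

noncomputable def matU (n B : Nat) (l : L3) (v : List Nat) (g : L3) : List Nat :=
  L3.rec (motive := fun _ => List Nat) []
    (fun x y z _ ih => List.cons (dot (rowsU n B x y z l) v) ih) g

/-- total weight of the atoms -/
def zs : L3 → List ℕ → ℕ
  | .nil, _ => 0
  | .cons _ _ _ _, [] => 0
  | .cons _ _ _ l, a :: ws => a + zs l ws

theorem zs_le : ∀ (l : L3) (ws : List ℕ), zs l ws ≤ ws.sum
  | .nil, ws => Nat.zero_le _
  | .cons _ _ _ _, [] => le_rfl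
  | .cons _ _ _ l, a :: ws => by
    rw [zs, List.sum_cons]
    exact Nat.add_le_add_left (zs_le l ws) a

theorem zs_eq : ∀ (l : L3) (ws : List ℕ), ws.length = len l → zs l ws = ws.sum
  | .nil, [], _ => rfl
  | .nil, _ :: _, h => by simp [len] at h
  | .cons _ _ _ _, [], _ => rfl
  | .cons _ _ _ l, a :: ws, h => by
    rw [zs, List.sum_cons, zs_eq l ws (by simpa [len] using h)]

def sg (l : L3) (v : List ℕ) : L3 → List ℕ → ℕ
  | .nil, _ => 0
  | .cons _ _ _ _, [] => 0
  | .cons x y _ g, a :: r => a * ((150 * x + y) * zs l v) + sg l v g r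

theorem dot_rowsM (n B x y z : ℕ) : ∀ (l : L3) (ws : List ℕ),
    dot (rowsM n B x y z l) ws = dot (rowsU n B x y z l) ws + (150 * x + y) * zs l ws
  | .nil, ws => rfl
  | .cons u v w l, [] => rfl
  | .cons u v w l, a :: ws => by
    have e1 : dot (rowsM n B x y z (.cons u v w l)) (a :: ws) =
      a * (row n B x y z u v w + (150 * x + y)) + dot (rowsM n B x y z l) ws := rfl
    have e2 : dot (rowsU n B x y z (.cons u v w l)) (a :: ws) =
      a * row n B x y z u v w + dot (rowsU n B x y z l) ws := rfl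
    rw [e1, e2, dot_rowsM n B x y z l ws, zs]
    ring

theorem dot_mat (n B : ℕ) (l : L3) (v : List ℕ) : ∀ (g : L3) (r : List ℕ),
    dot (matL v (tabL n B l g)) r = dot (matU n B l v g) r + sg l v g r
  | .nil, r => rfl
  | .cons x y z g, [] => rfl
  | .cons x y z g, a :: r => by
    have e1 : dot (matL v (tabL n B l (.cons x y z g))) (a :: r) =
      a * dot (rowsM n B x y z l) v + dot (matL v (tabL n B l g)) r := rfl
    have e2 : dot (matU n B l v (.cons x y z g)) (a :: r) =
      a * dot (rowsU n B x y z l) v + dot (matU n B l v g) r := rfl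
    rw [e1, e2, dot_mat n B l v g r, dot_rowsM, sg]
    ring

theorem sg_le {τ : ℕ} (l : L3) (v : List ℕ) : ∀ (g : L3) (r : List ℕ), AllTot τ g →
    sg l v g r ≤ 150 * τ * v.sum * r.sum
  | .nil, r, _ => Nat.zero_le _
  | .cons x y z g, [], _ => le_rfl
  | .cons x y z g, a :: r, h => by
    have h1 := sg_le l v g r h.2
    have h2 := zs_le l v
    have h3 : 150 * x + y ≤ 150 * τ := by have := h.1; omega
    have h4 : (150 * x + y) * zs l v ≤ 150 * τ * v.sum := Nat.mul_le_mul h3 h2
    rw [sg, List.sum_cons, Nat.mul_add]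
    have h5 := Nat.mul_le_mul_left a h4
    have e : a * (150 * τ * v.sum) = 150 * τ * v.sum * a := by ring
    omega

section rows

variable {n B : ℕ} {Φ : V → ℝ} {φ : ℕ → ℝ}

theorem R_rowsU (hΦ : Sub Φ) (hs : Sym Φ) (hg : IsGrid n Φ φ) (hn : 0 < n) {τ τ1 x y z : ℕ}
    (ht : x + y + z = τ) : ∀ (l : L3) (ws : List ℕ), AllTot τ1 l →
    R (2 ^ B) ((n + 1) * (n + 2) / 2) φ (dot (rowsU n B x y z l) ws)
      (2 * (τ * τ1) * ws.sum) (sw ws l fun u v w => E6 Φ (vv x y z) (vv u v w))
  | .nil, ws, _ => by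
    rw [sw_nil]
    exact R.zero.mono (Nat.zero_le _) le_rfl
  | .cons u v w l, [], _ => by
    exact R.zero.mono (Nat.zero_le _) (by simp [sw])
  | .cons u v w l, a :: ws, hl => by
    have h1 := (R_row (B := B) hΦ hs hg hn x y z u v w).mul a
    have h2 := R_rowsU hΦ hs hg hn ht l ws hl.2
    refine (h1.add h2).mono (le_of_eq ?_) (le_of_eq ?_)
    · rw [ht, hl.1, List.sum_cons]; ring
    · rw [sw]

theorem R_matU (hΦ : Sub Φ) (hs : Sym Φ) (hg : IsGrid n Φ φ) (hn : 0 < n) {τ τ1 : ℕ} {l : L3}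
    (hl : AllTot τ1 l) (v : List ℕ) : ∀ (g : L3) (r : List ℕ), AllTot τ g →
    R (2 ^ B) ((n + 1) * (n + 2) / 2) φ (dot (matU n B l v g) r)
      (2 * (τ * τ1) * v.sum * r.sum)
      (sw r g fun x y z => sw v l fun u v' w => E6 Φ (vv x y z) (vv u v' w))
  | .nil, r, _ => by
    rw [sw_nil]
    exact R.zero.mono (Nat.zero_le _) le_rfl
  | .cons x y z g, [], _ => by
    exact R.zero.mono (Nat.zero_le _) (by simp [sw])
  | .cons x y z g, a :: r, h => by
    have h1 := (R_rowsU (B := B) hΦ hs hg hn h.1 l v hl).mul a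
    have h2 := R_matU hΦ hs hg hn hl v g r h.2
    refine (h1.add h2).mono (le_of_eq ?_) (le_of_eq ?_)
    · rw [List.sum_cons]; ring
    · rw [sw]

end rows

/-! ### convexity -/

theorem sub_sum_le {Φ : V → ℝ} (h : Sub Φ) {ι : Type*} [DecidableEq ι] (f : ι → V)
    (hf : ∀ i, Pos (f i)) (s : Finset ι) :
    Φ (fun j => ∑ i ∈ s, f i j) ≤ ∑ i ∈ s, Φ (f i) := by
  induction s using Finset.induction_on with
  | empty => simp only [Finset.sum_empty]; exact (sub_zero h).le
  | insert a s ha ih =>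
    simp only [Finset.sum_insert ha]
    refine (h.add (f a) (fun j => ∑ i ∈ s, f i j) (hf a)
      (fun j => Finset.sum_nonneg fun i _ => hf i j)).trans ?_
    linarith

theorem sum_perm_tot (y : V) (i : Fin 3) : ∑ g : Equiv.Perm (Fin 3), y (g i) = 2 * tot y := by
  have key : ∀ i : Fin 3, ∑ g : Equiv.Perm (Fin 3), y (g i) = ∑ j : Fin 3, 2 * y j := by
    intro i
    have : ∀ j : Fin 3, (Finset.univ.filter fun g : Equiv.Perm (Fin 3) => g i = j).card = 2 := by
      revert i; decide
    rw [← Finset.sum_fiberwise (s := Finset.univ) (g := fun g : Equiv.Perm (Fin 3) => g i)]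
    refine Finset.sum_congr rfl fun j _ => ?_
    rw [Finset.sum_congr rfl (g := fun _ => y j) (fun g hg => by
      rw [(Finset.mem_filter.1 hg).2]), Finset.sum_const, this j, nsmul_eq_mul]
    norm_num
  rw [key i, ← Finset.mul_sum, tot_eq]

theorem sym_ge {Φ : V → ℝ} (h : Sub Φ) (hs : Sym Φ) {x : V} (hx : Pos x) :
    tot x / 3 * Φ (fun _ => 1) ≤ Φ x := by
  have h1 := sub_sum_le h (fun g : Equiv.Perm (Fin 3) => perm g x) (fun g => pos_perm hx g)
    Finset.univ
  have e : (fun j => ∑ g : Equiv.Perm (Fin 3), perm g x j) =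
      fun i => (2 * tot x) * (fun _ => (1 : ℝ)) i := by
    funext j
    have := sum_perm_tot x j
    simp only [perm, this, mul_one]
  rw [e, h.smul _ (fun _ => 1) (by have := tot_nonneg hx; positivity) (fun _ => zero_le_one)] at h1
  have e2 : ∑ g : Equiv.Perm (Fin 3), Φ (perm g x) = 6 * Φ x := by
    rw [Finset.sum_congr rfl fun g _ => hs g x, Finset.sum_const, Finset.card_univ, card_perm3,
      nsmul_eq_mul]
    norm_num
  rw [e2] at h1
  linarith

theorem E6_ge {Φ : V → ℝ} (h : Sub Φ) (hs : Sym Φ) {x y : V} (hx : Pos x) (hy : Pos y) :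
    2 * (tot x * tot y) / 3 * Φ (fun _ => 1) ≤ E6 Φ x y := by
  have h1 := sub_sum_le h (fun g : Equiv.Perm (Fin 3) => had x (perm g y))
    (fun g => pos_had hx (pos_perm hy g)) Finset.univ
  have e : (fun j => ∑ g : Equiv.Perm (Fin 3), had x (perm g y) j) =
      fun i => (2 * tot y) * x i := by
    funext j
    have h2 := sum_perm_tot y j
    have h3 : ∀ g : Equiv.Perm (Fin 3), had x (perm g y) j = x j * y (g j) := fun g => rfl
    simp only [h3]
    rw [← Finset.mul_sum, h2]; ring
  have ht := tot_nonneg hy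
  rw [e, h.smul _ x (by positivity) hx] at h1
  have h4 := sym_ge h hs hx
  have h5 := mul_le_mul_of_nonneg_left h4 (show (0 : ℝ) ≤ 2 * tot y by positivity)
  rw [E6]
  calc 2 * (tot x * tot y) / 3 * Φ (fun _ => 1) = 2 * tot y * (tot x / 3 * Φ fun _ => 1) := by ring
    _ ≤ _ := h5.trans h1

theorem tot_vv (x y z : ℕ) : tot (vv x y z) = x + y + z := by simp [tot, vv]

theorem sw_ge {c : ℝ} {τ : ℕ} {f : ℕ → ℕ → ℕ → ℝ} (hf : ∀ x y z, x + y + z = τ → c ≤ f x y z) :
    ∀ (ws : List ℕ) (l : L3), AllTot τ l → c * zs l ws ≤ sw ws l f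
  | [], l, _ => by cases l <;> simp [sw, zs]
  | w :: ws, .nil, _ => by simp [sw, zs]
  | w :: ws, .cons x y z l, h => by
    have h1 := sw_ge hf ws l h.2
    have h2 := mul_le_mul_of_nonneg_left (hf x y z h.1) (Nat.cast_nonneg (α := ℝ) w)
    rw [sw, zs]
    push_cast
    linarith

theorem sw_swap (f : ℕ → ℕ → ℕ → ℕ → ℕ → ℕ → ℝ) (v : List ℕ) (l : L3) :
    ∀ (r : List ℕ) (g : L3), sw v l (fun a b c => sw r g fun x y z => f x y z a b c) =
      sw r g fun x y z => sw v l fun a b c => f x y z a b c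
  | [], g => by
    simp only [sw]
    have := sw_mul 0 (fun _ _ _ => (1 : ℝ)) v l
    simpa using this
  | w :: ws, .nil => by
    simp only [sw]
    have := sw_mul 0 (fun _ _ _ => (1 : ℝ)) v l
    simpa using this
  | w :: ws, .cons x y z g => by
    simp only [sw]
    rw [sw_add, sw_mul, sw_swap f v l ws g]

end Vale.Agent.P154.DE
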