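import Vale.Agent.P154.V5Dm

/-!
Density evolution for Poisson trees: messages, one step of the Horner scheme.
-/

namespace Vale.Agent.P154.DE

open scoped BigOperators ENNReal
open Finset

/-! ### messages -/

theorem sy_degrade {lam lam' t : ℝ} (h0 : -(1 / 2) ≤ lam') (h1 : lam' ≤ 1) (ht0 : 0 ≤ t)
    (ht1 : t ≤ 1) (hl : lam = t * lam') {Φ : V → ℝ} (h : Sub Φ) {x : V} (hx : Pos x) :
    sy (fun y => Φ (mvec lam y)) x ≤ sy (fun y => Φ (mvec lam' y)) x := by
  have h2 : ∀ g : Equiv.Perm (Fin 3), Φ (mvec lam (perm g x)) ≤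
      t * Φ (mvec lam' (perm g x)) + (1 - t) * sy (fun y => Φ (mvec lam' y)) x := by
    intro g
    have := mvec_degrade h0 h1 ht0 ht1 hl h (pos_perm hx g)
    rwa [sy_perm] at this
  have h3 := Finset.sum_le_sum fun g (_ : g ∈ (Finset.univ : Finset (Equiv.Perm (Fin 3)))) => h2 g
  rw [Finset.sum_add_distrib, ← Finset.mul_sum, Finset.sum_const, Finset.card_univ, card_perm3,
    nsmul_eq_mul] at h3
  have e : ∑ g : Equiv.Perm (Fin 3), Φ (mvec lam' (perm g x)) =
      6 * sy (fun y => Φ (mvec lam' y)) x := by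
    rw [sy]; ring
  rw [e] at h3
  have e2 : sy (fun y => Φ (mvec lam y)) x = (1 / 6) * ∑ g : Equiv.Perm (Fin 3),
      Φ (mvec lam (perm g x)) := rfl
  rw [e2]
  push_cast at h3
  linarith

theorem dot_msgL {Φ : V → ℝ} {φ : ℕ → ℝ} {n B : ℕ} (hΦ : Sub Φ) (hs : Sym Φ)
    (hg : IsGrid n Φ φ) (hn : 0 < n) {τ r s : ℕ} : ∀ (g : L3) (ws : List ℕ), AllTot τ g →
    R (2 ^ B) ((n + 1) * (n + 2) / 2) φ (dot (msgL n B r s g) ws) ((r * τ + 3 * s) * ws.sum)
      (sw ws g fun x y z => Φ (vv (r * x + s) (r * y + s) (r * z + s)))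
  | .nil, ws, _ => by
    rw [sw_nil]
    exact R.zero.mono (Nat.zero_le _) le_rfl
  | .cons x y z g, [], _ => by
    exact R.zero.mono (Nat.zero_le _) (by simp [sw])
  | .cons x y z g, a :: ws, h => by
    have h1 := (R_sortk (B := B) hΦ hs hg hn (r * x + s) (r * y + s) (r * z + s)).mul a
    have h2 := dot_msgL (B := B) (r := r) (s := s) hΦ hs hg hn g ws h.2
    refine (h1.add h2).mono (le_of_eq ?_) (le_of_eq ?_)
    · rw [← h.1, List.sum_cons]; ring
    · rw [sw]

theorem sw_le {τ : ℕ} {f f' : ℕ → ℕ → ℕ → ℝ} (hf : ∀ x y z, x + y + z = τ → f x y z ≤ f' x y z) :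
    ∀ (ws : List ℕ) (l : L3), AllTot τ l → sw ws l f ≤ sw ws l f'
  | [], l, _ => by cases l <;> simp [sw]
  | w :: ws, .nil, _ => by simp [sw]
  | w :: ws, .cons x y z l, h => by
    have h1 := sw_le hf ws l h.2
    have h2 := mul_le_mul_of_nonneg_left (hf x y z h.1) (Nat.cast_nonneg (α := ℝ) w)
    rw [sw, sw]
    linarith

/-- the law of a message -/
theorem msg_sound {lam : ℝ} {off : ℕ → ℝ} {m n n1 B D D1 r r2 den X K K1 : ℕ} (hn : 0 < n)
    (hn1 : 0 < n1) (hD : 0 < D) (hD1 : 0 < D1) (hr : r ≤ r2) (hr2 : 0 < r2)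
    {t : ℝ} (ht0 : 0 ≤ t) (ht1 : t ≤ 1) (hl : lam = t * (-((r : ℝ) / (2 * r2))))
    {g g1 : L3} (hg : AllTot (6 * n) g) (hg1 : GridList n1 g1)
    (hK1 : K1 = (n1 + 1) * (n1 + 2) / 2) (hX : X = 2 ^ B)
    (hden : den * D1 = 6 * n * r2 * D) (hX1 : den * D1 < X)
    {w : List ℕ} (hw : w.sum = D) (h : Dm (F lam off m) D (6 * n) w g) {v : List ℕ}
    (hv : v = fix D1 (digs X den K1 (dot (msgL n1 B r ((r2 - r) * (2 * n)) g) w))) :
    v.sum = D1 ∧ v.length = len g1 ∧
    Dm (G lam off m 1) D1 (2 * (6 * n1)) v (neg (6 * n1) g1) := by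
  have hn' : (0 : ℝ) < n := by exact_mod_cast hn
  have hn1' : (0 : ℝ) < n1 := by exact_mod_cast hn1
  have hD' : (0 : ℝ) < D := by exact_mod_cast hD
  have hD1' : (0 : ℝ) < D1 := by exact_mod_cast hD1
  have hr2' : (0 : ℝ) < r2 := by exact_mod_cast hr2
  have hden0 : 0 < den := by
    rcases Nat.eq_zero_or_pos den with h0 | h0
    · rw [h0, Nat.zero_mul] at hden
      have : 0 < 6 * n * r2 * D := by positivity
      omega
    · exact h0
  have hden0' : (0 : ℝ) < den := by exact_mod_cast hden0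
  have hdenr : (den : ℝ) * D1 = 6 * n * r2 * D := by exact_mod_cast hden
  set s := (r2 - r) * (2 * n) with hs
  have hmass : r * (6 * n) + 3 * s = 6 * n * r2 := by
    obtain ⟨q, rfl⟩ := Nat.exists_eq_add_of_le hr
    rw [hs, Nat.add_sub_cancel_left]; ring
  have hR : ∀ Φ, Sub Φ → Sym Φ → R X K1 (phi n1 g1 Φ) (dot (msgL n1 B r s g) w) (den * D1)
      (sw w g fun x y z => Φ (vv (r * x + s) (r * y + s) (r * z + s))) := by
    intro Φ hΦ hsy
    have := dot_msgL (B := B) (r := r) (s := s) hΦ hsy (hg1.isGrid Φ) hn1 g w hg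
    rw [hX, hK1]
    refine this.mono (le_of_eq ?_) le_rfl
    rw [hmass, hw, hden]
  obtain ⟨s1, s2, s3⟩ := red_sound (e := 0) hn1 hden0 hg1 hK1 (by omega) hR
  rw [Nat.add_zero, ← hv] at s1 s2 s3
  refine ⟨s1, s2, ?_⟩
  intro Φ hΦ
  -- the parameter of the extreme message
  have hrr : (r : ℝ) / (2 * r2) ≤ 1 / 2 := by
    rw [div_le_div_iff₀ (by positivity) (by norm_num)]
    have : (r : ℝ) ≤ r2 := by exact_mod_cast hr
    linarith
  have hr0 : (0 : ℝ) ≤ (r : ℝ) / (2 * r2) := by positivity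
  have l0 : -(1 / 2) ≤ -((r : ℝ) / (2 * r2)) := by linarith
  have l1 : -((r : ℝ) / (2 * r2)) ≤ 1 := by linarith
  have k0 : -(1 / 2) ≤ lam := by rw [hl]; nlinarith
  have k1 : lam ≤ 1 := by rw [hl]; nlinarith
  have hΦl := sub_mvec hΦ k0 k1
  have hΨ : Sub fun x => Φ (mvec (-(1 / 2)) x) := sub_mvec hΦ le_rfl (by norm_num)
  have h1 := h _ hΦl
  rw [G_one]
  refine h1.trans (ENNReal.ofReal_le_ofReal ?_)
  -- pointwise bound
  have p1 : ∀ x y z : ℕ, x + y + z = 6 * n → sy (fun x => Φ (mvec lam x)) (vv x y z) ≤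
      (1 / (r2 : ℝ)) * sy (fun x => Φ (mvec (-(1 / 2)) x))
        (vv (r * x + s) (r * y + s) (r * z + s)) := by
    intro x y z hxyz
    refine (sy_degrade l0 l1 ht0 ht1 hl hΦ (vv_pos x y z)).trans (le_of_eq ?_)
    have hss : (s : ℝ) = (r2 - r) * (2 * n) := by
      rw [hs]; push_cast [Nat.cast_sub hr]; ring
    have hxr : (x : ℝ) + y + z = 6 * n := by exact_mod_cast hxyz
    have e1 : mvec (-((r : ℝ) / (2 * r2))) (vv x y z) =
        fun i => (1 / (r2 : ℝ)) * mvec (-(1 / 2)) (vv (r * x + s) (r * y + s) (r * z + s)) i := by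
      have t1 := tot_vv x y z
      have t2 := tot_vv (r * x + s) (r * y + s) (r * z + s)
      push_cast at t2
      have hval : ∀ i, vv (r * x + s) (r * y + s) (r * z + s) i = r * vv x y z i + s := by
        intro i
        fin_cases i <;> simp [vv]
      funext i
      rw [mvec, mvec, hval, t1, t2, hss, hxr]
      have e3 : (r : ℝ) * x + (r2 - r) * (2 * n) + (r * y + (r2 - r) * (2 * n)) +
          (r * z + (r2 - r) * (2 * n)) = r * (x + y + z) + (r2 - r) * (6 * n) := by ring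
      rw [e3, hxr]
      field_simp
      ring
    have e2 : ∀ g : Equiv.Perm (Fin 3), Φ (mvec (-((r : ℝ) / (2 * r2))) (perm g (vv x y z))) =
        (1 / (r2 : ℝ)) * Φ (mvec (-(1 / 2))
          (perm g (vv (r * x + s) (r * y + s) (r * z + s)))) := by
      intro g
      rw [mvec_perm, e1, mvec_perm]
      exact hΦ.smul (1 / (r2 : ℝ)) _ (by positivity)
        (pos_perm (pos_mvec le_rfl (by norm_num) (vv_pos _ _ _)) g)
    rw [sy, sy, Finset.sum_congr rfl fun g _ => e2 g, ← Finset.mul_sum]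
    ring
  have p2 : sw w g (fun x y z => sy (fun x => Φ (mvec lam x)) (vv x y z)) ≤
      (1 / (r2 : ℝ)) * sw w g (fun x y z => sy (fun x => Φ (mvec (-(1 / 2)) x))
        (vv (r * x + s) (r * y + s) (r * z + s))) := by
    rw [← sw_mul]
    exact sw_le p1 w g hg
  have p3 := s3 _ (sub_sy hΨ) (sy_perm _)
  have p4 : sw v g1 (fun x y z => sy (fun x => Φ (mvec (-(1 / 2)) x)) (vv x y z)) =
      (1 / 2) * sw v (neg (6 * n1) g1) (fun x y z => sy Φ (vv x y z)) := by
    refine sw_neg (f' := fun a b c => sy Φ (vv a b c)) ?_ v g1 hg1.tot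
    intro x y z hs
    have hm : mvec (-(1 / 2)) (vv x y z) =
        fun i => (1 / 2) * vv (6 * n1 - x) (6 * n1 - y) (6 * n1 - z) i := by
      have e1 : ((6 * n1 - x : ℕ) : ℝ) = y + z := by
        rw [← hs, show x + y + z - x = y + z by omega]; push_cast; ring
      have e2 : ((6 * n1 - y : ℕ) : ℝ) = x + z := by
        rw [← hs, show x + y + z - y = x + z by omega]; push_cast; ring
      have e3 : ((6 * n1 - z : ℕ) : ℝ) = x + y := by
        rw [← hs, show x + y + z - z = x + y by omega]; push_cast; ring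
      funext i
      fin_cases i <;> simp [mvec, tot, vv, e1, e2, e3] <;> ring
    have hg' : ∀ g : Equiv.Perm (Fin 3), Φ (mvec (-(1 / 2)) (perm g (vv x y z))) =
        (1 / 2) * Φ (perm g (vv (6 * n1 - x) (6 * n1 - y) (6 * n1 - z))) := by
      intro g
      rw [mvec_perm, hm]
      exact hΦ.smul (1 / 2) _ (by norm_num) (pos_perm (vv_pos _ _ _) g)
    rw [sy, sy, Finset.sum_congr rfl fun g _ => hg' g, ← Finset.mul_sum]
    ring
  rw [p4] at p3
  set A := sw w g (fun x y z => sy (fun x => Φ (mvec lam x)) (vv x y z))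
  set A' := sw w g (fun x y z => sy (fun x => Φ (mvec (-(1 / 2)) x))
        (vv (r * x + s) (r * y + s) (r * z + s)))
  set A'' := sw v (neg (6 * n1) g1) (fun x y z => sy Φ (vv x y z))
  push_cast
  have q1 : 3 / ((D : ℝ) * (6 * n)) * A ≤ 3 / ((D : ℝ) * (6 * n)) * ((1 / (r2 : ℝ)) *
      ((den : ℝ) / (6 * n1) * ((1 / 2) * A''))) := by
    refine mul_le_mul_of_nonneg_left (p2.trans ?_) (by positivity)
    exact mul_le_mul_of_nonneg_left p3 (by positivity)
  refine q1.trans (le_of_eq ?_)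
  have hDr : (den : ℝ) = 6 * n * r2 * D / D1 := by
    rw [eq_div_iff hD1'.ne', hdenr]
  rw [hDr]
  field_simp
  try ring

/-! ### one step of the Horner scheme -/

/-- the parameters of a generation -/
structure Par where
  n : ℕ
  n1 : ℕ
  B : ℕ
  D : ℕ
  D1 : ℕ
  C : ℕ
  ka : ℕ
  den : ℕ
  hn : 0 < n
  hn1 : 0 < n1
  hD : 0 < D
  hD1 : 0 < D1
  hC : 0 < C
  hka : ka = 2 * ((6 * n) * (2 * (6 * n1))) * D1 * D
  hden : den * D = C * ka
  hX : C * ka + C * (150 * (6 * n) * D1 * D) < 2 ^ B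

theorem hor_step (p : Par) {α : Type*} {ξ : α → V} (hξ : ∀ a, Pos (ξ a)) {g l : L3}
    (hg : GridList p.n g) (hl : AllTot (2 * (6 * p.n1)) l) {K : ℕ}
    (hK : K = (p.n + 1) * (p.n + 2) / 2) {v r : List ℕ} (hv : v.sum = p.D1)
    (hvl : v.length = len l) (hr : r.sum = p.D) (hrl : r.length = len g)
    (hν : Dm (fun Φ => ∑' a, ENNReal.ofReal (Φ (ξ a))) p.D1 (2 * (6 * p.n1)) v l)
    {U : (V → ℝ) → ℝ≥0∞} {T o : ℝ} (hT : 0 ≤ T) (ho : 0 ≤ o)
    (hU : ∀ Φ, Sub Φ → U Φ ≤ ENNReal.ofReal (T * (3 / ((p.D : ℝ) * (6 * p.n)) *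
      sw r g fun x y z => sy Φ (vv x y z))))
    {a : ℕ} (ha : a ≤ p.C) (haz : (a : ℝ) * (o + T) ≤ p.C * o) {r' : List ℕ}
    (hr' : r' = fix p.D (digs (2 ^ p.B) p.den K ((p.C - a) * dot (matL v (tabL p.n p.B l g)) r +
      a * p.ka * (2 ^ p.B) ^ (p.n * (p.n + 1) / 2)))) :
    r'.sum = p.D ∧ r'.length = len g ∧
    ∀ Φ, Sub Φ → ENNReal.ofReal o * ENNReal.ofReal (Φ fun _ => 1) +
      ∑' f, U (fun y => Φ (had (ξ f) y)) ≤
      ENNReal.ofReal ((o + T) * (3 / ((p.D : ℝ) * (6 * p.n)) *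
        sw r' g fun x y z => sy Φ (vv x y z))) := by
  obtain ⟨n, n1, B, D, D1, C, ka, den, hn, hn1, hD, hD1, hC, hka, hden, hX⟩ := p
  simp only at *
  have hn' : (0 : ℝ) < n := by exact_mod_cast hn
  have hn1' : (0 : ℝ) < n1 := by exact_mod_cast hn1
  have hD' : (0 : ℝ) < D := by exact_mod_cast hD
  have hD1' : (0 : ℝ) < D1 := by exact_mod_cast hD1
  have hC' : (0 : ℝ) < C := by exact_mod_cast hC
  have hka0 : 0 < ka := by rw [hka]; positivity
  have hka0' : (0 : ℝ) < ka := by exact_mod_cast hka0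
  have hden0 : 0 < den := by
    rcases Nat.eq_zero_or_pos den with h0 | h0
    · rw [h0, Nat.zero_mul] at hden
      have : 0 < C * ka := by positivity
      omega
    · exact h0
  have hden0' : (0 : ℝ) < den := by exact_mod_cast hden0
  have hdenr : (den : ℝ) * D = C * ka := by exact_mod_cast hden
  have hkar : (ka : ℝ) = 2 * ((6 * n) * (2 * (6 * n1))) * D1 * D := by
    rw [hka]; push_cast; ring
  -- the value of the product
  set P : (V → ℝ) → ℝ := fun Φ => sw r g fun x y z => sw v l fun u v' w =>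
    E6 Φ (vv x y z) (vv u v' w) with hP
  have hR : ∀ Φ, Sub Φ → Sym Φ → R (2 ^ B) K (phi n g Φ)
      ((C - a) * dot (matU n B l v g) r + a * ka * (2 ^ B) ^ (n * (n + 1) / 2)) (den * D)
      ((C - a : ℕ) * P Φ + (a * ka : ℕ) * (Φ (fun _ => 1) / 3)) := by
    intro Φ hΦ hs
    have h1 := (R_matU (B := B) hΦ hs (hg.isGrid Φ) hn hl v g r hg.tot).mul (C - a)
    have hO : n * (n + 1) / 2 = pos n 0 := rfl
    have hOlt : pos n 0 < (n + 1) * (n + 2) / 2 := pos_lt le_rfl (Nat.zero_le _)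
    have h2 := R.single (X := 2 ^ B) (φ := phi n g Φ) hOlt (a * ka)
    have hφ : phi n g Φ (pos n 0) = Φ (fun _ => 1) / 3 := by
      have h3 := hg.isGrid Φ 0 0 (Nat.zero_le _)
      rw [Nat.sub_zero] at h3
      rw [h3]
      have e : gv n 0 0 = fun i => (2 * (n : ℝ)) * (fun _ => (1 : ℝ)) i := by
        funext i
        fin_cases i <;> simp [gv]
      rw [e, hΦ.smul _ (fun _ => 1) (by positivity) (fun _ => zero_le_one)]
      field_simp
      try ring
    rw [hφ] at h2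
    rw [hK, hO]
    refine (h1.add h2).mono (le_of_eq ?_) le_rfl
    rw [hv, hr, hden, hka]
    obtain ⟨q, rfl⟩ := Nat.exists_eq_add_of_le ha
    rw [Nat.add_sub_cancel_left]
    ring
  have hsg : (C - a) * sg l v g r ≤ C * (150 * (6 * n) * D1 * D) := by
    refine Nat.mul_le_mul (Nat.sub_le _ _) ?_
    have := sg_le l v g r hg.tot
    rwa [hv, hr] at this
  obtain ⟨s1, s2, s3⟩ := red_sound (e := (C - a) * sg l v g r) hn hden0 hg hK
    (by rw [hden]; omega) hR
  have e0 : (C - a) * dot (matU n B l v g) r + a * ka * (2 ^ B) ^ (n * (n + 1) / 2) +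
      (C - a) * sg l v g r = (C - a) * dot (matL v (tabL n B l g)) r +
        a * ka * (2 ^ B) ^ (n * (n + 1) / 2) := by
    rw [dot_mat]; ring
  rw [e0, ← hr'] at s1 s2 s3
  refine ⟨s1, s2, ?_⟩
  intro Φ hΦ
  -- the products
  have hc : (0 : ℝ) ≤ 3 / ((D : ℝ) * (6 * n)) := by positivity
  have hΘ : Sub fun X => 3 / ((D : ℝ) * (6 * n)) *
      sw r g fun x y z => sy (fun y => Φ (had X y)) (vv x y z) :=
    sub_cmul (sub_sw (fun x y z => sub_syh hΦ (vv_pos x y z)) r g) hc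
  have b1 : ∑' f, U (fun y => Φ (had (ξ f) y)) ≤
      ENNReal.ofReal (T * (3 / (D1 * (2 * (6 * n1))) * (3 / ((D : ℝ) * (6 * n)) * ((1 / 6) *
        P (sy Φ))))) := by
    calc ∑' f, U (fun y => Φ (had (ξ f) y))
        ≤ ∑' f, ENNReal.ofReal (T * (3 / ((D : ℝ) * (6 * n)) *
            sw r g fun x y z => sy (fun y => Φ (had (ξ f) y)) (vv x y z))) :=
          ENNReal.tsum_le_tsum fun f => hU _ (sub_had' hΦ (hξ f))
      _ = ENNReal.ofReal T * ∑' f, ENNReal.ofReal (3 / ((D : ℝ) * (6 * n)) *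
            sw r g fun x y z => sy (fun y => Φ (had (ξ f) y)) (vv x y z)) := by
          rw [← ENNReal.tsum_mul_left]
          exact tsum_congr fun f => ENNReal.ofReal_mul hT
      _ ≤ ENNReal.ofReal T * ENNReal.ofReal (3 / (D1 * ((2 * (6 * n1) : ℕ) : ℝ)) *
            sw v l fun x y z => sy (fun X => 3 / ((D : ℝ) * (6 * n)) *
              sw r g fun x y z => sy (fun y => Φ (had X y)) (vv x y z)) (vv x y z)) :=
          mul_le_mul_right (hν _ hΘ) _
      _ = _ := by
          rw [← ENNReal.ofReal_mul hT]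
          congr 1
          have e : ∀ u v' w, sy (fun X => 3 / ((D : ℝ) * (6 * n)) *
              sw r g fun x y z => sy (fun y => Φ (had X y)) (vv x y z)) (vv u v' w) =
              3 / ((D : ℝ) * (6 * n)) * ((1 / 6) * sw r g fun x y z =>
                E6 (sy Φ) (vv x y z) (vv u v' w)) := by
            intro u v' w
            have e1 : ∀ x y z, E6 (sy Φ) (vv x y z) (vv u v' w) =
                E6 (sy Φ) (vv u v' w) (vv x y z) := fun x y z => E6_comm (sy_perm Φ) _ _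
            rw [sw_congr e1, ← sw_mul]
            simp only [← sy_E6]
            rw [sy]
            simp only [sy]
            rw [← Finset.mul_sum, ← sw_sum, ← mul_assoc, mul_comm (1 / 6 : ℝ), mul_assoc, ← sw_mul]
          rw [sw_congr e, sw_mul, sw_mul, hP]
          simp only
          rw [sw_swap (fun x y z u v' w => E6 (sy Φ) (vv x y z) (vv u v' w)) v l r g]
          push_cast
          ring
  have h3 := s3 (sy Φ) (sub_sy hΦ) (sy_perm Φ)
  -- convexity
  have hone : sy Φ (fun _ => 1) = Φ (fun _ => 1) := by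
    have : ∀ g : Equiv.Perm (Fin 3), Φ (perm g fun _ => 1) = Φ (fun _ => 1) := fun g => rfl
    rw [sy, Finset.sum_congr rfl fun g _ => this g, Finset.sum_const, Finset.card_univ,
      card_perm3, nsmul_eq_mul]
    push_cast
    ring
  have hJ : (ka : ℝ) * (Φ (fun _ => 1) / 3) ≤ P (sy Φ) := by
    have j1 : ∀ x y z : ℕ, x + y + z = 6 * n →
        2 * ((6 * n) * (2 * (6 * n1))) / 3 * Φ (fun _ => 1) * D1 ≤
        sw v l fun u v' w => E6 (sy Φ) (vv x y z) (vv u v' w) := by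
      intro x y z hxyz
      have hx : (x : ℝ) + y + z = 6 * n := by exact_mod_cast hxyz
      have := sw_ge (c := 2 * ((6 * n) * (2 * (6 * n1))) / 3 * Φ (fun _ => 1))
        (τ := 2 * (6 * n1)) (f := fun u v' w => E6 (sy Φ) (vv x y z) (vv u v' w)) ?_ v l hl
      · rwa [zs_eq l v hvl, hv] at this
      · intro u v' w huvw
        have hu : (u : ℝ) + v' + w = 2 * (6 * n1) := by exact_mod_cast huvw
        have := E6_ge (sub_sy hΦ) (sy_perm Φ) (vv_pos x y z) (vv_pos u v' w)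
        rwa [tot_vv, tot_vv, hx, hu, hone] at this
    have j2 := sw_ge j1 r g hg.tot
    rw [zs_eq g r hrl, hr] at j2
    refine le_trans (le_of_eq ?_) j2
    rw [hkar]; ring
  -- final computation
  set y := Φ (fun _ => 1) with hy
  set Q := P (sy Φ) with hQ
  set S := sw r' g (fun x y z => sy Φ (vv x y z)) with hS
  rw [hone] at h3
  have y0 : 0 ≤ y := hΦ.nn _ (fun _ => zero_le_one)
  refine (add_le_add le_rfl b1).trans ?_
  have Q0 : 0 ≤ Q := le_trans (by positivity) hJ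
  rw [← ENNReal.ofReal_mul ho, ← ENNReal.ofReal_add (mul_nonneg ho y0) (by positivity)]
  refine ENNReal.ofReal_le_ofReal ?_
  have hca : ((C - a : ℕ) : ℝ) = C - a := by
    rw [Nat.cast_sub ha]
  rw [hca] at h3
  push_cast at h3
  -- z = 3 Q / ka
  obtain ⟨z, hz⟩ : ∃ z : ℝ, Q = ka * z / 3 := ⟨3 * Q / ka, by field_simp⟩
  rw [hz] at h3 hJ ⊢
  have hyz : y ≤ z := by
    have : (ka : ℝ) * y ≤ ka * z := by linarith
    exact le_of_mul_le_mul_left this hka0'
  have e5 : T * (3 / (D1 * (2 * (6 * n1))) * (3 / ((D : ℝ) * (6 * n)) * ((1 / 6) *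
        (ka * z / 3)))) = T * z := by
    rw [hkar]
    field_simp
    try ring
  rw [e5]
  have h4 : ((C : ℝ) - a) * z + a * y ≤ C * (3 / ((D : ℝ) * (6 * n)) * S) := by
    have e6 : ((C : ℝ) - a) * (ka * z / 3) + a * ka * (y / 3) =
        ka / 3 * (((C : ℝ) - a) * z + a * y) := by ring
    rw [e6] at h3
    have e7 : (den : ℝ) / (6 * n) * S = ka / 3 * (C * (3 / ((D : ℝ) * (6 * n)) * S)) := by
      have : (den : ℝ) = C * ka / D := by rw [eq_div_iff hD'.ne', hdenr]
      rw [this]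
      field_simp
      try ring
    rw [e7] at h3
    exact le_of_mul_le_mul_left h3 (by positivity)
  have h5 : C * (o * y + T * z) ≤ C * ((o + T) * (3 / ((D : ℝ) * (6 * n)) * S)) := by
    have h6 := mul_le_mul_of_nonneg_left h4 (add_nonneg ho hT)
    have h7 := mul_le_mul_of_nonneg_right haz (sub_nonneg.2 hyz)
    nlinarith
  exact le_of_mul_le_mul_left h5 hC'

end Vale.Agent.P154.DE
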