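import Vale.Agent.P154.V5Poi
import Vale.Agent.P154.V5Dat

/-!
Density evolution for Poisson trees: soundness of the checks made by the kernel.
-/

namespace Vale.Agent.P154.DE

open scoped BigOperators ENNReal


/-- equality of lists of triples -/
def eqL3 : L3 → L3 → Bool
  | .nil, .nil => true
  | .nil, .cons _ _ _ _ => false
  | .cons _ _ _ _, .nil => false
  | .cons x y z l, .cons x' y' z' l' => x.beq x' && y.beq y' && z.beq z' && eqL3 l l'

theorem eqL3_sound : ∀ {l m : L3}, eqL3 l m = true → l = m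
  | .nil, .nil, _ => rfl
  | .nil, .cons _ _ _ _, h => by simp [eqL3] at h
  | .cons _ _ _ _, .nil, h => by simp [eqL3] at h
  | .cons x y z l, .cons x' y' z' l', h => by
    simp only [eqL3, Bool.and_eq_true] at h
    obtain ⟨⟨⟨h1, h2⟩, h3⟩, h4⟩ := h
    rw [Nat.eq_of_beq_eq_true h1, Nat.eq_of_beq_eq_true h2, Nat.eq_of_beq_eq_true h3,
      eqL3_sound h4]

theorem gl20 : GridList 20 g20.toL :=
  gridList_of (by decide +kernel) (by decide +kernel) (by decide +kernel)

theorem gl10 : GridList 10 g10.toL :=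
  gridList_of (by decide +kernel) (by decide +kernel) (by decide +kernel)

theorem m10_eq : m10.toL = neg (6 * 10) g10.toL := eqL3_sound (by decide +kernel)

def p20 : Par where
  n := 20
  n1 := 10
  B := 80
  D := 67108864
  D1 := 4194304
  C := 65536
  ka := 8106479329266892800
  den := 7916483719987200
  hn := by norm_num
  hn1 := by norm_num
  hD := by norm_num
  hD1 := by norm_num
  hC := by norm_num
  hka := by norm_num
  hden := by norm_num
  hX := by norm_num

def p10 : Par where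
  n := 10
  n1 := 10
  B := 80
  D := 67108864
  D1 := 4194304
  C := 65536
  ka := 4053239664633446400
  den := 3958241859993600
  hn := by norm_num
  hn1 := by norm_num
  hD := by norm_num
  hD1 := by norm_num
  hC := by norm_num
  hka := by norm_num
  hden := by norm_num
  hX := by norm_num

/-- the law `w` dominates the law of generation `m` -/
structure At20 (lam d : ℝ) (m : ℕ) (w : Bk) : Prop where
  law : Law 67108864 g20.toL w.toL
  dm : Dm (F lam (poisson d) m) 67108864 (6 * 20) w.toL g20.toL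

structure At10 (lam d : ℝ) (m : ℕ) (w : Bk) : Prop where
  law : Law 67108864 g10.toL w.toL
  dm : Dm (F lam (poisson d) m) 67108864 (6 * 10) w.toL g10.toL

/-- a cell of parameters, with the weights of the Horner scheme -/
structure Cell (r r2 dn dd : ℕ) (as : List ℕ) (lam d : ℝ) : Prop where
  hr : r ≤ r2
  hr2 : 0 < r2 ∧ r2 ≤ 100000
  hc : InCell r r2 dn dd lam d
  haz : hazOK 65536 dn dd as = true

theorem v20_eq : v20.toL = 67108864 :: List.replicate 230 0 := by decide +kernel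
theorem v10_eq : v10.toL = 67108864 :: List.replicate 65 0 := by decide +kernel

theorem At20.step {r r2 dn dd : ℕ} {as : List ℕ} {lam d : ℝ} (c : Cell r r2 dn dd as lam d)
    {m j : ℕ} {w w' : Bk} (h : At20 lam d m w) (hs : seg20 r r2 as j w w' = true) :
    At20 lam d (m + j) w' := by
  have e := segB_sound hs
  rw [v20_eq, m10_eq] at e
  have hX1 : 1920 * r2 * 4194304 < 2 ^ 80 := by have := c.hr2.2; omega
  have := iter_sound c.hr c.hr2.1 c.hc p20 gl20 gl10 (K := 231) (K1 := 66) (by rfl) (by rfl)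
    (den1 := 1920 * r2) (by show 1920 * r2 * 4194304 = 6 * 20 * r2 * 67108864; ring) hX1 c.haz
    j m w.toL h.law h.dm
  have e2 : w'.toL = iterL' (2 ^ 80) 66 231 (1920 * r2) p20.den p20.C p20.D1 p20.D p20.ka
      ((2 ^ 80) ^ 210) (tabL 20 80 (neg (6 * 10) g10.toL) g20.toL)
      (msgL 10 80 r ((r2 - r) * (2 * 20)) g20.toL) as (p20.D :: List.replicate 230 0) j
      w.toL := e
  exact ⟨by rw [e2]; exact this.1, by rw [e2]; exact this.2⟩

theorem At10.step {r r2 dn dd : ℕ} {as : List ℕ} {lam d : ℝ} (c : Cell r r2 dn dd as lam d)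
    {m j : ℕ} {w w' : Bk} (h : At10 lam d m w) (hs : seg10 r r2 as j w w' = true) :
    At10 lam d (m + j) w' := by
  have e := segB_sound hs
  rw [v10_eq, m10_eq] at e
  have hX1 : 960 * r2 * 4194304 < 2 ^ 80 := by have := c.hr2.2; omega
  have := iter_sound c.hr c.hr2.1 c.hc p10 gl10 gl10 (K := 66) (K1 := 66) (by rfl) (by rfl)
    (den1 := 960 * r2) (by show 960 * r2 * 4194304 = 6 * 10 * r2 * 67108864; ring) hX1 c.haz
    j m w.toL h.law h.dm
  have e2 : w'.toL = iterL' (2 ^ 80) 66 66 (960 * r2) p10.den p10.C p10.D1 p10.D p10.ka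
      ((2 ^ 80) ^ 55) (tabL 10 80 (neg (6 * 10) g10.toL) g10.toL)
      (msgL 10 80 r ((r2 - r) * (2 * 10)) g10.toL) as (p10.D :: List.replicate 65 0) j
      w.toL := e
  exact ⟨by rw [e2]; exact this.1, by rw [e2]; exact this.2⟩

theorem At10.zero (lam d : ℝ) : At10 lam d 0 v10 := by
  have h := dm_zero (lam := lam) (off := poisson d) (n := 10) (D := 67108864) (by norm_num)
    (by norm_num) gl10 65
  refine ⟨⟨by rw [v10_eq]; simp, by decide +kernel⟩, ?_⟩
  rw [v10_eq]
  exact h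

theorem At10.reg {lam d : ℝ} {m : ℕ} {w w' : Bk} (h : At10 lam d m w) (hs : reg w w' = true) :
    At20 lam d m w' := by
  rw [DE.reg, ev_eq, ev_eq, msgB_eq, ev_eq, unB_eq, fixB_eq] at hs
  have e := leqN_sound' hs
  have e2 : (fixD 67108864 (unD (2 ^ 80) ((2 ^ 80) ^ 11) 60 21 (dotB w (msgD 20 80 1 0 g10)))).toL =
      w'.toL := e
  rw [fixD_eq, unD_eq, dotB_eq, msgD_eq] at e2
  obtain ⟨a, b⟩ := regrid_sound (n := 10) (n2 := 20) (D := 67108864) (B := 80) (K2 := 231)
    (by norm_num) (by norm_num) (by norm_num) gl10.tot gl20 (by rfl) (by norm_num) h.law.sum h.dm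
    e2.symm
  exact ⟨a, b⟩

/-- the bound of `x_m` -/
theorem At20.xs_le {r r2 dn dd : ℕ} {as : List ℕ} {lam d : ℝ} (c : Cell r r2 dn dd as lam d)
    {m : ℕ} {w : Bk} (h : At20 lam d m w) {a b : ℕ} (hb : 0 < b)
    (hx : Nat.ble (b * xsum w.toL g20.toL) (a * (67108864 * 120 ^ 2)) = true) :
    xs lam (poisson d) m ≤ (a : ℝ) / b := by
  obtain ⟨t, t0, t1, hl⟩ := c.hc.ht
  have hrr : (r : ℝ) / (2 * r2) ≤ 1 / 2 := by
    have hr2' : (0 : ℝ) < r2 := by exact_mod_cast c.hr2.1
    rw [div_le_div_iff₀ (by positivity) (by norm_num)]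
    have : (r : ℝ) ≤ r2 := by exact_mod_cast c.hr
    linarith
  have hr0 : (0 : ℝ) ≤ (r : ℝ) / (2 * r2) := by positivity
  have k0 : -(1 / 2) ≤ lam := by rw [hl]; nlinarith
  have k1 : lam ≤ 1 := by rw [hl]; nlinarith
  exact xs_le_of_dm k0 k1 (isOff_poisson c.hc.hd) (by norm_num) (by norm_num) gl20.tot h.dm hb
    (Nat.le_of_ble_eq_true hx)

theorem Cell.mk' {r r2 dn dd : ℕ} {as : List ℕ} {lam d la lb : ℝ} (hr : r ≤ r2)
    (hr2 : 0 < r2 ∧ r2 ≤ 100000) (haz : hazOK 65536 dn dd as = true) (hlb : lb * (2 * r2) = r)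
    (hlb0 : 0 < lb) (hla : 0 < la) (h1 : -lb ≤ lam) (h2 : lam ≤ -la) (hd : 0 ≤ d)
    (hdl : d * lam ^ 2 ≤ 1) (hq : (dd : ℝ) ≤ dn * la ^ 2) : Cell r r2 dn dd as lam d := by
  refine ⟨hr, hr2, ⟨hd, ?_, -lam / lb, by apply div_nonneg <;> linarith,
    by rw [div_le_one hlb0]; linarith, ?_⟩, haz⟩
  · have h3 : la ^ 2 ≤ lam ^ 2 := by nlinarith
    have h4 : d * la ^ 2 ≤ 1 := (mul_le_mul_of_nonneg_left h3 hd).trans hdl
    have h5 := mul_le_mul_of_nonneg_left hq hd
    have h6 := mul_le_mul_of_nonneg_left h4 (Nat.cast_nonneg (α := ℝ) dn)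
    nlinarith
  · have hr2' : (0 : ℝ) < r2 := by exact_mod_cast hr2.1
    have : (r : ℝ) / (2 * r2) = lb := by
      rw [div_eq_iff (by positivity), hlb]
    rw [this]
    field_simp

end Vale.Agent.P154.DE
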