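import Vale.Agent.P154.Defs

/-!
Hazard bounds for the Poisson law: `a / C ≤ p_k / p_{≥ k}` for all `d ≤ dn / dd`, checked by a
recursion on the list of the numerators `a` (index `k` = length of the tail of the list).
-/

namespace Vale.Agent.P154.DE

open scoped BigOperators
open Finset

def hazB (C dn dd : Nat) : Nat → Nat → List Nat → Bool
  | _, _, [] => true
  | u, v, a :: as => decide (0 < a) &&
      decide (a * (dd * (as.length + 1) * v + dn * u) ≤ C * (dd * (as.length + 1) * v)) &&
      hazB C dn dd C a as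

def hazOK (C dn dd : Nat) (as : List Nat) : Bool :=
  decide (0 < C) && decide (0 < dd) && decide (dn < (as.length + 1) * dd) &&
    hazB C dn dd ((as.length + 1) * dd) ((as.length + 1) * dd - dn) as

/-- the mass of `{k, k + 1, ...}` -/
noncomputable def tailP (d : ℝ) (k : ℕ) : ℝ := ∑' j, poisson d (k + j)

def HazL (C : ℕ) (d : ℝ) : List ℕ → Prop
  | [] => True
  | a :: as => (a ≤ C ∧ (a : ℝ) * tailP d as.length ≤ C * poisson d as.length) ∧ HazL C d as

theorem poisson_nonneg' {d : ℝ} (h0 : 0 ≤ d) (k : ℕ) : 0 ≤ poisson d k := by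
  unfold poisson; positivity

theorem poisson_hasSum (d : ℝ) : HasSum (poisson d) 1 := by
  have h := (NormedSpace.expSeries_div_hasSum_exp d).mul_left (Real.exp (-d))
  rw [← Real.exp_eq_exp_ℝ, ← Real.exp_add, neg_add_cancel, Real.exp_zero] at h
  refine h.congr_fun ?_ |> fun h => h
  intro k
  unfold poisson
  ring

theorem summable_poisson (d : ℝ) : Summable (poisson d) := (poisson_hasSum d).summable

theorem summable_tail (d : ℝ) (k : ℕ) : Summable (fun j => poisson d (k + j)) := by
  have := (summable_nat_add_iff k).2 (summable_poisson d)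
  simpa [add_comm] using this

theorem tailP_zero (d : ℝ) : tailP d 0 = 1 := by
  unfold tailP
  simp only [zero_add]
  exact (poisson_hasSum d).tsum_eq

theorem tailP_succ (d : ℝ) (k : ℕ) : tailP d k = poisson d k + tailP d (k + 1) := by
  unfold tailP
  rw [(summable_tail d k).tsum_eq_zero_add]
  simp only [add_zero]
  congr 1
  refine tsum_congr fun j => ?_
  rw [show k + (j + 1) = k + 1 + j by ring]

theorem tailP_nonneg {d : ℝ} (h0 : 0 ≤ d) (k : ℕ) : 0 ≤ tailP d k :=
  tsum_nonneg fun j => poisson_nonneg' h0 _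

theorem poisson_succ (d : ℝ) (k : ℕ) : poisson d (k + 1) = poisson d k * (d / (k + 1)) := by
  unfold poisson
  rw [Nat.factorial_succ]
  push_cast
  have h1 : (Nat.factorial k : ℝ) ≠ 0 := by positivity
  have h2 : ((k : ℝ) + 1) ≠ 0 := by positivity
  field_simp
  ring

/-- geometric bound for the tail -/
theorem tailP_le {d : ℝ} (h0 : 0 ≤ d) {K : ℕ} {r : ℝ} (hr : d / (K + 1) ≤ r) (hr1 : r < 1) :
    tailP d K ≤ poisson d K * (1 - r)⁻¹ := by
  have hr0 : 0 ≤ r := le_trans (by positivity) hr
  have h1 : ∀ j, poisson d (K + j) ≤ poisson d K * r ^ j := by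
    intro i
    induction i with
    | zero => simp
    | succ j ih =>
      rw [show K + (j + 1) = (K + j) + 1 by ring, poisson_succ, pow_succ, ← mul_assoc]
      refine mul_le_mul ih ?_ (by positivity) (mul_nonneg (poisson_nonneg' h0 _) (by positivity))
      refine le_trans ?_ hr
      apply div_le_div_of_nonneg_left h0 (by positivity)
      push_cast
      have : (0 : ℝ) ≤ j := Nat.cast_nonneg j
      linarith
  have h2 : Summable fun j => poisson d K * r ^ j :=
    (summable_geometric_of_lt_one hr0 hr1).mul_left _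
  calc tailP d K ≤ ∑' j, poisson d K * r ^ j :=
        (summable_tail d K).tsum_le_tsum h1 h2
    _ = poisson d K * (1 - r)⁻¹ := by rw [tsum_mul_left, tsum_geometric_of_lt_one hr0 hr1]

theorem hazB_sound {C dn dd : ℕ} {d : ℝ} (hC : 0 < C) (hdd : 0 < dd) (h0 : 0 ≤ d)
    (hd : d * dd ≤ dn) :
    ∀ (as : List ℕ) (u v : ℕ), 0 < v → hazB C dn dd u v as = true →
      (v : ℝ) * tailP d as.length ≤ u * poisson d as.length → HazL C d as
  | [], _, _, _, _, _ => trivial
  | a :: as, u, v, hv, h, ht => by
    rw [hazB, Bool.and_eq_true, Bool.and_eq_true, decide_eq_true_eq, decide_eq_true_eq] at h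
    obtain ⟨⟨ha, h1⟩, h2⟩ := h
    set k := as.length with hk
    have hkr : (0 : ℝ) < (k : ℝ) + 1 := by positivity
    have hddr : (0 : ℝ) < dd := by exact_mod_cast hdd
    have hvr : (0 : ℝ) < v := by exact_mod_cast hv
    have h1r : (a : ℝ) * (dd * (k + 1) * v + dn * u) ≤ C * (dd * (k + 1) * v) := by
      exact_mod_cast h1
    have hp0 : 0 ≤ poisson d k := poisson_nonneg' h0 k
    have hpos : (0 : ℝ) < dd * (k + 1) * v := by positivity
    have ht' : (v : ℝ) * tailP d (k + 1) ≤ u * poisson d (k + 1) := by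
      have := ht
      rwa [List.length_cons] at this
    have hs : poisson d (k + 1) * (k + 1) = poisson d k * d := by
      rw [poisson_succ]
      field_simp
    have hm : (a : ℝ) * tailP d k ≤ C * poisson d k := by
      have e1 : (dd * (k + 1) * v : ℝ) * tailP d k ≤ (dd * (k + 1) * v + dn * u) * poisson d k := by
        rw [tailP_succ]
        have e2 : (dd * (k + 1) : ℝ) * (v * tailP d (k + 1)) ≤
            (dd * (k + 1) : ℝ) * (u * poisson d (k + 1)) :=
          mul_le_mul_of_nonneg_left ht' (by positivity)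
        have e3 : (dd * (k + 1) : ℝ) * (u * poisson d (k + 1)) = u * (d * dd) * poisson d k := by
          calc (dd * (k + 1) : ℝ) * (u * poisson d (k + 1))
              = dd * u * (poisson d (k + 1) * (k + 1)) := by ring
            _ = u * (d * dd) * poisson d k := by rw [hs]; ring
        have e4 : (u : ℝ) * (d * dd) * poisson d k ≤ u * dn * poisson d k :=
          mul_le_mul_of_nonneg_right (mul_le_mul_of_nonneg_left hd (Nat.cast_nonneg u)) hp0
        nlinarith [e2, e3, e4]
      have e5 : (dd * (k + 1) * v : ℝ) * (a * tailP d k) ≤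
          (dd * (k + 1) * v) * (C * poisson d k) := by
        calc (dd * (k + 1) * v : ℝ) * (a * tailP d k)
            = a * ((dd * (k + 1) * v) * tailP d k) := by ring
          _ ≤ a * ((dd * (k + 1) * v + dn * u) * poisson d k) :=
              mul_le_mul_of_nonneg_left e1 (Nat.cast_nonneg a)
          _ = (a * (dd * (k + 1) * v + dn * u)) * poisson d k := by ring
          _ ≤ (C * (dd * (k + 1) * v)) * poisson d k := mul_le_mul_of_nonneg_right h1r hp0
          _ = _ := by ring
      exact le_of_mul_le_mul_left e5 hpos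
    have hac : a ≤ C := by
      have h3 : a * (dd * (k + 1) * v) ≤ C * (dd * (k + 1) * v) :=
        le_trans (Nat.mul_le_mul_left _ (Nat.le_add_right _ _)) h1
      exact Nat.le_of_mul_le_mul_right h3 (by positivity)
    exact ⟨⟨hac, hm⟩, hazB_sound hC hdd h0 hd as C a ha h2 hm⟩

theorem haz_sound {C dn dd : ℕ} {as : List ℕ} {d : ℝ} (h : hazOK C dn dd as = true)
    (h0 : 0 ≤ d) (hd : d * dd ≤ dn) : HazL C d as := by
  rw [hazOK, Bool.and_eq_true, Bool.and_eq_true, Bool.and_eq_true, decide_eq_true_eq,
    decide_eq_true_eq, decide_eq_true_eq] at h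
  obtain ⟨⟨⟨hC, hdd⟩, hlt⟩, hB⟩ := h
  set K := as.length with hK
  have hddr : (0 : ℝ) < dd := by exact_mod_cast hdd
  have hKr : (0 : ℝ) < (K : ℝ) + 1 := by positivity
  have hltr : (dn : ℝ) < (K + 1) * dd := by exact_mod_cast hlt
  have hv : 0 < (K + 1) * dd - dn := Nat.sub_pos_of_lt hlt
  refine hazB_sound hC hdd h0 hd as _ _ hv hB ?_
  have hq : d / (K + 1) ≤ dn / ((K + 1) * dd) := by
    rw [div_le_div_iff₀ hKr (by positivity)]
    nlinarith
  have hq1 : (dn : ℝ) / ((K + 1) * dd) < 1 := by
    rw [div_lt_one (by positivity)]; exact hltr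
  have ht := tailP_le h0 hq hq1
  have hvr : (((K + 1) * dd - dn : ℕ) : ℝ) = (K + 1) * dd - dn := by
    rw [Nat.cast_sub hlt.le]; push_cast; ring
  have hvp : (0 : ℝ) < (K + 1) * dd - dn := by linarith
  have e1 : (1 - (dn : ℝ) / ((K + 1) * dd))⁻¹ = (K + 1) * dd / ((K + 1) * dd - dn) := by
    have hne : ((K : ℝ) + 1) * dd ≠ 0 := by positivity
    rw [one_sub_div hne, inv_div]
  rw [e1] at ht
  rw [← hK, hvr]
  push_cast
  calc (((K : ℝ) + 1) * dd - dn) * tailP d K
      ≤ ((K + 1) * dd - dn) * (poisson d K * ((K + 1) * dd / ((K + 1) * dd - dn))) :=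
        mul_le_mul_of_nonneg_left ht hvp.le
    _ = (K + 1) * dd * poisson d K := by field_simp

end Vale.Agent.P154.DE
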