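/-!
Density evolution: the functions evaluated by the kernel. No imports: the modules with the
evaluations load fast.
-/

namespace Vale.Agent.P154.DE

/-- `s` the sum, `c = n - a`, `(a, b)` the cellL, `ra, rb` the remainders: the three weights -/
noncomputable def cellL (B s c ra b rb : Nat) : Nat :=
  Nat.shiftLeft (Bool.rec (motive := fun _ => Nat)
    (Nat.add (Nat.add (Nat.shiftLeft (Nat.sub (Nat.add ra rb) s) B) (Nat.sub s rb))
      (Nat.shiftLeft (Nat.sub s ra) (Nat.mul B (Nat.succ c))))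
    (Nat.add (Nat.add (Nat.shiftLeft (Nat.sub s (Nat.add ra rb)) (Nat.mul B c)) ra)
      (Nat.shiftLeft rb (Nat.mul B (Nat.succ c))))
    (Nat.ble (Nat.add ra rb) s))
    (Nat.mul B (Nat.add (Nat.div (Nat.mul c (Nat.sub c 1)) 2) b))

noncomputable def split1L (n B s al be : Nat) : Nat :=
  cellL B s (Nat.sub n (Nat.div al s)) (Nat.mod al s) (Nat.div be s) (Nat.mod be s)

/-- splitting of `(x, y, z)`, `x ≥ y ≥ z`, onto the grid, packed in base `2 ^ B` -/
noncomputable def splitL (n B x y z : Nat) : Nat :=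
  split1L n B (Nat.add (Nat.add x y) z) (Nat.mul n (Nat.sub x y)) (Nat.mul (Nat.mul 2 n) (Nat.sub y z))

noncomputable def sortkL (n B x y z : Nat) : Nat :=
  Bool.rec (motive := fun _ => Nat)
    (Bool.rec (motive := fun _ => Nat)
      (Bool.rec (motive := fun _ => Nat) (splitL n B z y x) (splitL n B y z x) (Nat.ble z y))
      (splitL n B y x z) (Nat.ble z x))
    (Bool.rec (motive := fun _ => Nat)
      (Bool.rec (motive := fun _ => Nat) (splitL n B z x y) (splitL n B x z y) (Nat.ble z x))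
      (splitL n B x y z) (Nat.ble z y))
    (Nat.ble y x)

noncomputable def row9L (n B a0 a1 a2 b0 b1 b2 c0 c1 c2 : Nat) : Nat :=
  Nat.add (Nat.add (Nat.add (sortkL n B a0 b1 c2) (sortkL n B a1 b2 c0))
    (Nat.add (sortkL n B a2 b0 c1) (sortkL n B a0 b2 c1)))
    (Nat.add (sortkL n B a1 b0 c2) (sortkL n B a2 b1 c0))

/-- the six products of two atoms -/
noncomputable def rowL (n B x y z u v w : Nat) : Nat :=
  row9L n B (Nat.mul x u) (Nat.mul x v) (Nat.mul x w) (Nat.mul y u) (Nat.mul y v) (Nat.mul y w)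
    (Nat.mul z u) (Nat.mul z v) (Nat.mul z w)


/-- lists of numbers, in blocks of 11 -/
inductive Bk where
  | nil : Bk
  | cons (a0 a1 a2 a3 a4 a5 a6 a7 a8 a9 a10 : Nat) (t : Bk) : Bk

/-- lists of triples, in blocks of 11 -/
inductive A3 where
  | nil : A3
  | cons (x0 y0 z0 x1 y1 z1 x2 y2 z2 x3 y3 z3 x4 y4 z4 x5 y5 z5 x6 y6 z6 x7 y7 z7 x8 y8 z8 x9
    y9 z9 x10 y10 z10 : Nat) (t : A3) : A3

/-- lists of rows, in blocks of 11 -/
inductive Tb where
  | nil : Tb
  | cons (r0 r1 r2 r3 r4 r5 r6 r7 r8 r9 r10 : Bk) (t : Tb) : Tb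

def Bk.toL : Bk → List Nat
  | .nil => []
  | .cons a0 a1 a2 a3 a4 a5 a6 a7 a8 a9 a10 t => a0 :: a1 :: a2 :: a3 :: a4 :: a5 :: a6 :: a7
    :: a8 :: a9 :: a10 :: t.toL

/-- evaluate `n` first -/
noncomputable def ev (n : Nat) (f : Nat → Bool) : Bool :=
  Nat.rec (motive := fun _ => Bool) (f 0) (fun m _ => f m) (Nat.add n 1)

/-- scalar product -/
noncomputable def dotB (V T : Bk) : Nat :=
  Bk.rec (motive := fun _ => Bk → Nat) (fun _ => 0)
    (fun v0 v1 v2 v3 v4 v5 v6 v7 v8 v9 v10 _ ih T => Bk.rec (motive := fun _ => Nat) 0 (fun t0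
      t1 t2 t3 t4 t5 t6 t7 t8 t9 t10 s _ => Nat.add (Nat.mul v0 t0) (Nat.add (Nat.mul v1 t1)
      (Nat.add (Nat.mul v2 t2) (Nat.add (Nat.mul v3 t3) (Nat.add (Nat.mul v4 t4) (Nat.add
      (Nat.mul v5 t5) (Nat.add (Nat.mul v6 t6) (Nat.add (Nat.mul v7 t7) (Nat.add (Nat.mul v8
      t8) (Nat.add (Nat.mul v9 t9) (Nat.add (Nat.mul v10 t10) (ih s)))))))))))) T) V T

/-- digits of `N` in base `X`, divided by `den`; `XB = X ^ 11` -/
noncomputable def unB (X XB den : Nat) (k : Nat) : Nat → (Bk → Bool) → Bool :=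
  Nat.rec (motive := fun _ => Nat → (Bk → Bool) → Bool) (fun _ f => f Bk.nil)
    (fun _ ih N f => ev (Nat.mod N XB) fun L => ev (Nat.div N XB) fun M => ih M fun t =>
      ev (Nat.div (Nat.mod L X) den) fun d0 =>
      ev (Nat.div L X) fun L1 =>
      ev (Nat.div (Nat.mod L1 X) den) fun d1 =>
      ev (Nat.div L1 X) fun L2 =>
      ev (Nat.div (Nat.mod L2 X) den) fun d2 =>
      ev (Nat.div L2 X) fun L3 =>
      ev (Nat.div (Nat.mod L3 X) den) fun d3 =>
      ev (Nat.div L3 X) fun L4 =>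
      ev (Nat.div (Nat.mod L4 X) den) fun d4 =>
      ev (Nat.div L4 X) fun L5 =>
      ev (Nat.div (Nat.mod L5 X) den) fun d5 =>
      ev (Nat.div L5 X) fun L6 =>
      ev (Nat.div (Nat.mod L6 X) den) fun d6 =>
      ev (Nat.div L6 X) fun L7 =>
      ev (Nat.div (Nat.mod L7 X) den) fun d7 =>
      ev (Nat.div L7 X) fun L8 =>
      ev (Nat.div (Nat.mod L8 X) den) fun d8 =>
      ev (Nat.div L8 X) fun L9 =>
      ev (Nat.div (Nat.mod L9 X) den) fun d9 =>
      ev (Nat.div L9 X) fun L10 =>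
      ev (Nat.div (Nat.mod L10 X) den) fun d10 =>
      f (Bk.cons d0 d1 d2 d3 d4 d5 d6 d7 d8 d9 d10 t)) k

/-- the sum -/
noncomputable def sumB (l : Bk) : Nat :=
  Bk.rec (motive := fun _ => Nat) 0
    (fun a0 a1 a2 a3 a4 a5 a6 a7 a8 a9 a10 _ ih => Nat.add a0 (Nat.add a1 (Nat.add a2 (Nat.add
      a3 (Nat.add a4 (Nat.add a5 (Nat.add a6 (Nat.add a7 (Nat.add a8 (Nat.add a9 (Nat.add a10
      ih))))))))))) l

/-- move the lost mass to the vertex -/
noncomputable def fixB (D : Nat) (l : Bk) (f : Bk → Bool) : Bool :=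
  Bk.rec (motive := fun _ => Bool) (f Bk.nil)
    (fun _ a1 a2 a3 a4 a5 a6 a7 a8 a9 a10 t _ => ev (Nat.sub D (Nat.add a1 (Nat.add a2 (Nat.add
      a3 (Nat.add a4 (Nat.add a5 (Nat.add a6 (Nat.add a7 (Nat.add a8 (Nat.add a9 (Nat.add a10
      (sumB t)))))))))))) fun a => f (Bk.cons a a1 a2 a3 a4 a5 a6 a7 a8 a9 a10 t)) l

/-- a product of a state atom and a message atom; the second term makes the last digits
different (the weight of the vertex is computed from the others) -/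
noncomputable def srow (n B x y z u v w : Nat) : Nat :=
  Nat.add (rowL n B x y z u v w) (Nat.add (Nat.mul 150 x) y)

noncomputable def rowB (n B x y z : Nat) (l : A3) : (Bk → Bool) → Bool :=
  A3.rec (motive := fun _ => (Bk → Bool) → Bool) (fun f => f Bk.nil)
    (fun x0 y0 z0 x1 y1 z1 x2 y2 z2 x3 y3 z3 x4 y4 z4 x5 y5 z5 x6 y6 z6 x7 y7 z7 x8 y8 z8 x9 y9
      z9 x10 y10 z10 _ ih f => ih fun s =>
      ev (srow n B x y z x0 y0 z0) fun r0 =>
      ev (srow n B x y z x1 y1 z1) fun r1 =>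
      ev (srow n B x y z x2 y2 z2) fun r2 =>
      ev (srow n B x y z x3 y3 z3) fun r3 =>
      ev (srow n B x y z x4 y4 z4) fun r4 =>
      ev (srow n B x y z x5 y5 z5) fun r5 =>
      ev (srow n B x y z x6 y6 z6) fun r6 =>
      ev (srow n B x y z x7 y7 z7) fun r7 =>
      ev (srow n B x y z x8 y8 z8) fun r8 =>
      ev (srow n B x y z x9 y9 z9) fun r9 =>
      ev (srow n B x y z x10 y10 z10) fun r10 =>
      f (Bk.cons r0 r1 r2 r3 r4 r5 r6 r7 r8 r9 r10 s)) l

noncomputable def tabB (n B : Nat) (l g : A3) : (Tb → Bool) → Bool :=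
  A3.rec (motive := fun _ => (Tb → Bool) → Bool) (fun f => f Tb.nil)
    (fun x0 y0 z0 x1 y1 z1 x2 y2 z2 x3 y3 z3 x4 y4 z4 x5 y5 z5 x6 y6 z6 x7 y7 z7 x8 y8 z8 x9 y9
      z9 x10 y10 z10 _ ih f => ih fun s =>
      rowB n B x0 y0 z0 l fun r0 =>
      rowB n B x1 y1 z1 l fun r1 =>
      rowB n B x2 y2 z2 l fun r2 =>
      rowB n B x3 y3 z3 l fun r3 =>
      rowB n B x4 y4 z4 l fun r4 =>
      rowB n B x5 y5 z5 l fun r5 =>
      rowB n B x6 y6 z6 l fun r6 =>
      rowB n B x7 y7 z7 l fun r7 =>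
      rowB n B x8 y8 z8 l fun r8 =>
      rowB n B x9 y9 z9 l fun r9 =>
      rowB n B x10 y10 z10 l fun r10 =>
      f (Tb.cons r0 r1 r2 r3 r4 r5 r6 r7 r8 r9 r10 s)) g

noncomputable def matB (v : Bk) (T : Tb) : (Bk → Bool) → Bool :=
  Tb.rec (motive := fun _ => (Bk → Bool) → Bool) (fun f => f Bk.nil)
    (fun r0 r1 r2 r3 r4 r5 r6 r7 r8 r9 r10 _ ih f => ih fun s =>
      ev (dotB v r0) fun m0 =>
      ev (dotB v r1) fun m1 =>
      ev (dotB v r2) fun m2 =>
      ev (dotB v r3) fun m3 =>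
      ev (dotB v r4) fun m4 =>
      ev (dotB v r5) fun m5 =>
      ev (dotB v r6) fun m6 =>
      ev (dotB v r7) fun m7 =>
      ev (dotB v r8) fun m8 =>
      ev (dotB v r9) fun m9 =>
      ev (dotB v r10) fun m10 =>
      f (Bk.cons m0 m1 m2 m3 m4 m5 m6 m7 m8 m9 m10 s)) T

noncomputable def msgB (n B r s : Nat) (g : A3) : (Bk → Bool) → Bool :=
  A3.rec (motive := fun _ => (Bk → Bool) → Bool) (fun f => f Bk.nil)
    (fun x0 y0 z0 x1 y1 z1 x2 y2 z2 x3 y3 z3 x4 y4 z4 x5 y5 z5 x6 y6 z6 x7 y7 z7 x8 y8 z8 x9 y9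
      z9 x10 y10 z10 _ ih f => ih fun q =>
      ev (sortkL n B (Nat.add (Nat.mul r x0) s) (Nat.add (Nat.mul r y0) s)
        (Nat.add (Nat.mul r z0) s)) fun m0 =>
      ev (sortkL n B (Nat.add (Nat.mul r x1) s) (Nat.add (Nat.mul r y1) s)
        (Nat.add (Nat.mul r z1) s)) fun m1 =>
      ev (sortkL n B (Nat.add (Nat.mul r x2) s) (Nat.add (Nat.mul r y2) s)
        (Nat.add (Nat.mul r z2) s)) fun m2 =>
      ev (sortkL n B (Nat.add (Nat.mul r x3) s) (Nat.add (Nat.mul r y3) s)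
        (Nat.add (Nat.mul r z3) s)) fun m3 =>
      ev (sortkL n B (Nat.add (Nat.mul r x4) s) (Nat.add (Nat.mul r y4) s)
        (Nat.add (Nat.mul r z4) s)) fun m4 =>
      ev (sortkL n B (Nat.add (Nat.mul r x5) s) (Nat.add (Nat.mul r y5) s)
        (Nat.add (Nat.mul r z5) s)) fun m5 =>
      ev (sortkL n B (Nat.add (Nat.mul r x6) s) (Nat.add (Nat.mul r y6) s)
        (Nat.add (Nat.mul r z6) s)) fun m6 =>
      ev (sortkL n B (Nat.add (Nat.mul r x7) s) (Nat.add (Nat.mul r y7) s)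
        (Nat.add (Nat.mul r z7) s)) fun m7 =>
      ev (sortkL n B (Nat.add (Nat.mul r x8) s) (Nat.add (Nat.mul r y8) s)
        (Nat.add (Nat.mul r z8) s)) fun m8 =>
      ev (sortkL n B (Nat.add (Nat.mul r x9) s) (Nat.add (Nat.mul r y9) s)
        (Nat.add (Nat.mul r z9) s)) fun m9 =>
      ev (sortkL n B (Nat.add (Nat.mul r x10) s) (Nat.add (Nat.mul r y10) s)
        (Nat.add (Nat.mul r z10) s)) fun m10 =>
      f (Bk.cons m0 m1 m2 m3 m4 m5 m6 m7 m8 m9 m10 q)) g

noncomputable def leqNL (l : List Nat) : List Nat → Bool :=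
  List.rec (motive := fun _ => List Nat → Bool)
    (fun m => List.rec (motive := fun _ => Bool) true (fun _ _ _ => false) m)
    (fun a _ ih m => List.rec (motive := fun _ => Bool) false
      (fun b mt _ => Bool.rec (motive := fun _ => Bool) false (ih mt) (Nat.beq a b)) m) l

noncomputable def horB (X XB k den C D ka XO : Nat) (M : Bk) (as : List Nat) :
    Bk → (Bk → Bool) → Bool :=
  List.rec (motive := fun _ => Bk → (Bk → Bool) → Bool) (fun r f => f r)
    (fun a _ ih r f =>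
      ev (Nat.add (Nat.mul (Nat.sub C a) (dotB r M)) (Nat.mul (Nat.mul a ka) XO)) fun N =>
      unB X XB den k N fun r0 => fixB D r0 fun r1 => ih r1 f) as

noncomputable def genB (X XB k1 k den1 den C D1 D ka XO : Nat) (T : Tb) (S : Bk)
    (as : List Nat) (r0 w : Bk) (f : Bk → Bool) : Bool :=
  ev (dotB w S) fun N => unB X XB den1 k1 N fun v0 => fixB D1 v0 fun v => matB v T fun M =>
    horB X XB k den C D ka XO M as r0 f

noncomputable def iterB (X XB k1 k den1 den C D1 D ka XO : Nat) (T : Tb) (S : Bk)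
    (as : List Nat) (r0 : Bk) (j : Nat) : Bk → (Bk → Bool) → Bool :=
  Nat.rec (motive := fun _ => Bk → (Bk → Bool) → Bool) (fun w f => f w)
    (fun _ ih w f => genB X XB k1 k den1 den C D1 D ka XO T S as r0 w fun w' => ih w' f) j

/-- equality of blocks -/
noncomputable def leqB (v w : Bk) : Bool := leqNL v.toL w.toL

/-- parameters: grids `n1` (messages) and `n`, blocks `k1` and `k`, base `2 ^ B`, message
`r / r2`, `s = (r2 - r) 2 n` -/
noncomputable def segB (n B k1 k r s den1 den C D1 D ka o n1 : Nat) (l g : A3) (as : List Nat)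
    (r0 : Bk) (j : Nat) (w w' : Bk) : Bool :=
  ev (Nat.pow 2 B) fun X => ev (Nat.pow X 11) fun XB => ev (Nat.pow X o) fun XO =>
    tabB n B l g fun T => msgB n1 B r s g fun S =>
    iterB X XB k1 k den1 den C D1 D ka XO T S as r0 j w fun v => leqB v w'

end Vale.Agent.P154.DE
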