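import Vale.Agent.P154.V5Gen
import Vale.Agent.P154.V5Haz

/-!
Density evolution for Poisson trees: generations.
-/

namespace Vale.Agent.P154.DE

open scoped BigOperators ENNReal
open Finset

/-- weights of total `D` on the atoms of `g` -/
structure Law (D : ℕ) (g : L3) (w : List ℕ) : Prop where
  sum : w.sum = D
  len : w.length = len g

/-- unnormalised tail of the mixture over the number of children -/
noncomputable def Uk (lam d : ℝ) (m k : ℕ) (Φ : V → ℝ) : ℝ≥0∞ :=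
  ∑' j, ENNReal.ofReal (poisson d (k + j)) * G lam (poisson d) m j Φ

theorem G_succ' (lam : ℝ) (off : ℕ → ℝ) (m j : ℕ) (Φ : V → ℝ) :
    G lam off m (j + 1) Φ =
      ∑' f : Fin 1 → Obs 3 m, G lam off m j (fun y => Φ (had (PL lam off m 1 f) y)) := by
  rw [Nat.add_comm j 1, G_add]
  rfl

theorem Uk_rec (lam d : ℝ) (m k : ℕ) (Φ : V → ℝ) :
    Uk lam d m k Φ = ENNReal.ofReal (poisson d k) * ENNReal.ofReal (Φ fun _ => 1) +
      ∑' f : Fin 1 → Obs 3 m, Uk lam d m (k + 1)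
        (fun y => Φ (had (PL lam (poisson d) m 1 f) y)) := by
  rw [Uk, tsum_eq_zero_add' ENNReal.summable, G_zero, Nat.add_zero]
  congr 1
  have e : ∀ j, ENNReal.ofReal (poisson d (k + (j + 1))) * G lam (poisson d) m (j + 1) Φ =
      ∑' f : Fin 1 → Obs 3 m, ENNReal.ofReal (poisson d (k + 1 + j)) *
        G lam (poisson d) m j (fun y => Φ (had (PL lam (poisson d) m 1 f) y)) := by
    intro j
    rw [G_succ', ← ENNReal.tsum_mul_left, show k + (j + 1) = k + 1 + j by omega]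
  rw [tsum_congr e, ENNReal.tsum_comm]
  rfl

theorem le_vertices {Φ : V → ℝ} (h : Sub Φ) {x : V} (hx : Pos x) :
    Φ x ≤ ∑ i : Fin 3, x i * Φ (fun j => if j = i then 1 else 0) := by
  have hp : ∀ i : Fin 3, Pos (fun j => if j = i then (1 : ℝ) else 0) := by
    intro i j
    by_cases hij : j = i <;> simp [hij]
  have h1 := sub_sum_le h (fun i : Fin 3 => fun j => x i * (if j = i then (1 : ℝ) else 0))
    (fun i j => mul_nonneg (hx i) (hp i j)) Finset.univ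
  have e : (fun j => ∑ i : Fin 3, x i * (if j = i then (1 : ℝ) else 0)) = x := by
    funext j
    simp
  rw [e] at h1
  refine h1.trans (le_of_eq (Finset.sum_congr rfl fun i _ => ?_))
  exact h.smul (x i) _ (hx i) (hp i)

theorem G_le_zero {lam : ℝ} (h0 : -(1 / 2) ≤ lam) (h1 : lam ≤ 1) {off : ℕ → ℝ}
    (hoff : IsOff off) (m j : ℕ) {Φ : V → ℝ} (h : Sub Φ) :
    G lam off m j Φ ≤ F lam off 0 Φ := by
  have hp : ∀ i : Fin 3, Pos (fun j => if j = i then (1 : ℝ) else 0) := by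
    intro i j
    by_cases hij : j = i <;> simp [hij]
  have hP : ∀ f, Pos (PL lam off m j f) := fun f => PL_nonneg h0 h1 hoff.nonneg m j f
  have e0 : F lam off 0 Φ = ∑ i : Fin 3, ENNReal.ofReal (Φ fun j => if j = i then 1 else 0) := by
    have : F lam off 0 Φ = ∑' o : Fin 3, ENNReal.ofReal (Φ fun i => if i = o then 1 else 0) := by
      rfl
    rw [this, tsum_fintype]
  rw [e0]
  calc G lam off m j Φ
      ≤ ∑' f : Fin j → Obs 3 m, ∑ i : Fin 3, ENNReal.ofReal (PL lam off m j f i) *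
          ENNReal.ofReal (Φ fun j => if j = i then 1 else 0) := by
        refine ENNReal.tsum_le_tsum fun f => ?_
        refine (ENNReal.ofReal_le_ofReal (le_vertices h (hP f))).trans (le_of_eq ?_)
        rw [ENNReal.ofReal_sum_of_nonneg fun i _ => mul_nonneg (hP f i) (h.nn _ (hp i))]
        exact Finset.sum_congr rfl fun i _ => ENNReal.ofReal_mul (hP f i)
    _ = ∑ i : Fin 3, ENNReal.ofReal (Φ fun j => if j = i then 1 else 0) := by
        rw [Summable.tsum_finsetSum fun _ _ => ENNReal.summable]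
        refine Finset.sum_congr rfl fun i _ => ?_
        rw [ENNReal.tsum_mul_right, tsum_PL h0 h1 hoff m j i, one_mul]

/-- bound by a law -/
noncomputable def val (D n : ℕ) (w : List ℕ) (g : L3) (Φ : V → ℝ) : ℝ :=
  3 / ((D : ℝ) * (6 * n)) * sw w g fun x y z => sy Φ (vv x y z)

theorem dm_iff {A : (V → ℝ) → ℝ≥0∞} {D n : ℕ} {w : List ℕ} {g : L3} :
    Dm A D (6 * n) w g ↔ ∀ Φ, Sub Φ → A Φ ≤ ENNReal.ofReal (val D n w g Φ) := by
  have e : ((6 * n : ℕ) : ℝ) = 6 * n := by push_cast; ring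
  simp only [Dm, val, e]

theorem isOff_nonneg {d : ℝ} (hd : 0 ≤ d) (k : ℕ) : 0 ≤ poisson d k := (isOff_poisson hd).nonneg k

theorem Uk_base {lam d : ℝ} (h0 : -(1 / 2) ≤ lam) (h1 : lam ≤ 1) (hd : 0 ≤ d) {D n : ℕ}
    (hn : 0 < n) (hD : 0 < D) {g : L3} (hg : GridList n g) (m k q : ℕ) {Φ : V → ℝ} (h : Sub Φ) :
    Uk lam d m k Φ ≤
      ENNReal.ofReal (tailP d k * val D n (D :: List.replicate q 0) g Φ) := by
  have b : ∀ j, G lam (poisson d) m j Φ ≤
      ENNReal.ofReal (val D n (D :: List.replicate q 0) g Φ) := fun j =>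
    (G_le_zero h0 h1 (isOff_poisson hd) m j h).trans
      (dm_iff.1 (dm_zero (lam := lam) (off := poisson d) hn hD hg q) Φ h)
  rw [ENNReal.ofReal_mul (tailP_nonneg hd k), tailP,
    ENNReal.ofReal_tsum_of_nonneg (fun j => isOff_nonneg hd (k + j)) (summable_tail d k),
    ← ENNReal.tsum_mul_right]
  exact ENNReal.tsum_le_tsum fun j => mul_le_mul_right (b j) _

theorem hor_sound {lam d : ℝ} (h0 : -(1 / 2) ≤ lam) (h1 : lam ≤ 1) (hd : 0 ≤ d) (p : Par)
    {g l : L3} (hg : GridList p.n g) (hl : AllTot (2 * (6 * p.n1)) l) {K : ℕ}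
    (hK : K = (p.n + 1) * (p.n + 2) / 2) {v : List ℕ} (hv : Law p.D1 l v) {m : ℕ}
    (hν : Dm (G lam (poisson d) m 1) p.D1 (2 * (6 * p.n1)) v l) :
    ∀ (as r : List ℕ), HazL p.C d as → Law p.D g r →
    (∀ Φ, Sub Φ → Uk lam d m as.length Φ ≤
      ENNReal.ofReal (tailP d as.length * val p.D p.n r g Φ)) →
    Law p.D g (horL (2 ^ p.B) K p.den p.C p.D p.ka ((2 ^ p.B) ^ (p.n * (p.n + 1) / 2))
      (matL v (tabL p.n p.B l g)) as r) ∧
    ∀ Φ, Sub Φ → Uk lam d m 0 Φ ≤ ENNReal.ofReal (tailP d 0 * val p.D p.n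
      (horL (2 ^ p.B) K p.den p.C p.D p.ka ((2 ^ p.B) ^ (p.n * (p.n + 1) / 2))
        (matL v (tabL p.n p.B l g)) as r) g Φ)
  | [], r, _, hr, hU => ⟨hr, hU⟩
  | a :: as, r, hz, hr, hU => by
    have hξ : ∀ f, Pos (PL lam (poisson d) m 1 f) := fun f =>
      PL_nonneg h0 h1 (isOff_poisson hd).nonneg m 1 f
    obtain ⟨⟨z1, z2⟩, z3⟩ := hz
    have ht := tailP_succ d as.length
    obtain ⟨s1, s2, s3⟩ := hor_step p hξ hg hl hK hv.sum hv.len hr.sum hr.len hν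
      (U := Uk lam d m (as.length + 1)) (T := tailP d (as.length + 1))
      (o := poisson d as.length) (tailP_nonneg hd _) (isOff_nonneg hd _) (by
        intro Φ hΦ
        have := hU Φ hΦ
        rw [List.length_cons] at this
        exact this) z1 (by rw [← ht]; exact z2) rfl
    refine hor_sound h0 h1 hd p hg hl hK hv hν as _ z3 ⟨s1, s2⟩ ?_
    intro Φ hΦ
    rw [Uk_rec]
    refine (s3 Φ hΦ).trans (le_of_eq ?_)
    rw [← ht]
    rfl

/-- the cell of the parameters: `lam` and `d` -/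
structure InCell (r r2 dn dd : ℕ) (lam d : ℝ) : Prop where
  hd : 0 ≤ d
  hdd : d * dd ≤ dn
  ht : ∃ t : ℝ, 0 ≤ t ∧ t ≤ 1 ∧ lam = t * (-((r : ℝ) / (2 * r2)))

/-- one generation -/
theorem gen_sound {lam d : ℝ} {r r2 dn dd : ℕ} (hr : r ≤ r2) (hr2 : 0 < r2)
    (hc : InCell r r2 dn dd lam d) (p : Par)
    {g g1 : L3} (hg : GridList p.n g) (hg1 : GridList p.n1 g1) {K K1 den1 : ℕ}
    (hK : K = (p.n + 1) * (p.n + 2) / 2) (hK1 : K1 = (p.n1 + 1) * (p.n1 + 2) / 2)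
    (hden1 : den1 * p.D1 = 6 * p.n * r2 * p.D) (hX1 : den1 * p.D1 < 2 ^ p.B)
    {as : List ℕ} (haz : hazOK p.C dn dd as = true) {w : List ℕ} (hw : Law p.D g w) {m : ℕ}
    (h : Dm (F lam (poisson d) m) p.D (6 * p.n) w g) {w' : List ℕ}
    (hw' : w' = genL (2 ^ p.B) K1 K den1 p.den p.C p.D1 p.D p.ka
      ((2 ^ p.B) ^ (p.n * (p.n + 1) / 2)) (tabL p.n p.B (neg (6 * p.n1) g1) g)
      (msgL p.n1 p.B r ((r2 - r) * (2 * p.n)) g) as (p.D :: List.replicate (K - 1) 0) w) :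
    Law p.D g w' ∧ Dm (F lam (poisson d) (m + 1)) p.D (6 * p.n) w' g := by
  obtain ⟨t, t0, t1, hl⟩ := hc.ht
  have hrr : (r : ℝ) / (2 * r2) ≤ 1 / 2 := by
    have hr2' : (0 : ℝ) < r2 := by exact_mod_cast hr2
    rw [div_le_div_iff₀ (by positivity) (by norm_num)]
    have : (r : ℝ) ≤ r2 := by exact_mod_cast hr
    linarith
  have hr0 : (0 : ℝ) ≤ (r : ℝ) / (2 * r2) := by positivity
  have k0 : -(1 / 2) ≤ lam := by rw [hl]; nlinarith
  have k1 : lam ≤ 1 := by rw [hl]; nlinarith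
  have hz := haz_sound haz hc.hd hc.hdd
  obtain ⟨s1, s2, s3⟩ := msg_sound (lam := lam) (off := poisson d) (m := m) (K := K) p.hn p.hn1
    p.hD p.hD1 hr hr2 t0 t1 hl hg.tot hg1 hK1 rfl hden1 hX1 hw.sum h rfl
  have hlen0 : 0 < K := by
    have := pos_lt (n := p.n) (c := 0) (b := 0) (Nat.zero_le _) le_rfl
    omega
  have hr0' : Law p.D g (p.D :: List.replicate (K - 1) 0) := by
    refine ⟨by simp, ?_⟩
    rw [List.length_cons, List.length_replicate, hg.len, ← hK]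
    omega
  have hneg : ∀ (k : ℕ) (l : L3), len (neg k l) = len l := by
    intro k l
    induction l with
    | nil => rfl
    | cons x y z l ih => simp only [neg, len, ih]
  obtain ⟨u1, u2⟩ := hor_sound k0 k1 hc.hd p hg (allTot_neg hg1.tot) hK
    ⟨s1, by rw [s2, hneg]⟩ s3 as _ hz hr0'
    (fun Φ hΦ => Uk_base k0 k1 hc.hd p.hn p.hD hg m as.length (K - 1) hΦ)
  rw [hw']
  refine ⟨u1, dm_iff.2 fun Φ hΦ => ?_⟩
  have e1 := u2 Φ hΦ
  rw [tailP_zero d, one_mul] at e1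
  rw [F_succ lam (isOff_poisson hc.hd) k0 k1 m hΦ]
  refine le_trans (le_of_eq ?_) e1
  rw [Uk]
  exact tsum_congr fun j => by rw [Nat.zero_add]

/-- several generations -/
theorem iter_sound {lam d : ℝ} {r r2 dn dd : ℕ} (hr : r ≤ r2) (hr2 : 0 < r2)
    (hc : InCell r r2 dn dd lam d) (p : Par)
    {g g1 : L3} (hg : GridList p.n g) (hg1 : GridList p.n1 g1) {K K1 den1 : ℕ}
    (hK : K = (p.n + 1) * (p.n + 2) / 2) (hK1 : K1 = (p.n1 + 1) * (p.n1 + 2) / 2)
    (hden1 : den1 * p.D1 = 6 * p.n * r2 * p.D) (hX1 : den1 * p.D1 < 2 ^ p.B)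
    {as : List ℕ} (haz : hazOK p.C dn dd as = true) : ∀ (j m : ℕ) (w : List ℕ), Law p.D g w →
    Dm (F lam (poisson d) m) p.D (6 * p.n) w g →
    Law p.D g (iterL' (2 ^ p.B) K1 K den1 p.den p.C p.D1 p.D p.ka
      ((2 ^ p.B) ^ (p.n * (p.n + 1) / 2)) (tabL p.n p.B (neg (6 * p.n1) g1) g)
      (msgL p.n1 p.B r ((r2 - r) * (2 * p.n)) g) as (p.D :: List.replicate (K - 1) 0) j w) ∧
    Dm (F lam (poisson d) (m + j)) p.D (6 * p.n)
      (iterL' (2 ^ p.B) K1 K den1 p.den p.C p.D1 p.D p.ka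
      ((2 ^ p.B) ^ (p.n * (p.n + 1) / 2)) (tabL p.n p.B (neg (6 * p.n1) g1) g)
      (msgL p.n1 p.B r ((r2 - r) * (2 * p.n)) g) as (p.D :: List.replicate (K - 1) 0) j w) g
  | 0, m, w, hw, h => ⟨hw, h⟩
  | j + 1, m, w, hw, h => by
    obtain ⟨a, b⟩ := gen_sound hr hr2 hc p hg hg1 hK hK1 hden1 hX1 haz hw h rfl
    have := iter_sound hr hr2 hc p hg hg1 hK hK1 hden1 hX1 haz j (m + 1) _ a b
    rw [show m + (j + 1) = m + 1 + j by omega]
    exact this

/-- change of grid -/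
theorem regrid_sound {A : (V → ℝ) → ℝ≥0∞} {n n2 D B K2 : ℕ} (hn : 0 < n) (hn2 : 0 < n2)
    (hD : 0 < D) {g g2 : L3} (hg : AllTot (6 * n) g) (hg2 : GridList n2 g2)
    (hK2 : K2 = (n2 + 1) * (n2 + 2) / 2) (hX : 6 * n * D < 2 ^ B) {w : List ℕ} (hw : w.sum = D)
    (h : Dm A D (6 * n) w g) {w2 : List ℕ}
    (hw2 : w2 = fix D (digs (2 ^ B) (6 * n) K2 (dot (msgL n2 B 1 0 g) w))) :
    Law D g2 w2 ∧ Dm A D (6 * n2) w2 g2 := by
  have hn' : (0 : ℝ) < n := by exact_mod_cast hn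
  have hn2' : (0 : ℝ) < n2 := by exact_mod_cast hn2
  have hD' : (0 : ℝ) < D := by exact_mod_cast hD
  have hR : ∀ Φ, Sub Φ → Sym Φ → R (2 ^ B) K2 (phi n2 g2 Φ) (dot (msgL n2 B 1 0 g) w)
      (6 * n * D) (sw w g fun x y z => Φ (vv x y z)) := by
    intro Φ hΦ hsy
    have := dot_msgL (B := B) (r := 1) (s := 0) hΦ hsy (hg2.isGrid Φ) hn2 g w hg
    rw [hK2]
    refine this.mono (le_of_eq ?_) (le_of_eq ?_)
    · rw [hw]; ring
    · simp only [one_mul, Nat.add_zero]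
  obtain ⟨s1, s2, s3⟩ := red_sound (e := 0) hn2 (by positivity) hg2 hK2 (by omega) hR
  rw [Nat.add_zero, ← hw2] at s1 s2 s3
  refine ⟨⟨s1, s2⟩, dm_iff.2 fun Φ hΦ => ?_⟩
  refine (dm_iff.1 h Φ hΦ).trans (ENNReal.ofReal_le_ofReal ?_)
  have h3 := s3 _ (sub_sy hΦ) (sy_perm Φ)
  rw [val, val]
  refine (mul_le_mul_of_nonneg_left h3 (by positivity)).trans (le_of_eq ?_)
  push_cast
  field_simp

end Vale.Agent.P154.DE
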