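import Vale.Agent.P154.V5Grid
import Vale.Agent.P154.V5SPF2_0
import Vale.Agent.P154.V5SPF2_1
import Vale.Agent.P154.V5SPF2_2
import Vale.Agent.P154.V5SPF2_3
import Vale.Agent.P154.V5SPF2_4

/-! Density evolution, cell PF2: the bound. -/

namespace Vale.Agent.P154.DE

open scoped BigOperators ENNReal

theorem xPF2 : Nat.ble (1000 * xsum wPF2_5.toL g20.toL) (122 * (67108864 * 120 ^ 2)) = true := by
  decide +kernel

theorem zPF2 : hazOK 65536 160000 38809 asPF2 = true := by decide +kernel

theorem de_PF2 {lam d : ℝ} (h1 : -(99 / 200) ≤ lam) (h2 : lam ≤ -(197 / 400)) (hd : 0 ≤ d)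
    (hdl : d * lam ^ 2 ≤ 1) : xs lam (poisson d) 87 ≤ 122 / 1000 := by
  have c : Cell 99 100 160000 38809 asPF2 lam d := Cell.mk' (la := 197 / 400) (lb := 99 / 200)
    (by norm_num) (by norm_num) zPF2 (by norm_num) (by norm_num) (by norm_num) h1 h2 hd hdl
    (by norm_num)
  have h := (((At10.zero lam d).step c cPF2).reg rPF2)
  have h := h.step c sPF2_0
  have h := h.step c sPF2_1
  have h := h.step c sPF2_2
  have h := h.step c sPF2_3
  have h := h.step c sPF2_4
  have h := h.xs_le c (a := 122) (b := 1000) (by norm_num) xPF2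
  norm_num at h
  norm_num
  exact h

end Vale.Agent.P154.DE
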