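import Vale.Agent.P154.V2Asm

/-! Generated certificates. -/

namespace Vale.Agent.P154

def vS8 : Iv := ⟨true, 10000, -4473, -4350⟩

end Vale.Agent.P154
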