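import Vale.Agent.P154.VNAlo_z

/-! Generated certificates. -/

namespace Vale.Agent.P154

def NAlo : LoBr := ⟨NAlo_z, NAlo_a1, NAlo_a0, NAlo_b1, NAlo_b0, [0, 0, -187920, 374670, -234630, 126090], 9, 1, 1, 100, -1, 1, -3, 4, 100⟩

theorem NAlo_certR : NAlo.Cert vNA true :=
  ⟨by decide +kernel, NAlo_z_pw, NAlo_a1_pw, NAlo_a0_pw, NAlo_b1_pw, NAlo_b0_pw,
    NAlo_z_w, NAlo_a1_w, NAlo_a0_w, NAlo_b1_w, NAlo_b0_w,
    ⟨88, (.st 1 (.st 0 (.leaf) (.leaf)) (.leaf)), by decide +kernel⟩, ⟨72, .leaf, by decide +kernel⟩⟩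

end Vale.Agent.P154
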