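import Vale.Agent.P154.VNAr2a_10

/-! Generated certificates. -/

namespace Vale.Agent.P154

def NAr2a : RMi := ⟨100000000, [0, 1000000000, 435200000, 1000000000, -1000000000, 1000000000], [NAr2a_10], [0, 1000000000, 388900000, 1000000000, -1000000000, 1000000000], [NAr2a_11], 1, 100, 4, 25, -71820000, -718200, -71650000, -11464000, 100⟩

theorem NAr2a_certR : NAr2a.Cert vNA :=
  ⟨by decide +kernel, ⟨NAr2a_10_pw, trivial⟩,
    ⟨NAr2a_11_pw, trivial⟩,
    ⟨88, .leaf, by decide +kernel⟩, ⟨88, .leaf, by decide +kernel⟩⟩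

end Vale.Agent.P154
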