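import Vale.Agent.P154.VINA

/-! Generated certificates. -/

namespace Vale.Agent.P154

def NAr2a_10 : Cfg2 := ⟨⟨100000000, 481300000, -68000000, 60600000, 666100000, 461300000, -204800000, 17153, 990000000, 445200000, 990000000, -990000000, 990000000, 0, 1000000000, -1000000000, 1000000000, -1000000000, 1000000000, -1715300, 1000000000, -1000000000, 1000000000, -1000000000, 1000000000⟩, 68719476736, 4096, 200, 208⟩

def NAr2a_10_c0 : Cert2 :=
  .leaf ⟨[89171927525,59991876665,-162405657525,-4369855555827,9011444592164], [606725,0,0,0,0], [78654572397,-945280547098,14082386995740,-20073791812774,-25067759532050], [606725,871408850,687588117519,-862723387473,-2147916289734], [71074442401,-400675344811,1448503646298,-3251341606271,3092279748702], [606725,138498182,26849265888,-67863775504,-144430607], [⟨816, 5736, [3553,3583,5586,5591], [4082,4101,4209,4236], [2046,2084,4044,4121,4506,4525,5466,5485]⟩]⟩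

theorem NAr2a_10_h0 : NAr2a_10_c0.check NAr2a_10 (baseTri 1 1)
    (baseTriN 6 15) = true := by decide +kernel

def NAr2a_10_C : Cert2 :=
  NAr2a_10_c0

theorem NAr2a_10_check : NAr2a_10_C.check NAr2a_10 (baseTri 1 1) (baseTriN 6 15) = true :=
  NAr2a_10_h0

theorem NAr2a_10_pw : PWCert vNA NAr2a_10 := ⟨by decide +kernel, NAr2a_10_C, NAr2a_10_check⟩

def NAr2a_11 : Cfg2 := ⟨⟨100000000, 506900000, 335400000, 34264000, 10536000, 117500000, 327600000, 274448, 840000000, 548900000, 840000000, -840000000, 840000000, 0, 1000000000, -1000000000, 1000000000, -1000000000, 1000000000, -1715300, 1000000000, -1000000000, 1000000000, -1000000000, 1000000000⟩, 68719476736, 4096, 200, 208⟩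

def NAr2a_11_c0 : Cert2 :=
  .leaf ⟨[71709798268,-117094827363,119618473212,-698744031347,1510759732278], [14146556,3936007,150186923,-2182405812,6813364487], [83194987964,-1257646990459,14834227720158,-20073791812774,-25067759532050], [14146556,14129763354,5570119409508,-7021960526460,-17427708580950], [87301469155,-612509915747,2069550810771,-2229400562760,-699339246304], [14146556,266578587,11949291071,-66514671932,87433920485], [⟨816, 5736, [3429,3583,5351,5389], [4082,4101,4198,4217], [2046,2122,3891,4659,4736]⟩]⟩

theorem NAr2a_11_h0 : NAr2a_11_c0.check NAr2a_11 (baseTri 1 1)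
    (baseTriN 6 15) = true := by decide +kernel

def NAr2a_11_C : Cert2 :=
  NAr2a_11_c0

theorem NAr2a_11_check : NAr2a_11_C.check NAr2a_11 (baseTri 1 1) (baseTriN 6 15) = true :=
  NAr2a_11_h0

theorem NAr2a_11_pw : PWCert vNA NAr2a_11 := ⟨by decide +kernel, NAr2a_11_C, NAr2a_11_check⟩

end Vale.Agent.P154
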