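import Vale.Agent.P154.VNAr3a_10

/-! Generated certificates. -/

namespace Vale.Agent.P154

def NAr3a : RMi := ⟨1000000000, [0, 10000000000, 1193600000, 10000000000, -10000000000, 10000000000], [NAr3a_10, NAr3a_20], [0, 10000000000, 1745500000, 10000000000, -10000000000, 10000000000], [NAr3a_11, NAr3a_21], 1, 100, 4, 25, -2298620000, -22986200, -2297710000, -367633600, 1000⟩

theorem NAr3a_certR : NAr3a.Cert vNA :=
  ⟨by decide +kernel, ⟨NAr3a_10_pw, NAr3a_20_pw, trivial⟩,
    ⟨NAr3a_11_pw, NAr3a_21_pw, trivial⟩,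
    ⟨96, .leaf, by decide +kernel⟩, ⟨96, .leaf, by decide +kernel⟩⟩

end Vale.Agent.P154
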