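import Vale.Agent.P154.VNAr4a_10

/-! Generated certificates. -/

namespace Vale.Agent.P154

def NAr4a : RMi := ⟨500000000, [0, 5000000000, -50850000, 5000000000, -5000000000, 5000000000], [NAr4a_10, NAr4a_20, NAr4a_30], [0, 5000000000, -98000000, 5000000000, -5000000000, 5000000000], [NAr4a_11, NAr4a_21, NAr4a_31], 1, 100, 4, 25, -1017500000, -10175000, -1017225000, -162756000, 500⟩

theorem NAr4a_certR : NAr4a.Cert vNA :=
  ⟨by decide +kernel, ⟨NAr4a_10_pw, NAr4a_20_pw, NAr4a_30_pw, trivial⟩,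
    ⟨NAr4a_11_pw, NAr4a_21_pw, NAr4a_31_pw, trivial⟩,
    ⟨112, (.st 1 (.st 0 (.leaf) (.leaf)) (.leaf)), by decide +kernel⟩, ⟨96, .leaf, by decide +kernel⟩⟩

end Vale.Agent.P154
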