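import Vale.Agent.P154.VNAr5a_10

/-! Generated certificates. -/

namespace Vale.Agent.P154

def NAr5a : RMi := ⟨1000000000, [0, 10000000000, -1410400000, 10000000000, -10000000000, 6743000000], [NAr5a_10, NAr5a_20, NAr5a_30, NAr5a_40], [0, 10000000000, -2634900000, 10000000000, -10000000000, 5739700000], [NAr5a_11, NAr5a_21, NAr5a_31, NAr5a_41], 1, 100, 4, 25, -507850000, -5078500, -507530000, -81204800, 1000⟩

theorem NAr5a_certR : NAr5a.Cert vNA :=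
  ⟨by decide +kernel, ⟨NAr5a_10_pw, NAr5a_20_pw, NAr5a_30_pw, NAr5a_40_pw, trivial⟩,
    ⟨NAr5a_11_pw, NAr5a_21_pw, NAr5a_31_pw, NAr5a_41_pw, trivial⟩,
    ⟨112, (.st 1 (.st 0 (.leaf) (.leaf)) (.leaf)), by decide +kernel⟩, ⟨112, (.st 1 (.st 0 (.leaf) (.leaf)) (.leaf)), by decide +kernel⟩⟩

end Vale.Agent.P154
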