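import Vale.Agent.P154.VNBlo_z

/-! Generated certificates. -/

namespace Vale.Agent.P154

def NBlo : LoBr := ⟨NBlo_z, NBlo_a1, NBlo_a0, NBlo_b1, NBlo_b0, [0, 0, -312250, 718250, -494750, 293625], 25, 4, 1, 100, -3, 4, -1, 2, 200⟩

theorem NBlo_certR : NBlo.Cert vNB true :=
  ⟨by decide +kernel, NBlo_z_pw, NBlo_a1_pw, NBlo_a0_pw, NBlo_b1_pw, NBlo_b0_pw,
    NBlo_z_w, NBlo_a1_w, NBlo_a0_w, NBlo_b1_w, NBlo_b0_w,
    ⟨72, .leaf, by decide +kernel⟩, ⟨80, (.st 1 (.leaf) (.leaf)), by decide +kernel⟩⟩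

end Vale.Agent.P154
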