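import Vale.Agent.P154.VINB

/-! Generated certificates. -/

namespace Vale.Agent.P154

def NBr2a_10 : Cfg2 := ⟨⟨250000000, 1628125000, 261325000, 74100000, 929975000, 653825000, -276150000, 18837, 2475000000, -579350000, 2475000000, 1153975000, -1249875000, 0, 2500000000, -2500000000, 2500000000, -2500000000, 2500000000, -1883700, 2500000000, -2500000000, 2500000000, -2500000000, 2500000000⟩, 68719476736, 4096, 192, 208⟩

def NBr2a_10_c0 : Cert2 :=
  .leaf ⟨[68729700986,-137653456132,115797026204,-67197505748,22155199651], [367567,164022710,90457207356,65280167680,-23638885208], [241861012900,-2502115037870,6717928755256,13802864463949,-37951073001190], [479035,15738218,55507783781,-352466435089,559015103630], [73891804582,-394334960312,952846713360,-841171645698,-11088871657], [302936,238814921,128185381846,-128856838972,-255429209508], [⟨0, 6148, [3074,3458,4082,4130,4611,5379], [2002,2005,4082,4130,4696,4698,5379,5475], [2761,2785,4082,4106,4851,4875]⟩]⟩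

theorem NBr2a_10_h0 : NBr2a_10_c0.check NBr2a_10 (baseTri 1 1)
    (baseTriN 5 10) = true := by decide +kernel

def NBr2a_10_C : Cert2 :=
  NBr2a_10_c0

theorem NBr2a_10_check : NBr2a_10_C.check NBr2a_10 (baseTri 1 1) (baseTriN 5 10) = true :=
  NBr2a_10_h0

theorem NBr2a_10_pw : PWCert vNB NBr2a_10 := ⟨by decide +kernel, NBr2a_10_C, NBr2a_10_check⟩

def NBr2a_11 : Cfg2 := ⟨⟨250000000, 1031500000, 843125000, 37398500, 275001500, 551225000, 276225000, 470925, 1875000000, 1112025000, 1875000000, -1875000000, 1875000000, 0, 2500000000, -2500000000, 2500000000, -2500000000, 2500000000, -1883700, 2500000000, -2500000000, 2500000000, -2500000000, 2500000000⟩, 68719476736, 4096, 192, 208⟩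

def NBr2a_11_c0 : Cert2 :=
  .leaf ⟨[69264361027,-140325742146,-80091465180,658183286782,-627729021080], [10121107,2935626798,259888780484,-117126386993,-372714903154], [68796348440,-208298330781,361434875031,-378337267204,203740278129], [11668741,688333620,60368081083,-62642133068,-120958790640], [70604968240,-411366057423,1725922181836,-4592870041042,4915367771511], [11721161,612204087,53624350323,-55697454567,-107346563332], [⟨0, 6148, [3458,4034,4082,4611,4995], [2689,3842,4034,4611,5763], [1537,1633,4034,4322,4418,5475,5523]⟩]⟩

theorem NBr2a_11_h0 : NBr2a_11_c0.check NBr2a_11 (baseTri 1 1)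
    (baseTriN 5 10) = true := by decide +kernel

def NBr2a_11_C : Cert2 :=
  NBr2a_11_c0

theorem NBr2a_11_check : NBr2a_11_C.check NBr2a_11 (baseTri 1 1) (baseTriN 5 10) = true :=
  NBr2a_11_h0

theorem NBr2a_11_pw : PWCert vNB NBr2a_11 := ⟨by decide +kernel, NBr2a_11_C, NBr2a_11_check⟩

end Vale.Agent.P154
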