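import Vale.Agent.P154.VNClo_z

/-! Generated certificates. -/

namespace Vale.Agent.P154

def NClo : LoBr := ⟨NClo_z, NClo_a1, NClo_a0, NClo_b1, NClo_b0, [0, 0, -7181250, 15415625, -8487500, 3246875], 25, 4, 1, 100, -3, 4, -331, 500, 5000⟩

theorem NClo_certR : NClo.Cert vNC true :=
  ⟨by decide +kernel, NClo_z_pw, NClo_a1_pw, NClo_a0_pw, NClo_b1_pw, NClo_b0_pw,
    NClo_z_w, NClo_a1_w, NClo_a0_w, NClo_b1_w, NClo_b0_w,
    ⟨96, .leaf, by decide +kernel⟩, ⟨96, .leaf, by decide +kernel⟩⟩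

end Vale.Agent.P154
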