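import Vale.Agent.P154.VNCr5a_10
import Vale.Agent.P154.VNCr5a_31

/-! Generated certificates. -/

namespace Vale.Agent.P154

def NCr5a : RMi := ⟨5000000000, [0, 50000000000, -11783000000, 50000000000, -50000000000, 50000000000], [NCr5a_10, NCr5a_20, NCr5a_30, NCr5a_40], [0, 43929500000, -10870000000, 50000000000, -50000000000, 29623000000], [NCr5a_11, NCr5a_21, NCr5a_31, NCr5a_41], 1, 100, 37, 500, -176300000, -1763000, -23850000, -1764900, 5000⟩

theorem NCr5a_certR : NCr5a.Cert vNC :=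
  ⟨by decide +kernel, ⟨NCr5a_10_pw, NCr5a_20_pw, NCr5a_30_pw, NCr5a_40_pw, trivial⟩,
    ⟨NCr5a_11_pw, NCr5a_21_pw, NCr5a_31_pw, NCr5a_41_pw, trivial⟩,
    ⟨120, .leaf, by decide +kernel⟩, ⟨120, .leaf, by decide +kernel⟩⟩

end Vale.Agent.P154
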