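import Vale.Agent.P154.VNCr5b_10
import Vale.Agent.P154.VNCr5b_30
import Vale.Agent.P154.VNCr5b_31

/-! Generated certificates. -/

namespace Vale.Agent.P154

def NCr5b : RMi := ⟨10000000000, [0, 92511000000, -25456000000, 96136000000, -100000000000, 58315000000], [NCr5b_10, NCr5b_20, NCr5b_30, NCr5b_40], [0, 63059000000, -33305000000, 100000000000, -100000000000, 77138000000], [NCr5b_11, NCr5b_21, NCr5b_31, NCr5b_41], 37, 500, 37, 200, -1787500000, -132275000, -1786600000, -330521000, 10000⟩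

theorem NCr5b_certR : NCr5b.Cert vNC :=
  ⟨by decide +kernel, ⟨NCr5b_10_pw, NCr5b_20_pw, NCr5b_30_pw, NCr5b_40_pw, trivial⟩,
    ⟨NCr5b_11_pw, NCr5b_21_pw, NCr5b_31_pw, NCr5b_41_pw, trivial⟩,
    ⟨120, .leaf, by decide +kernel⟩, ⟨120, .leaf, by decide +kernel⟩⟩

end Vale.Agent.P154
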