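import Vale.Agent.P154.VNDlo_z

/-! Generated certificates. -/

namespace Vale.Agent.P154

def NDlo : LoBr := ⟨NDlo_z, NDlo_a1, NDlo_a0, NDlo_b1, NDlo_b0, [0, 0, -23970000000, 53820000000, -33530000000, 20610000000], 10000, 1849, 1, 100, -663, 1000, -617, 1000, 18490000⟩

theorem NDlo_certR : NDlo.Cert vND true :=
  ⟨by decide +kernel, NDlo_z_pw, NDlo_a1_pw, NDlo_a0_pw, NDlo_b1_pw, NDlo_b0_pw,
    NDlo_z_w, NDlo_a1_w, NDlo_a0_w, NDlo_b1_w, NDlo_b0_w,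
    ⟨160, .leaf, by decide +kernel⟩, ⟨152, .leaf, by decide +kernel⟩⟩

end Vale.Agent.P154
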