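import Vale.Agent.P154.VNElo_z

/-! Generated certificates. -/

namespace Vale.Agent.P154

def NElo : LoBr := ⟨NElo_z, NElo_a1, NElo_a0, NElo_b1, NElo_b0, [0, 0, -7643750, 16512500, -11296875, 6978125], 25, 4, 1, 100, -3, 4, -611, 1000, 5000⟩

theorem NElo_certR : NElo.Cert vNE true :=
  ⟨by decide +kernel, NElo_z_pw, NElo_a1_pw, NElo_a0_pw, NElo_b1_pw, NElo_b0_pw,
    NElo_z_w, NElo_a1_w, NElo_a0_w, NElo_b1_w, NElo_b0_w,
    ⟨80, .leaf, by decide +kernel⟩, ⟨80, .leaf, by decide +kernel⟩⟩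

end Vale.Agent.P154
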