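import Vale.Agent.P154.VNEr4a_10

/-! Generated certificates. -/

namespace Vale.Agent.P154

def NEr4a : RMi := ⟨10000000000, [0, 100000000000, -15061000000, 100000000000, -100000000000, 100000000000], [NEr4a_10, NEr4a_20, NEr4a_30], [0, 100000000000, -31972000000, 100000000000, -100000000000, 72381000000], [NEr4a_11, NEr4a_21, NEr4a_31], 1, 100, 203, 1000, -532500000, -5325000, -530300000, -107650900, 10000⟩

theorem NEr4a_certR : NEr4a.Cert vNE :=
  ⟨by decide +kernel, ⟨NEr4a_10_pw, NEr4a_20_pw, NEr4a_30_pw, trivial⟩,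
    ⟨NEr4a_11_pw, NEr4a_21_pw, NEr4a_31_pw, trivial⟩,
    ⟨104, .leaf, by decide +kernel⟩, ⟨104, .leaf, by decide +kernel⟩⟩

end Vale.Agent.P154
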