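import Vale.Agent.P154.VNFlo_z

/-! Generated certificates. -/

namespace Vale.Agent.P154

def NFlo : LoBr := ⟨NFlo_z, NFlo_a1, NFlo_a0, NFlo_b1, NFlo_b0, [0, 0, -249400000, 586300000, -306800000, 110100000], 400, 81, 1, 100, -153, 250, -69, 125, 202500⟩

theorem NFlo_certR : NFlo.Cert vNF true :=
  ⟨by decide +kernel, NFlo_z_pw, NFlo_a1_pw, NFlo_a0_pw, NFlo_b1_pw, NFlo_b0_pw,
    NFlo_z_w, NFlo_a1_w, NFlo_a0_w, NFlo_b1_w, NFlo_b0_w,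
    ⟨96, .leaf, by decide +kernel⟩, ⟨96, .leaf, by decide +kernel⟩⟩

end Vale.Agent.P154
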