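import Vale.Agent.P154.VNFr4a_10
import Vale.Agent.P154.VNFr4a_21

/-! Generated certificates. -/

namespace Vale.Agent.P154

def NFr4a : RMi := ⟨1000000000, [0, 6407900000, -1271600000, 10000000000, -10000000000, 3491100000], [NFr4a_10, NFr4a_20, NFr4a_30], [0, 5291800000, -1432700000, 10000000000, -4752000000, 8891500000], [NFr4a_11, NFr4a_21, NFr4a_31], 1, 100, 9, 100, -16850000, -168500, -1870000, -168300, 1000⟩

theorem NFr4a_certR : NFr4a.Cert vNF :=
  ⟨by decide +kernel, ⟨NFr4a_10_pw, NFr4a_20_pw, NFr4a_30_pw, trivial⟩,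
    ⟨NFr4a_11_pw, NFr4a_21_pw, NFr4a_31_pw, trivial⟩,
    ⟨104, .leaf, by decide +kernel⟩, ⟨104, .leaf, by decide +kernel⟩⟩

end Vale.Agent.P154
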