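import Vale.Agent.P154.VNFr4b_10
import Vale.Agent.P154.VNFr4b_20
import Vale.Agent.P154.VNFr4b_30
import Vale.Agent.P154.VNFr4b_21
import Vale.Agent.P154.VNFr4b_31

/-! Generated certificates. -/

namespace Vale.Agent.P154

def NFr4b : RMi := ⟨5000000000, [0, 40949500000, -9619500000, 50000000000, -50000000000, 50000000000], [NFr4b_10, NFr4b_20, NFr4b_30], [0, 23560000000, -11961500000, 50000000000, -50000000000, 38083000000], [NFr4b_11, NFr4b_21, NFr4b_31], 9, 100, 113, 500, -408050000, -36724500, -407850000, -92174100, 5000⟩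

theorem NFr4b_certR : NFr4b.Cert vNF :=
  ⟨by decide +kernel, ⟨NFr4b_10_pw, NFr4b_20_pw, NFr4b_30_pw, trivial⟩,
    ⟨NFr4b_11_pw, NFr4b_21_pw, NFr4b_31_pw, trivial⟩,
    ⟨112, .leaf, by decide +kernel⟩, ⟨112, .leaf, by decide +kernel⟩⟩

end Vale.Agent.P154
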