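import Vale.Agent.P154.VNGlo_z

/-! Generated certificates. -/

namespace Vale.Agent.P154

def NGlo : LoBr := ⟨NGlo_z, NGlo_a1, NGlo_a0, NGlo_b1, NGlo_b0, [0, 0, -859500, 1531800, -1535400, 795150], 9, 1, 1, 100, -1, 1, -457, 500, 500⟩

theorem NGlo_certR : NGlo.Cert vNG true :=
  ⟨by decide +kernel, NGlo_z_pw, NGlo_a1_pw, NGlo_a0_pw, NGlo_b1_pw, NGlo_b0_pw,
    NGlo_z_w, NGlo_a1_w, NGlo_a0_w, NGlo_b1_w, NGlo_b0_w,
    ⟨128, (.st 1 (.st 0 (.leaf) (.leaf)) (.leaf)), by decide +kernel⟩, ⟨112, .leaf, by decide +kernel⟩⟩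

end Vale.Agent.P154
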