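import Vale.Agent.P154.VNHlo_z

/-! Generated certificates. -/

namespace Vale.Agent.P154

def NHlo : LoBr := ⟨NHlo_z, NHlo_a1, NHlo_a0, NHlo_b1, NHlo_b0, [0, 0, -2172375, 3982500, -3846375, 1908000], 9, 1, 1, 100, -1, 1, -111, 125, 1250⟩

theorem NHlo_certR : NHlo.Cert vNH true :=
  ⟨by decide +kernel, NHlo_z_pw, NHlo_a1_pw, NHlo_a0_pw, NHlo_b1_pw, NHlo_b0_pw,
    NHlo_z_w, NHlo_a1_w, NHlo_a0_w, NHlo_b1_w, NHlo_b0_w,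
    ⟨104, (.st 1 (.st 0 (.leaf) (.leaf)) (.leaf)), by decide +kernel⟩, ⟨88, .leaf, by decide +kernel⟩⟩

end Vale.Agent.P154
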