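import Vale.Agent.P154.VNHr7a_10

/-! Generated certificates. -/

namespace Vale.Agent.P154

def NHr7a : RMi := ⟨5045000000000, [0, 50414180500000, -5955118000000, 50450000000000, -50450000000000, 50450000000000], [NHr7a_10, NHr7a_20, NHr7a_30, NHr7a_40, NHr7a_50, NHr7a_60], [0, 50450000000000, -10784696500000, 50450000000000, -42576773000000, 31741122000000], [NHr7a_11, NHr7a_21, NHr7a_31, NHr7a_41, NHr7a_51, NHr7a_61], 1, 100, 13, 250, -529069150000, -5290691500, -101757650000, -5291397800, 5045000⟩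

theorem NHr7a_certR : NHr7a.Cert vNH :=
  ⟨by decide +kernel, ⟨NHr7a_10_pw, NHr7a_20_pw, NHr7a_30_pw, NHr7a_40_pw, NHr7a_50_pw, NHr7a_60_pw, trivial⟩,
    ⟨NHr7a_11_pw, NHr7a_21_pw, NHr7a_31_pw, NHr7a_41_pw, NHr7a_51_pw, NHr7a_61_pw, trivial⟩,
    ⟨128, .leaf, by decide +kernel⟩, ⟨128, .leaf, by decide +kernel⟩⟩

end Vale.Agent.P154
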