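import Vale.Agent.P154.VNHr7b_10

/-! Generated certificates. -/

namespace Vale.Agent.P154

def NHr7b : RMi := ⟨5045000000000, [0, 50450000000000, -11895101000000, 44716357500000, -37443990000000, 27583537500000], [NHr7b_10, NHr7b_20, NHr7b_30, NHr7b_40, NHr7b_50, NHr7b_60], [0, 46653637500000, -21313107000000, 50450000000000, -48537440500000, 14441817000000], [NHr7b_11, NHr7b_21, NHr7b_31, NHr7b_41, NHr7b_51, NHr7b_61], 13, 250, 13, 100, -1863471650000, -96900525800, -1862563550000, -242133261500, 5045000⟩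

theorem NHr7b_certR : NHr7b.Cert vNH :=
  ⟨by decide +kernel, ⟨NHr7b_10_pw, NHr7b_20_pw, NHr7b_30_pw, NHr7b_40_pw, NHr7b_50_pw, NHr7b_60_pw, trivial⟩,
    ⟨NHr7b_11_pw, NHr7b_21_pw, NHr7b_31_pw, NHr7b_41_pw, NHr7b_51_pw, NHr7b_61_pw, trivial⟩,
    ⟨128, .leaf, by decide +kernel⟩, ⟨128, .leaf, by decide +kernel⟩⟩

end Vale.Agent.P154
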