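import Vale.Agent.P154.VNIlo_z

/-! Generated certificates. -/

namespace Vale.Agent.P154

def NIlo : LoBr := ⟨NIlo_z, NIlo_a1, NIlo_a0, NIlo_b1, NIlo_b0, [0, 0, -593125000, 1225625000, -1193125000, 557812500], 625, 81, 1, 100, -889, 1000, -411, 500, 405000⟩

theorem NIlo_certR : NIlo.Cert vNI true :=
  ⟨by decide +kernel, NIlo_z_pw, NIlo_a1_pw, NIlo_a0_pw, NIlo_b1_pw, NIlo_b0_pw,
    NIlo_z_w, NIlo_a1_w, NIlo_a0_w, NIlo_b1_w, NIlo_b0_w,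
    ⟨120, .leaf, by decide +kernel⟩, ⟨120, .leaf, by decide +kernel⟩⟩

end Vale.Agent.P154
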