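import Vale.Agent.P154.VNJlo_z

/-! Generated certificates. -/

namespace Vale.Agent.P154

def NJlo : LoBr := ⟨NJlo_z, NJlo_a1, NJlo_a0, NJlo_b1, NJlo_b0, [0, 0, -4437000, 8475750, -7749000, 3593250], 9, 1, 1, 100, -1, 1, -851, 1000, 2500⟩

theorem NJlo_certR : NJlo.Cert vNJ true :=
  ⟨by decide +kernel, NJlo_z_pw, NJlo_a1_pw, NJlo_a0_pw, NJlo_b1_pw, NJlo_b0_pw,
    NJlo_z_w, NJlo_a1_w, NJlo_a0_w, NJlo_b1_w, NJlo_b0_w,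
    ⟨120, (.st 1 (.st 0 (.leaf) (.leaf)) (.leaf)), by decide +kernel⟩, ⟨104, .leaf, by decide +kernel⟩⟩

end Vale.Agent.P154
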