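import Vale.Agent.P154.VNJr6a_10

/-! Generated certificates. -/

namespace Vale.Agent.P154

def NJr6a : RMi := ⟨10090000000000, [0, 100900000000000, -12536825000000, 100900000000000, -100900000000000, 100900000000000], [NJr6a_10, NJr6a_20, NJr6a_30, NJr6a_40, NJr6a_50], [0, 100900000000000, -24290666000000, 100900000000000, -100900000000000, 82134618000000], [NJr6a_11, NJr6a_21, NJr6a_31, NJr6a_41, NJr6a_51], 1, 100, 137, 1000, -4237900900000, -42379009000, -4234470300000, -580122431100, 10090000⟩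

theorem NJr6a_certR : NJr6a.Cert vNJ :=
  ⟨by decide +kernel, ⟨NJr6a_10_pw, NJr6a_20_pw, NJr6a_30_pw, NJr6a_40_pw, NJr6a_50_pw, trivial⟩,
    ⟨NJr6a_11_pw, NJr6a_21_pw, NJr6a_31_pw, NJr6a_41_pw, NJr6a_51_pw, trivial⟩,
    ⟨144, .leaf, by decide +kernel⟩, ⟨144, .leaf, by decide +kernel⟩⟩

end Vale.Agent.P154
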