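import Vale.Agent.P154.VNKlo_z

/-! Generated certificates. -/

namespace Vale.Agent.P154

def NKlo : LoBr := ⟨NKlo_z, NKlo_a1, NKlo_a0, NKlo_b1, NKlo_b0, [0, 0, -4820000000, 10425000000, -9517500000, 4057500000], 10000, 1369, 1, 100, -213, 250, -391, 500, 3422500⟩

theorem NKlo_certR : NKlo.Cert vNK true :=
  ⟨by decide +kernel, NKlo_z_pw, NKlo_a1_pw, NKlo_a0_pw, NKlo_b1_pw, NKlo_b0_pw,
    NKlo_z_w, NKlo_a1_w, NKlo_a0_w, NKlo_b1_w, NKlo_b0_w,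
    ⟨112, .leaf, by decide +kernel⟩, ⟨112, .leaf, by decide +kernel⟩⟩

end Vale.Agent.P154
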