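import Vale.Agent.P154.VNKr6a_10

/-! Generated certificates. -/

namespace Vale.Agent.P154

def NKr6a : RMi := ⟨10090000000000, [0, 100900000000000, -18508087000000, 100900000000000, -100900000000000, 100900000000000], [NKr6a_10, NKr6a_20, NKr6a_30, NKr6a_40, NKr6a_50], [0, 100900000000000, -21499772000000, 100900000000000, -100900000000000, 68199319000000], [NKr6a_11, NKr6a_21, NKr6a_31, NKr6a_41, NKr6a_51], 1, 100, 61, 1000, -734854700000, -7348547000, -120474600000, -7348950600, 10090000⟩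

theorem NKr6a_certR : NKr6a.Cert vNK :=
  ⟨by decide +kernel, ⟨NKr6a_10_pw, NKr6a_20_pw, NKr6a_30_pw, NKr6a_40_pw, NKr6a_50_pw, trivial⟩,
    ⟨NKr6a_11_pw, NKr6a_21_pw, NKr6a_31_pw, NKr6a_41_pw, NKr6a_51_pw, trivial⟩,
    ⟨128, .leaf, by decide +kernel⟩, ⟨128, .leaf, by decide +kernel⟩⟩

end Vale.Agent.P154
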