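import Vale.Agent.P154.VNKr6b_10

/-! Generated certificates. -/

namespace Vale.Agent.P154

def NKr6b : RMi := ⟨10090000000000, [0, 99540877000000, -24003101000000, 92375968000000, -100347068000000, 47283758000000], [NKr6b_10, NKr6b_20, NKr6b_30, NKr6b_40, NKr6b_50], [0, 92065196000000, -41485035000000, 100900000000000, -100900000000000, 30383008000000], [NKr6b_11, NKr6b_21, NKr6b_31, NKr6b_41, NKr6b_51], 61, 1000, 153, 1000, -2955260100000, -180270866100, -2953847500000, -451938667500, 10090000⟩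

theorem NKr6b_certR : NKr6b.Cert vNK :=
  ⟨by decide +kernel, ⟨NKr6b_10_pw, NKr6b_20_pw, NKr6b_30_pw, NKr6b_40_pw, NKr6b_50_pw, trivial⟩,
    ⟨NKr6b_11_pw, NKr6b_21_pw, NKr6b_31_pw, NKr6b_41_pw, NKr6b_51_pw, trivial⟩,
    ⟨128, .leaf, by decide +kernel⟩, ⟨128, .leaf, by decide +kernel⟩⟩

end Vale.Agent.P154
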