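import Vale.Agent.P154.VNLlo_z

/-! Generated certificates. -/

namespace Vale.Agent.P154

def NLlo : LoBr := ⟨NLlo_z, NLlo_a1, NLlo_a0, NLlo_b1, NLlo_b0, [0, 0, -4930000000, 11575000000, -9870000000, 3817500000], 10000, 1521, 1, 100, -783, 1000, -181, 250, 3802500⟩

theorem NLlo_certR : NLlo.Cert vNL true :=
  ⟨by decide +kernel, NLlo_z_pw, NLlo_a1_pw, NLlo_a0_pw, NLlo_b1_pw, NLlo_b0_pw,
    NLlo_z_w, NLlo_a1_w, NLlo_a0_w, NLlo_b1_w, NLlo_b0_w,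
    ⟨152, .leaf, by decide +kernel⟩, ⟨152, .leaf, by decide +kernel⟩⟩

end Vale.Agent.P154
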