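import Vale.Agent.P154.VPAlo_z

/-! Generated certificates. -/

namespace Vale.Agent.P154

def PAlo : LoBr := ⟨PAlo_z, PAlo_a1, PAlo_a0, PAlo_b1, PAlo_b0, [0, 0, -2716732500000, 6970928750000, -4741038750000, 514590000000], 2500, 529, 1, 100, -149, 200, -733, 1000, 2668805000⟩

theorem PAlo_certP : PAlo.Cert vPA false :=
  ⟨by decide +kernel, PAlo_z_pw, PAlo_a1_pw, PAlo_a0_pw, PAlo_b1_pw, PAlo_b0_pw,
    PAlo_z_w, PAlo_a1_w, PAlo_a0_w, PAlo_b1_w, PAlo_b0_w,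
    ⟨144, (.st 1 (.st 0 (.leaf) (.leaf)) (.leaf)), by decide +kernel⟩, ⟨128, .leaf, by decide +kernel⟩⟩

end Vale.Agent.P154
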