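import Vale.Agent.P154.VPBlo_z

/-! Generated certificates. -/

namespace Vale.Agent.P154

def PBlo : LoBr := ⟨PBlo_z, PBlo_a1, PBlo_a0, PBlo_b1, PBlo_b0, [0, 0, -46857960000000, 115288340000000, -79105600000000, 27464980000000], 40000, 8649, 1, 100, -367, 500, -723, 1000, 43634205000⟩

theorem PBlo_certP : PBlo.Cert vPB false :=
  ⟨by decide +kernel, PBlo_z_pw, PBlo_a1_pw, PBlo_a0_pw, PBlo_b1_pw, PBlo_b0_pw,
    PBlo_z_w, PBlo_a1_w, PBlo_a0_w, PBlo_b1_w, PBlo_b0_w,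
    ⟨136, .leaf, by decide +kernel⟩, ⟨136, .leaf, by decide +kernel⟩⟩

end Vale.Agent.P154
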