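import Vale.Agent.P154.VPClo_z

/-! Generated certificates. -/

namespace Vale.Agent.P154

def PClo : LoBr := ⟨PClo_z, PClo_a1, PClo_a0, PClo_b1, PClo_b0, [0, 0, -22308990000000, 58209210000000, -40491170000000, 8223350000000], 10000, 2209, 1, 100, -181, 250, -713, 1000, 22288810000⟩

theorem PClo_certP : PClo.Cert vPC false :=
  ⟨by decide +kernel, PClo_z_pw, PClo_a1_pw, PClo_a0_pw, PClo_b1_pw, PClo_b0_pw,
    PClo_z_w, PClo_a1_w, PClo_a0_w, PClo_b1_w, PClo_b0_w,
    ⟨136, .leaf, by decide +kernel⟩, ⟨136, .leaf, by decide +kernel⟩⟩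

end Vale.Agent.P154
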