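import Vale.Agent.P154.VPDlo_z

/-! Generated certificates. -/

namespace Vale.Agent.P154

def PDlo : LoBr := ⟨PDlo_z, PDlo_a1, PDlo_a0, PDlo_b1, PDlo_b0, [0, 0, -188884800000, 478588880000, -343463600000, 136255360000], 1600, 361, 1, 100, -357, 500, -703, 1000, 182124500⟩

theorem PDlo_certP : PDlo.Cert vPD false :=
  ⟨by decide +kernel, PDlo_z_pw, PDlo_a1_pw, PDlo_a0_pw, PDlo_b1_pw, PDlo_b0_pw,
    PDlo_z_w, PDlo_a1_w, PDlo_a0_w, PDlo_b1_w, PDlo_b0_w,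
    ⟨128, .leaf, by decide +kernel⟩, ⟨120, .leaf, by decide +kernel⟩⟩

end Vale.Agent.P154
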