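import Vale.Agent.P154.VPElo_z

/-! Generated certificates. -/

namespace Vale.Agent.P154

def PElo : LoBr := ⟨PElo_z, PElo_a1, PElo_a0, PElo_b1, PElo_b0, [0, 0, -175550234375, 476594843750, -327373203125, 178466875000], 625, 144, 1, 100, -88, 125, -171, 250, 181620000⟩

theorem PElo_certP : PElo.Cert vPE false :=
  ⟨by decide +kernel, PElo_z_pw, PElo_a1_pw, PElo_a0_pw, PElo_b1_pw, PElo_b0_pw,
    PElo_z_w, PElo_a1_w, PElo_a0_w, PElo_b1_w, PElo_b0_w,
    ⟨128, (.st 1 (.st 0 (.leaf) (.leaf)) (.leaf)), by decide +kernel⟩, ⟨112, .leaf, by decide +kernel⟩⟩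

end Vale.Agent.P154
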