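import Vale.Agent.P154.VPFlo_z

/-! Generated certificates. -/

namespace Vale.Agent.P154

def PFlo : LoBr := ⟨PFlo_z, PFlo_a1, PFlo_a0, PFlo_b1, PFlo_b0, [0, 0, -11775030000000, 31934850000000, -25139235000000, 16557690000000], 10000, 2401, 1, 100, -137, 200, -333, 500, 12113045000⟩

theorem PFlo_certP : PFlo.Cert vPF false :=
  ⟨by decide +kernel, PFlo_z_pw, PFlo_a1_pw, PFlo_a0_pw, PFlo_b1_pw, PFlo_b0_pw,
    PFlo_z_w, PFlo_a1_w, PFlo_a0_w, PFlo_b1_w, PFlo_b0_w,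
    ⟨144, (.st 1 (.st 0 (.leaf) (.leaf)) (.leaf)), by decide +kernel⟩, ⟨128, .leaf, by decide +kernel⟩⟩

end Vale.Agent.P154
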