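import Vale.Agent.P154.VS0lo_z

/-! Generated certificates. -/

namespace Vale.Agent.P154

def S0lo : LoBr := ⟨S0lo_z, S0lo_a1, S0lo_a0, S0lo_b1, S0lo_b0, [0, 0, -273237200000, 396940600000, -524074600000, 234088000000], 400, 9, 1, 100, -2899, 1000, -21, 8, 45405000⟩

theorem S0lo_certP : S0lo.Cert vS0 false :=
  ⟨by decide +kernel, S0lo_z_pw, S0lo_a1_pw, S0lo_a0_pw, S0lo_b1_pw, S0lo_b0_pw,
    S0lo_z_w, S0lo_a1_w, S0lo_a0_w, S0lo_b1_w, S0lo_b0_w,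
    ⟨112, .leaf, by decide +kernel⟩, ⟨112, .leaf, by decide +kernel⟩⟩

theorem S0lo_certR : S0lo.Cert vS0 true :=
  ⟨by decide +kernel, S0lo_z_pw, S0lo_a1_pw, S0lo_a0_pw, S0lo_b1_pw, S0lo_b0_pw,
    S0lo_z_w, S0lo_a1_w, S0lo_a0_w, S0lo_b1_w, S0lo_b0_w,
    ⟨112, .leaf, by decide +kernel⟩, ⟨112, .leaf, by decide +kernel⟩⟩

end Vale.Agent.P154
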