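import Vale.Agent.P154.VS1lo_z

/-! Generated certificates. -/

namespace Vale.Agent.P154

def S1lo : LoBr := ⟨S1lo_z, S1lo_a1, S1lo_a0, S1lo_b1, S1lo_b0, [0, 0, -51271680, 76523520, -125521920, 83312640], 1024, 25, 3, 500, -346, 125, -3, 2, 12500⟩

theorem S1lo_certP : S1lo.Cert vS1 false :=
  ⟨by decide +kernel, S1lo_z_pw, S1lo_a1_pw, S1lo_a0_pw, S1lo_b1_pw, S1lo_b0_pw,
    S1lo_z_w, S1lo_a1_w, S1lo_a0_w, S1lo_b1_w, S1lo_b0_w,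
    ⟨104, (.st 1 (.st 0 (.leaf) (.leaf)) (.leaf)), by decide +kernel⟩, ⟨104, (.st 1 (.st 0 (.leaf) (.leaf)) (.leaf)), by decide +kernel⟩⟩

theorem S1lo_certR : S1lo.Cert vS1 true :=
  ⟨by decide +kernel, S1lo_z_pw, S1lo_a1_pw, S1lo_a0_pw, S1lo_b1_pw, S1lo_b0_pw,
    S1lo_z_w, S1lo_a1_w, S1lo_a0_w, S1lo_b1_w, S1lo_b0_w,
    ⟨104, (.st 1 (.st 0 (.leaf) (.leaf)) (.leaf)), by decide +kernel⟩, ⟨104, (.st 1 (.st 0 (.leaf) (.leaf)) (.leaf)), by decide +kernel⟩⟩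

end Vale.Agent.P154
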