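import Vale.Agent.P154.VS2lo_z

/-! Generated certificates. -/

namespace Vale.Agent.P154

def S2lo : LoBr := ⟨S2lo_z, S2lo_a1, S2lo_a0, S2lo_b1, S2lo_b0, [0, 0, -32544000, 48258000, -62028000, 39168000], 16, 1, 9, 1000, -8, 5, -583, 500, 12500⟩

theorem S2lo_certP : S2lo.Cert vS2 false :=
  ⟨by decide +kernel, S2lo_z_pw, S2lo_a1_pw, S2lo_a0_pw, S2lo_b1_pw, S2lo_b0_pw,
    S2lo_z_w, S2lo_a1_w, S2lo_a0_w, S2lo_b1_w, S2lo_b0_w,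
    ⟨96, (.st 1 (.st 0 (.leaf) (.leaf)) (.leaf)), by decide +kernel⟩, ⟨80, .leaf, by decide +kernel⟩⟩

theorem S2lo_certR : S2lo.Cert vS2 true :=
  ⟨by decide +kernel, S2lo_z_pw, S2lo_a1_pw, S2lo_a0_pw, S2lo_b1_pw, S2lo_b0_pw,
    S2lo_z_w, S2lo_a1_w, S2lo_a0_w, S2lo_b1_w, S2lo_b0_w,
    ⟨96, (.st 1 (.st 0 (.leaf) (.leaf)) (.leaf)), by decide +kernel⟩, ⟨80, .leaf, by decide +kernel⟩⟩

end Vale.Agent.P154
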