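import Vale.Agent.P154.VS3lo_z

/-! Generated certificates. -/

namespace Vale.Agent.P154

def S3lo : LoBr := ⟨S3lo_z, S3lo_a1, S3lo_a0, S3lo_b1, S3lo_b0, [0, 0, -98300000, 156700000, -154750000, 83700000], 100, 9, 1, 100, -1283, 1000, -1, 1, 45000⟩

theorem S3lo_certP : S3lo.Cert vS3 false :=
  ⟨by decide +kernel, S3lo_z_pw, S3lo_a1_pw, S3lo_a0_pw, S3lo_b1_pw, S3lo_b0_pw,
    S3lo_z_w, S3lo_a1_w, S3lo_a0_w, S3lo_b1_w, S3lo_b0_w,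
    ⟨104, (.st 1 (.st 0 (.leaf) (.leaf)) (.leaf)), by decide +kernel⟩, ⟨88, .leaf, by decide +kernel⟩⟩

theorem S3lo_certR : S3lo.Cert vS3 true :=
  ⟨by decide +kernel, S3lo_z_pw, S3lo_a1_pw, S3lo_a0_pw, S3lo_b1_pw, S3lo_b0_pw,
    S3lo_z_w, S3lo_a1_w, S3lo_a0_w, S3lo_b1_w, S3lo_b0_w,
    ⟨104, (.st 1 (.st 0 (.leaf) (.leaf)) (.leaf)), by decide +kernel⟩, ⟨88, .leaf, by decide +kernel⟩⟩

end Vale.Agent.P154
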