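import Vale.Agent.P154.VS4lo_z

/-! Generated certificates. -/

namespace Vale.Agent.P154

def S4lo : LoBr := ⟨S4lo_z, S4lo_a1, S4lo_a0, S4lo_b1, S4lo_b0, [0, 0, -3630600, 7160400, -5988600, 2786400], 9, 1, 1, 100, -9, 8, -163, 200, 2000⟩

theorem S4lo_certP : S4lo.Cert vS4 false :=
  ⟨by decide +kernel, S4lo_z_pw, S4lo_a1_pw, S4lo_a0_pw, S4lo_b1_pw, S4lo_b0_pw,
    S4lo_z_w, S4lo_a1_w, S4lo_a0_w, S4lo_b1_w, S4lo_b0_w,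
    ⟨96, .leaf, by decide +kernel⟩, ⟨96, .leaf, by decide +kernel⟩⟩

theorem S4lo_certR : S4lo.Cert vS4 true :=
  ⟨by decide +kernel, S4lo_z_pw, S4lo_a1_pw, S4lo_a0_pw, S4lo_b1_pw, S4lo_b0_pw,
    S4lo_z_w, S4lo_a1_w, S4lo_a0_w, S4lo_b1_w, S4lo_b0_w,
    ⟨96, .leaf, by decide +kernel⟩, ⟨96, .leaf, by decide +kernel⟩⟩

end Vale.Agent.P154
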