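import Vale.Agent.P154.VS5lo_z

/-! Generated certificates. -/

namespace Vale.Agent.P154

def S5lo : LoBr := ⟨S5lo_z, S5lo_a1, S5lo_a0, S5lo_b1, S5lo_b0, [0, 0, -1232500000, 2749375000, -2327500000, 994375000], 2500, 361, 1, 100, -477, 500, -223, 250, 902500⟩

theorem S5lo_certP : S5lo.Cert vS5 false :=
  ⟨by decide +kernel, S5lo_z_pw, S5lo_a1_pw, S5lo_a0_pw, S5lo_b1_pw, S5lo_b0_pw,
    S5lo_z_w, S5lo_a1_w, S5lo_a0_w, S5lo_b1_w, S5lo_b0_w,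
    ⟨104, .leaf, by decide +kernel⟩, ⟨104, .leaf, by decide +kernel⟩⟩

end Vale.Agent.P154
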