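import Vale.Agent.P154.VS6lo_z

/-! Generated certificates. -/

namespace Vale.Agent.P154

def S6lo : LoBr := ⟨S6lo_z, S6lo_a1, S6lo_a0, S6lo_b1, S6lo_b0, [0, 0, -6643750, 14581250, -8343750, 1381250], 25, 4, 1, 100, -893, 1000, -419, 500, 5000⟩

theorem S6lo_certP : S6lo.Cert vS6 false :=
  ⟨by decide +kernel, S6lo_z_pw, S6lo_a1_pw, S6lo_a0_pw, S6lo_b1_pw, S6lo_b0_pw,
    S6lo_z_w, S6lo_a1_w, S6lo_a0_w, S6lo_b1_w, S6lo_b0_w,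
    ⟨104, (.st 1 (.st 0 (.leaf) (.leaf)) (.leaf)), by decide +kernel⟩, ⟨88, .leaf, by decide +kernel⟩⟩

end Vale.Agent.P154
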