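import Vale.Agent.P154.VS7lo_z

/-! Generated certificates. -/

namespace Vale.Agent.P154

def S7lo : LoBr := ⟨S7lo_z, S7lo_a1, S7lo_a0, S7lo_b1, S7lo_b0, [0, 0, -5697500000, 12350000000, -6057500000, -257500000], 2500, 441, 1, 100, -839, 1000, -4, 5, 4410000⟩

theorem S7lo_certP : S7lo.Cert vS7 false :=
  ⟨by decide +kernel, S7lo_z_pw, S7lo_a1_pw, S7lo_a0_pw, S7lo_b1_pw, S7lo_b0_pw,
    S7lo_z_w, S7lo_a1_w, S7lo_a0_w, S7lo_b1_w, S7lo_b0_w,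
    ⟨136, (.st 1 (.st 0 (.leaf) (.leaf)) (.leaf)), by decide +kernel⟩, ⟨120, .leaf, by decide +kernel⟩⟩

end Vale.Agent.P154
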