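import Vale.Agent.P154.VS8lo_z

/-! Generated certificates. -/

namespace Vale.Agent.P154

def S8lo : LoBr := ⟨S8lo_z, S8lo_a1, S8lo_a0, S8lo_b1, S8lo_b0, [0, 0, -18680000000, 41696000000, -21872000000, -480000000], 40000, 7569, 1, 100, -801, 1000, -193, 250, 15138000⟩

theorem S8lo_certP : S8lo.Cert vS8 false :=
  ⟨by decide +kernel, S8lo_z_pw, S8lo_a1_pw, S8lo_a0_pw, S8lo_b1_pw, S8lo_b0_pw,
    S8lo_z_w, S8lo_a1_w, S8lo_a0_w, S8lo_b1_w, S8lo_b0_w,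
    ⟨176, (.st 1 (.st 0 (.leaf) (.leaf)) (.leaf)), by decide +kernel⟩, ⟨160, .leaf, by decide +kernel⟩⟩

end Vale.Agent.P154
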