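import Vale.Agent.P154.VS9lo_z

/-! Generated certificates. -/

namespace Vale.Agent.P154

def S9lo : LoBr := ⟨S9lo_z, S9lo_a1, S9lo_a0, S9lo_b1, S9lo_b0, [0, 0, -225915100000000000, 548290600000000000, -388969500000000000, 165778700000000000], 100000000, 20007729, 1, 100, -773, 1000, -93, 125, 201877985610000⟩

theorem S9lo_certP : S9lo.Cert vS9 false :=
  ⟨by decide +kernel, S9lo_z_pw, S9lo_a1_pw, S9lo_a0_pw, S9lo_b1_pw, S9lo_b0_pw,
    S9lo_z_w, S9lo_a1_w, S9lo_a0_w, S9lo_b1_w, S9lo_b0_w,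
    ⟨192, .leaf, by decide +kernel⟩, ⟨192, .leaf, by decide +kernel⟩⟩

end Vale.Agent.P154
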