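import Vale.Agent.P154.VkH_1

/-! Generated certificates. -/

namespace Vale.Agent.P154

def kH : HiBr := ⟨kH_1, kH_0, [0, 4339170, 7188750, -8100000, -8100000, 4691520], 100, 81, 3, 100, 27000, 810, 1⟩

theorem kH_cert : kH.CCert kD ka 3 10 :=
  ⟨by decide +kernel, kH_1_pw, kH_0_pw, kH_1_w, kH_0_w, kH_1_g, ⟨80, .leaf, by decide +kernel⟩⟩

end Vale.Agent.P154
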