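import Vale.Agent.P154.VkL
import Vale.Agent.P154.VkH

/-! Generated certificates. -/

namespace Vale.Agent.P154

/-- Poisson trees, `9/10 ≤ lam < 1`: nonreconstruction for every `d` with `d lam² ≤ 1` -/
theorem pois_corner {lam d : ℝ} (h1 : (9 : ℝ) ≤ 10 * lam) (h2 : lam < 1)
    (hd : 0 ≤ d) (hdl : d * lam ^ 2 ≤ 1) : Nonreconstruction 3 lam (poisson d) :=
  corner_poisson kL_cert kH_cert (by decide +kernel) (by decide +kernel)
    (by norm_num [kD, ka]; exact h1) h2 hd hdl

end Vale.Agent.P154
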