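import Vale.Agent.P154.VNAlo
import Vale.Agent.P154.VNAr2a

/-! Generated certificates. -/

namespace Vale.Agent.P154

def lNA_2 : List Brk := [.lo NAlo, .rmi NAr2a]

theorem reg_NA_2 {lam : ℝ} (h1 : (-6 : ℝ) ≤ 15 * lam) (h2 : 15 * lam ≤ -5)
    (hdl : ((2 : ℕ) : ℝ) * lam ^ 2 ≤ 1) : Nonreconstruction 3 lam (regular 2) :=
  regular_of_list (v := vNA) (l := lNA_2) (by decide +kernel) (e := 2) (by decide +kernel)
    ⟨NAlo_certR, NAr2a_certR, trivial⟩ (by norm_num [vNA]; exact h1)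
    (by norm_num [vNA]; exact h2) (Or.inr rfl) hdl

end Vale.Agent.P154
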