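import Vale.Agent.P154.VNElo
import Vale.Agent.P154.VNEr4a

/-! Generated certificates. -/

namespace Vale.Agent.P154

def lNE_4 : List Brk := [.lo NElo, .rmi NEr4a]

theorem reg_NE_4 {lam : ℝ} (h1 : (-9 : ℝ) ≤ 20 * lam) (h2 : 20 * lam ≤ -8)
    (hdl : ((4 : ℕ) : ℝ) * lam ^ 2 ≤ 1) : Nonreconstruction 3 lam (regular 4) :=
  regular_of_list (v := vNE) (l := lNE_4) (by decide +kernel) (e := 4) (by decide +kernel)
    ⟨NElo_certR, NEr4a_certR, trivial⟩ (by norm_num [vNE]; exact h1)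
    (by norm_num [vNE]; exact h2) (Or.inr rfl) hdl

end Vale.Agent.P154
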