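import Vale.Agent.P154.VNFlo
import Vale.Agent.P154.VNFr4a
import Vale.Agent.P154.VNFr4b

/-! Generated certificates. -/

namespace Vale.Agent.P154

def lNF_4 : List Brk := [.lo NFlo, .rmi NFr4a, .rmi NFr4b]

theorem reg_NF_4 {lam : ℝ} (h1 : (-19 : ℝ) ≤ 40 * lam) (h2 : 40 * lam ≤ -18)
    (hdl : ((4 : ℕ) : ℝ) * lam ^ 2 ≤ 1) : Nonreconstruction 3 lam (regular 4) :=
  regular_of_list (v := vNF) (l := lNF_4) (by decide +kernel) (e := 4) (by decide +kernel)
    ⟨NFlo_certR, NFr4a_certR, NFr4b_certR, trivial⟩ (by norm_num [vNF]; exact h1)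
    (by norm_num [vNF]; exact h2) (Or.inr rfl) hdl

end Vale.Agent.P154
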