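import Vale.Agent.P154.VNKlo
import Vale.Agent.P154.VNKr6a
import Vale.Agent.P154.VNKr6b

/-! Generated certificates. -/

namespace Vale.Agent.P154

def lNK_6 : List Brk := [.lo NKlo, .rmi NKr6a, .rmi NKr6b]

theorem reg_NK_6 {lam : ℝ} (h1 : (-39 : ℝ) ≤ 100 * lam) (h2 : 100 * lam ≤ -37)
    (hdl : ((6 : ℕ) : ℝ) * lam ^ 2 ≤ 1) : Nonreconstruction 3 lam (regular 6) :=
  regular_of_list (v := vNK) (l := lNK_6) (by decide +kernel) (e := 6) (by decide +kernel)
    ⟨NKlo_certR, NKr6a_certR, NKr6b_certR, trivial⟩ (by norm_num [vNK]; exact h1)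
    (by norm_num [vNK]; exact h2) (Or.inr rfl) hdl

end Vale.Agent.P154
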