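import Vale.Agent.P154.VkL_z

/-! Generated certificates. -/

namespace Vale.Agent.P154

def kL : LoBr := ⟨kL_z, kL_a1, kL_a0, kL_b1, kL_b0, [0, 0, -995500, 2911000, -2715500, 2410500], 100, 81, 3, 100, 5, 1, 50, 9, 1350⟩

theorem kL_cert : kL.CCert kD ka 3 10 :=
  ⟨by decide +kernel, kL_z_pw, kL_a1_pw, kL_a0_pw, kL_b1_pw, kL_b0_pw,
    kL_z_w, kL_a1_w, kL_a0_w, kL_b1_w, kL_b0_w,
    ⟨96, (.st 1 (.st 0 (.st 2 (.st 0 (.leaf) (.leaf)) (.leaf)) (.leaf)) (.leaf)), by decide +kernel⟩, ⟨80, .leaf, by decide +kernel⟩⟩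

end Vale.Agent.P154
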