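import Vale.Agent.P154.VnA2l_z

/-! Generated certificates. -/

namespace Vale.Agent.P154

def nA2l : LoBr := ⟨nA2l_z, nA2l_a1, nA2l_a0, nA2l_b1, nA2l_b0, [0, 0, -227600000, 532800000, 84000000, -7800000], 400, 81, 1, 50, 2, 1, 521, 250, 202500⟩

theorem nA2l_certP : nA2l.Cert vA2 false :=
  ⟨by decide +kernel, nA2l_z_pw, nA2l_a1_pw, nA2l_a0_pw, nA2l_b1_pw, nA2l_b0_pw,
    nA2l_z_w, nA2l_a1_w, nA2l_a0_w, nA2l_b1_w, nA2l_b0_w,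
    ⟨112, (.st 1 (.st 0 (.leaf) (.leaf)) (.leaf)), by decide +kernel⟩, ⟨96, .leaf, by decide +kernel⟩⟩

end Vale.Agent.P154
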