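import Vale.Agent.P154.VIA

/-! Generated certificates. -/

namespace Vale.Agent.P154

def nAh_1 : Cfg2 := ⟨⟨4000000000, 39420000000, -6312000000, 8600000000, 0, 0, 0, 160000, 39455826606, -6184296905, 8804136301, -800000000, 456320000, 0, 40000000000, -13096000000, 40000000000, -40000000000, 22340000000, -8000000, -19436000000, -40000000000, 23508000000, 40000000000, -22816000000⟩, 268435456, 4096, 264, 200⟩

def nAh_1_c0 : Cert2 :=
  .leaf ⟨[268435456,-536870912,815054092,-1188295142,2560360808,-5353739096,5890005242,-2404908861], [], [268435456,-805306368,1716589954,-3399375873,5454063226,-5175618459,2008404389], [], [], [], [⟨2252, 7784, [4096,5940], [4096,5940,6862], []⟩]⟩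

theorem nAh_1_h0 : nAh_1_c0.check nAh_1 (baseTri 1 1)
    (baseTri 900 2000) = true := by decide +kernel

def nAh_1_C : Cert2 :=
  nAh_1_c0

theorem nAh_1_check : nAh_1_C.check nAh_1 (baseTri 1 1) (baseTri 900 2000) = true :=
  nAh_1_h0

theorem nAh_1_pw : PWCert vA nAh_1 := ⟨by decide +kernel, nAh_1_C, nAh_1_check⟩
theorem nAh_1_w : WCert vA nAh_1 := ⟨128, .leaf, by decide +kernel⟩
theorem nAh_1_g : GCert nAh_1 := ⟨64, .leaf, by decide +kernel⟩

def nAh_0 : Cfg2 := ⟨⟨4000000000, 36596000000, -11692000000, 13996000000, 0, 0, 0, 160000, 36631346606, -11769656905, 14187576301, -198320000, 73040000, 0, 36840000000, -13660000000, 15124000000, 40000000000, 40000000000, -8000000, -19412000000, -29732000000, 24136000000, 9916000000, -3652000000⟩, 268435456, 4096, 280, 200⟩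

def nAh_0_c0 : Cert2 :=
  .sv 0 (.leaf ⟨[268435456,-536870912,811887570,-1097779939,1383245444,-1094144193,2489968077,-5402051169], [], [268435456,-805306368,1617221521,-2732912298,4588209080,-8195039039,9111595339], [], [], [], [⟨2252, 5940, [4096], [4096,5018], []⟩]⟩) (.leaf ⟨[268435456,-536870912,812084785,-1079436624,1370723367,-1985877876,2578445967,-1416200896], [], [268435456,-805306368,1661069311,-3184718028,5590666481,-6146824309,2726607789], [], [], [], [⟨2252, 7784, [4096,5940], [4096,5018,6862], []⟩]⟩)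

theorem nAh_0_h0 : nAh_0_c0.check nAh_0 (baseTri 1 1)
    (baseTri 900 2000) = true := by decide +kernel

def nAh_0_C : Cert2 :=
  nAh_0_c0

theorem nAh_0_check : nAh_0_C.check nAh_0 (baseTri 1 1) (baseTri 900 2000) = true :=
  nAh_0_h0

theorem nAh_0_pw : PWCert vA nAh_0 := ⟨by decide +kernel, nAh_0_C, nAh_0_check⟩
theorem nAh_0_w : WCert vA nAh_0 := ⟨128, .leaf, by decide +kernel⟩
theorem nAh_0_g : GCert nAh_0 := ⟨64, .leaf, by decide +kernel⟩

end Vale.Agent.P154
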