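import Vale.Agent.P154.VnAl_z

/-! Generated certificates. -/

namespace Vale.Agent.P154

def nAl : LoBr := ⟨nAl_z, nAl_a1, nAl_a0, nAl_b1, nAl_b0, [0, 0, -2744000000000, 4516000000000, -2998000000000, 2552000000000], 4000000, 499849, 1, 50, 101, 50, 547, 250, 1249622500⟩

theorem nAl_certP : nAl.Cert vA false :=
  ⟨by decide +kernel, nAl_z_pw, nAl_a1_pw, nAl_a0_pw, nAl_b1_pw, nAl_b0_pw,
    nAl_z_w, nAl_a1_w, nAl_a0_w, nAl_b1_w, nAl_b0_w,
    ⟨176, (.st 1 (.st 0 (.leaf) (.leaf)) (.leaf)), by decide +kernel⟩, ⟨160, .leaf, by decide +kernel⟩⟩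

end Vale.Agent.P154
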