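import Vale.Agent.P154.VnBl_z

/-! Generated certificates. -/

namespace Vale.Agent.P154

def nBl : LoBr := ⟨nBl_z, nBl_a1, nBl_a0, nBl_b1, nBl_b0, [0, 0, -9300000, 23806250, -11818750, 11218750], 25, 9, 1, 50, 2083, 1000, 25, 8, 11250⟩

theorem nBl_certP : nBl.Cert vB false :=
  ⟨by decide +kernel, nBl_z_pw, nBl_a1_pw, nBl_a0_pw, nBl_b1_pw, nBl_b0_pw,
    nBl_z_w, nBl_a1_w, nBl_a0_w, nBl_b1_w, nBl_b0_w,
    ⟨88, (.st 1 (.st 0 (.leaf) (.leaf)) (.leaf)), by decide +kernel⟩, ⟨72, .leaf, by decide +kernel⟩⟩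

end Vale.Agent.P154
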