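import Vale.Agent.P154.VnCl_z

/-! Generated certificates. -/

namespace Vale.Agent.P154

def nCl : LoBr := ⟨nCl_z, nCl_a1, nCl_a0, nCl_b1, nCl_b0, [0, 0, -1128125, 2736250, -2473750, 1721875], 25, 16, 1, 50, 25, 8, 1389, 250, 2000⟩

theorem nCl_certP : nCl.Cert vC false :=
  ⟨by decide +kernel, nCl_z_pw, nCl_a1_pw, nCl_a0_pw, nCl_b1_pw, nCl_b0_pw,
    nCl_z_w, nCl_a1_w, nCl_a0_w, nCl_b1_w, nCl_b0_w,
    ⟨80, .leaf, by decide +kernel⟩, ⟨80, .leaf, by decide +kernel⟩⟩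

end Vale.Agent.P154
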